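import Vale.Agent.P232.Basic

open MeasureTheory Set Filter Topology
open scoped ENNReal

noncomputable section
namespace Vale.Agent.P232

/-! Smooth compactly supported approximation in `L^1` keeping the Euclidean bound. -/

namespace ApproxAux

theorem nrm_zero : nrm 0 = 0 := by simp [nrm]

theorem nrm_sub_comm (x y : P3) : nrm (x - y) = nrm (y - x) := by
  have h := nrm_smul (-1) (y - x)
  simpa using h

theorem nrm_neg (x : P3) : nrm (-x) = nrm x := by
  have h := nrm_smul (-1) x
  simpa using h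

theorem nrm_tri (x y z : P3) : nrm (x - z) ≤ nrm (x - y) + nrm (y - z) := by
  have h := nrm_add_le (x - y) (y - z)
  simpa using h

theorem convex_nrm (a : P3) (r : ℝ) : Convex ℝ {y : P3 | nrm (y - a) ≤ r} := by
  intro x hx y hy s t hs ht hst
  simp only [mem_setOf_eq] at hx hy ⊢
  have e : s • x + t • y - a = s • (x - a) + t • (y - a) := by
    have : a = s • a + t • a := by rw [← add_smul, hst, one_smul]
    conv_lhs => rw [this]
    simp only [smul_sub]
    abel
  rw [e]
  refine (nrm_add_le _ _).trans ?_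
  rw [nrm_smul, nrm_smul, abs_of_nonneg hs, abs_of_nonneg ht]
  have h1 := mul_le_mul_of_nonneg_left hx hs
  have h2 := mul_le_mul_of_nonneg_left hy ht
  have : s * r + t * r = r := by rw [← add_mul, hst, one_mul]
  linarith

/-- radial truncation -/
def trunc (y : P3) : P3 := (max 1 (nrm y))⁻¹ • y

theorem continuous_trunc : Continuous trunc := by
  unfold trunc
  refine Continuous.smul (Continuous.inv₀ (continuous_const.max continuous_nrm) ?_) continuous_id
  intro x
  exact (lt_of_lt_of_le one_pos (le_max_left _ _)).ne'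

theorem nrm_trunc_le (y : P3) : nrm (trunc y) ≤ 1 := by
  unfold trunc
  have hpos : 0 < max 1 (nrm y) := lt_of_lt_of_le one_pos (le_max_left _ _)
  rw [nrm_smul, abs_of_pos (inv_pos.2 hpos), inv_mul_le_iff₀ hpos, mul_one]
  exact le_max_right _ _

theorem nrm_sub_trunc_le {n : P3} (hn : nrm n ≤ 1) (y : P3) :
    nrm (n - trunc y) ≤ 4 * ‖n - y‖ := by
  have h1 : nrm (y - trunc y) ≤ nrm (n - y) := by
    unfold trunc
    rcases le_total (nrm y) 1 with h | h
    · rw [max_eq_left h, inv_one, one_smul, sub_self, nrm_zero]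
      exact nrm_nonneg _
    · rw [max_eq_right h]
      have hpos : 0 < nrm y := lt_of_lt_of_le one_pos h
      have e : y - (nrm y)⁻¹ • y = (1 - (nrm y)⁻¹) • y := by rw [sub_smul, one_smul]
      have h0 : 0 ≤ 1 - (nrm y)⁻¹ := sub_nonneg.2 (inv_le_one_of_one_le₀ h)
      rw [e, nrm_smul, abs_of_nonneg h0, sub_mul, one_mul, inv_mul_cancel₀ hpos.ne']
      have h2 := nrm_add_le (y - n) n
      rw [sub_add_cancel, nrm_sub_comm y n] at h2
      linarith
  have h2 := nrm_tri n y (trunc y)
  have h3 := nrm_le_two_norm (n - y)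
  linarith

theorem exists_smooth_sel {X : Type*} [NormedAddCommGroup X] [NormedSpace ℝ X]
    [FiniteDimensional ℝ X] {f : X → P3} (hf : Continuous f) (hf1 : ∀ x, nrm (f x) ≤ 1)
    {K L : Set X} (hK : IsClosed K) (hKL : K ⊆ interior L) {η : ℝ} (hη : 0 < η) :
    ∃ Z : X → P3, ContDiff ℝ 2 Z ∧ (∀ x, nrm (Z x) ≤ 1) ∧ (∀ x ∈ K, nrm (Z x - f x) ≤ η) ∧
      ∀ x, x ∉ L → Z x = 0 := by
  let t : X → Set P3 := fun x =>
    {y | nrm (y - 0) ≤ 1} ∩ ({y | x ∈ K → nrm (y - f x) ≤ η} ∩ {y | x ∉ L → y = 0})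
  have hconv : ∀ x, Convex ℝ (t x) := by
    intro x
    refine (convex_nrm 0 1).inter (Convex.inter ?_ ?_)
    · by_cases hx : x ∈ K
      · simpa [hx] using convex_nrm (f x) η
      · simpa [hx] using (convex_univ : Convex ℝ (univ : Set P3))
    · by_cases hx : x ∈ L
      · simpa [hx] using (convex_univ : Convex ℝ (univ : Set P3))
      · simpa [hx] using (convex_singleton (0 : P3) : Convex ℝ ({0} : Set P3))
  have hloc : ∀ x : X, ∃ c : P3, ∀ᶠ y in 𝓝 x, c ∈ t y := by
    intro x
    by_cases hx : x ∈ interior L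
    · refine ⟨f x, ?_⟩
      have hc : Continuous fun y => nrm (f x - f y) := continuous_nrm.comp (continuous_const.sub hf)
      have h1 : ∀ᶠ y in 𝓝 x, nrm (f x - f y) < η := by
        refine hc.continuousAt.eventually_lt continuousAt_const ?_
        simpa [nrm_zero] using hη
      have h2 : ∀ᶠ y in 𝓝 x, y ∈ interior L := isOpen_interior.mem_nhds hx
      filter_upwards [h1, h2] with y hy1 hy2
      refine ⟨by simpa using hf1 x, fun _ => hy1.le, fun h => absurd (interior_subset hy2) h⟩
    · refine ⟨0, ?_⟩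
      have hxK : x ∉ K := fun h => hx (hKL h)
      have h2 : ∀ᶠ y in 𝓝 x, y ∈ Kᶜ := hK.isOpen_compl.mem_nhds hxK
      filter_upwards [h2] with y hy
      refine ⟨by simp [nrm_zero], fun h => absurd h hy, fun _ => rfl⟩
  obtain ⟨g, hg⟩ := exists_contMDiffMap_forall_mem_convex_of_local_const (n := (2 : ℕ∞))
    (modelWithCornersSelf ℝ X) hconv hloc
  refine ⟨g, g.contMDiff.contDiff, fun x => ?_, fun x hx => (hg x).2.1 hx, fun x hx => (hg x).2.2 hx⟩
  simpa using (hg x).1

end ApproxAux

open ApproxAux in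
theorem exists_smooth_approx {X : Type*} [NormedAddCommGroup X] [NormedSpace ℝ X]
    [FiniteDimensional ℝ X] [MeasurableSpace X] [BorelSpace X] (μ : Measure X) {U : Set X}
    (hU : IsOpen U) (hμ : μ U < ⊤) {N : X → P3} (hN : Measurable N) (hb : ∀ x, nrm (N x) ≤ 1)
    {δ : ℝ} (hδ : 0 < δ) :
    ∃ Z : X → P3, ContDiff ℝ 2 Z ∧ (∀ x, nrm (Z x) ≤ 1) ∧ HasCompactSupport Z ∧ tsupport Z ⊆ U ∧
      ∫ x in U, nrm (N x - Z x) ∂μ ≤ δ := by
  haveI : ProperSpace X := FiniteDimensional.proper_real X
  set ν : Measure X := μ.restrict U with hν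
  haveI : IsFiniteMeasure ν := isFiniteMeasure_restrict.2 hμ.ne
  have hNi : Integrable N ν :=
    Integrable.of_bound hN.aestronglyMeasurable 1
      (Eventually.of_forall fun x => (norm_le_nrm _).trans (hb x))
  obtain ⟨g, hg, hgi⟩ := hNi.exists_boundedContinuous_integral_sub_le
    (ε := δ / 12) (by positivity)
  obtain ⟨K, hKU, hK, hKν⟩ := hU.measurableSet.exists_isCompact_sdiff_lt (μ := ν)
    (measure_ne_top _ _) (ε := ENNReal.ofReal (δ / 6)) (by simpa using hδ)
  obtain ⟨L, hL, hKL, hLU⟩ := exists_compact_between hK hU hKU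
  set M : ℝ := ν.real univ with hM
  have hM0 : 0 ≤ M := measureReal_nonneg
  set η : ℝ := δ / (3 * (M + 1)) with hη
  have hη0 : 0 < η := by positivity
  have hηM : M * η ≤ δ / 3 := by
    rw [hη, mul_div_assoc', div_le_div_iff₀ (by positivity) (by positivity)]
    nlinarith
  obtain ⟨Z, hZ, hZ1, hZK, hZL⟩ := exists_smooth_sel (f := fun x => trunc (g x))
    (continuous_trunc.comp g.continuous) (fun x => nrm_trunc_le _) hK.isClosed hKL hη0
  have hsupp : tsupport Z ⊆ L := by
    refine closure_minimal (fun x hx => ?_) hL.isClosed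
    by_contra h
    exact hx (hZL x h)
  refine ⟨Z, hZ, hZ1, HasCompactSupport.intro hL hZL, hsupp.trans hLU, ?_⟩
  have hS : MeasurableSet (U \ K) := hU.measurableSet.diff hK.measurableSet
  have i1 : Integrable (fun x => 4 * ‖N x - g x‖) ν := (hNi.sub hgi).norm.const_mul 4
  have i2 : Integrable (fun _ : X => η) ν := integrable_const _
  have i3 : Integrable ((U \ K).indicator fun _ : X => (2 : ℝ)) ν :=
    (integrable_const _).indicator hS
  have hle : ∀ᵐ x ∂ν, nrm (N x - Z x) ≤
      4 * ‖N x - g x‖ + η + (U \ K).indicator (fun _ : X => (2 : ℝ)) x := by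
    filter_upwards [ae_restrict_mem hU.measurableSet] with x hx
    by_cases hxK : x ∈ K
    · have e : (U \ K).indicator (fun _ : X => (2 : ℝ)) x = 0 :=
        indicator_of_notMem (fun h => h.2 hxK) _
      have h1 := nrm_tri (N x) (trunc (g x)) (Z x)
      have h2 := nrm_sub_trunc_le (hb x) (g x)
      have h3 := hZK x hxK
      rw [nrm_sub_comm] at h3
      rw [e]
      linarith
    · have e : (U \ K).indicator (fun _ : X => (2 : ℝ)) x = 2 :=
        indicator_of_mem (show x ∈ U \ K from ⟨hx, hxK⟩) _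
      have h1 := nrm_add_le (N x) (-Z x)
      rw [← sub_eq_add_neg, nrm_neg] at h1
      have h2 := hb x
      have h3 := hZ1 x
      have h4 := norm_nonneg (N x - g x)
      rw [e]
      linarith
  have hint := integral_mono_of_nonneg (μ := ν) (f := fun x => nrm (N x - Z x))
    (Eventually.of_forall fun x => nrm_nonneg _) ((i1.add i2).add i3) hle
  refine hint.trans ?_
  have e1 : ∫ x, ((fun x => 4 * ‖N x - g x‖) + (fun _ : X => η) +
      (U \ K).indicator fun _ : X => (2 : ℝ)) x ∂ν
      = 4 * (∫ x, ‖N x - g x‖ ∂ν) + M * η + ν.real (U \ K) * 2 := by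
    rw [integral_add' (i1.add i2) i3, integral_add' i1 i2, integral_const_mul, integral_const,
      integral_indicator_const _ hS]
    simp only [smul_eq_mul, hM]
  rw [e1]
  have h5 : ν.real (U \ K) ≤ δ / 6 := by
    have := ENNReal.toReal_mono ENNReal.ofReal_ne_top hKν.le
    rwa [ENNReal.toReal_ofReal (by positivity)] at this
  linarith

end Vale.Agent.P232
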