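import Mathlib

/-! One dimensional transport to the octant ball. -/

open MeasureTheory Set Filter Topology

noncomputable section
namespace Vale.Agent.P232

/-- the inverse of `s ↦ (3 s - s ^ 3) / 2` -/
def ballGam (w : ℝ) : ℝ := 2 * Real.sin (Real.arcsin w / 3)

theorem ballGam_cont : Continuous ballGam := by
  unfold ballGam
  fun_prop

theorem ballGam_mono : Monotone ballGam := fun w w' h => by
  have h1 := Real.neg_pi_div_two_le_arcsin w
  have h2 := Real.arcsin_le_pi_div_two w'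
  have h3 := Real.monotone_arcsin h
  have h4 := Real.pi_pos
  exact mul_le_mul_of_nonneg_left
    (Real.sin_le_sin_of_le_of_le_pi_div_two (by linarith) (by linarith) (by linarith)) zero_le_two

theorem ballGam_zero : ballGam 0 = 0 := by simp [ballGam]

theorem ballGam_lt {w : ℝ} (h : w < 1) : ballGam w < 1 := by
  have h1 := Real.neg_pi_div_two_le_arcsin w
  have h2 := Real.arcsin_lt_pi_div_two.2 h
  have h4 := Real.pi_pos
  have h5 := Real.sin_lt_sin_of_lt_of_le_pi_div_two (x := Real.arcsin w / 3) (y := Real.pi / 6)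
    (by linarith) (by linarith) (by linarith)
  rw [Real.sin_pi_div_six] at h5
  unfold ballGam
  linarith

theorem ballGam_sq (w : ℝ) : ballGam w ^ 2 ≤ 1 := by
  have h1 := Real.neg_pi_div_two_le_arcsin w
  have h2 := Real.arcsin_le_pi_div_two w
  have h4 := Real.pi_pos
  have h5 := Real.sin_le_sin_of_le_of_le_pi_div_two (x := Real.arcsin w / 3) (y := Real.pi / 6)
    (by linarith) (by linarith) (by linarith)
  have h6 := Real.sin_le_sin_of_le_of_le_pi_div_two (y := Real.arcsin w / 3)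
    (x := -(Real.pi / 6)) (by linarith) (by linarith) (by linarith)
  rw [Real.sin_neg, Real.sin_pi_div_six] at h6
  rw [Real.sin_pi_div_six] at h5
  unfold ballGam
  nlinarith

theorem ballGam_deriv {w : ℝ} (h0 : 0 ≤ w) (h : w < 1) :
    HasDerivAt ballGam (2 / (3 * (1 - ballGam w ^ 2))) w := by
  have h1 := (((Real.hasDerivAt_arcsin (x := w) (by linarith) h.ne).div_const 3).sin).const_mul 2
  have h2 := Real.neg_pi_div_two_le_arcsin w
  have h3 := Real.arcsin_le_pi_div_two w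
  have h4 := Real.pi_pos
  have h5 : 0 < Real.cos (Real.arcsin w / 3) := Real.cos_pos_of_mem_Ioo ⟨by linarith, by linarith⟩
  have h6 : √(1 - w ^ 2) = Real.cos (Real.arcsin w / 3) * (1 - ballGam w ^ 2) := by
    have h7 := Real.cos_three_mul (Real.arcsin w / 3)
    rw [mul_div_cancel₀ _ three_ne_zero, Real.cos_arcsin] at h7
    rw [h7, ballGam, mul_pow, Real.sin_sq]
    ring
  have h8 : 0 < 1 - ballGam w ^ 2 := by
    have h9 := ballGam_lt h
    have h10 := ballGam_mono h0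
    rw [ballGam_zero] at h10
    nlinarith
  refine h1.congr_deriv ?_
  rw [h6]
  field_simp

/-- the arithmetic-geometric mean step -/
theorem ball_amgm {a s R : ℝ} (ha : 0 ≤ a) (hs : s ^ 2 < 1) (hR : 0 < R) :
    0 ≤ √(1 - s ^ 2) * √(Real.pi * a) +
      2 / (3 * (1 - s ^ 2)) * (a / (Real.pi * R ^ 3 / 6)) * a - 3 / R * a ∧
    (0 < a → √(1 - s ^ 2) * √(Real.pi * a) +
      2 / (3 * (1 - s ^ 2)) * (a / (Real.pi * R ^ 3 / 6)) * a - 3 / R * a = 0 →
      2 / (3 * (1 - s ^ 2)) * (a / (Real.pi * R ^ 3 / 6)) = 1 / R) := by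
  have hp := Real.pi_pos
  obtain ⟨c, hc, hc2⟩ : ∃ c, 0 < c ∧ 1 - s ^ 2 = c ^ 2 :=
    ⟨√(1 - s ^ 2), Real.sqrt_pos.2 (by linarith), (Real.sq_sqrt (by linarith)).symm⟩
  obtain ⟨u, hu, hu2⟩ : ∃ u, 0 ≤ u ∧ Real.pi * a = (Real.pi * R * c * u / 2) ^ 2 := by
    refine ⟨2 * √(Real.pi * a) / (Real.pi * R * c), by positivity, ?_⟩
    have h1 := Real.sq_sqrt (mul_nonneg hp.le ha)
    rw [← h1]
    field_simp
    rw [Real.sqrt_sq (Real.sqrt_nonneg _)]
  have h1 : a = Real.pi * R ^ 2 * c ^ 2 * u ^ 2 / 4 := by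
    refine mul_left_cancel₀ hp.ne' ?_
    rw [hu2]
    ring
  have h2 : 2 / (3 * c ^ 2) * (a / (Real.pi * R ^ 3 / 6)) = u ^ 2 / R := by
    rw [h1]
    field_simp
    ring
  rw [hc2, hu2, Real.sqrt_sq hc.le, Real.sqrt_sq (by positivity), h2]
  have h3 : c * (Real.pi * R * c * u / 2) + u ^ 2 / R * a - 3 / R * a =
      Real.pi * R * c ^ 2 / 4 * (u * (u + 2)) * (u - 1) ^ 2 := by
    rw [h1]
    field_simp
    ring
  rw [h3]
  refine ⟨by positivity, fun h4 h5 => ?_⟩
  have h6 : 0 < u := hu.lt_of_ne fun h => by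
    rw [h1, ← h] at h4
    simp at h4
  have h7 : (u - 1) ^ 2 = 0 := (mul_eq_zero.1 h5).resolve_left (by positivity)
  rw [sub_eq_zero.1 (pow_eq_zero_iff two_ne_zero |>.1 h7), one_pow]

/-- Cauchy-Schwarz in the plane with its equality case -/
theorem ball_cs {s r z : ℝ} (hs : s ^ 2 ≤ 1) :
    0 ≤ √(r ^ 2 + z ^ 2) - √(1 - s ^ 2) * r - s * z ∧
      (√(r ^ 2 + z ^ 2) - √(1 - s ^ 2) * r - s * z = 0 → z = s * √(r ^ 2 + z ^ 2)) := by
  have h1 := Real.sq_sqrt (sub_nonneg.2 hs)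
  have h2 := Real.sq_sqrt (add_nonneg (sq_nonneg r) (sq_nonneg z))
  generalize √(1 - s ^ 2) = c at h1 ⊢
  constructor
  · have h3 : c * r + s * z ≤ √(r ^ 2 + z ^ 2) :=
      Real.le_sqrt_of_sq_le (by nlinarith [sq_nonneg (c * z - s * r)])
    linarith
  · intro h3
    have h4 : √(r ^ 2 + z ^ 2) = c * r + s * z := by linarith
    rw [h4] at h2 ⊢
    have h5 : (c * z - s * r) ^ 2 = 0 := by linear_combination (r ^ 2 + z ^ 2) * h1 - h2
    have h6 := pow_eq_zero_iff two_ne_zero |>.1 h5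
    linear_combination c * h6 - z * h1

section OneD
variable {a : ℝ → ℝ} {v : ℝ}

/-- the transport map -/
def ballSig (a : ℝ → ℝ) (v t : ℝ) : ℝ := ballGam ((∫ u in (0 : ℝ)..t, a u) / v)

/-- its derivative -/
def ballPsi (a : ℝ → ℝ) (v t : ℝ) : ℝ := 2 / (3 * (1 - ballSig a v t ^ 2)) * (a t / v)

theorem ballV_cont (ha : Antitone a) : Continuous fun t => ∫ u in (0 : ℝ)..t, a u :=
  intervalIntegral.continuous_primitive (fun _ _ => ha.intervalIntegrable) 0

theorem ballV_mono (ha : Antitone a) (h0 : ∀ t, 0 ≤ a t) :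
    Monotone fun t => ∫ u in (0 : ℝ)..t, a u := fun s t hst => by
  have h1 := intervalIntegral.integral_interval_sub_left (μ := volume) (a := 0) (b := t) (c := s)
    ha.intervalIntegrable ha.intervalIntegrable
  have h2 := intervalIntegral.integral_nonneg (μ := volume) hst fun u _ => h0 u
  linarith

theorem ballV_pos (ha : Antitone a) {t : ℝ} (ht : t ≤ 1)
    (h : ∫ u in (0 : ℝ)..t, a u < ∫ u in (0 : ℝ)..1, a u) : 0 < a t := by
  by_contra h3
  have h1 := intervalIntegral.integral_interval_sub_left (μ := volume) (a := 0) (b := 1) (c := t)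
    ha.intervalIntegrable ha.intervalIntegrable
  have h2 := intervalIntegral.integral_mono_on (μ := volume) ht ha.intervalIntegrable
    (intervalIntegrable_const (c := (0 : ℝ))) fun u hu => (ha hu.1).trans (not_lt.1 h3)
  rw [intervalIntegral.integral_zero] at h2
  linarith

theorem ballV_lt (ha : Antitone a) (h0 : ∀ t, 0 ≤ a t) {t y : ℝ} (ht : t < y) (hy : y ≤ 1)
    (h : 0 < a y) : ∫ u in (0 : ℝ)..t, a u < ∫ u in (0 : ℝ)..1, a u := by
  have h1 := intervalIntegral.integral_interval_sub_left (μ := volume) (a := 0) (b := y) (c := t)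
    ha.intervalIntegrable ha.intervalIntegrable
  have h2 := intervalIntegral.intervalIntegral_pos_of_pos_on ha.intervalIntegrable
    (fun u hu => h.trans_le (ha hu.2.le)) ht
  have h3 := ballV_mono ha h0 hy
  linarith

theorem ballSig_cont (ha : Antitone a) : Continuous (ballSig a v) :=
  ballGam_cont.comp ((ballV_cont ha).div_const v)

theorem ballSig_mono (ha : Antitone a) (h0 : ∀ t, 0 ≤ a t) (hv : 0 < v) :
    Monotone (ballSig a v) := fun _ _ h =>
  ballGam_mono (div_le_div_of_nonneg_right (ballV_mono ha h0 h) hv.le)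

theorem ballSig_zero : ballSig a v 0 = 0 := by simp [ballSig, ballGam_zero]

theorem ballSig_sq (t : ℝ) : ballSig a v t ^ 2 ≤ 1 := ballGam_sq _

theorem ballSig_lt (ha : Antitone a) (h0 : ∀ t, 0 ≤ a t) (hv : 0 < v) {s : ℝ} (hs : 0 ≤ s)
    (h : ∫ u in (0 : ℝ)..s, a u < v) : ballSig a v s ^ 2 < 1 := by
  have h1 : ballSig a v s < 1 := ballGam_lt ((div_lt_one hv).2 h)
  have h2 := ballSig_mono ha h0 hv hs
  rw [ballSig_zero] at h2
  nlinarith

theorem ballPsi_meas (ha : Antitone a) : Measurable (ballPsi a v) := by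
  have h1 := (ballSig_cont (v := v) ha).measurable
  have h2 := ha.measurable
  unfold ballPsi
  fun_prop

theorem ballPsi_bdd (ha : Antitone a) (h0 : ∀ t, 0 ≤ a t) (h1 : ∀ t, a t ≤ 1) (hv : 0 < v) {s : ℝ}
    (hs : 0 ≤ s) (h : ∫ u in (0 : ℝ)..s, a u < v) :
    ∃ M, 0 ≤ M ∧ ∀ t ∈ Ioc 0 s, |ballPsi a v t| ≤ M := by
  have h2 := sub_pos.2 (ballSig_lt ha h0 hv hs h)
  refine ⟨2 / (3 * (1 - ballSig a v s ^ 2)) * (1 / v), by positivity, fun t ht => ?_⟩
  have h3 := ballSig_mono ha h0 hv ht.1.le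
  rw [ballSig_zero] at h3
  have h4 := pow_le_pow_left₀ h3 (ballSig_mono ha h0 hv ht.2) 2
  have h5 : 0 < 1 - ballSig a v t ^ 2 := by linarith
  have h6 := h0 t
  have h7 := h1 t
  rw [ballPsi, abs_of_nonneg (by positivity)]
  gcongr

theorem ball_intble {f : ℝ → ℝ} (hf : Measurable f) {s M : ℝ} (hs : 0 ≤ s)
    (h : ∀ t ∈ Ioc 0 s, |f t| ≤ M) : IntervalIntegrable f volume 0 s :=
  (intervalIntegrable_iff_integrableOn_Ioc_of_le hs).2 (Measure.integrableOn_of_bounded
    measure_Ioc_lt_top.ne hf.aestronglyMeasurable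
      ((ae_restrict_mem measurableSet_Ioc).mono h))

theorem ballPsi_ftc (ha : Antitone a) (h0 : ∀ t, 0 ≤ a t) (h1 : ∀ t, a t ≤ 1) (hv : 0 < v) {s : ℝ}
    (hs : 0 ≤ s) (h : ∫ u in (0 : ℝ)..s, a u < v) :
    ∫ t in (0 : ℝ)..s, ballPsi a v t = ballSig a v s := by
  obtain ⟨M, -, hM⟩ := ballPsi_bdd ha h0 h1 hv hs h
  rw [integral_eq_of_hasDerivAt_off_countable_of_le (ballSig a v) (ballPsi a v) hs
    ha.countable_not_continuousAt (ballSig_cont ha).continuousOn ?_
    (ball_intble (ballPsi_meas ha) hs hM), ballSig_zero, sub_zero]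
  intro t ht
  have h2 := (intervalIntegral.integral_hasDerivAt_right (a := 0) ha.intervalIntegrable
    ha.measurable.stronglyMeasurable.stronglyMeasurableAtFilter (not_not.1 ht.2)).div_const v
  have h3 := ballV_mono ha h0 ht.1.1.le
  have h4 := ballV_mono ha h0 ht.1.2.le
  simp only [intervalIntegral.integral_same] at h3 h4
  exact (ballGam_deriv (div_nonneg h3 hv.le) ((div_lt_one hv).2 (h4.trans_lt h))).comp t h2

end OneD

end Vale.Agent.P232
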