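import Vale.Agent.P232.Refl_1

open MeasureTheory Set Filter Topology
open scoped ENNReal

noncomputable section
namespace Vale.Agent.P232

/-! Task: reflection from the cube to the torus multiplies volume and perimeter by 8.
`perLe_refl`: for periodic `Z` put `Y x = ∑ σ, σ Z (σ x)` over the 8 sign changes; `nrm Y ≤ 8`,
`Y_i = 0` on the faces `x_i = 0, 1`; cut off with `χ_δ(x1) χ_δ(x2) χ_δ(x3)` (the error is bounded and
lives on a layer of width `δ`).  `relLe_of_refl`: the same sum for `Z` supported in `Q`, then periodise. -/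

/-- the sign of a Boolean -/
def rsg (b : Bool) : ℝ := if b then 1 else -1
/-- sign vectors -/
def rsv (s : Bool × Bool × Bool) : P3 := (rsg s.1, rsg s.2.1, rsg s.2.2)
/-- the symmetrised field -/
def rsym (Z : P3 → P3) (x : P3) : P3 := ∑ s, rsv s * Z (rsv s * x)

theorem rsg_sq (b : Bool) (t : ℝ) : rsg b * (rsg b * t) = t := by cases b <;> simp [rsg]

theorem rsv_sq (s : Bool × Bool × Bool) (x : P3) : rsv s * (rsv s * x) = x :=
  Prod.ext (rsg_sq _ _) (Prod.ext (rsg_sq _ _) (rsg_sq _ _))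

theorem rsg_abs (b : Bool) (t : ℝ) : |rsg b * t| = |t| := by cases b <;> simp [rsg]

theorem rsg_d2 (b : Bool) (t : ℝ) : d2 (rsg b * t) = d2 t := by cases b <;> simp [rsg, d2_neg]

theorem rsg_uniq {a b : Bool} {t : ℝ} (ha : 0 < rsg a * t) (hb : 0 < rsg b * t) : a = b := by
  cases a <;> cases b <;> simp [rsg] at ha hb ⊢ <;> linarith

theorem rsv_uniq {s t : Bool × Bool × Bool} {x : P3} (hs : rsv s * x ∈ Q) (ht : rsv t * x ∈ Q) :
    s = t :=
  Prod.ext (rsg_uniq hs.1.1 ht.1.1) (Prod.ext (rsg_uniq hs.2.1.1 ht.2.1.1)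
    (rsg_uniq hs.2.2.1 ht.2.2.1))

theorem rsg_ex {t : ℝ} (h : t ∈ Ioo (-1 : ℝ) 1) (h0 : t ≠ 0) : ∃ b, rsg b * t ∈ Ioo (0 : ℝ) 1 := by
  rcases h0.lt_or_gt with h1 | h1
  · exact ⟨false, by simp only [rsg]; constructor <;> simp <;> linarith [h.1]⟩
  · exact ⟨true, by simp only [rsg]; constructor <;> simp <;> linarith [h.2]⟩

theorem rsg_mem {b : Bool} {t : ℝ} (h : rsg b * t ∈ Ioo (0 : ℝ) 1) : t ∈ Ioo (-1 : ℝ) 1 :=
  abs_lt.1 (by rw [← rsg_abs b, abs_of_pos h.1]; exact h.2)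

theorem rsv_box {s : Bool × Bool × Bool} {x : P3} (h : rsv s * x ∈ Q) : x ∈ box :=
  ⟨rsg_mem h.1, rsg_mem h.2.1, rsg_mem h.2.2⟩

theorem rsv_ex : ∀ᵐ x : P3, x ∈ box → ∃ s, rsv s * x ∈ Q := by
  have h0 : ∀ᵐ t : ℝ, t ≠ 0 := by simp [ae_iff]
  have h1 : ∀ᵐ x : P3, x.1 ≠ 0 := Measure.quasiMeasurePreserving_fst.ae h0
  filter_upwards [h1, measurePreserving_cyc.quasiMeasurePreserving.ae h1,
    measurePreserving_cycInv.quasiMeasurePreserving.ae h1] with x x1 x2 x3 hx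
  obtain ⟨a, ha⟩ := rsg_ex hx.1 x1
  obtain ⟨b, hb⟩ := rsg_ex hx.2.1 x2
  obtain ⟨c, hc⟩ := rsg_ex hx.2.2 x3
  exact ⟨(a, b, c), ha, hb, hc⟩

theorem rsg_mp (b : Bool) : MeasurePreserving (fun t : ℝ => rsg b * t) volume volume := by
  cases b
  · simpa [rsg] using Measure.measurePreserving_neg (volume : Measure ℝ)
  · simp only [rsg, if_true, one_mul]
    exact MeasurePreserving.id (volume : Measure ℝ)

theorem rsv_mp (s : Bool × Bool × Bool) :
    MeasurePreserving (fun x : P3 => rsv s * x) volume volume :=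
  (rsg_mp s.1).prod ((rsg_mp s.2.1).prod (rsg_mp s.2.2))

theorem rsv_emb (s : Bool × Bool × Bool) : MeasurableEmbedding fun x : P3 => rsv s * x :=
  (⟨⟨_, fun x => rsv s * x, rsv_sq s, rsv_sq s⟩, measurable_const_mul _,
    measurable_const_mul _⟩ : P3 ≃ᵐ P3).measurableEmbedding

theorem rsv_nrm (s : Bool × Bool × Bool) (x : P3) : nrm (rsv s * x) = nrm x := by
  have h : ∀ b t, (rsg b * t) ^ 2 = t ^ 2 := fun b t => by rw [← sq_abs, rsg_abs, sq_abs]
  simp only [nrm, rsv, Prod.fst_mul, Prod.snd_mul, h]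

theorem refl_mem {F : Set P3} {s : Bool × Bool × Bool} {x : P3} (h : rsv s * x ∈ Q) :
    x ∈ refl F ↔ rsv s * x ∈ F := by
  have e : ∀ b t, rsg b * t ∈ Ioo (0 : ℝ) 1 → d2 t = rsg b * t := fun b t h => by
    rw [← rsg_d2 b, d2_of_abs_le (by rw [abs_of_pos h.1]; exact h.2.le), abs_of_pos h.1]
  show (d2 x.1, d2 x.2.1, d2 x.2.2) ∈ F ↔ _
  rw [e _ _ h.1, e _ _ h.2.1, e _ _ h.2.2]
  rfl

theorem perSet_refl {F : Set P3} (hF : MeasurableSet F) : PerSet (refl F) := by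
  have := continuous_d2
  refine ⟨hF.preimage (f := fun x : P3 => ((d2 x.1, d2 x.2.1, d2 x.2.2) : P3))
    (Continuous.measurable (by fun_prop)), fun x => ?_, fun x => ?_, fun x => ?_⟩ <;>
  simp [refl, d2_add_two]

theorem refl_fold {F : Set P3} (hF : MeasurableSet F) {g : P3 → ℝ} (hg : Continuous g) :
    ∫ x in refl F ∩ box, g x = ∫ x in F ∩ Q, ∑ s, g (rsv s * x) := by
  have hm := hF.inter measurableSet_Q
  have hi : ∀ {f : P3 → ℝ}, Continuous f → ∀ A : Set P3, IntegrableOn f (A ∩ box) := fun hf A =>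
    (hf.continuousOn.integrableOn_compact (isCompact_Icc (a := (-1 : P3)) (b := 1))).mono_set
      fun x hx => ⟨⟨hx.2.1.1.le, hx.2.2.1.1.le, hx.2.2.2.1.le⟩,
        hx.2.1.2.le, hx.2.2.1.2.le, hx.2.2.2.2.le⟩
  have hb : ∀ s, (fun x => rsv s * x) ⁻¹' (F ∩ Q) ⊆ univ ∩ box := fun s x hx =>
    ⟨trivial, rsv_box hx.2⟩
  rw [integral_finsetSum _ fun s _ => (hi (by fun_prop) univ).mono_set fun x hx =>
    ⟨trivial, rsv_box (s := (true, true, true)) (by simpa [rsv, rsg, Prod.mk_one_one] using hx.2)⟩]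
  have e : ∀ s, ∫ x in F ∩ Q, g (rsv s * x) = ∫ x in (fun x => rsv s * x) ⁻¹' (F ∩ Q), g x := by
    intro s
    rw [← (rsv_mp s).setIntegral_preimage_emb (rsv_emb s)]
    simp only [rsv_sq]
  simp only [e]
  rw [← integral_iUnion_fintype (fun s => hm.preimage (rsv_emb s).measurable)
    (fun s t hst => disjoint_left.2 fun x hs ht => hst (rsv_uniq hs.2 ht.2))
    fun s => (hi hg univ).mono_set (hb s)]
  refine setIntegral_congr_set ?_
  filter_upwards [rsv_ex] with x hx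
  refine propext ⟨fun h => ?_, fun h => ?_⟩
  · obtain ⟨s, hs⟩ := hx h.2
    exact mem_iUnion.2 ⟨s, (refl_mem hs).1 h.1, hs⟩
  · obtain ⟨s, hs⟩ := mem_iUnion.1 h
    exact ⟨(refl_mem hs.2).2 hs.1, rsv_box hs.2⟩

theorem volB_refl {F : Set P3} (hF : MeasurableSet F) : volB (refl F) = 8 * volQ F := by
  have h := refl_fold hF (g := fun _ => 1) continuous_const
  simp only [setIntegral_const, Finset.sum_const, Finset.card_univ, Fintype.card_prod,
    Fintype.card_bool, smul_eq_mul, nsmul_eq_mul] at h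
  unfold volB volQ
  simp only [Measure.real] at h
  push_cast at h
  linarith

theorem rsym_cd {Z : P3 → P3} (hZ : ContDiff ℝ 1 Z) : ContDiff ℝ 1 (rsym Z) :=
  ContDiff.sum fun _ _ => contDiff_const.mul (hZ.comp (contDiff_const.mul contDiff_id))

theorem rsym_dv {Z : P3 → P3} (hZ : ContDiff ℝ 1 Z) (x : P3) :
    dv (rsym Z) x = ∑ s, dv Z (rsv s * x) := by
  have h := HasFDerivAt.fun_sum (u := Finset.univ) fun s _ =>
    (ContinuousLinearMap.mul ℝ P3 (rsv s)).hasFDerivAt.comp x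
      ((hZ.differentiable one_ne_zero _).hasFDerivAt.comp x
        (ContinuousLinearMap.mul ℝ P3 (rsv s)).hasFDerivAt)
  have e : ∀ s, rsv s * e1 = rsg s.1 • e1 ∧ rsv s * e2 = rsg s.2.1 • e2 ∧
      rsv s * e3 = rsg s.2.2 • e3 := fun s => by simp [rsv, e1, e2, e3]
  refine (congrArg trc h.fderiv).trans ?_
  simp only [trc, dv, sum_apply, Prod.fst_sum, Prod.snd_sum,
    ← Finset.sum_add_distrib]
  refine Finset.sum_congr rfl fun s _ => ?_
  simp only [ContinuousLinearMap.comp_apply, ContinuousLinearMap.mul_apply', e, map_smul]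
  simp only [rsv, Prod.fst_mul, Prod.snd_mul, Prod.smul_fst, Prod.smul_snd, smul_eq_mul, rsg_sq]

theorem RelLe.perLe_refl {F : Set P3} {c : ℝ} (hF : MeasurableSet F) (h : RelLe F c) :
    PerLe (refl F) (8 * c) := by
  intro Z hZ hn hp
  have p1 : ∀ y z, Z (-1, y, z) = Z (1, y, z) := fun y z => by
    rw [← hp.1]; norm_num
  have p2 : ∀ y z, Z (y, -1, z) = Z (y, 1, z) := fun y z => by
    rw [← hp.2.1]; norm_num
  have p3 : ∀ y z, Z (y, z, -1) = Z (y, z, 1) := fun y z => by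
    rw [← hp.2.2]; norm_num
  have hb : ∀ x, nrm (rsym Z x) ≤ 8 := fun x => by
    refine (Finset.le_sum_of_subadditive nrm (by simp [nrm]) nrm_add_le _ _).trans ?_
    refine (Finset.sum_le_card_nsmul _ _ 1 fun s _ => ?_).trans (by simp)
    rw [rsv_nrm]
    exact hn _
  have hd : ∀ x, dv (fun x => (8⁻¹ : ℝ) • rsym Z x) x = 8⁻¹ * dv (rsym Z) x := fun x => by
    rw [refl_dv_smul (differentiableAt_const _) ((rsym_cd hZ).differentiable one_ne_zero x)]
    simp
  have := refl_face hF h (Y := fun x => (8⁻¹ : ℝ) • rsym Z x) ((rsym_cd hZ).const_smul _)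
    (fun x => by rw [nrm_smul, abs_of_pos (by norm_num)]; linarith [hb x])
    (fun y z => by constructor <;> simp [rsym, rsv, rsg, Fintype.sum_prod_type, p1] <;> ring)
    (fun y z => by constructor <;> simp [rsym, rsv, rsg, Fintype.sum_prod_type, p2] <;> ring)
    (fun y z => by constructor <;> simp [rsym, rsv, rsg, Fintype.sum_prod_type, p3] <;> ring)
  simp only [hd, integral_const_mul, rsym_dv hZ] at this
  rw [refl_fold hF (continuous_dv hZ)]
  linarith

theorem PerLe.relLe_of_refl {F : Set P3} {c : ℝ} (hF : MeasurableSet F) (h : PerLe (refl F) c) :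
    RelLe F (c / 8) := by
  intro Z hZ hn _ hs
  have h0 : ∀ x, x ∉ Q → Z x = 0 := fun x hx => image_eq_zero_of_notMem_tsupport (mt (@hs x) hx)
  have h1 : ∀ x, x ∉ Q → dv Z x = 0 := fun x hx => by
    rw [dv, fderiv_of_notMem_tsupport ℝ (mt (@hs x) hx)]
    simp [trc]
  have hts : tsupport (rsym Z) ⊆ box := by
    refine (closure_minimal (t := ⋃ s, (fun x => rsv s * x) ⁻¹' tsupport Z) (fun x hx => ?_)
      (isClosed_iUnion_of_finite fun s => (isClosed_tsupport Z).preimage (by fun_prop))).trans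
      (iUnion_subset fun s x hx => rsv_box (hs hx))
    obtain ⟨s, -, h2⟩ := Finset.exists_ne_zero_of_sum_ne_zero hx
    exact mem_iUnion.2 ⟨s, subset_tsupport _ (right_ne_zero_of_mul h2)⟩
  obtain ⟨Y, hY, hp, he, hr⟩ := exists_periodic_ext (rsym_cd hZ) hts
  have hb : ∀ x, nrm (Y x) ≤ 1 := fun x => by
    obtain ⟨y, hy⟩ := hr x
    rw [hy, rsym]
    by_cases h2 : ∃ t, rsv t * y ∈ Q
    · obtain ⟨t, ht⟩ := h2
      rw [Finset.sum_eq_single t (fun s _ hst => by rw [h0 _ fun h3 => hst (rsv_uniq h3 ht), mul_zero])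
        (by simp), rsv_nrm]
      exact hn _
    · rw [Finset.sum_eq_zero fun s _ => by rw [h0 _ fun h3 => h2 ⟨s, h3⟩, mul_zero]]
      simp [nrm]
  have h2 := h Y hY hb hp
  have ho : IsOpen box := isOpen_Ioo.prod (isOpen_Ioo.prod isOpen_Ioo)
  rw [setIntegral_congr_fun ((perSet_refl hF).1.inter measurableSet_box) (f := dv Y) (g := dv (rsym Z))
    (fun x hx => congrArg trc (EventuallyEq.fderiv_eq ((ho.eventually_mem hx.2).mono he))),
    refl_fold hF (continuous_dv (rsym_cd hZ)),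
    setIntegral_congr_fun (hF.inter measurableSet_Q) (g := fun x => 8 * dv Z x), integral_const_mul] at h2
  · linarith
  intro x hx
  have h3 : ∀ t, dv (rsym Z) (rsv t * x) = dv Z x := fun t => by
    rw [rsym_dv hZ, Finset.sum_eq_single t (fun s _ hst => h1 _ fun h3 =>
      hst (rsv_uniq h3 ((rsv_sq t x).symm ▸ hx.2))) (by simp), rsv_sq]
  simp [h3]

theorem refl_eq_self {G : Set P3} (h3 : Mono3 G) (h1 : Mono3 (rot G)) (h2 : Mono3 (rot (rot G))) :
    refl G = G ∧ LowQ G := by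
  have h : ∀ x y : P3, d2 x.1 ≤ d2 y.1 → d2 x.2.1 ≤ d2 y.2.1 → d2 x.2.2 ≤ d2 y.2.2 → y ∈ G →
      x ∈ G := fun x y a b c hy =>
    h1 x.2.1 x.2.2 y.1 x.1 a (h2 x.2.2 y.1 y.2.1 x.2.1 b (h3 y.1 y.2.1 y.2.2 x.2.2 c hy))
  have e : ∀ t ∈ Ioo (0 : ℝ) 1, d2 t = t := fun t ht => by
    rw [d2_of_abs_le (by rw [abs_of_pos ht.1]; exact ht.2.le), abs_of_pos ht.1]
  refine ⟨Set.ext fun x => ⟨h _ _ (d2_d2 _).ge (d2_d2 _).ge (d2_d2 _).ge,
    h _ _ (d2_d2 _).le (d2_d2 _).le (d2_d2 _).le⟩, fun x hx y hy hxy => h _ _ ?_ ?_ ?_⟩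
  · rw [e _ hx.1, e _ hy.1]
    exact hxy.1
  · rw [e _ hx.2.1, e _ hy.2.1]
    exact hxy.2.1
  · rw [e _ hx.2.2, e _ hy.2.2]
    exact hxy.2.2

theorem refl_congr {F F' : Set P3} (hae : ∀ᵐ x ∂(volume.restrict Q), (x ∈ F ↔ x ∈ F')) :
    ∀ᵐ x : P3, (x ∈ refl F ↔ x ∈ refl F') := by
  rw [ae_restrict_iff' measurableSet_Q] at hae
  refine ae_of_ae_box ⟨fun x => ?_, fun x => ?_, fun x => ?_⟩
    ((ae_restrict_iff' measurableSet_box).2 ?_)
  iterate 3 simp [refl, d2_add_two]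
  filter_upwards [rsv_ex, ae_all_iff.2 fun s => (rsv_mp s).quasiMeasurePreserving.ae hae]
    with x h1 h2 hx
  obtain ⟨s, hs⟩ := h1 hx
  rw [refl_mem hs, refl_mem hs]
  exact h2 s hs

theorem refl_std (k : P3) (R : ℝ) : refl (std k 0 R) = std k 0 R := by
  ext x
  simp [refl, std, d2_d2]

end Vale.Agent.P232
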