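import Vale.Agent.P232.Planar

open MeasureTheory Set Filter Topology
open scoped ENNReal

noncomputable section
namespace Vale.Agent.P232

/-! Task B4: planar relative isoperimetric inequalities by the calibration of E. Schmidt.
Corner: let `p = sup {x | (x,0) ∈ D} ∈ (0,1]`, `ζ₁ = x / p`, `ζ₂ = √(1 - x^2/p^2)` (cut off for `x > p`);
`le_len` gives `ar D / p + π p / 4 ≤ len D`.  Equality: use the calibration and its mirror image;
both are sharp, so `p = q` and `rr / ww = (x/p, √..) = (√.., y/p)` a.e., i.e. `x^2 + y^2 = p^2` on the arc. -/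

variable {D : Set P2}

/-- clamp to the unit interval -/
def piC (s : ℝ) : ℝ := max 0 (min 1 s)
theorem piC_nonneg (s : ℝ) : 0 ≤ piC s := le_max_left _ _
theorem piC_le_one (s : ℝ) : piC s ≤ 1 := max_le zero_le_one (min_le_left _ _)
theorem piC_eq {s : ℝ} (h0 : 0 ≤ s) (h1 : s ≤ 1) : piC s = s := by
  unfold piC
  rw [min_eq_right h1, max_eq_right h0]
theorem continuous_piC : Continuous piC := continuous_const.max (continuous_const.min continuous_id)
/-- the conjugate component -/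
def piS (s : ℝ) : ℝ := √(1 - piC s ^ 2)
theorem continuous_piS : Continuous piS := (continuous_const.sub (continuous_piC.pow 2)).sqrt
theorem piS_nonneg (s : ℝ) : 0 ≤ piS s := Real.sqrt_nonneg _
theorem piC_sq (s : ℝ) : piC s ^ 2 + piS s ^ 2 = 1 := by
  unfold piS
  rw [Real.sq_sqrt (by nlinarith [piC_nonneg s, piC_le_one s])]
  ring
theorem piS_le_one (s : ℝ) : piS s ≤ 1 := by
  nlinarith [piC_sq s, piS_nonneg s, sq_nonneg (piC s)]

theorem pi_int01 : ∫ x in (0 : ℝ)..1, √(1 - x ^ 2) = Real.pi / 4 := by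
  have hc : Continuous fun x : ℝ => √(1 - x ^ 2) := by fun_prop
  have h1 := intervalIntegral.integral_add_adjacent_intervals
    (hc.intervalIntegrable (μ := volume) (-1) 0) (hc.intervalIntegrable 0 1)
  have h2 := intervalIntegral.integral_comp_neg (a := 0) (b := 1) (fun x : ℝ => √(1 - x ^ 2))
  simp only [neg_sq, neg_zero] at h2
  rw [integral_sqrt_one_sub_sq, ← h2] at h1
  linarith

theorem pi_intR {R : ℝ} (hR : 0 < R) : ∫ x in (0 : ℝ)..R, piS (x / R) = Real.pi * R / 4 := by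
  rw [intervalIntegral.integral_comp_div _ hR.ne', zero_div, div_self hR.ne',
    intervalIntegral.integral_congr (g := fun x => √(1 - x ^ 2)), pi_int01, smul_eq_mul]
  · ring
  · intro x hx
    rw [uIcc_of_le zero_le_one] at hx
    simp only [piS, piC_eq hx.1 hx.2]

theorem Adm2.pi_anti (h : Adm2 D) {x x' : ℝ} (hx : x ≤ x') : hy D x' ≤ hy D x := by
  unfold hy
  refine ENNReal.toReal_mono ((measure_mono fun t ht => ht.1).trans_lt measure_Ioo_lt_top).ne
    (measure_mono fun t ht => ⟨ht.1, h.lower (show ((x, t) : P2) ≤ (x', t) from ⟨hx, le_rfl⟩) ht.2⟩)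

theorem pi_intOn {f : ℝ → ℝ} (hf : Measurable f) (hb : ∀ x, |f x| ≤ 1) (s : Set ℝ) :
    IntegrableOn f (s ∩ Ioo 0 1) :=
  Measure.integrableOn_of_bounded (M := 1)
    ((measure_mono inter_subset_right).trans_lt measure_Ioo_lt_top).ne hf.aestronglyMeasurable
    (Eventually.of_forall hb)

/-- the columns that meet the arc, at a corner -/
theorem Adm2.pi_dom (h : Adm2 D) (h0 : ((0, 0) : P2) ∈ D) (h1 : ((1, 0) : P2) ∉ D)
    (h2 : ((0, 1) : P2) ∉ D) : domy D ∩ Ioo 0 1 = Ioo 0 (hy (Prod.swap ⁻¹' D) 0) := by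
  have h3 : (0 : ℝ) ∈ domy (Prod.swap ⁻¹' D) := ⟨h0, h1⟩
  ext x
  constructor
  · exact fun hx => ⟨hx.2.1, (h.swap.mem_iff_of_domy h3 x).1 hx.1.1⟩
  · exact fun hx => ⟨⟨(h.swap.mem_iff_of_domy h3 x).2 hx.2, fun h4 =>
      h2 (h.lower (show ((0, 1) : P2) ≤ (x, 1) from ⟨hx.1.le, le_rfl⟩) h4)⟩,
      hx.1, hx.2.trans_le (hy_le_one _ _)⟩

theorem Adm2.pi_S (h : Adm2 D) (h0 : ((0, 0) : P2) ∈ D) (h1 : ((1, 0) : P2) ∉ D)
    (h2 : ((0, 1) : P2) ∉ D) :
    ∫ x in domy D ∩ Ioo 0 1, piS (x / hy (Prod.swap ⁻¹' D) 0)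
      = Real.pi * hy (Prod.swap ⁻¹' D) 0 / 4 := by
  have hR : 0 < hy (Prod.swap ⁻¹' D) 0 := h.swap.hy_pos h0
  rw [h.pi_dom h0 h1 h2, ← integral_Ioc_eq_integral_Ioo, ← intervalIntegral.integral_of_le hR.le,
    pi_intR hR]

theorem Adm2.pi_C (h : Adm2 D) (h0 : ((0, 0) : P2) ∈ D) (h2 : ((0, 1) : P2) ∉ D) :
    ∫ x in domy D ∩ Ioo 0 1, piC (hy D x / hy D 0) = ar D / hy D 0 := by
  have hR : 0 < hy D 0 := h.hy_pos h0
  rw [ar_eq_integral h.isOpen.measurableSet, ← integral_div,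
    setIntegral_congr_fun (g := fun x => hy D x / hy D 0)
      (h.measurableSet_domy.inter measurableSet_Ioo) fun x hx =>
        piC_eq (div_nonneg (hy_nonneg _ _) hR.le) ((div_le_one hR).2 (h.pi_anti hx.2.1.le))]
  refine (setIntegral_eq_of_subset_of_forall_sdiff_eq_zero measurableSet_Ioo inter_subset_right
    fun x hx => ?_).symm
  rw [h.hy_eq_zero fun h3 => hx.2 ⟨⟨h3, fun h4 =>
    h2 (h.lower (show ((0, 1) : P2) ≤ (x, 1) from ⟨hx.1.1.le, le_rfl⟩) h4)⟩, hx.1⟩, zero_div]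

theorem Adm2.pi_cal (h : Adm2 D) (h0 : ((0, 0) : P2) ∈ D) (h1 : ((1, 0) : P2) ∉ D)
    (h2 : ((0, 1) : P2) ∉ D) :
    ar D / hy (Prod.swap ⁻¹' D) 0 + Real.pi * hy (Prod.swap ⁻¹' D) 0 / 4 ≤ len D := by
  have h3 := h.le_len (ζ₁ := fun p => piC (p.1 / hy (Prod.swap ⁻¹' D) 0))
    (ζ₂ := fun p => piS (p.1 / hy (Prod.swap ⁻¹' D) 0))
    (continuous_piC.measurable.comp (measurable_fst.div_const _))
    (continuous_piS.measurable.comp (measurable_fst.div_const _)) fun p => (piC_sq _).le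
  rwa [h.pi_S h0 h1 h2, h.swap.pi_C h0 h1, ar_swap h.isOpen.measurableSet] at h3

theorem pi_amgm {a R L : ℝ} (ha : 0 ≤ a) (hR : 0 < R) (h : a / R + Real.pi * R / 4 ≤ L) :
    Real.pi * a + (a / R - Real.pi * R / 4) ^ 2 ≤ L ^ 2 := by
  have h1 : 0 ≤ a / R + Real.pi * R / 4 := by positivity
  have h2 : Real.pi * a + (a / R - Real.pi * R / 4) ^ 2 = (a / R + Real.pi * R / 4) ^ 2 := by
    field_simp
    ring
  rw [h2]
  exact pow_le_pow_left₀ h1 h 2

theorem pi_eq {a R L : ℝ} (ha : 0 ≤ a) (hR : 0 < R) (h : a / R + Real.pi * R / 4 ≤ L)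
    (heq : L ^ 2 ≤ Real.pi * a) : Real.pi * R ^ 2 = 4 * a ∧ L ≤ a / R + Real.pi * R / 4 := by
  have h1 := pi_amgm ha hR h
  have h2 : a / R - Real.pi * R / 4 = 0 := by
    refine pow_eq_zero_iff (two_ne_zero) |>.1 (le_antisymm (by linarith) (sq_nonneg _))
  have h3 : Real.pi * R ^ 2 = 4 * a := by
    field_simp at h2
    linarith
  refine ⟨h3, ?_⟩
  have h4 : Real.pi * a = (a / R + Real.pi * R / 4) ^ 2 := by
    have h5 : (a / R + Real.pi * R / 4) ^ 2 = Real.pi * a + (a / R - Real.pi * R / 4) ^ 2 := by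
      field_simp
      ring
    rw [h5, h2]
    ring
  exact (pow_le_pow_iff_left₀ ((by positivity : 0 ≤ a / R + Real.pi * R / 4).trans h)
    (by positivity) two_ne_zero).1 (heq.trans h4.le)

/-- the averaged calibration leaves room unless the two fields agree -/
theorem pi_room (s t : ℝ) :
    ((piC s + piS t) / 2) ^ 2 + ((piS s + piC t) / 2 + (piC s - piS t) ^ 2 / 12) ^ 2 ≤ 1 := by
  have a1 := piC_sq s
  have a2 := piC_sq t
  have b1 := piC_nonneg s
  have b2 := piC_le_one s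
  have b3 := piS_nonneg t
  have b4 := piS_le_one t
  have b5 := piS_le_one s
  have b6 := piC_le_one t
  have c1 : (piC s - piS t) ^ 2 ≤ 1 := by nlinarith
  have c0 := sq_nonneg (piC s - piS t)
  have c2 : ((piC s + piS t) / 2) ^ 2 + ((piS s + piC t) / 2) ^ 2
      ≤ 1 - (piC s - piS t) ^ 2 / 4 := by nlinarith [sq_nonneg (piS s - piC t)]
  generalize (piC s - piS t) ^ 2 = e at *
  have c3 : (piS s + piC t) * e ≤ 2 * e := mul_le_mul_of_nonneg_right (by linarith) c0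
  nlinarith


theorem Adm2.corner (h : Adm2 D) (h1 : ((1, 0) : P2) ∉ D) (h2 : ((0, 1) : P2) ∉ D) :
    Real.pi * ar D ≤ len D ^ 2 := by
  rcases (ar_nonneg D).eq_or_lt with h0 | h0
  · rw [← h0, mul_zero]
    exact sq_nonneg _
  have h3 := (ar_pos_iff h).1 h0
  have h4 := pi_amgm h0.le (h.swap.hy_pos h3) (h.pi_cal h3 h1 h2)
  linarith [sq_nonneg (ar D / hy (Prod.swap ⁻¹' D) 0 - Real.pi * hy (Prod.swap ⁻¹' D) 0 / 4)]
theorem Adm2.cocorner (h : Adm2 D) (h1 : ((1, 0) : P2) ∈ D) (h2 : ((0, 1) : P2) ∈ D) :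
    Real.pi * (1 - ar D) ≤ len D ^ 2 := by
  have hD := h.isOpen.measurableSet
  have hc : IntegrableOn (fun _ : ℝ => (1 : ℝ)) (Ioo (0 : ℝ) 1) := integrableOn_const (by simp)
  have hone : (∀ x ∈ Ioo (0 : ℝ) 1, ((x, 1) : P2) ∈ D) → Real.pi * (1 - ar D) ≤ len D ^ 2 := by
    intro hx
    rw [ar_eq_integral hD, setIntegral_congr_fun (g := fun _ => (1 : ℝ)) measurableSet_Ioo
      fun x h3 => h.hy_eq_one (hx x h3)]
    simp [sq_nonneg]
  by_cases h11 : ((1, 1) : P2) ∈ D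
  · exact hone fun x hx => h.lower (show ((x, 1) : P2) ≤ (1, 1) from ⟨hx.2.le, le_rfl⟩) h11
  have h3 : (1 : ℝ) ∈ domy (Prod.swap ⁻¹' D) := ⟨h2, h11⟩
  have h4 : ∀ t : ℝ, ((t, 1) : P2) ∈ D ↔ t < hy (Prod.swap ⁻¹' D) 1 :=
    h.swap.mem_iff_of_domy h3
  have hp : 0 < hy (Prod.swap ⁻¹' D) 1 := h.swap.hy_pos h2
  rcases (hy_le_one (Prod.swap ⁻¹' D) 1).eq_or_lt with h5 | h5
  · exact hone fun x hx => (h4 x).2 (hx.2.trans_eq h5.symm)
  have hanti : ∀ y ≤ (1 : ℝ), hy (Prod.swap ⁻¹' D) 1 ≤ hy (Prod.swap ⁻¹' D) y :=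
    fun y hy1 => h.swap.pi_anti hy1
  generalize hy (Prod.swap ⁻¹' D) 1 = p at h4 hp h5 hanti
  have hr : 0 < 1 - p := sub_pos.2 h5
  have h6 := h.le_len (ζ₁ := fun q => piC ((1 - q.1) / (1 - p)))
    (ζ₂ := fun q => piS ((1 - q.1) / (1 - p)))
    (continuous_piC.measurable.comp ((measurable_const.sub measurable_fst).div_const _))
    (continuous_piS.measurable.comp ((measurable_const.sub measurable_fst).div_const _))
    fun q => (piC_sq _).le
  have h7 : domy D ∩ Ioo 0 1 = Ico p 1 := by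
    ext x
    constructor
    · exact fun hx => ⟨not_lt.1 fun h8 => hx.1.2 ((h4 x).2 h8), hx.2.2⟩
    · exact fun hx => ⟨⟨h.lower (show ((x, 0) : P2) ≤ (1, 0) from ⟨hx.2.le, le_rfl⟩) h1,
        fun h8 => not_lt.2 hx.1 ((h4 x).1 h8)⟩, hp.trans_le hx.1, hx.2⟩
  have h8 : ∫ x in domy D ∩ Ioo 0 1, piS ((1 - x) / (1 - p)) = Real.pi * (1 - p) / 4 := by
    rw [h7, integral_Ico_eq_integral_Ioo, ← integral_Ioc_eq_integral_Ioo,
      ← intervalIntegral.integral_of_le h5.le,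
      intervalIntegral.integral_comp_sub_left (fun x => piS (x / (1 - p))) 1, sub_self, pi_intR hr]
  have h9 : ∫ y in domy (Prod.swap ⁻¹' D) ∩ Ioo 0 1, piC ((1 - hy (Prod.swap ⁻¹' D) y) / (1 - p))
      = (1 - ar D) / (1 - p) := by
    have e1 : 1 - ar D = ∫ y in Ioo (0 : ℝ) 1, (1 - hy (Prod.swap ⁻¹' D) y) := by
      rw [integral_sub hc (plb_hy_int h.swap.isOpen.measurableSet),
        ← ar_eq_integral h.swap.isOpen.measurableSet, ar_swap hD]
      simp
    rw [e1, ← integral_div,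
      setIntegral_congr_fun (g := fun y => (1 - hy (Prod.swap ⁻¹' D) y) / (1 - p))
        (h.swap.measurableSet_domy.inter measurableSet_Ioo) fun y hy1 =>
          piC_eq (div_nonneg (sub_nonneg.2 (hy_le_one _ _)) hr.le)
            ((div_le_one hr).2 (sub_le_sub_left (hanti y hy1.2.2.le) 1))]
    refine (setIntegral_eq_of_subset_of_forall_sdiff_eq_zero measurableSet_Ioo inter_subset_right
      fun y hy1 => ?_).symm
    have e2 : ((y, 1) : P2) ∈ Prod.swap ⁻¹' D := by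
      by_contra e3
      exact hy1.2 ⟨⟨h.lower (show ((0, y) : P2) ≤ (0, 1) from ⟨le_rfl, hy1.1.2.le⟩) h2, e3⟩, hy1.1⟩
    rw [h.swap.hy_eq_one e2, sub_self, zero_div]
  rw [h8, h9] at h6
  have h10 := pi_amgm (sub_nonneg.2 (ar_le_one D)) hr h6
  linarith [sq_nonneg ((1 - ar D) / (1 - p) - Real.pi * (1 - p) / 4)]
theorem Adm2.corner_eq (h : Adm2 D) (h1 : ((1, 0) : P2) ∉ D) (h2 : ((0, 1) : P2) ∉ D)
    (h0 : 0 < ar D) (heq : len D ^ 2 ≤ Real.pi * ar D) :
    ∃ R : ℝ, 0 < R ∧ Real.pi * R ^ 2 = 4 * ar D ∧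
      ∀ᵐ p ∂(volume.restrict sq), (p ∈ D ↔ p.1 ^ 2 + p.2 ^ 2 < R ^ 2) := by
  have hD := h.isOpen.measurableSet
  have h3 := (ar_pos_iff h).1 h0
  have hp : 0 < hy (Prod.swap ⁻¹' D) 0 := h.swap.hy_pos h3
  have hq : 0 < hy D 0 := h.hy_pos h3
  obtain ⟨e1, e2⟩ := pi_eq h0.le hp (h.pi_cal h3 h1 h2) heq
  have e3 : Real.pi * hy D 0 ^ 2 = 4 * ar D := by
    have h4 := h.swap.pi_cal h3 h2 h1
    rw [ar_swap hD, h.len_swap] at h4
    exact (pi_eq h0.le hq h4 heq).1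
  have e4 : hy D 0 = hy (Prod.swap ⁻¹' D) 0 :=
    (pow_left_inj₀ hq.le hp.le two_ne_zero).1 (mul_left_cancel₀ Real.pi_ne_zero (e3.trans e1.symm))
  have i1 := h.pi_S h3 h1 h2
  have i2 := h.swap.pi_C h3 h1
  have i3 : ∫ y in domy (Prod.swap ⁻¹' D) ∩ Ioo 0 1, piS (y / hy D 0) = Real.pi * hy D 0 / 4 :=
    h.swap.pi_S h3 h2 h1
  have i4 := h.pi_C h3 h2
  have hdom := h.pi_dom h3 h1 h2
  have hanti : ∀ x : ℝ, 0 ≤ x → hy D x ≤ hy D 0 := fun x hx => h.pi_anti hx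
  rw [ar_swap hD] at i2
  rw [e4] at i3 i4 hanti
  generalize hy (Prod.swap ⁻¹' D) 0 = R at hp e1 e2 i1 i2 i3 i4 hdom hanti
  have mC : Measurable fun s : ℝ => piC (s / R) :=
    continuous_piC.measurable.comp (measurable_id.div_const _)
  have mS : Measurable fun s : ℝ => piS (s / R) :=
    continuous_piS.measurable.comp (measurable_id.div_const _)
  have bC : ∀ s, |piC s| ≤ 1 := fun s => by rw [abs_of_nonneg (piC_nonneg s)]; exact piC_le_one s
  have bS : ∀ s, |piS s| ≤ 1 := fun s => by rw [abs_of_nonneg (piS_nonneg s)]; exact piS_le_one s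
  have m1 := measurable_hy hD
  have m2 := measurable_hy h.swap.isOpen.measurableSet
  have h5 := h.le_len (ζ₁ := fun p => (piC (p.1 / R) + piS (p.2 / R)) / 2)
    (ζ₂ := fun p => (piS (p.1 / R) + piC (p.2 / R)) / 2 + (piC (p.1 / R) - piS (p.2 / R)) ^ 2 / 12)
    (((mC.comp measurable_fst).add (mS.comp measurable_snd)).div_const _)
    ((((mS.comp measurable_fst).add (mC.comp measurable_snd)).div_const _).add
      ((((mC.comp measurable_fst).sub (mS.comp measurable_snd)).pow_const 2).div_const _))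
    fun p => pi_room _ _
  have j1 : IntegrableOn (fun y => piC (hy (Prod.swap ⁻¹' D) y / R))
      (domy (Prod.swap ⁻¹' D) ∩ Ioo 0 1) := pi_intOn (mC.comp m2) (fun _ => bC _) _
  have j2 : IntegrableOn (fun y => piS (y / R)) (domy (Prod.swap ⁻¹' D) ∩ Ioo 0 1) :=
    pi_intOn mS (fun _ => bS _) _
  have j3 : IntegrableOn (fun y => piS (y / R)) (domy D ∩ Ioo 0 1) := pi_intOn mS (fun _ => bS _) _
  have j4 : IntegrableOn (fun y => piC (hy D y / R)) (domy D ∩ Ioo 0 1) :=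
    pi_intOn (mC.comp m1) (fun _ => bC _) _
  have j5 : IntegrableOn (fun x => (piC (x / R) - piS (hy D x / R)) ^ 2) (domy D ∩ Ioo 0 1) := by
    refine pi_intOn ((mC.sub (mS.comp m1)).pow_const 2) (fun x => ?_) _
    show |(piC (x / R) - piS (hy D x / R)) ^ 2| ≤ 1
    rw [abs_of_nonneg (sq_nonneg _)]
    nlinarith [piC_nonneg (x / R), piC_le_one (x / R), piS_nonneg (hy D x / R),
      piS_le_one (hy D x / R)]
  have j6 : IntegrableOn (fun x => (piS (x / R) + piC (hy D x / R)) / 2) (domy D ∩ Ioo 0 1) :=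
    (j3.add j4).div_const 2
  have j7 : IntegrableOn (fun x => (piC (x / R) - piS (hy D x / R)) ^ 2 / 12) (domy D ∩ Ioo 0 1) :=
    j5.div_const 12
  have f1 : ∫ y in domy (Prod.swap ⁻¹' D) ∩ Ioo 0 1,
      (piC (hy (Prod.swap ⁻¹' D) y / R) + piS (y / R)) / 2 = (ar D / R + Real.pi * R / 4) / 2 := by
    rw [integral_div, integral_add j1 j2, i2, i3]
  have f2 : ∫ x in domy D ∩ Ioo 0 1,
      ((piS (x / R) + piC (hy D x / R)) / 2 + (piC (x / R) - piS (hy D x / R)) ^ 2 / 12)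
      = (Real.pi * R / 4 + ar D / R) / 2
        + (∫ x in domy D ∩ Ioo 0 1, (piC (x / R) - piS (hy D x / R)) ^ 2) / 12 := by
    rw [integral_add j6 j7, integral_div, integral_div, integral_add j3 j4, i1, i4]
  replace h5 := (congrArg₂ (· + ·) f1 f2).symm.trans_le h5
  have h6 : ∫ x in domy D ∩ Ioo 0 1, (piC (x / R) - piS (hy D x / R)) ^ 2 = 0 :=
    le_antisymm (by linarith) (integral_nonneg fun _ => sq_nonneg _)
  rw [integral_eq_zero_iff_of_nonneg (fun _ => sq_nonneg _) j5, hdom] at h6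
  have h7 := (ae_restrict_iff' measurableSet_Ioo).1 h6
  refine ⟨R, hp, e1, (ae_restrict_iff' measurableSet_sq).2 ?_⟩
  filter_upwards [Measure.quasiMeasurePreserving_fst.ae h7] with p h8 h9
  have h10 : p ∈ D ↔ p.2 < hy D p.1 := h.mem_iff_hy p.1 h9.2
  rw [h10]
  have k1 := h9.1.1
  have k2 := h9.2.1
  have k3 := hy_nonneg D p.1
  by_cases h11 : p.1 < R
  · have h12 : piC (p.1 / R) = piS (hy D p.1 / R) :=
      sub_eq_zero.1 ((pow_eq_zero_iff two_ne_zero).1 (h8 ⟨k1, h11⟩))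
    have h13 := piC_sq (hy D p.1 / R)
    rw [← h12, piC_eq (div_nonneg k3 hp.le) ((div_le_one hp).2 (hanti _ k1.le)),
      piC_eq (div_nonneg k1.le hp.le) ((div_le_one hp).2 h11.le)] at h13
    field_simp at h13
    rw [← pow_lt_pow_iff_left₀ k2.le k3 two_ne_zero]
    constructor <;> intro h14 <;> linarith
  · have h12 : hy D p.1 = 0 := by
      refine h.hy_eq_zero fun h13 => h11 ?_
      have h14 : p.1 ∈ domy D ∩ Ioo 0 1 := ⟨⟨h13, fun h4 =>
        h2 (h.lower (show ((0, 1) : P2) ≤ (p.1, 1) from ⟨k1.le, le_rfl⟩) h4)⟩, h9.1⟩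
      rw [hdom] at h14
      exact h14.2
    rw [h12]
    constructor <;> intro h14
    · linarith
    · nlinarith [not_lt.1 h11, sq_nonneg p.2]

end Vale.Agent.P232
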