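import Vale.Agent.P232.Meas
import Vale.Agent.P232.PlanarIso

open MeasureTheory Set Filter Topology
open scoped ENNReal

noncomputable section
namespace Vale.Agent.P232

/-! Task: weighted slicing inequality.  With `p t = hy (swap ⁻¹' slice E t) 0` (extent of the slice along the `x` axis; antitone in `t`)
calibrate `√(rho₁²+rho₂²) ≥ (x1/p) rho₁ + √(1 - x1²/p²) rho₂` and use `integral_Q_rho1/2` + Fubini:
the slice at height `t` contributes `ar/p + π p/4 ≥ √(π ar)`. -/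

theorem sli_int {f : P2 → ℝ} (hf : Measurable f) (hb : ∀ p, |f p| ≤ 1) :
    Integrable f ((volume.restrict (Ioo (0 : ℝ) 1)).prod (volume.restrict (Ioo (0 : ℝ) 1))) :=
  Integrable.of_bound hf.aestronglyMeasurable 1 (Eventually.of_forall hb)

theorem sli_sq (f : P2 → ℝ) : ∫ p in sq, f p =
    ∫ p, f p ∂((volume.restrict (Ioo (0 : ℝ) 1)).prod (volume.restrict (Ioo (0 : ℝ) 1))) := by
  rw [Measure.prod_restrict]
  rfl

theorem sli_quarter : ∫ x in (0 : ℝ)..1, √(1 - x ^ 2) = Real.pi / 4 := by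
  have hc : Continuous fun x : ℝ => √(1 - x ^ 2) := by fun_prop
  have h1 := integral_sqrt_one_sub_sq
  rw [← intervalIntegral.integral_add_adjacent_intervals (b := 0) (hc.intervalIntegrable _ _)
    (hc.intervalIntegrable _ _)] at h1
  have h2 := intervalIntegral.integral_comp_neg (a := 0) (b := 1) fun x : ℝ => √(1 - x ^ 2)
  simp only [neg_sq, neg_zero] at h2
  linarith

theorem sli_arc {p : ℝ} (h0 : 0 ≤ p) (h1 : p ≤ 1) :
    ∫ s in Ioo (0 : ℝ) 1, (Iio p).indicator (fun s => √(1 - (min 1 (s / p)) ^ 2)) s =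
      Real.pi * p / 4 := by
  rw [setIntegral_indicator measurableSet_Iio, Ioo_inter_Iio, min_eq_right h1]
  rcases h0.eq_or_lt with rfl | hp
  · simp
  rw [setIntegral_congr_fun (g := fun s => √(1 - (s / p) ^ 2)) measurableSet_Ioo
    fun s hs => by simp only [min_eq_right ((div_le_one hp).2 hs.2.le)],
    ← integral_Ioc_eq_integral_Ioo, ← intervalIntegral.integral_of_le hp.le,
    intervalIntegral.integral_comp_div (f := fun x : ℝ => √(1 - x ^ 2)) hp.ne', zero_div,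
    div_self hp.ne', sli_quarter, smul_eq_mul]
  ring

theorem sli_amgm {a p : ℝ} (ha : 0 ≤ a) (hp : a ≤ p) :
    √(Real.pi * a) ≤ a / p + Real.pi * p / 4 := by
  rcases (ha.trans hp).eq_or_lt with rfl | h0
  · obtain rfl : a = 0 := le_antisymm hp ha
    simp
  have hpi := Real.pi_pos
  refine Real.sqrt_le_iff.2 ⟨by positivity, ?_⟩
  have h1 : Real.pi * a = 4 * (a / p) * (Real.pi * p / 4) := by field_simp
  rw [h1]
  nlinarith [sq_nonneg (a / p - Real.pi * p / 4)]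

theorem sli_cs (u r s : ℝ) (hu : u ^ 2 ≤ 1) : u * r + √(1 - u ^ 2) * s ≤ √(r ^ 2 + s ^ 2) := by
  refine Real.le_sqrt_of_sq_le ?_
  have h1 := Real.sq_sqrt (sub_nonneg.2 hu)
  generalize √(1 - u ^ 2) = v at *
  have h2 : r ^ 2 + s ^ 2 = (u * r + v * s) ^ 2 + (u * s - v * r) ^ 2 := by
    linear_combination -(r ^ 2 + s ^ 2) * h1
  rw [h2]
  exact le_add_of_nonneg_right (sq_nonneg _)

theorem Adm.sli_le {E : Set P3} (h : Adm E) {a : ℝ} (ha : 0 ≤ a) (t : ℝ) :
    hgt E (a, t) ≤ hgt E (0, t) := by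
  by_contra hlt
  rw [not_le] at hlt
  have h1 := hgt_nonneg E (0, t)
  have h2 := hgt_le_one E (a, t)
  have hs : (hgt E (0, t) + hgt E (a, t)) / 2 ∈ Ioo (0 : ℝ) 1 := ⟨by linarith, by linarith⟩
  have h3 := (h.mem_iff_hgt (a, t) hs).2 (by linarith)
  have h4 := (h.mem_iff_hgt (0, t) hs).1 (h.lower (a := (a, t, _)) ⟨ha, le_rfl, le_rfl⟩ h3)
  linarith

theorem Adm.slice_iso {E : Set P3} (h : Adm E) (h1 : ((1, 0, 0) : P3) ∉ E) (h2 : ((0, 1, 0) : P3) ∉ E)
    {ψ : ℝ → ℝ} (hψ : Measurable ψ) (h0 : ∀ t, 0 ≤ ψ t) (hb : ∀ t, ψ t ≤ 1) :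
    ∫ t in Ioo (0 : ℝ) 1, ψ t * √(Real.pi * ar (P232.slice E t))
      ≤ ∫ x in Q, ψ x.2.2 * √((rho E x).1 ^ 2 + (rho E x).2.1 ^ 2) ∂(nu E) := by
  obtain ⟨H, hH⟩ : ∃ H, H = hgt (P232.rot E) := ⟨_, rfl⟩
  have mH : Measurable H := hH ▸ measurable_hgt h.rot.measurableSet
  have H0 : ∀ q, 0 ≤ H q := hH ▸ hgt_nonneg _
  have mp : Measurable fun t : ℝ => H (0, t) := mH.comp (measurable_const.prodMk measurable_id)
  have mu : Measurable fun q : ℝ × ℝ => min 1 (q.1 / H (0, q.2)) :=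
    measurable_const.min (measurable_fst.div (mp.comp measurable_snd))
  have habs : ∀ t y : ℝ, |y| ≤ 1 → |ψ t * y| ≤ 1 := fun t y hy => by
    rw [abs_mul, abs_of_nonneg (h0 t)]
    exact mul_le_one₀ (hb t) (abs_nonneg _) hy
  have hu : ∀ s t : ℝ, 0 ≤ s → |min 1 (s / H (0, t))| ≤ 1 := fun s t hs => by
    rw [abs_of_nonneg (le_min zero_le_one (div_nonneg hs (H0 _)))]
    exact min_le_left _ _
  have hv : ∀ y : ℝ, |√(1 - y ^ 2)| ≤ 1 := fun y => by
    rw [abs_of_nonneg (Real.sqrt_nonneg _)]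
    exact Real.sqrt_le_one.2 (by linarith [sq_nonneg y])
  have m1 : Measurable fun x : P3 => ψ x.2.2 * min 1 (x.1 / H (0, x.2.2)) :=
    (hψ.comp measurable_snd.snd).mul (mu.comp (measurable_fst.prodMk measurable_snd.snd))
  have m2 : Measurable fun x : P3 => ψ x.2.2 * √(1 - min 1 (x.1 / H (0, x.2.2)) ^ 2) :=
    (hψ.comp measurable_snd.snd).mul (measurable_const.sub
      ((mu.comp (measurable_fst.prodMk measurable_snd.snd)).pow_const 2)).sqrt
  have n1 : Measurable fun q : P2 => ψ q.2 * min 1 (H q / H (0, q.2)) :=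
    (hψ.comp measurable_snd).mul (mu.comp (mH.prodMk measurable_snd))
  have hS : MeasurableSet {q : P2 | q.2 < H (0, q.1)} :=
    measurableSet_lt measurable_snd (mp.comp measurable_fst)
  have n2 : Measurable ({q : P2 | q.2 < H (0, q.1)}.indicator
      fun q : P2 => ψ q.1 * √(1 - min 1 (q.2 / H (0, q.1)) ^ 2)) :=
    ((hψ.comp measurable_fst).mul (measurable_const.sub
      ((mu.comp measurable_swap).pow_const 2)).sqrt).indicator hS
  have i1 := sli_int n1 fun q => habs _ _ (hu _ _ (H0 q))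
  have i2 := sli_int n2 fun q => by
    by_cases hq : q ∈ {q : P2 | q.2 < H (0, q.1)}
    · rw [indicator_of_mem hq]
      exact habs _ _ (hv _)
    · simp [indicator_of_notMem hq]
  have A1 : ∫ x in Q, ψ x.2.2 * min 1 (x.1 / H (0, x.2.2)) * (rho E x).1 ∂(nu E) =
      ∫ t in Ioo (0 : ℝ) 1, ∫ a in Ioo (0 : ℝ) 1, ψ t * min 1 (H (a, t) / H (0, t)) := by
    rw [h.integral_Q_rho1 m1, ← integral_prod_symm _ i1, ← sli_sq, ← hH]
    refine (setIntegral_eq_of_subset_of_forall_sdiff_eq_zero measurableSet_sq inter_subset_right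
      fun q hq => ?_).symm
    have h3 : q ∉ P232.slice (P232.rot E) 1 := fun h3 =>
      h1 (h.lower (a := (1, q.1, q.2)) ⟨le_rfl, hq.1.1.1.le, hq.1.2.1.le⟩ h3)
    have h4 : q ∉ P232.slice (P232.rot E) 0 := fun h4 => hq.2 ⟨⟨h4, h3⟩, hq.1⟩
    have h5 : H q = 0 := hH ▸ h.rot.hgt_eq_zero h4
    simp [h5]
  have A2 : ∫ x in Q, ψ x.2.2 * √(1 - min 1 (x.1 / H (0, x.2.2)) ^ 2) * (rho E x).2.1 ∂(nu E) =
      ∫ t in Ioo (0 : ℝ) 1, ∫ s in Ioo (0 : ℝ) 1, {q : P2 | q.2 < H (0, q.1)}.indicator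
        (fun q : P2 => ψ q.1 * √(1 - min 1 (q.2 / H (0, q.1)) ^ 2)) (t, s) := by
    rw [h.integral_Q_rho2 m2, ← integral_prod _ i2, ← sli_sq, setIntegral_indicator hS]
    congr 2
    ext q
    constructor
    · rintro ⟨h3, h4⟩
      exact ⟨h4, hH ▸ (h.rot.mem_iff_hgt (0, q.1) h4.2).1 h3.1⟩
    · rintro ⟨h4, h3⟩
      rw [hH] at h3
      exact ⟨⟨(h.rot.mem_iff_hgt (0, q.1) h4.2).2 h3, fun h5 =>
        h2 (h.lower (a := (q.2, 1, q.1)) ⟨h4.2.1.le, le_rfl, h4.1.1.le⟩ h5)⟩, h4⟩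
  have hr : ∀ᵐ x ∂(nu E), |(rho E x).1| ≤ 1 ∧ |(rho E x).2.1| ≤ 1 ∧
      |√((rho E x).1 ^ 2 + (rho E x).2.1 ^ 2)| ≤ 1 := by
    filter_upwards [h.rho_sum] with x hx
    obtain ⟨r1, r2, r3⟩ := rho_nonneg E x
    rw [abs_of_nonneg r1, abs_of_nonneg r2, abs_of_nonneg (Real.sqrt_nonneg _)]
    exact ⟨by linarith, by linarith, Real.sqrt_le_one.2 (by nlinarith)⟩
  have j1 : IntegrableOn (fun x : P3 => ψ x.2.2 * min 1 (x.1 / H (0, x.2.2)) * (rho E x).1) Q
      (nu E) := h.integrableOn_Q (m1.mul (measurable_rho E).fst) (M := 1) (hr.mono fun x hx hQ => by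
    rw [abs_mul]
    exact mul_le_one₀ (habs _ _ (hu _ _ hQ.1.1.le)) (abs_nonneg _) hx.1)
  have j2 : IntegrableOn (fun x : P3 => ψ x.2.2 * √(1 - min 1 (x.1 / H (0, x.2.2)) ^ 2) *
      (rho E x).2.1) Q (nu E) :=
    h.integrableOn_Q (m2.mul (measurable_rho E).snd.fst) (M := 1) (hr.mono fun x hx _ => by
      rw [abs_mul]
      exact mul_le_one₀ (habs _ _ (hv _)) (abs_nonneg _) hx.2.1)
  have j3 : IntegrableOn (fun x : P3 => ψ x.2.2 * √((rho E x).1 ^ 2 + (rho E x).2.1 ^ 2)) Q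
      (nu E) := h.integrableOn_Q ((hψ.comp measurable_snd.snd).mul
        (((measurable_rho E).fst.pow_const 2).add
          ((measurable_rho E).snd.fst.pow_const 2)).sqrt) (M := 1)
        (hr.mono fun x hx _ => habs _ _ hx.2.2)
  have B : (∫ x in Q, ψ x.2.2 * min 1 (x.1 / H (0, x.2.2)) * (rho E x).1 ∂(nu E)) +
      ∫ x in Q, ψ x.2.2 * √(1 - min 1 (x.1 / H (0, x.2.2)) ^ 2) * (rho E x).2.1 ∂(nu E) ≤
      ∫ x in Q, ψ x.2.2 * √((rho E x).1 ^ 2 + (rho E x).2.1 ^ 2) ∂(nu E) := by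
    rw [← integral_add j1 j2]
    refine setIntegral_mono_on (j1.add j2) j3 measurableSet_Q fun x hx => ?_
    rw [mul_assoc, mul_assoc, ← mul_add]
    exact mul_le_mul_of_nonneg_left
      (sli_cs _ _ _ ((sq_le_one_iff_abs_le_one _).2 (hu _ _ hx.1.1.le))) (h0 _)
  refine le_trans ?_ B
  rw [A1, A2, ← integral_add i1.integral_prod_right i2.integral_prod_left]
  refine integral_mono_of_nonneg (Eventually.of_forall fun t =>
    mul_nonneg (h0 t) (Real.sqrt_nonneg _)) (i1.integral_prod_right.add i2.integral_prod_left)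
    (Eventually.of_forall fun t => ?_)
  have hD := (h.slice t).isOpen.measurableSet
  have hle : ∀ a ∈ Ioo (0 : ℝ) 1, H (a, t) ≤ H (0, t) := fun a ha => hH ▸ h.rot.sli_le ha.1.le t
  have e0 : ar (P232.slice E t) = ∫ a in Ioo (0 : ℝ) 1, H (a, t) := by
    rw [← ar_swap hD, ar_eq_integral (measurable_swap hD), hH]
    rfl
  have e1 : ∫ a in Ioo (0 : ℝ) 1, ψ t * min 1 (H (a, t) / H (0, t)) =
      ψ t * (ar (P232.slice E t) / H (0, t)) := by
    rw [integral_const_mul, e0, ← integral_div]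
    congr 1
    exact setIntegral_congr_fun measurableSet_Ioo fun a ha =>
      min_eq_right (div_le_one_of_le₀ (hle a ha) (H0 _))
  have e2 : ∫ s in Ioo (0 : ℝ) 1, {q : P2 | q.2 < H (0, q.1)}.indicator
      (fun q : P2 => ψ q.1 * √(1 - min 1 (q.2 / H (0, q.1)) ^ 2)) (t, s) =
      ψ t * (Real.pi * H (0, t) / 4) := by
    rw [← sli_arc (H0 (0, t)) (hH ▸ hgt_le_one _ _), ← integral_const_mul]
    refine integral_congr_ae (Eventually.of_forall fun s => ?_)
    by_cases hs : s < H (0, t) <;> simp [hs]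
  have e3 : ar (P232.slice E t) ≤ H (0, t) := by
    have i3 : IntegrableOn (fun a => H (a, t)) (Ioo (0 : ℝ) 1) :=
      Integrable.of_bound (mH.comp (measurable_id.prodMk measurable_const)).aestronglyMeasurable 1
        (Eventually.of_forall fun a => by
          rw [Real.norm_eq_abs, abs_of_nonneg (H0 _), hH]
          exact hgt_le_one _ _)
    have := setIntegral_mono_on i3 (integrableOn_const (by simp)) measurableSet_Ioo hle
    rw [e0]
    simpa using this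
  simp only
  rw [e1, e2, ← mul_add]
  exact mul_le_mul_of_nonneg_left (sli_amgm (ar_nonneg _) e3) (h0 t)

end Vale.Agent.P232
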