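import Vale.Agent.P232.StB_1

open MeasureTheory Set Filter Topology
open scoped ENNReal

noncomputable section
namespace Vale.Agent.P232

/-! Task: Steiner symmetrisation does not increase the perimeter.
Let `φ = sec G`, `Z` a test field, `H(p,s) = ∫_{-s}^{s} Z'(p,z) dz`, `abar(p,s) = (Z'(p,s)+Z'(p,-s))/2`,
`bbar(p,s) = (Z₃(p,s) - Z₃(p,-s))/2` (zero for `s = 0,1`).  Then `∫_{stein G} dv Z = ∫ (div_p H)(p,φ) + 2 bbar(p,φ)`.
Mollify: `φ_δ = φ * ρ_δ` is `C^1`, periodic, in `[0,1]`, `→ φ` a.e.; periodic integration by parts gives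
`∫ (div_p H)(p,φ_δ) = 2 ∫ φ_δ div c`, `c p = abar(p, φ_δ p)`, `= ∫ ρ_δ(s) 2 ∫ φ div (c (· + s)) ds`;
apply `steinA'` to the translates of ` (c, bbar(·,φ_δ))`, average, let `δ → 0`. -/

theorem perSet_stein {G : Set P3} (hG : PerSet G) : PerSet (stein G) := by
  refine ⟨measurableSet_lt (continuous_d2.measurable.comp (by fun_prop))
    ((measurable_sec hG.1).comp (by fun_prop)), fun x => ?_, fun x => ?_, fun x => ?_⟩
  · simpa [stein] using congrArg (d2 x.2.2 < ·) (hG.periodic_sec.1 (x.1, x.2.1))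
  · simpa [stein] using congrArg (d2 x.2.2 < ·) (hG.periodic_sec.2 (x.1, x.2.1))
  · simp [stein, d2_add_two]
theorem volB_stein {G : Set P3} (hG : PerSet G) : volB (stein G) = volB G := by
  rw [StB.volB_eq hG.1, StB.volB_eq (perSet_stein hG).1]
  refine integral_congr_ae (Eventually.of_forall fun p => ?_)
  have := sec_nonneg G p
  simp only [sec.eq_1 (stein G), StB.sect, Real.volume_Ioo]
  rw [ENNReal.toReal_ofReal (by linarith)]
  ring
theorem mono3_stein (G : Set P3) : Mono3 (stein G) :=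
  fun _ _ _ _ h1 h2 => lt_of_le_of_lt h1 h2
theorem StB.sec_mono {G : Set P3} {p q : P2}
    (h : ∀ z, ((p.1, p.2, z) : P3) ∈ G → ((q.1, q.2, z) : P3) ∈ G) : sec G p ≤ sec G q :=
  div_le_div_of_nonneg_right (ENNReal.toReal_mono
    ((measure_mono (sep_subset _ _)).trans_lt measure_Ioo_lt_top).ne
    (measure_mono fun z hz => ⟨hz.1, h z hz.2⟩)) zero_le_two
theorem mono_rot_stein {G : Set P3} (h : Mono3 (rot G)) : Mono3 (rot (stein G)) :=
  fun x _ z z' h1 h2 => lt_of_lt_of_le h2
    (StB.sec_mono (p := (z, x)) (q := (z', x)) fun w => h x w z z' h1)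
theorem mono_rot_rot_stein {G : Set P3} (h : Mono3 (rot (rot G))) : Mono3 (rot (rot (stein G))) :=
  fun _ y z z' h1 h2 => lt_of_lt_of_le h2
    (StB.sec_mono (p := (y, z)) (q := (y, z')) fun w => h w y z z' h1)

namespace StB

/-- half difference of the values at the two ends -/
def df (g : P3 → ℝ) (q : P2 × ℝ) : ℝ := (g (q.1.1, q.1.2, q.2) - g (q.1.1, q.1.2, -q.2)) / 2

lemma J_d3 {g : P3 → ℝ} (hg : ContDiff ℝ 1 g) (q : P2 × ℝ) :
    J (fun x => fderiv ℝ g x (0, 0, 1)) q = 2 * df g q := by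
  have cg := hg.continuous_fderiv one_ne_zero
  rw [J, intervalIntegral.integral_eq_sub_of_hasDerivAt (fun z _ => hd3 hg q.1 z)
    (Continuous.intervalIntegrable (by fun_prop) _ _), df]
  ring

lemma J_add {f g : P3 → ℝ} (hf : Continuous f) (hg : Continuous g) (q : P2 × ℝ) :
    J (fun x => f x + g x) q = J f q + J g q :=
  intervalIntegral.integral_add (Continuous.intervalIntegrable (by fun_prop) _ _)
    (Continuous.intervalIntegrable (by fun_prop) _ _)

lemma dv_eq {Z : P3 → P3} (hZ : ContDiff ℝ 1 Z) : dv Z = fun x =>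
    fderiv ℝ (fun x => (Z x).1) x (1, 0, 0) + fderiv ℝ (fun x => (Z x).2.1) x (0, 1, 0) +
      fderiv ℝ (fun x => (Z x).2.2) x (0, 0, 1) := by
  ext x
  have h := (hZ.differentiable one_ne_zero x).hasFDerivAt
  rw [h.fst.fderiv, h.snd.fst.fderiv, h.snd.snd.fderiv]
  rfl

lemma per_add {f : P2 → ℝ} (hf : Periodic2 f) (s : P2) : Periodic2 fun p => f (p + s) :=
  ⟨fun p => by simp only [add_right_comm p _ s, hf.1],
    fun p => by simp only [add_right_comm p _ s, hf.2]⟩

lemma step {G : Set P3} {c : ℝ} (hG : PerSet G) (hP : PerLe G c) {Z : P3 → P3}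
    (hZ : ContDiff ℝ 1 Z) (hb : ∀ x, nrm (Z x) ≤ 1) (hp : Periodic3 Z) (ρ : ContDiffBump (0 : P2)) :
    ∫ p in box2, (J (dv Z) (p, mo ρ (sec G) p) - 2 * ((1 - mo ρ
      ({p | 0 < sec G p ∧ sec G p < 1}.indicator 1) p) *
        df (fun x => (Z x).2.2) (p, mo ρ (sec G) p))) ≤ c := by
  have mφ := measurable_sec hG.1
  have bφ : ∀ p, |sec G p| ≤ 1 := fun p => abs_le.2 ⟨by linarith [sec_nonneg G p], sec_le_one G p⟩
  have mA : MeasurableSet {p | 0 < sec G p ∧ sec G p < 1} := mφ measurableSet_Ioo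
  have mχ : Measurable ({p | 0 < sec G p ∧ sec G p < 1}.indicator (1 : P2 → ℝ)) :=
    measurable_one.indicator mA
  have bχ : ∀ p, |{p | 0 < sec G p ∧ sec G p < 1}.indicator (1 : P2 → ℝ) p| ≤ 1 := fun p => by
    simpa using norm_indicator_le_norm_self (1 : P2 → ℝ) p
  have pχ : Periodic2 ({p | 0 < sec G p ∧ sec G p < 1}.indicator (1 : P2 → ℝ)) :=
    per_map hG.periodic_sec hG.periodic_sec fun a _ => (Ioo (0 : ℝ) 1).indicator (1 : ℝ → ℝ) a
  have hψ := mo_c1 ρ mφ bφ
  have pψ := mo_per ρ hG.periodic_sec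
  have cχ := (mo_c1 ρ mχ bχ).continuous
  have g1 : ContDiff ℝ 1 fun x => (Z x).1 := hZ.fst
  have g2 : ContDiff ℝ 1 fun x => (Z x).2.1 := hZ.snd.fst
  have g3 : ContDiff ℝ 1 fun x => (Z x).2.2 := hZ.snd.snd
  have pp : ∀ F : P3 → ℝ, Periodic3 fun x => F (Z x) := fun F =>
    ⟨fun x => by simp only [hp.1], fun x => by simp only [hp.2.1], fun x => by simp only [hp.2.2]⟩
  have i1 := ibp g1 (pp Prod.fst) hψ pψ (1, 0)
  have i2 := ibp g2 (pp fun y => y.2.1) hψ pψ (0, 1)
  have a1 := av_c1 g1 hψ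
  have a2 := av_c1 g2 hψ
  have p1 := av_per (pp Prod.fst) pψ
  have p2 := av_per (pp fun y => y.2.1) pψ
  have a3 : ContDiff ℝ 1 fun p => df (fun x => (Z x).2.2) (p, mo ρ (sec G) p) := by
    unfold df
    fun_prop
  have p3 : Periodic2 fun p => df (fun x => (Z x).2.2) (p, mo ρ (sec G) p) :=
    per_map (per (pp fun y => y.2.2) pψ) (per (pp fun y => y.2.2) (per_map pψ pψ fun a _ => -a))
      fun a b => (a - b) / 2
  have hle : ∀ p, av (fun x => (Z x).1) (mo ρ (sec G)) p ^ 2 +
      av (fun x => (Z x).2.1) (mo ρ (sec G)) p ^ 2 +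
      df (fun x => (Z x).2.2) (p, mo ρ (sec G) p) ^ 2 ≤ 1 := fun p => by
    have h1 := (Real.sqrt_le_left zero_le_one).1 (hb (p.1, p.2, mo ρ (sec G) p))
    have h2 := (Real.sqrt_le_left zero_le_one).1 (hb (p.1, p.2, -mo ρ (sec G) p))
    simp only [av, df]
    generalize Z (p.1, p.2, mo ρ (sec G) p) = u at h1
    generalize Z (p.1, p.2, -mo ρ (sec G) p) = w at h2
    nlinarith [sq_nonneg (u.1 - w.1), sq_nonneg (u.2.1 - w.2.1), sq_nonneg (u.2.2 + w.2.2)]
  have c1 := g1.continuous_fderiv one_ne_zero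
  have c2 := g2.continuous_fderiv one_ne_zero
  have c3 := g3.continuous_fderiv one_ne_zero
  have cψ := hψ.continuous
  have e : ∀ p, J (dv Z) (p, mo ρ (sec G) p) =
      J (fun x => fderiv ℝ (fun x => (Z x).1) x (1, 0, 0)) (p, mo ρ (sec G) p) +
      J (fun x => fderiv ℝ (fun x => (Z x).2.1) x (0, 1, 0)) (p, mo ρ (sec G) p) +
      2 * df (fun x => (Z x).2.2) (p, mo ρ (sec G) p) := fun p => by
    rw [dv_eq hZ, J_add (by fun_prop) (by fun_prop), J_add (by fun_prop) (by fun_prop), J_d3 g3]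
  have j1 : Continuous fun p => J (fun x => fderiv ℝ (fun x => (Z x).1) x (1, 0, 0))
    (p, mo ρ (sec G) p) := (J_cont (by fun_prop)).comp (by fun_prop)
  have j2 : Continuous fun p => J (fun x => fderiv ℝ (fun x => (Z x).2.1) x (0, 1, 0))
    (p, mo ρ (sec G) p) := (J_cont (by fun_prop)).comp (by fun_prop)
  generalize av (fun x => (Z x).1) (mo ρ (sec G)) = α at *
  generalize av (fun x => (Z x).2.1) (mo ρ (sec G)) = β at *
  obtain ⟨γ, hγ⟩ : ∃ γ : P2 → ℝ, ∀ p, df (fun x => (Z x).2.2) (p, mo ρ (sec G) p) = γ p :=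
    ⟨_, fun _ => rfl⟩
  simp only [hγ] at a3 p3 hle e ⊢
  have d1 := a1.continuous_fderiv one_ne_zero
  have d2 := a2.continuous_fderiv one_ne_zero
  have d3 := a3.continuous
  obtain ⟨k1, k2⟩ := mo_swap ρ (g := fun p => fderiv ℝ α p (1, 0) + fderiv ℝ β p (0, 1)) mφ bφ
    hG.periodic_sec (by fun_prop) (per_map p1.fderiv p2.fderiv fun a b => a (1, 0) + b (0, 1))
  obtain ⟨k3, k4⟩ := mo_swap ρ (g := γ) mχ bχ pχ d3 p3
  have hs : ∀ s, 2 * (∫ p in box2, sec G p * (fderiv ℝ α (p + s) (1, 0) + fderiv ℝ β (p + s) (0, 1)))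
      + 2 * (∫ p in box2, {p | 0 < sec G p ∧ sec G p < 1}.indicator 1 p * γ (p + s)) ≤ c := by
    intro s
    have h := steinA' hG hP (a₁ := fun p => α (p + s)) (a₂ := fun p => β (p + s))
      (b := fun p => γ (p + s)) (by fun_prop) (by fun_prop) (by fun_prop) (per_add p1 s)
      (per_add p2 s) (per_add p3 s) fun p => hle _
    simp only [fderiv_comp_add_right] at h
    refine le_trans (add_le_add le_rfl (mul_le_mul_of_nonneg_left ?_ zero_le_two)) h
    have e1 : ∀ p, {p | 0 < sec G p ∧ sec G p < 1}.indicator (1 : P2 → ℝ) p * γ (p + s) =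
        {p | 0 < sec G p ∧ sec G p < 1}.indicator (fun p => γ (p + s)) p := fun p => by
      simp only [indicator, Pi.one_apply, ite_mul, one_mul, zero_mul]
    simp only [e1]
    rw [setIntegral_indicator mA]
    exact integral_mono ((int2 (by fun_prop)).mono_set inter_subset_left)
      ((int2 (by fun_prop)).mono_set inter_subset_left) fun p => le_abs_self _
  have k5 := integral_mono ((k1.const_mul 2).add (k3.const_mul 2))
    ((ρ.integrable_normed (μ := volume)).mul_const c) fun s => by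
      have := mul_le_mul_of_nonneg_left (hs s) (ρ.nonneg_normed (μ := volume) s)
      simp only [Pi.add_apply]
      linarith
  simp only [Pi.add_apply] at k5
  rw [integral_add (k1.const_mul 2) (k3.const_mul 2), integral_const_mul, integral_const_mul,
    integral_mul_const, ρ.integral_normed, ← k2, ← k4] at k5
  simp only [mul_add] at k5
  rw [integral_add (int2 (by fun_prop)) (int2 (by fun_prop))] at k5
  have e2 : ∀ a b x y : ℝ, a + b + 2 * x - 2 * ((1 - y) * x) = a + b + 2 * (y * x) :=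
    fun _ _ _ _ => by ring
  simp only [e, e2]
  rw [integral_add (int2 (by fun_prop)) (int2 (by fun_prop)), integral_add (int2 j1) (int2 j2),
    integral_const_mul, i1, i2]
  linarith

end StB

theorem PerLe.stein {G : Set P3} {c : ℝ} (hG : PerSet G) (hP : PerLe G c) : PerLe (P232.stein G) c := by
  intro Z hZ hb hp
  have mφ := measurable_sec hG.1
  have bφ : ∀ p, |sec G p| ≤ 1 := fun p => abs_le.2 ⟨by linarith [sec_nonneg G p], sec_le_one G p⟩
  have mχ : Measurable ({p | 0 < sec G p ∧ sec G p < 1}.indicator (1 : P2 → ℝ)) :=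
    measurable_one.indicator (mφ measurableSet_Ioo)
  have bχ : ∀ p, |{p | 0 < sec G p ∧ sec G p < 1}.indicator (1 : P2 → ℝ) p| ≤ 1 := fun p => by
    simpa using norm_indicator_le_norm_self (1 : P2 → ℝ) p
  let ρ : ℕ → ContDiffBump (0 : P2) := fun n =>
    ⟨1 / ((n : ℝ) + 1), 2 * (1 / ((n : ℝ) + 1)), Nat.one_div_pos_of_nat,
      lt_two_mul_self Nat.one_div_pos_of_nat⟩
  have h1 : Tendsto (fun n => (ρ n).rOut) atTop (𝓝 0) := by
    simpa only [mul_zero] using tendsto_one_div_add_atTop_nhds_zero_nat.const_mul (2 : ℝ)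
  have t1 := ContDiffBump.ae_convolution_tendsto_right_of_locallyIntegrable (K := 2) h1
    (Eventually.of_forall fun _ => le_rfl) (StB.locInt mφ bφ)
  have t2 := ContDiffBump.ae_convolution_tendsto_right_of_locallyIntegrable (K := 2) h1
    (Eventually.of_forall fun _ => le_rfl) (StB.locInt mχ bχ)
  have cZ := hZ.continuous
  have cJ := StB.J_cont (continuous_dv hZ)
  have cd : Continuous (StB.df fun x => (Z x).2.2) := by
    unfold StB.df
    fun_prop
  have cU : Continuous fun q : (P2 × ℝ) × ℝ =>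
      StB.J (dv Z) q.1 - 2 * ((1 - q.2) * StB.df (fun x => (Z x).2.2) q.1) := by fun_prop
  obtain ⟨C, hC⟩ := (isCompact_closedBall 0 1).exists_bound_of_continuousOn cU.continuousOn
  have := StB.fin2
  have lim := tendsto_integral_of_dominated_convergence (μ := volume.restrict box2)
    (F := fun n p => StB.J (dv Z) (p, StB.mo (ρ n) (sec G) p) - 2 * ((1 - StB.mo (ρ n)
      ({p | 0 < sec G p ∧ sec G p < 1}.indicator 1) p) *
        StB.df (fun x => (Z x).2.2) (p, StB.mo (ρ n) (sec G) p)))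
    (f := fun p => StB.J (dv Z) (p, sec G p)) (fun _ => C) (fun n => by
      have c1 := (StB.mo_c1 (ρ n) mφ bφ).continuous
      have c2 := (StB.mo_c1 (ρ n) mχ bχ).continuous
      exact Continuous.aestronglyMeasurable (by fun_prop)) (integrable_const C)
    (fun n => (ae_restrict_mem measurableSet_box2).mono fun p hp =>
      hC ((p, _), _) (mem_closedBall_zero_iff.2 (max_le (max_le
        (mem_closedBall_zero_iff.1 (StB.box2_sub hp)) (StB.mo_le _ bφ p)) (StB.mo_le _ bχ p))))
    (ae_restrict_of_ae (by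
      filter_upwards [t1, t2] with p h2 h3
      have h4 := (cU.tendsto _).comp ((tendsto_const_nhds (x := p)).prodMk_nhds h2 |>.prodMk_nhds h3)
      refine (congrArg (fun y => Tendsto _ _ (𝓝 y)) (sub_eq_self.2 ?_)).mp h4
      by_cases h5 : p ∈ {p | 0 < sec G p ∧ sec G p < 1}
      · simp [indicator_of_mem h5]
      · rcases (sec_nonneg G p).eq_or_lt with h6 | h6
        · simp [StB.df, ← h6]
        · have h7 := le_antisymm (sec_le_one G p) (not_lt.1 fun h => h5 ⟨h6, h⟩)
          have h8 := hp.2.2 (p.1, p.2, -1)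
          simp only [Prod.mk_add_mk, add_zero, show (-1 : ℝ) + 2 = 1 by norm_num] at h8
          simp [StB.df, h7, h8]))
  refine le_of_eq_of_le ?_ (le_of_tendsto' lim fun n => StB.step hG hP hZ hb hp (ρ n))
  rw [StB.fub (perSet_stein hG).1 (continuous_dv hZ)]
  refine integral_congr_ae (Eventually.of_forall fun p => ?_)
  simp only [StB.sect, StB.J]
  rw [intervalIntegral.integral_of_le (by linarith [sec_nonneg G p]), integral_Ioc_eq_integral_Ioo]

end Vale.Agent.P232
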