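import Vale.Agent.P232.PerInt
import Vale.Agent.P232.StB

open MeasureTheory Set Filter Topology
open scoped ENNReal

noncomputable section
namespace Vale.Agent.P232

/-! Task: the standard sets.  Perimeter bound: with `q = ∑ k_i x_i^2` and a smooth cut-off `θ` (`=1` on
` (-∞,R^2]`, `=0` on `[R^2+δ,∞)`, `θ' ≤ 0`), use `∫_box dv (θ(q) Z) = 0` and `∫_box dv (θ(q) (k_i x_i)_i) = 0`
(both fields extend periodically), then `δ → 0`. -/

theorem perSet_std (k c : P3) (R : ℝ) : PerSet (std k c R) := by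
  have := continuous_d2
  refine ⟨(isOpen_lt (by fun_prop) continuous_const).measurableSet, fun x => ?_, fun x => ?_,
    fun x => ?_⟩ <;> simp [std, add_sub_right_comm, d2_add_two]
theorem std_translate (k c : P3) (R : ℝ) : (fun x => x + c) ⁻¹' std k c R = std k 0 R := by
  ext x
  simp [std]
theorem rot_std (k c : P3) (R : ℝ) : rot (std k c R) = std (cyc k) (cyc c) R := by
  ext x
  simp only [rot, std, cyc, cycInv, mem_preimage, mem_ofPred_eq]
  constructor <;> intro h <;> linarith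
theorem KOk.cyc {k : P3} (h : KOk k) : KOk (P232.cyc k) :=
  ⟨h.2.1, h.2.2.1, h.1, fun e => h.2.2.2 (congrArg cycInv e)⟩

namespace Std

lemma face3 {f : P3 → ℝ} (hf : ContDiff ℝ 1 f) (h : ∀ x y, f (x, y, 1) = f (x, y, -1)) :
    ∫ x in box, fderiv ℝ f x (0, 0, 1) = 0 := by
  have cf := hf.continuous_fderiv one_ne_zero
  rw [← univ_inter box, StB.fub MeasurableSet.univ (by fun_prop)]
  refine integral_eq_zero_of_ae (Eventually.of_forall fun p => ?_)
  simp only [mem_univ, sep_true, Pi.zero_apply]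
  rw [← integral_Ioc_eq_integral_Ioo, ← intervalIntegral.integral_of_le (by norm_num),
    intervalIntegral.integral_eq_sub_of_hasDerivAt (fun z _ => StB.hd3 hf p z)
      (Continuous.intervalIntegrable (by fun_prop) _ _), h, sub_self]

lemma rotI {f : P3 → ℝ} (hf : ContDiff ℝ 1 f) (v : P3) :
    ∫ x in box, fderiv ℝ f x (cyc v) = ∫ x in box, fderiv ℝ (f ∘ cycL) x v := by
  have e : cyc ⁻¹' box = box := Set.ext fun x => and_rotate.symm
  rw [← measurePreserving_cyc.setIntegral_preimage_emb cycE.measurableEmbedding, e]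
  refine integral_congr_ae (Eventually.of_forall fun x => ?_)
  simp only [((hf.differentiable one_ne_zero _).hasFDerivAt.comp x cycL.hasFDerivAt).fderiv]
  rfl

lemma face2 {f : P3 → ℝ} (hf : ContDiff ℝ 1 f) (h : ∀ x z, f (x, 1, z) = f (x, -1, z)) :
    ∫ x in box, fderiv ℝ f x (0, 1, 0) = 0 :=
  (rotI hf (0, 0, 1)).trans (face3 (hf.comp cycL.contDiff) fun x y => h y x)

lemma face1 {f : P3 → ℝ} (hf : ContDiff ℝ 1 f) (h : ∀ y z, f (1, y, z) = f (-1, y, z)) :
    ∫ x in box, fderiv ℝ f x (1, 0, 0) = 0 :=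
  (rotI hf (0, 1, 0)).trans (face2 (hf.comp cycL.contDiff) fun x z => h z x)

def qq (k x : P3) : ℝ := k.1 * x.1 ^ 2 + k.2.1 * x.2.1 ^ 2 + k.2.2 * x.2.2 ^ 2
def xx (k x : P3) : P3 := (k.1 * x.1, k.2.1 * x.2.1, k.2.2 * x.2.2)

lemma qq_c1 (k : P3) : ContDiff ℝ 1 (qq k) := by
  unfold qq
  fun_prop

lemma xx_c1 (k : P3) : ContDiff ℝ 1 (xx k) := by
  unfold xx
  fun_prop

lemma fd_qq (k x v : P3) : fderiv ℝ (qq k) x v = 2 * dot (xx k x) v := by
  have h1 : HasFDerivAt (fun x : P3 => x.1) _ x := hasFDerivAt_fst (𝕜 := ℝ)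
  have h2 : HasFDerivAt (fun x : P3 => x.2.1) _ x := (hasFDerivAt_snd (𝕜 := ℝ)).fst
  have h3 : HasFDerivAt (fun x : P3 => x.2.2) _ x := (hasFDerivAt_snd (𝕜 := ℝ)).snd
  have h : HasFDerivAt (qq k) _ x := (((h1.pow 2).const_mul k.1).add
    ((h2.pow 2).const_mul k.2.1)).add ((h3.pow 2).const_mul k.2.2)
  rw [h.fderiv]
  simp [dot, xx]
  ring

lemma dv_xx (k x : P3) : dv (xx k) x = k.1 + k.2.1 + k.2.2 := by
  have h1 : HasFDerivAt (fun x : P3 => x.1) _ x := hasFDerivAt_fst (𝕜 := ℝ)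
  have h2 : HasFDerivAt (fun x : P3 => x.2.1) _ x := (hasFDerivAt_snd (𝕜 := ℝ)).fst
  have h3 : HasFDerivAt (fun x : P3 => x.2.2) _ x := (hasFDerivAt_snd (𝕜 := ℝ)).snd
  have h : HasFDerivAt (xx k) _ x := (h1.const_mul k.1).prodMk
    ((h2.const_mul k.2.1).prodMk (h3.const_mul k.2.2))
  rw [dv, h.fderiv]
  simp [trc, e1, e2, e3]

lemma dot_xx {k : P3} (hk : KOk k) (x : P3) : dot (xx k x) (xx k x) = qq k x := by
  obtain ⟨h1 | h1, h2 | h2, h3 | h3, -⟩ := hk <;> simp [dot, xx, qq, h1, h2, h3, pow_two]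

lemma key {k : P3} (hk : KOk k) {θ : ℝ → ℝ} (hθ : ContDiff ℝ 1 θ) (h1 : ∀ t, 1 ≤ t → θ t = 0)
    {W : P3 → P3} (hW : ContDiff ℝ 1 W)
    (f1 : k.1 = 0 → ∀ y z, (W (1, y, z)).1 = (W (-1, y, z)).1)
    (f2 : k.2.1 = 0 → ∀ x z, (W (x, 1, z)).2.1 = (W (x, -1, z)).2.1)
    (f3 : k.2.2 = 0 → ∀ x y, (W (x, y, 1)).2.2 = (W (x, y, -1)).2.2) :
    ∫ x in box, (θ (qq k x) * dv W x + deriv θ (qq k x) * (2 * dot (xx k x) (W x))) = 0 := by
  have hT : ContDiff ℝ 1 fun x => θ (qq k x) := hθ.comp (qq_c1 k)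
  have hU : ContDiff ℝ 1 fun x => θ (qq k x) • W x := hT.smul hW
  have e : ∀ x, θ (qq k x) * dv W x + deriv θ (qq k x) * (2 * dot (xx k x) (W x)) =
      dv (fun x => θ (qq k x) • W x) x := fun x => by
    have h : HasFDerivAt (fun x => θ (qq k x) • W x) _ x :=
      ((hθ.differentiable one_ne_zero _).hasDerivAt.comp_hasFDerivAt x
        ((qq_c1 k).differentiable one_ne_zero x).hasFDerivAt).smul
        (hW.differentiable one_ne_zero x).hasFDerivAt
    rw [dv, dv, h.fderiv]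
    simp [trc, fd_qq, dot, e1, e2, e3]
    ring
  have n1 : 0 ≤ k.1 := by rcases hk.1 with h | h <;> simp [h]
  have n2 : 0 ≤ k.2.1 := by rcases hk.2.1 with h | h <;> simp [h]
  have n3 : 0 ≤ k.2.2 := by rcases hk.2.2.1 with h | h <;> simp [h]
  have c1 := hU.fst.continuous_fderiv one_ne_zero
  have c2 := hU.snd.fst.continuous_fderiv one_ne_zero
  have c3 := hU.snd.snd.continuous_fderiv one_ne_zero
  simp only [e, StB.dv_eq hU]
  rw [integral_add (StB.int3 (by fun_prop)) (StB.int3 (by fun_prop)),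
    integral_add (StB.int3 (by fun_prop)) (StB.int3 (by fun_prop)), face1 hU.fst fun y z => ?_,
    face2 hU.snd.fst fun x z => ?_, face3 hU.snd.snd fun x y => ?_, add_zero, add_zero]
  · rcases hk.2.2.1 with h | h
    · simp [qq, f3 h]
    · have := h1 (k.1 * x ^ 2 + k.2.1 * y ^ 2 + 1) (le_add_of_nonneg_left (by positivity))
      simp [qq, h, this]
  · rcases hk.2.1 with h | h
    · simp [qq, f2 h]
    · have := h1 (k.1 * x ^ 2 + 1 + k.2.2 * z ^ 2) (by
        linarith [mul_nonneg n1 (sq_nonneg x), mul_nonneg n3 (sq_nonneg z)])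
      simp [qq, h, this]
  · rcases hk.1 with h | h
    · simp [qq, f1 h]
    · have := h1 (1 + k.2.1 * y ^ 2 + k.2.2 * z ^ 2) (by
        linarith [mul_nonneg n2 (sq_nonneg y), mul_nonneg n3 (sq_nonneg z)])
      simp [qq, h, this]

def th (R r t : ℝ) : ℝ := Real.smoothTransition ((R ^ 2 - t) / (R ^ 2 - r ^ 2))

lemma th_zero {R r t : ℝ} (h : r ^ 2 < R ^ 2) (ht : R ^ 2 ≤ t) : th R r t = 0 :=
  Real.smoothTransition.zero_of_nonpos (div_nonpos_of_nonpos_of_nonneg (sub_nonpos.2 ht)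
    (sub_nonneg.2 h.le))

lemma th_one {R r t : ℝ} (h : r ^ 2 < R ^ 2) (ht : t ≤ r ^ 2) : th R r t = 1 :=
  Real.smoothTransition.one_of_one_le ((one_le_div (sub_pos.2 h)).2 (by linarith))

lemma th_c1 (R r : ℝ) : ContDiff ℝ 1 (th R r) :=
  Real.smoothTransition.contDiff.comp (by fun_prop)

lemma step {k : P3} (hk : KOk k) {R r : ℝ} (h0 : 0 < r) (hr : r < R) (h1 : R < 1) {Z : P3 → P3}
    (hZ : ContDiff ℝ 1 Z) (hb : ∀ x, nrm (Z x) ≤ 1) (hp : Periodic3 Z) :
    ∫ x in box, th R r (qq k x) * (dv Z x - (k.1 + k.2.1 + k.2.2) / r) ≤ 0 := by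
  have hR : r ^ 2 < R ^ 2 := by nlinarith
  have hz : ∀ t, 1 ≤ t → th R r t = 0 := fun t ht => th_zero hR (by nlinarith)
  have two : (-1 : ℝ) + 2 = 1 := by norm_num
  have k1 := key hk (th_c1 R r) hz hZ
    (fun _ y z => by simpa [two] using congrArg (fun u : P3 => u.1) (hp.1 (-1, y, z)))
    (fun _ y z => by simpa [two] using congrArg (fun u : P3 => u.2.1) (hp.2.1 (y, -1, z)))
    (fun _ y z => by simpa [two] using congrArg (fun u : P3 => u.2.2) (hp.2.2 (y, z, -1)))
  have k2 := key hk (th_c1 R r) hz (xx_c1 k) (fun h _ _ => by simp [xx, h])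
    (fun h _ _ => by simp [xx, h]) (fun h _ _ => by simp [xx, h])
  simp only [dv_xx, dot_xx hk] at k2
  have c1 := (th_c1 R r).continuous
  have c2 := (th_c1 R r).continuous_deriv le_rfl
  have c3 := (qq_c1 k).continuous
  have c4 := (xx_c1 k).continuous
  have c5 := continuous_dv hZ
  have c6 := hZ.continuous
  have c7 : Continuous fun x => dot (xx k x) (Z x) := by
    unfold dot
    fun_prop
  have k3 := integral_sub (μ := volume.restrict box)
    (StB.int3 (f := fun x => th R r (qq k x) * dv Z x +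
      deriv (th R r) (qq k x) * (2 * dot (xx k x) (Z x))) (by fun_prop))
    (StB.int3 (f := fun x => (th R r (qq k x) * (k.1 + k.2.1 + k.2.2) +
      deriv (th R r) (qq k x) * (2 * qq k x)) / r) (by fun_prop))
  rw [integral_div, k1, k2, zero_div, sub_zero] at k3
  refine le_of_le_of_eq (integral_mono (StB.int3 (by fun_prop)) (StB.int3 (by fun_prop))
    fun x => ?_) k3
  have h2 : 0 ≤ deriv (th R r) (qq k x) * (dot (xx k x) (Z x) - qq k x / r) := by
    rcases le_total (qq k x) (r ^ 2) with h | h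
    · rw [IsLocalMax.deriv_eq_zero (Eventually.of_forall fun t =>
        (th_one hR h).symm ▸ Real.smoothTransition.le_one _), zero_mul]
    · refine mul_nonneg_of_nonpos_of_nonpos (Antitone.deriv_nonpos fun a b hab =>
        Real.smoothTransition.monotone (div_le_div_of_nonneg_right (by linarith)
          (sub_nonneg.2 hR.le))) (sub_nonpos.2 ((le_div_iff₀ h0).2 ?_))
      have h3 := (le_abs_self _).trans ((abs_dot_le (xx k x) (Z x)).trans
        (mul_le_of_le_one_right (nrm_nonneg _) (hb x)))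
      rw [← dot_xx hk, dot_self] at h ⊢
      have h4 := (pow_le_pow_iff_left₀ h0.le (nrm_nonneg _) two_ne_zero).1 h
      nlinarith [nrm_nonneg (xx k x)]
  have e : ∀ a b c d m q : ℝ, a * b + c * (2 * d) - (a * m + c * (2 * q)) / r =
      a * (b - m / r) + 2 * (c * (d - q / r)) := fun _ _ _ _ _ _ => by ring
  simp only [e]
  linarith

lemma mem_std {k x : P3} {R : ℝ} (hx : x ∈ box) : x ∈ std k 0 R ↔ qq k x < R ^ 2 := by
  simp [std, qq, d2_of_abs_le (abs_lt.2 hx.1).le, d2_of_abs_le (abs_lt.2 hx.2.1).le,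
    d2_of_abs_le (abs_lt.2 hx.2.2).le]

lemma per0 {k : P3} (hk : KOk k) {R : ℝ} (h0 : 0 < R) (h1 : R < 1) :
    PerLe (std k 0 R) ((k.1 + k.2.1 + k.2.2) * volB (std k 0 R) / R) := by
  intro Z hZ hb hp
  have c3 := (qq_c1 k).continuous
  have c5 := continuous_dv hZ
  have hS := (perSet_std k 0 R).1
  generalize hm : k.1 + k.2.1 + k.2.2 = m
  have ev : ∀ᶠ r in 𝓝[<] R, r ∈ Ioo (R / 2) R := Ioo_mem_nhdsLT (half_lt_self h0)
  have lim := tendsto_integral_filter_of_dominated_convergence (μ := volume.restrict box)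
    (l := 𝓝[<] R) (F := fun r x => th R r (qq k x) * (dv Z x - m / r))
    (f := (std k 0 R).indicator fun x => dv Z x - m / R) (fun x => |dv Z x| + |m| / (R / 2))
    (Eventually.of_forall fun r => by
      have c1 := (th_c1 R r).continuous
      exact Continuous.aestronglyMeasurable (by fun_prop))
    (ev.mono fun r hr => Eventually.of_forall fun x => by
      have h2 : 0 < r := (half_pos h0).trans hr.1
      rw [norm_mul]
      refine (mul_le_of_le_one_left (norm_nonneg _) (abs_le.2 ⟨neg_one_lt_zero.le.trans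
        (Real.smoothTransition.nonneg _), Real.smoothTransition.le_one _⟩)).trans
        ((abs_sub _ _).trans (add_le_add le_rfl ?_))
      rw [abs_div, abs_of_pos h2]
      exact div_le_div_of_nonneg_left (abs_nonneg _) (half_pos h0) hr.1.le)
    (StB.int3 (by fun_prop))
    ((ae_restrict_mem measurableSet_box).mono fun x hx => by
      have hr : ∀ r ∈ Ioo (R / 2) R, r ^ 2 < R ^ 2 := fun r hr => by nlinarith [hr.1, hr.2]
      by_cases h : x ∈ std k 0 R
      · rw [indicator_of_mem h]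
        have h2 : ∀ᶠ r in 𝓝[<] R, qq k x < r ^ 2 := ((continuous_pow 2).tendsto R).eventually
          (lt_mem_nhds ((mem_std hx).1 h)) |>.filter_mono nhdsWithin_le_nhds
        refine Tendsto.congr' ?_ ((tendsto_const_nhds.sub (tendsto_const_nhds.div tendsto_id
          h0.ne')).mono_left nhdsWithin_le_nhds)
        filter_upwards [ev, h2] with r h3 h4
        rw [th_one (hr r h3) h4.le, one_mul]
        rfl
      · rw [indicator_of_notMem h]
        refine tendsto_const_nhds.congr' (ev.mono fun r h3 => ?_)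
        simp only [th_zero (hr r h3) (not_lt.1 (mt (mem_std hx).2 h)), zero_mul])
  have h2 := le_of_tendsto lim (ev.mono fun r hr =>
    hm ▸ step hk ((half_pos h0).trans hr.1) hr.2 h1 hZ hb hp)
  rw [setIntegral_indicator hS, inter_comm,
    integral_sub ((StB.int3 c5).mono_set inter_subset_right)
      ((StB.int3 continuous_const).mono_set inter_subset_right), setIntegral_const] at h2
  have e : volume.real (std k 0 R ∩ box) • (m / R) = m * volB (std k 0 R) / R := by
    rw [smul_eq_mul, volB, Measure.real]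
    ring
  linarith

lemma volB0 (k c : P3) (R : ℝ) : volB (std k c R) = volB (std k 0 R) := by
  rw [← std_translate k c R, volB_translate (perSet_std k c R)]

lemma abs_lt_one {R t : ℝ} (h0 : 0 < R) (h1 : R < 1) (h : t ^ 2 < R ^ 2) : t ∈ Ioo (-1 : ℝ) 1 :=
  abs_lt.1 ((abs_lt_of_sq_lt_sq h h0.le).trans h1)

end Std

theorem perLe_std {k : P3} (hk : KOk k) (c : P3) {R : ℝ} (h0 : 0 < R) (h1 : R < 1) :
    PerLe (std k c R) ((k.1 + k.2.1 + k.2.2) * volB (std k c R) / R) := by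
  have h := (Std.per0 hk h0 h1).translate (perSet_std k 0 R) (-c)
  have e : (fun x => x + -c) ⁻¹' std k 0 R = std k c R := by
    ext x
    simp [std, sub_eq_add_neg]
  rwa [e, ← Std.volB0 k c R] at h
theorem volB_std_ball (c : P3) {R : ℝ} (h0 : 0 < R) (h1 : R < 1) :
    volB (std (1, 1, 1) c R) = 4 * Real.pi * R ^ 3 / 3 := by
  have h := (((MeasurePreserving.id (volume : Measure ℝ)).prod
    (volume_preserving_finTwoArrow ℝ)).comp
    (volume_preserving_piFinSuccAbove (fun _ : Fin 3 => ℝ) 0)).comp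
    (PiLp.volume_preserving_ofLp (Fin 3))
  have e : std (1, 1, 1) 0 R ∩ box = {x | x.1 ^ 2 + x.2.1 ^ 2 + x.2.2 ^ 2 < R ^ 2} := by
    ext x
    refine ⟨fun h => by simpa [Std.qq] using (Std.mem_std h.2).1 h.1, fun h => ?_⟩
    have h : x.1 ^ 2 + x.2.1 ^ 2 + x.2.2 ^ 2 < R ^ 2 := h
    have hx : x ∈ box := ⟨Std.abs_lt_one h0 h1 (by nlinarith [sq_nonneg x.2.1, sq_nonneg x.2.2]),
      Std.abs_lt_one h0 h1 (by nlinarith [sq_nonneg x.1, sq_nonneg x.2.2]),
      Std.abs_lt_one h0 h1 (by nlinarith [sq_nonneg x.1, sq_nonneg x.2.1])⟩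
    exact ⟨(Std.mem_std hx).2 (by simpa [Std.qq] using h), hx⟩
  have h2 := h.measure_preimage (s := {x : P3 | x.1 ^ 2 + x.2.1 ^ 2 + x.2.2 ^ 2 < R ^ 2})
    (isOpen_lt (by fun_prop) continuous_const).measurableSet.nullMeasurableSet
  have h3 := EuclideanSpace.volume_ball_fin_three 0 R
  rw [EuclideanSpace.ball_zero_eq R h0.le] at h3
  simp only [Fin.sum_univ_three] at h3
  rw [Std.volB0, volB, e, show volume {x : P3 | x.1 ^ 2 + x.2.1 ^ 2 + x.2.2 ^ 2 < R ^ 2} = _ from
    h2.symm.trans h3, ENNReal.toReal_mul, ENNReal.toReal_pow, ENNReal.toReal_ofReal h0.le,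
    ENNReal.toReal_ofReal (by positivity)]
  ring
theorem volB_std_tube (c : P3) {R : ℝ} (h0 : 0 < R) (h1 : R < 1) :
    volB (std (1, 1, 0) c R) = 2 * Real.pi * R ^ 2 := by
  have e : std (0, 1, 1) 0 R ∩ box = Ioo (-1) 1 ×ˢ {p : P2 | p.1 ^ 2 + p.2 ^ 2 < R ^ 2} := by
    ext x
    refine ⟨fun h => ⟨h.2.1, by simpa [Std.qq] using (Std.mem_std h.2).1 h.1⟩, fun h => ?_⟩
    have h2 : x.2.1 ^ 2 + x.2.2 ^ 2 < R ^ 2 := h.2
    have hx : x ∈ box := ⟨h.1, Std.abs_lt_one h0 h1 (by nlinarith [sq_nonneg x.2.2]),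
      Std.abs_lt_one h0 h1 (by nlinarith [sq_nonneg x.2.1])⟩
    exact ⟨(Std.mem_std hx).2 (by simpa [Std.qq] using h2), hx⟩
  have h2 := ((volume_preserving_finTwoArrow ℝ).comp
    (PiLp.volume_preserving_ofLp (Fin 2))).measure_preimage
    (s := {p : P2 | p.1 ^ 2 + p.2 ^ 2 < R ^ 2})
    (isOpen_lt (by fun_prop) continuous_const).measurableSet.nullMeasurableSet
  have h3 := EuclideanSpace.volume_ball_fin_two 0 R
  rw [EuclideanSpace.ball_zero_eq R h0.le] at h3
  simp only [Fin.sum_univ_two] at h3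
  rw [Std.volB0, show std (1, 1, 0) 0 R = rot (std (0, 1, 1) 0 R) from (rot_std (0, 1, 1) 0 R).symm,
    volB_rot _ (perSet_std _ _ _).1, volB, e, Measure.volume_eq_prod, Measure.prod_prod,
    show volume {p : P2 | p.1 ^ 2 + p.2 ^ 2 < R ^ 2} = _ from h2.symm.trans h3, Real.volume_Ioo,
    ENNReal.toReal_mul, ENNReal.toReal_mul, ENNReal.toReal_pow, ENNReal.toReal_ofReal h0.le,
    ENNReal.toReal_ofReal (by norm_num), ENNReal.toReal_ofReal Real.pi_pos.le]
  ring
theorem volB_std_slab (c : P3) {R : ℝ} (h0 : 0 < R) (h1 : R < 1) :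
    volB (std (0, 0, 1) c R) = 8 * R := by
  have e : std (0, 0, 1) 0 R ∩ box = Ioo (-1) 1 ×ˢ Ioo (-1) 1 ×ˢ Ioo (-R) R := by
    ext x
    refine ⟨fun h => ⟨h.2.1, h.2.2.1, abs_lt.1 (abs_lt_of_sq_lt_sq
      (by simpa [Std.qq] using (Std.mem_std h.2).1 h.1) h0.le)⟩, fun h => ?_⟩
    have h2 : x.2.2 ^ 2 < R ^ 2 := sq_lt_sq' h.2.2.1 h.2.2.2
    have hx : x ∈ box := ⟨h.1, h.2.1, Std.abs_lt_one h0 h1 h2⟩
    exact ⟨(Std.mem_std hx).2 (by simpa [Std.qq] using h2), hx⟩
  rw [Std.volB0, volB, e, Measure.volume_eq_prod, Measure.prod_prod, Measure.volume_eq_prod,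
    Measure.prod_prod, Real.volume_Ioo, Real.volume_Ioo, ENNReal.toReal_mul, ENNReal.toReal_mul,
    ENNReal.toReal_ofReal (by norm_num), ENNReal.toReal_ofReal (by linarith)]
  ring
/-- a standard set of every volume `8 v`, `v ≤ 1/2`, with perimeter at most `8 Jc v` -/
theorem exists_std {v : ℝ} (h0 : 0 < v) (h1 : v ≤ 1 / 2) :
    ∃ G : Set P3, PerSet G ∧ volB G = 8 * v ∧ PerLe G (8 * Jc v) := by
  have hπ := Real.pi_gt_three
  rw [Jc, min_eq_left (show v ≤ 1 - v by linarith)]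
  rcases min_choice ((9 * Real.pi / 2) ^ (1 / 3 : ℝ) * v ^ (2 / 3 : ℝ)) (min (√(Real.pi * v)) 1)
    with h | h
  · obtain ⟨R, hR, e⟩ : ∃ R : ℝ, 0 < R ∧ R ^ 3 = 6 * v / Real.pi :=
      ⟨_, by positivity, Real.rpow_inv_natCast_pow (by positivity) three_ne_zero⟩
    have hR1 : R < 1 := lt_of_pow_lt_pow_left₀ 3 zero_le_one (by
      rw [e, one_pow, div_lt_one Real.pi_pos]
      linarith)
    have hv : volB (std (1, 1, 1) 0 R) = 8 * v := by
      rw [volB_std_ball 0 hR hR1, e]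
      field_simp
      ring
    have h2 := perLe_std (k := (1, 1, 1)) (by simp [KOk]) 0 hR hR1
    have h3 : (9 * Real.pi / 2) ^ (1 / 3 : ℝ) * v ^ (2 / 3 : ℝ) * R = 3 * v := by
      rw [← pow_left_inj₀ (by positivity) (by positivity) three_ne_zero, mul_pow, mul_pow, e,
        ← Real.rpow_natCast, ← Real.rpow_mul (by positivity), ← Real.rpow_natCast,
        ← Real.rpow_mul h0.le]
      norm_num
      field_simp
      ring
    refine ⟨_, perSet_std _ _ _, hv, (congrArg _ ?_).mp h2⟩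
    rw [h, hv, div_eq_iff hR.ne', mul_assoc, h3]
    ring
  rcases min_choice (√(Real.pi * v)) 1 with h' | h'
  · obtain ⟨R, hR, e⟩ : ∃ R : ℝ, 0 < R ∧ R ^ 2 = 4 * v / Real.pi :=
      ⟨_, by positivity, Real.sq_sqrt (by positivity)⟩
    have hR1 : R < 1 := lt_of_pow_lt_pow_left₀ 2 zero_le_one (by
      rw [e, one_pow, div_lt_one Real.pi_pos]
      linarith)
    have hv : volB (std (1, 1, 0) 0 R) = 8 * v := by
      rw [volB_std_tube 0 hR hR1, e]
      field_simp
      ring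
    have h2 := perLe_std (k := (1, 1, 0)) (by simp [KOk]) 0 hR hR1
    have h3 : √(Real.pi * v) * R = 2 * v := by
      rw [← pow_left_inj₀ (by positivity) (by positivity) two_ne_zero, mul_pow, e,
        Real.sq_sqrt (by positivity)]
      field_simp
      ring
    refine ⟨_, perSet_std _ _ _, hv, (congrArg _ ?_).mp h2⟩
    rw [h, h', hv, div_eq_iff hR.ne', mul_assoc, h3]
    ring
  · have hv := volB_std_slab 0 h0 (by linarith)
    have h2 := perLe_std (k := (0, 0, 1)) (by simp [KOk]) 0 h0 (by linarith)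
    refine ⟨_, perSet_std _ _ _, hv, (congrArg _ ?_).mp h2⟩
    rw [h, h', hv, div_eq_iff h0.ne']
    ring

end Vale.Agent.P232
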