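import Vale.Agent.P232.Flux
import Vale.Agent.P232.SliceIso
import Vale.Agent.P232.Std
import Vale.Agent.P232.Refl
import Vale.Agent.P232.Ball_1

open MeasureTheory Set Filter Topology
open scoped ENNReal

noncomputable section
namespace Vale.Agent.P232

/-! Task: sharp isoperimetric inequality in the octant with its equality case.
`ball_dir`: let `a t = ar (slice E t)`, `B τ = π/4 (R² - τ²)`, and `τ : [0,1] → [0,R]` continuous increasing with
`∫_0^{τ t} B = ∫_0^t a`.  `wt ≥ √(1 - τ²/R²) √(rho₁²+rho₂²) + (τ/R) rho₃` with equality iff `rho₃/wt = τ/R`.  By `slice_iso` and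
`∫ τ(hgt) = ∫ τ' a` (`τ' = a / B τ` off a countable set, truncate below the top), `area ≥ ∫ (a/R)(2 √(B/a) + a/B) ≥ 3 v / R` (AM-GM);
equality forces `a = B τ` a.e., so `τ t = t` below the top. -/

variable {E : Set P3}

/-- the defect in the calibration inequality -/
def ballDef (E : Set P3) (σ : ℝ → ℝ) (x : P3) : ℝ :=
  wt E x - √(1 - σ x.2.2 ^ 2) * √((rho E x).1 ^ 2 + (rho E x).2.1 ^ 2) - σ x.2.2 * (rho E x).2.2

theorem ball_wt (E : Set P3) (x : P3) :
    wt E x = √(√((rho E x).1 ^ 2 + (rho E x).2.1 ^ 2) ^ 2 + (rho E x).2.2 ^ 2) := by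
  rw [Real.sq_sqrt (add_nonneg (sq_nonneg _) (sq_nonneg _))]
  rfl

theorem ballDef_spec {σ : ℝ → ℝ} (hσ : ∀ t, σ t ^ 2 ≤ 1) (x : P3) :
    0 ≤ ballDef E σ x ∧ (ballDef E σ x = 0 → (rho E x).2.2 = σ x.2.2 * wt E x) := by
  rw [ballDef, ball_wt]
  exact ball_cs (hσ _)

theorem Adm.ball_split (h : Adm E) {σ : ℝ → ℝ} (hc : Continuous σ) (hσ : ∀ t, σ t ^ 2 ≤ 1) :
    IntegrableOn (ballDef E σ) Q (nu E) ∧ area E = (∫ x in Q, ballDef E σ x ∂(nu E)) +
      (∫ x in Q, √(1 - σ x.2.2 ^ 2) * √((rho E x).1 ^ 2 + (rho E x).2.1 ^ 2) ∂(nu E)) +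
      ∫ p in dom E ∩ sq, σ (hgt E p) := by
  have m1 := measurable_rho E
  have m2 := hc.measurable
  have i1 : IntegrableOn (wt E) Q (nu E) := h.integrableOn_Q (measurable_wt E) (M := 1)
    (h.wt_bounds.mono fun x hx _ => abs_le.2 ⟨by linarith [hx.1], hx.2⟩)
  have i2 : IntegrableOn (fun x => √(1 - σ x.2.2 ^ 2) * √((rho E x).1 ^ 2 + (rho E x).2.1 ^ 2)) Q
      (nu E) := h.integrableOn_Q (by fun_prop) (M := 1) (h.rho_sum.mono fun x hx _ => by
    obtain ⟨h1, h2, h3⟩ := rho_nonneg E x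
    rw [abs_of_nonneg (by positivity)]
    exact mul_le_one₀ (Real.sqrt_le_one.2 (by nlinarith [sq_nonneg (σ x.2.2)]))
      (Real.sqrt_nonneg _) (Real.sqrt_le_one.2 (by nlinarith [mul_nonneg h1 h2])))
  have i3 : IntegrableOn (fun x => σ x.2.2 * (rho E x).2.2) Q (nu E) :=
    h.integrableOn_Q (by fun_prop) (M := 1) (h.rho_sum.mono fun x hx _ => by
      obtain ⟨h1, h2, h3⟩ := rho_nonneg E x
      rw [abs_mul, abs_of_nonneg h3]
      exact mul_le_one₀ ((sq_le_one_iff_abs_le_one _).1 (hσ _)) h3 (by linarith))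
  refine ⟨(i1.sub i2).sub i3, ?_⟩
  have e1 := integral_sub (i1.sub i2) i3
  have e2 := integral_sub i1 i2
  have e3 := h.integral_Q_rho3 (F := fun x => σ x.2.2) (by fun_prop)
  simp only [Pi.sub_apply] at e1
  unfold area ballDef
  linarith

theorem ball_sq_fin (s : Set P2) : volume (s ∩ sq) ≠ ⊤ :=
  ((measure_mono inter_subset_right).trans_lt (volume_sq.trans_lt ENNReal.one_lt_top)).ne

theorem Adm.ball_layer (h : Adm E) (h3 : ((0, 0, 1) : P3) ∉ E) {v s : ℝ} (hv : 0 < v)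
    (hs : s ∈ Icc (0 : ℝ) 1) (hV : ∫ u in (0 : ℝ)..s, ar (P232.slice E u) < v) :
    ∫ t in (0 : ℝ)..s, ballPsi (fun u => ar (P232.slice E u)) v t * ar (P232.slice E t) ≤
      ∫ p in dom E ∩ sq, ballSig (fun u => ar (P232.slice E u)) v (hgt E p) := by
  have ha := h.antitone_ar
  have h0 : ∀ t, 0 ≤ ar (P232.slice E t) := fun t => ar_nonneg _
  have h1 : ∀ t, ar (P232.slice E t) ≤ 1 := fun t => ar_le_one _
  obtain ⟨M, hM0, hM⟩ := ballPsi_bdd ha h0 h1 hv hs.1 hV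
  have hb : bb E = 0 := le_antisymm (not_lt.1 fun h4 => h3 (h.bb_pos_iff.1 h4)) (ar_nonneg _)
  have h4 := h.integral_comp_hgt
    (Ψ := fun t => ballSig (fun u => ar (P232.slice E u)) v (min t s))
    ((ballPsi_meas (v := v) ha).indicator (measurableSet_Ioc (a := 0) (b := s))) (M := M)
    (fun t => by
      by_cases ht : t ∈ Ioc 0 s
      · rw [indicator_of_mem ht]
        exact hM t ht
      · rw [indicator_of_notMem ht, abs_zero]
        exact hM0)
    (fun t ht => by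
      have h5 : 0 ≤ min t s := le_min ht.1 hs.1
      rw [min_eq_left hs.1, ballSig_zero, zero_add, intervalIntegral.integral_of_le ht.1,
        setIntegral_indicator measurableSet_Ioc, Ioc_inter_Ioc, max_self,
        ← intervalIntegral.integral_of_le h5,
        ballPsi_ftc ha h0 h1 hv h5 ((ballV_mono ha h0 (min_le_right _ _)).trans_lt hV)])
  have h5 : ∀ t, (Ioc 0 s).indicator (ballPsi (fun u => ar (P232.slice E u)) v) t *
      ar (P232.slice E t) = (Ioc 0 s).indicator (fun t =>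
        ballPsi (fun u => ar (P232.slice E u)) v t * ar (P232.slice E t)) t := fun t =>
    (indicator_mul_left _ _ fun t => ar (P232.slice E t)).symm
  simp only [h5] at h4
  rw [min_eq_left hs.1, ballSig_zero, hb, zero_mul, mul_zero, sub_zero, zero_add,
    ← integral_Ioc_eq_integral_Ioo, setIntegral_indicator measurableSet_Ioc, Ioc_inter_Ioc,
    max_self, min_eq_right hs.2, ← intervalIntegral.integral_of_le hs.1] at h4
  rw [← h4]
  have m1 := measurable_hgt h.measurableSet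
  have m2 := (ballSig_cont (v := v) ha).measurable
  have i1 : ∀ f : P2 → ℝ, Measurable f → IntegrableOn
      (fun p => ballSig (fun u => ar (P232.slice E u)) v (f p)) (dom E ∩ sq) := fun f hf =>
    Measure.integrableOn_of_bounded (M := 1) (ball_sq_fin _) (m2.comp hf).aestronglyMeasurable
      (Eventually.of_forall fun p => (sq_le_one_iff_abs_le_one _).1 (ballSig_sq _))
  exact integral_mono (i1 _ (m1.min measurable_const)) (i1 _ m1) fun p =>
    ballSig_mono ha h0 hv (min_le_left _ _)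

/-- the defect in the one dimensional inequality -/
def ballD (a : ℝ → ℝ) (R t : ℝ) : ℝ :=
  √(1 - ballSig a (Real.pi * R ^ 3 / 6) t ^ 2) * √(Real.pi * a t) +
    ballPsi a (Real.pi * R ^ 3 / 6) t * a t - 3 / R * a t

theorem Adm.ball_main (h : Adm E) (h1 : ((1, 0, 0) : P3) ∉ E) (h2 : ((0, 1, 0) : P3) ∉ E)
    (h3 : ((0, 0, 1) : P3) ∉ E) {R s : ℝ} (hR : 0 < R) (hs : s ∈ Icc (0 : ℝ) 1)
    (hV : ∫ u in (0 : ℝ)..s, ar (P232.slice E u) < Real.pi * R ^ 3 / 6) :
    IntervalIntegrable (ballD (fun u => ar (P232.slice E u)) R) volume 0 s ∧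
    (∫ x in Q, ballDef E (ballSig (fun u => ar (P232.slice E u)) (Real.pi * R ^ 3 / 6)) x ∂(nu E)) +
      3 / R * (∫ u in (0 : ℝ)..s, ar (P232.slice E u)) +
      ∫ t in (0 : ℝ)..s, ballD (fun u => ar (P232.slice E u)) R t ≤ area E := by
  have ha := h.antitone_ar
  have h0 : ∀ t, 0 ≤ ar (P232.slice E t) := fun t => ar_nonneg _
  have h01 : ∀ t, ar (P232.slice E t) ≤ 1 := fun t => ar_le_one _
  have hv : 0 < Real.pi * R ^ 3 / 6 := by positivity
  have hc := ballSig_cont (v := Real.pi * R ^ 3 / 6) ha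
  have m1 := hc.measurable
  have m2 := ha.measurable
  have h4 := (h.ball_split hc ballSig_sq).2
  have h5 := h.ball_layer h3 hv hs hV
  have h6 := h.slice_iso h1 h2
    (ψ := fun t => √(1 - ballSig (fun u => ar (P232.slice E u)) (Real.pi * R ^ 3 / 6) t ^ 2))
    (by fun_prop) (fun _ => Real.sqrt_nonneg _)
    fun t => Real.sqrt_le_one.2 (sub_le_self _ (sq_nonneg _))
  have i1 : IntervalIntegrable (fun t =>
      √(1 - ballSig (fun u => ar (P232.slice E u)) (Real.pi * R ^ 3 / 6) t ^ 2) *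
        √(Real.pi * ar (P232.slice E t))) volume 0 1 :=
    ball_intble (by fun_prop) zero_le_one (M := 1 * √(Real.pi * 1)) fun t _ => by
      rw [abs_of_nonneg (by positivity)]
      have h7 := h01 t
      gcongr
      exact Real.sqrt_le_one.2 (sub_le_self _ (sq_nonneg _))
  have i1' := i1.mono_set (c := 0) (d := s) (by
    rw [uIcc_of_le hs.1, uIcc_of_le zero_le_one]
    exact Icc_subset_Icc le_rfl hs.2)
  obtain ⟨M, hM0, hM⟩ := ballPsi_bdd ha h0 h01 hv hs.1 hV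
  have i2 : IntervalIntegrable (fun t => ballPsi (fun u => ar (P232.slice E u))
      (Real.pi * R ^ 3 / 6) t * ar (P232.slice E t)) volume 0 s :=
    ball_intble ((ballPsi_meas ha).mul m2) hs.1 (M := M * 1) fun t ht => by
      rw [Pi.mul_apply, abs_mul, abs_of_nonneg (h0 t)]
      exact mul_le_mul (hM t ht) (h01 t) (h0 t) hM0
  have i3 := (ha.intervalIntegrable (μ := volume) (a := 0) (b := s)).const_mul (3 / R)
  have h7 := intervalIntegral.integral_mono_interval (μ := volume) le_rfl hs.1 hs.2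
    (Eventually.of_forall fun t => by positivity) i1
  rw [← integral_Ioc_eq_integral_Ioo, ← intervalIntegral.integral_of_le zero_le_one] at h6
  refine ⟨(i1'.add i2).sub i3, ?_⟩
  unfold ballD
  rw [intervalIntegral.integral_sub (i1'.add i2) i3, intervalIntegral.integral_add i1' i2,
    intervalIntegral.integral_const_mul]
  linarith

theorem ballD_spec {a : ℝ → ℝ} (ha : Antitone a) (h0 : ∀ t, 0 ≤ a t) {R s t : ℝ} (hR : 0 < R)
    (hV : ∫ u in (0 : ℝ)..s, a u < Real.pi * R ^ 3 / 6) (ht : t ∈ Icc 0 s) :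
    0 ≤ ballD a R t ∧ (0 < a t → ballD a R t = 0 → ballPsi a (Real.pi * R ^ 3 / 6) t = 1 / R) :=
  ball_amgm (h0 t) (ballSig_lt ha h0 (by positivity) ht.1
    ((ballV_mono ha h0 ht.2).trans_lt hV)) hR

theorem Adm.ball_lim (h : Adm E) (h1 : ((1, 0, 0) : P3) ∉ E) (h2 : ((0, 1, 0) : P3) ∉ E)
    (h3 : ((0, 0, 1) : P3) ∉ E) {R s : ℝ} (hR : 0 < R) (hs : s ∈ Icc (0 : ℝ) 1)
    (hv : ∫ u in (0 : ℝ)..1, ar (P232.slice E u) = Real.pi * R ^ 3 / 6)
    (hV : ∫ u in (0 : ℝ)..s, ar (P232.slice E u) < Real.pi * R ^ 3 / 6) :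
    (∫ x in Q, ballDef E (ballSig (fun u => ar (P232.slice E u)) (Real.pi * R ^ 3 / 6)) x ∂(nu E)) +
      Real.pi * R ^ 2 / 2 + ∫ t in (0 : ℝ)..s, ballD (fun u => ar (P232.slice E u)) R t ≤
        area E := by
  have ha := h.antitone_ar
  have h0 : ∀ t, 0 ≤ ar (P232.slice E t) := fun t => ar_nonneg _
  refine le_of_forall_pos_le_add fun ε hε => ?_
  have h4 : 0 < ε * R / 3 := by positivity
  obtain ⟨s', hs', h5⟩ := intermediate_value_Icc hs.2 (ballV_cont ha).continuousOn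
    (show max (∫ u in (0 : ℝ)..s, ar (P232.slice E u)) (Real.pi * R ^ 3 / 6 - ε * R / 3) ∈
      Icc (∫ u in (0 : ℝ)..s, ar (P232.slice E u)) (∫ u in (0 : ℝ)..1, ar (P232.slice E u)) from
      ⟨le_max_left _ _, max_le (by linarith) (by linarith)⟩)
  simp only at h5
  have h6 : ∫ u in (0 : ℝ)..s', ar (P232.slice E u) < Real.pi * R ^ 3 / 6 := by
    rw [h5]
    exact max_lt hV (by linarith)
  obtain ⟨i1, h7⟩ := h.ball_main h1 h2 h3 hR ⟨hs.1.trans hs'.1, hs'.2⟩ h6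
  have h8 := intervalIntegral.integral_mono_interval (μ := volume) le_rfl hs.1 hs'.1
    ((ae_restrict_mem measurableSet_Ioc).mono fun t ht =>
      (ballD_spec ha h0 hR h6 (Ioc_subset_Icc_self ht)).1) i1
  have h9 : 3 / R * (Real.pi * R ^ 3 / 6 - ε * R / 3) ≤
      3 / R * ∫ u in (0 : ℝ)..s', ar (P232.slice E u) := by
    rw [h5]
    exact mul_le_mul_of_nonneg_left (le_max_right _ _) (by positivity)
  have h10 : 3 / R * (Real.pi * R ^ 3 / 6 - ε * R / 3) = Real.pi * R ^ 2 / 2 - ε := by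
    field_simp
    ring
  linarith

theorem Adm.ball_below (h : Adm E) {x : P3} (hx : x ∈ Q) (hc : x ∈ closure E) {t : ℝ}
    (ht : t < x.2.2) :
    ∫ u in (0 : ℝ)..t, ar (P232.slice E u) < ∫ u in (0 : ℝ)..1, ar (P232.slice E u) := by
  have ho : IsOpen (Q ∩ {y : P3 | t < y.2.2}) :=
    (isOpen_Ioo.prod (isOpen_Ioo.prod isOpen_Ioo)).inter (isOpen_lt continuous_const (by fun_prop))
  obtain ⟨y, ⟨hy, hy1⟩, hy2⟩ := mem_closure_iff.1 hc _ ho ⟨hx, ht⟩
  refine ballV_lt h.antitone_ar (fun _ => ar_nonneg _) hy1 hy.2.2.2.le ?_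
  exact ENNReal.toReal_pos (((h.slice y.2.2).isOpen.inter (isOpen_Ioo.prod isOpen_Ioo)).measure_pos
    volume ⟨(y.1, y.2.1), hy2, hy.1, hy.2.1⟩).ne' (ball_sq_fin _)

theorem Adm.ball_dir (h : Adm E) (h1 : ((1, 0, 0) : P3) ∉ E) (h2 : ((0, 1, 0) : P3) ∉ E)
    (h3 : ((0, 0, 1) : P3) ∉ E) {R : ℝ} (hR : 0 < R) (hv : volQ E = Real.pi * R ^ 3 / 6) :
    Real.pi * R ^ 2 / 2 ≤ area E ∧ (area E ≤ Real.pi * R ^ 2 / 2 →
      ∀ᵐ x ∂(nu E), x ∈ Q → (rho E x).2.2 = x.2.2 / R * wt E x) := by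
  have ha := h.antitone_ar
  have h0 : ∀ t, 0 ≤ ar (P232.slice E t) := fun t => ar_nonneg _
  have hp : 0 < Real.pi * R ^ 3 / 6 := by positivity
  rw [volQ_eq_slices h.measurableSet, ← integral_Ioc_eq_integral_Ioo,
    ← intervalIntegral.integral_of_le zero_le_one] at hv
  have hc := ballSig_cont (v := Real.pi * R ^ 3 / 6) ha
  have hd := ballDef_spec (E := E) (ballSig_sq (a := fun u => ar (P232.slice E u))
    (v := Real.pi * R ^ 3 / 6))
  have h4 : 0 ≤ ∫ x in Q, ballDef E (ballSig (fun u => ar (P232.slice E u))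
      (Real.pi * R ^ 3 / 6)) x ∂(nu E) := integral_nonneg fun x => (hd x).1
  have h5 := h.ball_lim h1 h2 h3 hR ⟨le_rfl, zero_le_one⟩ hv (by simpa using hp)
  rw [intervalIntegral.integral_same] at h5
  refine ⟨by linarith, fun hA => ?_⟩
  have h6 := (integral_eq_zero_iff_of_nonneg (fun x => (hd x).1)
    (h.ball_split hc ballSig_sq).1).1 (le_antisymm (by linarith) h4)
  have h7 : ∀ s ∈ Icc (0 : ℝ) 1, ∫ u in (0 : ℝ)..s, ar (P232.slice E u) < Real.pi * R ^ 3 / 6 →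
      ballSig (fun u => ar (P232.slice E u)) (Real.pi * R ^ 3 / 6) s = s / R := fun s hs hV => by
    have h8 := h.ball_lim h1 h2 h3 hR hs hv hV
    have h9 := (intervalIntegral.integral_eq_zero_iff_of_le_of_nonneg_ae hs.1
      ((ae_restrict_mem measurableSet_Ioc).mono fun t ht =>
        (ballD_spec ha h0 hR hV (Ioc_subset_Icc_self ht)).1)
      (h.ball_main h1 h2 h3 hR hs hV).1).1 (le_antisymm (by linarith)
        (intervalIntegral.integral_nonneg hs.1 fun t ht => (ballD_spec ha h0 hR hV ht).1))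
    rw [← ballPsi_ftc ha h0 (fun _ => ar_le_one _) hp hs.1 hV,
      intervalIntegral.integral_of_le hs.1, integral_congr_ae (g := fun _ => 1 / R)]
    · simp [hs.1, div_eq_mul_inv]
    · filter_upwards [h9, ae_restrict_mem measurableSet_Ioc] with t h10 ht
      exact (ballD_spec ha h0 hR hV (Ioc_subset_Icc_self ht)).2 (ballV_pos ha (ht.2.trans hs.2)
        (hv ▸ (ballV_mono ha h0 ht.2).trans_lt hV)) h10
  filter_upwards [(ae_restrict_iff' measurableSet_Q).1 h6, h.ae_mem_frontier] with x h8 h9 hx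
  have h10 : x.2.2 ∈ closure (Ico 0 x.2.2) := by
    rw [closure_Ico hx.2.2.1.ne]
    exact right_mem_Icc.2 hx.2.2.1.le
  have h11 := closure_minimal (t := {s | ballSig (fun u => ar (P232.slice E u))
      (Real.pi * R ^ 3 / 6) s = s / R}) (fun t ht => h7 t ⟨ht.1, (ht.2.trans hx.2.2.2).le⟩
        (hv ▸ h.ball_below hx (frontier_subset_closure h9) ht.2))
    (isClosed_eq hc (continuous_id.div_const R)) h10
  rw [(hd x).2 (h8 hx), show ballSig _ _ x.2.2 = x.2.2 / R from h11]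

theorem Adm.ball_rot (h : Adm E) {P : P3 → P3 → Prop}
    (hP : ∀ᵐ y ∂(nu (P232.rot E)), P y (rho (P232.rot E) y)) :
    ∀ᵐ x ∂(nu E), P (cyc x) (cyc (rho E x)) := by
  rw [h.nu_rot] at hP
  filter_upwards [ae_of_ae_map measurePreserving_cyc.measurable.aemeasurable hP, h.rho_rot]
    with x h1 h2
  rwa [h2] at h1

theorem ball_mem_std {x : P3} (hx : x ∈ Q) (R : ℝ) :
    x ∈ std (1, 1, 1) 0 R ↔ x.1 ^ 2 + x.2.1 ^ 2 + x.2.2 ^ 2 < R ^ 2 := by
  have h1 : ∀ t ∈ Ioo (0 : ℝ) 1, d2 t ^ 2 = t ^ 2 := fun t ht => by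
    rw [d2_of_abs_le (abs_le.2 ⟨by linarith [ht.1], ht.2.le⟩), sq_abs]
  simp [std, h1 _ hx.1, h1 _ hx.2.1, h1 _ hx.2.2]

/-- apply `ball_dir` in the three directions: `x = R rho / wt`, so `|x| = R` on the surface -/
theorem Adm.ball_std (h : Adm E) (h1 : ((1, 0, 0) : P3) ∉ E) (h2 : ((0, 1, 0) : P3) ∉ E)
    (h3 : ((0, 0, 1) : P3) ∉ E) {R : ℝ} (hR : 0 < R) (hR1 : R < 1)
    (hv : volQ E = Real.pi * R ^ 3 / 6) (hA : area E ≤ Real.pi * R ^ 2 / 2) : IsStd E := by
  have v1 := volQ_rot E h.measurableSet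
  have v2 := volQ_rot _ h.rot.measurableSet
  have d3 := (h.ball_dir h1 h2 h3 hR hv).2 hA
  have d1 := h.ball_rot (P := fun y r => y ∈ Q → r.2.2 = y.2.2 / R * nrm r)
    ((h.rot.ball_dir h2 h3 h1 hR (v1.trans hv)).2 (h.area_rot.trans_le hA))
  have d2' := h.ball_rot (P := fun y r => cyc y ∈ Q → (cyc r).2.2 = (cyc y).2.2 / R * nrm (cyc r))
    (h.rot.ball_rot (P := fun y r => y ∈ Q → r.2.2 = y.2.2 / R * nrm r)
      ((h.rot.rot.ball_dir h3 h1 h2 hR (v2.trans (v1.trans hv))).2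
        (h.rot.area_rot.trans_le (h.area_rot.trans_le hA))))
  have h4 : ∀ᵐ x ∂(nu E), x ∈ Q → x.1 ^ 2 + x.2.1 ^ 2 + x.2.2 ^ 2 = R ^ 2 := by
    filter_upwards [d1, d2', d3, h.wt_bounds] with x e1 e2 e3 hw hx
    have e1' := e1 ⟨hx.2.1, hx.2.2, hx.1⟩
    have e2' := e2 ⟨hx.2.2, hx.1, hx.2.1⟩
    have e3' := e3 hx
    simp only [nrm_cyc] at e1' e2'
    change (rho E x).1 = x.1 / R * wt E x at e1'
    change (rho E x).2.1 = x.2.1 / R * wt E x at e2'
    have h5 : wt E x ^ 2 = (rho E x).1 ^ 2 + (rho E x).2.1 ^ 2 + (rho E x).2.2 ^ 2 :=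
      Real.sq_sqrt (by positivity)
    have h6 : wt E x ≠ 0 := by linarith [hw.1]
    rw [e1', e2', e3'] at h5
    field_simp at h5
    linarith
  have m1 := measurable_hgt h.measurableSet
  have h5 := (ae_restrict_iff' h.measurableSet_dom).1 (ae_of_ae_map
    (f := fun p : P2 => ((p.1, p.2, hgt E p) : P3)) (Measurable.aemeasurable (by fun_prop))
    (ae_mono (Measure.le_add_left le_rfl : mu3 E ≤ nu E) h4))
  have q1 : Measure.QuasiMeasurePreserving (fun x : P3 => ((x.1, x.2.1) : P2)) volume volume :=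
    QuasiMeasurePreserving.prodMap (Measure.QuasiMeasurePreserving.id volume)
      Measure.quasiMeasurePreserving_fst
  have h6 : E ≤ᵐ[volume.restrict Q] std (1, 1, 1) 0 R := by
    refine (ae_restrict_iff' measurableSet_Q).2 ?_
    filter_upwards [q1.ae h5, q1.ae h.ae_hgt_lt_one] with x h7 h8 hx hxE
    have h9 : ((x.1, x.2.1) : P2) ∈ dom E :=
      ⟨h.lower (show ((x.1, x.2.1, 0) : P3) ≤ x from ⟨le_rfl, le_rfl, hx.2.2.1.le⟩) hxE,
        fun h10 => h3 (h.lower (show ((0, 0, 1) : P3) ≤ (x.1, x.2.1, 1) from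
          ⟨hx.1.1.le, hx.2.1.1.le, le_rfl⟩) h10)⟩
    have h10 := h7 h9 ⟨hx.1, hx.2.1, h.hgt_pos h9.1, h8 h9 hx.1.1 hx.2.1.1⟩
    have h11 := pow_lt_pow_left₀ ((h.mem_iff_of_dom h9 x.2.2).1 hxE) hx.2.2.1.le two_ne_zero
    refine (ball_mem_std hx R).2 ?_
    linarith
  have m2 := (perSet_std (1, 1, 1) 0 R).1
  have h7 := volB_refl m2
  rw [refl_std, volB_std_ball 0 hR hR1] at h7
  have f1 : ∀ s : Set P3, volume (s ∩ Q) ≠ ⊤ := fun s =>
    ((measure_mono inter_subset_right).trans_lt (volume_Q.trans_lt ENNReal.one_lt_top)).ne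
  have h8 := ae_eq_of_ae_subset_of_measure_ge h6 (by
    rw [Measure.restrict_apply m2, Measure.restrict_apply h.measurableSet,
      ← ENNReal.toReal_le_toReal (f1 _) (f1 _)]
    change volQ _ ≤ volQ E
    linarith) h.measurableSet.nullMeasurableSet (by
    rw [Measure.restrict_apply m2]
    exact f1 _)
  exact ⟨(1, 1, 1), R, ⟨Or.inr rfl, Or.inr rfl, Or.inr rfl, by simp⟩, hR, hR1,
    eventuallyEq_set.1 h8⟩

end Vale.Agent.P232
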