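import Vale.Agent.P232.VarBd_1

open MeasureTheory Set Filter Topology
open scoped ENNReal

noncomputable section
namespace Vale.Agent.P232

/-! Task: first variation up to the boundary for `X = φ e3`.  Use `piola`, `nrm_cofv_le`, `var_vol`, and split
`{Φ x ∈ Q}` against `Q`: the entering parts lie in the sets of `enter0` (with `ψ = max (φ(p,0)) 0 + κ`) and `enter1`
(with `ψ = max (-φ(p,1)) 0 + κ`), the leaving parts contain those of `leave0` (`ψ = max (-φ(p,0) - κ) 0`), `leave1`. -/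

theorem vb_arcs {D D' : Set P2} (h : Adm2 D) (h' : Adm2 D') {a b : P2 → ℝ} (ha : Continuous a)
    (hb : Continuous b) {κ : ℝ} (hκ : 0 < κ) :
    arcO D (fun p => max (a p) 0 + κ) + arc D' (fun p => max (-b p) 0 + κ) -
      arc D (fun p => max (-a p - κ) 0) - arc D' (fun p => max (b p - κ) 0) ≤
      arc D a - arc D' b - (arc D (fun p => max (a p) 0) - arcO D (fun p => max (a p) 0)) + 8 * κ := by
  have c1 : ∀ {S : Set P2}, Adm2 S → ∀ c : ℝ, 0 ≤ c → arc S (fun _ => c) ≤ 2 * c := by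
    intro S hS c hc
    have e := arc_smul S c fun _ => 1
    simp only [mul_one] at e
    have e2 : arc S (fun _ => 1) ≤ 2 := hS.len_le_two
    rw [e]
    nlinarith
  have h1 : arcO D (fun p => max (a p) 0 + κ) ≤ arcO D (fun p => max (a p) 0) + 2 * κ := by
    rw [h.arcO_add (ψ := fun p => max (a p) 0) (ψ' := fun _ => κ) (by fun_prop) continuous_const]
    have := (h.arcO_le_arc (ψ := fun _ => κ) continuous_const fun _ => hκ.le).trans (c1 h κ hκ.le)
    linarith
  have h2 : arc D' (fun p => max (-b p) 0 + κ) + arc D' b ≤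
      arc D' (fun p => max (b p - κ) 0) + 4 * κ := by
    rw [← h'.arc_add (ψ := fun p => max (-b p) 0 + κ) (by fun_prop) hb]
    refine (h'.arc_mono (ψ' := fun p => max (b p - κ) 0 + 2 * κ) (by fun_prop) (by fun_prop)
      fun p _ => ?_).trans ?_
    · have e1 := le_max_left (b p - κ) 0
      have e2 := le_max_right (b p - κ) 0
      rcases le_total (-b p) 0 with h3 | h3
      · rw [max_eq_right h3]; linarith
      · rw [max_eq_left h3]; linarith
    · rw [h'.arc_add (ψ := fun p => max (b p - κ) 0) (ψ' := fun _ => 2 * κ) (by fun_prop)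
        continuous_const]
      have := c1 h' (2 * κ) (by positivity)
      linarith
  have h3 : arc D (fun p => max (a p) 0) ≤ arc D a + arc D (fun p => max (-a p - κ) 0) + 2 * κ := by
    refine (h.arc_mono (ψ' := fun p => (a p + max (-a p - κ) 0) + κ) (by fun_prop) (by fun_prop)
      fun p _ => ?_).trans ?_
    · have e1 := le_max_left (-a p - κ) 0
      have e2 := le_max_right (-a p - κ) 0
      rcases le_total (a p) 0 with h3 | h3
      · rw [max_eq_right h3]; linarith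
      · rw [max_eq_left h3]; linarith
    · rw [h.arc_add (ψ := fun p => a p + max (-a p - κ) 0) (ψ' := fun _ => κ) (by fun_prop)
        continuous_const, h.arc_add (ψ' := fun p => max (-a p - κ) 0) ha (by fun_prop)]
      have := c1 h κ hκ.le
      linarith
  linarith

/-- the area bound given by the Piola identity -/
theorem vb_piola {E : Set P3} (h : Adm E) {φ : P3 → ℝ} (hφ : ContDiff ℝ 2 φ)
    (hc : HasCompactSupport φ) {L M ε : ℝ} (hL : ∀ x, ‖fderiv ℝ φ x‖ ≤ L) (hM : ∀ x, |φ x| ≤ M)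
    (hε : 0 < ε) (hε1 : ε ≤ 1) (hεL : ε * L ≤ 1 / 10) :
    MeasurableSet ((fun x => x + ε • (φ x • e3)) '' E) ∧ ∃ c, RelLe ((fun x => x + ε • (φ x • e3)) '' E) c ∧
      c ≤ (∫ x in vbA φ ε, wt E x ∂(nu E)) +
        ε * (∫ x in vbA φ ε, dA3 (fderiv ℝ φ x) (rho E x) ∂(nu E)) +
        200 * L ^ 2 * ε ^ 2 * (nu E).real (vbK M) := by
  have hd : Differentiable ℝ φ := hφ.differentiable (by norm_num)
  have hD : ∀ x, fderiv ℝ (fun x => φ x • e3) x = (fderiv ℝ φ x).smulRight e3 := fun x =>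
    fderiv_smul_const (hd x) e3
  have hn : ∀ x, ‖(fderiv ℝ φ x).smulRight e3‖ ≤ L := by
    intro x
    have e : ‖e3‖ = 1 := by simp [e3, Prod.norm_def]
    rw [ContinuousLinearMap.norm_smulRight_apply, e, mul_one]
    exact hL x
  have hε' : |ε| * L ≤ 1 / 10 := by rw [abs_of_pos hε]; exact hεL
  obtain ⟨h1, h2⟩ := piola h (X := fun x => φ x • e3) (hφ.smul contDiff_const)
    (hc.smul_right (f' := fun _ => e3)) (fun x => by rw [hD]; exact hn x) hε'
  refine ⟨h1, _, h2, ?_⟩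
  have hsub : vbA φ ε ⊆ vbK M := by
    intro x hx
    obtain ⟨a, b, c⟩ := vb_mem_A.1 hx
    have hb := abs_le.1 (hM x)
    have hM0 : 0 ≤ M := (abs_nonneg _).trans (hM 0)
    exact ⟨a, by nlinarith, by nlinarith⟩
  have mD : Measurable fun x => dA3 (fderiv ℝ φ x) (rho E x) :=
    measurable_dA3.comp ((measurable_fderiv ℝ φ).prodMk (measurable_rho E))
  have bD : ∀ᵐ x ∂(nu E), |dA3 (fderiv ℝ φ x) (rho E x)| ≤ 10 * L := by
    filter_upwards [h.rho_sum] with x hx
    rw [← dA_smulRight]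
    exact abs_dA_le _ _ (hn x) (rho_nonneg E x).1 (rho_nonneg E x).2.1 (rho_nonneg E x).2.2 hx
  have i1 := vb_integrableOn h (measurable_wt E) (vb_wt_abs h) hsub
  have i2 := vb_integrableOn h mD bD hsub
  have hfin : nu E (vbA φ ε) < ⊤ := (measure_mono hsub).trans_lt (vb_K_lt_top h M)
  have i3 : IntegrableOn (fun _ : P3 => 200 * L ^ 2 * ε ^ 2) (vbA φ ε) (nu E) :=
    integrableOn_const hfin.ne
  have key : (∫ x in vbA φ ε, nrm (cofv (ContinuousLinearMap.id ℝ P3 +
      ε • fderiv ℝ (fun x => φ x • e3) x) (rho E x)) ∂(nu E)) ≤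
      ∫ x in vbA φ ε, (wt E x + ε * dA3 (fderiv ℝ φ x) (rho E x) + 200 * L ^ 2 * ε ^ 2) ∂(nu E) := by
    refine integral_mono_of_nonneg (Eventually.of_forall fun x => nrm_nonneg _)
      ((i1.add (i2.const_mul ε)).add i3) (ae_restrict_of_ae ?_)
    filter_upwards [h.rho_sum] with x hx
    rw [hD, ← dA_smulRight]
    exact nrm_cofv_le _ _ (hn x) hε' (rho_nonneg E x).1 (rho_nonneg E x).2.1 (rho_nonneg E x).2.2 hx
  refine key.trans ?_
  have i4 : Integrable (fun x => wt E x + ε * dA3 (fderiv ℝ φ x) (rho E x))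
      ((nu E).restrict (vbA φ ε)) := i1.add (i2.const_mul ε)
  rw [integral_add i4 i3, integral_add i1 (i2.const_mul ε), integral_const_mul, setIntegral_const,
    smul_eq_mul, mul_comm ((nu E).real _)]
  have h3 : (nu E).real (vbA φ ε) ≤ (nu E).real (vbK M) :=
    measureReal_mono hsub (vb_K_lt_top h M).ne
  have h4 : 0 ≤ 200 * L ^ 2 * ε ^ 2 := by positivity
  have := mul_le_mul_of_nonneg_left h3 h4
  linarith

theorem var_bd {E : Set P3} (h : Adm E) {lo hi : ℝ} (hs : Stat E lo hi) {φ : P3 → ℝ}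
    (hφ : ContDiff ℝ 2 φ) (hc : HasCompactSupport φ) :
    min (lo * w3 E φ) (hi * w3 E φ) ≤ z3 E φ
      - (arc (slice E 0) (fun p => max (φ (p.1, p.2, 0)) 0)
          - arcO (slice E 0) (fun p => max (φ (p.1, p.2, 0)) 0)) := by
  have hd : Differentiable ℝ φ := hφ.differentiable (by norm_num)
  have hcont := hd.continuous
  obtain ⟨L, hL⟩ := (hc.fderiv ℝ).exists_bound_of_continuous (hφ.continuous_fderiv (by norm_num))
  obtain ⟨M, hM'⟩ := hc.exists_bound_of_continuous hcont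
  have hM : ∀ x, |φ x| ≤ M := hM'
  have hn : ∀ x, ‖(fderiv ℝ φ x).smulRight e3‖ ≤ L := by
    intro x
    have e : ‖e3‖ = 1 := by simp [e3, Prod.norm_def]
    rw [ContinuousLinearMap.norm_smulRight_apply, e, mul_one]
    exact hL x
  have mD : Measurable fun x => dA3 (fderiv ℝ φ x) (rho E x) :=
    measurable_dA3.comp ((measurable_fderiv ℝ φ).prodMk (measurable_rho E))
  have bD : ∀ᵐ x ∂(nu E), |dA3 (fderiv ℝ φ x) (rho E x)| ≤ 10 * L := by
    filter_upwards [h.rho_sum] with x hx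
    rw [← dA_smulRight]
    exact abs_dA_le _ _ (hn x) (rho_nonneg E x).1 (rho_nonneg E x).2.1 (rho_nonneg E x).2.2 hx
  have tZ := vb_tendsto h hcont hM mD bD
  have tV := var_vol h hφ hc
  obtain ⟨a, ha⟩ : ∃ a : ℝ → ℝ,
      a = fun ε : ℝ => (volQ ((fun x => x + ε • (φ x • e3)) '' E) - volQ E) / ε := ⟨_, rfl⟩
  rw [← ha] at tV
  have t0 : Tendsto (fun ε : ℝ => ε) (𝓝[>] 0) (𝓝 0) := tendsto_id.mono_left nhdsWithin_le_nhds
  have tmul : ∀ c : ℝ, Tendsto (fun ε : ℝ => ε * c) (𝓝[>] 0) (𝓝 0) := fun c => by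
    simpa using t0.mul_const c
  have main : ∀ κ : ℝ, 0 < κ → κ ≤ 1 → min (lo * w3 E φ) (hi * w3 E φ) - κ * |w3 E φ| ≤
      z3 E φ - (arc (slice E 0) (fun p => max (φ (p.1, p.2, 0)) 0)
          - arcO (slice E 0) (fun p => max (φ (p.1, p.2, 0)) 0)) + 10 * κ := by
    intro κ hκ hκ1
    obtain ⟨r, hr, hst⟩ := hs κ hκ
    have harc := vb_arcs (h.slice 0) (h.slice 1) (a := fun p => φ (p.1, p.2, 0))
      (b := fun p => φ (p.1, p.2, 1)) (by fun_prop) (by fun_prop) hκ
    obtain ⟨T, hT⟩ : ∃ T, T = arcO (slice E 0) (fun p => max (φ (p.1, p.2, 0)) 0 + κ) +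
      arc (slice E 1) (fun p => max (-φ (p.1, p.2, 1)) 0 + κ) -
      arc (slice E 0) (fun p => max (-φ (p.1, p.2, 0) - κ) 0) -
      arc (slice E 1) (fun p => max (φ (p.1, p.2, 1) - κ) 0) := ⟨_, rfl⟩
    have tL : Tendsto (fun ε => min (lo * a ε) (hi * a ε) - κ * |a ε|) (𝓝[>] 0)
        (𝓝 (min (lo * w3 E φ) (hi * w3 E φ) - κ * |w3 E φ|)) :=
      ((tV.const_mul lo).min (tV.const_mul hi)).sub (tV.abs.const_mul κ)
    have tR : Tendsto (fun ε : ℝ => T + 2 * κ +
        (∫ x in vbA φ ε, dA3 (fderiv ℝ φ x) (rho E x) ∂(nu E)) +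
        ε * (200 * L ^ 2 * (nu E).real (vbK M))) (𝓝[>] 0) (𝓝 (T + 2 * κ + z3i E φ + 0)) :=
      (tendsto_const_nhds.add tZ).add (tmul _)
    have tA : Tendsto (fun ε : ℝ => |ε * a ε|) (𝓝[>] 0) (𝓝 0) := by
      simpa using (t0.mul tV).abs
    have hle := le_of_tendsto_of_tendsto tL tR (by
      filter_upwards [Ioo_mem_nhdsGT (show (0 : ℝ) < 1 by norm_num),
        (tmul L).eventually (Iic_mem_nhds (show (0 : ℝ) < 1 / 10 by norm_num)),
        (tmul M).eventually (Iic_mem_nhds (show (0 : ℝ) < 1 / 4 by norm_num)),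
        (tmul (L * M)).eventually (Iic_mem_nhds hκ), tA.eventually (Iio_mem_nhds hr),
        h.leave0 (ψ := fun p => max (-φ (p.1, p.2, 0) - κ) 0) (by fun_prop)
          (fun p => le_max_right _ _) hκ,
        h.leave1 (ψ := fun p => max (φ (p.1, p.2, 1) - κ) 0) (by fun_prop)
          (fun p => le_max_right _ _) hκ] with ε hε e1 e2 e3' e4 l0 l1
      have hε0 := hε.1
      obtain ⟨mF, c, hc1, hc2⟩ := vb_piola h hφ hc hL hM hε0 hε.2.le e1
      have hV : volQ ((fun x => x + ε • (φ x • e3)) '' E) - volQ E = ε * a ε := by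
        rw [ha]
        field_simp
      have s1 := hst _ c mF (by rw [hV]; exact e4) hc1
      have s2 := vb_area h hd hL hM hκ hκ1 hε0 hε.2.le e2 (by
        have : ε * (L * M) ≤ κ := e3'
        linarith)
      have em : min (lo * (ε * a ε)) (hi * (ε * a ε)) = ε * min (lo * a ε) (hi * a ε) := by
        rw [mul_min_of_nonneg _ _ hε0.le]
        congr 1 <;> ring
      rw [hV, em, abs_mul, abs_of_pos hε0] at s1
      refine le_of_mul_le_mul_left ?_ hε0
      rw [hT]
      linarith)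
    unfold z3
    rw [← hT] at harc
    linarith
  have lim : Tendsto (fun κ : ℝ => z3 E φ - (arc (slice E 0) (fun p => max (φ (p.1, p.2, 0)) 0)
      - arcO (slice E 0) (fun p => max (φ (p.1, p.2, 0)) 0)) + κ * (10 + |w3 E φ|)) (𝓝[>] 0)
      (𝓝 (z3 E φ - (arc (slice E 0) (fun p => max (φ (p.1, p.2, 0)) 0)
      - arcO (slice E 0) (fun p => max (φ (p.1, p.2, 0)) 0)) + 0)) :=
    tendsto_const_nhds.add (tmul _)
  rw [add_zero] at lim
  refine ge_of_tendsto lim ?_
  filter_upwards [Ioo_mem_nhdsGT (show (0 : ℝ) < 1 by norm_num)] with κ hκ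
  have := main κ hκ.1 hκ.2.le
  linarith

end Vale.Agent.P232
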