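import Vale.Agent.P232.VarInt
import Vale.Agent.P232.VarBd
import Vale.Agent.P232.Planar

open MeasureTheory Set Filter Topology
open scoped ENNReal

noncomputable section
namespace Vale.Agent.P232

/-! Existence of one multiplier for all variations. -/

theorem crit_mult {V : Type*} [AddCommGroup V] [Module ℝ V] (P : V → Prop) (w z : V → ℝ) {lo hi : ℝ}
    (hle : lo ≤ hi) (hadd : ∀ u v, P u → P v → P (u + v)) (hsm : ∀ (c : ℝ) v, P v → P (c • v))
    (wa : ∀ u v, P u → P v → w (u + v) = w u + w v) (ws : ∀ (c : ℝ) v, P v → w (c • v) = c * w v)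
    (za : ∀ u v, P u → P v → z (u + v) = z u + z v) (zs : ∀ (c : ℝ) v, P v → z (c • v) = c * z v)
    (h : ∀ v, P v → min (lo * w v) (hi * w v) ≤ z v) :
    ∃ k ∈ Icc lo hi, ∀ v, P v → z v = k * w v := by
  have h0 : ∀ v, P v → w v = 0 → z v = 0 := by
    intro v hv hw
    have h1 := h v hv
    have h2 := h _ (hsm (-1) v hv)
    rw [ws _ _ hv, zs _ _ hv, hw] at h2
    rw [hw] at h1
    simp only [mul_zero, min_self] at h1 h2
    linarith
  by_cases hex : ∃ v, P v ∧ w v ≠ 0
  · obtain ⟨v, hv, hw⟩ := hex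
    have hp := hsm (w v)⁻¹ v hv
    have hw1 : w ((w v)⁻¹ • v) = 1 := by rw [ws _ _ hv, inv_mul_cancel₀ hw]
    generalize (w v)⁻¹ • v = v0 at hp hw1
    refine ⟨z v0, ⟨?_, ?_⟩, fun u hu => ?_⟩
    · have h1 := h v0 hp
      rw [hw1, mul_one, mul_one, min_eq_left hle] at h1
      exact h1
    · have h1 := h _ (hsm (-1) v0 hp)
      rw [ws _ _ hp, zs _ _ hp, hw1, min_eq_right (by linarith)] at h1
      linarith
    · have h1 := h0 _ (hadd _ _ hu (hsm (-(w u)) v0 hp))
        (by rw [wa _ _ hu (hsm _ _ hp), ws _ _ hp, hw1]; ring)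
      rw [za _ _ hu (hsm _ _ hp), zs _ _ hp] at h1
      linarith
  · refine ⟨lo, ⟨le_rfl, hle⟩, fun v hv => ?_⟩
    have hw : w v = 0 := by
      by_contra h1
      exact hex ⟨v, hv, h1⟩
    rw [h0 v hv hw, hw, mul_zero]

variable {E : Set P3}

theorem crit_mem_ball {a b c : ℝ} (ha : a ∈ Icc (0 : ℝ) 1) (hb : b ∈ Icc (0 : ℝ) 1)
    (hc : c ∈ Icc (0 : ℝ) 1) : ((a, b, c) : P3) ∈ Metric.ball (0 : P3) 2 := by
  rw [mem_ball_zero_iff, Prod.norm_def, Prod.norm_def]
  simp only [Real.norm_eq_abs, abs_of_nonneg ha.1, abs_of_nonneg hb.1, abs_of_nonneg hc.1]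
  exact max_lt (by linarith [ha.2]) (max_lt (by linarith [hb.2]) (by linarith [hc.2]))

theorem crit_Q_ball {x : P3} (hx : x ∈ Q) : x ∈ Metric.ball (0 : P3) 2 :=
  crit_mem_ball (a := x.1) (b := x.2.1) (c := x.2.2) ⟨hx.1.1.le, hx.1.2.le⟩
    ⟨hx.2.1.1.le, hx.2.1.2.le⟩ ⟨hx.2.2.1.le, hx.2.2.2.le⟩

theorem crit_bound {F : Type*} [NormedAddCommGroup F] {f : P3 → F} (hf : Continuous f) :
    ∃ M : ℝ, ∀ x ∈ Q, ‖f x‖ ≤ M := by
  obtain ⟨M, hM⟩ := (isCompact_closedBall (0 : P3) 2).exists_bound_of_continuousOn hf.continuousOn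
  exact ⟨M, fun x hx => hM x (Metric.ball_subset_closedBall (crit_Q_ball hx))⟩

theorem crit_isOpen_Q : IsOpen Q := isOpen_Ioo.prod (isOpen_Ioo.prod isOpen_Ioo)

theorem crit_arc_congr (D : Set P2) {ψ ψ' : P2 → ℝ} (he : ∀ p ∈ sqc, ψ p = ψ' p) :
    arc D ψ = arc D ψ' :=
  setIntegral_congr_fun measurableSet_sqc fun p hp => by simp only [he p hp]

theorem crit_arcO_congr (D : Set P2) {ψ ψ' : P2 → ℝ} (he : ∀ p ∈ sqc, ψ p = ψ' p) :
    arcO D ψ = arcO D ψ' :=
  setIntegral_congr_fun measurableSet_sq fun p hp => by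
    simp only [he p ⟨⟨hp.1.1, hp.1.2.le⟩, ⟨hp.2.1, hp.2.2.le⟩⟩]

theorem crit_var_bd (h : Adm E) {lo hi : ℝ} (hs : Stat E lo hi) {φ : P3 → ℝ}
    (hφ : ContDiff ℝ 2 φ) :
    min (lo * w3 E φ) (hi * w3 E φ) ≤ z3 E φ
      - (arc (slice E 0) (fun p => max (φ (p.1, p.2, 0)) 0)
          - arcO (slice E 0) (fun p => max (φ (p.1, p.2, 0)) 0)) := by
  let χ : ContDiffBump (0 : P3) := ⟨2, 3, by norm_num, by norm_num⟩
  have he : ∀ x ∈ Metric.ball (0 : P3) 2, χ x * φ x = φ x := fun x hx => by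
    rw [χ.one_of_mem_closedBall (Metric.ball_subset_closedBall hx), one_mul]
  have h1 := var_bd h hs (φ := fun x => χ x * φ x) (χ.contDiff.mul hφ)
    χ.hasCompactSupport.mul_right
  have hf : ∀ (t : ℝ), t ∈ Icc (0 : ℝ) 1 → ∀ p ∈ sqc,
      χ (p.1, p.2, t) * φ (p.1, p.2, t) = φ (p.1, p.2, t) := fun t ht p hp =>
    he _ (crit_mem_ball ⟨hp.1.1.le, hp.1.2⟩ ⟨hp.2.1.le, hp.2.2⟩ ht)
  have a1 : w3 E (fun x => χ x * φ x) = w3 E φ :=
    setIntegral_congr_fun measurableSet_Q fun x hx => by simp only [he x (crit_Q_ball hx)]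
  have a2 : z3i E (fun x => χ x * φ x) = z3i E φ :=
    setIntegral_congr_fun measurableSet_Q fun x hx => by
      have : (fun x => χ x * φ x) =ᶠ[𝓝 x] φ :=
        eventually_of_mem (Metric.isOpen_ball.mem_nhds (crit_Q_ball hx)) he
      simp only [this.fderiv_eq]
  have h0 : (0 : ℝ) ∈ Icc (0 : ℝ) 1 := ⟨le_rfl, zero_le_one⟩
  have h2 : (1 : ℝ) ∈ Icc (0 : ℝ) 1 := ⟨zero_le_one, le_rfl⟩
  have a3 : z3 E (fun x => χ x * φ x) = z3 E φ := by
    unfold z3
    rw [a2, crit_arc_congr _ (hf 0 h0), crit_arc_congr _ (hf 1 h2)]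
  have a4 : ∀ p ∈ sqc, max (χ (p.1, p.2, 0) * φ (p.1, p.2, 0)) 0 = max (φ (p.1, p.2, 0)) 0 :=
    fun p hp => by rw [hf 0 h0 p hp]
  rw [a1, a3, crit_arc_congr _ a4, crit_arcO_congr _ a4] at h1
  exact h1

theorem crit_rho_le (h : Adm E) : ∀ᵐ x ∂(nu E), ‖rho E x‖ ≤ 1 := by
  filter_upwards [h.rho_sum] with x h1
  obtain ⟨a, b, c⟩ := rho_nonneg E x
  rw [Prod.norm_def, Prod.norm_def]
  simp only [Real.norm_eq_abs, abs_of_nonneg a, abs_of_nonneg b, abs_of_nonneg c]
  exact max_le (by linarith) (max_le (by linarith) (by linarith))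

theorem crit_rho3_le (h : Adm E) : ∀ᵐ x ∂(nu E), |(rho E x).2.2| ≤ 1 := by
  filter_upwards [h.rho_sum] with x h1
  obtain ⟨a, b, c⟩ := rho_nonneg E x
  rw [abs_of_nonneg c]
  linarith

theorem crit_int_w (h : Adm E) {X : P3 → P3} (hX : Continuous X) :
    IntegrableOn (fun x => dot (X x) (rho E x)) Q (nu E) := by
  obtain ⟨M, hM⟩ := crit_bound hX
  have hm := hX.measurable
  have hr := measurable_rho E
  refine h.integrableOn_Q (M := 2 * M * 2) (by unfold dot; fun_prop) ?_
  filter_upwards [crit_rho_le h] with x h1 hx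
  refine (abs_dot_le _ _).trans (mul_le_mul ?_ ?_ (nrm_nonneg _) ?_)
  · linarith [nrm_le_two_norm (X x), hM x hx]
  · linarith [nrm_le_two_norm (rho E x)]
  · linarith [norm_nonneg (X x), hM x hx]

theorem crit_int_z (h : Adm E) {X : P3 → P3} (hX : ContDiff ℝ 2 X) :
    IntegrableOn (fun x => dA (fderiv ℝ X x) (rho E x)) Q (nu E) := by
  have hc : Continuous (fderiv ℝ X) := hX.continuous_fderiv (by norm_num)
  obtain ⟨M, hM⟩ := crit_bound hc
  refine h.integrableOn_Q (M := 10 * M)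
    (measurable_dA.comp (hc.measurable.prodMk (measurable_rho E))) ?_
  filter_upwards [h.rho_sum] with x h1 hx
  obtain ⟨a, b, c⟩ := rho_nonneg E x
  exact abs_dA_le _ _ (hM x hx) a b c h1

theorem crit_wInt_add (h : Adm E) {X Y : P3 → P3} (hX : Continuous X) (hY : Continuous Y) :
    wInt E (X + Y) = wInt E X + wInt E Y := by
  unfold wInt
  rw [← integral_add (crit_int_w h hX) (crit_int_w h hY)]
  refine integral_congr_ae (Eventually.of_forall fun x => ?_)
  simp only [dot, Pi.add_apply, Prod.fst_add, Prod.snd_add]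
  ring

theorem crit_wInt_smul (c : ℝ) (X : P3 → P3) : wInt E (c • X) = c * wInt E X := by
  unfold wInt
  rw [← integral_const_mul]
  refine integral_congr_ae (Eventually.of_forall fun x => ?_)
  simp only [dot, Pi.smul_apply, Prod.smul_fst, Prod.smul_snd, smul_eq_mul]
  ring

theorem crit_zInt_add (h : Adm E) {X Y : P3 → P3} (hX : ContDiff ℝ 2 X) (hY : ContDiff ℝ 2 Y) :
    zInt E (X + Y) = zInt E X + zInt E Y := by
  unfold zInt
  rw [← integral_add (crit_int_z h hX) (crit_int_z h hY)]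
  refine integral_congr_ae (Eventually.of_forall fun x => ?_)
  simp only [fderiv_add (hX.differentiable (by norm_num) x) (hY.differentiable (by norm_num) x),
    dA_add]

theorem crit_zInt_smul (c : ℝ) {X : P3 → P3} (hX : ContDiff ℝ 2 X) :
    zInt E (c • X) = c * zInt E X := by
  unfold zInt
  rw [← integral_const_mul]
  refine integral_congr_ae (Eventually.of_forall fun x => ?_)
  simp only [fderiv_const_smul (hX.differentiable (by norm_num) x), dA_smul]

theorem crit_wInt_e3 (φ : P3 → ℝ) : wInt E (fun x => φ x • e3) = w3 E φ := by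
  unfold wInt w3
  refine integral_congr_ae (Eventually.of_forall fun x => ?_)
  simp [dot, e3]

theorem crit_zInt_e3 {φ : P3 → ℝ} (hφ : ContDiff ℝ 2 φ) :
    zInt E (fun x => φ x • e3) = z3i E φ := by
  unfold zInt z3i
  refine integral_congr_ae (Eventually.of_forall fun x => ?_)
  simp only [fderiv_smul_const (hφ.differentiable (by norm_num) x), dA_smulRight]

theorem crit_mult3 (h : Adm E) {lo hi : ℝ} (hle : lo ≤ hi) (hs : Stat E lo hi) :
    ∃ k ∈ Icc lo hi, ∀ φ : P3 → ℝ, ContDiff ℝ 2 φ → z3 E φ = k * w3 E φ := by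
  have ea : ∀ u v : P3 → ℝ, (fun x => (u + v) x • e3) = (fun x => u x • e3) + fun x => v x • e3 :=
    fun u v => funext fun x => by simp only [Pi.add_apply, add_smul]
  have es : ∀ (c : ℝ) (v : P3 → ℝ), (fun x => (c • v) x • e3) = c • fun x => v x • e3 :=
    fun c v => funext fun x => by simp only [Pi.smul_apply, smul_assoc]
  have hc : ∀ (t : ℝ) (u : P3 → ℝ), ContDiff ℝ 2 u → Continuous fun p : P2 => u (p.1, p.2, t) :=
    fun t u hu => hu.continuous.comp (by fun_prop)
  have hv3 : ∀ u : P3 → ℝ, ContDiff ℝ 2 u → ContDiff ℝ 2 fun x => u x • e3 :=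
    fun u hu => hu.smul contDiff_const
  refine crit_mult (fun φ : P3 → ℝ => ContDiff ℝ 2 φ) (w3 E) (z3 E) hle (fun u v hu hv => hu.add hv)
    (fun c v hv => hv.const_smul c) ?_ ?_ ?_ ?_ ?_
  · intro u v hu hv
    rw [← crit_wInt_e3, ← crit_wInt_e3, ← crit_wInt_e3, ea,
      crit_wInt_add h (hv3 u hu).continuous (hv3 v hv).continuous]
  · intro c v _
    rw [← crit_wInt_e3, ← crit_wInt_e3, es, crit_wInt_smul]
  · intro u v hu hv
    unfold z3
    rw [← crit_zInt_e3 hu, ← crit_zInt_e3 hv, ← crit_zInt_e3 (φ := u + v) (hu.add hv), ea,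
      crit_zInt_add h (hv3 u hu) (hv3 v hv)]
    simp only [Pi.add_apply]
    rw [(h.slice 0).arc_add (hc 0 u hu) (hc 0 v hv), (h.slice 1).arc_add (hc 1 u hu) (hc 1 v hv)]
    ring
  · intro c v hv
    unfold z3
    rw [← crit_zInt_e3 hv, ← crit_zInt_e3 (φ := c • v) (hv.const_smul c), es,
      crit_zInt_smul c (hv3 v hv)]
    simp only [Pi.smul_apply, smul_eq_mul]
    rw [arc_smul, arc_smul]
    ring
  · intro v hv
    have h1 := crit_var_bd h hs hv
    have h2 := (h.slice 0).arcO_le_arc (ψ := fun p => max (v (p.1, p.2, 0)) 0)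
      ((hc 0 v hv).max continuous_const) (fun p => le_max_right _ _)
    linarith

/-- the multiplier rule for interior fields -/
def IntCrit (E : Set P3) (k : ℝ) : Prop :=
  ∀ X : P3 → P3, (ContDiff ℝ 2 X ∧ HasCompactSupport X ∧ tsupport X ⊆ Q) → zInt E X = k * wInt E X

theorem crit_intCrit (h : Adm E) {lo hi : ℝ} (hle : lo ≤ hi) (hs : Stat E lo hi) :
    ∃ k ∈ Icc lo hi, IntCrit E k := by
  refine crit_mult (fun X : P3 → P3 => ContDiff ℝ 2 X ∧ HasCompactSupport X ∧ tsupport X ⊆ Q)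
    (wInt E) (zInt E) hle (fun u v hu hv => ⟨hu.1.add hv.1, hu.2.1.add hv.2.1, ?_⟩)
    (fun c v hv => ⟨hv.1.const_smul c, ?_, ?_⟩)
    (fun u v hu hv => crit_wInt_add h hu.1.continuous hv.1.continuous)
    (fun c v _ => crit_wInt_smul c v) (fun u v hu hv => crit_zInt_add h hu.1 hv.1)
    (fun c v hv => crit_zInt_smul c hv.1) (fun v hv => var_int h hs hv.1 hv.2.1 hv.2.2)
  · exact (tsupport_add u v).trans (union_subset hu.2.2 hv.2.2)
  · exact hv.2.1.mono fun x hx h0 => hx (by simp [h0])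
  · have hsub : Function.support (c • v) ⊆ Function.support v :=
      fun x hx h0 => hx (by simp [h0])
    exact (closure_mono hsub).trans hv.2.2

/-- the inverse coordinate change as a continuous linear map -/
def critInvL : P3 →L[ℝ] P3 := cycL.comp cycL

theorem IntCrit.rot (h : Adm E) {k : ℝ} (hk : IntCrit E k) : IntCrit (P232.rot E) k := by
  rintro Y ⟨hY, hc, hQ⟩
  let e : P3 ≃ₜ P3 := ⟨⟨cyc, cycInv, fun _ => rfl, fun _ => rfl⟩,
    by show Continuous cyc; unfold cyc; fun_prop, by show Continuous cycInv; unfold cycInv; fun_prop⟩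
  have hsub : tsupport (fun x => critInvL (Y (cycL x))) ⊆ cyc ⁻¹' tsupport Y := by
    refine closure_minimal (fun x hx => subset_closure fun h0 => hx ?_)
      ((isClosed_tsupport Y).preimage e.continuous)
    show critInvL (Y (cyc x)) = 0
    rw [h0, map_zero]
  have h1 := hk (fun x => critInvL (Y (cycL x))) ⟨critInvL.contDiff.comp (hY.comp cycL.contDiff),
    (e.isCompact_preimage.2 hc).of_isClosed_subset (isClosed_tsupport _) hsub,
    hsub.trans (by rw [← cyc_preimage_Q]; exact preimage_mono hQ)⟩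
  have hcf : Continuous (fderiv ℝ Y) := hY.continuous_fderiv (by norm_num)
  have hm := hY.continuous.measurable
  have a1 : wInt (P232.rot E) Y = wInt E (fun x => critInvL (Y (cycL x))) := by
    unfold wInt
    rw [h.integral_rot (fun y r => dot (Y y) r) (by unfold dot; fun_prop) measurableSet_Q,
      cyc_preimage_Q]
    refine integral_congr_ae (Eventually.of_forall fun x => ?_)
    simp only [dot, critInvL, ContinuousLinearMap.comp_apply, cycL_apply, cyc]
    ring
  have a2 : zInt (P232.rot E) Y = zInt E (fun x => critInvL (Y (cycL x))) := by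
    unfold zInt
    rw [h.integral_rot (fun y r => dA (fderiv ℝ Y y) r)
      (measurable_dA.comp ((hcf.measurable.comp measurable_fst).prodMk measurable_snd))
      measurableSet_Q, cyc_preimage_Q]
    refine integral_congr_ae (Eventually.of_forall fun x => ?_)
    have h2 : HasFDerivAt (fun x => critInvL (Y (cycL x)))
        (critInvL.comp ((fderiv ℝ Y (cyc x)).comp cycL)) x :=
      critInvL.hasFDerivAt.comp x
        ((hY.differentiable (by norm_num) (cycL x)).hasFDerivAt.comp x cycL.hasFDerivAt)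
    simp only [h2.fderiv]
    generalize fderiv ℝ Y (cyc x) = M
    generalize rho E x = r
    have t1 : trc (critInvL.comp (M.comp cycL)) = trc M := by
      show (M e3).2.2 + (M e1).1 + (M e2).2.1 = (M e1).1 + (M e2).2.1 + (M e3).2.2
      ring
    have t2 : dot r ((critInvL.comp (M.comp cycL)) r) = dot (cyc r) (M (cyc r)) := by
      show r.1 * (M (cyc r)).2.2 + r.2.1 * (M (cyc r)).1 + r.2.2 * (M (cyc r)).2.1
        = r.2.1 * (M (cyc r)).1 + r.2.2 * (M (cyc r)).2.1 + r.1 * (M (cyc r)).2.2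
      ring
    simp only [dA, t1, t2, nrm_cyc]
  rw [a1, a2, h1]

theorem crit_fv (h : Adm E) {lo hi k : ℝ} (hle : lo ≤ hi) (hs : Stat E lo hi) (hk : IntCrit E k)
    (φ : P3 → ℝ) (hφ : ContDiff ℝ 2 φ) : k * w3 E φ = z3 E φ := by
  obtain ⟨k3, -, h3⟩ := crit_mult3 h hle hs
  by_cases hkk : k3 = k
  · rw [h3 φ hφ, hkk]
  have hz : ∀ᵐ x ∂(nu E), x ∈ Q → (rho E x).2.2 = 0 := by
    refine crit_isOpen_Q.ae_eq_zero_of_integral_contDiff_smul_eq_zero
      (IntegrableOn.locallyIntegrableOn (h.integrableOn_Q (measurable_rho E).snd.snd (M := 1) ?_))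
      fun g hg hc hQ => ?_
    · filter_upwards [crit_rho3_le h] with x h1 _
      exact h1
    have hg2 : ContDiff ℝ 2 g := hg.of_le (by norm_cast)
    have hout : ∀ x, x ∉ Q → g x = 0 := fun x hx =>
      image_eq_zero_of_notMem_tsupport fun h0 => hx (hQ h0)
    have hsub : Function.support (fun x => g x • e3) ⊆ Function.support g :=
      fun x hx h0 => hx (by simp [h0])
    have h1 := hk (fun x => g x • e3) ⟨hg2.smul contDiff_const, hc.mono hsub,
      (closure_mono hsub).trans hQ⟩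
    rw [crit_wInt_e3, crit_zInt_e3 hg2] at h1
    have h2 := h3 g hg2
    have z0 : ∀ t : ℝ, (t = 0 ∨ t = 1) → ∀ D : Set P2, arc D (fun p => g (p.1, p.2, t)) = 0 := by
      intro t ht D
      have : (fun p : P2 => g (p.1, p.2, t)) = fun _ => 0 := funext fun p => hout _ fun hq => by
        have := hq.2.2
        rcases ht with rfl | rfl
        · exact lt_irrefl _ this.1
        · exact lt_irrefl _ this.2
      rw [this]
      simp [arc]
    unfold z3 at h2
    rw [z0 0 (Or.inl rfl), z0 1 (Or.inr rfl), h1] at h2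
    have h4 : w3 E g = 0 := by
      have : (k3 - k) * w3 E g = 0 := by linarith
      exact (mul_eq_zero.1 this).resolve_left (sub_ne_zero.2 hkk)
    rw [← setIntegral_eq_integral_of_forall_compl_eq_zero (s := Q)
      (fun x hx => by rw [hout x hx, zero_smul])]
    exact h4
  have hw : w3 E φ = 0 := by
    unfold w3
    refine setIntegral_eq_zero_of_ae_eq_zero ?_
    filter_upwards [hz] with x h1 hx
    rw [h1 hx, mul_zero]
  rw [h3 φ hφ, hw, mul_zero, mul_zero]

theorem crit_edge (h : Adm E) {lo hi : ℝ} (hle : lo ≤ hi) (hs : Stat E lo hi) :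
    arcO (slice E 0) (fun _ => 1) = LL E := by
  obtain ⟨k, -, h3⟩ := crit_mult3 h hle hs
  have : IsFiniteMeasure ((nu E).restrict Q) :=
    ⟨by rw [Measure.restrict_apply_univ]; exact h.nu_Q_lt_top⟩
  have hsm : ∀ n : ℕ, ContDiff ℝ 2 fun x : P3 => Real.smoothTransition (1 - n * x.2.2) := fun n =>
    Real.smoothTransition.contDiff.comp (by fun_prop)
  have l1 : Tendsto (fun n : ℕ => w3 E fun x : P3 => Real.smoothTransition (1 - n * x.2.2)) atTop
      (𝓝 (∫ _ in Q, (0 : ℝ) ∂(nu E))) := by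
    refine tendsto_integral_of_dominated_convergence (fun _ => 1) (fun n => ?_) (integrable_const _)
      (fun n => ?_) ?_
    · exact ((hsm n).continuous.measurable.mul (measurable_rho E).snd.snd).aestronglyMeasurable
    · filter_upwards [ae_restrict_of_ae (crit_rho3_le h)] with x hx
      rw [Real.norm_eq_abs, abs_mul, abs_of_nonneg (Real.smoothTransition.nonneg _)]
      exact mul_le_one₀ (Real.smoothTransition.le_one _) (abs_nonneg _) hx
    · filter_upwards [ae_restrict_mem measurableSet_Q] with x hx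
      refine tendsto_const_nhds.congr' ?_
      have a : Tendsto (fun n : ℕ => (n : ℝ) * x.2.2) atTop atTop :=
        tendsto_natCast_atTop_atTop.atTop_mul_const hx.2.2.1
      filter_upwards [a.eventually_ge_atTop 1] with n hn
      rw [Real.smoothTransition.zero_of_nonpos (by linarith), zero_mul]
  rw [integral_zero] at l1
  have l2 : Tendsto (fun n : ℕ => k * (w3 E fun x : P3 => Real.smoothTransition (1 - n * x.2.2))
      - min (lo * w3 E fun x : P3 => Real.smoothTransition (1 - n * x.2.2))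
        (hi * w3 E fun x : P3 => Real.smoothTransition (1 - n * x.2.2))) atTop
      (𝓝 (k * 0 - min (lo * 0) (hi * 0))) :=
    (l1.const_mul k).sub ((l1.const_mul lo).min (l1.const_mul hi))
  have l3 : LL E - arcO (slice E 0) (fun _ => 1) ≤ k * 0 - min (lo * 0) (hi * 0) := by
    refine ge_of_tendsto' l2 fun n => ?_
    have h1 := crit_var_bd h hs (hsm n)
    rw [h3 _ (hsm n)] at h1
    simp only [mul_zero, sub_zero, Real.smoothTransition.one, zero_le_one, sup_of_le_left] at h1
    unfold LL len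
    linarith
  have l4 := (h.slice 0).arcO_le_arc (ψ := fun _ => 1) continuous_const (fun _ => zero_le_one)
  simp only [mul_zero, min_self, sub_zero] at l3
  unfold LL len at l3 ⊢
  linarith

theorem exists_crit {E : Set P3} (h : Adm E) {lo hi : ℝ} (hle : lo ≤ hi) (hs : Stat E lo hi) :
    ∃ k ∈ Icc lo hi, Crit E k := by
  obtain ⟨k, hk, hI⟩ := crit_intCrit h hle hs
  have s1 := Stat.rot h hs
  have s2 := Stat.rot h.rot s1
  have i1 := IntCrit.rot h hI
  have i2 := IntCrit.rot h.rot i1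
  exact ⟨k, hk, ⟨crit_fv h hle hs hI, crit_edge h hle hs⟩,
    ⟨crit_fv h.rot hle s1 i1, crit_edge h.rot hle s1⟩,
    ⟨crit_fv h.rot.rot hle s2 i2, crit_edge h.rot.rot hle s2⟩⟩

end Vale.Agent.P232
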