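import Vale.Agent.P232.Flux
import Vale.Agent.P232.SliceIso

open MeasureTheory Set Filter Topology
open scoped ENNReal

noncomputable section
namespace Vale.Agent.P232

/-! Task: lower bound for `mm` (excludes unduloids).  Let `a t = ar (slice E t)` (antitone, right continuous),
`c = ll - k bb`, `T = {t ∈ (0,1) | α < a t < β}` an interval with end points `s ≤ t`, `J` the (countable) jump set of `a`.
Weights: `cs u = (c + k a u)/√(π a u)` on `T \ J`, `0` elsewhere; `sn u = √(1 - cs²)` on `[s,t]`.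
`mm ≥ ∫_{x3 ∈ [s,t]} rho₃²/wt = ∫ wt - ∫ (wt - rho₃²/wt) ≥ ∫ (cs √(rho₁²+rho₂²) + sn rho₃) - ∫_T (c + k a) ≥ ∫ sn(hgt)`,
and with the quantile function `τ a' = inf {t | a t ≤ a'}` (law of `hgt` on `dom ∩ sq` = law of `τ` on ` (bb, aa)`),
`∫ sn(hgt) ≥ ∫_α^β √(1 - (c + k a)²/(π a)) da`. -/

/-- the quantile function of a finite measure on `[0,1]` -/
private theorem quant {a : ℝ → ℝ} {μ : Measure ℝ} [IsFiniteMeasure μ] {b A : ℝ}
    (ha : ∀ t, a t = b + μ.real (Ioi t)) (h0 : ∀ t < 0, a t = A) (h1 : a 1 = b)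
    (hU : μ.real univ = A - b) :
    ∃ τ : ℝ → ℝ, Antitone τ ∧ (∀ x, 0 ≤ τ x ∧ τ x ≤ 1) ∧ (∀ x, b ≤ x → a (τ x) ≤ x) ∧
      (∀ x t, 0 ≤ t → a t ≤ x → τ x ≤ t) ∧ (volume.restrict (Ioo b A)).map τ = μ := by
  have hanti : Antitone a := fun s t hst => by
    rw [ha, ha]
    have := measureReal_mono (μ := μ) (Ioi_subset_Ioi hst)
    linarith
  have hrc : ∀ t x, (∀ s, t < s → a s ≤ x) → a t ≤ x := fun t x h => by
    have hm : Monotone fun n : ℕ => Ioi (t + 1 / ((n : ℝ) + 1)) := fun m n hmn =>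
      Ioi_subset_Ioi (by
        have := Nat.one_div_le_one_div (α := ℝ) hmn
        linarith)
    have hu : ⋃ n : ℕ, Ioi (t + 1 / ((n : ℝ) + 1)) = Ioi t := by
      ext y
      simp only [mem_iUnion, mem_Ioi]
      constructor
      · rintro ⟨n, hn⟩
        have := Nat.one_div_pos_of_nat (α := ℝ) (n := n)
        linarith
      · intro hy
        obtain ⟨n, hn⟩ := exists_nat_one_div_lt (sub_pos.2 hy)
        exact ⟨n, by linarith⟩
    have l1 := tendsto_measure_iUnion_atTop (μ := μ) hm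
    rw [hu] at l1
    have l2 := ((ENNReal.tendsto_toReal (measure_ne_top μ _)).comp l1).const_add b
    rw [ha]
    refine le_of_tendsto' l2 fun n => ?_
    have := h (t + 1 / ((n : ℝ) + 1)) (lt_add_of_pos_right _ Nat.one_div_pos_of_nat)
    rwa [ha] at this
  have hbd : ∀ x, BddBelow {t : ℝ | 0 ≤ t ∧ (a t ≤ x ∨ 1 ≤ t)} := fun x => ⟨0, fun t ht => ht.1⟩
  have hne : ∀ x, (1 : ℝ) ∈ {t : ℝ | 0 ≤ t ∧ (a t ≤ x ∨ 1 ≤ t)} := fun x =>
    ⟨zero_le_one, Or.inr le_rfl⟩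
  obtain ⟨τ, hτ⟩ : ∃ τ : ℝ → ℝ, τ = fun x => sInf {t : ℝ | 0 ≤ t ∧ (a t ≤ x ∨ 1 ≤ t)} := ⟨_, rfl⟩
  have t1 : Antitone τ := fun x y hxy => by
    rw [hτ]
    exact csInf_le_csInf (hbd y) ⟨1, hne x⟩ fun t ht => ⟨ht.1, ht.2.imp_left fun h => h.trans hxy⟩
  have t2 : ∀ x, 0 ≤ τ x ∧ τ x ≤ 1 := fun x => by
    rw [hτ]
    exact ⟨le_csInf ⟨1, hne x⟩ fun t ht => ht.1, csInf_le (hbd x) (hne x)⟩
  have t3 : ∀ x, b ≤ x → a (τ x) ≤ x := fun x hx => hrc _ _ fun s hs => by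
    rw [hτ] at hs
    obtain ⟨r, hr, hrs⟩ := exists_lt_of_csInf_lt ⟨1, hne x⟩ hs
    refine (hanti hrs.le).trans (hr.2.elim id fun h => ?_)
    exact (hanti h).trans (h1.trans_le hx)
  have t4 : ∀ x t, 0 ≤ t → a t ≤ x → τ x ≤ t := fun x t ht h => by
    rw [hτ]
    exact csInf_le (hbd x) ⟨ht, Or.inl h⟩
  refine ⟨τ, t1, t2, t3, t4, Measure.ext_of_Iic _ _ fun t => ?_⟩
  have hb : b ≤ a t := by
    rw [ha]
    exact le_add_of_nonneg_right measureReal_nonneg
  have e1 : μ (Iic t) = ENNReal.ofReal (A - a t) := by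
    have := measureReal_compl (μ := μ) (measurableSet_Ioi (a := t))
    rw [compl_Ioi, hU] at this
    rw [← ofReal_measureReal (μ := μ) (s := Iic t), this, ha]
    refine congrArg ENNReal.ofReal ?_
    ring
  rw [e1, Measure.map_apply t1.measurable measurableSet_Iic,
    Measure.restrict_apply (t1.measurable measurableSet_Iic)]
  refine le_antisymm ?_ ?_
  · rw [← Real.volume_Ico]
    refine measure_mono fun x hx => ⟨?_, hx.2.2⟩
    exact (hanti hx.1).trans (t3 x hx.2.1.le)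
  · rw [← Real.volume_Ioo]
    refine measure_mono fun x hx => ⟨?_, hb.trans_lt hx.1, hx.2⟩
    refine t4 x t (not_lt.1 fun ht => ?_) hx.1.le
    exact lt_asymm hx.2 (h0 t ht ▸ hx.1)

/-- distribution function of the height -/
private theorem ar_slice {E : Set P3} (h : Adm E) (t : ℝ) :
    ar (P232.slice E t) = bb E + ((volume.restrict (dom E ∩ sq)).map (hgt E)).real (Ioi t) := by
  have hm := measurable_hgt h.measurableSet
  have hs : ∀ u, MeasurableSet (P232.slice E u) := fun u => (h.slice u).isOpen.measurableSet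
  have hf : ∀ S : Set P2, S ⊆ sq → volume S ≠ ∞ := fun S hS =>
    ne_top_of_le_ne_top (by simp [volume_sq]) (measure_mono hS)
  have e : P232.slice E t ∩ sq = (P232.slice E 1 ∩ sq) ∪ (hgt E ⁻¹' Ioi t ∩ (dom E ∩ sq)) := by
    ext p
    constructor
    · rintro ⟨hp, hq⟩
      by_cases h1 : p ∈ P232.slice E 1
      · exact Or.inl ⟨h1, hq⟩
      · have h0 : p ∈ P232.slice E 0 := by
          rcases le_total t 0 with ht | ht
          · rwa [← h.slice_of_nonpos ht]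
          · exact h.lower (show ((p.1, p.2, 0) : P3) ≤ (p.1, p.2, t) from ⟨le_rfl, le_rfl, ht⟩) hp
        exact Or.inr ⟨(h.mem_iff_of_dom ⟨h0, h1⟩ t).1 hp, ⟨h0, h1⟩, hq⟩
    · rintro (⟨hp, hq⟩ | ⟨ht, hp, hq⟩)
      · refine ⟨?_, hq⟩
        rcases le_total 1 t with ht | ht
        · rwa [h.slice_of_one_le ht]
        · exact h.lower (show ((p.1, p.2, t) : P3) ≤ (p.1, p.2, 1) from ⟨le_rfl, le_rfl, ht⟩) hp
      · exact ⟨(h.mem_iff_of_dom hp t).2 ht, hq⟩
  have hd : Disjoint (P232.slice E 1 ∩ sq) (hgt E ⁻¹' Ioi t ∩ (dom E ∩ sq)) :=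
    disjoint_left.2 fun p hp hq => hq.2.1.2 hp.1
  rw [ar, e, measure_union hd
    ((hm measurableSet_Ioi).inter (h.measurableSet_dom.inter measurableSet_sq)),
    ENNReal.toReal_add (hf _ inter_subset_right) (hf _ fun p hp => hp.2.2), Measure.real,
    Measure.map_apply hm measurableSet_Ioi, Measure.restrict_apply (hm measurableSet_Ioi)]
  rfl

private theorem cs_sn {c r1 r2 r3 : ℝ} (h0 : 0 ≤ c) (h1 : c ≤ 1) :
    c * √(r1 ^ 2 + r2 ^ 2) + √(1 - c ^ 2) * r3 ≤ √(r1 ^ 2 + r2 ^ 2 + r3 ^ 2) := by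
  have e1 : √(r1 ^ 2 + r2 ^ 2) ^ 2 = r1 ^ 2 + r2 ^ 2 := Real.sq_sqrt (by positivity)
  have e2 : √(1 - c ^ 2) ^ 2 = 1 - c ^ 2 := Real.sq_sqrt (by nlinarith)
  refine Real.le_sqrt_of_sq_le ?_
  nlinarith [sq_nonneg (c * r3 - √(1 - c ^ 2) * √(r1 ^ 2 + r2 ^ 2))]

/-- the calibration inequality -/
private theorem mm_cal {E : Set P3} (h : Adm E) {s t : ℝ} {cs : ℝ → ℝ} (hm : Measurable cs)
    (c0 : ∀ u, 0 ≤ cs u) (c1 : ∀ u, cs u ≤ 1) (cz : ∀ u, u ∉ Ioo s t → cs u = 0) :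
    (∫ x in Q, cs x.2.2 * √((rho E x).1 ^ 2 + (rho E x).2.1 ^ 2) ∂(nu E)) +
      (∫ x in Q, (Icc s t).indicator (fun u => √(1 - cs u ^ 2)) x.2.2 * (rho E x).2.2 ∂(nu E)) -
      (∫ x in {x ∈ Q | x.2.2 ∈ Ioo s t}, (wt E x - (rho E x).2.2 ^ 2 / wt E x) ∂(nu E))
      ≤ mm E := by
  have mr := measurable_rho E
  have mw := measurable_wt E
  have m3 : Measurable fun x : P3 => x.2.2 := measurable_snd.snd
  have msn : Measurable ((Icc s t).indicator fun u => √(1 - cs u ^ 2)) :=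
    Measurable.indicator (by fun_prop) measurableSet_Icc
  have mS : MeasurableSet ((fun x : P3 => x.2.2) ⁻¹' Ioo s t) := m3 measurableSet_Ioo
  have r12 : ∀ x, √((rho E x).1 ^ 2 + (rho E x).2.1 ^ 2) ≤ wt E x := fun x =>
    Real.sqrt_le_sqrt (le_add_of_nonneg_right (sq_nonneg _))
  have r3 : ∀ x, (rho E x).2.2 ≤ wt E x := fun x =>
    Real.le_sqrt_of_sq_le (le_add_of_nonneg_left (by positivity))
  have r4 : ∀ x, 0 < wt E x → (rho E x).2.2 ^ 2 / wt E x ≤ wt E x := fun x hx => by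
    rw [div_le_iff₀ hx]
    nlinarith [r3 x, (rho_nonneg E x).2.2]
  have sn1 : ∀ u, |(Icc s t).indicator (fun u => √(1 - cs u ^ 2)) u| ≤ 1 := fun u => by
    by_cases hu : u ∈ Icc s t
    · rw [indicator_of_mem hu, abs_of_nonneg (Real.sqrt_nonneg _)]
      exact Real.sqrt_le_one.2 (by nlinarith [sq_nonneg (cs u)])
    · simp [indicator_of_notMem hu]
  have i1 : IntegrableOn (fun x => cs x.2.2 * √((rho E x).1 ^ 2 + (rho E x).2.1 ^ 2)) Q (nu E) := by
    refine h.integrableOn_Q (by fun_prop) (M := 1) (h.wt_bounds.mono fun x hx _ => ?_)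
    rw [abs_of_nonneg (mul_nonneg (c0 _) (Real.sqrt_nonneg _))]
    exact mul_le_one₀ (c1 _) (Real.sqrt_nonneg _) ((r12 x).trans hx.2)
  have i2 : IntegrableOn (fun x =>
      (Icc s t).indicator (fun u => √(1 - cs u ^ 2)) x.2.2 * (rho E x).2.2) Q (nu E) := by
    refine h.integrableOn_Q ((msn.comp m3).mul mr.snd.snd) (M := 1)
      (h.wt_bounds.mono fun x hx _ => ?_)
    rw [abs_mul, abs_of_nonneg (rho_nonneg E x).2.2]
    exact mul_le_one₀ (sn1 _) (rho_nonneg E x).2.2 ((r3 x).trans hx.2)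
  have i4 : IntegrableOn (fun x => (rho E x).2.2 ^ 2 / wt E x) Q (nu E) := by
    refine h.integrableOn_Q (by fun_prop) (M := 1) (h.wt_bounds.mono fun x hx _ => ?_)
    have h0 : 0 < wt E x := by linarith [hx.1]
    rw [abs_of_nonneg (by positivity)]
    exact (r4 x h0).trans hx.2
  have i5 : IntegrableOn (wt E) Q (nu E) := by
    refine h.integrableOn_Q mw (M := 1) (h.wt_bounds.mono fun x hx _ => ?_)
    rw [abs_of_nonneg (by linarith [hx.1])]
    exact hx.2
  have i3 : IntegrableOn (((fun x : P3 => x.2.2) ⁻¹' Ioo s t).indicator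
      fun x => wt E x - (rho E x).2.2 ^ 2 / wt E x) Q (nu E) := (i5.sub i4).indicator mS
  have e : ∫ x in {x ∈ Q | x.2.2 ∈ Ioo s t}, (wt E x - (rho E x).2.2 ^ 2 / wt E x) ∂(nu E) =
      ∫ x in Q, ((fun x : P3 => x.2.2) ⁻¹' Ioo s t).indicator
        (fun x => wt E x - (rho E x).2.2 ^ 2 / wt E x) x ∂(nu E) := by
    rw [setIntegral_indicator mS]
    rfl
  rw [e, ← integral_add i1 i2]
  refine (integral_sub (i1.add i2) i3).symm.trans_le
    (integral_mono_ae ((i1.add i2).sub i3) i4 (ae_restrict_of_ae ?_))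
  filter_upwards [h.wt_bounds, h.ae_plane s, h.ae_plane t] with x hx hs ht
  simp only [Pi.add_apply]
  have h0 : 0 < wt E x := by linarith [hx.1]
  by_cases hI : x.2.2 ∈ Ioo s t
  · rw [indicator_of_mem (Ioo_subset_Icc_self hI), indicator_of_mem (show x ∈ _ from hI)]
    have := cs_sn (r1 := (rho E x).1) (r2 := (rho E x).2.1) (r3 := (rho E x).2.2) (c0 x.2.2)
      (c1 x.2.2)
    have e2 : wt E x = √((rho E x).1 ^ 2 + (rho E x).2.1 ^ 2 + (rho E x).2.2 ^ 2) := rfl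
    linarith
  · rw [indicator_of_notMem (show x ∉ _ from hI), cz _ hI, zero_mul, zero_add, sub_zero]
    by_cases hC : x.2.2 ∈ Icc s t
    · have h12 : (rho E x).1 = 0 ∧ (rho E x).2.1 = 0 := by
        rcases eq_endpoints_or_mem_Ioo_of_mem_Icc hC with h' | h' | h'
        exacts [hs h', ht h', absurd h' hI]
      have e2 : wt E x = (rho E x).2.2 := by
        rw [wt, nrm, h12.1, h12.2]
        simpa using Real.sqrt_sq (rho_nonneg E x).2.2
      rw [indicator_of_mem hC, cz _ hI, ← e2, pow_two (wt E x), mul_div_assoc, div_self h0.ne']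
      simp
    · rw [indicator_of_notMem hC, zero_mul]
      positivity

theorem Adm.mm_ge {E : Set P3} (h : Adm E) {k : ℝ} (hc : Crit3 E k)
    (h1 : ((1, 0, 0) : P3) ∉ E) (h2 : ((0, 1, 0) : P3) ∉ E) {α β : ℝ} (h0 : 0 ≤ α) (hαβ : α ≤ β)
    (hb : bb E ≤ α) (ha : β ≤ aa E)
    (hr : ∀ a ∈ Ioo α β, 0 ≤ ll E - k * bb E + k * a ∧ ll E - k * bb E + k * a ≤ √(Real.pi * a)) :
    ∫ a in α..β, √(1 - (ll E - k * bb E + k * a) ^ 2 / (Real.pi * a)) ≤ mm E := by
  rcases hαβ.eq_or_lt with rfl | hlt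
  · simpa using h.mm_nonneg
  have hm := measurable_hgt h.measurableSet
  obtain ⟨μ, hμ⟩ : ∃ μ : Measure ℝ, μ = (volume.restrict (dom E ∩ sq)).map (hgt E) := ⟨_, rfl⟩
  have : IsFiniteMeasure (volume.restrict (dom E ∩ sq)) := isFiniteMeasure_restrict.2
    (ne_top_of_le_ne_top (by simp [volume_sq]) (measure_mono inter_subset_right))
  have : IsFiniteMeasure μ := by
    rw [hμ]
    infer_instance
  obtain ⟨a, haa⟩ : ∃ a : ℝ → ℝ, a = fun t => ar (P232.slice E t) := ⟨_, rfl⟩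
  have hanti : Antitone a := haa ▸ h.antitone_ar
  have a1 : ∀ t, a t = bb E + μ.real (Ioi t) := fun t => by
    rw [haa, hμ]
    exact ar_slice h t
  have a2 : ∀ t < 0, a t = aa E := fun t ht => by
    simp only [haa, h.slice_of_nonpos ht.le, aa]
  have a3 : a 1 = bb E := by simp only [haa, bb]
  have a4 : μ.real univ = aa E - bb E := by
    have e : hgt E ⁻¹' Ioi (-1) = univ :=
      eq_univ_of_forall fun p => (neg_one_lt_zero.trans_le (hgt_nonneg E p) : -1 < hgt E p)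
    rw [← a2 (-1) neg_one_lt_zero, a1, add_sub_cancel_left, hμ, Measure.real, Measure.real,
      Measure.map_apply hm measurableSet_Ioi, Measure.map_apply hm MeasurableSet.univ, e,
      preimage_univ]
  obtain ⟨τ, t1, t2, t3, t4, t5⟩ := quant a1 a2 a3 a4
  have hbd : BddBelow {v : ℝ | 0 ≤ v ∧ a v < β} := ⟨0, fun v hv => hv.1⟩
  have hne : {v : ℝ | 0 ≤ v ∧ a v < β}.Nonempty := ⟨1, zero_le_one, a3 ▸ hb.trans_lt hlt⟩
  obtain ⟨s, hs⟩ : ∃ s, s = sInf {v : ℝ | 0 ≤ v ∧ a v < β} := ⟨_, rfl⟩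
  have s0 : 0 ≤ s := hs ▸ le_csInf hne fun v hv => hv.1
  have s1 : ∀ x, bb E ≤ x → x < β → s ≤ τ x := fun x hx hx' =>
    hs ▸ csInf_le hbd ⟨(t2 x).1, (t3 x hx).trans_lt hx'⟩
  have hT : ∀ u ∈ Ioo s (τ α), a u ∈ Ioo α β := fun u hu => by
    refine ⟨not_le.1 fun h' => hu.2.not_ge (t4 α u (s0.trans hu.1.le) h'), ?_⟩
    obtain ⟨v, hv, hvu⟩ := exists_lt_of_csInf_lt hne (hs ▸ hu.1)
    exact (hanti hvu.le).trans_lt hv.2
  have hJ : {u : ℝ | 0 < μ {u}}.Countable :=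
    Measure.countable_meas_level_set_pos (μ := μ) measurable_id
  have mT : MeasurableSet (Ioo s (τ α) \ {u : ℝ | 0 < μ {u}}) :=
    measurableSet_Ioo.diff hJ.measurableSet
  have ma : Measurable a := hanti.measurable
  obtain ⟨cs, hcs⟩ : ∃ cs : ℝ → ℝ, cs = (Ioo s (τ α) \ {u : ℝ | 0 < μ {u}}).indicator
      fun u => (ll E - k * bb E + k * a u) / √(Real.pi * a u) := ⟨_, rfl⟩
  have cm : Measurable cs := hcs ▸ Measurable.indicator (by fun_prop) mT
  have c0 : ∀ u, 0 ≤ cs u := fun u => hcs ▸ indicator_nonneg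
    (fun v hv => div_nonneg (hr _ (hT v hv.1)).1 (Real.sqrt_nonneg _)) u
  have c1 : ∀ u, cs u ≤ 1 := fun u => hcs ▸ indicator_apply_le'
    (fun hv => div_le_one_of_le₀ (hr _ (hT u hv.1)).2 (Real.sqrt_nonneg _)) fun _ => zero_le_one
  have cz : ∀ u, u ∉ Ioo s (τ α) → cs u = 0 := fun u hu =>
    hcs ▸ indicator_of_notMem (fun hv => hu hv.1) _
  have msn : Measurable ((Icc s (τ α)).indicator fun u => √(1 - cs u ^ 2)) :=
    Measurable.indicator (by fun_prop) measurableSet_Icc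
  have k1 := mm_cal h cm c0 c1 cz
  have k2 := h.slice_iso h1 h2 cm c0 c1
  have k3 := h.flux_Ioo hc s0 (s1 α hb hlt) (t2 α).2
  have k4 := h.integral_Q_rho3
    (F := fun x => (Icc s (τ α)).indicator (fun u => √(1 - cs u ^ 2)) x.2.2)
    (msn.comp measurable_snd.snd)
  have k5 : ∫ t in Ioo (0 : ℝ) 1, cs t * √(Real.pi * ar (P232.slice E t)) =
      ∫ u in Ioo s (τ α), (ll E - k * bb E + k * ar (P232.slice E u)) := by
    have e : Ioo (0 : ℝ) 1 ∩ Ioo s (τ α) = Ioo s (τ α) :=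
      inter_eq_right.2 (Ioo_subset_Ioo s0 (t2 α).2)
    rw [← e, ← setIntegral_indicator measurableSet_Ioo]
    refine integral_congr_ae (ae_restrict_of_ae ?_)
    filter_upwards [hJ.ae_notMem volume] with u hu
    by_cases hI : u ∈ Ioo s (τ α)
    · have p : 0 < √(Real.pi * a u) :=
        Real.sqrt_pos.2 (mul_pos Real.pi_pos (h0.trans_lt (hT u hI).1))
      rw [indicator_of_mem hI, hcs, indicator_of_mem (show u ∈ _ \ _ from ⟨hI, hu⟩)]
      simp only [haa] at p ⊢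
      exact div_mul_cancel₀ _ p.ne'
    · rw [indicator_of_notMem hI, cz u hI, zero_mul]
  have k6 : ∫ p in dom E ∩ sq, (Icc s (τ α)).indicator (fun u => √(1 - cs u ^ 2)) (hgt E p) =
      ∫ x in Ioo (bb E) (aa E), (Icc s (τ α)).indicator (fun u => √(1 - cs u ^ 2)) (τ x) := by
    rw [← integral_map hm.aemeasurable msn.aestronglyMeasurable, ← hμ, ← t5,
      integral_map t1.measurable.aemeasurable msn.aestronglyMeasurable]
  have sn0 : ∀ u, 0 ≤ (Icc s (τ α)).indicator (fun u => √(1 - cs u ^ 2)) u :=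
    indicator_nonneg fun _ _ => Real.sqrt_nonneg _
  have sn1 : ∀ u, (Icc s (τ α)).indicator (fun u => √(1 - cs u ^ 2)) u ≤ 1 := fun u =>
    indicator_apply_le' (fun _ => Real.sqrt_le_one.2 (by nlinarith [sq_nonneg (cs u)]))
      fun _ => zero_le_one
  have i1 : IntegrableOn (fun x => (Icc s (τ α)).indicator (fun u => √(1 - cs u ^ 2)) (τ x))
      (Ioo (bb E) (aa E)) :=
    Measure.integrableOn_of_bounded (M := 1) measure_Ioo_lt_top.ne
      (msn.comp t1.measurable).aestronglyMeasurable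
      (Eventually.of_forall fun x => by
        rw [Real.norm_of_nonneg (sn0 _)]
        exact sn1 _)
  have hsub : Ioo α β ⊆ Ioo (bb E) (aa E) := Ioo_subset_Ioo hb ha
  have g1 : ∀ x ∈ Ioo α β, √(1 - (ll E - k * bb E + k * x) ^ 2 / (Real.pi * x)) ≤ 1 :=
    fun x hx => Real.sqrt_le_one.2 (sub_le_self _
      (div_nonneg (sq_nonneg _) (mul_nonneg Real.pi_pos.le (h0.trans hx.1.le))))
  have k7 : ∫ x in Ioo α β, √(1 - (ll E - k * bb E + k * x) ^ 2 / (Real.pi * x)) ≤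
      ∫ x in Ioo α β, (Icc s (τ α)).indicator (fun u => √(1 - cs u ^ 2)) (τ x) := by
    refine integral_mono_of_nonneg (Eventually.of_forall fun _ => Real.sqrt_nonneg _)
      (i1.mono_set hsub) ((ae_restrict_mem measurableSet_Ioo).mono fun x hx => ?_)
    have hx0 : bb E ≤ x := hb.trans hx.1.le
    have hI : τ x ∈ Icc s (τ α) := ⟨s1 x hx0 hx.2, t1 hx.1.le⟩
    simp only [indicator_of_mem hI]
    by_cases hu : τ x ∈ Ioo s (τ α) \ {u : ℝ | 0 < μ {u}}
    · have z : μ {τ x} = 0 := nonpos_iff_eq_zero.1 (not_lt.1 hu.2)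
      rw [← t5, Measure.map_apply t1.measurable (measurableSet_singleton _),
        Measure.restrict_apply (t1.measurable (measurableSet_singleton _))] at z
      have z2 : volume (Ioo (a (τ x)) x) = 0 := by
        refine measure_mono_null (fun y hy => ?_) z
        exact ⟨le_antisymm (t4 y _ (t2 x).1 hy.1.le) (t1 hy.2.le),
          (hb.trans (hT _ hu.1).1.le).trans_lt hy.1, hy.2.trans (hx.2.trans_le ha)⟩
      rw [Real.volume_Ioo, ENNReal.ofReal_eq_zero] at z2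
      have e : a (τ x) = x := le_antisymm (t3 x hx0) (by linarith)
      rw [hcs, indicator_of_mem hu, e, div_pow,
        Real.sq_sqrt (mul_nonneg Real.pi_pos.le (h0.trans hx.1.le))]
    · rw [hcs, indicator_of_notMem hu]
      simpa using g1 x hx
  have k8 := setIntegral_mono_set i1 (Eventually.of_forall fun x => sn0 (τ x)) hsub.eventuallyLE
  rw [intervalIntegral.integral_of_le hαβ, integral_Ioc_eq_integral_Ioo]
  simp only at k4
  linarith

end Vale.Agent.P232
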