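import Vale.Agent.P232.Defs

open MeasureTheory Set Filter Topology
open scoped ENNReal

noncomputable section
namespace Vale.Agent.P232

/-! Task: exclusion of unduloids at the volume `v1`.  `α < β` are the roots of ` (c + h a)² = π a`, `c = 2A - 3hv`;
`1 - (c + h a)²/(π a) = h² (a - α)(β - a)/(π a)`.  Put `t = hv/A ∈ (1/2, 2/3)`; by scaling and monotonicity in `A` the worst case is
`A = 2π/9`, where the claim reads `∫_{r₁}^{r₂} √((ρ²-r₁²)(r₂²-ρ²)) dρ > 18 t² (2t - 1)`, `r = 1 ∓ √((2t-1)(6t-1))`.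
For `t ≤ 0.6` use the tangent line of `1/√a` at the midpoint and `∫ √((a-α)(β-a)) = π (β-α)²/8`; for `t ≥ 0.59` use
`√(1-u) ≥ 1 - u/2 - u²/2` with `u = α/a`, `∫ √(β-a) = (2/3)(β-α)^{3/2}`, `√(β-a) ≤ √β` in the negative terms, `log x ≤ (x-1)/√x`:
the integral is `≥ (h/√π) ((2/3)(β-α)^{3/2} - √β (α/2) ((β-α)/√(αβ) + 1))` (numerically checked; tight as `t → 2/3`, `t → 1/2`).
To avoid the scaling argument one can bound directly in terms of `h, c`. -/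

theorem finK_int (κ a b : ℝ) :
    IntegrableOn (fun ρ : ℝ => 2 * √(ρ ^ 2 - (ρ ^ 2 + κ) ^ 2)) (Icc a b) :=
  Continuous.integrableOn_Icc (by fun_prop)

theorem finK_one {s : ℝ} (h0 : 0 < s) (h1 : s < 1 / 2) :
    2 / 3 * (1 - 2 * s) ^ 2 - 2 / 15 * (1 - 2 * s) ^ 4
      ≤ ∫ ρ in s..(1 - s), 2 * √(ρ ^ 2 - (ρ ^ 2 + s * (1 - s)) ^ 2) := by
  obtain ⟨κ, hκ⟩ : ∃ κ, κ = s * (1 - s) := ⟨_, rfl⟩
  have hD : 0 < 1 - 2 * s := by linarith
  have h := intervalIntegral.sub_le_integral_of_hasDeriv_right_of_le (a := s) (b := 1 - s)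
    (g := fun ρ => 4 / (1 - 2 * s) * (ρ ^ 3 * ((1 - 2 * κ) / 3) - ρ ^ 5 / 5 - κ ^ 2 * ρ))
    (g' := fun ρ => 4 / (1 - 2 * s) * (ρ ^ 2 - (ρ ^ 2 + κ) ^ 2))
    (by linarith) (by fun_prop) (fun x _ => ?_) (finK_int κ _ _) (fun x hx => ?_)
  · rw [← hκ]
    refine le_of_eq_of_le ?_ h
    rw [hκ]
    field_simp
    ring
  · refine HasDerivAt.hasDerivWithinAt ?_
    refine ((((hasDerivAt_pow 3 x).mul_const ((1 - 2 * κ) / 3)).sub
      ((hasDerivAt_pow 5 x).div_const 5)).sub ((hasDerivAt_id x).const_mul (κ ^ 2))).const_mul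
      (4 / (1 - 2 * s)) |>.congr_deriv ?_
    norm_num
    left
    ring
  · obtain ⟨W, hW⟩ : ∃ W, W = x ^ 2 - (x ^ 2 + κ) ^ 2 := ⟨_, rfl⟩
    rw [← hW]
    have e : W = (x - s) * (1 - s - x) * (x ^ 2 + x + κ) := by rw [hW, hκ]; ring
    have hx0 : 0 < x := h0.trans hx.1
    have hκ0 : 0 < κ := by rw [hκ]; exact mul_pos h0 (by linarith)
    have hW0 : 0 ≤ W := by
      rw [e]
      exact mul_nonneg (mul_nonneg (by linarith [hx.1]) (by linarith [hx.2])) (by positivity)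
    have hW1 : 4 * W ≤ (1 - 2 * s) ^ 2 := by
      have := sq_nonneg (2 * (x ^ 2 + κ) - 1)
      have e2 : (1 - 2 * s) ^ 2 = 1 - 4 * κ := by rw [hκ]; ring
      rw [hW, e2]; linarith
    have : 2 / (1 - 2 * s) * W ≤ √W := by
      refine Real.le_sqrt_of_sq_le ?_
      rw [mul_pow, div_pow, div_mul_eq_mul_div, div_le_iff₀ (by positivity)]
      linarith [mul_le_mul_of_nonneg_left hW1 hW0]
    have e3 : 4 / (1 - 2 * s) * W = 2 * (2 / (1 - 2 * s) * W) := by ring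
    linarith

theorem finK_q {s x : ℝ} (h0 : 0 < s) (hx : s ≤ x) :
    x - s / 10 - 9 / 10 * s ^ 3 / x ^ 2 ≤ √(x ^ 2 - s ^ 2) := by
  have hx0 : 0 < x := h0.trans_le hx
  obtain ⟨q, rfl⟩ : ∃ q, s = q * x := ⟨s / x, by field_simp⟩
  have q0 : 0 ≤ q := nonneg_of_mul_nonneg_left h0.le hx0
  have q1 : 0 ≤ 1 - q := by
    have : q ≤ 1 := le_of_mul_le_mul_right (by linarith) hx0
    linarith
  refine Real.le_sqrt_of_sq_le ?_
  have e : x - q * x / 10 - 9 / 10 * (q * x) ^ 3 / x ^ 2 = x * (1 - q / 10 - 9 / 10 * q ^ 3) := by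
    field_simp
  have m : 0 ≤ 1 / 5 - 81 / 100 * q + 99 / 100 * q ^ 2 + 81 / 100 * q ^ 3 + 81 / 100 * q ^ 4 := by
    have := sq_nonneg (q - 0.4)
    have := pow_nonneg q0 3
    have := pow_nonneg q0 4
    nlinarith
  have := mul_nonneg (sq_nonneg x) (mul_nonneg (mul_nonneg q0 q1) m)
  rw [e]
  linarith

theorem finK_two {s : ℝ} (h0 : 0 < s) (h1 : s ≤ 0.24) :
    2 / 3 * (1 - 3 * s + 3 / 2 * s ^ 2) - 2 * (1 - 2 * s) * (s * (1 - s) / 10 + 9 / 10 * s ^ 2)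
      ≤ ∫ ρ in s..(1 - s), 2 * √(ρ ^ 2 - (ρ ^ 2 + s * (1 - s)) ^ 2) := by
  obtain ⟨S, hS⟩ : ∃ S, S = 1 - s := ⟨_, rfl⟩
  have hS0 : 0 < S := by linarith
  have h := intervalIntegral.sub_le_integral_of_hasDeriv_right_of_le (a := s) (b := S)
    (g := fun ρ => -(2 / 3) * ((S ^ 2 - ρ ^ 2) * √(S ^ 2 - ρ ^ 2)) - S * s / 5 * ρ
      + 9 / 5 * S * s ^ 3 * ρ⁻¹)
    (g' := fun ρ => 2 * ρ * √(S ^ 2 - ρ ^ 2) - 2 * S * (s / 10 + 9 / 10 * s ^ 3 / ρ ^ 2))
    (by linarith) ?_ (fun x hx => ?_) (finK_int (s * S) _ _) (fun x hx => ?_)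
  · rw [← hS]
    refine le_trans ?_ h
    have e1 : S ^ 2 - s ^ 2 = 1 - 2 * s := by rw [hS]; ring
    have e2 : 1 - 3 * s + 3 / 2 * s ^ 2 ≤ (1 - 2 * s) * √(1 - 2 * s) := by
      rw [← Real.sqrt_sq (show 0 ≤ 1 - 2 * s by linarith), ← Real.sqrt_mul (sq_nonneg _),
        Real.sqrt_sq (show 0 ≤ 1 - 2 * s by linarith)]
      refine Real.le_sqrt_of_sq_le ?_
      linarith [mul_nonneg (pow_nonneg h0.le 3) (show 0 ≤ 1 - 9 / 4 * s by linarith)]
    have e3 : 9 / 5 * S * s ^ 3 * S⁻¹ = 9 / 5 * s ^ 3 := by field_simp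
    have e4 : 9 / 5 * S * s ^ 3 * s⁻¹ = 9 / 5 * S * s ^ 2 := by field_simp
    simp only [sub_self, zero_mul, mul_zero, e1, e3, e4]
    rw [hS]
    linarith
  · refine ContinuousOn.add (by fun_prop) (continuousOn_const.mul
      (continuousOn_id.inv₀ fun x hx => (h0.trans_le hx.1).ne'))
  · have hx0 : 0 < x := h0.trans hx.1
    have hY : 0 < S ^ 2 - x ^ 2 := by nlinarith [hx.2]
    have d1 : HasDerivAt (fun ρ : ℝ => S ^ 2 - ρ ^ 2) (-(2 * x)) x := by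
      simpa using (hasDerivAt_pow 2 x).const_sub (S ^ 2)
    refine HasDerivAt.hasDerivWithinAt ?_
    refine ((((d1.mul (d1.sqrt hY.ne')).const_mul (-(2 / 3))).sub
      ((hasDerivAt_id x).const_mul (S * s / 5))).add
      ((hasDerivAt_inv hx0.ne').const_mul (9 / 5 * S * s ^ 3))).congr_deriv ?_
    have e1 := Real.sq_sqrt hY.le
    have e2 := Real.sqrt_pos.2 hY
    generalize √(S ^ 2 - x ^ 2) = y at *
    rw [← e1]
    field_simp
    ring
  · have hx0 : 0 < x := h0.trans hx.1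
    have hY : 0 ≤ S ^ 2 - x ^ 2 := by nlinarith [hx.2]
    have e : x ^ 2 - (x ^ 2 + s * S) ^ 2 = (S ^ 2 - x ^ 2) * (x ^ 2 - s ^ 2) := by rw [hS]; ring
    have e1 : √(S ^ 2 - x ^ 2) ≤ S := Real.sqrt_le_iff.2 ⟨hS0.le, by linarith [sq_nonneg x]⟩
    have e2 := mul_le_mul_of_nonneg_left (finK_q h0 hx.1.le) (Real.sqrt_nonneg (S ^ 2 - x ^ 2))
    have e3 := mul_le_mul_of_nonneg_right e1
      (show 0 ≤ s / 10 + 9 / 10 * s ^ 3 / x ^ 2 by positivity)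
    rw [e, Real.sqrt_mul hY]
    linarith

theorem finK_mono {r R κ : ℝ} (h0 : 0 < r) (h1 : κ < r ^ 2) (h2 : κ ≤ 2 * r - 3 * r ^ 2)
    (hR : 1 / 3 ≤ R) (h3 : 1 - 3 * κ ≤ (3 * R - 1) ^ 2) : r * (r ^ 2 - κ) ≤ R * (R ^ 2 - κ) := by
  have : 3 * r - 1 ≤ 3 * R - 1 := le_of_sq_le_sq (by linarith) (by linarith)
  have h4 : r ≤ R := by linarith
  exact mul_le_mul h4 (by gcongr) (by linarith) (by linarith)

theorem finK_core {s r : ℝ} (h0 : 0 < s) (h1 : s < 1 / 2) (hr : 0 < r)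
    (h2 : s * (1 - s) < r ^ 2) (h3 : s * (1 - s) ≤ 2 * r - 3 * r ^ 2) :
    9 / 4 * (r * (r ^ 2 - s * (1 - s)))
      < ∫ ρ in s..(1 - s), 2 * √(ρ ^ 2 - (ρ ^ 2 + s * (1 - s)) ^ 2) := by
  rcases le_total s 0.24 with hs | hs
  · refine lt_of_lt_of_le ?_ (finK_two h0 hs)
    have a : 0 ≤ 0.24 - s := by linarith
    have m := finK_mono (R := 2 / 3 - s / 2 + s ^ 2 / 5) hr h2 h3 (by linarith [sq_nonneg s])
      (by linarith [mul_nonneg (sq_nonneg s) a, sq_nonneg s, sq_nonneg (s ^ 2)])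
    have p : 0 < 4 / 5 - 91 / 20 * s + 953 / 160 * s ^ 2 - 387 / 400 * s ^ 3 + 27 / 200 * s ^ 4
        - 9 / 500 * s ^ 5 := by
      linarith [pow_nonneg a 2, pow_nonneg a 3, pow_nonneg a 4, pow_nonneg a 5]
    linarith [mul_pos h0 p]
  · refine lt_of_lt_of_le ?_ (finK_one h0 h1)
    obtain ⟨e, he⟩ : ∃ e, e = (1 - 2 * s) ^ 2 := ⟨_, rfl⟩
    have e0 : 0 < e := by rw [he]; exact pow_pos (by linarith) 2
    have a : 0 ≤ 0.2704 - e := by
      have : (1 - 2 * s) ^ 2 ≤ 0.52 ^ 2 := by gcongr <;> linarith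
      linarith
    have hk : s * (1 - s) = (1 - e) / 4 := by rw [he]; ring
    rw [show (1 - 2 * s) ^ 4 = ((1 - 2 * s) ^ 2) ^ 2 by ring, ← he]
    rw [hk] at h2 h3 ⊢
    have m := finK_mono (R := 1 / 2 + e / 4 - e ^ 2 / 8) hr h2 h3
      (by linarith [mul_nonneg e0.le a])
      (by linarith [mul_nonneg (sq_nonneg e) a, sq_nonneg e, sq_nonneg (e ^ 2)])
    have p : 0 < 5 / 48 - 661 / 1920 * e + 63 / 256 * e ^ 2 - 27 / 1024 * e ^ 4
        + 9 / 2048 * e ^ 5 := by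
      linarith [pow_nonneg a 2, pow_nonneg a 3, mul_nonneg e0.le (pow_nonneg a 3),
        mul_nonneg e0.le (pow_nonneg a 4)]
    linarith [mul_pos e0 p]

theorem fin_K {A h : ℝ} (hA : A ≤ 2 * Real.pi / 9) (h1 : A < 2 * h * v1) (h2 : 3 * h * v1 < 2 * A) :
    ∃ α β : ℝ, 0 < α ∧ α < v1 ∧ v1 < β ∧
      (∀ a ∈ Ioo α β, 0 ≤ 2 * A - 3 * h * v1 + h * a ∧ 2 * A - 3 * h * v1 + h * a < √(Real.pi * a)) ∧
      2 * h * v1 - A < ∫ a in α..β, √(1 - (2 * A - 3 * h * v1 + h * a) ^ 2 / (Real.pi * a)) := by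
  have p0 := Real.pi_pos
  have hv : 0 < v1 := by unfold v1; positivity
  have hhv : 0 < h * v1 := by linarith
  have hh : 0 < h := (pos_iff_pos_of_mul_pos hhv).2 hv
  obtain ⟨c, hc⟩ : ∃ c, c = 2 * A - 3 * h * v1 := ⟨_, rfl⟩
  rw [← hc]
  have hc0 : 0 < c := by linarith
  obtain ⟨κ, hκ⟩ : ∃ κ, c = Real.pi / h * κ := ⟨h * c / Real.pi, by field_simp⟩
  obtain ⟨r, hr⟩ : ∃ r, r = 2 * h / 9 := ⟨_, rfl⟩
  have hr0 : 0 < r := by rw [hr]; positivity
  have hp : 0 < Real.pi / h := by positivity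
  have e1 : h * v1 = Real.pi / h * r ^ 2 := by rw [hr, v1]; field_simp; norm_num
  have e2 : 4 * Real.pi / 9 = Real.pi / h * (2 * r) := by rw [hr]; field_simp; norm_num
  have κ0 : 0 < κ := (pos_iff_pos_of_mul_pos (hκ ▸ hc0)).1 hp
  have κ1 : κ < r ^ 2 := lt_of_mul_lt_mul_left (by linarith) hp.le
  have κ2 : κ ≤ 2 * r - 3 * r ^ 2 := le_of_mul_le_mul_left (by linarith) hp
  have κ3 : 0 < 1 - 4 * κ := by linarith [sq_nonneg (2 * r - 1)]
  obtain ⟨s, s0, s1, hs⟩ : ∃ s : ℝ, 0 < s ∧ s < 1 / 2 ∧ κ = s * (1 - s) := by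
    have d1 := Real.sqrt_pos.2 κ3
    have d2 := Real.sq_sqrt κ3.le
    have d3 : √(1 - 4 * κ) < 1 := (Real.sqrt_lt' one_pos).2 (by linarith)
    exact ⟨(1 - √(1 - 4 * κ)) / 2, by linarith, by linarith, by linarith⟩
  have hrs : (r - s) * (r - (1 - s)) < 0 := by linarith
  have r1 : s < r := by
    by_contra hn
    linarith [mul_nonneg_of_nonpos_of_nonpos (show r - s ≤ 0 by linarith)
      (show r - (1 - s) ≤ 0 by linarith)]
  have r2 : r < 1 - s := by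
    by_contra hn
    linarith [mul_nonneg (show 0 ≤ r - s by linarith) (show 0 ≤ r - (1 - s) by linarith)]
  obtain ⟨k, hk⟩ : ∃ k, k = Real.pi / h ^ 2 := ⟨_, rfl⟩
  have k0 : 0 < k := by rw [hk]; positivity
  have e3 : v1 = k * r ^ 2 := by rw [hk, hr, v1]; field_simp; norm_num
  refine ⟨k * s ^ 2, k * (1 - s) ^ 2, by positivity, by rw [e3]; gcongr, by rw [e3]; gcongr,
    fun a ha => ?_, ?_⟩
  · have a0 : 0 < a := lt_trans (by positivity) ha.1
    refine ⟨by positivity, (Real.lt_sqrt (by positivity)).2 ?_⟩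
    have e4 : Real.pi * a - (c + h * a) ^ 2 = h ^ 2 * ((a - k * s ^ 2) * (k * (1 - s) ^ 2 - a)) := by
      rw [hκ, hs, hk]; field_simp; ring
    have := mul_pos (pow_pos hh 2) (mul_pos (sub_pos.2 ha.1) (sub_pos.2 ha.2))
    linarith
  · have hu : ∀ x ∈ uIcc s (1 - s), 0 < x := fun x hx => by
      rw [uIcc_of_le (by linarith)] at hx
      exact s0.trans_le hx.1
    have sub := intervalIntegral.integral_comp_mul_deriv' (a := s) (b := 1 - s)
      (f := fun ρ => k * ρ ^ 2) (f' := fun ρ => k * (2 * ρ))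
      (g := fun a => √(1 - (c + h * a) ^ 2 / (Real.pi * a)))
      (fun x _ => by simpa using (hasDerivAt_pow 2 x).const_mul k) (by fun_prop) ?_
    · rw [← sub, intervalIntegral.integral_congr
        (g := fun ρ => k * (2 * √(ρ ^ 2 - (ρ ^ 2 + s * (1 - s)) ^ 2))) fun x hx => ?_,
        intervalIntegral.integral_const_mul]
      · have core := finK_core s0 s1 hr0 (hs ▸ κ1) (hs ▸ κ2)
        have e5 : 2 * h * v1 - A = k * (9 / 4 * (r * (r ^ 2 - s * (1 - s)))) := by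
          have e6 : 2 * h * v1 - A = Real.pi / h * (r ^ 2 - κ) / 2 := by linarith
          rw [e6, ← hs, hk]
          generalize r ^ 2 - κ = u
          rw [hr]; field_simp; norm_num
        rw [e5]
        exact mul_lt_mul_of_pos_left core k0
      · have x0 := hu x hx
        have e7 : 1 - (c + h * (k * x ^ 2)) ^ 2 / (Real.pi * (k * x ^ 2))
            = (x ^ 2 - (x ^ 2 + s * (1 - s)) ^ 2) / x ^ 2 := by
          rw [hκ, ← hs, hk]; field_simp; ring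
        simp only [Function.comp]
        rw [e7, Real.sqrt_div' _ (sq_nonneg x), Real.sqrt_sq x0.le]
        field_simp
    · refine ContinuousOn.sqrt (continuousOn_const.sub (ContinuousOn.div (by fun_prop)
        (by fun_prop) ?_))
      rintro _ ⟨x, hx, rfl⟩
      have := hu x hx
      positivity

end Vale.Agent.P232
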