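import Vale.Agent.P232.FinE

open MeasureTheory Set Filter Topology
open scoped ENNReal

noncomputable section
namespace Vale.Agent.P232

/-! Task: exclusion of the Lawson pentagon.  Put `x_i = h l_i`, `X_i = h L_i`.  `h > 0` since `L₃ = h a₃ > 0`; `m₃ = A - h v`, `a₃² ≤ A m₃`.
Regime 1 (`v = v1`): `a₃ ≤ A/√2 < 0.494`, `h² a₃² ≤ h² A (A - h v) ≤ 4π²/27 < π (1 - a₃)`, contradiction.
Otherwise `l_i ≤ A`, `h A ≤ π/2`, `sin x_i > 0`, hence `cos x_i > 0`; `h c_i ≥ gq x_i`, so `gq x₁ + gq x₂ ≤ 2Ah - 3h²v =: R`.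
If `cos X₃ ≥ 0`: `X_i ∈ (0, π/2]` (`X_i < 2π`), `h ≤ X_i`, `fin_star`, and `R ≤ 2h - 3h²/π`.
If `cos X₃ < 0`: `π/2 < X₃ = h² a₃ ≤ h² √(A (A - h v))`, `tan x₁ tan x₂ = sin X₃ ≥ σ₀`; with `x₁ ≤ x₂`, `δ = π/2 - x₂`:
`x₁ ≥ arctan (σ₀ tan δ) ≥ σ₀ δ`, `tan² x₂ ≥ σ₀`.  Regime 2: `X₃ ≤ 2.5`, `σ₀ = 0.598`, `gq x₁ + gq x₂ > π/4 ≥ R`.
Regime 3: `X₃ ≤ 1.745`, `σ₀ = 0.98`; `X₂ > π/2` gives `a₂ - b₂ > δ/h²`; `m₂ ≥ (a₂-b₂)²/A` and `h c₂ ≥ gq x₂` give `δ ≥ 2.29 ε`,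
`ε = πA/2 - h`; `R ≤ π/4 + ε`; then `gq x₁ ≤ δ²/π + δ/2.29` contradicts `δ < 0.8`. -/

theorem finL_arctan {σ z : ℝ} (h0 : 0 ≤ σ) (h1 : σ ≤ 1) (hz : 0 ≤ z) :
    σ * Real.arctan z ≤ Real.arctan (σ * z) := by
  have hd : ∀ t, HasDerivAt (fun t => Real.arctan (σ * t) - σ * Real.arctan t)
      (1 / (1 + (σ * t) ^ 2) * (σ * 1) - σ * (1 / (1 + t ^ 2))) t := fun t =>
    ((hasDerivAt_id t).const_mul σ).arctan.sub ((Real.hasDerivAt_arctan t).const_mul σ)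
  have hm := monotone_of_deriv_nonneg (fun t => (hd t).differentiableAt) (fun t => by
    rw [(hd t).deriv, mul_one, mul_comm, sub_nonneg]
    refine mul_le_mul_of_nonneg_left (one_div_le_one_div_of_le (by positivity) ?_) h0
    rw [mul_pow]
    linarith [mul_le_of_le_one_left (sq_nonneg t) (pow_le_one₀ (n := 2) h0 h1)]) hz
  simpa using hm

theorem finL_tan {σ x y : ℝ} (h0 : 0 ≤ σ) (h1 : σ ≤ 1) (x0 : 0 < x) (x1 : x < Real.pi / 2)
    (y0 : 0 < y) (y1 : y < Real.pi / 2)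
    (h : σ * (Real.cos x * Real.cos y) ≤ Real.sin x * Real.sin y) :
    σ * (Real.pi / 2 - y) ≤ x := by
  have c1 : 0 < Real.cos x := Real.cos_pos_of_mem_Ioo ⟨by linarith, x1⟩
  have c2 : 0 < Real.cos y := Real.cos_pos_of_mem_Ioo ⟨by linarith, y1⟩
  have c3 : 0 < Real.sin y := Real.sin_pos_of_pos_of_lt_pi y0 (by linarith)
  have e : Real.tan (Real.pi / 2 - y) = Real.cos y / Real.sin y := by
    rw [Real.tan_eq_sin_div_cos, Real.sin_pi_div_two_sub, Real.cos_pi_div_two_sub]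
  have h2 := finL_arctan h0 h1 (div_pos c2 c3).le
  have h3 : σ * (Real.cos y / Real.sin y) ≤ Real.tan x := by
    rw [Real.tan_eq_sin_div_cos, ← mul_div_assoc, div_le_div_iff₀ c3 c1]
    linarith
  have h4 := h2.trans (Real.arctan_strictMono.monotone h3)
  rwa [← e, Real.arctan_tan (by linarith) (by linarith), Real.arctan_tan (by linarith) x1] at h4

theorem finL_gq (x : ℝ) : Real.pi * gq x = Real.pi * x - x ^ 2 := by
  have := Real.pi_pos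
  rw [gq]
  field_simp

theorem finL_sin {X τ : ℝ} (h0 : Real.pi / 2 < X) (h1 : X ≤ Real.pi / 2 + τ) :
    1 - τ ^ 2 / 2 ≤ Real.sin X := by
  have h2 := Real.one_sub_sq_div_two_le_cos (x := Real.pi / 2 - X)
  rw [Real.cos_pi_div_two_sub] at h2
  nlinarith

theorem finL_key {x δ X σ : ℝ} (p : 0 < x) (q : x ≤ Real.pi / 2 - δ) (hδ : 0 < δ)
    (t : Real.cos x * Real.cos (Real.pi / 2 - δ) * Real.sin X =
      Real.sin x * Real.sin (Real.pi / 2 - δ)) (s0 : 0 ≤ σ) (s1 : σ ≤ Real.sin X) :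
    (1 + σ) * δ ≤ Real.pi / 2 ∧ Real.pi * (σ * δ) - (σ * δ) ^ 2 ≤ Real.pi * x - x ^ 2 := by
  have hc : 0 ≤ Real.cos x * Real.cos (Real.pi / 2 - δ) :=
    mul_nonneg (Real.cos_nonneg_of_mem_Icc ⟨by linarith, by linarith⟩)
      (Real.cos_nonneg_of_mem_Icc ⟨by linarith, by linarith⟩)
  have h1 := finL_tan s0 (s1.trans (Real.sin_le_one X)) p (by linarith) (p.trans_le q)
    (by linarith) (by rw [← t, mul_comm]; exact mul_le_mul_of_nonneg_left s1 hc)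
  rw [sub_sub_cancel] at h1
  refine ⟨by linarith, ?_⟩
  have h2 := mul_nonneg (sub_nonneg.2 h1) (show 0 ≤ Real.pi - x - σ * δ by linarith)
  linarith

theorem finL_eps {A h m d δ ε : ℝ} (hm : 0 ≤ h * m) (h0 : 0 < h) (hδ : 0 < δ)
    (h3 : h ^ 3 * A ≤ (Real.pi / 2) ^ 3) (h7 : Real.pi * (h * m) ≤ δ ^ 2 - ε ^ 2)
    (e : δ < h ^ 2 * d) (c : d ^ 2 ≤ A * m) : ε ≤ 9 / 20 * δ := by
  have P0 := Real.pi_pos
  have h8 : δ ^ 2 ≤ (Real.pi / 2) ^ 3 * (h * m) := by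
    calc δ ^ 2 ≤ (h ^ 2 * d) ^ 2 := pow_le_pow_left₀ hδ.le e.le 2
      _ = h ^ 4 * d ^ 2 := by ring
      _ ≤ h ^ 4 * (A * m) := by gcongr
      _ = h ^ 3 * A * (h * m) := by ring
      _ ≤ _ := by gcongr
  refine le_of_sq_le_sq ?_ (by positivity)
  have f1 := mul_le_mul_of_nonneg_left h7 (sq_nonneg Real.pi)
  have f2 : Real.pi ^ 2 ≤ 10 := by nlinarith only [P0, Real.pi_lt_d2]
  have f3 := mul_le_mul_of_nonneg_right f2 (sq_nonneg δ)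
  refine le_of_mul_le_mul_left ?_ (pow_pos P0 2)
  linarith [sq_nonneg δ]

theorem finL_neg {v A h m d x₁ x₂ X : ℝ}
    (hR : (h ≤ 9 / 4 ∧ A = 2 * h * v) ∨ (v = 1 / Real.pi ∧ 2 * h * v ≤ A)) (h0 : 0 < h)
    (hA0 : 0 ≤ A) (hA1 : A ≤ 1) (hA : h * A ≤ Real.pi / 2) (hm : 0 ≤ m) (p : 0 < x₁)
    (q : x₁ ≤ x₂) (r : x₂ < Real.pi / 2)
    (t : Real.cos x₁ * Real.cos x₂ * Real.sin X = Real.sin x₁ * Real.sin x₂)
    (X0 : Real.pi / 2 < X) (X1 : X ^ 2 ≤ h ^ 4 * (A * (A - h * v)))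
    (g : gq x₁ + gq x₂ ≤ 2 * A * h - 3 * h ^ 2 * v) (g₂ : gq x₂ ≤ h * (A - m - h * v))
    (e : Real.pi / 2 < x₂ + h ^ 2 * d) (c : d ^ 2 ≤ A * m) : False := by
  have P1 := Real.pi_gt_d2
  have P2 := Real.pi_lt_d2
  have P0 := Real.pi_pos
  have g' := mul_le_mul_of_nonneg_left g P0.le
  have g₂' := mul_le_mul_of_nonneg_left g₂ P0.le
  rw [mul_add, finL_gq, finL_gq] at g'
  rw [finL_gq] at g₂'
  obtain ⟨δ, rfl⟩ : ∃ δ, x₂ = Real.pi / 2 - δ := ⟨Real.pi / 2 - x₂, by ring⟩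
  have hδ : 0 < δ := by linarith only [r]
  have h13 := mul_pos P0 hδ
  rcases hR with ⟨b1, b2⟩ | ⟨b1, b2⟩
  · have h1 : h ^ 4 * (A * (A - h * v)) = h ^ 2 * (h * A) ^ 2 / 2 := by rw [b2]; ring
    have h2 : h ^ 2 * (h * A) ^ 2 ≤ (9 / 4) ^ 2 * (Real.pi / 2) ^ 2 := by gcongr
    have h3 : X ≤ Real.pi / 2 + 1 := le_of_sq_le_sq (by
      linarith only [X1, h1, h2, P1, P2, mul_lt_mul_of_pos_left P2 P0]) (by positivity)
    obtain ⟨k1, k2⟩ := finL_key p q hδ t (σ := 1 / 2) (by norm_num)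
      (by linarith only [finL_sin X0 h3])
    have h4 : 2 * A * h - 3 * h ^ 2 * v = h * A / 2 := by rw [b2]; ring
    rw [h4] at g'
    linarith only [g', k2, h13, mul_le_mul_of_nonneg_left hA P0.le,
      mul_le_mul_of_nonneg_left k1 hδ.le]
  · have b3 : Real.pi * v = 1 := by rw [b1]; field_simp
    obtain ⟨ε, hε⟩ : ∃ ε, ε = Real.pi * A / 2 - h := ⟨_, rfl⟩
    have hε0 : 0 ≤ ε := by
      have := mul_le_mul_of_nonneg_left b2 P0.le
      rw [show Real.pi * (2 * h * v) = 2 * h * (Real.pi * v) by ring, b3] at this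
      linarith only [this, hε]
    have hPA : Real.pi * A ≤ Real.pi := mul_le_of_le_one_right P0.le hA1
    have hh : h ≤ Real.pi / 2 := by linarith only [hPA, hε, hε0]
    have h1 : Real.pi * (h * (A - h * v)) = (Real.pi * A) ^ 2 / 4 - ε ^ 2 := by
      rw [hε]
      linear_combination (-h ^ 2) * b3
    have h2 : (Real.pi * A) ^ 2 ≤ Real.pi ^ 2 := by gcongr
    have h3 : h ^ 3 * A ≤ (Real.pi / 2) ^ 3 := by
      calc h ^ 3 * A = h ^ 2 * (h * A) := by ring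
        _ ≤ (Real.pi / 2) ^ 2 * (Real.pi / 2) := by gcongr
        _ = _ := by ring
    have h4 : h * (A - h * v) ≤ Real.pi / 4 :=
      le_of_mul_le_mul_left (by linarith only [h1, h2, sq_nonneg ε]) P0
    have h5 : X ^ 2 ≤ (Real.pi / 2) ^ 3 * (Real.pi / 4) := by
      refine X1.trans ?_
      rw [show h ^ 4 * (A * (A - h * v)) = h ^ 3 * A * (h * (A - h * v)) by ring]
      exact (mul_le_mul_of_nonneg_left h4 (by positivity)).trans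
        (mul_le_mul_of_nonneg_right h3 (by positivity))
    have h6 : X ≤ Real.pi / 2 + 3 / 10 := by
      refine le_of_sq_le_sq (h5.trans ?_) (by positivity)
      calc (Real.pi / 2) ^ 3 * (Real.pi / 4) ≤ (3.15 / 2) ^ 3 * (3.15 / 4) := by gcongr
        _ ≤ (3.14 / 2 + 3 / 10) ^ 2 := by norm_num
        _ ≤ _ := by gcongr
    obtain ⟨k1, k2⟩ := finL_key p q hδ t (σ := 19 / 20) (by norm_num)
      (by linarith only [finL_sin X0 h6])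
    have h9 : ε ≤ 9 / 20 * δ := finL_eps (mul_nonneg h0.le hm) h0 hδ h3
      (by linarith only [g₂', h1, h2]) (by linarith only [e]) c
    have h10 : Real.pi * (2 * A * h - 3 * h ^ 2 * v) =
        (Real.pi * A) ^ 2 / 4 + Real.pi * A * ε - 3 * ε ^ 2 := by
      rw [hε]
      linear_combination (-3 * h ^ 2) * b3
    linarith only [g', k2, h2, h10, h13, mul_le_mul hPA h9 hε0 P0.le,
      mul_le_mul_of_nonneg_left k1 hδ.le, sq_nonneg ε]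

theorem finL_reg {v A h a : ℝ} (hR : Reg v A h) (hA : 0 ≤ A) (hv : 0 < v) (ha : a < 1)
    (c : a ^ 2 ≤ A * (A - h * v)) (i : Real.pi * (1 - a) ≤ (h * a) ^ 2) :
    0 < h ∧ h ≤ 9 / 4 ∧ A ≤ 1 ∧ h * A ≤ Real.pi / 2 ∧
      ((v ≤ 1 / Real.pi ∧ A = 2 * h * v) ∨ (v = 1 / Real.pi ∧ 2 * h * v ≤ A)) := by
  have P0 := Real.pi_pos
  have P1 := Real.pi_lt_d2
  have hne : h ≠ 0 := by
    rintro rfl
    linarith only [i, mul_pos P0 (sub_pos.2 ha)]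
  rcases hR with ⟨r1, r2, r3, r4⟩ | ⟨r1, r2, r3, r4⟩ | ⟨r1, r2, r3, r4⟩ | ⟨-, -, r3, -⟩
  · exfalso
    obtain ⟨t, ht⟩ : ∃ t, t = h * v := ⟨_, rfl⟩
    rw [mul_assoc, ← ht] at r3 r4
    rw [← ht] at c
    have k0 : A ^ 2 ≤ (7 / 10) ^ 2 := pow_le_pow_left₀ hA (by linarith only [r2, P1]) 2
    have k1 : a ≤ 1 / 2 := le_of_sq_le_sq
      (by linarith only [c, k0, mul_le_mul_of_nonneg_left r3 hA]) (by norm_num)
    have k2 : t ^ 2 * (A - t) ≤ 4 / 27 * A ^ 3 := by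
      linarith only [mul_nonneg (sq_nonneg (2 * A - 3 * t))
        (show 0 ≤ A + 3 * t by linarith only [hA, r3])]
    have k3 : A ^ 4 ≤ (2 * Real.pi / 9) ^ 4 := by gcongr
    have k4 := mul_le_mul_of_nonneg_left c (sq_nonneg t)
    have k5 := mul_le_mul_of_nonneg_left k2 hA
    have k6 : v ^ 2 * (Real.pi / 2) ≤ t ^ 2 * a ^ 2 := by
      rw [ht, show (h * v) ^ 2 * a ^ 2 = v ^ 2 * (h * a) ^ 2 by ring]
      exact mul_le_mul_of_nonneg_left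
        (by linarith only [i, mul_le_mul_of_nonneg_left k1 P0.le]) (sq_nonneg v)
    rw [r1, v1] at k6
    linarith only [k3, k4, k5, k6, mul_lt_mul_of_pos_left P1 (pow_pos P0 3), pow_pos P0 3]
  · have h0 : 0 < h :=
      lt_of_le_of_ne (nonneg_of_mul_nonneg_left (by linarith only [hA, r3]) hv) hne.symm
    have k0 : A ^ 2 = 2 * (h * A * v) := by rw [r3]; ring
    have k1 : h * A ≤ Real.pi / 2 := le_of_mul_le_mul_right (by linarith only [k0, r4]) hv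
    refine ⟨h0, le_of_sq_le_sq ?_ (by norm_num), le_of_sq_le_sq ?_ zero_le_one, k1,
      Or.inl ⟨r2, r3⟩⟩
    · have k2 := mul_le_mul_of_nonneg_left r1 (sq_nonneg h)
      have k3 : h * A = 2 * (h ^ 2 * v) := by rw [r3]; ring
      rw [v1] at k2
      exact le_of_mul_le_mul_left (by linarith only [k1, k2, k3]) P0
    · linarith only [r4, (le_div_iff₀' P0).1 r2]
  · have k1 : h ≤ Real.pi * A / 2 := by
      rw [r1, mul_one_div, div_le_iff₀ P0] at r3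
      linarith only [r3]
    have k2 : Real.pi * A ≤ Real.pi := mul_le_of_le_one_right P0.le r4
    exact ⟨lt_of_le_of_ne r2 hne.symm, by linarith only [k1, k2, P1], r4,
      (mul_le_of_le_one_right r2 r4).trans (by linarith only [k1, k2]), Or.inr ⟨r1, r3⟩⟩
  · exact absurd r3 hne

theorem finL_one {v A h m a b L l : ℝ} (h0 : 0 < h) (h1 : h ≤ 9 / 4) (hA1 : A ≤ 1)
    (hA : h * A ≤ Real.pi / 2) (hm : 0 ≤ m) (hm' : m ≤ A) (n : A - m - h * v = L - h * a)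
    (f : A - m - h * v = l - h * b) (c : (a - b) ^ 2 ≤ A * m) (hb : 0 < b) (hb' : b ≤ v)
    (i : Real.pi * b ≤ l ^ 2) (p : 0 ≤ l) :
    0 < h * l ∧ h * l ≤ Real.pi / 2 ∧ h * l ≤ h ∧ gq (h * l) ≤ h * (A - m - h * v) ∧
      h * L = h * l + h ^ 2 * (a - b) ∧ h * L < 2 * Real.pi := by
  have P0 := Real.pi_pos
  have l0 : 0 < l := lt_of_le_of_ne p (by
    rintro rfl
    nlinarith [mul_pos P0 hb])
  have l1 : l ≤ A := by nlinarith [mul_le_mul_of_nonneg_left hb' h0.le]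
  have l2 := (mul_le_mul_of_nonneg_left l1 h0.le).trans hA
  have e : h * L = h * l + h ^ 2 * (a - b) := by linear_combination h * (f - n)
  refine ⟨mul_pos h0 l0, l2, mul_le_of_le_one_right h0.le (l1.trans hA1), ?_, e, ?_⟩
  · refine le_of_mul_le_mul_left ?_ P0
    rw [finL_gq, f]
    nlinarith [mul_le_mul_of_nonneg_left i (sq_nonneg h)]
  · have l3 : a - b ≤ A := le_of_sq_le_sq (c.trans (by nlinarith)) (hm.trans hm')
    have l4 := mul_le_mul_of_nonneg_left l3 (sq_nonneg h)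
    have l5 := mul_le_mul h1 hA (mul_nonneg h0.le (hm.trans hm')) (by norm_num)
    nlinarith

theorem finL_le {X : ℝ} (h : X < 2 * Real.pi) (hs : 0 < Real.sin X) (hc : 0 ≤ Real.cos X) :
    X ≤ Real.pi / 2 := by
  by_contra h1
  rw [not_le] at h1
  rcases lt_or_ge X Real.pi with h2 | h2
  · exact absurd (Real.cos_neg_of_pi_div_two_lt_of_lt h1 (by linarith [Real.pi_pos])) hc.not_gt
  · have h3 := Real.sin_nonpos_of_nonpos_of_neg_pi_le (x := X - 2 * Real.pi) (by linarith)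
      (by linarith)
    rw [Real.sin_sub_two_pi] at h3
    exact absurd hs h3.not_gt

theorem finL_gt {X : ℝ} (h : 0 ≤ X) (hc : Real.cos X < 0) : Real.pi / 2 < X :=
  lt_of_not_ge fun h1 =>
    absurd hc (Real.cos_nonneg_of_mem_Icc ⟨by linarith [Real.pi_pos], h1⟩).not_gt

theorem fin_L {v A h m₁ m₂ m₃ a₁ a₂ a₃ b₁ b₂ L₁ L₂ L₃ l₁ l₂ : ℝ} (hR : Reg v A h) (hA : 0 ≤ A)
    (hm₁ : 0 ≤ m₁) (hm₂ : 0 ≤ m₂) (hm₃ : 0 ≤ m₃) (hs : m₁ + m₂ + m₃ = A)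
    (n₁ : A - m₁ - h * v = L₁ - h * a₁) (n₂ : A - m₂ - h * v = L₂ - h * a₂)
    (n₃ : A - m₃ - h * v = L₃ - h * a₃)
    (f₁ : A - m₁ - h * v = l₁ - h * b₁) (f₂ : A - m₂ - h * v = l₂ - h * b₂) (f₃ : A - m₃ - h * v = 0)
    (c₁ : (a₁ - b₁) ^ 2 ≤ A * m₁) (c₂ : (a₂ - b₂) ^ 2 ≤ A * m₂) (c₃ : a₃ ^ 2 ≤ A * m₃)
    (hb₁ : 0 < b₁) (hb₂ : 0 < b₂) (hb₁' : b₁ ≤ v) (hb₂' : b₂ ≤ v) (ha₁ : v ≤ a₁) (ha₂ : v ≤ a₂)
    (ha₃ : v ≤ a₃) (ha₃' : a₃ < 1)
    (i₁ : Real.pi * b₁ ≤ l₁ ^ 2) (i₂ : Real.pi * b₂ ≤ l₂ ^ 2) (p₁ : 0 ≤ l₁) (p₂ : 0 ≤ l₂)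
    (s₁ : 1 ≤ L₁) (s₂ : 1 ≤ L₂) (i₃ : Real.pi * (1 - a₃) ≤ L₃ ^ 2)
    (t₁ : Real.cos (h * L₁) = Real.cos (h * l₁) * Real.cos (h * L₃))
    (t₂ : Real.cos (h * L₂) = Real.cos (h * l₂) * Real.cos (h * L₃))
    (t₃ : Real.sin (h * l₁) = Real.sin (h * L₁) * Real.cos (h * l₂))
    (t₄ : Real.sin (h * l₂) = Real.sin (h * L₂) * Real.cos (h * l₁))
    (t₅ : Real.cos (h * l₁) * Real.cos (h * l₂) * Real.sin (h * L₃)
      = Real.sin (h * l₁) * Real.sin (h * l₂)) : False := by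
  have P0 := Real.pi_pos
  have hv : 0 < v := hb₁.trans_le hb₁'
  have e₃ : L₃ = h * a₃ := by linarith
  have e₄ : m₃ = A - h * v := by linarith
  obtain ⟨h0, h1, hA1, hA2, hR'⟩ := finL_reg hR hA hv ha₃' (e₄ ▸ c₃) (e₃ ▸ i₃)
  obtain ⟨x1, x2, x3, x4, x5, x6⟩ :=
    finL_one h0 h1 hA1 hA2 hm₁ (by linarith only [hs, hm₂, hm₃]) n₁ f₁ c₁ hb₁ hb₁' i₁ p₁
  obtain ⟨y1, y2, y3, y4, y5, y6⟩ :=
    finL_one h0 h1 hA1 hA2 hm₂ (by linarith only [hs, hm₁, hm₃]) n₂ f₂ c₂ hb₂ hb₂' i₂ p₂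
  have u1 := Real.sin_pos_of_pos_of_lt_pi x1 (by linarith)
  have u2 := Real.sin_pos_of_pos_of_lt_pi y1 (by linarith)
  have w1 : 0 < Real.cos (h * l₁) := lt_of_le_of_ne
    (Real.cos_nonneg_of_mem_Icc ⟨by linarith, x2⟩) fun e => by rw [t₄, ← e] at u2; simp at u2
  have w2 : 0 < Real.cos (h * l₂) := lt_of_le_of_ne
    (Real.cos_nonneg_of_mem_Icc ⟨by linarith, y2⟩) fun e => by rw [t₃, ← e] at u1; simp at u1
  have x7 : h * l₁ < Real.pi / 2 := lt_of_le_of_ne x2 fun e => by rw [e] at w1; simp at w1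
  have y7 : h * l₂ < Real.pi / 2 := lt_of_le_of_ne y2 fun e => by rw [e] at w2; simp at w2
  have g : gq (h * l₁) + gq (h * l₂) ≤ 2 * A * h - 3 * h ^ 2 * v :=
    (add_le_add x4 y4).trans (le_of_eq (by linear_combination (-h) * (hs + f₃)))
  have z1 : h ≤ h * L₁ := le_mul_of_one_le_right h0.le s₁
  have z2 : h ≤ h * L₂ := le_mul_of_one_le_right h0.le s₂
  rcases le_or_gt 0 (Real.cos (h * L₃)) with hc | hc
  · have k1 := finL_le x6 (pos_of_mul_pos_left (t₃ ▸ u1) w2.le) (t₁ ▸ mul_nonneg w1.le hc)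
    have k2 := finL_le y6 (pos_of_mul_pos_left (t₄ ▸ u2) w1.le) (t₂ ▸ mul_nonneg w2.le hc)
    have k3 := fin_star h0 (z1.trans k1) x1 y1 x3 y3 x7 y7
      (t₃ ▸ mul_le_mul_of_nonneg_right
        (Real.sin_le_sin_of_le_of_le_pi_div_two (by linarith) k1 z1) w2.le)
      (t₄ ▸ mul_le_mul_of_nonneg_right
        (Real.sin_le_sin_of_le_of_le_pi_div_two (by linarith) k2 z2) w1.le)
    have k4 := mul_le_mul_of_nonneg_right hA1 h0.le
    rw [← mul_one_div] at k3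
    rcases hR' with ⟨r1, r2⟩ | ⟨r1, -⟩
    · have k5 := mul_le_mul_of_nonneg_left r1 (sq_nonneg h)
      have k6 : h * (1 / Real.pi) ≤ 1 / 2 := by
        rw [mul_one_div, div_le_iff₀ P0]
        linarith
      have k7 := mul_le_mul_of_nonneg_left k6 h0.le
      rw [r2] at g
      linarith
    · rw [r1] at g
      linarith
  · have k0 := finL_gt (by rw [e₃]; exact mul_nonneg h0.le (mul_nonneg h0.le (by linarith))) hc
    have k1 := finL_gt (h0.le.trans z1) (t₁ ▸ mul_neg_of_pos_of_neg w1 hc)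
    have k2 := finL_gt (h0.le.trans z2) (t₂ ▸ mul_neg_of_pos_of_neg w2 hc)
    have k3 : (h * L₃) ^ 2 ≤ h ^ 4 * (A * (A - h * v)) := by
      rw [e₃, ← e₄, show (h * (h * a₃)) ^ 2 = h ^ 4 * a₃ ^ 2 by ring]
      gcongr
    have k4 := hR'.imp_left fun r => And.intro h1 r.2
    rcases le_total (h * l₁) (h * l₂) with k5 | k5
    · exact finL_neg k4 h0 hA hA1 hA2 hm₂ x1 k5 y7 t₅ k0 k3 g y4 (y5 ▸ k2) c₂
    · exact finL_neg k4 h0 hA hA1 hA2 hm₁ y1 k5 x7 (by linarith) k0 k3 (by linarith) x4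
        (x5 ▸ k1) c₁

end Vale.Agent.P232
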