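import Vale.Agent.P232.Defs

open MeasureTheory Set Filter Topology
open scoped ENNReal

noncomputable section
namespace Vale.Agent.P232

/-! Task: exclusion of the Schwarz hexagon, using the direction with `m ≤ A/3`.
`L = l + h (a - b)`, `a - b ≤ μ := √(A m)`, `1 - μ ≤ 1 - (a - b) ≤ (L² + l²)/π`.  With `c = A - m - h v`, `l` satisfies
`h l²/π - l + c ≥ 0` and `l ≤ A - m`, where this quadratic is `≤ 0`; so `l ≤ 2c/(1 + √(1 - 4hc/π))`.  Put `y = √(m/A) ≤ 1/√3`.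
Regime 2: `l ≤ 1 - √2 y`, `h μ ≤ π y/2`: ` (1 + 0.157 y)² + (1 - √2 y)² < π (1 - y)`.  Regime 1: `l ≤ 2c`, `β = hv/A ∈ [1/2, 2/3]`, `hA ≤ βπ`.
Regimes 3, 4: monotone in `A`, take `A = 1`, `β = h/π ∈ [0,1/2]` (in regime 4 `h = 0`, `l = A - m`). -/

theorem finP_a {w y l : ℝ} (h1 : 0 ≤ w) (a1 : 0 ≤ y - 2 * w) (a2 : 0 ≤ 0.5774 - y) (a0 : 0 ≤ y)
    (h4 : 0 ≤ l) (a5 : 0 ≤ 0.65 - l) (g : 0 ≤ y * (1 - l - y ^ 2) - w * (1 - l ^ 2)) :
    (l + 3.1416 * w) ^ 2 + l ^ 2 < 3.1415 * (1 - y) := by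
  linarith [mul_nonneg (mul_nonneg (mul_nonneg h1 h1) a2) a2, mul_nonneg (mul_nonneg (mul_nonneg h1 h1)
    a2) a5, mul_nonneg (mul_nonneg (mul_nonneg h1 a1) a2) a2, mul_nonneg (mul_nonneg
    (mul_nonneg h1 a1) a2) a5, mul_nonneg (mul_nonneg (mul_nonneg h1 a1) h4) h4, mul_nonneg
    (mul_nonneg (mul_nonneg h1 a2) a2) a2, mul_nonneg (mul_nonneg (mul_nonneg h1 a2) a2) a5,
    mul_nonneg (mul_nonneg (mul_nonneg h1 a2) h4) a5, mul_nonneg h1 g, a1, mul_nonneg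
    (mul_nonneg (mul_nonneg a1 a1) a0) a5, mul_nonneg a1 h4, mul_nonneg (mul_nonneg a2 a2)
    h4, mul_nonneg (mul_nonneg (mul_nonneg a2 a2) h4) a5, mul_nonneg a2 g, mul_nonneg h4 g,
    mul_nonneg (mul_nonneg (sq_nonneg (y - 0.3)) a2) a5, mul_nonneg (sq_nonneg (y - 0.4))
    a1, mul_nonneg (sq_nonneg (y - 0.5)) a2, mul_nonneg (mul_nonneg (sq_nonneg (y - 0.5))
    a2) a0, mul_nonneg (mul_nonneg (sq_nonneg (l - 0.4)) a1) h4, mul_nonneg (mul_nonneg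
    (sq_nonneg (l - 0.5)) h1) a1, mul_nonneg (mul_nonneg (sq_nonneg (l - 0.5)) a1) a0,
    mul_nonneg (mul_nonneg (sq_nonneg (l - 0.6)) a2) h4, mul_nonneg (mul_nonneg (sq_nonneg
    (l - 1 + 1.4 * y)) h1) a5, mul_nonneg (mul_nonneg (sq_nonneg (l - 1 + 1.4 * y)) a1) h4,
    mul_nonneg (mul_nonneg (sq_nonneg (l - 1 + 1.4 * y)) a0) a5, mul_nonneg (sq_nonneg (l -
    1 + 1.4 * y)) a5]

theorem finP_b {w y l : ℝ} (h1 : 0 ≤ w) (a1 : 0 ≤ y - 2 * w) (a2 : 0 ≤ 0.5774 - y)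
    (h4 : 0 ≤ l - 0.65) (a5 : 0 ≤ 1 - l) (a3 : 0 ≤ 1 - y ^ 2 - l)
    (g : 0 ≤ y * (1 - l - y ^ 2) - w * (1 - l ^ 2)) :
    (l + 3.1416 * w) ^ 2 + l ^ 2 < 3.1415 * (1 - y) := by
  linarith [mul_nonneg (mul_nonneg h1 h4) a3, mul_nonneg h1 g, mul_nonneg a2 g, mul_nonneg h4 g, g,
    mul_nonneg (mul_nonneg (sq_nonneg (y - 0.3)) h1) h4, mul_nonneg (mul_nonneg (sq_nonneg
    (y - 0.3)) h4) h4, mul_nonneg (mul_nonneg (sq_nonneg (y - 0.4)) h1) a1, mul_nonneg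
    (mul_nonneg (sq_nonneg (y - 0.4)) a1) h4, mul_nonneg (mul_nonneg (sq_nonneg (y - 0.5))
    h1) a1, mul_nonneg (mul_nonneg (sq_nonneg (l - 0.7)) h1) a1, mul_nonneg (mul_nonneg
    (sq_nonneg (l - 0.7)) a1) a2, mul_nonneg (sq_nonneg (l - 0.7)) a3, mul_nonneg
    (mul_nonneg (sq_nonneg (l - 0.8)) a1) a1, mul_nonneg (mul_nonneg (sq_nonneg (l - 0.8))
    a1) a2, mul_nonneg (mul_nonneg (sq_nonneg (l - 1 + 0.5 * y)) a1) a1, mul_nonneg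
    (sq_nonneg (l - 1 + 0.5 * y)) a3, mul_nonneg (mul_nonneg (sq_nonneg (l - 1.2 + 1 * y))
    h1) a2, mul_nonneg (mul_nonneg (sq_nonneg (l - 1.2 + 1 * y)) a5) a5, mul_nonneg
    (mul_nonneg (sq_nonneg (l - 1.1 + 1 * y)) h1) a1, mul_nonneg (mul_nonneg (sq_nonneg (l -
    1.1 + 1 * y)) h1) a5, mul_nonneg (sq_nonneg (l - 1.1 + 1 * y)) a1, mul_nonneg
    (mul_nonneg (sq_nonneg (l - 1.1 + 1 * y)) a1) a2, mul_nonneg (mul_nonneg (sq_nonneg (l -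
    1.1 + 1 * y)) a1) h4, mul_nonneg (sq_nonneg (l - 1.1 + 1 * y)) a3, mul_nonneg
    (mul_nonneg (sq_nonneg (l - 1.3 + 1.5 * y)) h1) h1, mul_nonneg (mul_nonneg (sq_nonneg (l
    - 1.3 + 1.5 * y)) a1) h4, mul_nonneg (mul_nonneg (sq_nonneg (l - 1.3 + 1.5 * y)) a2) h4,
    mul_nonneg (mul_nonneg (sq_nonneg (l - 1.3 + 1.5 * y)) h4) a5, mul_nonneg (mul_nonneg
    (sq_nonneg (l - 1.4 + 2 * y)) h1) h4]

theorem finP_c {w y l : ℝ} (h1 : 0 ≤ w) (a1 : 0 ≤ 2 * y - 3 * w) (a2 : 0 ≤ 0.5774 - y)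
    (a0 : 0 ≤ y) (h4 : 0 ≤ l) (a5 : 0 ≤ 1 - l) (a3 : 0 ≤ 1 - y ^ 2 - l)
    (g : 0 ≤ y * (1 - l - y ^ 2) - w * (1 - l ^ 2)) :
    (0.6982 * l + 3.1416 * w) ^ 2 + (0.6982 * l) ^ 2 < 3.1415 * (1 - 0.6982 * y) := by
  linarith [mul_nonneg (mul_nonneg (mul_nonneg h1 a1) h4) h4, mul_nonneg (mul_nonneg h1 a2) a3,
    mul_nonneg (mul_nonneg (mul_nonneg h1 a0) h4) a5, mul_nonneg (mul_nonneg h1 h4) a3,
    mul_nonneg h1 g, mul_nonneg (mul_nonneg (mul_nonneg a1 a2) a0) a0, mul_nonneg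
    (mul_nonneg (mul_nonneg a1 a2) a0) a5, mul_nonneg (mul_nonneg a1 a2) h4, mul_nonneg
    (mul_nonneg a1 h4) h4, mul_nonneg (mul_nonneg (mul_nonneg a2 a2) a0) a0, mul_nonneg
    (mul_nonneg (mul_nonneg a2 a2) a0) a5, mul_nonneg (mul_nonneg a2 a2) a3, mul_nonneg
    (mul_nonneg a2 h4) a3, mul_nonneg a2 g, mul_nonneg (mul_nonneg (mul_nonneg a0 a0) h4)
    a5, mul_nonneg (mul_nonneg h4 h4) a3, mul_nonneg h4 g, g, mul_nonneg (mul_nonneg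
    (sq_nonneg (y - 0.3)) h4) a5, mul_nonneg (mul_nonneg (sq_nonneg (y - 0.4)) h4) h4,
    mul_nonneg (mul_nonneg (sq_nonneg (y - 0.5)) h1) h4, mul_nonneg (mul_nonneg (sq_nonneg
    (y - 0.5)) a0) h4, mul_nonneg (sq_nonneg (y - 0.5)) h4, mul_nonneg (mul_nonneg
    (sq_nonneg (l - 0.5)) a1) h4, mul_nonneg (mul_nonneg (sq_nonneg (l - 0.8)) a2) h4]

theorem finP_reg {v A h : ℝ} (hR : Reg v A h) (hA : 0 ≤ A) : 0 ≤ h ∧ A ^ 2 ≤ Real.pi * v ∧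
    ((A ≤ 0.6982 ∧ 3 * (h * v) ≤ 2 * A) ∨ (A ≤ 1 ∧ 2 * (h * v) ≤ A)) := by
  have p1 := Real.pi_gt_d4
  have p2 := Real.pi_lt_d4
  have p0 := Real.pi_pos
  have hv1 : 0 < v1 := by unfold v1; positivity
  have e : Real.pi * (1 / Real.pi) = 1 := by field_simp
  rcases hR with ⟨r1, r2, r3, r4⟩ | ⟨r1, r2, r3, r4⟩ | ⟨r1, r2, r3, r4⟩ | ⟨r1, r2, r3, r4⟩
  · refine ⟨?_, ?_, Or.inl ⟨by linarith, by linarith⟩⟩
    · by_contra hh
      have := mul_neg_of_neg_of_pos (not_le.1 hh) (r1 ▸ hv1)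
      linarith
    · have : A ^ 2 ≤ (2 * Real.pi / 9) ^ 2 := by gcongr
      rw [r1, v1]; linarith
  · have := mul_le_mul_of_nonneg_left r2 p0.le
    refine ⟨?_, r4, Or.inr ⟨by nlinarith, by linarith⟩⟩
    by_contra hh
    have := mul_neg_of_neg_of_pos (not_le.1 hh) (hv1.trans_le r1)
    linarith
  · refine ⟨r2, ?_, Or.inr ⟨r4, by linarith⟩⟩
    rw [r1, e]; exact pow_le_one₀ hA r4
  · refine ⟨r3.ge, ?_, Or.inr ⟨r4, by rw [r3]; linarith⟩⟩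
    have := mul_le_mul_of_nonneg_left r1 p0.le
    linarith [pow_le_one₀ (n := 2) hA r4]

theorem fin_P {v A h m a b L l : ℝ} (hR : Reg v A h) (hA : 0 ≤ A) (hm : 0 ≤ m) (hm' : 3 * m ≤ A)
    (n : A - m - h * v = L - h * a) (f : A - m - h * v = l - h * b) (c : (a - b) ^ 2 ≤ A * m)
    (hb : 0 ≤ b) (hb' : b ≤ v) (ha : v ≤ a) (ha' : a ≤ 1) (i : Real.pi * b ≤ l ^ 2) (p : 0 ≤ l)
    (j : Real.pi * (1 - a) ≤ L ^ 2) : False := by
  obtain ⟨h0, hAv, hc⟩ := finP_reg hR hA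
  have p1 := Real.pi_gt_d4
  have p2 := Real.pi_lt_d4
  have p0 := Real.pi_pos
  obtain ⟨d, hd⟩ : ∃ d, d = a - b := ⟨_, rfl⟩
  rw [← hd] at c
  have hd0 : 0 ≤ d := by linarith
  have hL : L = l + h * d := by rw [hd]; linarith
  have key : Real.pi * (1 - d) ≤ (l + h * d) ^ 2 + l ^ 2 := by rw [← hL, hd]; linarith
  have hbv := mul_le_mul_of_nonneg_left hb' h0
  rcases hA.eq_or_lt with rfl | hA0
  · have e1 : d = 0 := by
      rw [zero_mul] at c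
      exact pow_eq_zero_iff two_ne_zero |>.1 (le_antisymm c (sq_nonneg d))
    have e2 : l = 0 := by linarith
    rw [e1, e2] at key
    linarith
  obtain ⟨y, rfl⟩ : ∃ y, d = A * y := ⟨d / A, by field_simp⟩
  obtain ⟨x, rfl⟩ : ∃ x, l = A * x := ⟨l / A, by field_simp⟩
  obtain ⟨β, hβ⟩ : ∃ β, h * v = A * β := ⟨h * v / A, by field_simp⟩
  have y0 : 0 ≤ y := nonneg_of_mul_nonneg_right hd0 hA0
  have x0 : 0 ≤ x := nonneg_of_mul_nonneg_right p hA0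
  have β0 : 0 ≤ β := nonneg_of_mul_nonneg_right (hβ ▸ mul_nonneg h0 (hb.trans hb')) hA0
  have hym : A * y ^ 2 ≤ m := le_of_mul_le_mul_left (by linarith) hA0
  have hy3 : 3 * y ^ 2 ≤ 1 := le_of_mul_le_mul_left (by linarith) hA0
  have hy : y ≤ 0.5774 := by nlinarith
  have hx : x ≤ 1 - y ^ 2 := le_of_mul_le_mul_left (by linarith) hA0
  have hx1 : x ≤ 1 := by linarith [sq_nonneg y]
  have hhA : h * A ≤ Real.pi * β := by
    have := mul_le_mul_of_nonneg_left hAv h0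
    refine le_of_mul_le_mul_left ?_ hA0
    calc A * (h * A) = h * A ^ 2 := by ring
      _ ≤ Real.pi * (h * v) := by linarith
      _ = _ := by rw [hβ]; ring
  have hG : β * (1 - x ^ 2) ≤ 1 - x - y ^ 2 := by
    have e1 : h * b ≤ A * (β * x ^ 2) := by
      refine le_of_mul_le_mul_left ?_ p0
      have e2 := mul_le_mul_of_nonneg_left i h0
      have e3 := mul_le_mul_of_nonneg_left hhA (mul_nonneg hA (sq_nonneg x))
      linarith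
    exact le_of_mul_le_mul_left (by linarith) hA0
  have g : 0 ≤ y * (1 - x - y ^ 2) - β * y * (1 - x ^ 2) := by
    linarith [mul_le_mul_of_nonneg_left hG y0]
  have w0 := mul_nonneg β0 y0
  have hw : h * (A * y) ≤ 3.1416 * (β * y) := by
    have e1 := mul_le_mul_of_nonneg_right hhA y0
    have e2 := mul_le_mul_of_nonneg_right p2.le w0
    linarith
  have hd1 : 0 ≤ h * (A * y) := mul_nonneg h0 hd0
  have fin : ∀ B : ℝ, A ≤ B → B ≤ 1 →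
      3.1415 * (1 - B * y) ≤ (B * x + 3.1416 * (β * y)) ^ 2 + (B * x) ^ 2 := fun B hB hB1 => by
    have e1 := mul_le_mul_of_nonneg_right hB x0
    have e2 := mul_le_mul_of_nonneg_right hB y0
    have e3 := mul_le_mul_of_nonneg_right hB1 y0
    calc 3.1415 * (1 - B * y) ≤ Real.pi * (1 - A * y) :=
          mul_le_mul p1.le (by linarith) (by linarith) p0.le
      _ ≤ _ := key
      _ ≤ _ := by gcongr
  rcases hc with ⟨c1, c2⟩ | ⟨c1, c2⟩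
  · have b1 : 3 * β ≤ 2 := le_of_mul_le_mul_left (by linarith) hA0
    have := finP_c w0 (by linarith [mul_le_mul_of_nonneg_right b1 y0]) (by linarith) y0 x0
      (by linarith) (by linarith) g
    linarith [fin _ c1 (by norm_num)]
  · have b1 : 2 * β ≤ 1 := le_of_mul_le_mul_left (by linarith) hA0
    have b2 : 0 ≤ y - 2 * (β * y) := by linarith [mul_le_mul_of_nonneg_right b1 y0]
    have := fin 1 c1 le_rfl
    rcases le_total x 0.65 with hh | hh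
    · linarith [finP_a w0 b2 (by linarith) y0 x0 (by linarith) g]
    · linarith [finP_b w0 b2 (by linarith) (by linarith) (by linarith) (by linarith) g]

end Vale.Agent.P232
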