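import Vale.Agent.P232.Meas
import Vale.Agent.P232.PlanarIso

open MeasureTheory Set Filter Topology
open scoped ENNReal

noncomputable section
namespace Vale.Agent.P232

/-! Task: cylinders and slabs. -/

variable {E : Set P3}

theorem rig_fin (D : Set P2) : volume (D ∩ sq) ≠ ∞ :=
  measure_ne_top_of_subset inter_subset_right (by rw [volume_sq]; exact ENNReal.one_ne_top)

theorem rig_ae_sub {D D' : Set P2} (hD : MeasurableSet D) (hs : D ⊆ D') (he : ar D' = ar D) :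
    ∀ᵐ p : P2, p ∈ sq → p ∈ D' → p ∈ D := by
  have h1 : volume (D' ∩ sq) = volume (D ∩ sq) :=
    (ENNReal.toReal_eq_toReal_iff' (rig_fin D') (rig_fin D)).1 he
  have h2 := ae_eq_of_subset_of_measure_ge (μ := volume) (inter_subset_inter_left sq hs) h1.le
    (hD.inter measurableSet_sq).nullMeasurableSet (rig_fin D')
  filter_upwards [h2] with p hp h3 h4
  have h5 : p ∈ D ∩ sq := by
    have h6 : (p ∈ D ∩ sq) = (p ∈ D' ∩ sq) := hp
    rw [h6]
    exact ⟨h4, h3⟩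
  exact h5.1

theorem rig_ae_one {D : Set P2} (hD : MeasurableSet D) (h : ar D = 1) :
    ∀ᵐ p : P2, p ∈ sq → p ∈ D := by
  have h1 : ar univ = ar D := by
    rw [h, ar, univ_inter, volume_sq, ENNReal.toReal_one]
  filter_upwards [rig_ae_sub hD (subset_univ D) h1] with p hp h2 using hp h2 (mem_univ p)

theorem rig_ae_zero {D : Set P2} (h : ar D = 0) : ∀ᵐ p : P2, p ∈ sq → p ∉ D := by
  have h1 : ar D = ar ∅ := by
    rw [h, ar, empty_inter, measure_empty, ENNReal.toReal_zero]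
  filter_upwards [rig_ae_sub MeasurableSet.empty (empty_subset D) h1] with p hp h2 h3
    using hp h2 h3

theorem Adm.rig_col (h : Adm E) (hab : aa E = bb E) :
    ∀ᵐ p : P2, p ∈ sq → ((p.1, p.2, 0) : P3) ∈ E → ((p.1, p.2, 1) : P3) ∈ E :=
  rig_ae_sub (h.slice 1).isOpen.measurableSet (h.slice_anti zero_le_one) hab

theorem rig_lift {P : P2 → Prop} (h : ∀ᵐ p : P2, P p) : ∀ᵐ x : P3, P (x.1, x.2.1) := by
  have h1 : Measure.QuasiMeasurePreserving (Prod.map id Prod.fst : P3 → P2) volume volume :=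
    QuasiMeasurePreserving.prodMap (Measure.QuasiMeasurePreserving.id volume)
      Measure.quasiMeasurePreserving_fst
  exact h1.ae h

theorem rig_d2 {t : ℝ} (ht : t ∈ Ioo (0 : ℝ) 1) : d2 (t - 0) = t := by
  rw [sub_zero, d2_of_abs_le (by rw [abs_of_pos ht.1]; exact ht.2.le), abs_of_pos ht.1]

/-- `aa = bb` forces `E ∩ Q = slice E 1 × (0,1)` a.e. -/
theorem Adm.cyl_std (h : Adm E) (hab : aa E = bb E) (h1 : ((1, 0, 1) : P3) ∉ E) (h2 : ((0, 1, 1) : P3) ∉ E)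
    (h0 : 0 < bb E) (hb : bb E ≤ 1 / 2) (heq : ll E ^ 2 ≤ Real.pi * bb E) : IsStd E := by
  obtain ⟨R, hR, hR2, hae⟩ := (h.slice 1).corner_eq h1 h2 h0 heq
  have hR1 : R < 1 := by
    have h3 := Real.pi_gt_three
    have h4 : ar (P232.slice E 1) ≤ 1 / 2 := hb
    by_contra h5
    have h6 : 1 ≤ R ^ 2 := one_le_pow₀ (not_lt.1 h5)
    nlinarith
  refine ⟨(1, 1, 0), R, ⟨Or.inr rfl, Or.inr rfl, Or.inl rfl, fun h3 => ?_⟩, hR, hR1, ?_⟩
  · exact one_ne_zero (congrArg Prod.fst h3)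
  rw [ae_restrict_iff' measurableSet_sq] at hae
  rw [ae_restrict_iff' measurableSet_Q]
  filter_upwards [rig_lift hae, rig_lift (h.rig_col hab)] with x h3 h4 hx
  have hs : ((x.1, x.2.1) : P2) ∈ sq := ⟨hx.1, hx.2.1⟩
  have h5 : x ∈ E ↔ ((x.1, x.2.1) : P2) ∈ P232.slice E 1 :=
    ⟨fun h6 => h4 hs (h.slice_anti hx.2.2.1.le (show ((x.1, x.2.1) : P2) ∈ P232.slice E x.2.2 from h6)),
      fun h6 => h.slice_anti hx.2.2.2.le h6⟩
  rw [h5, h3 hs]
  show _ ↔ 1 * d2 (x.1 - 0) ^ 2 + 1 * d2 (x.2.1 - 0) ^ 2 + 0 * d2 (x.2.2 - 0) ^ 2 < R ^ 2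
  rw [rig_d2 hx.1, rig_d2 hx.2.1, one_mul, one_mul, zero_mul, add_zero]

theorem Adm.rig_triv (h : Adm E) (h1 : aa (P232.rot E) = bb (P232.rot E))
    (h2 : aa (P232.rot (P232.rot E)) = bb (P232.rot (P232.rot E))) :
    ∀ᵐ z : ℝ, z ∈ Ioo (0 : ℝ) 1 → ar (P232.slice E z) = 0 ∨ ar (P232.slice E z) = 1 := by
  have h3 := Measure.ae_ae_of_ae_prod
    ((Measure.measurePreserving_swap (μ := volume) (ν := volume)).quasiMeasurePreserving.ae
      (h.rot.rig_col h1))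
  have h4 := Measure.ae_ae_of_ae_prod (h.rot.rot.rig_col h2)
  filter_upwards [h3, h4] with z h5 h6 hz
  refine (h.slice z).ar_trivial ?_ ?_
  · filter_upwards [h6] with x h7 hx
    by_cases h8 : ((x, 0) : P2) ∈ P232.slice E z
    · exact Or.inr ((h.slice z).hy_eq_one (h7 ⟨hz, hx⟩ h8))
    · exact Or.inl ((h.slice z).hy_eq_zero h8)
  · filter_upwards [h5] with y h7 hy
    by_cases h8 : ((y, 0) : P2) ∈ Prod.swap ⁻¹' P232.slice E z
    · exact Or.inr ((h.slice z).swap.hy_eq_one (h7 ⟨hy, hz⟩ h8))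
    · exact Or.inl ((h.slice z).swap.hy_eq_zero h8)

theorem Adm.rig_int (h : Adm E) : IntegrableOn (hgt E) sq := by
  refine Measure.integrableOn_of_bounded (M := 1)
    (by rw [volume_sq]; exact ENNReal.one_ne_top)
    (measurable_hgt h.measurableSet).aestronglyMeasurable (Eventually.of_forall fun p => ?_)
  rw [Real.norm_eq_abs, abs_of_nonneg (hgt_nonneg E p)]
  exact hgt_le_one E p

theorem rig_const (z : ℝ) : ∫ _ in sq, z = z := by
  rw [setIntegral_const, measureReal_def, volume_sq, ENNReal.toReal_one, one_smul]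

theorem rig_const_int (z : ℝ) : IntegrableOn (fun _ => z) sq :=
  integrableOn_const (by rw [volume_sq]; exact ENNReal.one_ne_top)

theorem Adm.rig_le (h : Adm E) {z : ℝ} (hz : z ∈ Ioo (0 : ℝ) 1) (h1 : ar (P232.slice E z) = 1) :
    z ≤ volQ E := by
  rw [volQ_eq_hgt h.measurableSet, ← rig_const z]
  refine setIntegral_mono_on_ae (rig_const_int z) h.rig_int measurableSet_sq ?_
  filter_upwards [rig_ae_one (h.slice z).isOpen.measurableSet h1] with p hp hs
  exact ((h.mem_iff_hgt p hz).1 (hp hs)).le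

theorem Adm.rig_ge (h : Adm E) {z : ℝ} (hz : z ∈ Ioo (0 : ℝ) 1) (h1 : ar (P232.slice E z) = 0) :
    volQ E ≤ z := by
  rw [volQ_eq_hgt h.measurableSet, ← rig_const z]
  refine setIntegral_mono_on_ae h.rig_int (rig_const_int z) measurableSet_sq ?_
  filter_upwards [rig_ae_zero h1] with p hp hs
  exact not_lt.1 fun h2 => hp hs ((h.mem_iff_hgt p hz).2 h2)

/-- no horizontal normal: almost every slice has area 0 or 1 (`Adm2.ar_trivial`) -/
theorem Adm.slab_std (h : Adm E) (h1 : aa (P232.rot E) = bb (P232.rot E))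
    (h2 : aa (P232.rot (P232.rot E)) = bb (P232.rot (P232.rot E)))
    (h0 : 0 < volQ E) (hv : volQ E < 1) : IsStd E := by
  refine ⟨(0, 0, 1), volQ E, ⟨Or.inl rfl, Or.inl rfl, Or.inr rfl, fun h3 => ?_⟩, h0, hv, ?_⟩
  · exact one_ne_zero (congrArg (fun x : P3 => x.2.2) h3)
  have h3 : ∀ᵐ z : ℝ, ∀ᵐ p : P2, ((z, p) : P3) ∈ Q →
      (((z, p) : P3) ∈ cyc ⁻¹' E ↔ z < volQ E) := by
    filter_upwards [h.rig_triv h1 h2, Measure.ae_ne volume (volQ E)] with z h4 h5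
    by_cases hz : z ∈ Ioo (0 : ℝ) 1
    · rcases h4 hz with h6 | h6
      · filter_upwards [rig_ae_zero h6] with p hp hq
        exact ⟨fun h7 => (hp hq.2 h7).elim, fun h7 => (not_lt.2 (h.rig_ge hz h6) h7).elim⟩
      · filter_upwards [rig_ae_one (h.slice z).isOpen.measurableSet h6] with p hp hq
        exact ⟨fun _ => lt_of_le_of_ne (h.rig_le hz h6) h5, fun _ => hp hq.2⟩
    · exact Eventually.of_forall fun p hq => (hz hq.1).elim
  have h4 : MeasurableSet {y : P3 | y ∈ Q → (y ∈ cyc ⁻¹' E ↔ y.1 < volQ E)} := by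
    refine Measurable.setOf (Measurable.imp measurableSet_Q.mem (Measurable.iff
      (measurePreserving_cyc.measurable h.measurableSet).mem ?_))
    exact measurable_fst.lt measurable_const
  have h5 : ∀ᵐ y : P3, y ∈ Q → (y ∈ cyc ⁻¹' E ↔ y.1 < volQ E) :=
    (Measure.ae_prod_iff_ae_ae h4).2 h3
  rw [ae_restrict_iff' measurableSet_Q]
  filter_upwards [measurePreserving_cycInv.quasiMeasurePreserving.ae h5] with x h6 hx
  have h7 : x ∈ E ↔ x.2.2 < volQ E := h6 ⟨hx.2.2, hx.1, hx.2.1⟩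
  rw [h7]
  show _ ↔ 0 * d2 (x.1 - 0) ^ 2 + 0 * d2 (x.2.1 - 0) ^ 2 + 1 * d2 (x.2.2 - 0) ^ 2 < volQ E ^ 2
  rw [rig_d2 hx.2.2, zero_mul, zero_mul, one_mul, zero_add, zero_add,
    pow_lt_pow_iff_left₀ hx.2.2.1.le h0.le two_ne_zero]

/-- vertices of the cube and full faces -/
theorem Adm.far_corner (h : Adm E) (h1 : aa (P232.rot E) < 1) (h2 : aa (P232.rot (P232.rot E)) < 1) :
    ((1, 0, 1) : P3) ∉ E ∧ ((0, 1, 1) : P3) ∉ E :=
  ⟨fun h3 => h2.ne (h.rot.rot.aa_eq_one h3), fun h3 => h1.ne (h.rot.aa_eq_one h3)⟩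

end Vale.Agent.P232
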