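import Vale.Agent.P232.Closing
import Vale.Agent.P232.FinL
import Vale.Agent.P232.FinP
import Vale.Agent.P232.FinK
import Vale.Agent.P232.F4
import Vale.Agent.P232.Ball
import Vale.Agent.P232.Rigid

open MeasureTheory Set Filter Topology
open scoped ENNReal

noncomputable section
namespace Vale.Agent.P232

/-! Structure theorem for critical sets of small area (helper83). -/

theorem Jc_le_one (v : ℝ) : Jc v ≤ 1 := (min_le_right _ _).trans (min_le_right _ _)

theorem Jc_le_sqrt {v : ℝ} (h : v ≤ 1 / 2) : Jc v ≤ √(Real.pi * v) := by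
  have : min v (1 - v) = v := min_eq_left (by linarith)
  unfold Jc; rw [this]; exact (min_le_right _ _).trans (min_le_left _ _)

theorem ball_val {R : ℝ} (hR : 0 < R) :
    (9 * Real.pi / 2) ^ (1 / 3 : ℝ) * (Real.pi * R ^ 3 / 6) ^ (2 / 3 : ℝ) = Real.pi * R ^ 2 / 2 := by
  have hp := Real.pi_pos
  have h1 : (Real.pi * R ^ 3 / 6) ^ (2 / 3 : ℝ) = ((Real.pi * R ^ 3 / 6) ^ 2) ^ (1 / 3 : ℝ) := by
    rw [← Real.rpow_natCast _ 2, ← Real.rpow_mul (by positivity)]; norm_num
  rw [h1, ← Real.mul_rpow (by positivity) (by positivity)]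
  have h2 : 9 * Real.pi / 2 * (Real.pi * R ^ 3 / 6) ^ 2 = (Real.pi * R ^ 2 / 2) ^ 3 := by ring
  rw [h2, ← Real.rpow_natCast _ 3, ← Real.rpow_mul (by positivity)]; norm_num

theorem Jc_le_ball {v R : ℝ} (h : v ≤ 1 / 2) (hR : 0 < R) (hv : v = Real.pi * R ^ 3 / 6) :
    Jc v ≤ Real.pi * R ^ 2 / 2 := by
  have : min v (1 - v) = v := min_eq_left (by linarith)
  unfold Jc; rw [this]; refine (min_le_left _ _).trans (le_of_eq ?_)
  rw [hv]; exact ball_val hR

structure Hyp (E : Set P3) (k : ℝ) : Prop where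
  adm : Adm E
  crit : Crit E k
  pos : 0 < volQ E
  half : volQ E ≤ 1 / 2
  le : area E ≤ Jc (volQ E)
  reg : RegB (volQ E) (area E) k ∨ Reg (volQ E) (area E) k

def Concl (E : Set P3) : Prop := Jc (volQ E) ≤ area E ∧ IsStd E

variable {E : Set P3} {k : ℝ}

theorem Hyp.rot (h : Hyp E k) : Hyp (P232.rot E) k := by
  have e1 := volQ_rot E h.adm.measurableSet
  have e2 := h.adm.area_rot
  exact ⟨h.adm.rot, h.crit.rot, e1 ▸ h.pos, e1 ▸ h.half, by rw [e1, e2]; exact h.le,
    by rw [e1, e2]; exact h.reg⟩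

theorem Concl.of_rot (h : Adm E) (c : Concl (rot E)) : Concl E := by
  have e1 := volQ_rot E h.measurableSet
  have e2 := h.area_rot
  exact ⟨by rw [← e1, ← e2]; exact c.1, c.2.rot⟩

theorem v1_pos : 0 < v1 := by unfold v1; have := Real.pi_pos; positivity

theorem Hyp.k_nonneg (h : Hyp E k) : 0 ≤ k := by
  have hA := h.adm.area_nonneg
  have hv := h.pos
  by_contra hk
  push Not at hk
  have : k * volQ E < 0 := mul_neg_of_neg_of_pos hk hv
  rcases h.reg with r | r | r | r | r
  · have := r.2.1; linarith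
  · have := r.2.2.1; linarith
  · have := r.2.2.1; linarith
  · have := r.2.1; linarith
  · have := r.2.2.1; linarith

theorem Hyp.near (h : Hyp E k) : area E - mm E - k * volQ E = LL E - k * aa E :=
  h.adm.flux_near h.crit.1
theorem Hyp.far (h : Hyp E k) : area E - mm E - k * volQ E = ll E - k * bb E :=
  h.adm.flux_far h.crit.1
theorem Hyp.near1 (h : Hyp E k) :
    area E - mm (P232.rot E) - k * volQ E = LL (P232.rot E) - k * aa (P232.rot E) := by
  have := h.rot.near; rwa [h.adm.area_rot, volQ_rot E h.adm.measurableSet] at this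
theorem Hyp.far1 (h : Hyp E k) :
    area E - mm (P232.rot E) - k * volQ E = ll (P232.rot E) - k * bb (P232.rot E) := by
  have := h.rot.far; rwa [h.adm.area_rot, volQ_rot E h.adm.measurableSet] at this
theorem Hyp.near2 (h : Hyp E k) : area E - mm (P232.rot (P232.rot E)) - k * volQ E
    = LL (P232.rot (P232.rot E)) - k * aa (P232.rot (P232.rot E)) := by
  have := h.rot.near1; rwa [h.adm.area_rot, volQ_rot E h.adm.measurableSet] at this
theorem Hyp.far2 (h : Hyp E k) : area E - mm (P232.rot (P232.rot E)) - k * volQ E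
    = ll (P232.rot (P232.rot E)) - k * bb (P232.rot (P232.rot E)) := by
  have := h.rot.far1; rwa [h.adm.area_rot, volQ_rot E h.adm.measurableSet] at this
theorem Hyp.cs1 (h : Hyp E k) :
    (aa (P232.rot E) - bb (P232.rot E)) ^ 2 ≤ area E * mm (P232.rot E) := by
  have := h.adm.rot.alpha_sq_le; rwa [h.adm.area_rot] at this
theorem Hyp.cs2 (h : Hyp E k) : (aa (P232.rot (P232.rot E)) - bb (P232.rot (P232.rot E))) ^ 2
    ≤ area E * mm (P232.rot (P232.rot E)) := by
  have := h.adm.rot.rot.alpha_sq_le; rwa [h.adm.rot.area_rot, h.adm.area_rot] at this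
theorem Hyp.vol1 (h : Hyp E k) : volQ (P232.rot E) = volQ E := volQ_rot E h.adm.measurableSet
theorem Hyp.vol2 (h : Hyp E k) : volQ (P232.rot (P232.rot E)) = volQ E :=
  (volQ_rot _ h.adm.rot.measurableSet).trans h.vol1

/-- a full face forces a slab -/
theorem Hyp.slab (h : Hyp E k) (ha : aa E = 1) : Concl E := by
  have hk := h.k_nonneg
  have hL : LL E = 0 := by
    rw [← h.crit.1.edge]; exact (h.adm.slice 0).arcO_eq_zero_of_ar ha
  have n := h.near
  have f := h.far
  have hl : 0 ≤ ll E := len_nonneg _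
  have hb := h.adm.bb_le_vol
  have hh := h.half
  have hk0 : k = 0 := by
    apply le_antisymm _ hk
    by_contra hc
    push Not at hc
    have : 0 < k * (1 - bb E) := mul_pos hc (by linarith)
    rw [ha, hL] at n
    nlinarith
  subst hk0
  have hl0 : ll E = 0 := by rw [hL] at n; linarith
  have hb0 : bb E = 0 := by
    rcases (h.adm.slice 1).ar_of_len_eq_zero hl0 with h0 | h0
    · exact h0
    · have : bb E = 1 := h0
      linarith
  have cs := h.adm.alpha_sq_le
  rw [ha, hb0] at cs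
  have hs := h.adm.mm_sum
  have m0 := h.adm.mm_nonneg
  have m1 := h.adm.rot.mm_nonneg
  have m2 := h.adm.rot.rot.mm_nonneg
  have hA0 := h.adm.area_nonneg
  have hA1 : area E ≤ 1 := h.le.trans (Jc_le_one _)
  have hm : 1 ≤ mm E := by nlinarith
  have hA : area E = 1 := by linarith
  have z1 : mm (P232.rot E) = 0 := by linarith
  have z2 : mm (P232.rot (P232.rot E)) = 0 := by linarith
  have c1 := h.cs1
  have c2 := h.cs2
  rw [z1, mul_zero] at c1
  rw [z2, mul_zero] at c2
  refine ⟨by rw [hA]; exact Jc_le_one _, h.adm.slab_std ?_ ?_ h.pos (by linarith)⟩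
  · have := pow_eq_zero_iff (two_ne_zero) |>.1 (le_antisymm c1 (sq_nonneg _)); linarith
  · have := pow_eq_zero_iff (two_ne_zero) |>.1 (le_antisymm c2 (sq_nonneg _)); linarith

theorem Hyp.not3 (h : Hyp E k) (hb : bb E = 0) : ((0, 0, 1) : P3) ∉ E := fun hm => by
  have := h.adm.bb_pos_iff.2 hm; linarith
theorem Hyp.not1 (h : Hyp E k) (hb : bb (P232.rot E) = 0) : ((1, 0, 0) : P3) ∉ E := h.rot.not3 hb
theorem Hyp.not2 (h : Hyp E k) (hb : bb (P232.rot (P232.rot E)) = 0) : ((0, 1, 0) : P3) ∉ E :=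
  h.rot.rot.not3 hb
theorem Hyp.mem1 (h : Hyp E k) (hb : 0 < bb (P232.rot E)) : ((1, 0, 0) : P3) ∈ E :=
  h.adm.rot.bb_pos_iff.1 hb
theorem Hyp.mem2 (h : Hyp E k) (hb : 0 < bb (P232.rot (P232.rot E))) : ((0, 1, 0) : P3) ∈ E :=
  h.adm.rot.rot.bb_pos_iff.1 hb

theorem Hyp.ball (h : Hyp E k) (b3 : bb E = 0) (b1 : bb (P232.rot E) = 0)
    (b2 : bb (P232.rot (P232.rot E)) = 0) : Concl E := by
  have hp := Real.pi_pos
  have hv := h.pos
  set R : ℝ := (6 * volQ E / Real.pi) ^ (1 / 3 : ℝ) with hRdef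
  have hR : 0 < R := Real.rpow_pos_of_pos (by positivity) _
  have hR3 : R ^ 3 = 6 * volQ E / Real.pi := by
    rw [hRdef, ← Real.rpow_natCast, ← Real.rpow_mul (by positivity)]; norm_num
  have hvR : volQ E = Real.pi * R ^ 3 / 6 := by rw [hR3]; field_simp
  have hR1 : R < 1 := by
    apply Real.rpow_lt_one (by positivity) _ (by norm_num)
    rw [div_lt_one hp]; have := Real.pi_gt_three; have := h.half; linarith
  have hJ := Jc_le_ball h.half hR hvR
  have hd := h.adm.ball_dir (h.not1 b1) (h.not2 b2) (h.not3 b3) hR hvR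
  exact ⟨hJ.trans hd.1,
    h.adm.ball_std (h.not1 b1) (h.not2 b2) (h.not3 b3) hR hR1 hvR (h.le.trans hJ)⟩

/-- all three near faces are cut -/
def Cut (E : Set P3) : Prop := aa E < 1 ∧ aa (rot E) < 1 ∧ aa (rot (rot E)) < 1

theorem Cut.rot (c : Cut E) : Cut (P232.rot E) := ⟨c.2.1, c.2.2, c.1⟩

theorem Hyp.farIso (h : Hyp E k) (c : Cut E) : Real.pi * bb E ≤ ll E ^ 2 :=
  (h.adm.slice 1).corner (h.adm.far_corner c.2.1 c.2.2).1 (h.adm.far_corner c.2.1 c.2.2).2

theorem Hyp.flux_pos (h : Hyp E k) (c : Cut E) (hk : k ^ 2 * volQ E < Real.pi) :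
    0 ≤ ll E - k * bb E ∧ (0 < bb E → 0 < ll E - k * bb E) := by
  have hi := h.farIso c
  have hl : 0 ≤ ll E := len_nonneg _
  have hb0 : 0 ≤ bb E := ar_nonneg _
  have hb := h.adm.bb_le_vol
  have hk0 := h.k_nonneg
  have key : 0 < bb E → 0 < ll E - k * bb E := by
    intro hpos
    have h1 : k ^ 2 * bb E < Real.pi := lt_of_le_of_lt (by nlinarith [sq_nonneg k]) hk
    have h2 : (k * bb E) ^ 2 < ll E ^ 2 := by nlinarith
    have := lt_of_pow_lt_pow_left₀ 2 hl h2
    linarith
  refine ⟨?_, key⟩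
  rcases hb0.eq_or_lt with h0 | h0
  · rw [← h0]; linarith
  · exact (key h0).le

theorem Hyp.regB (h : Hyp E k) (c : Cut E) (r : RegB (volQ E) (area E) k) : Concl E := by
  have p3 := h.flux_pos c r.2.2
  have p1 := h.rot.flux_pos c.rot (by rw [h.vol1]; exact r.2.2)
  have p2 := h.rot.rot.flux_pos c.rot.rot (by rw [h.vol2]; exact r.2.2)
  have f3 := h.far
  have f1 := h.far1
  have f2 := h.far2
  have hs := h.adm.mm_sum
  have r2 := r.2.1
  have z : ∀ {x : ℝ} {c : ℝ}, 0 ≤ x → (0 < x → 0 < c) → c ≤ 0 → x = 0 := fun hx hc hc0 => by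
    rcases hx.eq_or_lt with h0 | h0
    · exact h0.symm
    · linarith [hc h0]
  exact h.ball (z (ar_nonneg _) p3.2 (by linarith [p1.1, p2.1]))
    (z (ar_nonneg _) p1.2 (by linarith [p3.1, p2.1])) (z (ar_nonneg _) p2.2 (by linarith [p3.1, p1.1]))

/-- at most one neck -/
theorem Hyp.one (h : Hyp E k) (c : Cut E) (r : Reg (volQ E) (area E) k) (b1 : bb (P232.rot E) = 0)
    (b2 : bb (P232.rot (P232.rot E)) = 0) : Concl E := by
  have l1 : ll (P232.rot E) = 0 := (h.adm.rot.slice 1).len_eq_zero_of_ar b1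
  have l2 : ll (P232.rot (P232.rot E)) = 0 := (h.adm.rot.rot.slice 1).len_eq_zero_of_ar b2
  have f3 := h.far
  have n3 := h.near
  have f1 := h.far1
  have f2 := h.far2
  rw [l1, b1] at f1
  rw [l2, b2] at f2
  have hs := h.adm.mm_sum
  have m3 : mm E = 2 * k * volQ E - area E := by linarith
  have m0 := h.adm.mm_nonneg
  have hA0 := h.adm.area_nonneg
  have hb := h.adm.bb_le_vol
  have ha := h.adm.vol_le_aa
  have hi := h.farIso c
  have hp := Real.pi_pos
  rcases m0.eq_or_lt with hm | hm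
  · have cs := h.adm.alpha_sq_le
    rw [← hm, mul_zero] at cs
    have hab : aa E = bb E := by
      have := pow_eq_zero_iff (two_ne_zero) |>.1 (le_antisymm cs (sq_nonneg _)); linarith
    have hbv : bb E = volQ E := by linarith
    have hl : ll E = area E := by rw [hbv] at f3; linarith
    have hJ := Jc_le_sqrt h.half
    have hv := h.pos
    have h1 : area E ^ 2 ≤ Real.pi * volQ E := by
      have := h.le.trans hJ
      calc area E ^ 2 ≤ √(Real.pi * volQ E) ^ 2 := by gcongr
        _ = _ := Real.sq_sqrt (by positivity)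
    refine ⟨hJ.trans ?_, h.adm.cyl_std hab (h.adm.far_corner c.2.1 c.2.2).1
      (h.adm.far_corner c.2.1 c.2.2).2 (hbv ▸ hv) (hbv ▸ h.half) (by rw [hl, hbv]; exact h1)⟩
    rw [hl, hbv] at hi
    exact Real.sqrt_le_iff.2 ⟨hA0, hi⟩
  · have hlt : area E < 2 * k * volQ E := by linarith
    rcases r with r | r | r | r
    · obtain ⟨rv, rA, -, r3⟩ := r
      rcases r3.eq_or_lt with e | e
      · refine h.regB c ⟨rv.le, e.ge, ?_⟩
        rw [rv] at e ⊢
        have hk := h.k_nonneg
        have hk3 : k ≤ 3 := by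
          unfold v1 at e
          nlinarith
        have hk9 : k ^ 2 ≤ 9 := by nlinarith
        unfold v1
        nlinarith
      · exfalso
        rw [rv] at hlt e
        obtain ⟨α, β, h0, h1, h2, h3, h4⟩ := fin_K rA hlt e
        have hc : ll E - k * bb E = 2 * area E - 3 * k * v1 := by rw [rv] at f3 m3; linarith
        have hbα : bb E ≤ α := by
          by_contra hcon
          push Not at hcon
          have := (h3 (bb E) ⟨hcon, by rw [rv] at hb; linarith⟩).2
          have e2 : 2 * area E - 3 * k * v1 + k * bb E = ll E := by linarith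
          rw [e2] at this
          have hl : 0 ≤ ll E := len_nonneg _
          have := Real.sqrt_le_iff.2 ⟨hl, hi⟩
          linarith
        have haβ : β ≤ aa E := by
          by_contra hcon
          push Not at hcon
          have := (h3 (aa E) ⟨by rw [rv] at ha; linarith, hcon⟩).2
          have e2 : 2 * area E - 3 * k * v1 + k * aa E = LL E := by rw [rv] at n3 f3; linarith
          rw [e2] at this
          have hl : 0 ≤ LL E := len_nonneg _
          have hi2 : Real.pi * aa E ≤ LL E ^ 2 := (h.adm.slice 0).corner (h.not1 b1) (h.not2 b2)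
          have := Real.sqrt_le_iff.2 ⟨hl, hi2⟩
          linarith
        have := h.adm.mm_ge h.crit.1 (h.not1 b1) (h.not2 b2) h0.le (by linarith) hbα haβ
          (fun a ha => by rw [hc]; exact ⟨(h3 a ha).1, (h3 a ha).2.le⟩)
        rw [hc, m3, rv] at this
        linarith
    · linarith [r.2.2.1]
    · linarith [r.2.2.1]
    · rw [r.2.2.1] at hlt; linarith

/-- two necks -/
theorem Hyp.two (h : Hyp E k) (c : Cut E) (r : Reg (volQ E) (area E) k) (b3 : bb E = 0)
    (b1 : 0 < bb (P232.rot E)) (b2 : 0 < bb (P232.rot (P232.rot E))) : False := by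
  have l3 : ll E = 0 := (h.adm.slice 1).len_eq_zero_of_ar b3
  have f3 := h.far
  rw [l3, b3] at f3
  have cs3 := h.adm.alpha_sq_le
  rw [b3, sub_zero] at cs3
  have cl := h.adm.closing h.pos (by linarith [h.half]) h.crit
  rw [l3, mul_zero] at cl
  obtain ⟨t1, t2, t3, t4, t5⟩ := pentagon_trig cl
  have hs := h.adm.mm_sum
  refine fin_L r h.adm.area_nonneg h.adm.rot.mm_nonneg h.adm.rot.rot.mm_nonneg h.adm.mm_nonneg
    (by linarith) h.near1 h.near2 h.near h.far1 h.far2 (by linarith) h.cs1 h.cs2 cs3 b1 b2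
    (h.vol1 ▸ h.adm.rot.bb_le_vol) (h.vol2 ▸ h.adm.rot.rot.bb_le_vol)
    (h.vol1 ▸ h.adm.rot.vol_le_aa) (h.vol2 ▸ h.adm.rot.rot.vol_le_aa) h.adm.vol_le_aa c.1
    (h.rot.farIso c.rot) (h.rot.rot.farIso c.rot.rot) (len_nonneg _) (len_nonneg _)
    ((h.adm.rot.slice 0).one_le_len (h.mem2 b2) (h.not3 b3))
    ((h.adm.rot.rot.slice 0).one_le_len' (h.mem1 b1) (h.not3 b3))
    ((h.adm.slice 0).cocorner (h.mem1 b1) (h.mem2 b2)) t1 t2 t3 t4 t5

/-- three necks -/
theorem Hyp.three (h : Hyp E k) (c : Cut E) (r : Reg (volQ E) (area E) k)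
    (b1 : 0 < bb (P232.rot E)) (b2 : 0 < bb (P232.rot (P232.rot E))) (hm : 3 * mm E ≤ area E) : False :=
  fin_P r h.adm.area_nonneg h.adm.mm_nonneg hm h.near h.far h.adm.alpha_sq_le (ar_nonneg _)
    h.adm.bb_le_vol h.adm.vol_le_aa c.1.le (h.farIso c) (len_nonneg _)
    ((h.adm.slice 0).cocorner (h.mem1 b1) (h.mem2 b2))

theorem Hyp.concl (h : Hyp E k) : Concl E := by
  by_cases a3 : aa E = 1
  · exact h.slab a3
  by_cases a1 : aa (P232.rot E) = 1
  · exact (h.rot.slab a1).of_rot h.adm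
  by_cases a2 : aa (P232.rot (P232.rot E)) = 1
  · exact ((h.rot.rot.slab a2).of_rot h.adm.rot).of_rot h.adm
  have c : Cut E := ⟨lt_of_le_of_ne (ar_le_one _) a3, lt_of_le_of_ne (ar_le_one _) a1,
    lt_of_le_of_ne (ar_le_one _) a2⟩
  rcases h.reg with r | r
  · exact h.regB c r
  have r1 : Reg (volQ (P232.rot E)) (area (P232.rot E)) k := by rw [h.vol1, h.adm.area_rot]; exact r
  have r2 : Reg (volQ (P232.rot (P232.rot E))) (area (P232.rot (P232.rot E))) k := by
    rw [h.vol2, h.adm.rot.area_rot, h.adm.area_rot]; exact r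
  have p3 : 0 ≤ bb E := ar_nonneg _
  have p1 : 0 ≤ bb (P232.rot E) := ar_nonneg _
  have p2 : 0 ≤ bb (P232.rot (P232.rot E)) := ar_nonneg _
  rcases p3.eq_or_lt with b3 | b3 <;> rcases p1.eq_or_lt with b1 | b1 <;>
    rcases p2.eq_or_lt with b2 | b2
  · exact h.one c r b1.symm b2.symm
  · exact ((h.rot.rot.one c.rot.rot r2 b3.symm b1.symm).of_rot h.adm.rot).of_rot h.adm
  · exact (h.rot.one c.rot r1 b2.symm b3.symm).of_rot h.adm
  · exact (h.two c r b3.symm b1 b2).elim
  · exact h.one c r b1.symm b2.symm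
  · exact (h.rot.two c.rot r1 b1.symm b2 b3).elim
  · exact (h.rot.rot.two c.rot.rot r2 b2.symm b3 b1).elim
  · exfalso
    have hs := h.adm.mm_sum
    by_cases m3 : 3 * mm E ≤ area E
    · exact h.three c r b1 b2 m3
    by_cases m1 : 3 * mm (P232.rot E) ≤ area E
    · exact h.rot.three c.rot r1 b2 b3 (by rw [h.adm.area_rot]; exact m1)
    · exact h.rot.rot.three c.rot.rot r2 b3 b1
        (by rw [h.adm.rot.area_rot, h.adm.area_rot]; linarith)

theorem main_struct {E : Set P3} (h : Adm E) {k : ℝ} (hc : Crit E k) (h0 : 0 < volQ E)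
    (h1 : volQ E ≤ 1 / 2) (hA : area E ≤ Jc (volQ E))
    (hR : RegB (volQ E) (area E) k ∨ Reg (volQ E) (area E) k) :
    Jc (volQ E) ≤ area E ∧ IsStd E :=
  Hyp.concl ⟨h, hc, h0, h1, hA, hR⟩

end Vale.Agent.P232
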