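import Vale.Agent.P232.BarrierA
import Vale.Agent.P232.Main
import Vale.Agent.P232.CritEx

open MeasureTheory Set Filter Topology
open scoped ENNReal

noncomputable section
namespace Vale.Agent.P232

theorem Jc_nonneg {v : ℝ} (h0 : 0 ≤ v) (h1 : v ≤ 1) : 0 ≤ Jc v := by
  have : 0 ≤ min v (1 - v) := le_min h0 (by linarith)
  have hp := Real.pi_pos
  unfold Jc
  exact le_min (by positivity) (le_min (Real.sqrt_nonneg _) zero_le_one)

theorem Jc_pos {v : ℝ} (h0 : 0 < v) (h1 : v < 1) : 0 < Jc v := by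
  have : 0 < min v (1 - v) := lt_min h0 (by linarith)
  have hp := Real.pi_pos
  unfold Jc
  exact lt_min (by positivity) (lt_min (Real.sqrt_pos.2 (by positivity)) zero_lt_one)

theorem Jc_symm (v : ℝ) : Jc (1 - v) = Jc v := by
  unfold Jc; rw [sub_sub_cancel, min_comm (1 - v) v]

theorem kap_symm (v : ℝ) : kap (1 - v) = kap v := by
  unfold kap; rw [sub_sub_cancel, min_comm (1 - v) v]

theorem kap_nonneg (v : ℝ) : 0 ≤ kap v := le_max_left _ _

theorem kap_le_one {v : ℝ} (h0 : 0 ≤ v) (h1 : v ≤ 1) : kap v ≤ 1 := by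
  have : 0 ≤ min v (1 - v) := le_min h0 (by linarith)
  have := div_nonneg this v1_pos.le
  unfold kap; exact max_le zero_le_one (by linarith)

theorem continuous_kap : Continuous kap := by unfold kap; fun_prop

theorem Bar_end {s η v : ℝ} (hv : v = 0 ∨ v = 1) : Bar s η v = -η := by
  have h0 : min v (1 - v) = 0 := by rcases hv with rfl | rfl <;> simp
  unfold Bar Jc kap; rw [h0]; simp

/-- a set touching a barrier is standard -/
theorem touch {E : Set P3} (h : Adm E) {s η : ℝ} (hs0 : 0 ≤ s) (hs1 : s ≤ 1) (hη0 : 0 ≤ η)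
    (hη1 : η ≤ 1 / 10) (h0 : 0 < volQ E) (h1 : volQ E ≤ 1 / 2)
    (hB : ∀ F : Set P3, Adm F → Bar s η (volQ F) ≤ area F) (hE : area E ≤ Bar s η (volQ E)) :
    Jc (volQ E) ≤ area E ∧ IsStd E := by
  obtain ⟨lo, hi, hle, hr, hl, hreg⟩ := reg_of_barrier hs0 hs1 hη0 hη1 h0 h1
  obtain ⟨k, hk, hc⟩ := exists_crit h hle (stat_of_barrier h hle hB hE hr hl)
  have e : Bar s η (volQ E) = area E := le_antisymm (hB E h) hE
  have hJ := Jc_nonneg h0.le (by linarith)
  refine main_struct h hc h0 h1 ?_ (e ▸ hreg k hk)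
  have := mul_nonneg hη0 (kap_nonneg (volQ E))
  unfold Bar at hE
  nlinarith

theorem jc_le_area {E : Set P3} (h : Adm E) : Jc (volQ E) ≤ area E := by
  by_contra hcon
  push Not at hcon
  set η : ℝ := min (1 / 10) ((Jc (volQ E) - area E) / 2) with hη
  have hη0 : 0 < η := lt_min (by norm_num) (by linarith)
  have hη1 : η ≤ 1 / 10 := min_le_left _ _
  have hη2 : η ≤ (Jc (volQ E) - area E) / 2 := min_le_right _ _
  set S : Set ℝ := {s | s ∈ Icc (0 : ℝ) 1 ∧ ∀ F : Set P3, Adm F → Bar s η (volQ F) ≤ area F} with hS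
  have h0S : (0 : ℝ) ∈ S := ⟨⟨le_rfl, zero_le_one⟩, fun F hF => by
    have := mul_nonneg hη0.le (kap_nonneg (volQ F))
    have := hF.area_nonneg
    unfold Bar; linarith⟩
  have hbdd : BddAbove S := ⟨1, fun s hs => hs.1.2⟩
  have hcl : IsClosed S := by
    have : S = Icc (0 : ℝ) 1 ∩ ⋂ F : Set P3, ⋂ _ : Adm F, {s | Bar s η (volQ F) ≤ area F} := by
      ext s; simp [hS]
    rw [this]
    refine isClosed_Icc.inter (isClosed_iInter fun F => isClosed_iInter fun _ => ?_)
    exact isClosed_le (by unfold Bar; fun_prop) continuous_const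
  set s := sSup S with hs
  have hsS : s ∈ S := hcl.csSup_mem ⟨0, h0S⟩ hbdd
  have hs1 : s < 1 := by
    refine lt_of_le_of_ne hsS.1.2 fun e => ?_
    have := hsS.2 E h
    have hk := kap_le_one (volQ_nonneg E) (volQ_le_one E)
    have hk0 := kap_nonneg (volQ E)
    rw [e] at this
    unfold Bar at this
    nlinarith
  set t : ℕ → ℝ := fun n => min 1 (s + 1 / ((n : ℝ) + 1)) with ht
  have hts : ∀ n, s < t n := fun n => lt_min hs1 (by
    have : (0 : ℝ) < 1 / ((n : ℝ) + 1) := by positivity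
    linarith)
  have htl : Tendsto t atTop (𝓝 s) := by
    have h1 : Tendsto (fun n : ℕ => s + 1 / ((n : ℝ) + 1)) atTop (𝓝 (s + 0)) :=
      tendsto_const_nhds.add tendsto_one_div_add_atTop_nhds_zero_nat
    have h2 := (tendsto_const_nhds (x := (1 : ℝ))).min h1
    rwa [add_zero, min_eq_right hs1.le] at h2
  have hex : ∀ n, ∃ F : Set P3, Adm F ∧ area F < Bar (t n) η (volQ F) := fun n => by
    by_contra hc
    push Not at hc
    have : t n ∈ S := ⟨⟨hsS.1.1.trans (hts n).le, min_le_left _ _⟩, hc⟩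
    exact absurd (le_csSup hbdd this) (not_le.2 (hts n))
  choose F hF hFl using hex
  obtain ⟨φ, G, hφ, hG, hvol, harea⟩ := exists_limit F hF
  have hlim : Tendsto (fun n => Bar (t (φ n)) η (volQ (F (φ n)))) atTop (𝓝 (Bar s η (volQ G))) := by
    unfold Bar
    exact ((htl.comp hφ.tendsto_atTop).mul ((continuous_Jc.tendsto _).comp hvol)).sub
      (tendsto_const_nhds.mul ((continuous_kap.tendsto _).comp hvol))
  have hGl : area G ≤ Bar s η (volQ G) := harea _ _ hlim fun n => (hFl (φ n)).le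
  have hG0 : 0 < volQ G := by
    refine lt_of_le_of_ne (volQ_nonneg G) fun e => ?_
    rw [Bar_end (Or.inl e.symm)] at hGl
    linarith [hG.area_nonneg]
  have hG1 : volQ G < 1 := by
    refine lt_of_le_of_ne (volQ_le_one G) fun e => ?_
    rw [Bar_end (Or.inr e)] at hGl
    linarith [hG.area_nonneg]
  have key : ∀ G : Set P3, Adm G → 0 < volQ G → volQ G ≤ 1 / 2 → area G ≤ Bar s η (volQ G) → False := by
    intro G hG h0 h1 hl
    have := (touch hG hsS.1.1 hs1.le hη0.le hη1 h0 h1 hsS.2 hl).1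
    have hJ := Jc_pos h0 (by linarith)
    have := mul_nonneg hη0.le (kap_nonneg (volQ G))
    unfold Bar at hl
    nlinarith
  by_cases hh : volQ G ≤ 1 / 2
  · exact key G hG hG0 hh hGl
  · obtain ⟨G', hG', hv, ha⟩ := hG.exists_flip
    refine key G' hG' (by rw [hv]; linarith) (by rw [hv]; linarith) ?_
    rw [hv]; unfold Bar; rw [Jc_symm, kap_symm]; exact ha.trans hGl

theorem isStd_of_area_le {E : Set P3} (h : Adm E) (h0 : 0 < volQ E) (h1 : volQ E ≤ 1 / 2)
    (hA : area E ≤ Jc (volQ E)) : IsStd E := by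
  have e : ∀ v, Bar 1 0 v = Jc v := fun v => by unfold Bar; ring
  exact (touch h zero_le_one le_rfl le_rfl (by norm_num) h0 h1
    (fun F hF => by rw [e]; exact jc_le_area hF) (by rw [e]; exact hA)).2

end Vale.Agent.P232
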