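import Vale.Agent.P232.Sym

open MeasureTheory Set Filter Topology
open scoped ENNReal

noncomputable section
namespace Vale.Agent.P232

/-! Task: the barrier argument.  `kap v = max 0 (1 - min v (1-v) / v1)`, `B s η v = s Jc v - η kap v`.
`stat_of_barrier`: one-sided derivatives of the barrier give `Stat` (use `exists_adm`).
`reg_of_barrier`: compute the one-sided derivatives of `B s η` at `v ∈ (0,1/2]` and sort the triple into `RegB` or `Reg`.
`jc_le_area`: if `area E₀ < Jc`, fix a small `η > 0` and let `s` be the supremum of the `s ∈ [0,1]` with `B s η ≤ area`; `s < 1`; `exists_limit`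
gives a touching set, `0 < v < 1` as `B s η 0 = B s η 1 = -η`, WLOG `v ≤ 1/2` by `exists_flip`; `main_struct` contradicts `s < 1`. -/

def kap (v : ℝ) : ℝ := max 0 (1 - min v (1 - v) / v1)
def Bar (s η v : ℝ) : ℝ := s * Jc v - η * kap v

theorem stat_of_barrier {E : Set P3} (h : Adm E) {B : ℝ → ℝ} {lo hi : ℝ} (hle : lo ≤ hi)
    (hB : ∀ F : Set P3, Adm F → B (volQ F) ≤ area F) (hE : area E ≤ B (volQ E))
    (hr : HasDerivWithinAt B lo (Ici (volQ E)) (volQ E))
    (hl : HasDerivWithinAt B hi (Iic (volQ E)) (volQ E)) : Stat E lo hi := by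
  intro δ hδ
  have h1 := eventually_nhdsWithin_iff.1 (hr.isLittleO.def hδ)
  have h2 := eventually_nhdsWithin_iff.1 (hl.isLittleO.def hδ)
  obtain ⟨r, hr0, h3⟩ := Metric.eventually_nhds_iff.1 (h1.and h2)
  refine ⟨r, hr0, fun F c hF hv hc => ?_⟩
  obtain ⟨F', hF', e1, e2⟩ := exists_adm hF hc
  have e3 := hB F' hF'
  rw [e1] at e3
  have h4 := h3 (y := volQ F) hv
  simp only [Real.norm_eq_abs, smul_eq_mul] at h4
  rcases le_total (volQ E) (volQ F) with h5 | h5
  · linarith [neg_abs_le (B (volQ F) - B (volQ E) - (volQ F - volQ E) * lo), h4.1 h5,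
      min_le_left (lo * (volQ F - volQ E)) (hi * (volQ F - volQ E))]
  · linarith [neg_abs_le (B (volQ F) - B (volQ E) - (volQ F - volQ E) * hi), h4.2 h5,
      min_le_right (lo * (volQ F - volQ E)) (hi * (volQ F - volQ E))]

/-- the area of the octant ball -/
def barCap (y : ℝ) : ℝ := (9 * Real.pi / 2) ^ (1 / 3 : ℝ) * y ^ (2 / 3 : ℝ)

theorem barCap_nonneg {y : ℝ} (hy : 0 ≤ y) : 0 ≤ barCap y := by
  have := Real.pi_pos
  unfold barCap
  positivity

theorem barCap_pow {y : ℝ} (hy : 0 ≤ y) : barCap y ^ 6 = (9 * Real.pi / 2) ^ 2 * y ^ 4 := by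
  have := Real.pi_pos
  rw [barCap, mul_pow, ← Real.rpow_natCast, ← Real.rpow_natCast (y ^ (2 / 3 : ℝ)),
    ← Real.rpow_mul (by positivity), ← Real.rpow_mul hy, ← Real.rpow_natCast,
    ← Real.rpow_natCast y]
  norm_num

theorem bar_sqrt_pow {y : ℝ} (hy : 0 ≤ y) : √(Real.pi * y) ^ 6 = Real.pi ^ 3 * y ^ 3 := by
  have := Real.pi_pos
  rw [show 6 = 2 * 3 from rfl, pow_mul, Real.sq_sqrt (by positivity), mul_pow]

theorem barCap_le {y : ℝ} (hy : 0 ≤ y) (h : y ≤ v1) : barCap y ≤ √(Real.pi * y) := by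
  have := Real.pi_pos
  rw [← pow_le_pow_iff_left₀ (barCap_nonneg hy) (Real.sqrt_nonneg _) (by norm_num : 6 ≠ 0),
    barCap_pow hy, bar_sqrt_pow hy]
  have h1 := mul_le_mul_of_nonneg_left h (show 0 ≤ 81 / 4 * Real.pi ^ 2 * y ^ 3 by positivity)
  rw [v1] at h1
  linarith

theorem le_barCap {y : ℝ} (hy : 0 ≤ y) (h : v1 ≤ y) : √(Real.pi * y) ≤ barCap y := by
  have := Real.pi_pos
  rw [← pow_le_pow_iff_left₀ (Real.sqrt_nonneg _) (barCap_nonneg hy) (by norm_num : 6 ≠ 0),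
    barCap_pow hy, bar_sqrt_pow hy]
  have h1 := mul_le_mul_of_nonneg_left h (show 0 ≤ 81 / 4 * Real.pi ^ 2 * y ^ 3 by positivity)
  rw [v1] at h1
  linarith

theorem bar_v1 : 0 < v1 ∧ v1 < 1 / Real.pi ∧ 1 / Real.pi < 1 / 2 := by
  have h1 := Real.pi_gt_three
  have h2 := Real.pi_lt_four
  refine ⟨by rw [v1]; positivity, ?_, one_div_lt_one_div_of_lt two_pos (by linarith)⟩
  rw [v1, div_lt_div_iff₀ (by norm_num) (by linarith)]
  nlinarith

theorem bar_eq1 (s η : ℝ) {y : ℝ} (h0 : 0 ≤ y) (h1 : y ≤ v1) :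
    Bar s η y = s * barCap y - η * (1 - y / v1) := by
  obtain ⟨a1, a2, a3⟩ := bar_v1
  have e : √(Real.pi * y) ≤ 1 := Real.sqrt_le_one.2 <| by
    rw [← le_div_iff₀' Real.pi_pos]
    linarith
  rw [Bar, Jc, kap, min_eq_left (by linarith : y ≤ 1 - y), min_eq_left e,
    max_eq_right (sub_nonneg.2 ((div_le_one a1).2 h1))]
  exact congrArg (fun t => s * t - η * (1 - y / v1)) (min_eq_left (barCap_le h0 h1))

theorem bar_eq23 (s η : ℝ) {y : ℝ} (h : v1 ≤ min y (1 - y)) :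
    Bar s η y = s * min √(Real.pi * min y (1 - y)) 1 := by
  rw [Bar, Jc, kap, max_eq_left (sub_nonpos.2 ((one_le_div bar_v1.1).2 h)), mul_zero, sub_zero]
  exact congrArg (fun t => s * t)
    (min_eq_right ((min_le_left _ _).trans (le_barCap (bar_v1.1.le.trans h) h)))

theorem bar_eq2 (s η : ℝ) {y : ℝ} (h0 : v1 ≤ y) (h1 : y ≤ 1 / Real.pi) :
    Bar s η y = s * √(Real.pi * y) := by
  obtain ⟨a1, a2, a3⟩ := bar_v1
  have e : min y (1 - y) = y := min_eq_left (by linarith)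
  rw [bar_eq23 s η (e.symm ▸ h0), e,
    min_eq_left (Real.sqrt_le_one.2 ((le_div_iff₀' Real.pi_pos).1 h1))]

theorem bar_eq3 (s η : ℝ) {y : ℝ} (h0 : 1 / Real.pi ≤ y) (h1 : y ≤ 1 - 1 / Real.pi) :
    Bar s η y = s := by
  have e : 1 / Real.pi ≤ min y (1 - y) := le_min h0 (by linarith)
  rw [bar_eq23 s η (bar_v1.2.1.le.trans e),
    min_eq_right (Real.one_le_sqrt.2 ((div_le_iff₀' Real.pi_pos).1 e)), mul_one]

theorem bar_right {B f : ℝ → ℝ} {v b d : ℝ} (hf : HasDerivAt f d v) (hb : v < b)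
    (h : ∀ y, v ≤ y → y ≤ b → B y = f y) : HasDerivWithinAt B d (Ici v) v :=
  hf.hasDerivWithinAt.congr_of_eventuallyEq
    (mem_of_superset (Icc_mem_nhdsGE hb) fun y hy => h y hy.1 hy.2) (h v le_rfl hb.le)

theorem bar_left {B f : ℝ → ℝ} {v a d : ℝ} (hf : HasDerivAt f d v) (ha : a < v)
    (h : ∀ y, a ≤ y → y ≤ v → B y = f y) : HasDerivWithinAt B d (Iic v) v :=
  hf.hasDerivWithinAt.congr_of_eventuallyEq
    (mem_of_superset (Icc_mem_nhdsLE ha) fun y hy => h y hy.1 hy.2) (h v ha.le le_rfl)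

theorem bar_d1 (s η : ℝ) {v : ℝ} (hv : 0 < v) :
    HasDerivAt (fun y => s * barCap y - η * (1 - y / v1))
      ((2 / 3 * (s * barCap v) + η * (v / v1)) / v) v := by
  refine ((((Real.hasDerivAt_rpow_const (p := 2 / 3) (Or.inl hv.ne')).const_mul _).const_mul s).sub
    ((((hasDerivAt_id v).div_const v1).const_sub 1).const_mul η)).congr_deriv ?_
  rw [Real.rpow_sub_one hv.ne', barCap]
  field_simp
  ring

theorem bar_d2 (s : ℝ) {v : ℝ} (hv : 0 < v) :
    HasDerivAt (fun y => s * √(Real.pi * y)) (s * √(Real.pi * v) / 2 / v) v := by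
  have h1 : 0 < Real.pi * v := mul_pos Real.pi_pos hv
  refine ((((hasDerivAt_id v).const_mul Real.pi).sqrt h1.ne').const_mul s).congr_deriv ?_
  have h2 := Real.sqrt_pos.2 h1
  have h3 := Real.sq_sqrt h1.le
  simp only [id]
  field_simp
  rw [h3, mul_assoc]

theorem bar_regB {s η v k : ℝ} (hs1 : s ≤ 1) (hη1 : η ≤ 1 / 10) (h0 : 0 < v)
    (h1 : v ≤ v1) (hk0 : 0 ≤ k) (hk : k ≤ (2 / 3 * (s * barCap v) + η * (v / v1)) / v) :
    k ^ 2 * v < Real.pi := by
  have hp := Real.pi_gt_three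
  have h2 : 0 < Real.pi * v := by positivity
  have h3 := Real.sqrt_pos.2 h2
  have h4 := Real.sq_sqrt h2.le
  have h5 := (mul_le_of_le_one_left (barCap_nonneg h0.le) hs1).trans (barCap_le h0.le h1)
  have h6 : v / v1 ≤ 3 / 2 * √(Real.pi * v) := by
    refine le_of_sq_le_sq ?_ (by positivity)
    rw [mul_pow, h4, div_pow, div_le_iff₀ (pow_pos bar_v1.1 2)]
    have h7 : 1 ≤ (3 / 2) ^ 2 * Real.pi * v1 := by rw [v1]; nlinarith
    calc v ^ 2 ≤ v * v1 * 1 := by nlinarith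
      _ ≤ v * v1 * ((3 / 2) ^ 2 * Real.pi * v1) :=
        mul_le_mul_of_nonneg_left h7 (mul_pos h0 bar_v1.1).le
      _ = _ := by ring
  rw [le_div_iff₀ h0] at hk
  have h7 := mul_le_mul hη1 h6 (div_pos h0 bar_v1.1).le (by norm_num)
  have h8 : (k * v) ^ 2 < √(Real.pi * v) ^ 2 :=
    pow_lt_pow_left₀ (by linarith) (by positivity) two_ne_zero
  refine lt_of_mul_lt_mul_right ?_ h0.le
  linarith

theorem reg_of_barrier {s η v : ℝ} (hs0 : 0 ≤ s) (hs1 : s ≤ 1) (hη0 : 0 ≤ η) (hη1 : η ≤ 1 / 10)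
    (h0 : 0 < v) (h1 : v ≤ 1 / 2) :
    ∃ lo hi : ℝ, lo ≤ hi ∧ HasDerivWithinAt (Bar s η) lo (Ici v) v ∧
      HasDerivWithinAt (Bar s η) hi (Iic v) v ∧
      ∀ k ∈ Icc lo hi, RegB v (Bar s η v) k ∨ Reg v (Bar s η v) k := by
  obtain ⟨a1, a2, a3⟩ := bar_v1
  have hp := Real.pi_pos
  have hw : 0 ≤ s * √(Real.pi * v) := by positivity
  have hc : 0 ≤ s * barCap v := mul_nonneg hs0 (barCap_nonneg h0.le)
  have hη : 0 ≤ η * (v / v1) := by positivity
  have L1 : v ≤ v1 → HasDerivWithinAt (Bar s η) _ (Iic v) v := fun h =>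
    bar_left (bar_d1 s η h0) h0 fun y y0 y1 => bar_eq1 s η y0 (y1.trans h)
  have R2 : v1 ≤ v → v < 1 / Real.pi → HasDerivWithinAt (Bar s η) _ (Ici v) v := fun h h' =>
    bar_right (bar_d2 s h0) h' fun y y0 y1 => bar_eq2 s η (h.trans y0) y1
  have L2 : v1 < v → v ≤ 1 / Real.pi → HasDerivWithinAt (Bar s η) _ (Iic v) v := fun h h' =>
    bar_left (bar_d2 s h0) h fun y y0 y1 => bar_eq2 s η y0 (y1.trans h')
  have R3 : 1 / Real.pi ≤ v → HasDerivWithinAt (Bar s η) 0 (Ici v) v := fun h =>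
    bar_right (hasDerivAt_const v s) (b := 1 - 1 / Real.pi) (by linarith) fun y y0 y1 =>
      bar_eq3 s η (h.trans y0) y1
  rcases lt_trichotomy v v1 with h | h | h
  · refine ⟨_, _, le_rfl, bar_right (bar_d1 s η h0) h fun y y0 y1 =>
      bar_eq1 s η (h0.le.trans y0) y1, L1 h.le, fun k hk => Or.inl ⟨h.le, ?_,
        bar_regB hs1 hη1 h0 h.le (le_trans (by positivity) hk.1) hk.2⟩⟩
    have h2 := (div_le_iff₀ h0).1 hk.1
    have h3 := mul_nonneg hη0 (sub_nonneg.2 ((div_le_one a1).2 h.le))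
    rw [bar_eq1 s η h0.le h.le]
    linarith
  · have e : barCap v = √(Real.pi * v) :=
      le_antisymm (barCap_le h0.le h.le) (le_barCap h0.le h.ge)
    refine ⟨_, _, div_le_div_of_nonneg_right (by rw [e]; linarith) h0.le, R2 h.ge (h ▸ a2),
      L1 h.le, fun k hk => ?_⟩
    have h2 := (div_le_iff₀ h0).1 hk.1
    rw [bar_eq2 s η h.ge (h ▸ a2.le)]
    rcases le_total (2 * (s * √(Real.pi * v))) (3 * k * v) with h3 | h3
    · exact Or.inl ⟨h.le, h3, bar_regB hs1 hη1 h0 h.le (le_trans (by positivity) hk.1) hk.2⟩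
    · refine Or.inr (Or.inl ⟨h, (mul_le_of_le_one_left (Real.sqrt_nonneg _) hs1).trans ?_,
        by linarith, h3⟩)
      rw [Real.sqrt_le_left (by positivity), h, v1]
      exact le_of_eq (by ring)
  · rcases lt_trichotomy v (1 / Real.pi) with h' | h' | h'
    · refine ⟨_, _, le_rfl, R2 h.le h', L2 h h'.le, fun k hk => Or.inr (Or.inr (Or.inl ?_))⟩
      rw [bar_eq2 s η h.le h'.le, ← le_antisymm hk.1 hk.2]
      refine ⟨h.le, h'.le, by field_simp, ?_⟩
      rw [mul_pow, Real.sq_sqrt (by positivity)]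
      exact mul_le_of_le_one_left (by positivity) (pow_le_one₀ hs0 hs1)
    · refine ⟨_, _, by positivity, R3 h'.ge, L2 h h'.le, fun k hk =>
        Or.inr (Or.inr (Or.inr (Or.inl ⟨h', hk.1, ?_, ?_⟩)))⟩
      · have h2 := (le_div_iff₀ h0).1 hk.2
        rw [bar_eq2 s η h.le h'.le]
        linarith
      · rw [bar_eq3 s η h'.ge (by linarith)]
        exact hs1
    · refine ⟨0, 0, le_rfl, R3 h'.le, bar_left (hasDerivAt_const v s) h' fun y y0 y1 =>
        bar_eq3 s η y0 (by linarith), fun k hk =>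
        Or.inr (Or.inr (Or.inr (Or.inr ⟨h'.le, h1, le_antisymm hk.2 hk.1, ?_⟩)))⟩
      rw [bar_eq3 s η h'.le (by linarith)]
      exact hs1

theorem continuous_Jc : Continuous Jc := by
  have h : Continuous fun v : ℝ => min v (1 - v) := by fun_prop
  exact (continuous_const.mul (h.rpow_const fun _ => Or.inr (by norm_num))).min
    ((continuous_const.mul h).sqrt.min continuous_const)

end Vale.Agent.P232
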