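import Vale.Agent.P232.Defs

open MeasureTheory Set Filter Topology
open scoped ENNReal

noncomputable section
namespace Vale.Agent.P232

/-! Task B1: elementary facts. -/

theorem nrm_nonneg (x : P3) : 0 ≤ nrm x := Real.sqrt_nonneg _
private theorem nrm_sq (x : P3) : nrm x ^ 2 = x.1 ^ 2 + x.2.1 ^ 2 + x.2.2 ^ 2 :=
  Real.sq_sqrt (by positivity)
private theorem abs_dot_le' (x y : P3) : |dot x y| ≤ nrm x * nrm y := by
  refine abs_le_of_sq_le_sq' ?_ (mul_nonneg (nrm_nonneg x) (nrm_nonneg y)) |> abs_le.2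
  rw [mul_pow, nrm_sq, nrm_sq, dot]
  nlinarith [sq_nonneg (x.1 * y.2.1 - x.2.1 * y.1), sq_nonneg (x.1 * y.2.2 - x.2.2 * y.1),
    sq_nonneg (x.2.1 * y.2.2 - x.2.2 * y.2.1)]
theorem nrm_add_le (x y : P3) : nrm (x + y) ≤ nrm x + nrm y := by
  have h := abs_dot_le' x y
  have hx := nrm_sq x
  have hy := nrm_sq y
  have h0 := nrm_nonneg x
  have h1 := nrm_nonneg y
  refine Real.sqrt_le_iff.2 ⟨by positivity, ?_⟩
  have h2 := (abs_le.1 h).2
  simp only [dot, Prod.fst_add, Prod.snd_add] at h2 ⊢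
  nlinarith
theorem nrm_smul (c : ℝ) (x : P3) : nrm (c • x) = |c| * nrm x := by
  unfold nrm
  rw [← Real.sqrt_sq_eq_abs, ← Real.sqrt_mul (sq_nonneg c)]
  refine congrArg Real.sqrt ?_
  simp only [Prod.smul_fst, Prod.smul_snd, smul_eq_mul]
  ring
theorem abs_dot_le (x y : P3) : |dot x y| ≤ nrm x * nrm y := by
  exact abs_dot_le' x y
theorem dot_self (x : P3) : dot x x = nrm x ^ 2 := by
  rw [nrm_sq, dot]
  ring
theorem norm_le_nrm (x : P3) : ‖x‖ ≤ nrm x := by
  have h1 : |x.1| ≤ nrm x := Real.abs_le_sqrt (by nlinarith [sq_nonneg x.2.1, sq_nonneg x.2.2])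
  have h2 : |x.2.1| ≤ nrm x := Real.abs_le_sqrt (by nlinarith [sq_nonneg x.1, sq_nonneg x.2.2])
  have h3 : |x.2.2| ≤ nrm x := Real.abs_le_sqrt (by nlinarith [sq_nonneg x.2.1, sq_nonneg x.1])
  rw [Prod.norm_def, Prod.norm_def]
  exact max_le h1 (max_le h2 h3)
theorem nrm_le_two_norm (x : P3) : nrm x ≤ 2 * ‖x‖ := by
  have h1 : |x.1| ≤ ‖x‖ := norm_fst_le x
  have h2 : |x.2.1| ≤ ‖x‖ := (norm_fst_le x.2).trans (norm_snd_le x)
  have h3 : |x.2.2| ≤ ‖x‖ := (norm_snd_le x.2).trans (norm_snd_le x)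
  have k1 := sq_le_sq' (abs_le.1 h1).1 (abs_le.1 h1).2
  have k2 := sq_le_sq' (abs_le.1 h2).1 (abs_le.1 h2).2
  have k3 := sq_le_sq' (abs_le.1 h3).1 (abs_le.1 h3).2
  refine Real.sqrt_le_iff.2 ⟨by positivity, ?_⟩
  nlinarith [sq_nonneg ‖x‖]
theorem continuous_nrm : Continuous nrm := by
  unfold nrm
  fun_prop
theorem nrm_cyc (x : P3) : nrm (cyc x) = nrm x := by
  unfold nrm cyc
  refine congrArg Real.sqrt ?_
  ring
theorem cyc_cycInv (x : P3) : cyc (cycInv x) = x := rfl
theorem cycInv_cyc (x : P3) : cycInv (cyc x) = x := rfl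
theorem rot_rot_rot (E : Set P3) : rot (rot (rot E)) = E := rfl
theorem measurableSet_Q : MeasurableSet Q := by
  exact measurableSet_Ioo.prod (measurableSet_Ioo.prod measurableSet_Ioo)
theorem measurableSet_sq : MeasurableSet sq := by
  exact measurableSet_Ioo.prod measurableSet_Ioo
theorem measurableSet_sqc : MeasurableSet sqc := by
  exact measurableSet_Ioc.prod measurableSet_Ioc
theorem measurableSet_box : MeasurableSet box := by
  exact measurableSet_Ioo.prod (measurableSet_Ioo.prod measurableSet_Ioo)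
theorem measurableSet_box2 : MeasurableSet box2 := by
  exact measurableSet_Ioo.prod measurableSet_Ioo
theorem volume_Q : volume Q = 1 := by
  simp [Q, Measure.volume_eq_prod, Measure.prod_prod]
theorem volume_sq : volume sq = 1 := by
  simp [sq, Measure.volume_eq_prod, Measure.prod_prod]
theorem volume_box : volume box = 8 := by
  have e : ENNReal.ofReal (1 - (-1 : ℝ)) = 2 := by norm_num
  simp only [box, Measure.volume_eq_prod, Measure.prod_prod, Real.volume_Ioo, e]
  norm_num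
theorem measurePreserving_cyc : MeasurePreserving cyc volume volume := by
  have h1 : MeasurePreserving (Prod.swap : ℝ × (ℝ × ℝ) → (ℝ × ℝ) × ℝ) volume volume :=
    Measure.measurePreserving_swap
  exact (volume_preserving_prodAssoc (α₁ := ℝ) (β₁ := ℝ) (γ₁ := ℝ)).comp h1
theorem measurePreserving_cycInv : MeasurePreserving cycInv volume volume := by
  exact measurePreserving_cyc.comp measurePreserving_cyc
/-- `cyc` as a measurable equivalence -/
def cycE : P3 ≃ᵐ P3 where
  toFun := cyc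
  invFun := cycInv
  left_inv := fun _ => rfl
  right_inv := fun _ => rfl
  measurable_toFun := by show Measurable cyc; unfold cyc; fun_prop
  measurable_invFun := by show Measurable cycInv; unfold cycInv; fun_prop
/-- `cyc` as a continuous linear map -/
def cycL : P3 →L[ℝ] P3 :=
  ((ContinuousLinearMap.fst ℝ ℝ ℝ).comp (ContinuousLinearMap.snd ℝ ℝ (ℝ × ℝ))).prod
    (((ContinuousLinearMap.snd ℝ ℝ ℝ).comp (ContinuousLinearMap.snd ℝ ℝ (ℝ × ℝ))).prod
      (ContinuousLinearMap.fst ℝ ℝ (ℝ × ℝ)))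
theorem cycL_apply (x : P3) : cycL x = cyc x := rfl
private theorem cyc_Q : cyc ⁻¹' Q = Q := by
  ext x
  simp only [Q, cyc, mem_preimage, mem_prod]
  tauto
private theorem cycInv_Q : cycInv ⁻¹' Q = Q := by
  ext x
  simp only [Q, cycInv, mem_preimage, mem_prod]
  tauto
private theorem cyc_box : cyc ⁻¹' box = box := by
  ext x
  simp only [box, cyc, mem_preimage, mem_prod]
  tauto
private theorem cycInv_box : cycInv ⁻¹' box = box := by
  ext x
  simp only [box, cycInv, mem_preimage, mem_prod]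
  tauto
/-- `cyc` as a homeomorphism -/
private def cycH : P3 ≃ₜ P3 where
  toFun := cyc
  invFun := cycInv
  left_inv := fun _ => rfl
  right_inv := fun _ => rfl
  continuous_toFun := cycL.continuous
  continuous_invFun := cycL.continuous.comp cycL.continuous
private theorem conj_smooth {Z : P3 → P3} (hZ : ContDiff ℝ 1 Z) :
    ContDiff ℝ 1 fun x => cyc (cyc (Z (cyc x))) :=
  cycL.contDiff.comp (cycL.contDiff.comp (hZ.comp cycL.contDiff))
private theorem dv_conj {Z : P3 → P3} (hZ : ContDiff ℝ 1 Z) (x : P3) :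
    dv (fun x => cyc (cyc (Z (cyc x)))) x = dv Z (cyc x) := by
  have h1 : HasFDerivAt Z (fderiv ℝ Z (cyc x)) (cycL x) :=
    (hZ.differentiable one_ne_zero _).hasFDerivAt
  have h2 : HasFDerivAt (fun x => cyc (cyc (Z (cyc x))))
      (cycL.comp (cycL.comp ((fderiv ℝ Z (cyc x)).comp cycL))) x :=
    cycL.hasFDerivAt.comp x (cycL.hasFDerivAt.comp x (h1.comp x cycL.hasFDerivAt))
  rw [dv, dv, h2.fderiv]
  change (fderiv ℝ Z (cyc x) e3).2.2 + (fderiv ℝ Z (cyc x) e1).1 + (fderiv ℝ Z (cyc x) e2).2.1 = _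
  rw [trc]
  ring
private theorem int_cyc {Z : P3 → P3} (hZ : ContDiff ℝ 1 Z) (S : Set P3) :
    ∫ x in S, dv Z x = ∫ x in cyc ⁻¹' S, dv (fun x => cyc (cyc (Z (cyc x)))) x := by
  simp only [dv_conj hZ]
  exact (measurePreserving_cyc.setIntegral_preimage_emb cycE.measurableEmbedding _ S).symm
private theorem inter_ae {F F' : Set P3}
    (hae : ∀ᵐ x ∂(volume.restrict Q), (x ∈ F ↔ x ∈ F')) :
    (F ∩ Q : Set P3) =ᵐ[volume] (F' ∩ Q : Set P3) :=
  ((ae_restrict_iff' measurableSet_Q).1 hae).mono fun _ hx => propext (and_congr_left hx)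
theorem volQ_rot (F : Set P3) (hF : MeasurableSet F) : volQ (rot F) = volQ F := by
  have e : rot F ∩ Q = cycInv ⁻¹' (F ∩ Q) := by
    rw [preimage_inter, cycInv_Q]
    rfl
  rw [volQ, e, measurePreserving_cycInv.measure_preimage
    (hF.inter measurableSet_Q).nullMeasurableSet, volQ]
theorem volB_rot (F : Set P3) (hF : MeasurableSet F) : volB (rot F) = volB F := by
  have e : rot F ∩ box = cycInv ⁻¹' (F ∩ box) := by
    rw [preimage_inter, cycInv_box]
    rfl
  rw [volB, e, measurePreserving_cycInv.measure_preimage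
    (hF.inter measurableSet_box).nullMeasurableSet, volB]
theorem RelLe.rot {F : Set P3} {c : ℝ} (hF : MeasurableSet F) (h : RelLe F c) : RelLe (rot F) c := by
  have _ := hF
  intro Z hZ h1 hc hs
  have e : cyc ⁻¹' (P232.rot F ∩ Q) = F ∩ Q := by
    rw [preimage_inter, cyc_Q]
    rfl
  rw [int_cyc hZ, e]
  refine h _ (conj_smooth hZ) (fun x => ?_) ?_ ?_
  · rw [nrm_cyc, nrm_cyc]
    exact h1 _
  · exact (hc.comp_homeomorph cycH).comp_left (g := fun y => cyc (cyc y)) rfl
  · refine (tsupport_comp_subset (g := fun y => cyc (cyc y)) rfl (Z ∘ cycH)).trans ?_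
    rw [tsupport_comp_eq_preimage, ← cyc_Q]
    exact preimage_mono hs
theorem PerLe.rot {G : Set P3} {c : ℝ} (hG : MeasurableSet G) (h : PerLe G c) : PerLe (rot G) c := by
  have _ := hG
  intro Z hZ h1 hp
  have e : cyc ⁻¹' (P232.rot G ∩ box) = G ∩ box := by
    rw [preimage_inter, cyc_box]
    rfl
  rw [int_cyc hZ, e]
  refine h _ (conj_smooth hZ) (fun x => ?_) ⟨fun x => ?_, fun x => ?_, fun x => ?_⟩
  · rw [nrm_cyc, nrm_cyc]
    exact h1 _
  · exact congrArg (fun y => cyc (cyc y)) (hp.2.2 (cyc x))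
  · exact congrArg (fun y => cyc (cyc y)) (hp.1 (cyc x))
  · exact congrArg (fun y => cyc (cyc y)) (hp.2.1 (cyc x))
theorem PerSet.rot {G : Set P3} (h : PerSet G) : PerSet (rot G) := by
  exact ⟨measurePreserving_cycInv.measurable h.1, fun x => h.2.2.1 (cycInv x),
    fun x => h.2.2.2 (cycInv x), fun x => h.2.1 (cycInv x)⟩
theorem RelLe.congr {F F' : Set P3} {c : ℝ} (hF : MeasurableSet F) (hF' : MeasurableSet F')
    (hae : ∀ᵐ x ∂(volume.restrict Q), (x ∈ F ↔ x ∈ F')) (h : RelLe F c) : RelLe F' c := by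
  have _ := hF
  have _ := hF'
  intro Z hZ h1 hc hs
  rw [← setIntegral_congr_set (inter_ae hae)]
  exact h Z hZ h1 hc hs
theorem volQ_congr {F F' : Set P3}
    (hae : ∀ᵐ x ∂(volume.restrict Q), (x ∈ F ↔ x ∈ F')) : volQ F = volQ F' := by
  rw [volQ, volQ, measure_congr (inter_ae hae)]
theorem PerLe.congr {G G' : Set P3} {c : ℝ} (hG : MeasurableSet G) (hG' : MeasurableSet G')
    (hae : ∀ᵐ x : P3, (x ∈ G ↔ x ∈ G')) (h : PerLe G c) : PerLe G' c := by
  have _ := hG
  have _ := hG'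
  intro Z hZ h1 hp
  have e : (G ∩ box : Set P3) =ᵐ[volume] (G' ∩ box : Set P3) :=
    hae.mono fun x hx => propext (and_congr_left fun _ => hx)
  rw [← setIntegral_congr_set e]
  exact h Z hZ h1 hp
theorem volQ_nonneg (F : Set P3) : 0 ≤ volQ F := ENNReal.toReal_nonneg
theorem volQ_le_one (F : Set P3) : volQ F ≤ 1 := by
  have h : volume (F ∩ Q) ≤ 1 := volume_Q ▸ measure_mono inter_subset_right
  exact ENNReal.toReal_le_of_le_ofReal zero_le_one (by simpa using h)
theorem IsStd.rot {E : Set P3} (h : IsStd (rot E)) : IsStd E := by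
  obtain ⟨k, R, ⟨k1, k2, k3, k0⟩, h0, h1, hae⟩ := h
  refine ⟨cycInv k, R, ⟨k3, k1, k2, fun e => k0 ?_⟩, h0, h1, ?_⟩
  · exact congrArg cyc e
  · have hm := measurePreserving_cyc.restrict_preimage measurableSet_Q
    rw [cyc_Q] at hm
    refine (hm.quasiMeasurePreserving.ae hae).mono fun x hx => hx.trans ?_
    simp only [std, cyc, cycInv, mem_ofPred_eq, Prod.fst_zero, Prod.snd_zero]
    constructor <;> intro h <;> linarith

theorem d2_nonneg (t : ℝ) : 0 ≤ d2 t := abs_nonneg _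
private theorem d2_eq (t : ℝ) : d2 t = 2 * |t / 2 - round (t / 2)| := by
  have e : t - 2 * (round (t / 2) : ℝ) = 2 * (t / 2 - round (t / 2)) := by ring
  rw [d2, e, abs_mul, abs_two]
private theorem d2_le' (t : ℝ) (n : ℤ) : d2 t ≤ |t - 2 * n| := by
  have e : t - 2 * (n : ℝ) = 2 * (t / 2 - n) := by ring
  have h := round_le (t / 2) n
  rw [d2_eq, e, abs_mul, abs_two]
  linarith
theorem d2_le_one (t : ℝ) : d2 t ≤ 1 := by
  have h := abs_sub_round (t / 2)
  rw [d2_eq]
  linarith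
theorem d2_add_two (t : ℝ) : d2 (t + 2) = d2 t := by
  have e : (t + 2) / 2 = t / 2 + 1 := by ring
  rw [d2, d2, e, round_add_one]
  refine congrArg abs ?_
  push_cast
  ring
theorem d2_neg (t : ℝ) : d2 (-t) = d2 t := by
  have h : ∀ s : ℝ, d2 (-s) ≤ d2 s := fun s => by
    refine (d2_le' (-s) (-round (s / 2))).trans (le_of_eq ?_)
    rw [d2, ← abs_neg]
    refine congrArg abs ?_
    push_cast
    ring
  refine le_antisymm (h t) ?_
  simpa using h (-t)
theorem d2_of_abs_le {t : ℝ} (h : |t| ≤ 1) : d2 t = |t| := by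
  refine le_antisymm (by simpa using d2_le' t 0) ?_
  rw [d2]
  obtain ⟨n, hn⟩ : ∃ n : ℤ, n = round (t / 2) := ⟨_, rfl⟩
  rw [← hn]
  have h' := abs_le.1 h
  rcases lt_trichotomy n 0 with h0 | rfl | h0
  · have : (n : ℝ) ≤ -1 := by exact_mod_cast Int.le_sub_one_of_lt h0
    exact h.trans ((by linarith : (1 : ℝ) ≤ t - 2 * n).trans (le_abs_self _))
  · simp
  · have : (1 : ℝ) ≤ n := by exact_mod_cast h0
    exact h.trans ((by linarith : (1 : ℝ) ≤ -(t - 2 * n)).trans (neg_le_abs _))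
theorem d2_d2 (t : ℝ) : d2 (d2 t) = d2 t := by
  have h : |d2 t| = d2 t := abs_of_nonneg (d2_nonneg t)
  rw [d2_of_abs_le (h.trans_le (d2_le_one t)), h]
theorem d2_le_abs_sub (t : ℝ) (n : ℤ) : d2 t ≤ |t - 2 * n| := by
  exact d2_le' t n
theorem continuous_d2 : Continuous d2 := by
  refine (LipschitzWith.of_le_add fun x y => ?_).continuous
  refine (d2_le' x (round (y / 2))).trans ?_
  have e : x - 2 * (round (y / 2) : ℝ) = (y - 2 * (round (y / 2) : ℝ)) + (x - y) := by ring
  rw [e, Real.dist_eq]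
  exact abs_add_le _ _

end Vale.Agent.P232
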