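import Vale.Agent.P232.BasicA

open MeasureTheory Set Filter Topology
open scoped ENNReal

noncomputable section
namespace Vale.Agent.P232

/-! ### One-dimensional open lower sets -/

/-- length of the part of `S` in `(0,1)` -/
def len01 (S : Set ℝ) : ℝ := (volume {t ∈ Ioo (0 : ℝ) 1 | t ∈ S}).toReal

theorem len01_le_one (S : Set ℝ) : len01 S ≤ 1 := by
  unfold len01
  have h : volume {t ∈ Ioo (0 : ℝ) 1 | t ∈ S} ≤ 1 := by
    calc volume {t ∈ Ioo (0 : ℝ) 1 | t ∈ S} ≤ volume (Ioo (0 : ℝ) 1) :=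
          measure_mono (fun t ht => ht.1)
      _ = 1 := by simp
  have := ENNReal.toReal_mono ENNReal.one_ne_top h
  simpa using this

theorem exists_Ioo_of_lower {S : Set ℝ} (hl : IsLowerSet S) (ho : IsOpen S) :
    ∃ a : ℝ, 0 ≤ a ∧ {t ∈ Ioo (0 : ℝ) 1 | t ∈ S} = Ioo 0 a := by
  by_cases hne : ({t ∈ Ioo (0 : ℝ) 1 | t ∈ S}).Nonempty
  · have hb : BddAbove {t ∈ Ioo (0 : ℝ) 1 | t ∈ S} := ⟨1, fun t ht => ht.1.2.le⟩
    refine ⟨sSup {t ∈ Ioo (0 : ℝ) 1 | t ∈ S}, ?_, ?_⟩
    · obtain ⟨t, ht⟩ := hne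
      exact ht.1.1.le.trans (le_csSup hb ht)
    · ext t
      constructor
      · intro ht
        refine ⟨ht.1.1, ?_⟩
        have hop : IsOpen {t ∈ Ioo (0 : ℝ) 1 | t ∈ S} := isOpen_Ioo.inter ho
        obtain ⟨ε, hε, hball⟩ := Metric.isOpen_iff.1 hop t ht
        have : t + ε / 2 ∈ {t ∈ Ioo (0 : ℝ) 1 | t ∈ S} := by
          apply hball
          rw [Metric.mem_ball, Real.dist_eq, abs_lt]
          constructor <;> linarith
        have := le_csSup hb this
        linarith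
      · intro ht
        obtain ⟨s, hs, hts⟩ := exists_lt_of_lt_csSup hne ht.2
        exact ⟨⟨ht.1, hts.trans hs.1.2⟩, hl hts.le hs.2⟩
  · refine ⟨0, le_rfl, ?_⟩
    rw [not_nonempty_iff_eq_empty.1 hne]
    simp

theorem mem_iff_len01 {S : Set ℝ} (hl : IsLowerSet S) (ho : IsOpen S) {t : ℝ}
    (ht : t ∈ Ioo (0 : ℝ) 1) : t ∈ S ↔ t < len01 S := by
  obtain ⟨a, ha, hS⟩ := exists_Ioo_of_lower hl ho
  have hlen : len01 S = a := by
    unfold len01
    rw [hS, Real.volume_Ioo, ENNReal.toReal_ofReal (by linarith)]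
    ring
  rw [hlen]
  constructor
  · intro h
    have : t ∈ Ioo 0 a := by rw [← hS]; exact ⟨ht, h⟩
    exact this.2
  · intro h
    have : t ∈ {t ∈ Ioo (0 : ℝ) 1 | t ∈ S} := by rw [hS]; exact ⟨ht.1, h⟩
    exact this.2

theorem len01_pos {S : Set ℝ} (hl : IsLowerSet S) (ho : IsOpen S) (h0 : (0 : ℝ) ∈ S) :
    0 < len01 S := by
  obtain ⟨ε, hε, hball⟩ := Metric.isOpen_iff.1 ho 0 h0
  have hm : min (ε / 2) (1 / 2) ∈ S := by
    apply hball
    rw [Metric.mem_ball, Real.dist_eq, sub_zero, abs_lt]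
    have := min_le_left (ε / 2) (1 / 2)
    have : 0 < min (ε / 2) (1 / 2) := lt_min (by linarith) (by norm_num)
    constructor <;> linarith
  have hpos : 0 < min (ε / 2) (1 / 2) := lt_min (by linarith) (by norm_num)
  have hlt : min (ε / 2) (1 / 2) < 1 := (min_le_right _ _).trans_lt (by norm_num)
  exact hpos.trans ((mem_iff_len01 hl ho ⟨hpos, hlt⟩).1 hm)

theorem len01_eq_zero {S : Set ℝ} (hl : IsLowerSet S) (h0 : (0 : ℝ) ∉ S) : len01 S = 0 := by
  unfold len01
  have : {t ∈ Ioo (0 : ℝ) 1 | t ∈ S} = ∅ := by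
    ext t
    simp only [mem_ofPred_eq, mem_empty_iff_false, iff_false, not_and]
    intro ht hS
    exact h0 (hl ht.1.le hS)
  rw [this]
  simp

theorem len01_eq_one {S : Set ℝ} (hl : IsLowerSet S) (h1 : (1 : ℝ) ∈ S) : len01 S = 1 := by
  unfold len01
  have : {t ∈ Ioo (0 : ℝ) 1 | t ∈ S} = Ioo 0 1 := by
    ext t
    simp only [mem_ofPred_eq, and_iff_left_iff_imp]
    intro ht
    exact hl ht.2.le h1
  rw [this]
  simp

theorem mem_iff_len01' {S : Set ℝ} (hl : IsLowerSet S) (ho : IsOpen S) (h0 : (0 : ℝ) ∈ S)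
    (h1 : (1 : ℝ) ∉ S) (t : ℝ) : t ∈ S ↔ t < len01 S := by
  rcases le_or_gt t 0 with ht | ht
  · exact ⟨fun _ => ht.trans_lt (len01_pos hl ho h0), fun _ => hl ht h0⟩
  rcases le_or_gt 1 t with ht1 | ht1
  · exact ⟨fun h => absurd (hl ht1 h) h1, fun h => absurd (h.trans_le (len01_le_one S)) (not_lt.2 ht1)⟩
  · exact mem_iff_len01 hl ho ⟨ht, ht1⟩

theorem col3_lower {E : Set P3} (h : IsLowerSet E) (p : P2) :
    IsLowerSet {t : ℝ | ((p.1, p.2, t) : P3) ∈ E} := by
  intro a b hab ha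
  exact h (show ((p.1, p.2, b) : P3) ≤ (p.1, p.2, a) from ⟨le_rfl, le_rfl, hab⟩) ha

theorem col3_open {E : Set P3} (h : IsOpen E) (p : P2) :
    IsOpen {t : ℝ | ((p.1, p.2, t) : P3) ∈ E} :=
  h.preimage (f := fun t : ℝ => ((p.1, p.2, t) : P3)) (by fun_prop)

theorem col2_lower {D : Set P2} (h : IsLowerSet D) (x : ℝ) :
    IsLowerSet {t : ℝ | ((x, t) : P2) ∈ D} := by
  intro a b hab ha
  exact h (show ((x, b) : P2) ≤ (x, a) from ⟨le_rfl, hab⟩) ha

theorem col2_open {D : Set P2} (h : IsOpen D) (x : ℝ) :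
    IsOpen {t : ℝ | ((x, t) : P2) ∈ D} :=
  h.preimage (f := fun t : ℝ => ((x, t) : P2)) (by fun_prop)

theorem hgt_eq_len01 (E : Set P3) (p : P2) :
    hgt E p = len01 {t : ℝ | ((p.1, p.2, t) : P3) ∈ E} := rfl

theorem hy_eq_len01 (D : Set P2) (x : ℝ) : hy D x = len01 {t : ℝ | ((x, t) : P2) ∈ D} := rfl

/-! ### Admissible sets -/

theorem Adm.rot {E : Set P3} (h : Adm E) : Adm (rot E) := by
  refine ⟨?_, ?_, h.a1, h.a2, h.a3⟩
  · intro a b hab ha
    exact h.lower (show cycInv b ≤ cycInv a from ⟨hab.2.2, hab.1, hab.2.1⟩) ha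
  · exact h.isOpen.preimage (by unfold cycInv; fun_prop)
theorem Adm.measurableSet {E : Set P3} (h : Adm E) : MeasurableSet E := h.isOpen.measurableSet
theorem Adm.lowQ {E : Set P3} (h : Adm E) : LowQ E := fun _ _ _ _ hxy hy => h.lower hxy hy
theorem Adm.slice {E : Set P3} (h : Adm E) (t : ℝ) : Adm2 (slice E t) := by
  refine ⟨?_, ?_, ?_, ?_, ?_, ?_⟩
  · intro a b hab ha
    exact h.lower (show ((b.1, b.2, t) : P3) ≤ (a.1, a.2, t) from ⟨hab.1, hab.2, le_rfl⟩) ha
  · exact h.isOpen.preimage (f := fun p : P2 => ((p.1, p.2, t) : P3)) (by fun_prop)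
  · intro x y hy hxy
    exact h.a2.below t x y hy hxy
  · intro x y hx
    exact h.a2.above t x y hx
  · intro x y hx hxy
    exact h.a1.below y t x hx hxy
  · intro x y hy
    exact h.a1.above y t x hy
theorem Adm2.swap {D : Set P2} (h : Adm2 D) : Adm2 (Prod.swap ⁻¹' D) := by
  refine ⟨?_, h.isOpen.preimage continuous_swap, ?_, ?_, ?_, ?_⟩
  · intro a b hab ha
    exact h.lower (show Prod.swap b ≤ Prod.swap a from ⟨hab.2, hab.1⟩) ha
  · intro x y hy hxy
    exact h.belowX y x hy hxy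
  · intro x y hx
    exact h.aboveX y x hx
  · intro x y hx hxy
    exact h.belowY y x hx hxy
  · intro x y hy
    exact h.aboveY y x hy
theorem Adm.slice_of_nonpos {E : Set P3} (h : Adm E) {t : ℝ} (ht : t ≤ 0) :
    P232.slice E t = P232.slice E 0 := by
  ext p
  constructor
  · intro hp
    obtain ⟨δ, hδ, hm⟩ := h.a3.below p.1 p.2 t ht hp
    exact col3_lower h.lower p hδ.le hm
  · intro hp
    exact col3_lower h.lower p ht hp
theorem Adm.slice_of_one_le {E : Set P3} (h : Adm E) {t : ℝ} (ht : 1 ≤ t) :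
    P232.slice E t = P232.slice E 1 := by
  ext p
  constructor
  · intro hp
    exact col3_lower h.lower p ht hp
  · intro hp
    exact h.a3.above p.1 p.2 t hp
theorem measurable_hgt {E : Set P3} (hE : MeasurableSet E) : Measurable (hgt E) := by
  have hs : MeasurableSet {q : P2 × ℝ | q.2 ∈ Ioo (0 : ℝ) 1 ∧ ((q.1.1, q.1.2, q.2) : P3) ∈ E} := by
    refine MeasurableSet.inter (measurable_snd measurableSet_Ioo) ?_
    exact (show Measurable (fun q : P2 × ℝ => ((q.1.1, q.1.2, q.2) : P3)) by fun_prop) hE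
  exact (measurable_measure_prodMk_left (ν := (volume : Measure ℝ)) hs).ennreal_toReal
theorem hgt_nonneg (E : Set P3) (p : P2) : 0 ≤ hgt E p := ENNReal.toReal_nonneg
theorem hgt_le_one (E : Set P3) (p : P2) : hgt E p ≤ 1 := by
  rw [hgt_eq_len01]; exact len01_le_one _
theorem Adm.mem_iff_hgt {E : Set P3} (h : Adm E) (p : P2) {t : ℝ} (ht : t ∈ Ioo (0 : ℝ) 1) :
    ((p.1, p.2, t) : P3) ∈ E ↔ t < hgt E p :=
  mem_iff_len01 (col3_lower h.lower p) (col3_open h.isOpen p) ht
theorem Adm.hgt_pos {E : Set P3} (h : Adm E) {p : P2} (hp : p ∈ P232.slice E 0) : 0 < hgt E p :=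
  len01_pos (col3_lower h.lower p) (col3_open h.isOpen p) hp
theorem Adm.hgt_eq_zero {E : Set P3} (h : Adm E) {p : P2} (hp : p ∉ P232.slice E 0) :
    hgt E p = 0 := len01_eq_zero (col3_lower h.lower p) hp
theorem Adm.hgt_eq_one {E : Set P3} (h : Adm E) {p : P2} (hp : p ∈ P232.slice E 1) :
    hgt E p = 1 := len01_eq_one (col3_lower h.lower p) hp
/-- for a column meeting the boundary, membership is decided by the height -/
theorem Adm.mem_iff_of_dom {E : Set P3} (h : Adm E) {p : P2} (hp : p ∈ dom E) (t : ℝ) :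
    ((p.1, p.2, t) : P3) ∈ E ↔ t < hgt E p :=
  mem_iff_len01' (col3_lower h.lower p) (col3_open h.isOpen p) hp.1 hp.2 t
theorem Adm.measurableSet_dom {E : Set P3} (h : Adm E) : MeasurableSet (dom E) :=
  (h.slice 0).isOpen.measurableSet.diff (h.slice 1).isOpen.measurableSet
theorem measurable_hy {D : Set P2} (hD : MeasurableSet D) : Measurable (hy D) := by
  have hs : MeasurableSet {q : ℝ × ℝ | q.2 ∈ Ioo (0 : ℝ) 1 ∧ q ∈ D} :=
    MeasurableSet.inter (measurable_snd measurableSet_Ioo) hD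
  exact (measurable_measure_prodMk_left (ν := (volume : Measure ℝ)) hs).ennreal_toReal
theorem hy_nonneg (D : Set P2) (x : ℝ) : 0 ≤ hy D x := ENNReal.toReal_nonneg
theorem hy_le_one (D : Set P2) (x : ℝ) : hy D x ≤ 1 := by
  rw [hy_eq_len01]; exact len01_le_one _
theorem Adm2.mem_iff_hy {D : Set P2} (h : Adm2 D) (x : ℝ) {t : ℝ} (ht : t ∈ Ioo (0 : ℝ) 1) :
    ((x, t) : P2) ∈ D ↔ t < hy D x :=
  mem_iff_len01 (col2_lower h.lower x) (col2_open h.isOpen x) ht
theorem Adm2.mem_iff_of_domy {D : Set P2} (h : Adm2 D) {x : ℝ} (hx : x ∈ domy D) (t : ℝ) :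
    ((x, t) : P2) ∈ D ↔ t < hy D x :=
  mem_iff_len01' (col2_lower h.lower x) (col2_open h.isOpen x) hx.1 hx.2 t
theorem Adm2.hy_pos {D : Set P2} (h : Adm2 D) {x : ℝ} (hx : ((x, 0) : P2) ∈ D) : 0 < hy D x :=
  len01_pos (col2_lower h.lower x) (col2_open h.isOpen x) hx
theorem Adm2.hy_eq_zero {D : Set P2} (h : Adm2 D) {x : ℝ} (hx : ((x, 0) : P2) ∉ D) : hy D x = 0 :=
  len01_eq_zero (col2_lower h.lower x) hx
theorem Adm2.hy_eq_one {D : Set P2} (h : Adm2 D) {x : ℝ} (hx : ((x, 1) : P2) ∈ D) : hy D x = 1 :=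
  len01_eq_one (col2_lower h.lower x) hx
theorem Adm2.measurableSet_domy {D : Set P2} (h : Adm2 D) : MeasurableSet (domy D) := by
  have h0 : MeasurableSet {x : ℝ | ((x, 0) : P2) ∈ D} :=
    (show Measurable (fun x : ℝ => ((x, 0) : P2)) by fun_prop) h.isOpen.measurableSet
  have h1 : MeasurableSet {x : ℝ | ((x, 1) : P2) ∈ D} :=
    (show Measurable (fun x : ℝ => ((x, 1) : P2)) by fun_prop) h.isOpen.measurableSet
  exact h0.diff h1

/-- Fubini for the volume of a set over a base -/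
theorem vol_eq_integral_fibres {α β : Type*} [MeasureSpace α] [MeasureSpace β]
    [SFinite (volume : Measure α)] [SFinite (volume : Measure β)]
    {A : Set α} {B : Set β} (hA : MeasurableSet A) (hB : MeasurableSet B)
    (hB1 : volume B < ∞) {S : Set (α × β)} (hS : MeasurableSet S) :
    (volume (S ∩ A ×ˢ B)).toReal = ∫ x in A, (volume {t ∈ B | (x, t) ∈ S}).toReal := by
  have hs : MeasurableSet {q : α × β | q.2 ∈ B ∧ q ∈ S} :=
    MeasurableSet.inter (measurable_snd hB) hS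
  have hm : Measurable (fun x : α => volume {t ∈ B | (x, t) ∈ S}) :=
    measurable_measure_prodMk_left (ν := (volume : Measure β)) hs
  rw [integral_toReal hm.aemeasurable (ae_of_all _ fun x =>
    lt_of_le_of_lt (measure_mono (fun t ht => ht.1)) hB1)]
  congr 1
  rw [Measure.volume_eq_prod, Measure.prod_apply (hS.inter (hA.prod hB)),
    ← lintegral_indicator hA]
  congr 1
  ext x
  by_cases hx : x ∈ A
  · rw [indicator_of_mem hx]
    congr 1
    ext t
    simp [hx, and_comm]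
  · rw [indicator_of_notMem hx]
    have : Prod.mk x ⁻¹' (S ∩ A ×ˢ B) = ∅ := by
      ext t
      simp [hx]
    rw [this, measure_empty]

theorem ar_eq_integral {D : Set P2} (hD : MeasurableSet D) : ar D = ∫ x in Ioo (0 : ℝ) 1, hy D x :=
  vol_eq_integral_fibres measurableSet_Ioo measurableSet_Ioo (by simp) hD
theorem ar_swap {D : Set P2} (hD : MeasurableSet D) : ar (Prod.swap ⁻¹' D) = ar D := by
  unfold ar
  congr 1
  have : Prod.swap ⁻¹' D ∩ sq = Prod.swap ⁻¹' (D ∩ sq) := by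
    ext p
    simp only [sq, mem_inter_iff, mem_preimage, mem_prod, Prod.fst_swap, Prod.snd_swap]
    tauto
  rw [this]
  exact (Measure.measurePreserving_swap (μ := (volume : Measure ℝ))
    (ν := (volume : Measure ℝ))).measure_preimage
    (hD.inter measurableSet_sq).nullMeasurableSet
theorem ar_nonneg (D : Set P2) : 0 ≤ ar D := ENNReal.toReal_nonneg
theorem ar_le_one (D : Set P2) : ar D ≤ 1 := by
  unfold ar
  have h : volume (D ∩ sq) ≤ 1 := by
    rw [← volume_sq]; exact measure_mono inter_subset_right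
  have := ENNReal.toReal_mono ENNReal.one_ne_top h
  simpa using this
theorem ar_mono {D D' : Set P2} (h : D ⊆ D') : ar D ≤ ar D' := by
  unfold ar
  refine ENNReal.toReal_mono ?_ (measure_mono (inter_subset_inter_left _ h))
  refine ne_top_of_le_ne_top ?_ (measure_mono inter_subset_right)
  rw [volume_sq]; exact ENNReal.one_ne_top
theorem volQ_eq_hgt {E : Set P3} (hE : MeasurableSet E) : volQ E = ∫ p in sq, hgt E p := by
  have hm : Measurable (fun q : P2 × ℝ => ((q.1.1, q.1.2, q.2) : P3)) := by fun_prop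
  have key := vol_eq_integral_fibres (A := sq) (B := Ioo (0 : ℝ) 1) measurableSet_sq
    measurableSet_Ioo (by simp) (hm hE)
  have hp : MeasurePreserving (MeasurableEquiv.prodAssoc : P2 × ℝ ≃ᵐ P3) volume volume :=
    volume_preserving_prodAssoc
  have h2 := hp.measure_preimage (hE.inter measurableSet_Q).nullMeasurableSet
  have h3 : (MeasurableEquiv.prodAssoc : P2 × ℝ ≃ᵐ P3) ⁻¹' (E ∩ Q) =
      (fun q : P2 × ℝ => ((q.1.1, q.1.2, q.2) : P3)) ⁻¹' E ∩ sq ×ˢ Ioo (0 : ℝ) 1 := by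
    ext q
    simp only [MeasurableEquiv.prodAssoc, MeasurableEquiv.coe_mk, Equiv.prodAssoc_apply, Q, sq,
      mem_preimage, mem_inter_iff, mem_prod]
    tauto
  unfold volQ
  rw [← h2, h3, key]
  rfl
theorem volQ_eq_slices {E : Set P3} (hE : MeasurableSet E) :
    volQ E = ∫ t in Ioo (0 : ℝ) 1, ar (slice E t) := by
  have hm : Measurable cycInv := measurePreserving_cycInv.measurable
  have hm' : Measurable cyc := measurePreserving_cyc.measurable
  have key := vol_eq_integral_fibres (A := Ioo (0 : ℝ) 1) (B := sq) measurableSet_Ioo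
    measurableSet_sq (by rw [volume_sq]; simp) (hm' hE)
  have h2 := measurePreserving_cyc.measure_preimage (hE.inter measurableSet_Q).nullMeasurableSet
  have h3 : cyc ⁻¹' (E ∩ Q) = cyc ⁻¹' E ∩ Ioo (0 : ℝ) 1 ×ˢ sq := by
    ext q
    simp only [cyc, Q, sq, mem_preimage, mem_inter_iff, mem_prod]
    tauto
  unfold volQ
  rw [← h2, h3, key]
  refine setIntegral_congr_fun measurableSet_Ioo (fun t _ => ?_)
  unfold ar
  congr 2
  ext p
  simp only [mem_ofPred_eq, mem_preimage, mem_inter_iff, slice, cyc]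
  tauto
theorem Adm.slice_anti {E : Set P3} (h : Adm E) {s t : ℝ} (hst : s ≤ t) :
    P232.slice E t ⊆ P232.slice E s := fun p hp => col3_lower h.lower p hst hp
theorem Adm.antitone_ar {E : Set P3} (h : Adm E) : Antitone (fun t => ar (P232.slice E t)) :=
  fun _ _ hst => ar_mono (h.slice_anti hst)
theorem Adm.integrableOn_ar {E : Set P3} (h : Adm E) :
    IntegrableOn (fun t => ar (P232.slice E t)) (Ioo (0 : ℝ) 1) :=
  ((h.antitone_ar.antitoneOn (Icc (0 : ℝ) 1)).integrableOn_isCompact isCompact_Icc).mono_set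
    Ioo_subset_Icc_self
theorem Adm.bb_le_vol {E : Set P3} (h : Adm E) : bb E ≤ volQ E := by
  rw [volQ_eq_slices h.measurableSet]
  have h1 : bb E = ∫ _t in Ioo (0 : ℝ) 1, bb E := by simp
  rw [h1]
  refine setIntegral_mono_on (by simp) h.integrableOn_ar measurableSet_Ioo (fun t ht => ?_)
  exact h.antitone_ar ht.2.le
theorem Adm.vol_le_aa {E : Set P3} (h : Adm E) : volQ E ≤ aa E := by
  rw [volQ_eq_slices h.measurableSet]
  have h1 : aa E = ∫ _t in Ioo (0 : ℝ) 1, aa E := by simp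
  rw [h1]
  refine setIntegral_mono_on h.integrableOn_ar (by simp) measurableSet_Ioo (fun t ht => ?_)
  exact h.antitone_ar ht.1.le
theorem ar_pos_iff {D : Set P2} (h : Adm2 D) : 0 < ar D ↔ ((0, 0) : P2) ∈ D := by
  constructor
  · intro hpos
    have hne : (D ∩ sq).Nonempty := by
      by_contra hc
      rw [not_nonempty_iff_eq_empty] at hc
      unfold ar at hpos
      rw [hc] at hpos
      simp at hpos
    obtain ⟨p, hp, hq⟩ := hne
    exact h.lower (show ((0, 0) : P2) ≤ p from ⟨hq.1.1.le, hq.2.1.le⟩) hp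
  · intro h0
    obtain ⟨δ, hδ, h1⟩ := h.belowY 0 0 le_rfl h0
    obtain ⟨η, hη, h2⟩ := h.belowX 0 δ le_rfl h1
    have hop : IsOpen (D ∩ sq) := h.isOpen.inter (isOpen_Ioo.prod isOpen_Ioo)
    have hne : (D ∩ sq).Nonempty := by
      refine ⟨(min η (1 / 2), min δ (1 / 2)), h.lower (show ((min η (1 / 2), min δ (1 / 2)) : P2) ≤
        (η, δ) from ⟨min_le_left _ _, min_le_left _ _⟩) h2, ?_, ?_⟩
      · exact ⟨lt_min hη (by norm_num), (min_le_right _ _).trans_lt (by norm_num)⟩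
      · exact ⟨lt_min hδ (by norm_num), (min_le_right _ _).trans_lt (by norm_num)⟩
    unfold ar
    refine ENNReal.toReal_pos (hop.measure_pos volume hne).ne' ?_
    refine ne_top_of_le_ne_top ?_ (measure_mono inter_subset_right)
    rw [volume_sq]; exact ENNReal.one_ne_top
theorem Adm.bb_pos_iff {E : Set P3} (h : Adm E) : 0 < bb E ↔ ((0, 0, 1) : P3) ∈ E :=
  ar_pos_iff (h.slice 1)
theorem Adm.aa_eq_one {E : Set P3} (h : Adm E) (h1 : ((1, 1, 0) : P3) ∈ E) : aa E = 1 := by
  unfold aa ar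
  have : P232.slice E 0 ∩ sq = sq := by
    refine inter_eq_right.2 (fun p hp => ?_)
    exact h.lower (show ((p.1, p.2, 0) : P3) ≤ (1, 1, 0) from ⟨hp.1.2.le, hp.2.2.le, le_rfl⟩) h1
  rw [this, volume_sq]
  simp
theorem Adm.origin_mem {E : Set P3} (h : Adm E) (hv : 0 < volQ E) : ((0, 0, 0) : P3) ∈ E := by
  have hne : (E ∩ Q).Nonempty := by
    by_contra hc
    rw [not_nonempty_iff_eq_empty] at hc
    unfold volQ at hv
    rw [hc] at hv
    simp at hv
  obtain ⟨p, hp, hq⟩ := hne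
  exact h.lower (show ((0, 0, 0) : P3) ≤ p from ⟨hq.1.1.le, hq.2.1.1.le, hq.2.2.1.le⟩) hp
theorem Adm.one_not_mem {E : Set P3} (h : Adm E) (hv : volQ E < 1) : ((1, 1, 1) : P3) ∉ E := by
  intro h1
  have : E ∩ Q = Q := by
    refine inter_eq_right.2 (fun p hp => ?_)
    exact h.lower (show p ≤ ((1, 1, 1) : P3) from ⟨hp.1.2.le, hp.2.1.2.le, hp.2.2.2.le⟩) h1
  unfold volQ at hv
  rw [this, volume_Q] at hv
  simp at hv
/-- frontier of a lower set is null -/
theorem null_frontier3 {E : Set P3} (h : IsLowerSet E) : volume (frontier E) = 0 := by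
  let e : (Fin 3 → ℝ) ≃ᵐ P3 :=
    (MeasurableEquiv.piFinSuccAbove (fun _ : Fin 3 => ℝ) 0).trans
      (MeasurableEquiv.prodCongr (MeasurableEquiv.refl ℝ) MeasurableEquiv.finTwoArrow)
  have he : MeasurePreserving e volume volume := by
    have h1 := volume_preserving_piFinSuccAbove (fun _ : Fin 3 => ℝ) 0
    have h2 := (MeasurePreserving.id (volume : Measure ℝ)).prod (volume_preserving_finTwoArrow ℝ)
    exact h2.comp h1
  have hev : ∀ x : Fin 3 → ℝ, e x = (x 0, x 1, x 2) := fun x => rfl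
  have hlow : IsLowerSet (e ⁻¹' E) := by
    intro a b hab ha
    rw [mem_preimage, hev] at ha ⊢
    exact h (show ((b 0, b 1, b 2) : P3) ≤ (a 0, a 1, a 2) from ⟨hab 0, hab 1, hab 2⟩) ha
  have hsymm : ∀ p : P3, e.symm p = ![p.1, p.2.1, p.2.2] := by
    intro p
    apply e.injective
    rw [e.apply_symm_apply, hev]
    rfl
  have hc : Continuous (e.symm : P3 → Fin 3 → ℝ) := by
    rw [show (e.symm : P3 → Fin 3 → ℝ) = fun p => ![p.1, p.2.1, p.2.2] from funext hsymm]
    fun_prop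
  have hsub : frontier E ⊆ e.symm ⁻¹' frontier (e ⁻¹' E) := by
    have := hc.frontier_preimage_subset (e ⁻¹' E)
    rwa [← preimage_comp, show (e : _ → P3) ∘ e.symm = id from funext e.apply_symm_apply,
      preimage_id] at this
  refine measure_mono_null hsub ?_
  rw [he.symm.measure_preimage isClosed_frontier.measurableSet.nullMeasurableSet]
  exact hlow.null_frontier
theorem null_frontier2 {D : Set P2} (h : IsLowerSet D) : volume (frontier D) = 0 := by
  let e : (Fin 2 → ℝ) ≃ᵐ P2 := MeasurableEquiv.finTwoArrow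
  have he : MeasurePreserving e volume volume := volume_preserving_finTwoArrow ℝ
  have hev : ∀ x : Fin 2 → ℝ, e x = (x 0, x 1) := fun x => rfl
  have hlow : IsLowerSet (e ⁻¹' D) := by
    intro a b hab ha
    rw [mem_preimage, hev] at ha ⊢
    exact h (show ((b 0, b 1) : P2) ≤ (a 0, a 1) from ⟨hab 0, hab 1⟩) ha
  have hsymm : ∀ p : P2, e.symm p = ![p.1, p.2] := by
    intro p
    apply e.injective
    rw [e.apply_symm_apply, hev]
    rfl
  have hc : Continuous (e.symm : P2 → Fin 2 → ℝ) := by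
    rw [show (e.symm : P2 → Fin 2 → ℝ) = fun p => ![p.1, p.2] from funext hsymm]
    fun_prop
  have hsub : frontier D ⊆ e.symm ⁻¹' frontier (e ⁻¹' D) := by
    have := hc.frontier_preimage_subset (e ⁻¹' D)
    rwa [← preimage_comp, show (e : _ → P2) ∘ e.symm = id from funext e.apply_symm_apply,
      preimage_id] at this
  refine measure_mono_null hsub ?_
  rw [he.symm.measure_preimage isClosed_frontier.measurableSet.nullMeasurableSet]
  exact hlow.null_frontier

end Vale.Agent.P232
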