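import Vale.Agent.P232.Meas
import Vale.Agent.P232.Planar

open MeasureTheory Set Filter Topology
open scoped ENNReal

noncomputable section
namespace Vale.Agent.P232

/-! Task B5: outside the two horizontal faces the surface is a cylinder.
On `{x3 < 0}`: `mu3` vanishes, `mu1 = sig1 D ⊗ dz`, `mu2 = sig2 D ⊗ dz` with `D = slice E 0`; by uniqueness
of Radon-Nikodym derivatives `rho x = (rr D (x1,x2), 0)` a.e. there.  Same above `x3 > 1`. -/

variable {E : Set P3}

section Gen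
variable {D : Set P2} {I : Set ℝ}

theorem cyl_meas {G : P3 → ℝ≥0∞} (hG : Measurable G) :
    Measurable (fun p : P2 => ∫⁻ z in I, G (p.1, p.2, z)) :=
  (hG.comp (measurable_fst.fst.prodMk (measurable_fst.snd.prodMk measurable_snd)) :
    Measurable (fun q : P2 × ℝ => G (q.1.1, q.1.2, q.2))).lintegral_prod_right'

theorem cyl_mem (hI : ∀ z ∈ I, P232.slice E z = D) {z : ℝ} (hz : z ∈ I) (x y : ℝ) :
    ((x, y, z) : P3) ∈ E ↔ ((x, y) : P2) ∈ D := by
  rw [← hI z hz]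
  rfl

theorem Adm.cyl_mu1 (h : Adm E) (hD : Adm2 D) (hIm : MeasurableSet I)
    (hI : ∀ z ∈ I, P232.slice E z = D) {G : P3 → ℝ≥0∞} (hG : Measurable G) :
    ∫⁻ x in {x : P3 | x.2.2 ∈ I}, G x ∂(mu1 E)
      = ∫⁻ p, (∫⁻ z in I, G (p.1, p.2, z)) ∂(sig1 D) := by
  have hS : MeasurableSet {x : P3 | x.2.2 ∈ I} := measurable_snd.snd hIm
  have hGi := hG.indicator hS
  have hm1 : Measurable fun a => {x : P3 | x.2.2 ∈ I}.indicator G (cycInv a) :=
    hGi.comp measurable_cycInv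
  have hm2 : Measurable fun a : P2 => ∫⁻ z in I, G ((Prod.swap a).1, (Prod.swap a).2, z) :=
    (cyl_meas hG).comp measurable_swap
  rw [← lintegral_indicator hS]
  unfold mu1 mu3 sig1 sig2
  rw [lintegral_map hGi measurable_cycInv,
    lintegral_map hm1 h.rot.measurable_gr, lintegral_map (cyl_meas hG) measurable_swap,
    lintegral_map hm2 hD.swap.measurable_gr,
    ← lintegral_indicator h.rot.measurableSet_dom, ← lintegral_indicator hD.swap.measurableSet_domy,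
    Measure.volume_eq_prod, lintegral_prod]
  · refine lintegral_congr fun y => ?_
    by_cases hy0 : y ∈ domy (Prod.swap ⁻¹' D)
    · rw [indicator_of_mem hy0, ← lintegral_indicator hIm]
      refine lintegral_congr fun z => ?_
      by_cases hz : z ∈ I
      · have h1 : ((y, z) : P2) ∈ dom (P232.rot E) :=
          ⟨(cyl_mem hI hz 0 y).2 hy0.1, fun h2 => hy0.2 ((cyl_mem hI hz 1 y).1 h2)⟩
        have h2 : hgt (P232.rot E) (y, z) = hy (Prod.swap ⁻¹' D) y := by
          unfold hgt hy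
          congr 2
          ext t
          exact and_congr_right fun _ => cyl_mem hI hz t y
        rw [indicator_of_mem h1, indicator_of_mem hz, indicator_of_mem (by exact hz), h2]
        rfl
      · rw [indicator_of_notMem hz]
        refine indicator_apply_eq_zero.2 fun _ => ?_
        exact indicator_of_notMem (by exact hz) _
    · rw [indicator_of_notMem hy0]
      refine (lintegral_congr fun z => ?_).trans lintegral_zero
      refine indicator_apply_eq_zero.2 fun h1 => ?_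
      refine indicator_of_notMem (fun hz => hy0 ?_) _
      exact ⟨(cyl_mem hI hz 0 y).1 h1.1, fun h2 => h1.2 ((cyl_mem hI hz 1 y).2 h2)⟩
  · exact (((hGi.comp measurable_cycInv).comp h.rot.measurable_gr).indicator
      h.rot.measurableSet_dom).aemeasurable

theorem Adm.cyl_mu2 (h : Adm E) (hD : Adm2 D) (hIm : MeasurableSet I)
    (hI : ∀ z ∈ I, P232.slice E z = D) {G : P3 → ℝ≥0∞} (hG : Measurable G) :
    ∫⁻ x in {x : P3 | x.2.2 ∈ I}, G x ∂(mu2 E)
      = ∫⁻ p, (∫⁻ z in I, G (p.1, p.2, z)) ∂(sig2 D) := by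
  have hS : MeasurableSet {x : P3 | x.2.2 ∈ I} := measurable_snd.snd hIm
  have hGi := hG.indicator hS
  have hm1 : Measurable fun a => {x : P3 | x.2.2 ∈ I}.indicator G (cyc a) :=
    hGi.comp measurable_cyc
  rw [← lintegral_indicator hS]
  unfold mu2 mu3 sig2
  rw [lintegral_map hGi measurable_cyc, lintegral_map hm1 h.rot.rot.measurable_gr,
    lintegral_map (cyl_meas hG) hD.measurable_gr,
    ← lintegral_indicator h.rot.rot.measurableSet_dom, ← lintegral_indicator hD.measurableSet_domy,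
    Measure.volume_eq_prod, lintegral_prod_symm]
  · refine lintegral_congr fun x => ?_
    by_cases hy0 : x ∈ domy D
    · rw [indicator_of_mem hy0, ← lintegral_indicator hIm]
      refine lintegral_congr fun z => ?_
      by_cases hz : z ∈ I
      · have h1 : ((z, x) : P2) ∈ dom (P232.rot (P232.rot E)) :=
          ⟨(cyl_mem hI hz x 0).2 hy0.1, fun h2 => hy0.2 ((cyl_mem hI hz x 1).1 h2)⟩
        have h2 : hgt (P232.rot (P232.rot E)) (z, x) = hy D x := by
          unfold hgt hy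
          congr 2
          ext t
          exact and_congr_right fun _ => cyl_mem hI hz x t
        rw [indicator_of_mem h1, indicator_of_mem hz, indicator_of_mem (by exact hz), h2]
        rfl
      · rw [indicator_of_notMem hz]
        refine indicator_apply_eq_zero.2 fun _ => ?_
        exact indicator_of_notMem (by exact hz) _
    · rw [indicator_of_notMem hy0]
      refine (lintegral_congr fun z => ?_).trans lintegral_zero
      refine indicator_apply_eq_zero.2 fun h1 => ?_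
      refine indicator_of_notMem (fun hz => hy0 ?_) _
      exact ⟨(cyl_mem hI hz x 0).1 h1.1, fun h2 => h1.2 ((cyl_mem hI hz x 1).2 h2)⟩
  · exact (((hGi.comp measurable_cyc).comp h.rot.rot.measurable_gr).indicator
      h.rot.rot.measurableSet_dom).aemeasurable

theorem Adm.cyl_mu3 (h : Adm E) (hIm : MeasurableSet I) (hI' : ∀ z ∈ I, z ∉ Ioc (0 : ℝ) 1)
    (G : P3 → ℝ≥0∞) : ∫⁻ x in {x : P3 | x.2.2 ∈ I}, G x ∂(mu3 E) = 0 := by
  refine setLIntegral_measure_zero _ _ (measure_eq_zero_iff_ae_notMem.2 ?_)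
  refine h.ae_mu3 (P := fun x => x ∉ {x : P3 | x.2.2 ∈ I}) (measurable_snd.snd hIm).compl
    (Eventually.of_forall fun p hp hz => ?_)
  exact hI' _ hz ⟨h.hgt_pos hp.1, hgt_le_one E p⟩

theorem Adm.cyl_nu (h : Adm E) (hD : Adm2 D) (hIm : MeasurableSet I)
    (hI : ∀ z ∈ I, P232.slice E z = D) (hI' : ∀ z ∈ I, z ∉ Ioc (0 : ℝ) 1)
    {G : P3 → ℝ≥0∞} (hG : Measurable G) :
    ∫⁻ x in {x : P3 | x.2.2 ∈ I}, G x ∂(nu E)
      = ∫⁻ p, (∫⁻ z in I, G (p.1, p.2, z)) ∂(sig D) := by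
  unfold nu sig
  rw [Measure.restrict_add, Measure.restrict_add, lintegral_add_measure, lintegral_add_measure,
    lintegral_add_measure, h.cyl_mu1 hD hIm hI hG, h.cyl_mu2 hD hIm hI hG, h.cyl_mu3 hIm hI',
    add_zero]

theorem cyl_rn {μ ν : Measure P3} {σ τ : Measure P2} [SigmaFinite μ] [SigmaFinite ν]
    [SigmaFinite σ] [SigmaFinite τ] (hμ : μ ≪ ν) (hσ : σ ≪ τ) (hIm : MeasurableSet I)
    (h1 : ∀ G : P3 → ℝ≥0∞, Measurable G → ∫⁻ x in {x : P3 | x.2.2 ∈ I}, G x ∂μ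
      = ∫⁻ p, (∫⁻ z in I, G (p.1, p.2, z)) ∂σ)
    (h2 : ∀ G : P3 → ℝ≥0∞, Measurable G → ∫⁻ x in {x : P3 | x.2.2 ∈ I}, G x ∂ν
      = ∫⁻ p, (∫⁻ z in I, G (p.1, p.2, z)) ∂τ) :
    ∀ᵐ x ∂(ν.restrict {x : P3 | x.2.2 ∈ I}), μ.rnDeriv ν x = σ.rnDeriv τ (x.1, x.2.1) := by
  have hS : MeasurableSet {x : P3 | x.2.2 ∈ I} := measurable_snd.snd hIm
  have hπ : Measurable fun x : P3 => σ.rnDeriv τ (x.1, x.2.1) :=
    (Measure.measurable_rnDeriv _ _).comp (measurable_fst.prodMk measurable_snd.fst)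
  refine ae_eq_of_forall_setLIntegral_eq_of_sigmaFinite (Measure.measurable_rnDeriv _ _) hπ
    fun s hs _ => ?_
  have h1s : Measurable (s.indicator fun _ : P3 => (1 : ℝ≥0∞)) := measurable_const.indicator hs
  rw [Measure.restrict_restrict hs, Measure.setLIntegral_rnDeriv hμ, ← Measure.restrict_apply hs,
    ← lintegral_indicator_one hs, ← Measure.restrict_restrict hs, ← lintegral_indicator hs,
    h2 _ (hπ.indicator hs)]
  refine (h1 _ h1s).trans ?_
  rw [← lintegral_rnDeriv_mul hσ (cyl_meas h1s).aemeasurable]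
  refine lintegral_congr fun p => ?_
  have hm : Measurable fun z : ℝ => s.indicator (fun _ : P3 => (1 : ℝ≥0∞)) (p.1, p.2, z) :=
    h1s.comp (measurable_const.prodMk (measurable_const.prodMk measurable_id))
  rw [← lintegral_const_mul _ hm]
  refine lintegral_congr fun z => ?_
  by_cases hz : ((p.1, p.2, z) : P3) ∈ s
  · rw [indicator_of_mem hz, indicator_of_mem hz, mul_one]
  · rw [indicator_of_notMem hz, indicator_of_notMem hz, mul_zero]

theorem Adm.cyl_wt (h : Adm E) (hD : Adm2 D) (hIm : MeasurableSet I)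
    (hI : ∀ z ∈ I, P232.slice E z = D) (hI' : ∀ z ∈ I, z ∉ Ioc (0 : ℝ) 1) :
    ∀ᵐ x ∂((nu E).restrict {x : P3 | x.2.2 ∈ I}), wt E x = ww D (x.1, x.2.1) := by
  have := h.mu1_locFin
  have := h.mu2_locFin
  have := h.nu_locFin
  have := hD.sig1_locFin
  have := hD.sig2_locFin
  have := hD.sig_locFin
  have hS : MeasurableSet {x : P3 | x.2.2 ∈ I} := measurable_snd.snd hIm
  filter_upwards [cyl_rn (mu1_ac E) (sig1_ac D) hIm (fun G hG => h.cyl_mu1 hD hIm hI hG)
      (fun G hG => h.cyl_nu hD hIm hI hI' hG),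
    cyl_rn (mu2_ac E) (sig2_ac D) hIm (fun G hG => h.cyl_mu2 hD hIm hI hG)
      (fun G hG => h.cyl_nu hD hIm hI hI' hG),
    ae_restrict_of_ae h.ae_rho3_eq_zero, ae_restrict_mem hS] with x h1 h2 h3 h4
  have h5 := h3 (hI' _ h4)
  unfold wt nrm ww
  rw [h5]
  unfold rho rr
  rw [h1, h2]
  simp

theorem Adm.cyl_lint (h : Adm E) (hD : Adm2 D) (hIm : MeasurableSet I)
    (hI : ∀ z ∈ I, P232.slice E z = D) (hI' : ∀ z ∈ I, z ∉ Ioc (0 : ℝ) 1)
    {F : P3 → ℝ≥0∞} (hF : Measurable F) :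
    ∫⁻ x in {x : P3 | x.2.2 ∈ I}, F x * ENNReal.ofReal (wt E x) ∂(nu E)
      = ∫⁻ p, (∫⁻ z in I, F (p.1, p.2, z)) * ENNReal.ofReal (ww D p) ∂(sig D) := by
  have hπ : Measurable fun x : P3 => ENNReal.ofReal (ww D (x.1, x.2.1)) :=
    ((measurable_ww D).comp (measurable_fst.prodMk measurable_snd.fst)).ennreal_ofReal
  rw [lintegral_congr_ae (g := fun x => F x * ENNReal.ofReal (ww D (x.1, x.2.1)))
    ((h.cyl_wt hD hIm hI hI').mono fun x hx => by simp only [hx]),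
    h.cyl_nu hD hIm hI hI' (hF.fun_mul hπ)]
  refine lintegral_congr fun p => ?_
  have hm : Measurable fun z : ℝ => F (p.1, p.2, z) :=
    hF.comp (measurable_const.prodMk (measurable_const.prodMk measurable_id))
  exact lintegral_mul_const (ENNReal.ofReal (ww D p)) hm

theorem Adm.cyl_map (h : Adm E) (hD : Adm2 D) (hIm : MeasurableSet I)
    (hI : ∀ z ∈ I, P232.slice E z = D) (hI' : ∀ z ∈ I, z ∉ Ioc (0 : ℝ) 1) :
    (nu E).restrict {x : P3 | x.2.2 ∈ I}
      = ((sig D).prod (volume.restrict I)).map (MeasurableEquiv.prodAssoc : P2 × ℝ ≃ᵐ P3) := by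
  ext s hs
  have h1s : Measurable (s.indicator fun _ : P3 => (1 : ℝ≥0∞)) := measurable_const.indicator hs
  have hm := (MeasurableEquiv.prodAssoc : P2 × ℝ ≃ᵐ P3).measurable
  rw [← lintegral_indicator_one hs, ← lintegral_indicator_one hs]
  refine (h.cyl_nu hD hIm hI hI' h1s).trans ?_
  refine Eq.trans ?_ (lintegral_map h1s hm).symm
  exact (lintegral_prod _ (h1s.comp hm).aemeasurable).symm

theorem Adm.cyl_int (h : Adm E) (hD : Adm2 D) (hIm : MeasurableSet I)
    (hI : ∀ z ∈ I, P232.slice E z = D) (hI' : ∀ z ∈ I, z ∉ Ioc (0 : ℝ) 1)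
    {F : P3 → ℝ} (hF : Measurable F) {M K : ℝ} (hM : ∀ x, |F x| ≤ M)
    (hK : ∀ x : P3, x.2.2 ∈ I → K < |x.2.2| → (x.1, x.2.1) ∈ sqc → F x = 0) :
    ∫ x in {x : P3 | x.2.2 ∈ I ∧ ((x.1, x.2.1) : P2) ∈ sqc}, F x * wt E x ∂(nu E)
      = arc D (fun p => ∫ z in I, F (p.1, p.2, z)) := by
  have := hD.sig_locFin
  have hT : MeasurableSet {x : P3 | ((x.1, x.2.1) : P2) ∈ sqc} :=
    (measurable_fst.prodMk measurable_snd.fst) measurableSet_sqc
  have hm := (MeasurableEquiv.prodAssoc : P2 × ℝ ≃ᵐ P3).measurable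
  have e1 : {x : P3 | x.2.2 ∈ I ∧ ((x.1, x.2.1) : P2) ∈ sqc}
      = {x : P3 | ((x.1, x.2.1) : P2) ∈ sqc} ∩ {x : P3 | x.2.2 ∈ I} := by
    ext x
    exact and_comm
  have e2 : (MeasurableEquiv.prodAssoc : P2 × ℝ ≃ᵐ P3) ⁻¹' {x : P3 | ((x.1, x.2.1) : P2) ∈ sqc}
      = sqc ×ˢ univ := by
    ext q
    exact ⟨fun hq => ⟨hq, trivial⟩, fun hq => hq.1⟩
  have hf : Measurable fun q : P2 × ℝ => F (q.1.1, q.1.2, q.2) * ww D q.1 :=
    (hF.comp hm).mul ((measurable_ww D).comp measurable_fst)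
  have hi : IntegrableOn (fun q : P2 × ℝ => F (q.1.1, q.1.2, q.2) * ww D q.1) (sqc ×ˢ univ)
      ((sig D).prod (volume.restrict I)) := by
    have hJ : MeasurableSet (sqc ×ˢ Icc (-K) K) := measurableSet_sqc.prod measurableSet_Icc
    have hfin : ((sig D).prod (volume.restrict I)) (sqc ×ˢ Icc (-K) K) < ⊤ := by
      rw [Measure.prod_prod]
      exact ENNReal.mul_lt_top hD.sig_sqc_lt_top
        ((Measure.restrict_le_self _).trans_lt measure_Icc_lt_top)
    have h1 : IntegrableOn (fun q : P2 × ℝ => F (q.1.1, q.1.2, q.2) * ww D q.1)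
        (sqc ×ˢ Icc (-K) K) ((sig D).prod (volume.restrict I)) := by
      refine integrableOn_of_bdd hJ hfin hf (M := M) ?_
      filter_upwards [Measure.quasiMeasurePreserving_fst.ae hD.ww_bounds] with q hq _
      rw [abs_mul, abs_of_nonneg (ww_nonneg D q.1)]
      exact (mul_le_of_le_one_right (abs_nonneg _) hq.2).trans (hM _)
    refine h1.of_ae_sdiff_eq_zero (measurableSet_sqc.prod MeasurableSet.univ).nullMeasurableSet ?_
    filter_upwards [Measure.quasiMeasurePreserving_snd.ae (ae_restrict_mem hIm)] with q hq hq'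
    rw [hK (q.1.1, q.1.2, q.2) hq (not_le.1 fun h2 => hq'.2 ⟨hq'.1.1, abs_le.1 h2⟩) hq'.1.1,
      zero_mul]
  rw [e1, ← Measure.restrict_restrict hT,
    integral_congr_ae (g := fun x => F x * ww D (x.1, x.2.1))
      (ae_restrict_of_ae ((h.cyl_wt hD hIm hI hI').mono fun x hx => by simp only [hx])),
    h.cyl_map hD hIm hI hI', (MeasurableEquiv.measurableEmbedding _).setIntegral_map, e2]
  refine (setIntegral_prod _ hi).trans ?_
  unfold arc
  refine integral_congr_ae (Eventually.of_forall fun p => ?_)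
  simp only [Measure.restrict_univ]
  exact integral_mul_const _ _

theorem Adm2.cyl_far (hD : Adm2 D)
    (htr : ∀ x x' : ℝ, 0 < x' → x' < x → (∀ t : ℝ, t < 1 → ((x, t) : P2) ∈ D) → ((x', 1) : P2) ∈ D) :
    ∀ᵐ p ∂(sig2 D), p ∈ sq ↔ p ∈ sqc := by
  have hm : MeasurableSet {p : P2 | p ∈ sq ↔ p ∈ sqc} :=
    (measurableSet_setOfPred.1 measurableSet_sq).iff (measurableSet_setOfPred.1 measurableSet_sqc)
      |> measurableSet_setOfPred.2
  have hs : {x : ℝ | x ∈ domy D ∧ 0 < x ∧ hy D x = 1}.Subsingleton := by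
    intro a ha b hb
    by_contra hne
    rcases lt_or_gt_of_ne hne with h1 | h1
    · exact ha.1.2 (htr b a ha.2.1 h1 fun t ht => (hD.mem_iff_of_domy hb.1 t).2 (hb.2.2 ▸ ht))
    · exact hb.1.2 (htr a b hb.2.1 h1 fun t ht => (hD.mem_iff_of_domy ha.1 t).2 (ha.2.2 ▸ ht))
  refine (ae_map_iff hD.measurable_gr.aemeasurable hm).2
    ((ae_restrict_iff' hD.measurableSet_domy).2 ?_)
  have h0 : ∀ᵐ x : ℝ, x ≠ 1 := by simp [ae_iff]
  filter_upwards [h0, measure_eq_zero_iff_ae_notMem.1 (hs.measure_zero volume)] with x h1 h2 h3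
  refine ⟨fun h4 => sq_subset_sqc h4, fun h4 => ⟨⟨h4.1.1, lt_of_le_of_ne h4.1.2 h1⟩,
    h4.2.1, lt_of_le_of_ne h4.2.2 fun h5 => h2 ⟨h3, h4.1.1, h5⟩⟩⟩

end Gen


theorem Adm.lintegral_below (h : Adm E) {F : P3 → ℝ≥0∞} (hF : Measurable F) :
    ∫⁻ x in {x : P3 | x.2.2 < 0}, F x * ENNReal.ofReal (wt E x) ∂(nu E)
      = ∫⁻ p, (∫⁻ z in Iio (0 : ℝ), F (p.1, p.2, z)) * ENNReal.ofReal (ww (P232.slice E 0) p)
          ∂(sig (P232.slice E 0)) :=
  h.cyl_lint (h.slice 0) measurableSet_Iio (fun _ hz => h.slice_of_nonpos (le_of_lt hz))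
    (fun _ hz hz' => lt_asymm hz hz'.1) hF
theorem Adm.lintegral_above (h : Adm E) {F : P3 → ℝ≥0∞} (hF : Measurable F) :
    ∫⁻ x in {x : P3 | 1 < x.2.2}, F x * ENNReal.ofReal (wt E x) ∂(nu E)
      = ∫⁻ p, (∫⁻ z in Ioi (1 : ℝ), F (p.1, p.2, z)) * ENNReal.ofReal (ww (P232.slice E 1) p)
          ∂(sig (P232.slice E 1)) :=
  h.cyl_lint (h.slice 1) measurableSet_Ioi (fun _ hz => h.slice_of_one_le (le_of_lt hz))
    (fun _ hz hz' => not_le.2 hz hz'.2) hF
/-- Bochner versions for bounded functions vanishing far away -/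
theorem Adm.integral_below (h : Adm E) {F : P3 → ℝ} (hF : Measurable F) {M K : ℝ}
    (hM : ∀ x, |F x| ≤ M) (hK : ∀ x : P3, x.2.2 < -K → (x.1, x.2.1) ∈ sqc → F x = 0) :
    ∫ x in {x : P3 | x.2.2 < 0 ∧ ((x.1, x.2.1) : P2) ∈ sqc}, F x * wt E x ∂(nu E)
      = arc (P232.slice E 0) (fun p => ∫ z in Iio (0 : ℝ), F (p.1, p.2, z)) :=
  h.cyl_int (h.slice 0) measurableSet_Iio (fun _ hz => h.slice_of_nonpos (le_of_lt hz))
    (fun _ hz hz' => lt_asymm hz hz'.1) hF (K := K) hM fun x hx h1 h2 => by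
      rw [abs_of_neg hx] at h1
      exact hK x (by linarith) h2
theorem Adm.integral_above (h : Adm E) {F : P3 → ℝ} (hF : Measurable F) {M K : ℝ}
    (hM : ∀ x, |F x| ≤ M) (hK : ∀ x : P3, K < x.2.2 → (x.1, x.2.1) ∈ sqc → F x = 0) :
    ∫ x in {x : P3 | 1 < x.2.2 ∧ ((x.1, x.2.1) : P2) ∈ sqc}, F x * wt E x ∂(nu E)
      = arc (P232.slice E 1) (fun p => ∫ z in Ioi (1 : ℝ), F (p.1, p.2, z)) :=
  h.cyl_int (h.slice 1) measurableSet_Ioi (fun _ hz => h.slice_of_one_le (le_of_lt hz))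
    (fun _ hz hz' => not_le.2 hz hz'.2) hF (K := K) hM fun x hx h1 h2 => by
      rw [abs_of_pos (zero_lt_one.trans hx)] at h1
      exact hK x h1 h2
/-- the far arc does not run along the edges of the square (trace property) -/
theorem Adm.arcO_far (h : Adm E) (ψ : P2 → ℝ) :
    arcO (P232.slice E 1) ψ = arc (P232.slice E 1) ψ := by
  have hD := h.slice 1
  have h2 : ∀ᵐ p ∂(sig2 (P232.slice E 1)), p ∈ sq ↔ p ∈ sqc :=
    hD.cyl_far fun x x' h0 h1 ht =>
      h.a2.trace 2 x 1 x' one_pos one_lt_two h0 h1 fun t h3 => h.a3.above x t 2 (ht t h3)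
  have h1' : ∀ᵐ p ∂(sig2 (Prod.swap ⁻¹' (P232.slice E 1))), p ∈ sq ↔ p ∈ sqc :=
    hD.swap.cyl_far fun y y' h0 h1 ht =>
      h.a1.trace y 2 y' 1 h0 h1 one_pos one_lt_two fun t h3 => h.a3.above t y 2 (ht t h3)
  have h1 : ∀ᵐ p ∂(sig1 (P232.slice E 1)), p ∈ sq ↔ p ∈ sqc := by
    unfold sig1
    rw [emb_swap.ae_map_iff]
    filter_upwards [h1'] with p hp
    exact ⟨fun h3 => (hp.1 ⟨h3.2, h3.1⟩).symm, fun h3 => (hp.2 ⟨h3.2, h3.1⟩).symm⟩
  exact setIntegral_congr_set (eventuallyEq_set.2 (ae_add_measure_iff.2 ⟨h1, h2⟩))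

end Vale.Agent.P232
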