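import Vale.Agent.P232.Plane
import Vale.Agent.P232.Cyl

open MeasureTheory Set Filter Topology
open scoped ENNReal

noncomputable section
namespace Vale.Agent.P232

/-! Task: far field of the connection.  Points of `out3` have `|u - w| < 1`, of `out1` `|w| < 1`, of `out2` `|u| < 1`, points of `Q` all three;
the six integrals follow from `nu_eq_map`, `integral_below/above` (for `E`, `rot E`, `rot (rot E)` via `integral_rot`) and
translation invariance of `∫ θ`. -/

theorem far_meas3 : MeasurableSet out3 :=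
  MeasurableSet.inter (s₁ := {x : P3 | x.2.2 < 0} ∪ {x : P3 | 1 < x.2.2})
    ((measurableSet_lt (by fun_prop) measurable_const).union
      (measurableSet_lt measurable_const (by fun_prop)))
    (measurableSet_sqc.preimage (by fun_prop : Measurable fun x : P3 => ((x.1, x.2.1) : P2)))

theorem far_meas1 : MeasurableSet out1 := far_meas3.preimage cycE.measurable
theorem far_meas2 : MeasurableSet out2 := far_meas3.preimage cycE.symm.measurable

theorem far_out3 {x : P3} (hx : x ∈ out3) : pl x ∈ strip3 := by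
  obtain ⟨-, ⟨h1, h2⟩, h3, h4⟩ := hx
  change |x.1 - x.2.2 - (x.2.1 - x.2.2)| < 1
  exact abs_lt.2 ⟨by linarith, by linarith⟩

theorem far_out1 {x : P3} (hx : x ∈ out1) : pl x ∈ strip1 := by
  obtain ⟨-, ⟨h1, h2⟩, h3, h4⟩ := hx
  simp only [cyc] at h1 h2 h3 h4
  change |x.2.1 - x.2.2| < 1
  exact abs_lt.2 ⟨by linarith, by linarith⟩

theorem far_out2 {x : P3} (hx : x ∈ out2) : pl x ∈ strip2 := by
  obtain ⟨-, ⟨h1, h2⟩, h3, h4⟩ := hx
  simp only [cycInv] at h1 h2 h3 h4
  change |x.1 - x.2.2| < 1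
  exact abs_lt.2 ⟨by linarith, by linarith⟩

theorem far_disj {p : P2} (hp : 2 ≤ |p.1| ∨ 2 ≤ |p.2|) :
    ¬ (p ∈ strip1 ∧ p ∈ strip2) ∧ ¬ (p ∈ strip1 ∧ p ∈ strip3) ∧ ¬ (p ∈ strip2 ∧ p ∈ strip3) := by
  simp only [strip1, strip2, strip3, mem_ofPred_eq, abs_lt]
  refine ⟨fun h => ?_, fun h => ?_, fun h => ?_⟩ <;>
    rcases hp with hp | hp <;> rcases le_abs'.1 hp with hp | hp <;> linarith [h.1.1, h.1.2, h.2.1, h.2.2]

theorem far_notQ {x : P3} (hp : 2 ≤ |(pl x).1| ∨ 2 ≤ |(pl x).2|) : x ∉ Q := by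
  rintro ⟨⟨h1, h2⟩, ⟨h3, h4⟩, h5, h6⟩
  simp only [pl] at hp
  rcases hp with hp | hp <;> rcases le_abs'.1 hp with hp | hp <;> linarith

theorem far_ind {V : Type*} [Zero V] {E : Set P3} {S : Set P2} {O : Set P3} {p : P2}
    (g : ℝ → V) (g0 : g 0 = 0) (hO : ∀ x ∈ O, pl x ∈ S) (hsub : O ⊆ out1 ∪ out2 ∪ out3)
    (hp : p ∈ S → Sf E p ∈ out1 ∪ out2 ∪ out3 → Sf E p ∈ O) :
    S.indicator (fun p => g (kk E (Sf E p))) p = O.indicator (fun x => g (wt E x)) (Sf E p) := by
  by_cases hx : Sf E p ∈ O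
  · rw [indicator_of_mem hx, indicator_of_mem (pl_Sf E p ▸ hO _ hx), kk, indicator_of_mem (hsub hx)]
  · rw [indicator_of_notMem hx]
    by_cases hS : p ∈ S
    · rw [indicator_of_mem hS, kk, indicator_of_notMem fun h => hx (hp hS h), g0]
    · exact indicator_of_notMem hS _

theorem far_ind1 {V : Type*} [Zero V] (E : Set P3) {p : P2} (hp : 2 ≤ |p.1| ∨ 2 ≤ |p.2|)
    (g : ℝ → V) (g0 : g 0 = 0) :
    strip1.indicator (fun p => g (kk E (Sf E p))) p =
      out1.indicator (fun x => g (wt E x)) (Sf E p) := by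
  refine far_ind g g0 (fun _ => far_out1) (subset_union_left.trans subset_union_left) ?_
  rintro hS ((h | h) | h)
  · exact h
  · exact ((far_disj hp).1 ⟨hS, pl_Sf E p ▸ far_out2 h⟩).elim
  · exact ((far_disj hp).2.1 ⟨hS, pl_Sf E p ▸ far_out3 h⟩).elim

theorem far_ind2 {V : Type*} [Zero V] (E : Set P3) {p : P2} (hp : 2 ≤ |p.1| ∨ 2 ≤ |p.2|)
    (g : ℝ → V) (g0 : g 0 = 0) :
    strip2.indicator (fun p => g (kk E (Sf E p))) p =
      out2.indicator (fun x => g (wt E x)) (Sf E p) := by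
  refine far_ind g g0 (fun _ => far_out2) (subset_union_right.trans subset_union_left) ?_
  rintro hS ((h | h) | h)
  · exact ((far_disj hp).1 ⟨pl_Sf E p ▸ far_out1 h, hS⟩).elim
  · exact h
  · exact ((far_disj hp).2.2 ⟨hS, pl_Sf E p ▸ far_out3 h⟩).elim

theorem far_ind3 {V : Type*} [Zero V] (E : Set P3) {p : P2} (hp : 2 ≤ |p.1| ∨ 2 ≤ |p.2|)
    (g : ℝ → V) (g0 : g 0 = 0) :
    strip3.indicator (fun p => g (kk E (Sf E p))) p =
      out3.indicator (fun x => g (wt E x)) (Sf E p) := by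
  refine far_ind g g0 (fun _ => far_out3) subset_union_right ?_
  rintro hS ((h | h) | h)
  · exact ((far_disj hp).2.1 ⟨pl_Sf E p ▸ far_out1 h, hS⟩).elim
  · exact ((far_disj hp).2.2 ⟨pl_Sf E p ▸ far_out2 h, hS⟩).elim
  · exact h

/-- transport of a strip integral to the surface -/
theorem Adm.far_strip {E : Set P3} (h : Adm E) (h0 : ((0, 0, 0) : P3) ∈ E)
    (h1 : ((1, 1, 1) : P3) ∉ E) {S : Set P2} {O : Set P3} (hS : MeasurableSet S)
    (hO : MeasurableSet O) {f : P2 → ℝ} (hf : Continuous f)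
    (hSO : ∀ p, f p ≠ 0 → S.indicator (fun p => kk E (Sf E p)) p = O.indicator (wt E) (Sf E p)) :
    ∫ p in S, f p * kk E (Sf E p) = ∫ x in O, f (pl x) * wt E x ∂(nu E) := by
  have hm : Measurable fun x : P3 => f (pl x) * wt E x :=
    (hf.measurable.comp (by unfold pl; fun_prop)).mul (measurable_wt E)
  rw [← integral_indicator hS, ← integral_indicator hO, h.nu_eq_map h0 h1,
    integral_map (h.continuous_Sf h0 h1).aemeasurable (hm.indicator hO).aestronglyMeasurable]
  refine integral_congr_ae (Eventually.of_forall fun p => ?_)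
  dsimp only
  rw [indicator_mul_right S f (fun p => kk E (Sf E p)),
    indicator_mul_right O (fun x => f (pl x)) (wt E), pl_Sf]
  by_cases hp : f p = 0
  · rw [hp, zero_mul, zero_mul]
  · rw [hSO p hp]

theorem far_arc (D : Set P2) {ψ : P2 → ℝ} {c : ℝ} (h : ∀ p ∈ sqc, ψ p = c) : arc D ψ = c * len D := by
  rw [len, ← arc_smul]
  exact setIntegral_congr_fun measurableSet_sqc fun p hp => by simp only [h p hp, mul_one]

theorem Adm.far_end {E : Set P3} (h : Adm E) {a : P2 → ℝ} (ha : Continuous a)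
    (ha1 : ∀ p ∈ sqc, 0 < a p ∧ a p ≤ 1) {θ : ℝ → ℝ} (hθ : Continuous θ)
    (hc : HasCompactSupport θ) :
    ((∀ t, θ t ≠ 0 → 3 < t) →
      ∫ x in out3, θ (x.2.2 - a (x.1, x.2.1)) * wt E x ∂(nu E) = (∫ t, θ t) * ll E) ∧
    ((∀ t, θ t ≠ 0 → t < -3) →
      ∫ x in out3, θ (x.2.2 - a (x.1, x.2.1)) * wt E x ∂(nu E) = (∫ t, θ t) * LL E) := by
  obtain ⟨M, hM⟩ := hθ.bounded_above_of_compact_support hc
  obtain ⟨K, hK⟩ := hc.isCompact.isBounded.subset_closedBall 0
  have hK' : ∀ t, K < |t| → θ t = 0 := fun t ht => by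
    by_contra hn
    have := hK (subset_tsupport _ hn)
    rw [mem_closedBall_zero_iff, Real.norm_eq_abs] at this
    exact absurd ht (not_lt.2 this)
  have hm : Measurable fun x : P3 => θ (x.2.2 - a (x.1, x.2.1)) := by fun_prop
  refine ⟨fun ht => ?_, fun ht => ?_⟩
  · rw [setIntegral_eq_of_subset_of_forall_sdiff_eq_zero far_meas3
      (s := {x : P3 | 1 < x.2.2 ∧ ((x.1, x.2.1) : P2) ∈ sqc}) (fun x hx => ⟨Or.inr hx.1, hx.2⟩),
      h.integral_above hm (K := K + 1) (fun _ => hM _), ll]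
    · refine far_arc _ fun p hp => ?_
      change ∫ z in _, θ (z - a p) = _
      rw [setIntegral_eq_integral_of_forall_compl_eq_zero, integral_sub_right_eq_self θ]
      intro z hz
      by_contra hn
      exact hz (by linarith [ht _ hn, (ha1 p hp).1] : 1 < z)
    · intro x hx hp
      exact hK' _ (lt_of_lt_of_le (by linarith [(ha1 _ hp).2]) (le_abs_self _))
    · rintro x ⟨⟨-, hp⟩, hx⟩
      refine mul_eq_zero_of_left (by_contra fun hn => hx ⟨?_, hp⟩) _
      linarith [ht _ hn, (ha1 _ hp).1]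
  · rw [setIntegral_eq_of_subset_of_forall_sdiff_eq_zero far_meas3
      (s := {x : P3 | x.2.2 < 0 ∧ ((x.1, x.2.1) : P2) ∈ sqc}) (fun x hx => ⟨Or.inl hx.1, hx.2⟩),
      h.integral_below hm (K := K) (fun _ => hM _), LL]
    · refine far_arc _ fun p hp => ?_
      change ∫ z in _, θ (z - a p) = _
      rw [setIntegral_eq_integral_of_forall_compl_eq_zero, integral_sub_right_eq_self θ]
      intro z hz
      by_contra hn
      exact hz (by linarith [ht _ hn, (ha1 p hp).2] : z < 0)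
    · intro x hx hp
      exact hK' _ (lt_of_lt_of_le (by linarith [(ha1 _ hp).1]) (neg_le_abs _))
    · rintro x ⟨⟨-, hp⟩, hx⟩
      refine mul_eq_zero_of_left (by_contra fun hn => hx ⟨?_, hp⟩) _
      linarith [ht _ hn, (ha1 _ hp).2]

theorem Adm.far_rot {E : Set P3} (h : Adm E) {f : P3 → ℝ} (hf : Continuous f) {s : Set P3}
    (hs : MeasurableSet s) :
    ∫ x in cyc ⁻¹' s, f (cyc x) * wt E x ∂(nu E) =
      ∫ y in s, f y * wt (P232.rot E) y ∂(nu (P232.rot E)) := by
  have := h.integral_rot (fun y r => f y * nrm r)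
    ((hf.comp continuous_fst).mul (continuous_nrm.comp continuous_snd)).measurable hs
  simp only [nrm_cyc] at this
  exact this.symm

theorem Adm.farField {E : Set P3} (h : Adm E) (h0 : ((0, 0, 0) : P3) ∈ E) (h1 : ((1, 1, 1) : P3) ∉ E) :
    FarField (fun p => etaU E (Sf E p)) (fun p => etaW E (Sf E p)) (fun p => kk E (Sf E p))
      (LL (P232.rot E)) (ll (P232.rot E)) (LL (P232.rot (P232.rot E))) (ll (P232.rot (P232.rot E)))
      (LL E) (ll E) := by
  have hS := h.continuous_Sf h0 h1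
  refine ⟨((measurable_wt E).indicator ((far_meas1.union far_meas2).union far_meas3)).comp
    hS.measurable, ⟨1, ?_⟩, Eventually.of_forall fun p hp => ?_, fun θ hθ hc => ?_⟩
  · have hb := h.wt_bounds
    rw [h.nu_eq_map h0 h1] at hb
    filter_upwards [ae_of_ae_map hS.aemeasurable hb] with p hp
    rw [kk]
    by_cases hx : Sf E p ∈ out1 ∪ out2 ∪ out3
    · rw [indicator_of_mem hx]
      exact abs_le.2 ⟨by linarith [hp.1], hp.2⟩
    · rw [indicator_of_notMem hx, abs_zero]
      exact zero_le_one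
  · have hQ : Sf E p ∉ Q := far_notQ (by rwa [pl_Sf])
    rw [far_ind1 E hp (· • e1) (zero_smul _ _), far_ind2 E hp (· • e2) (zero_smul _ _),
      far_ind3 E hp (· • e3) (zero_smul _ _), etaU, etaW, indicator_of_notMem hQ,
      indicator_of_notMem hQ, zero_add, zero_add]
    exact ⟨rfl, rfl⟩
  have key : (∀ t, θ t ≠ 0 → 2 ≤ |t|) →
      (∫ p in strip1, θ p.1 * kk E (Sf E p) =
        ∫ x in out3, θ (x.2.2 - (x.1, x.2.1).2) * wt (P232.rot E) x ∂(nu (P232.rot E))) ∧
      (∫ p in strip2, θ p.2 * kk E (Sf E p) =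
        ∫ x in out3, θ (x.2.2 - (x.1, x.2.1).1) * wt (P232.rot (P232.rot E)) x
          ∂(nu (P232.rot (P232.rot E)))) ∧
      (∫ p in strip3, θ p.1 * kk E (Sf E p) =
        ∫ x in out3, θ (-(x.2.2 - (x.1, x.2.1).1)) * wt E x ∂(nu E)) := fun ht => by
    refine ⟨?_, ?_, ?_⟩
    · rw [h.far_strip h0 h1 (S := strip1) (measurableSet_lt (by fun_prop) measurable_const) far_meas1
        (f := fun p => θ p.1) (by fun_prop) fun p hp => far_ind1 E (Or.inl (ht _ hp)) id rfl]
      exact h.far_rot (f := fun y => θ (y.2.2 - y.2.1)) (by fun_prop) far_meas3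
    · rw [h.far_strip h0 h1 (S := strip2) (measurableSet_lt (by fun_prop) measurable_const) far_meas2
        (f := fun p => θ p.2) (by fun_prop) fun p hp => far_ind2 E (Or.inr (ht _ hp)) id rfl]
      exact (h.far_rot (f := fun y => θ (y.1 - y.2.1)) (by fun_prop) far_meas1).trans
        (h.rot.far_rot (f := fun y => θ (y.2.2 - y.1)) (by fun_prop) far_meas3)
    · rw [h.far_strip h0 h1 (S := strip3) (measurableSet_lt (by fun_prop) measurable_const) far_meas3
        (f := fun p => θ p.1) (by fun_prop) fun p hp => far_ind3 E (Or.inl (ht _ hp)) id rfl]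
      simp only [pl, neg_sub]
  have e1 := h.rot.far_end continuous_snd (fun p hp => hp.2) hθ hc
  have e2 := h.rot.rot.far_end continuous_fst (fun p hp => hp.1) hθ hc
  have e3 := h.far_end continuous_fst (fun p hp => hp.1) (θ := fun t => θ (-t)) (by fun_prop)
    (hc.comp_homeomorph (Homeomorph.neg ℝ))
  rw [integral_neg_eq_self] at e3
  refine ⟨fun hs => ?_, fun hs => ?_⟩
  · have ht : ∀ t, θ t ≠ 0 → 3 < t := fun t hn => hs (subset_tsupport _ hn)
    obtain ⟨k1, k2, k3⟩ := key fun t hn => le_trans (by linarith [ht t hn]) (le_abs_self t)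
    exact ⟨k1.trans (e1.1 ht), k2.trans (e2.1 ht),
      k3.trans (e3.2 fun t hn => by linarith [ht _ hn])⟩
  · have ht : ∀ t, θ t ≠ 0 → t < -3 := fun t hn => hs (subset_tsupport _ hn)
    obtain ⟨k1, k2, k3⟩ := key fun t hn => le_trans (by linarith [ht t hn]) (neg_le_abs t)
    exact ⟨k1.trans (e1.2 ht), k2.trans (e2.2 ht),
      k3.trans (e3.1 fun t hn => by linarith [ht _ hn])⟩

end Vale.Agent.P232
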