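import Vale.Agent.P232.Basic

open MeasureTheory Set Filter Topology
open scoped ENNReal

noncomputable section
namespace Vale.Agent.P232

/-! Task: mollification of a weakly flat bounded connection.  `mol δ η = ρ_δ * η` with the product kernel
`ρ_δ(u) ρ_δ(w)`; testing `WeakFlat` with `χ = ρ_δ(p - ·)` gives `∂₁ η₂^δ - ∂₂ η₁^δ = h (η₁ × η₂)^δ` pointwise, and
`η^δ → η` a.e. and boundedly. -/

/-- normalised bump of radius `1/(n+2)` on the line -/
def bump (n : ℕ) : ContDiffBump (0 : ℝ) :=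
  ⟨1 / (2 * ((n : ℝ) + 2)), 1 / ((n : ℝ) + 2), by positivity,
    by apply one_div_lt_one_div_of_lt <;> [positivity; linarith [Nat.cast_nonneg (α := ℝ) n]]⟩
def ker (n : ℕ) (t : ℝ) : ℝ := (bump n).normed volume t
def mol (n : ℕ) (η : P2 → P3) (p : P2) : P3 := ∫ q : P2, (ker n (p.1 - q.1) * ker n (p.2 - q.2)) • η q

/-- the product kernel -/
def ker2 (n : ℕ) (p : P2) : ℝ := ker n p.1 * ker n p.2

theorem ker_nonneg (n : ℕ) (t : ℝ) : 0 ≤ ker n t := (bump n).nonneg_normed t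

theorem ker2_nonneg (n : ℕ) (p : P2) : 0 ≤ ker2 n p := mul_nonneg (ker_nonneg _ _) (ker_nonneg _ _)

theorem ker_contDiff (n : ℕ) : ContDiff ℝ 2 (ker n) := (bump n).contDiff_normed

theorem ker2_contDiff (n : ℕ) : ContDiff ℝ 2 (ker2 n) :=
  ((ker_contDiff n).comp contDiff_fst).mul ((ker_contDiff n).comp contDiff_snd)

theorem abs_lt_of_ker_ne {n : ℕ} {t : ℝ} (h : ker n t ≠ 0) : |t| < 1 / ((n : ℝ) + 2) := by
  have : t ∈ Function.support ((bump n).normed volume) := h
  rw [ContDiffBump.support_normed_eq] at this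
  simpa [bump] using this

theorem support_ker2 (n : ℕ) :
    Function.support (ker2 n) ⊆ Metric.closedBall (0 : P2) (1 / ((n : ℝ) + 2)) := by
  intro p hp
  have hp' : ker n p.1 * ker n p.2 ≠ 0 := hp
  have h1 := abs_lt_of_ker_ne (left_ne_zero_of_mul hp')
  have h2 := abs_lt_of_ker_ne (right_ne_zero_of_mul hp')
  rw [mem_closedBall_zero_iff, Prod.norm_def, Real.norm_eq_abs, Real.norm_eq_abs]
  exact max_le h1.le h2.le

theorem ker2_hasCompactSupport (n : ℕ) : HasCompactSupport (ker2 n) :=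
  HasCompactSupport.of_support_subset_isCompact (isCompact_closedBall _ _) (support_ker2 n)

theorem integral_ker2 (n : ℕ) : ∫ p, ker2 n p = 1 := by
  unfold ker2
  rw [Measure.volume_eq_prod, integral_prod_mul]
  have : ∫ t, ker n t = 1 := (bump n).integral_normed
  rw [this, one_mul]

theorem integral_ker2_sub (n : ℕ) (p : P2) : ∫ q, ker2 n (p - q) = 1 := by
  rw [integral_sub_left_eq_self (ker2 n) volume p, integral_ker2]

theorem integrable_ker2_sub (n : ℕ) (p : P2) : Integrable (fun q => ker2 n (p - q)) :=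
  ((ker2_contDiff n).continuous.integrable_of_hasCompactSupport
    (ker2_hasCompactSupport n)).comp_sub_left p

theorem ker_le (n : ℕ) (t : ℝ) : ker n t ≤ (n : ℝ) + 2 := by
  have hn : (0 : ℝ) < (n : ℝ) + 2 := by positivity
  have h := (bump n).normed_le_div_measure_closedBall_rOut volume 2
    (by simp only [bump]; field_simp; rfl) t
  have h2 : (volume : Measure ℝ).real (Metric.closedBall (0 : ℝ) (bump n).rOut) =
      2 / ((n : ℝ) + 2) := by
    rw [Measure.real, Real.volume_closedBall, ENNReal.toReal_ofReal (by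
      have := (bump n).rOut_pos; positivity)]
    simp only [bump]
    ring
  rw [h2, Module.finrank_self] at h
  calc ker n t ≤ 2 ^ 1 / (2 / ((n : ℝ) + 2)) := h
    _ = (n : ℝ) + 2 := by field_simp

theorem ker2_le (n : ℕ) (p : P2) : ker2 n p ≤ ((n : ℝ) + 2) ^ 2 := by
  unfold ker2
  rw [pow_two]
  exact mul_le_mul (ker_le n _) (ker_le n _) (ker_nonneg _ _) (by positivity)

theorem locInt_of_bdd {η : P2 → P3} (hη : Measurable η) {M : ℝ} (hM : ∀ᵐ p : P2, ‖η p‖ ≤ M) :
    LocallyIntegrable η volume := by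
  rw [locallyIntegrable_iff]
  intro k hk
  exact Measure.integrableOn_of_bounded (M := M) hk.measure_lt_top.ne hη.aestronglyMeasurable
    (ae_restrict_of_ae hM)

theorem mol_eq_conv (n : ℕ) (η : P2 → P3) :
    mol n η = convolution η (ker2 n) (ContinuousLinearMap.lsmul ℝ ℝ).flip volume := rfl

theorem mol_apply (n : ℕ) (η : P2 → P3) (p : P2) : mol n η p = ∫ q, ker2 n (p - q) • η q := rfl

theorem mol_contDiff {η : P2 → P3} (hη : Measurable η) {M : ℝ} (hM : ∀ᵐ p : P2, ‖η p‖ ≤ M) (n : ℕ) :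
    ContDiff ℝ 1 (mol n η) := by
  rw [mol_eq_conv]
  exact (ker2_hasCompactSupport n).contDiff_convolution_right _ (locInt_of_bdd hη hM)
    ((ker2_contDiff n).of_le (by norm_num))

theorem norm_mol_le {η : P2 → P3} (hη : Measurable η) {M : ℝ} (hM : ∀ᵐ p : P2, ‖η p‖ ≤ M) (n : ℕ)
    (p : P2) : ‖mol n η p‖ ≤ M := by
  have _h := hη
  rw [mol_apply]
  have h1 : ∫ q, ker2 n (p - q) * M = M := by
    rw [integral_mul_const, integral_ker2_sub, one_mul]
  rw [← h1]
  refine norm_integral_le_of_norm_le ((integrable_ker2_sub n p).mul_const M) ?_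
  filter_upwards [hM] with q hq
  rw [norm_smul, Real.norm_of_nonneg (ker2_nonneg _ _)]
  exact mul_le_mul_of_nonneg_left hq (ker2_nonneg _ _)

theorem fderiv_mol {η : P2 → P3} (hη : Measurable η) {M : ℝ} (hM : ∀ᵐ p : P2, ‖η p‖ ≤ M) (n : ℕ)
    (p v : P2) : fderiv ℝ (mol n η) p v = ∫ q, fderiv ℝ (ker2 n) (p - q) v • η q := by
  have hK : ContDiff ℝ 1 (ker2 n) := (ker2_contDiff n).of_le (by norm_num)
  rw [mol_eq_conv, ((ker2_hasCompactSupport n).hasFDerivAt_convolution_right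
    (ContinuousLinearMap.lsmul ℝ ℝ).flip (locInt_of_bdd hη hM) hK p).fderiv,
    convolution_precompR_apply _ (locInt_of_bdd hη hM) ((ker2_hasCompactSupport n).fderiv ℝ)
      (hK.continuous_fderiv one_ne_zero)]
  rfl

theorem integrable_dker_smul {η : P2 → P3} (hη : Measurable η) {M : ℝ}
    (hM : ∀ᵐ p : P2, ‖η p‖ ≤ M) (n : ℕ) (p v : P2) :
    Integrable (fun q => fderiv ℝ (ker2 n) (p - q) v • η q) := by
  have hK : ContDiff ℝ 1 (ker2 n) := (ker2_contDiff n).of_le (by norm_num)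
  have hc : Continuous (fun q => fderiv ℝ (ker2 n) q v) :=
    (hK.continuous_fderiv one_ne_zero).clm_apply continuous_const
  have hs : HasCompactSupport (fun q => fderiv ℝ (ker2 n) q v) :=
    (ker2_hasCompactSupport n).fderiv_apply ℝ v
  exact hs.convolutionExists_right (ContinuousLinearMap.lsmul ℝ ℝ).flip (locInt_of_bdd hη hM) hc p

theorem mol_curv_eq {η₁ η₂ : P2 → P3} (h₁ : Measurable η₁) (h₂ : Measurable η₂) {M : ℝ}
    (hM₁ : ∀ᵐ p : P2, ‖η₁ p‖ ≤ M) (hM₂ : ∀ᵐ p : P2, ‖η₂ p‖ ≤ M) {h : ℝ} (hf : WeakFlat η₁ η₂ h)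
    (n : ℕ) (p : P2) :
    fderiv ℝ (mol n η₂) p (1, 0) - fderiv ℝ (mol n η₁) p (0, 1)
      = h • mol n (fun q => cross (η₁ q) (η₂ q)) p := by
  have hc : ContDiff ℝ 2 (fun q : P2 => ker2 n (p - q)) :=
    (ker2_contDiff n).comp (contDiff_const.sub contDiff_id)
  have hs : HasCompactSupport (fun q : P2 => ker2 n (p - q)) :=
    (ker2_hasCompactSupport n).comp_homeomorph (Homeomorph.subLeft p)
  have hd : ∀ q v : P2, fderiv ℝ (fun q : P2 => ker2 n (p - q)) q v
      = -fderiv ℝ (ker2 n) (p - q) v := by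
    intro q v
    have h1 : HasFDerivAt (ker2 n) (fderiv ℝ (ker2 n) (p - q)) (p - q) :=
      (((ker2_contDiff n).differentiable (by norm_num)) _).hasFDerivAt
    have h2 : HasFDerivAt (fun q : P2 => p - q) (-ContinuousLinearMap.id ℝ P2) q :=
      (hasFDerivAt_id q).const_sub p
    have h3 : HasFDerivAt (fun q : P2 => ker2 n (p - q)) _ q := h1.comp q h2
    rw [h3.fderiv]
    simp
  have key := hf _ hc hs
  rw [mol_apply, ← key, fderiv_mol h₂ hM₂, fderiv_mol h₁ hM₁,
    ← integral_sub (integrable_dker_smul h₂ hM₂ n p _) (integrable_dker_smul h₁ hM₁ n p _)]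
  congr 1
  ext1 q
  rw [hd, hd, neg_smul, neg_smul]
  abel

theorem mol_tendsto_ae {η : P2 → P3} (hη : Measurable η) {M : ℝ} (hM : ∀ᵐ p : P2, ‖η p‖ ≤ M) :
    ∀ᵐ p : P2, Tendsto (fun n => mol n η p) atTop (𝓝 (η p)) := by
  have hg := locInt_of_bdd hη hM
  filter_upwards [(Besicovitch.vitaliFamily (volume : Measure P2)).ae_tendsto_average_norm_sub hg]
    with x₀ h₀
  have hr : Tendsto (fun n : ℕ => 1 / ((n : ℝ) + 2)) atTop (𝓝[>] 0) := by
    refine tendsto_nhdsWithin_iff.2 ⟨?_, Eventually.of_forall (fun n => ?_)⟩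
    · refine tendsto_const_nhds.div_atTop ?_
      exact tendsto_atTop_add_const_right _ _ tendsto_natCast_atTop_atTop
    · show 0 < 1 / ((n : ℝ) + 2)
      positivity
  have := (h₀.comp (Besicovitch.tendsto_filterAt volume x₀)).comp hr
  simp only [mol_apply]
  apply tendsto_integral_smul_of_tendsto_average_norm_sub 4 this
  · filter_upwards with i using hg.integrableOn_isCompact (isCompact_closedBall _ _)
  · simp only [integral_ker2_sub]
    exact tendsto_const_nhds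
  · filter_upwards with i
    intro q hq
    have := support_ker2 i (show x₀ - q ∈ Function.support (ker2 i) from hq)
    rw [mem_closedBall_zero_iff] at this
    rw [Metric.mem_closedBall, dist_eq_norm_sub']
    exact this
  · filter_upwards with i q
    rw [abs_of_nonneg (ker2_nonneg _ _)]
    have hi : (0 : ℝ) < (i : ℝ) + 2 := by positivity
    have hv : (volume : Measure P2).real (Metric.closedBall x₀ (1 / ((i : ℝ) + 2))) =
        4 / ((i : ℝ) + 2) ^ 2 := by
      rw [Measure.real, ← closedBall_prod_same, Measure.volume_eq_prod, Measure.prod_prod,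
        Real.volume_closedBall, Real.volume_closedBall, ← ENNReal.ofReal_mul (by positivity),
        ENNReal.toReal_ofReal (by positivity)]
      field_simp
      ring
    rw [hv]
    calc ker2 i (x₀ - q) ≤ ((i : ℝ) + 2) ^ 2 := ker2_le _ _
      _ = 4 / (4 / ((i : ℝ) + 2) ^ 2) := by field_simp

theorem continuous_cross2 : Continuous (fun z : P3 × P3 => cross z.1 z.2) := by
  unfold cross
  fun_prop

theorem norm_cross_le2 (x y : P3) : ‖cross x y‖ ≤ 2 * (‖x‖ * ‖y‖) := by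
  have key : ∀ a b c d : ℝ, |a| ≤ ‖x‖ → |b| ≤ ‖y‖ → |c| ≤ ‖x‖ → |d| ≤ ‖y‖ →
      |a * b - c * d| ≤ 2 * (‖x‖ * ‖y‖) := by
    intro a b c d ha hb hc hd
    have h1 : |a * b| ≤ ‖x‖ * ‖y‖ := by
      rw [abs_mul]; exact mul_le_mul ha hb (abs_nonneg _) (norm_nonneg _)
    have h2 : |c * d| ≤ ‖x‖ * ‖y‖ := by
      rw [abs_mul]; exact mul_le_mul hc hd (abs_nonneg _) (norm_nonneg _)
    have h3 := abs_sub (a * b) (c * d)
    linarith
  have c1 : ∀ z : P3, |z.1| ≤ ‖z‖ := fun z => norm_fst_le z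
  have c2 : ∀ z : P3, |z.2.1| ≤ ‖z‖ := fun z => (norm_fst_le z.2).trans (norm_snd_le z)
  have c3 : ∀ z : P3, |z.2.2| ≤ ‖z‖ := fun z => (norm_snd_le z.2).trans (norm_snd_le z)
  unfold cross
  rw [Prod.norm_def, Prod.norm_def]
  refine max_le ?_ (max_le ?_ ?_)
  · exact key _ _ _ _ (c2 x) (c3 y) (c3 x) (c2 y)
  · exact key _ _ _ _ (c3 x) (c1 y) (c1 x) (c3 y)
  · exact key _ _ _ _ (c1 x) (c2 y) (c2 x) (c1 y)

theorem mol_curv_tendsto {η₁ η₂ : P2 → P3} (h₁ : Measurable η₁) (h₂ : Measurable η₂) {M : ℝ}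
    (hM₁ : ∀ᵐ p : P2, ‖η₁ p‖ ≤ M) (hM₂ : ∀ᵐ p : P2, ‖η₂ p‖ ≤ M) {h : ℝ} (hf : WeakFlat η₁ η₂ h)
    (u₀ u₁ w₀ w₁ : ℝ) :
    Tendsto (fun n => ∫ p in Ioo u₀ u₁ ×ˢ Ioo w₀ w₁,
      ‖fderiv ℝ (mol n η₂) p (1, 0) - fderiv ℝ (mol n η₁) p (0, 1)
        - h • cross (mol n η₁ p) (mol n η₂ p)‖) atTop (𝓝 0) := by
  have hcm : Measurable (fun q => cross (η₁ q) (η₂ q)) :=
    continuous_cross2.measurable.comp (h₁.prodMk h₂)
  have bnd : ∀ x y : P3, ‖x‖ ≤ M → ‖y‖ ≤ M → ‖cross x y‖ ≤ 2 * (M * M) := by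
    intro x y hx hy
    have := mul_le_mul hx hy (norm_nonneg _) ((norm_nonneg _).trans hx)
    linarith [norm_cross_le2 x y]
  have hcM : ∀ᵐ p : P2, ‖cross (η₁ p) (η₂ p)‖ ≤ 2 * (M * M) := by
    filter_upwards [hM₁, hM₂] with p h1 h2 using bnd _ _ h1 h2
  simp only [mol_curv_eq h₁ h₂ hM₁ hM₂ hf]
  have hfin : volume (Ioo u₀ u₁ ×ˢ Ioo w₀ w₁) < ∞ := by
    rw [Measure.volume_eq_prod, Measure.prod_prod]
    exact ENNReal.mul_lt_top measure_Ioo_lt_top measure_Ioo_lt_top
  have : IsFiniteMeasure ((volume : Measure P2).restrict (Ioo u₀ u₁ ×ˢ Ioo w₀ w₁)) :=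
    isFiniteMeasure_restrict.2 hfin.ne
  have lim := tendsto_integral_of_dominated_convergence
    (μ := (volume : Measure P2).restrict (Ioo u₀ u₁ ×ˢ Ioo w₀ w₁))
    (F := fun n p => ‖h • mol n (fun q => cross (η₁ q) (η₂ q)) p
      - h • cross (mol n η₁ p) (mol n η₂ p)‖) (f := fun _ => (0 : ℝ))
    (fun _ => |h| * (4 * (M * M))) ?_ (integrable_const _) ?_ ?_
  · simpa using lim
  · intro n
    have c0 := (mol_contDiff hcm hcM n).continuous
    have c1 := (mol_contDiff h₁ hM₁ n).continuous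
    have c2 := (mol_contDiff h₂ hM₂ n).continuous
    exact ((c0.const_smul h).sub
      ((continuous_cross2.comp (c1.prodMk c2)).const_smul h)).norm.aestronglyMeasurable
  · intro n
    refine ae_of_all _ (fun p => ?_)
    rw [norm_norm, ← smul_sub, norm_smul, Real.norm_eq_abs]
    refine mul_le_mul_of_nonneg_left ?_ (abs_nonneg _)
    have a0 := norm_mol_le hcm hcM n p
    have a1 := bnd _ _ (norm_mol_le h₁ hM₁ n p) (norm_mol_le h₂ hM₂ n p)
    have := norm_sub_le (mol n (fun q => cross (η₁ q) (η₂ q)) p) (cross (mol n η₁ p) (mol n η₂ p))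
    linarith
  · refine ae_restrict_of_ae ?_
    filter_upwards [mol_tendsto_ae hcm hcM, mol_tendsto_ae h₁ hM₁, mol_tendsto_ae h₂ hM₂]
      with p t0 t1 t2
    have t3 : Tendsto (fun n => cross (mol n η₁ p) (mol n η₂ p)) atTop
        (𝓝 (cross (η₁ p) (η₂ p))) :=
      (continuous_cross2.tendsto (η₁ p, η₂ p)).comp (t1.prodMk_nhds t2)
    have := ((t0.const_smul h).sub (t3.const_smul h)).norm
    simpa using this

end Vale.Agent.P232
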