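import Vale.Agent.P232.Hol1
import Vale.Agent.P232.Hol2

open MeasureTheory Set Filter Topology
open scoped ENNReal

noncomputable section
namespace Vale.Agent.P232

/-! Task: trivial holonomy.  Rectangle `[-4,4] × [-7,7]`, `A_i p V = h • cross (mol n η_i p) V`.  On the bottom and top edges
`mol n η₁ = f(u) e2`; on the left edge `mol n η₂ = f₃(w) e3 - f₁(w) e1` with `f₃ = 0` for `w ≥ -2`, `f₁ = 0` for `w ≤ -2`; on the right edge
`f₁ = 0` for `w ≥ 2`, `f₃ = 0` for `w ≤ 2`.  The transports are explicit products of `rot1, rot2, rot3` with angles `h ∫ f`, and the total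
integrals are the six widths (`FarField.int` with `θ = ker n (±4 - ·)` or `ker n (±7 - ·)`, Fubini).  The curvature of `A` is
`h • cross K` by the Jacobi identity; apply `stokes_rect` and `mol_curv_tendsto`. -/

/-- the cross product as a continuous bilinear map -/
def hol3L : P3 →L[ℝ] P3 →L[ℝ] P3 :=
  LinearMap.toContinuousLinearMap ((LinearMap.toContinuousLinearMap (𝕜 := ℝ) (E := P3)
    (F' := P3)).toLinearMap.comp (LinearMap.mk₂ ℝ cross
      (fun _ _ _ => by ext <;> simp [cross] <;> ring) (fun _ _ _ => by ext <;> simp [cross] <;> ring)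
      (fun _ _ _ => by ext <;> simp [cross] <;> ring) (fun _ _ _ => by ext <;> simp [cross] <;> ring)))

theorem hol3L_apply (a b : P3) : hol3L a b = cross a b := rfl

theorem hol3_ker_cont (n : ℕ) : Continuous (ker n) := (bump n).continuous_normed

theorem hol3_ker_nn (n : ℕ) (t : ℝ) : 0 ≤ ker n t := (bump n).nonneg_normed t

theorem hol3_ker_supp {n : ℕ} {t : ℝ} (h : ker n t ≠ 0) : |t| < 1 / 2 := by
  have h1 : t ∈ Function.support ((bump n).normed volume) := h
  rw [ContDiffBump.support_normed_eq, mem_ball_zero_iff, Real.norm_eq_abs] at h1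
  exact h1.trans_le (one_div_le_one_div_of_le two_pos (by linarith [Nat.cast_nonneg (α := ℝ) n]))

theorem hol3_ker_int (n : ℕ) (c : ℝ) : ∫ t, ker n (c - t) = 1 := by
  rw [integral_sub_left_eq_self (ker n)]
  exact (bump n).integral_normed

theorem hol3_ker_int' (n : ℕ) {a b c : ℝ} (h1 : a + 1 / 2 ≤ c) (h2 : c + 1 / 2 ≤ b) :
    ∫ t in a..b, ker n (t - c) = 1 := by
  rw [intervalIntegral.integral_eq_integral_of_support_subset, integral_sub_right_eq_self (ker n)]
  · exact (bump n).integral_normed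
  · intro t ht
    have := abs_lt.1 (hol3_ker_supp ht)
    constructor <;> linarith

theorem hol3_tsupp (n : ℕ) (c : ℝ) :
    tsupport (fun t => ker n (c - t)) ⊆ Icc (c - 1 / 2) (c + 1 / 2) :=
  closure_minimal (fun t ht => by
    have := abs_lt.1 (hol3_ker_supp ht)
    constructor <;> linarith) isClosed_Icc

theorem hol3_cs (n : ℕ) (c : ℝ) : HasCompactSupport fun t => ker n (c - t) :=
  isCompact_Icc.of_isClosed_subset (isClosed_tsupport _) (hol3_tsupp n c)

/-- the product kernel -/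
def hK (n : ℕ) (p q : P2) : ℝ := ker n (p.1 - q.1) * ker n (p.2 - q.2)

/-- scalar mollification -/
def hsm (n : ℕ) (g : P2 → ℝ) (p : P2) : ℝ := ∫ q, hK n p q * g q

/-- bounded measurable functions -/
def HB (g : P2 → ℝ) : Prop := Measurable g ∧ ∃ M : ℝ, ∀ᵐ p : P2, |g p| ≤ M

theorem hK_supp {n : ℕ} {p q : P2} (h : hK n p q ≠ 0) :
    (-(1 / 2) < p.1 - q.1 ∧ p.1 - q.1 < 1 / 2) ∧ (-(1 / 2) < p.2 - q.2 ∧ p.2 - q.2 < 1 / 2) :=
  ⟨abs_lt.1 (hol3_ker_supp (left_ne_zero_of_mul h)),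
    abs_lt.1 (hol3_ker_supp (right_ne_zero_of_mul h))⟩

theorem HB.ind {k : P2 → ℝ} (h : HB k) {S : Set P2} (hS : MeasurableSet S) :
    HB (S.indicator k) := by
  obtain ⟨h1, M, h2⟩ := h
  exact ⟨h1.indicator hS, M, h2.mono fun p hp => (norm_indicator_le_norm_self k p).trans hp⟩

theorem HB.abs {k : P2 → ℝ} (h : HB k) : HB fun p => |k p| := by
  obtain ⟨h1, M, h2⟩ := h
  exact ⟨h1.abs, M, h2.mono fun p hp => by rwa [abs_abs]⟩

theorem HB.int {g : P2 → ℝ} (h : HB g) (n : ℕ) (p : P2) : Integrable fun q => hK n p q * g q := by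
  obtain ⟨h1, M, h2⟩ := h
  have h3 : ∀ c, Integrable fun t => ker n (c - t) := fun c =>
    ((hol3_ker_cont n).comp (continuous_const.sub continuous_id)).integrable_of_hasCompactSupport
      (hol3_cs n c)
  exact ((h3 p.1).mul_prod (h3 p.2)).mul_bdd h1.aestronglyMeasurable h2

theorem hol3_mol (n : ℕ) (g : P2 → ℝ) (e : P3) (p : P2) :
    ∫ q, (hK n p q * g q) • e = hsm n g p • e := integral_smul_const _ _

theorem HB.cont {g : P2 → ℝ} (h : HB g) (n : ℕ) : Continuous (hsm n g) := by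
  obtain ⟨h1, M, h2⟩ := h
  have h3 := (mol_contDiff (η := fun q => g q • e1) (h1.smul_const _) (M := M * ‖e1‖)
    (h2.mono fun p hp => by rw [norm_smul]; gcongr; exact hp) n).continuous.fst
  refine h3.congr fun p => ?_
  have : mol n (fun q => g q • e1) p = hsm n g p • e1 := by
    rw [← hol3_mol]
    simp only [mol, smul_smul, hK]
  rw [this]
  simp [e1]

theorem HB.fub {g : P2 → ℝ} (h : HB g) (n : ℕ) {γ : ℝ → P2} (hγ : Continuous γ) {a b : ℝ}
    (hab : a ≤ b) : ∫ t in a..b, hsm n g (γ t) = ∫ q, (∫ t in a..b, hK n (γ t) q) * g q := by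
  simp only [intervalIntegral.integral_of_le hab, ← integral_mul_const]
  refine integral_integral_swap (f := fun t q => hK n (γ t) q * g q) ?_
  have hc : Continuous fun z : ℝ × P2 => hK n (γ z.1) z.2 := by
    have := hol3_ker_cont n
    unfold hK
    fun_prop
  have hm : Measurable (Function.uncurry fun t q => hK n (γ t) q * g q) :=
    hc.measurable.mul (h.1.comp measurable_snd)
  rw [integrable_prod_iff hm.aestronglyMeasurable]
  refine ⟨ae_of_all _ fun t => h.int n (γ t), ?_⟩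
  refine (((h.abs.cont n).comp hγ).integrableOn_Ioc (a := a) (b := b)).congr
    (ae_of_all _ fun t => integral_congr_ae (ae_of_all _ fun q => ?_))
  simp only [Function.uncurry, hK]
  rw [norm_mul, Real.norm_of_nonneg (mul_nonneg (hol3_ker_nn _ _) (hol3_ker_nn _ _)),
    Real.norm_eq_abs]

theorem HB.totU {k : P2 → ℝ} (h : HB k) (n : ℕ) {S : Set P2} (hS : MeasurableSet S) (w : ℝ)
    (h1 : ∀ q ∈ S, |q.1| < 1) : ∫ t in (-4 : ℝ)..4, hsm n (S.indicator k) (t, w) =
      ∫ q in S, ker n (w - q.2) * k q := by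
  rw [(h.ind hS).fub n (γ := fun t => (t, w)) (by fun_prop) (by norm_num), ← integral_indicator hS]
  refine integral_congr_ae (ae_of_all _ fun q => ?_)
  by_cases hq : q ∈ S
  · have := abs_lt.1 (h1 q hq)
    simp only [hK, indicator_of_mem hq, intervalIntegral.integral_mul_const]
    rw [hol3_ker_int' n (by linarith) (by linarith), one_mul]
  · simp [hq]

theorem HB.totW {k : P2 → ℝ} (h : HB k) (n : ℕ) {S : Set P2} (hS : MeasurableSet S) (u : ℝ)
    (h1 : ∀ q ∈ S, |u - q.1| < 1 / 2 → |q.2| < 6) :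
    ∫ t in (-7 : ℝ)..7, hsm n (S.indicator k) (u, t) = ∫ q in S, ker n (u - q.1) * k q := by
  rw [(h.ind hS).fub n (γ := fun t => (u, t)) (by fun_prop) (by norm_num), ← integral_indicator hS]
  refine integral_congr_ae (ae_of_all _ fun q => ?_)
  by_cases hq : q ∈ S
  · simp only [hK, indicator_of_mem hq, intervalIntegral.integral_const_mul]
    by_cases h0 : ker n (u - q.1) = 0
    · simp [h0]
    · have := abs_lt.1 (h1 q hq (hol3_ker_supp h0))
      rw [hol3_ker_int' n (by linarith) (by linarith), mul_one]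
  · simp [hq]

theorem hsm_zero (n : ℕ) (k : P2 → ℝ) {S : Set P2} {p : P2} (h : ∀ q ∈ S, hK n p q = 0) :
    hsm n (S.indicator k) p = 0 := by
  refine (integral_congr_ae (ae_of_all _ fun q => ?_)).trans (integral_zero _ _)
  by_cases hq : q ∈ S
  · simp [h q hq]
  · simp [hq]

theorem hol3_ms1 : MeasurableSet strip1 := measurableSet_lt (by fun_prop) measurable_const
theorem hol3_ms2 : MeasurableSet strip2 := measurableSet_lt (by fun_prop) measurable_const
theorem hol3_ms3 : MeasurableSet strip3 := measurableSet_lt (by fun_prop) measurable_const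

section edges

variable {η₁ η₂ : P2 → P3} {k : P2 → ℝ} {L1 l1 L2 l2 L3 l3 : ℝ}

theorem FarField.hb (hF : FarField η₁ η₂ k L1 l1 L2 l2 L3 l3) : HB k := ⟨hF.meas, hF.bdd⟩

theorem FarField.edgeU (hF : FarField η₁ η₂ k L1 l1 L2 l2 L3 l3) (n : ℕ) {u w : ℝ}
    (hu : u ∈ Icc (-4 : ℝ) 4) (hw : w = -7 ∨ w = 7) :
    mol n η₁ (u, w) = hsm n (strip2.indicator k) (u, w) • e2 := by
  rw [← hol3_mol]
  refine integral_congr_ae (hF.far.mono fun q hq => ?_)
  change hK n (u, w) q • η₁ q = _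
  by_cases h0 : hK n (u, w) q = 0
  · simp [h0]
  obtain ⟨h1, h2⟩ := hK_supp h0
  have h3 : q ∉ strip3 := fun h => by
    have := abs_lt.1 (show |q.1 - q.2| < 1 from h)
    rcases hw with rfl | rfl <;> linarith [h1.1, h1.2, h2.1, h2.2, hu.1, hu.2]
  rw [(hq (Or.inr (le_abs.2 (by
    rcases hw with rfl | rfl
    exacts [Or.inr (by linarith [h2.1]), Or.inl (by linarith [h2.2])])))).1,
    indicator_of_notMem h3, sub_zero, indicator_smul_const_apply, smul_smul]

theorem FarField.edgeW (hF : FarField η₁ η₂ k L1 l1 L2 l2 L3 l3) (n : ℕ) {u : ℝ} (w : ℝ)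
    (hu : u = -4 ∨ u = 4) : mol n η₂ (u, w) =
      hsm n (strip3.indicator k) (u, w) • e3 - hsm n (strip1.indicator k) (u, w) • e1 := by
  rw [← hol3_mol, ← hol3_mol, ← integral_sub (((hF.hb.ind hol3_ms3).int n _).smul_const _)
    (((hF.hb.ind hol3_ms1).int n _).smul_const _)]
  refine integral_congr_ae (hF.far.mono fun q hq => ?_)
  change hK n (u, w) q • η₂ q = _
  by_cases h0 : hK n (u, w) q = 0
  · simp [h0]
  obtain ⟨h1, -⟩ := hK_supp h0
  rw [(hq (Or.inl (le_abs.2 (by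
    rcases hu with rfl | rfl
    exacts [Or.inr (by linarith [h1.1]), Or.inl (by linarith [h1.2])])))).2,
    indicator_smul_const_apply, indicator_smul_const_apply, smul_sub, smul_smul, smul_smul]

end edges

theorem hol3_c {W : ℝ → P3} {t : ℝ} {W' : P3} (hW : HasDerivAt W W' t) :
    HasDerivAt (fun t => (W t).1) W'.1 t ∧ HasDerivAt (fun t => (W t).2.1) W'.2.1 t ∧
      HasDerivAt (fun t => (W t).2.2) W'.2.2 t := ⟨hW.fst, hW.snd.fst, hW.snd.snd⟩

theorem hol3_d1 {α : ℝ → ℝ} {W : ℝ → P3} {a t : ℝ} {W' : P3} (hα : HasDerivAt α a t)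
    (hW : HasDerivAt W W' t) : HasDerivAt (fun t => rot1 (α t) (W t))
      (cross (a • e1) (rot1 (α t) (W t)) + rot1 (α t) W') t := by
  obtain ⟨h1, h2, h3⟩ := hol3_c hW
  refine (h1.prodMk (((hα.cos.mul h2).sub (hα.sin.mul h3)).prodMk
    ((hα.sin.mul h2).add (hα.cos.mul h3)))).congr_deriv ?_
  ext <;> simp [cross, rot1, e1] <;> ring

theorem hol3_d2 {α : ℝ → ℝ} {W : ℝ → P3} {a t : ℝ} {W' : P3} (hα : HasDerivAt α a t)
    (hW : HasDerivAt W W' t) : HasDerivAt (fun t => rot2 (α t) (W t))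
      (cross (a • e2) (rot2 (α t) (W t)) + rot2 (α t) W') t := by
  obtain ⟨h1, h2, h3⟩ := hol3_c hW
  refine (((hα.cos.mul h1).add (hα.sin.mul h3)).prodMk (h2.prodMk
    ((hα.sin.neg.mul h1).add (hα.cos.mul h3)))).congr_deriv ?_
  ext <;> simp [cross, rot2, e2] <;> ring

theorem hol3_d3 {α : ℝ → ℝ} {W : ℝ → P3} {a t : ℝ} {W' : P3} (hα : HasDerivAt α a t)
    (hW : HasDerivAt W W' t) : HasDerivAt (fun t => rot3 (α t) (W t))
      (cross (a • e3) (rot3 (α t) (W t)) + rot3 (α t) W') t := by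
  obtain ⟨h1, h2, h3⟩ := hol3_c hW
  refine (((hα.cos.mul h1).sub (hα.sin.mul h2)).prodMk
    (((hα.sin.mul h1).add (hα.cos.mul h2)).prodMk h3)).congr_deriv ?_
  ext <;> simp [cross, rot3, e3] <;> ring

theorem hol3_ang {f : ℝ → ℝ} (hf : Continuous f) (c a t : ℝ) :
    HasDerivAt (fun t => c * ∫ s in a..t, f s) (c * f t) t :=
  (hf.integral_hasStrictDerivAt a t).hasDerivAt.const_mul c

theorem hol3_ang0 {f : ℝ → ℝ} {a c t : ℝ} (h0 : ∀ s ≤ c, f s = 0) (ha : a ≤ c) (ht : t ≤ c) :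
    ∫ s in a..t, f s = 0 := by
  rw [intervalIntegral.integral_congr (g := fun _ => 0) fun s hs => h0 s
    (hs.2.trans (max_le ha ht))]
  simp

theorem hol3_U {f : ℝ → ℝ} (hf : Continuous f) (h a t : ℝ) (V : P3) :
    HasDerivAt (fun t => rot2 (h * ∫ s in a..t, f s) V)
      ((h • hol3L) (f t • e2) (rot2 (h * ∫ s in a..t, f s) V)) t := by
  refine (hol3_d2 (hol3_ang hf h a t) (hasDerivAt_const t V)).congr_deriv ?_
  ext <;> simp [hol3L_apply, cross, rot2, e2] <;> ring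

theorem hol3_l {f g : ℝ → ℝ} (hf : Continuous f) (hg : Continuous g) (h a t : ℝ) (V : P3) {c : ℝ}
    (ha : a ≤ c) (h1 : ∀ s, c ≤ s → f s = 0) (h2 : ∀ s ≤ c, g s = 0) :
    HasDerivAt (fun t => rot1 (-h * ∫ s in a..t, g s) (rot3 (h * ∫ s in a..t, f s) V))
      ((h • hol3L) (f t • e3 - g t • e1)
        (rot1 (-h * ∫ s in a..t, g s) (rot3 (h * ∫ s in a..t, f s) V))) t := by
  refine (hol3_d1 (hol3_ang hg (-h) a t)
    (hol3_d3 (hol3_ang hf h a t) (hasDerivAt_const t V))).congr_deriv ?_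
  rcases le_total c t with ht | ht
  · rw [h1 t ht]
    ext <;> simp [hol3L_apply, cross, rot1, rot3, e1, e3] <;> ring
  · rw [h2 t ht, hol3_ang0 h2 ha ht]
    ext <;> simp [hol3L_apply, cross, rot1, rot3, e1, e3] <;> ring

theorem hol3_r {f g : ℝ → ℝ} (hf : Continuous f) (hg : Continuous g) (h a t : ℝ) (V : P3) {c : ℝ}
    (ha : a ≤ c) (h1 : ∀ s, c ≤ s → g s = 0) (h2 : ∀ s ≤ c, f s = 0) :
    HasDerivAt (fun t => rot3 (h * ∫ s in a..t, f s) (rot1 (-h * ∫ s in a..t, g s) V))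
      ((h • hol3L) (f t • e3 - g t • e1)
        (rot3 (h * ∫ s in a..t, f s) (rot1 (-h * ∫ s in a..t, g s) V))) t := by
  refine (hol3_d3 (hol3_ang hf h a t)
    (hol3_d1 (hol3_ang hg (-h) a t) (hasDerivAt_const t V))).congr_deriv ?_
  rcases le_total c t with ht | ht
  · rw [h1 t ht]
    ext <;> simp [hol3L_apply, cross, rot1, rot3, e1, e3] <;> ring
  · rw [h2 t ht, hol3_ang0 h2 ha ht]
    ext <;> simp [hol3L_apply, cross, rot1, rot3, e1, e3] <;> ring

theorem hol3_curv {m₁ m₂ : P2 → P3} (h₁ : ContDiff ℝ 1 m₁) (h₂ : ContDiff ℝ 1 m₂) (h : ℝ)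
    (p : P2) : fderiv ℝ (fun p => (h • hol3L) (m₂ p)) p (1, 0) -
      fderiv ℝ (fun p => (h • hol3L) (m₁ p)) p (0, 1) +
      ((h • hol3L) (m₂ p)).comp ((h • hol3L) (m₁ p)) -
      ((h • hol3L) (m₁ p)).comp ((h • hol3L) (m₂ p)) =
    (h • hol3L) (fderiv ℝ m₂ p (1, 0) - fderiv ℝ m₁ p (0, 1) - h • cross (m₁ p) (m₂ p)) := by
  have e : ∀ m : P2 → P3, ContDiff ℝ 1 m → ∀ v,
      fderiv ℝ (fun p => (h • hol3L) (m p)) p v = (h • hol3L) (fderiv ℝ m p v) := fun m hm v => by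
    exact congrArg (fun f : P2 →L[ℝ] P3 →L[ℝ] P3 => f v)
      ((h • hol3L).hasFDerivAt.comp p (hm.differentiable one_ne_zero p).hasFDerivAt).fderiv
  rw [e _ h₁, e _ h₂]
  refine ContinuousLinearMap.ext fun V => ?_
  ext <;> simp [hol3L_apply, cross] <;> ring

theorem hol3_est {η₁ η₂ : P2 → P3} (h₁ : Measurable η₁) (h₂ : Measurable η₂) {M : ℝ}
    (hM₁ : ∀ᵐ p : P2, ‖η₁ p‖ ≤ M) (hM₂ : ∀ᵐ p : P2, ‖η₂ p‖ ≤ M) (h : ℝ)
    {k : P2 → ℝ} {L1 l1 L2 l2 L3 l3 : ℝ} (hF : FarField η₁ η₂ k L1 l1 L2 l2 L3 l3) (V : P3)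
    (n : ℕ) : ‖rot3 (h * L3) (rot1 (-(h * l1)) (rot2 (h * L2) V))
      - rot2 (h * l2) (rot1 (-(h * L1)) (rot3 (h * l3) V))‖ ≤
      Real.exp (2 * (‖h • hol3L‖ * M) * ((4 - -4) + (7 - -7))) * ‖V‖ * (‖h • hol3L‖ *
        ∫ p in Ioo (-4 : ℝ) 4 ×ˢ Ioo (-7 : ℝ) 7, ‖fderiv ℝ (mol n η₂) p (1, 0) -
          fderiv ℝ (mol n η₁) p (0, 1) - h • cross (mol n η₁ p) (mol n η₂ p)‖) := by
  have d₁ := mol_contDiff h₁ hM₁ n
  have d₂ := mol_contDiff h₂ hM₂ n
  have cU : ∀ w : ℝ, Continuous fun t : ℝ => hsm n (strip2.indicator k) (t, w) := fun w =>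
    ((hF.hb.ind hol3_ms2).cont n).comp (by fun_prop)
  have c1 : ∀ u : ℝ, Continuous fun t : ℝ => hsm n (strip1.indicator k) (u, t) := fun u =>
    ((hF.hb.ind hol3_ms1).cont n).comp (by fun_prop)
  have c3 : ∀ u : ℝ, Continuous fun t : ℝ => hsm n (strip3.indicator k) (u, t) := fun u =>
    ((hF.hb.ind hol3_ms3).cont n).comp (by fun_prop)
  have hi := fun c => hF.int (fun t => ker n (c - t))
    ((hol3_ker_cont n).comp (continuous_const.sub continuous_id)) (hol3_cs n c)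
  simp only [hol3_ker_int, one_mul] at hi
  have hp : ∀ c : ℝ, 4 ≤ c → _ := fun c hc => (hi c).1 fun t ht =>
    show 3 < t by linarith [(hol3_tsupp n c ht).1]
  have hm : ∀ c : ℝ, c ≤ -4 → _ := fun c hc => (hi c).2 fun t ht =>
    show t < -3 by linarith [(hol3_tsupp n c ht).2]
  have tU := fun w => hF.hb.totU n hol3_ms2 w fun _ h => h
  have t1 := fun u => hF.hb.totW n hol3_ms1 u fun q h _ => lt_trans h (by norm_num)
  have t3 : ∀ u : ℝ, u = -4 ∨ u = 4 → _ := fun u hu => hF.hb.totW n hol3_ms3 u fun q h h' => by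
    have h1 := abs_lt.1 (show |q.1 - q.2| < 1 from h)
    have h2 := abs_lt.1 h'
    rw [abs_lt]
    rcases hu with rfl | rfl <;> constructor <;> linarith
  have z : ∀ (S : Set P2) (p : P2), (∀ q ∈ S, -(1 / 2) < p.1 - q.1 → p.1 - q.1 < 1 / 2 →
      -(1 / 2) < p.2 - q.2 → p.2 - q.2 < 1 / 2 → False) → hsm n (S.indicator k) p = 0 :=
    fun S p hS => hsm_zero n k fun q hq => by
      by_contra h0
      obtain ⟨h1, h2⟩ := hK_supp h0
      exact hS q hq h1.1 h1.2 h2.1 h2.2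
  have key := stokes_rect (A₁ := fun p => (h • hol3L) (mol n η₁ p))
    (A₂ := fun p => (h • hol3L) (mol n η₂ p)) ((h • hol3L).contDiff.comp d₁)
    ((h • hol3L).contDiff.comp d₂) (M := ‖h • hol3L‖ * M)
    (fun p => (h • hol3L).le_opNorm_of_le (norm_mol_le h₁ hM₁ n p))
    (fun p => (h • hol3L).le_opNorm_of_le (norm_mol_le h₂ hM₂ n p))
    (u₀ := -4) (u₁ := 4) (w₀ := -7) (w₁ := 7) (by norm_num) (by norm_num)
    (fun u hu => by
      rw [hF.edgeU n hu (Or.inl rfl)]; exact hol3_U (cU (-7)) h (-4) u V)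
    (fun u hu => by
      rw [hF.edgeU n hu (Or.inr rfl)]
      exact hol3_U (cU 7) h (-4) u (rot1 (-(h * L1)) (rot3 (h * l3) V)))
    (fun w _ => by
      rw [hF.edgeW n w (Or.inl rfl)]
      exact hol3_l (c3 (-4)) (c1 (-4)) h (-7) w V (c := -2) (by norm_num)
        (fun s hs => z _ _ fun q hq _ _ _ _ => by
          have := abs_lt.1 (show |q.1 - q.2| < 1 from hq); linarith)
        (fun s hs => z _ _ fun q hq _ _ _ _ => by
          have := abs_lt.1 (show |q.2| < 1 from hq); linarith))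
    (fun w _ => by
      rw [hF.edgeW n w (Or.inr rfl)]
      exact hol3_r (c3 4) (c1 4) h (-7) w (rot2 (h * L2) V) (c := 2) (by norm_num)
        (fun s hs => z _ _ fun q hq _ _ _ _ => by
          have := abs_lt.1 (show |q.2| < 1 from hq); linarith)
        (fun s hs => z _ _ fun q hq _ _ _ _ => by
          have := abs_lt.1 (show |q.1 - q.2| < 1 from hq); linarith))
    (by simp [rot1, rot2, rot3])
    (by rw [tU, (hm (-7) (by norm_num)).2.1]; simp [rot1, rot3])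
    (by
      rw [t1, t3 _ (Or.inl rfl), (hm (-4) le_rfl).1, (hm (-4) le_rfl).2.2, neg_mul]
      simp [rot2])
  rw [t1, t3 _ (Or.inr rfl), tU, (hp 4 le_rfl).1, (hp 4 le_rfl).2.2, (hp 7 (by norm_num)).2.1,
    neg_mul] at key
  have e : rot2 (h * ∫ s in (-4 : ℝ)..(-4), hsm n (strip2.indicator k) (s, -7)) V = V := by
    simp [rot2]
  rw [e] at key
  refine key.trans (mul_le_mul_of_nonneg_left ?_ (by positivity))
  rw [← integral_const_mul]
  have hc : Continuous fun p => ‖h • hol3L‖ * ‖fderiv ℝ (mol n η₂) p (1, 0) -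
      fderiv ℝ (mol n η₁) p (0, 1) - h • cross (mol n η₁ p) (mol n η₂ p)‖ :=
    continuous_const.mul ((((d₂.continuous_fderiv one_ne_zero).clm_apply continuous_const).sub
      ((d₁.continuous_fderiv one_ne_zero).clm_apply continuous_const)).sub
      (((hol3L.continuous.comp d₁.continuous).clm_apply d₂.continuous).const_smul h)).norm
  refine integral_mono_of_nonneg (ae_of_all _ fun p => norm_nonneg _)
    ((hc.continuousOn.integrableOn_compact (isCompact_Icc.prod isCompact_Icc)).mono_set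
      (prod_mono Ioo_subset_Icc_self Ioo_subset_Icc_self)) (ae_of_all _ fun p => ?_)
  beta_reduce
  rw [hol3_curv d₁ d₂]
  exact (h • hol3L).le_opNorm _

theorem holonomy {η₁ η₂ : P2 → P3} (h₁ : Measurable η₁) (h₂ : Measurable η₂) {M : ℝ}
    (hM₁ : ∀ᵐ p : P2, ‖η₁ p‖ ≤ M) (hM₂ : ∀ᵐ p : P2, ‖η₂ p‖ ≤ M) {h : ℝ} (hf : WeakFlat η₁ η₂ h)
    {k : P2 → ℝ} {L1 l1 L2 l2 L3 l3 : ℝ} (hF : FarField η₁ η₂ k L1 l1 L2 l2 L3 l3) (V : P3) :
    rot3 (h * L3) (rot1 (-(h * l1)) (rot2 (h * L2) V))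
      = rot2 (h * l2) (rot1 (-(h * L1)) (rot3 (h * l3) V)) := by
  have h1 := ((mol_curv_tendsto h₁ h₂ hM₁ hM₂ hf (-4) 4 (-7) 7).const_mul ‖h • hol3L‖).const_mul
    (Real.exp (2 * (‖h • hol3L‖ * M) * ((4 - -4) + (7 - -7))) * ‖V‖)
  rw [mul_zero, mul_zero] at h1
  exact sub_eq_zero.1 (norm_le_zero_iff.1 (ge_of_tendsto' h1 (hol3_est h₁ h₂ hM₁ hM₂ h hF V)))

end Vale.Agent.P232
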