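import Vale.Agent.P232.Flat
import Vale.Agent.P232.Far
import Vale.Agent.P232.Hol3

open MeasureTheory Set Filter Topology
open scoped ENNReal

noncomputable section
namespace Vale.Agent.P232

/-! The closing relation (Lawson correspondence) for a pentagon. -/

theorem pentagon_trig {X1 x1 X2 x2 X3 : ℝ}
    (h : ∀ V : P3, rot3 X3 (rot1 (-x1) (rot2 X2 V)) = rot2 x2 (rot1 (-X1) (rot3 0 V))) :
    Real.cos X1 = Real.cos x1 * Real.cos X3 ∧ Real.cos X2 = Real.cos x2 * Real.cos X3 ∧
    Real.sin x1 = Real.sin X1 * Real.cos x2 ∧ Real.sin x2 = Real.sin X2 * Real.cos x1 ∧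
    Real.cos x1 * Real.cos x2 * Real.sin X3 = Real.sin x1 * Real.sin x2 := by
  have h2 := h (0, 1, 0)
  have h1 := h (1, 0, 0)
  simp only [rot1, rot2, rot3, Real.cos_neg, Real.sin_neg, Real.cos_zero, Real.sin_zero,
    Prod.mk.injEq] at h1 h2
  obtain ⟨a1, a2, a3⟩ := h1
  obtain ⟨b1, b2, b3⟩ := h2
  have p3 := Real.sin_sq_add_cos_sq X3
  have e1 : Real.cos X1 = Real.cos x1 * Real.cos X3 := by linarith
  have e3 : Real.sin x1 = Real.sin X1 * Real.cos x2 := by linarith
  have e4 : Real.sin x2 = Real.sin X2 * Real.cos x1 := by linarith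
  have e5 : Real.sin X3 * Real.cos x1 = Real.sin x2 * Real.sin X1 := by linarith
  have f1 : Real.cos X3 * Real.cos X2 + Real.sin X3 * (Real.sin x1 * Real.sin X2) = Real.cos x2 := by
    linarith
  have f2 : Real.sin X3 * Real.cos X2 - Real.cos X3 * (Real.sin x1 * Real.sin X2) = 0 := by
    linarith
  refine ⟨e1, ?_, e3, e4, ?_⟩
  · linear_combination Real.cos X3 * f1 + Real.sin X3 * f2 - Real.cos X2 * p3
  · linear_combination Real.cos x2 * e5 - Real.sin x2 * e3

theorem Adm.closing {E : Set P3} (h : Adm E) (h0 : 0 < volQ E) (h1 : volQ E < 1) {k : ℝ}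
    (hc : Crit E k) (V : P3) :
    rot3 (k * LL E) (rot1 (-(k * ll (P232.rot E))) (rot2 (k * LL (P232.rot (P232.rot E))) V))
      = rot2 (k * ll (P232.rot (P232.rot E))) (rot1 (-(k * LL (P232.rot E))) (rot3 (k * ll E) V)) := by
  have o := h.origin_mem h0
  have n := h.one_not_mem h1
  have hS := (h.continuous_Sf o n).measurable
  have hb := h.eta_bdd
  rw [h.nu_eq_map o n] at hb
  have hb' := ae_of_ae_map hS.aemeasurable hb
  exact holonomy ((measurable_etaU E).comp hS) ((measurable_etaW E).comp hS)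
    (hb'.mono fun p hp => hp.1) (hb'.mono fun p hp => hp.2) (h.weakFlat o n hc) (h.farField o n) V

end Vale.Agent.P232
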