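import Vale.Agent.P232.Meas
import Vale.Agent.P232.Approx

open MeasureTheory Set Filter Topology
open scoped ENNReal

noncomputable section
namespace Vale.Agent.P232

/-! Task: divergence theorem for admissible sets (Fubini + FTC on each line, then the projection
formulas), and `area` is the relative perimeter (approximate `rho / wt` by `exists_smooth_approx`). -/

variable {E : Set P3}

theorem div_col (h : Adm E) {f : P3 → ℝ} (hf : ContDiff ℝ 1 f) (hc : HasCompactSupport f)
    (p : P2) : ∫ t, E.indicator (fun x => fderiv ℝ f x e3) (p.1, p.2, t) =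
      (dom E).indicator (fun p => f (p.1, p.2, hgt E p)) p := by
  have hi : Isometry fun t : ℝ => ((p.1, p.2, t) : P3) :=
    Isometry.of_dist_eq fun a b => by simp [Prod.dist_eq]
  have h1 : ContDiff ℝ 1 fun t : ℝ => f (p.1, p.2, t) := hf.comp (by fun_prop)
  have h2 : HasCompactSupport fun t : ℝ => f (p.1, p.2, t) :=
    hc.comp_isClosedEmbedding hi.isClosedEmbedding
  have h3 : ∀ t, fderiv ℝ f (p.1, p.2, t) e3 = deriv (fun t : ℝ => f (p.1, p.2, t)) t := fun t => by
    have h4 : HasDerivAt (fun t : ℝ => ((p.1, p.2, t) : P3)) e3 t :=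
      (hasDerivAt_const t p.1).prodMk ((hasDerivAt_const t p.2).prodMk (hasDerivAt_id t))
    exact ((hf.differentiable one_ne_zero _).hasFDerivAt.comp_hasDerivAt t h4).deriv.symm
  by_cases hp : p ∈ dom E
  · have e : ∀ t, E.indicator (fun x => fderiv ℝ f x e3) (p.1, p.2, t) =
        (Iio (hgt E p)).indicator (deriv fun t : ℝ => f (p.1, p.2, t)) t := fun t => by
      by_cases ht : t < hgt E p
      · rw [indicator_of_mem ((h.mem_iff_of_dom hp t).2 ht), indicator_of_mem (mem_Iio.2 ht), h3]
      · rw [indicator_of_notMem (mt (h.mem_iff_of_dom hp t).1 ht),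
          indicator_of_notMem (mt mem_Iio.1 ht)]
    simp only [e]
    rw [integral_indicator measurableSet_Iio, ← integral_Iic_eq_integral_Iio,
      h2.integral_Iic_deriv_eq h1, indicator_of_mem hp]
  · rw [indicator_of_notMem hp]
    by_cases hp1 : p ∈ slice E 1
    · have e : ∀ t, E.indicator (fun x => fderiv ℝ f x e3) (p.1, p.2, t) =
          deriv (fun t : ℝ => f (p.1, p.2, t)) t := fun t => by
        rw [indicator_of_mem (h.a3.above _ _ t hp1), h3]
      simp only [e]
      exact integral_eq_zero_of_hasDerivAt_of_integrable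
        (fun t => (h1.differentiable one_ne_zero t).hasDerivAt)
        ((h1.continuous_deriv le_rfl).integrable_of_hasCompactSupport h2.deriv)
        (h1.continuous.integrable_of_hasCompactSupport h2)
    · have e : ∀ t, E.indicator (fun x => fderiv ℝ f x e3) (p.1, p.2, t) = 0 := fun t => by
        refine indicator_of_notMem (fun ht => hp ⟨?_, hp1⟩) _
        rcases le_total t 0 with h0 | h0
        · rw [← h.slice_of_nonpos h0]
          exact ht
        · exact h.lower (show ((p.1, p.2, 0) : P3) ≤ (p.1, p.2, t) from ⟨le_rfl, le_rfl, h0⟩) ht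
      simp [e]

theorem div_integrable {f : P3 → ℝ} (hf : ContDiff ℝ 1 f) (hc : HasCompactSupport f) (v : P3) :
    Integrable fun x => fderiv ℝ f x v :=
  ((hf.continuous_fderiv one_ne_zero).clm_apply continuous_const).integrable_of_hasCompactSupport
    (hc.fderiv_apply ℝ v)

theorem div_three (h : Adm E) {f : P3 → ℝ} (hf : ContDiff ℝ 1 f) (hc : HasCompactSupport f) :
    ∫ x in E, fderiv ℝ f x e3 = ∫ p in dom E, f (p.1, p.2, hgt E p) := by
  have hm : MeasurePreserving (MeasurableEquiv.prodAssoc : P2 × ℝ ≃ᵐ P3) volume volume :=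
    volume_preserving_prodAssoc
  have hi := (div_integrable hf hc e3).indicator h.measurableSet
  rw [← integral_indicator h.measurableSet, ← integral_indicator h.measurableSet_dom,
    ← hm.integral_comp']
  exact (integral_prod _ ((hm.integrable_comp_emb
    (MeasurableEquiv.measurableEmbedding _)).2 hi)).trans
    (integral_congr_ae (Eventually.of_forall (div_col h hf hc)))

theorem div_lin (L : P3 →L[ℝ] P3) (e : P3 ≃ᵐ P3) (he : ∀ x, L x = e x) (hL : Isometry L)
    (hm : MeasurePreserving e volume volume) (h : Adm (e ⁻¹' E)) {f : P3 → ℝ}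
    (hf : ContDiff ℝ 1 f) (hc : HasCompactSupport f) :
    ∫ x in E, fderiv ℝ f x (L e3) = ∫ p in dom (e ⁻¹' E), f (e (p.1, p.2, hgt (e ⁻¹' E) p)) := by
  have h1 := div_three h (hf.comp L.contDiff) (hc.comp_isClosedEmbedding hL.isClosedEmbedding)
  simp only [Function.comp_apply, he] at h1
  rw [← h1, ← hm.setIntegral_preimage_emb e.measurableEmbedding]
  refine integral_congr_ae (Eventually.of_forall fun x => ?_)
  simp only
  rw [fderiv_comp x (hf.differentiable one_ne_zero _) L.differentiableAt, L.fderiv, ← he x]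
  rfl

theorem div_iso : Isometry cycL := Isometry.of_dist_eq fun a b => by
  simp only [cycL_apply, cyc, Prod.dist_eq]
  rw [← max_assoc, max_comm]

theorem Adm.rho_le (h : Adm E) : ∀ᵐ x ∂(nu E),
    ‖(rho E x).1‖ ≤ 1 ∧ ‖(rho E x).2.1‖ ≤ 1 ∧ ‖(rho E x).2.2‖ ≤ 1 := by
  filter_upwards [h.rho_sum] with x hx
  obtain ⟨a, b, c⟩ := rho_nonneg E x
  rw [Real.norm_of_nonneg a, Real.norm_of_nonneg b, Real.norm_of_nonneg c]
  exact ⟨by linarith, by linarith, by linarith⟩

theorem Adm.div_thm (h : Adm E) {Z : P3 → P3} (hZ : ContDiff ℝ 1 Z) (hc : HasCompactSupport Z) :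
    ∫ x in E, dv Z x = ∫ x, dot (Z x) (rho E x) ∂(nu E) := by
  have := h.nu_locFin
  have d1 : ContDiff ℝ 1 fun x => (Z x).1 := hZ.fst
  have d2 : ContDiff ℝ 1 fun x => (Z x).2.1 := hZ.snd.fst
  have d3 : ContDiff ℝ 1 fun x => (Z x).2.2 := hZ.snd.snd
  have c1 : HasCompactSupport fun x => (Z x).1 := hc.comp_left (g := fun y : P3 => y.1) rfl
  have c2 : HasCompactSupport fun x => (Z x).2.1 := hc.comp_left (g := fun y : P3 => y.2.1) rfl
  have c3 : HasCompactSupport fun x => (Z x).2.2 := hc.comp_left (g := fun y : P3 => y.2.2) rfl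
  have e : ∀ x, dv Z x = fderiv ℝ (fun x => (Z x).1) x e1 + fderiv ℝ (fun x => (Z x).2.1) x e2 +
      fderiv ℝ (fun x => (Z x).2.2) x e3 := fun x => by
    have h1 := (hZ.differentiable one_ne_zero x).hasFDerivAt
    rw [h1.fst.fderiv, h1.snd.fst.fderiv, h1.snd.snd.fderiv]
    rfl
  have m := measurable_rho E
  have i1 := (d1.continuous.integrable_of_hasCompactSupport (μ := nu E) c1).mul_bdd
    m.fst.aestronglyMeasurable (h.rho_le.mono fun x hx => hx.1)
  have i2 := (d2.continuous.integrable_of_hasCompactSupport (μ := nu E) c2).mul_bdd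
    m.snd.fst.aestronglyMeasurable (h.rho_le.mono fun x hx => hx.2.1)
  have i3 := (d3.continuous.integrable_of_hasCompactSupport (μ := nu E) c3).mul_bdd
    m.snd.snd.aestronglyMeasurable (h.rho_le.mono fun x hx => hx.2.2)
  have j1 := (div_integrable d1 c1 e1).integrableOn (s := E)
  have j2 := (div_integrable d2 c2 e2).integrableOn (s := E)
  have j3 := (div_integrable d3 c3 e3).integrableOn (s := E)
  have j12 : IntegrableOn (fun x => fderiv ℝ (fun x => (Z x).1) x e1 +
    fderiv ℝ (fun x => (Z x).2.1) x e2) E := j1.add j2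
  have i12 : Integrable (fun x => (Z x).1 * (rho E x).1 + (Z x).2.1 * (rho E x).2.1) (nu E) :=
    i1.add i2
  simp only [e, dot]
  rw [integral_add j12 j3, integral_add j1 j2, integral_add i12 i3, integral_add i1 i2,
    h.integral_rho1 d1.continuous.measurable, h.integral_rho2 d2.continuous.measurable,
    h.integral_rho3 d3.continuous.measurable, div_three h d3 c3]
  exact congrArg₂ (· + ·) (congrArg₂ (· + ·)
    (div_lin (cycL.comp cycL) cycE.symm (fun _ => rfl) (div_iso.comp div_iso)
      measurePreserving_cycInv h.rot d1 c1)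
    (div_lin cycL cycE (fun _ => rfl) div_iso measurePreserving_cyc h.rot.rot d2 c2)) rfl

theorem dv_eq_zero {Z : P3 → P3} {x : P3} (hx : x ∉ tsupport Z) : dv Z x = 0 := by
  rw [dv, fderiv_of_notMem_tsupport ℝ hx]
  simp [trc]

theorem Adm.div_Q (h : Adm E) {Z : P3 → P3} (hZ : ContDiff ℝ 1 Z) (hc : HasCompactSupport Z)
    (hs : tsupport Z ⊆ Q) :
    ∫ x in E ∩ Q, dv Z x = ∫ x in Q, dot (Z x) (rho E x) ∂(nu E) := by
  rw [setIntegral_eq_integral_of_forall_compl_eq_zero (s := Q) fun x hx => by
    rw [image_eq_zero_of_notMem_tsupport fun h' => hx (hs h')]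
    simp [dot], ← h.div_thm hZ hc]
  exact (setIntegral_eq_of_subset_of_forall_sdiff_eq_zero h.measurableSet inter_subset_left
    fun x hx => dv_eq_zero fun h' => hx.2 ⟨hx.1, hs h'⟩).symm

theorem Adm.integrableOn_dot (h : Adm E) {Z : P3 → P3} (hZ : Measurable Z) {M : ℝ}
    (hM : ∀ x, nrm (Z x) ≤ M) : IntegrableOn (fun x => dot (Z x) (rho E x)) Q (nu E) := by
  have m := measurable_rho E
  refine h.integrableOn_Q (M := M) (by unfold dot; fun_prop) ?_
  filter_upwards [h.wt_bounds] with x hx _
  exact (abs_dot_le _ _).trans ((mul_le_of_le_one_right (nrm_nonneg _) hx.2).trans (hM x))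

theorem Adm.integrableOn_wt (h : Adm E) : IntegrableOn (wt E) Q (nu E) :=
  h.integrableOn_Q (M := 1) (measurable_wt E)
    (h.wt_bounds.mono fun _ hx _ => (abs_of_nonneg (nrm_nonneg _)).trans_le hx.2)

theorem Adm.relLe_area (h : Adm E) : RelLe E (area E) := by
  intro Z hZ h1 hc hs
  rw [h.div_Q hZ hc hs]
  exact integral_mono (h.integrableOn_dot hZ.continuous.measurable h1) h.integrableOn_wt
    fun x => (le_abs_self _).trans
      ((abs_dot_le _ _).trans (mul_le_of_le_one_left (nrm_nonneg _) (h1 x)))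

theorem Adm.area_le (h : Adm E) {c : ℝ} (hc : RelLe E c) : area E ≤ c := by
  refine le_of_forall_pos_le_add fun δ hδ => ?_
  have m := measurable_rho E
  have m' := measurable_wt E
  have hN : Measurable fun x => (wt E x)⁻¹ • rho E x := by fun_prop
  have hb : ∀ x, nrm ((wt E x)⁻¹ • rho E x) ≤ 1 := fun x => by
    rw [nrm_smul, wt, abs_of_nonneg (inv_nonneg.2 (nrm_nonneg _))]
    exact inv_mul_le_one
  obtain ⟨Z, hZ, h1, h2, h3, h4⟩ := exists_smooth_approx (nu E) (U := Q)
    (isOpen_Ioo.prod (isOpen_Ioo.prod isOpen_Ioo)) h.nu_Q_lt_top hN hb hδ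
  have h5 := hc Z (hZ.of_le one_le_two) h1 h2 h3
  rw [h.div_Q (hZ.of_le one_le_two) h2 h3] at h5
  have mZ := hZ.continuous.measurable
  have i1 := h.integrableOn_dot mZ h1
  have i2 : IntegrableOn (fun x => nrm ((wt E x)⁻¹ • rho E x - Z x)) Q (nu E) :=
    h.integrableOn_Q (M := 2) (continuous_nrm.measurable.comp (hN.sub mZ))
      (Eventually.of_forall fun x _ => by
        have a1 := nrm_add_le ((wt E x)⁻¹ • rho E x) ((-1 : ℝ) • Z x)
        rw [nrm_smul (-1), neg_one_smul, ← sub_eq_add_neg] at a1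
        rw [abs_of_nonneg (nrm_nonneg _)]
        norm_num at a1
        linarith [hb x, h1 x])
  refine le_trans ?_ (add_le_add h5 h4)
  rw [← integral_add i1 i2]
  refine integral_mono_ae h.integrableOn_wt (i1.add i2) ?_
  filter_upwards [ae_restrict_of_ae h.wt_bounds] with x hx
  have a1 := (le_abs_self _).trans (abs_dot_le ((wt E x)⁻¹ • rho E x - Z x) (rho E x))
  have a2 := mul_le_of_le_one_right (nrm_nonneg ((wt E x)⁻¹ • rho E x - Z x)) hx.2
  have a3 : dot ((wt E x)⁻¹ • rho E x - Z x) (rho E x) =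
      (wt E x)⁻¹ * dot (rho E x) (rho E x) - dot (Z x) (rho E x) := by
    simp [dot]
    ring
  have a4 : (wt E x)⁻¹ * dot (rho E x) (rho E x) = wt E x := by
    have : wt E x ≠ 0 := by linarith [hx.1]
    rw [dot_self, ← wt]
    field_simp
  change nrm _ * wt E x ≤ _ at a2
  change _ ≤ nrm _ * wt E x at a1
  linarith

end Vale.Agent.P232
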