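import Vale.Agent.P232.Cyl

open MeasureTheory Set Filter Topology
open scoped ENNReal

noncomputable section
namespace Vale.Agent.P232

/-! Task: area entering and leaving the cube through the horizontal faces.
`enter`: exact, by the cylinder structure.  `leave`: choose continuous `ζ₁, ζ₂ ≥ 0`, `ζ₁² + ζ₂² ≤ 1`, close to `rr / ww` in
`L^1(sig)` (`exists_smooth_approx` on `U = (-1,2)^2`, take positive parts), use `wt ≥ ζ₁ rho₁ + ζ₂ rho₂`, the formulas
`integral_Q_rho1/2`, the substitution `x3 = ε s`, monotone convergence of the slices (`hy (slice E t) ↑ hy (slice E 0)` as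
`t ↓ 0`) and Fatou. -/

variable {E : Set P3}

theorem entera_bound {ψ : P2 → ℝ} (hψ : Continuous ψ) (ε : ℝ) :
    ∃ K : ℝ, ∀ p ∈ sqc, ε * ψ p ≤ K := by
  obtain ⟨K, hK⟩ := (isCompact_Icc.prod isCompact_Icc :
    IsCompact (Icc (0 : ℝ) 1 ×ˢ Icc (0 : ℝ) 1)).exists_bound_of_continuousOn
      (continuous_const.mul hψ (f := fun _ => ε)).continuousOn
  exact ⟨K, fun p hp => (le_abs_self _).trans (hK p (sqc_subset hp))⟩

theorem entera_abs (S : Set P3) (x : P3) : |S.indicator (fun _ => (1 : ℝ)) x| ≤ 1 := by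
  by_cases hx : x ∈ S <;> simp [hx]

theorem entera_arc (D : Set P2) (ψ φ : P2 → ℝ) (ε : ℝ)
    (h : ∀ p, φ p = sq.indicator (fun p => ε * ψ p) p) : arc D φ = ε * arcO D ψ := by
  rw [← arcO_smul, arc, arcO, ← inter_eq_self_of_subset_right sq_subset_sqc,
    ← setIntegral_indicator measurableSet_sq]
  refine integral_congr_ae (Eventually.of_forall fun p => ?_)
  simp only [h]
  by_cases hp : p ∈ sq <;> simp [hp]

theorem entera_red {ν : Measure P3} {S T : Set P3} (hS : MeasurableSet S) (f : P3 → ℝ)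
    (h : ∀ᵐ x ∂ν, x ∈ S → x ∈ T) :
    ∫ x in S, f x ∂ν = ∫ x in T, S.indicator (fun _ => (1 : ℝ)) x * f x ∂ν := by
  have h1 : (T ∩ S : Set P3) =ᵐ[ν] S := by
    filter_upwards [h] with x hx
    exact propext ⟨fun h2 => h2.2, fun h2 => ⟨hx h2, h2⟩⟩
  rw [← setIntegral_congr_set h1, ← setIntegral_indicator hS]
  refine integral_congr_ae (Eventually.of_forall fun x => ?_)
  by_cases hx : x ∈ S <;> simp [hx]

theorem Adm.enter0 (h : Adm E) {ψ : P2 → ℝ} (hψ : Continuous ψ) (h0 : ∀ p, 0 ≤ ψ p) {ε : ℝ} (hε : 0 < ε) :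
    ∫ x in {x : P3 | ((x.1, x.2.1) : P2) ∈ sq ∧ -(ε * ψ (x.1, x.2.1)) < x.2.2 ∧ x.2.2 ≤ 0}, wt E x ∂(nu E)
      = ε * arcO (P232.slice E 0) ψ := by
  obtain ⟨K, hK⟩ := entera_bound hψ ε
  have hm : Measurable fun x : P3 => ((x.1, x.2.1) : P2) := by fun_prop
  have hm2 : Measurable fun x : P3 => ε * ψ (x.1, x.2.1) :=
    measurable_const.mul (hψ.measurable.comp hm)
  have hS : MeasurableSet {x : P3 | ((x.1, x.2.1) : P2) ∈ sq ∧ -(ε * ψ (x.1, x.2.1)) < x.2.2 ∧
      x.2.2 ≤ 0} := (hm measurableSet_sq).inter ((measurableSet_lt hm2.neg measurable_snd.snd).inter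
        (measurableSet_le measurable_snd.snd measurable_const))
  rw [entera_red (T := {x : P3 | x.2.2 < 0 ∧ ((x.1, x.2.1) : P2) ∈ sqc}) hS _
    (h.ae_ne_zero.mono fun x hx h1 => ⟨lt_of_le_of_ne h1.2.2 hx.2.2, sq_subset_sqc h1.1⟩),
    h.integral_below (measurable_const.indicator hS) (entera_abs _) (K := K)]
  · refine entera_arc _ _ _ _ fun p => ?_
    by_cases hp : p ∈ sq
    · rw [indicator_of_mem hp, setIntegral_congr_fun (g := (Ioi (-(ε * ψ p))).indicator
        fun _ => (1 : ℝ)) measurableSet_Iio, setIntegral_indicator measurableSet_Ioi,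
        Iio_inter_Ioi]
      · simp [mul_nonneg hε.le (h0 p)]
      · intro z hz
        have hz' : z ≤ 0 := le_of_lt hz
        by_cases h1 : -(ε * ψ p) < z <;> simp [hp, hz', h1]
    · simp [hp]
  · intro x h1 h2
    refine indicator_of_notMem (fun h3 => ?_) _
    have := hK _ h2
    linarith [h3.2.1]

theorem Adm.enter1 (h : Adm E) {ψ : P2 → ℝ} (hψ : Continuous ψ) (h0 : ∀ p, 0 ≤ ψ p) {ε : ℝ} (hε : 0 < ε) :
    ∫ x in {x : P3 | ((x.1, x.2.1) : P2) ∈ sq ∧ 1 ≤ x.2.2 ∧ x.2.2 < 1 + ε * ψ (x.1, x.2.1)}, wt E x ∂(nu E)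
      = ε * arc (P232.slice E 1) ψ := by
  obtain ⟨K, hK⟩ := entera_bound hψ ε
  have hm : Measurable fun x : P3 => ((x.1, x.2.1) : P2) := by fun_prop
  have hm2 : Measurable fun x : P3 => 1 + ε * ψ (x.1, x.2.1) :=
    measurable_const.add (measurable_const.mul (hψ.measurable.comp hm))
  have hS : MeasurableSet {x : P3 | ((x.1, x.2.1) : P2) ∈ sq ∧ 1 ≤ x.2.2 ∧
      x.2.2 < 1 + ε * ψ (x.1, x.2.1)} := (hm measurableSet_sq).inter
        ((measurableSet_le measurable_const measurable_snd.snd).inter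
          (measurableSet_lt measurable_snd.snd hm2))
  rw [entera_red (T := {x : P3 | 1 < x.2.2 ∧ ((x.1, x.2.1) : P2) ∈ sqc}) hS _
    (h.ae_ne_one.mono fun x hx h1 => ⟨lt_of_le_of_ne h1.2.1
      (hx h1.1.1.1 h1.1.2.1 (one_pos.trans_le h1.2.1)).2.2.symm, sq_subset_sqc h1.1⟩),
    h.integral_above (measurable_const.indicator hS) (entera_abs _) (K := 1 + K), ← h.arcO_far ψ]
  · refine entera_arc _ _ _ _ fun p => ?_
    by_cases hp : p ∈ sq
    · rw [indicator_of_mem hp, setIntegral_congr_fun (g := (Iio (1 + ε * ψ p)).indicator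
        fun _ => (1 : ℝ)) measurableSet_Ioi, setIntegral_indicator measurableSet_Iio,
        Ioi_inter_Iio]
      · simp [mul_nonneg hε.le (h0 p)]
      · intro z hz
        have hz' : 1 ≤ z := le_of_lt hz
        by_cases h1 : z < 1 + ε * ψ p <;> simp [hp, hz', h1]
    · simp [hp]
  · intro x h1 h2
    refine indicator_of_notMem (fun h3 => ?_) _
    have := hK _ h2
    linarith [h3.2.2]

end Vale.Agent.P232
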