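import Vale.Agent.P232.Cyl
import Vale.Agent.P232.Approx

open MeasureTheory Set Filter Topology
open scoped ENNReal

noncomputable section
namespace Vale.Agent.P232

/-! Task: area entering and leaving the cube through the horizontal faces.
`enter`: exact, by the cylinder structure.  `leave`: choose continuous `ζ₁, ζ₂ ≥ 0`, `ζ₁² + ζ₂² ≤ 1`, close to `rr / ww` in
`L^1(sig)` (`exists_smooth_approx` on `U = (-1,2)^2`, take positive parts), use `wt ≥ ζ₁ rho₁ + ζ₂ rho₂`, the formulas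
`integral_Q_rho1/2`, the substitution `x3 = ε s`, monotone convergence of the slices (`hy (slice E t) ↑ hy (slice E 0)` as
`t ↓ 0`) and Fatou. -/

theorem EnterB_point {S : Set ℝ} {a b : ℝ → ℝ} {a0 b0 : ℝ} (hb0 : ∀ z, 0 ≤ b z)
    (hint : ∀ ε : ℝ, IntegrableOn ({z ∈ S | z ≤ ε * a z}.indicator b) (Ioo (0 : ℝ) 1))
    (hS : ∀ᶠ z in 𝓝[>] (0 : ℝ), z ∈ S) (ha : Tendsto a (𝓝[>] 0) (𝓝 a0))
    (hb : Tendsto b (𝓝[>] 0) (𝓝 b0)) {t : ℝ} (ht : t < a0 * b0) :
    ∀ᶠ ε in 𝓝[>] (0 : ℝ), t < ε⁻¹ * ∫ z in Ioo (0 : ℝ) 1, {z ∈ S | z ≤ ε * a z}.indicator b z := by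
  have hnn : ∀ ε : ℝ, 0 ≤ {z ∈ S | z ≤ ε * a z}.indicator b := fun ε z =>
    indicator_nonneg (fun z _ => hb0 z) z
  rcases lt_or_ge t 0 with h0 | h0
  · filter_upwards [self_mem_nhdsWithin] with ε hε
    exact h0.trans_le (mul_nonneg (inv_nonneg.2 (le_of_lt hε)) (integral_nonneg (hnn ε)))
  have hb1 : 0 ≤ b0 := ge_of_tendsto' hb hb0
  have hab := h0.trans_lt ht
  have hb2 : 0 < b0 := hb1.lt_of_ne fun h => by simp [← h] at hab
  have ha2 : 0 < a0 := (mul_pos_iff_of_pos_right hb2).1 hab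
  have h1 : Tendsto (fun δ : ℝ => (a0 - δ) * (b0 - δ)) (𝓝[>] 0) (𝓝 (a0 * b0)) := by
    have h2 : Continuous fun δ : ℝ => (a0 - δ) * (b0 - δ) := by fun_prop
    simpa using (h2.tendsto 0).mono_left nhdsWithin_le_nhds
  obtain ⟨δ, ⟨h2, h3⟩, h4⟩ := ((h1.eventually (lt_mem_nhds ht)).and
    ((Ioo_mem_nhdsGT (lt_min ha2 hb2)) : ∀ᶠ δ in 𝓝[>] (0 : ℝ), δ ∈ Ioo 0 (min a0 b0))).exists.imp
      fun δ h => (⟨⟨h.2.1, h.2.2⟩, h.1⟩ : (0 < δ ∧ δ < min a0 b0) ∧ t < (a0 - δ) * (b0 - δ))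
  have h5 : 0 < a0 - δ := sub_pos.2 (h3.trans_le (min_le_left _ _))
  obtain ⟨η, hη, h6⟩ := (mem_nhdsGT_iff_exists_Ioo_subset).1
    ((hS.and (ha.eventually (lt_mem_nhds (sub_lt_self a0 h2)))).and
      ((hb.eventually (lt_mem_nhds (sub_lt_self b0 h2))).and (Ioo_mem_nhdsGT one_pos)))
  filter_upwards [Ioo_mem_nhdsGT (div_pos hη h5)] with ε hε
  have h7 : ε * (a0 - δ) < η := (lt_div_iff₀ h5).1 hε.2
  have h8 : Ioo 0 (ε * (a0 - δ)) ⊆ Ioo 0 η := Ioo_subset_Ioo_right h7.le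
  have h9 : Ioo 0 (ε * (a0 - δ)) ⊆ Ioo (0 : ℝ) 1 := fun z hz => (h6 (h8 hz)).2.2
  have h10 : ∫ _ in Ioo 0 (ε * (a0 - δ)), (b0 - δ) ≤
      ∫ z in Ioo 0 (ε * (a0 - δ)), {z ∈ S | z ≤ ε * a z}.indicator b z := by
    refine setIntegral_mono_on (integrableOn_const (by simp)) ((hint ε).mono_set h9)
      measurableSet_Ioo fun z hz => ?_
    obtain ⟨⟨h11, h12⟩, h13, -⟩ := h6 (h8 hz)
    rw [indicator_of_mem (show z ∈ {z ∈ S | z ≤ ε * a z} from
      ⟨h11, hz.2.le.trans (mul_le_mul_of_nonneg_left h12.le hε.1.le)⟩)]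
    exact h13.le
  have h11 := h10.trans (setIntegral_mono_set (hint ε) (Eventually.of_forall (hnn ε))
    h9.eventuallyLE)
  rw [setIntegral_const, Real.volume_real_Ioo_of_le (mul_pos hε.1 h5).le, sub_zero,
    smul_eq_mul] at h11
  rw [lt_inv_mul_iff₀ hε.1]
  refine lt_of_lt_of_le ?_ h11
  rw [mul_assoc]
  exact mul_lt_mul_of_pos_left h4 hε.1

theorem EnterB_core {S : Set P2} (hSm : MeasurableSet S) {a b : P2 → ℝ} (ham : Measurable a)
    (hbm : Measurable b) (hb0 : ∀ p, 0 ≤ b p) (hb1 : ∀ p, b p ≤ 1) {T : Set ℝ}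
    (hT : MeasurableSet T) (hT1 : T ⊆ Ioo 0 1) {a0 b0 : ℝ → ℝ}
    (hm : Measurable fun x => a0 x * b0 x) {M : ℝ} (hM : ∀ x ∈ T, |a0 x * b0 x| ≤ M)
    (hS : ∀ x ∈ T, ∀ᶠ z in 𝓝[>] (0 : ℝ), (x, z) ∈ S)
    (ha : ∀ x ∈ T, Tendsto (fun z => a (x, z)) (𝓝[>] 0) (𝓝 (a0 x)))
    (hb : ∀ x ∈ T, Tendsto (fun z => b (x, z)) (𝓝[>] 0) (𝓝 (b0 x))) {κ : ℝ} (hκ : 0 < κ) :
    ∀ᶠ ε in 𝓝[>] (0 : ℝ), ε * ((∫ x in T, a0 x * b0 x) - κ) ≤
      ∫ p in S ∩ sq, {p : P2 | p.2 ≤ ε * a p}.indicator b p := by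
  have hA : ∀ ε : ℝ, MeasurableSet {p : P2 | p.2 ≤ ε * a p} := fun ε =>
    measurableSet_le measurable_snd (ham.const_mul ε)
  set G : ℝ → P2 → ℝ := fun ε => (S ∩ {p : P2 | p.2 ≤ ε * a p}).indicator b with hG
  have hGm : ∀ ε, Measurable (G ε) := fun ε => hbm.indicator (hSm.inter (hA ε))
  have hG0 : ∀ ε p, 0 ≤ G ε p := fun ε p => indicator_nonneg (fun p _ => hb0 p) p
  have hG1 : ∀ ε p, ‖G ε p‖ ≤ 1 := fun ε p => by
    rw [Real.norm_of_nonneg (hG0 ε p)]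
    exact indicator_apply_le' (fun _ => hb1 p) fun _ => zero_le_one
  have hGi : ∀ ε, Integrable (G ε)
      ((volume.restrict (Ioo (0 : ℝ) 1)).prod (volume.restrict (Ioo (0 : ℝ) 1))) := fun ε =>
    .of_bound (hGm ε).aestronglyMeasurable 1 (Eventually.of_forall (hG1 ε))
  set g : ℝ → ℝ → ℝ := fun ε x => ∫ z in Ioo (0 : ℝ) 1, G ε (x, z) with hg
  have hg0 : ∀ ε x, 0 ≤ g ε x := fun ε x => integral_nonneg fun z => hG0 ε _
  have hgi : ∀ ε, IntegrableOn (g ε) (Ioo (0 : ℝ) 1) := fun ε => (hGi ε).integral_prod_left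
  have hgm : ∀ ε, Measurable (g ε) := fun ε =>
    (hGm ε).stronglyMeasurable.integral_prod_right'.measurable
  have e1 : ∀ ε, ∫ p in S ∩ sq, {p : P2 | p.2 ≤ ε * a p}.indicator b p =
      ∫ x in Ioo (0 : ℝ) 1, g ε x := by
    intro ε
    rw [inter_comm, ← setIntegral_indicator hSm, indicator_indicator, ← integral_prod _ (hGi ε),
      Measure.prod_restrict]
    rfl
  have : IsFiniteMeasure (volume.restrict T) :=
    isFiniteMeasure_restrict.2 ((measure_mono hT1).trans_lt (by simp)).ne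
  have hlim : Tendsto (fun ε => ∫ x in T, min (ε⁻¹ * g ε x) (a0 x * b0 x)) (𝓝[>] 0)
      (𝓝 (∫ x in T, a0 x * b0 x)) := by
    refine tendsto_integral_filter_of_dominated_convergence (fun _ => M)
      (Eventually.of_forall fun ε => (((hgm ε).const_mul _).min hm).aestronglyMeasurable) ?_
      (integrable_const M) ?_
    · filter_upwards [self_mem_nhdsWithin] with ε hε
      filter_upwards [ae_restrict_mem hT] with x hx
      have h1 := abs_le.1 (hM x hx)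
      have h2 := mul_nonneg (inv_nonneg.2 (le_of_lt hε)) (hg0 ε x)
      rw [Real.norm_eq_abs, abs_le]
      exact ⟨le_min (by linarith) h1.1, (min_le_right _ _).trans h1.2⟩
    · filter_upwards [ae_restrict_mem hT] with x hx
      refine tendsto_order.2 ⟨fun t ht => ?_, fun t ht =>
        Eventually.of_forall fun ε => (min_le_right _ _).trans_lt ht⟩
      refine (EnterB_point (S := {z | (x, z) ∈ S}) (a := fun z => a (x, z))
        (b := fun z => b (x, z)) (fun z => hb0 _) (fun ε => ?_) (hS x hx) (ha x hx) (hb x hx)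
        ht).mono fun ε hε => lt_min hε ht
      exact Integrable.of_bound ((hGm ε).comp measurable_prodMk_left).aestronglyMeasurable 1
        (Eventually.of_forall fun z => hG1 ε (x, z))
  filter_upwards [hlim.eventually (lt_mem_nhds (sub_lt_self _ hκ)), self_mem_nhdsWithin]
    with ε h1 (hε : 0 < ε)
  have h2 : ∫ x in T, min (ε⁻¹ * g ε x) (a0 x * b0 x) ≤ ∫ x in T, ε⁻¹ * g ε x := by
    have h3 : IntegrableOn (fun x => a0 x * b0 x) T :=
      Integrable.of_bound hm.aestronglyMeasurable M ((ae_restrict_mem hT).mono hM)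
    have h4 : IntegrableOn (fun x => ε⁻¹ * g ε x) T := ((hgi ε).mono_set hT1).const_mul _
    exact integral_mono (h4.inf h3) h4 fun x => min_le_left _ _
  rw [integral_const_mul] at h2
  rw [e1]
  refine le_trans ?_ (setIntegral_mono_set (hgi ε) (Eventually.of_forall (hg0 ε))
    hT1.eventuallyLE)
  exact (le_inv_mul_iff₀ hε).1 (h1.le.trans h2)

theorem EnterB_fam {D : ℝ → Set P2} (hD : ∀ z, Adm2 (D z)) (hsub : ∀ z, 0 < z → D z ⊆ D 0)
    (hev : ∀ p ∈ D 0, ∀ᶠ z in 𝓝[>] (0 : ℝ), p ∈ D z) {x : ℝ} (hx : x ∈ domy (D 0)) :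
    (∀ᶠ z in 𝓝[>] (0 : ℝ), x ∈ domy (D z)) ∧
      Tendsto (fun z => hy (D z) x) (𝓝[>] 0) (𝓝 (hy (D 0) x)) := by
  have h1 : ∀ᶠ z in 𝓝[>] (0 : ℝ), x ∈ domy (D z) := by
    filter_upwards [hev _ hx.1, self_mem_nhdsWithin] with z h1 h2
    exact ⟨h1, fun h => hx.2 (hsub z h2 h)⟩
  refine ⟨h1, tendsto_order.2 ⟨fun t ht => ?_, fun t ht => ?_⟩⟩
  · filter_upwards [h1, hev _ (((hD 0).mem_iff_of_domy hx t).2 ht)] with z h2 h3
    exact ((hD z).mem_iff_of_domy h2 t).1 h3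
  · filter_upwards [h1, self_mem_nhdsWithin] with z h2 h3
    refine lt_of_le_of_lt (le_of_forall_lt fun s hs => ?_) ht
    exact ((hD 0).mem_iff_of_domy hx s).1 (hsub z h3 (((hD z).mem_iff_of_domy h2 s).2 hs))

theorem EnterB_side {D : ℝ → Set P2} (hD : ∀ z, Adm2 (D z)) (hsub : ∀ z, 0 < z → D z ⊆ D 0)
    (hev : ∀ p ∈ D 0, ∀ᶠ z in 𝓝[>] (0 : ℝ), p ∈ D z)
    (hS : MeasurableSet {p : P2 | p.1 ∈ domy (D p.2)})
    (hm : Measurable fun p : P2 => hy (D p.2) p.1) {ψ ζ : P2 → ℝ} (hψ : Continuous ψ)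
    (hζ : Continuous ζ) (h0 : ∀ p, 0 ≤ ζ p) (h1 : ∀ p, ζ p ≤ 1) {κ : ℝ} (hκ : 0 < κ) :
    ∀ᶠ ε in 𝓝[>] (0 : ℝ),
      ε * ((∫ x in domy (D 0) ∩ Ioo 0 1, ψ (x, hy (D 0) x) * ζ (x, hy (D 0) x)) - κ) ≤
        ∫ p in {p : P2 | p.1 ∈ domy (D p.2)} ∩ sq,
          {p : P2 | p.2 ≤ ε * ψ (p.1, hy (D p.2) p.1)}.indicator
            (fun p => ζ (p.1, hy (D p.2) p.1)) p := by
  have h2 : Measurable fun p : P2 => ((p.1, hy (D p.2) p.1) : P2) := measurable_fst.prodMk hm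
  have h3 : Measurable fun x : ℝ => ((x, hy (D 0) x) : P2) :=
    measurable_id.prodMk (measurable_hy (hD 0).isOpen.measurableSet)
  obtain ⟨M, hM⟩ := (isCompact_Icc (a := ((0, 0) : P2)) (b := (1, 1))).exists_bound_of_continuousOn
    (hψ.mul hζ).continuousOn
  have h4 : ∀ x ∈ domy (D 0) ∩ Ioo 0 1,
      Tendsto (fun z => ((x, hy (D z) x) : P2)) (𝓝[>] 0) (𝓝 (x, hy (D 0) x)) := fun x hx =>
    tendsto_const_nhds.prodMk_nhds (EnterB_fam hD hsub hev hx.1).2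
  exact EnterB_core hS (hψ.measurable.comp h2) (hζ.measurable.comp h2) (fun _ => h0 _)
    (fun _ => h1 _) ((hD 0).measurableSet_domy.inter measurableSet_Ioo) inter_subset_right
    (a0 := fun x => ψ (x, hy (D 0) x)) (b0 := fun x => ζ (x, hy (D 0) x))
    ((hψ.mul hζ).measurable.comp h3) (M := M)
    (fun x hx => hM (x, hy (D 0) x)
      ⟨⟨hx.2.1.le, hy_nonneg _ _⟩, ⟨hx.2.2.le, hy_le_one _ _⟩⟩)
    (fun x hx => (EnterB_fam hD hsub hev hx.1).1)
    (fun x hx => (hψ.tendsto _).comp (h4 x hx)) (fun x hx => (hζ.tendsto _).comp (h4 x hx)) hκ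

theorem EnterB_calib {D : Set P2} (h : Adm2 D) {ψ : P2 → ℝ} (hψ : Continuous ψ)
    (h0 : ∀ p, 0 ≤ ψ p) {κ : ℝ} (hκ : 0 < κ) :
    ∃ ζ₁ ζ₂ : P2 → ℝ, Continuous ζ₁ ∧ Continuous ζ₂ ∧ (∀ p, 0 ≤ ζ₁ p) ∧ (∀ p, 0 ≤ ζ₂ p) ∧
      (∀ p, ζ₁ p ^ 2 + ζ₂ p ^ 2 ≤ 1) ∧ arc D ψ - κ ≤
        (∫ y in domy (Prod.swap ⁻¹' D) ∩ Ioo 0 1,
          ψ (hy (Prod.swap ⁻¹' D) y, y) * ζ₁ (hy (Prod.swap ⁻¹' D) y, y)) +
        ∫ x in domy D ∩ Ioo 0 1, ψ (x, hy D x) * ζ₂ (x, hy D x) := by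
  have := h.sig_locFin
  obtain ⟨M0, hM0⟩ := (isCompact_Icc (a := ((0, 0) : P2))
    (b := (1, 1))).exists_bound_of_continuousOn hψ.continuousOn
  set M := max M0 1 with hMd
  have hM1 : 0 < M := lt_max_of_lt_right one_pos
  have hM : ∀ p ∈ sqc, ψ p ≤ M := fun p hp =>
    ((le_abs_self _).trans (hM0 p ⟨⟨hp.1.1.le, hp.2.1.le⟩, ⟨hp.1.2, hp.2.2⟩⟩)).trans
      (le_max_left _ _)
  set N : P2 → P3 := fun p => (ww D p)⁻¹ • ((rr D p).1, (rr D p).2, 0) with hN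
  have hw : ∀ p, nrm ((rr D p).1, (rr D p).2, 0) = ww D p := fun p => by simp [nrm, ww]
  have hNm : Measurable N := (measurable_ww D).inv.smul
    ((measurable_rr D).fst.prodMk ((measurable_rr D).snd.prodMk measurable_const))
  have hN1 : ∀ p, nrm (N p) ≤ 1 := fun p => by
    rw [hN, nrm_smul, hw, abs_of_nonneg (inv_nonneg.2 (ww_nonneg D p))]
    exact inv_mul_le_one
  have hU : sig D (Ioo (-1 : ℝ) 2 ×ˢ Ioo (-1 : ℝ) 2) < ⊤ :=
    ((Metric.isBounded_Ioo _ _).prod (Metric.isBounded_Ioo _ _)).measure_lt_top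
  obtain ⟨Z, hZ, hZ1, -, -, hZ2⟩ := exists_smooth_approx (sig D) (isOpen_Ioo.prod isOpen_Ioo) hU
    hNm hN1 (div_pos hκ hM1)
  have hc1 : Continuous fun p => max (Z p).1 0 := hZ.continuous.fst.max continuous_const
  have hc2 : Continuous fun p => max (Z p).2.1 0 := hZ.continuous.snd.fst.max continuous_const
  have hsq : ∀ p, max (Z p).1 0 ^ 2 + max (Z p).2.1 0 ^ 2 ≤ 1 := fun p => by
    have h1 : ∀ t : ℝ, max t 0 ^ 2 ≤ t ^ 2 := fun t => by
      rcases le_total t 0 with h2 | h2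
      · rw [max_eq_right h2]
        nlinarith
      · rw [max_eq_left h2]
    have h2 := Real.sqrt_le_one.1 (hZ1 p)
    nlinarith [h1 (Z p).1, h1 (Z p).2.1, sq_nonneg (Z p).2.2]
  refine ⟨_, _, hc1, hc2, fun p => le_max_right _ _, fun p => le_max_right _ _, hsq, ?_⟩
  rw [← h.integral_sqc_rr1 (F := fun p => ψ p * max (Z p).1 0) (hψ.mul hc1).measurable,
    ← h.integral_sqc_rr2 (F := fun p => ψ p * max (Z p).2.1 0) (hψ.mul hc2).measurable]
  have hr : ∀ᵐ p ∂(sig D), (rr D p).1 ≤ 1 ∧ (rr D p).2 ≤ 1 := h.rr_sum.mono fun p hp => by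
    have h1 := rr_nonneg D p
    constructor <;> linarith [h1.1, h1.2]
  have hb : ∀ {a b c : ℝ}, 0 ≤ a → a ≤ M → 0 ≤ b → b ≤ 1 → 0 ≤ c → c ≤ 1 → |a * b * c| ≤ M := by
    intro a b c h1 h2 h3 h4 h5 h6
    rw [abs_of_nonneg (by positivity)]
    exact (mul_le_of_le_one_right (by positivity) h6).trans
      ((mul_le_of_le_one_right h1 h4).trans h2)
  have i1 : IntegrableOn (fun p => ψ p * max (Z p).1 0 * (rr D p).1) sqc (sig D) :=
    h.integrableOn_sqc ((hψ.mul hc1).measurable.mul (measurable_rr D).fst) (M := M)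
      (hr.mono fun p hp hp' => hb (h0 p) (hM p hp') (le_max_right _ _)
        (by nlinarith [hsq p, sq_nonneg (max (Z p).2.1 0)]) (rr_nonneg D p).1 hp.1)
  have i2 : IntegrableOn (fun p => ψ p * max (Z p).2.1 0 * (rr D p).2) sqc (sig D) :=
    h.integrableOn_sqc ((hψ.mul hc2).measurable.mul (measurable_rr D).snd) (M := M)
      (hr.mono fun p hp hp' => hb (h0 p) (hM p hp') (le_max_right _ _)
        (by nlinarith [hsq p, sq_nonneg (max (Z p).1 0)]) (rr_nonneg D p).2 hp.2)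
  have i3 : IntegrableOn (fun p => ψ p * ww D p) sqc (sig D) :=
    h.integrableOn_sqc (hψ.measurable.mul (measurable_ww D)) (M := M)
      (h.ww_bounds.mono fun p hp hp' => by
        simpa using hb (h0 p) (hM p hp') (ww_nonneg D p) hp.2 zero_le_one le_rfl)
  have i4 : IntegrableOn (fun p => nrm (N p - Z p)) (Ioo (-1 : ℝ) 2 ×ˢ Ioo (-1 : ℝ) 2) (sig D) := by
    have := isFiniteMeasure_restrict.2 hU.ne
    refine Integrable.of_bound (continuous_nrm.measurable.comp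
      (hNm.sub hZ.continuous.measurable)).aestronglyMeasurable 2 (Eventually.of_forall fun p => ?_)
    have h1 := nrm_add_le (N p) ((-1 : ℝ) • Z p)
    rw [nrm_smul (-1), neg_one_smul, ← sub_eq_add_neg, abs_neg, abs_one, one_mul] at h1
    rw [Real.norm_of_nonneg (nrm_nonneg _)]
    linarith [hN1 p, hZ1 p]
  have hsub : sqc ⊆ Ioo (-1 : ℝ) 2 ×ˢ Ioo (-1 : ℝ) 2 := fun p hp =>
    ⟨⟨by linarith [hp.1.1], by linarith [hp.1.2]⟩, ⟨by linarith [hp.2.1], by linarith [hp.2.2]⟩⟩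
  have h1 : ∫ p in sqc, nrm (N p - Z p) ∂(sig D) ≤ κ / M :=
    (setIntegral_mono_set i4 (Eventually.of_forall fun p => nrm_nonneg _)
      hsub.eventuallyLE).trans hZ2
  have h2 : arc D ψ ≤ ∫ p in sqc, (ψ p * max (Z p).1 0 * (rr D p).1 +
      ψ p * max (Z p).2.1 0 * (rr D p).2) + M * nrm (N p - Z p) ∂(sig D) := by
    refine setIntegral_mono_on_ae i3 ((i1.add i2).add ((i4.mono_set hsub).const_mul M))
      measurableSet_sqc (h.ww_bounds.mono fun p hp hp' => ?_)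
    have h3 : 0 < ww D p := by linarith [hp.1]
    have h4 := (le_abs_self _).trans (abs_dot_le (N p - Z p) ((rr D p).1, (rr D p).2, 0))
    have h5 : dot (N p - Z p) ((rr D p).1, (rr D p).2, 0) =
        ww D p - ((Z p).1 * (rr D p).1 + (Z p).2.1 * (rr D p).2) := by
      have h6 := dot_self ((rr D p).1, (rr D p).2, 0)
      rw [hw] at h6
      simp only [dot, hN, Prod.fst_sub, Prod.snd_sub, Prod.smul_mk, smul_eq_mul] at h6 ⊢
      field_simp
      linear_combination h6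
    rw [h5, hw] at h4
    have h6 := mul_le_of_le_one_right (nrm_nonneg (N p - Z p)) hp.2
    have h7 := mul_le_mul_of_nonneg_right (le_max_left (Z p).1 0) (rr_nonneg D p).1
    have h8 := mul_le_mul_of_nonneg_right (le_max_left (Z p).2.1 0) (rr_nonneg D p).2
    have h9 := mul_le_mul_of_nonneg_right (hM p hp') (nrm_nonneg (N p - Z p))
    have h10 := mul_le_mul_of_nonneg_left (show ww D p ≤ max (Z p).1 0 * (rr D p).1 +
      max (Z p).2.1 0 * (rr D p).2 + nrm (N p - Z p) by linarith) (h0 p)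
    linarith
  rw [integral_add (i1.fun_add i2) ((i4.mono_set hsub).const_mul M), integral_add i1 i2,
    integral_const_mul] at h2
  have h3 := (le_div_iff₀' hM1).1 h1
  linarith

variable {E : Set P3}

theorem Adm.leave0 (h : Adm E) {ψ : P2 → ℝ} (hψ : Continuous ψ) (h0 : ∀ p, 0 ≤ ψ p) {κ : ℝ} (hκ : 0 < κ) :
    ∀ᶠ ε in 𝓝[>] (0 : ℝ), ε * (arc (P232.slice E 0) ψ - κ)
      ≤ ∫ x in {x ∈ Q | x.2.2 ≤ ε * ψ (x.1, x.2.1)}, wt E x ∂(nu E) := by
  obtain ⟨ζ₁, ζ₂, c1, c2, p1, p2, hζ, hle⟩ := EnterB_calib (h.slice 0) hψ h0 (half_pos hκ)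
  have q1 : ∀ p, ζ₁ p ≤ 1 := fun p => by nlinarith [hζ p, sq_nonneg (ζ₂ p)]
  have q2 : ∀ p, ζ₂ p ≤ 1 := fun p => by nlinarith [hζ p, sq_nonneg (ζ₁ p)]
  have hev : ∀ p ∈ P232.slice E 0, ∀ᶠ z in 𝓝[>] (0 : ℝ), p ∈ P232.slice E z := fun p hp =>
    (((by fun_prop : Continuous fun z : ℝ => ((p.1, p.2, z) : P3)).tendsto 0).eventually
      (h.isOpen.mem_nhds hp)).filter_mono nhdsWithin_le_nhds
  have s1 := EnterB_side (D := fun z => Prod.swap ⁻¹' P232.slice E z) (fun z => (h.slice z).swap)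
    (fun z hz p hp => h.slice_anti hz.le hp) (fun p hp => hev _ hp) h.rot.measurableSet_dom
    (measurable_hgt h.rot.measurableSet) (hψ.comp continuous_swap) (c1.comp continuous_swap)
    (fun _ => p1 _) (fun _ => q1 _) (half_pos (half_pos hκ))
  have s2 := EnterB_side (D := fun z => P232.slice E z) h.slice (fun z hz => h.slice_anti hz.le) hev
    (measurable_swap h.rot.rot.measurableSet_dom)
    ((measurable_hgt h.rot.rot.measurableSet).comp measurable_swap) hψ c2 p2 q2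
    (half_pos (half_pos hκ))
  filter_upwards [s1, s2, self_mem_nhdsWithin] with ε t1 t2 (hε : 0 < ε)
  have hpr : Continuous fun x : P3 => ((x.1, x.2.1) : P2) := by fun_prop
  have hA : MeasurableSet {x : P3 | x.2.2 ≤ ε * ψ (x.1, x.2.1)} :=
    measurableSet_le measurable_snd.snd ((hψ.comp hpr).measurable.const_mul ε)
  set A := {x : P3 | x.2.2 ≤ ε * ψ (x.1, x.2.1)} with hAd
  have m1 : Measurable (A.indicator fun x : P3 => ζ₁ (x.1, x.2.1)) :=
    (c1.comp hpr).measurable.indicator hA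
  have m2 : Measurable (A.indicator fun x : P3 => ζ₂ (x.1, x.2.1)) :=
    (c2.comp hpr).measurable.indicator hA
  have u1 := t1.trans_eq (h.integral_Q_rho1 m1).symm
  have e2 : Prod.swap ⁻¹' ({p : P2 | p.1 ∈ domy (P232.slice E p.2)} ∩ sq) =
      dom (P232.rot (P232.rot E)) ∩ sq := Set.ext fun p => and_congr_right fun _ => and_comm
  rw [Measure.volume_eq_prod, ← Measure.measurePreserving_swap.setIntegral_preimage_emb
    MeasurableEquiv.prodComm.measurableEmbedding, e2] at t2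
  have u2 := t2.trans_eq (h.integral_Q_rho2 m2).symm
  have hr : ∀ᵐ x ∂(nu E), (rho E x).1 ≤ 1 ∧ (rho E x).2.1 ≤ 1 := h.rho_sum.mono fun x hx => by
    have h1 := rho_nonneg E x
    constructor <;> linarith [h1.1, h1.2.1, h1.2.2]
  have hb : ∀ {ζ : P2 → ℝ}, (∀ p, 0 ≤ ζ p) → (∀ p, ζ p ≤ 1) → ∀ (x : P3) {c : ℝ}, 0 ≤ c → c ≤ 1 →
      |A.indicator (fun x : P3 => ζ (x.1, x.2.1)) x * c| ≤ 1 := by
    intro ζ h1 h2 x c h3 h4
    rw [abs_of_nonneg (mul_nonneg (indicator_nonneg (fun _ _ => h1 _) x) h3)]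
    exact mul_le_one₀ (indicator_apply_le' (fun _ => h2 _) fun _ => zero_le_one) h3 h4
  have i1 := h.integrableOn_Q (m1.mul (measurable_rho E).fst) (M := 1)
    (hr.mono fun x hx _ => hb p1 q1 x (rho_nonneg E x).1 hx.1)
  have i2 := h.integrableOn_Q (m2.mul (measurable_rho E).snd.fst) (M := 1)
    (hr.mono fun x hx _ => hb p2 q2 x (rho_nonneg E x).2.1 hx.2)
  have i3 := h.integrableOn_Q (measurable_wt E) (M := 1)
    (h.wt_bounds.mono fun x hx _ => abs_le.2 ⟨by linarith [hx.1], hx.2⟩)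
  have v := integral_mono (i1.add i2) (i3.indicator hA) fun x => by
    by_cases hx : x ∈ A
    · have h1 := (le_abs_self _).trans (abs_dot_le (ζ₁ (x.1, x.2.1), ζ₂ (x.1, x.2.1), 0) (rho E x))
      have h2 : nrm (ζ₁ (x.1, x.2.1), ζ₂ (x.1, x.2.1), 0) ≤ 1 :=
        Real.sqrt_le_one.2 (by simpa using hζ _)
      have h3 := mul_le_of_le_one_left (nrm_nonneg (rho E x)) h2
      simp only [dot, zero_mul, add_zero] at h1
      simp only [Pi.add_apply, Pi.mul_apply, indicator_of_mem hx]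
      exact h1.trans h3
    · simp [indicator_of_notMem hx]
  rw [integral_add' i1 i2, setIntegral_indicator hA] at v
  refine le_trans ?_ v
  have h1 := mul_le_mul_of_nonneg_left hle hε.le
  simp only [Function.comp_apply, Prod.swap_prod_mk] at u1
  simp only [Pi.mul_apply]
  linarith

end Vale.Agent.P232
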