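import Vale.Agent.P232.Basic

open MeasureTheory Set Filter Topology
open scoped ENNReal

noncomputable section
namespace Vale.Agent.P232

/-! Convergence of the slices towards the top face. -/

/-- the properties of an admissible set used near the top face -/
structure ECTop (W : Set P3) : Prop where
  meas : MeasurableSet W
  adm : ∀ z, Adm2 (slice W z)
  anti : ∀ x y z z' : ℝ, z ≤ z' → ((x, y, z') : P3) ∈ W → ((x, y, z) : P3) ∈ W
  trace : ∀ x y x' y' : ℝ, 0 < x' → x' < x → 0 < y' → y' < y →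
    (∀ t : ℝ, t < 1 → ((x, y, t) : P3) ∈ W) → ((x', y', 1) : P3) ∈ W
  edge : ∀ x x' : ℝ, 0 < x' → x' < x → (∀ t : ℝ, t < 1 → ((x, t, 1) : P3) ∈ W) →
    ((x', 1, 1) : P3) ∈ W

theorem EC.hy_mono {D D' : Set P2} {x x' : ℝ} (h : ∀ t, ((x, t) : P2) ∈ D → ((x', t) : P2) ∈ D') :
    hy D x ≤ hy D' x' :=
  ENNReal.toReal_mono (ne_top_of_le_ne_top (b := volume (Ioo (0 : ℝ) 1)) (by simp)
    (measure_mono fun _ ht => ht.1)) (measure_mono fun t ht => ⟨ht.1, h t ht.2⟩)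

variable {W : Set P3}

theorem ECTop.out (h : ECTop W) {x : ℝ} (hx : 0 < x) (hc : ContinuousAt (hy (slice W 1)) x)
    {y : ℝ} (hy1 : y ≤ 1) (hlt : hy (slice W 1) x < y) : ∃ z < 1, ((x, y, z) : P3) ∉ W := by
  by_contra hno
  push Not at hno
  obtain ⟨y', h1, h2⟩ := exists_between hlt
  have h0 : 0 < y' := (hy_nonneg _ _).trans_lt h1
  have h3 : ∀ᶠ x' in 𝓝[<] x, y' ≤ hy (slice W 1) x' := by
    filter_upwards [Ioo_mem_nhdsLT hx] with x' hx'
    exact (((h.adm 1).mem_iff_hy x' ⟨h0, h2.trans_le hy1⟩).1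
      (h.trace x y x' y' hx'.1 hx'.2 h0 h2 hno)).le
  exact absurd (ge_of_tendsto (hc.tendsto.mono_left nhdsWithin_le_nhds) h3) (not_le.2 h1)

theorem ECTop.conv (h : ECTop W) : ∀ᵐ x : ℝ, x ∈ domy (slice W 1) ∩ Ioo 0 1 →
    (∀ᶠ z in 𝓝[<] (1 : ℝ), x ∈ domy (slice W z)) ∧
      Tendsto (fun z => hy (slice W z) x) (𝓝[<] 1) (𝓝 (hy (slice W 1) x)) := by
  have ha : Antitone (hy (slice W 1)) := fun a b hab =>
    EC.hy_mono fun t ht => (h.adm 1).lower (show ((a, t) : P2) ≤ (b, t) from ⟨hab, le_rfl⟩) ht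
  have h1 : ∀ᵐ x : ℝ, ContinuousAt (hy (slice W 1)) x :=
    (ha.countable_not_continuousAt.measure_zero volume)
  have hs : {x : ℝ | x ∈ domy (slice W 1) ∩ Ioo 0 1 ∧ hy (slice W 1) x = 1}.Subsingleton := by
    have key : ∀ a b : ℝ, a < b → (a ∈ domy (slice W 1) ∩ Ioo 0 1 ∧ hy (slice W 1) a = 1) →
        (b ∈ domy (slice W 1) ∩ Ioo 0 1 ∧ hy (slice W 1) b = 1) → False := by
      intro a b hab ha' hb
      refine ha'.1.1.2 (h.edge b a ha'.1.2.1 hab fun t ht => ?_)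
      rcases le_or_gt t 0 with h0 | h0
      · exact (h.adm 1).lower (show ((b, t) : P2) ≤ (b, 0) from ⟨le_rfl, h0⟩) hb.1.1.1
      · exact ((h.adm 1).mem_iff_hy b ⟨h0, ht⟩).2 (ht.trans_eq hb.2.symm)
    intro a ha' b hb
    rcases lt_trichotomy a b with hab | hab | hab
    · exact (key a b hab ha' hb).elim
    · exact hab
    · exact (key b a hab hb ha').elim
  have h2 : ∀ᵐ x : ℝ, ¬(x ∈ domy (slice W 1) ∩ Ioo 0 1 ∧ hy (slice W 1) x = 1) :=
    measure_eq_zero_iff_ae_notMem.1 (hs.measure_zero volume)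
  filter_upwards [h1, h2] with x hc hne hx
  have hlt : hy (slice W 1) x < 1 := lt_of_le_of_ne (hy_le_one _ _) fun e => hne ⟨hx, e⟩
  constructor
  · obtain ⟨z0, hz0, hn⟩ := h.out hx.2.1 hc le_rfl hlt
    filter_upwards [Ioo_mem_nhdsLT hz0] with z hz
    exact ⟨h.anti x 0 z 1 hz.2.le hx.1.1, fun e => hn (h.anti x 1 z0 z hz.1.le e)⟩
  · refine tendsto_order.2 ⟨fun a ha' => ?_, fun a ha' => ?_⟩
    · filter_upwards [self_mem_nhdsWithin] with z hz
      exact ha'.trans_le (EC.hy_mono fun t ht => h.anti x t z 1 (le_of_lt hz) ht)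
    · obtain ⟨y, h3, h4⟩ := exists_between (lt_min ha' hlt)
      have h5 : y < 1 := h4.trans_le (min_le_right _ _)
      obtain ⟨z0, hz0, hn⟩ := h.out hx.2.1 hc h5.le h3
      filter_upwards [Ioo_mem_nhdsLT hz0] with z hz
      have h6 : ¬ y < hy (slice W z) x := fun e => hn (h.anti x y z0 z hz.1.le
        (((h.adm z).mem_iff_hy x ⟨(hy_nonneg _ _).trans_lt h3, h5⟩).2 e))
      exact (not_lt.1 h6).trans_lt (h4.trans_le (min_le_left _ _))

/-- the integrand in the coordinates (abscissa, height) -/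
def ECf (W : Set P3) (ψ ζ : P2 → ℝ) (ε : ℝ) (q : P2) : ℝ :=
  {q : P2 | q.1 ∈ domy (slice W q.2) ∧ 1 - ε * ψ (q.1, hy (slice W q.2) q.1) ≤ q.2}.indicator
    (fun q => ζ (q.1, hy (slice W q.2) q.1)) q

theorem ECTop.meas_hy (h : ECTop W) : Measurable fun q : P2 => hy (slice W q.2) q.1 :=
  measurable_hgt (E := (fun y : P3 => ((y.1, y.2.2, y.2.1) : P3)) ⁻¹' W)
    ((by fun_prop : Measurable fun y : P3 => ((y.1, y.2.2, y.2.1) : P3)) h.meas)

theorem ECTop.meas_dom (h : ECTop W) : MeasurableSet {q : P2 | q.1 ∈ domy (slice W q.2)} :=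
  ((by fun_prop : Measurable fun q : P2 => ((q.1, 0, q.2) : P3)) h.meas).inter
    ((by fun_prop : Measurable fun q : P2 => ((q.1, 1, q.2) : P3)) h.meas).compl

variable {ψ ζ : P2 → ℝ}

theorem ECTop.meas_f (h : ECTop W) (hψ : Continuous ψ) (hζ : Continuous ζ) (ε : ℝ) :
    Measurable (ECf W ψ ζ ε) := by
  have h1 : Measurable fun q : P2 => ((q.1, hy (slice W q.2) q.1) : P2) :=
    measurable_fst.prodMk h.meas_hy
  exact (hζ.measurable.comp h1).indicator (h.meas_dom.inter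
    (measurableSet_le (measurable_const.sub ((hψ.measurable.comp h1).const_mul ε)) measurable_snd))

theorem ECf_nonneg (z0 : ∀ p, 0 ≤ ζ p) (ε : ℝ) (q : P2) : 0 ≤ ECf W ψ ζ ε q :=
  indicator_nonneg (fun _ _ => z0 _) q

theorem ECf_le (z1 : ∀ p, ζ p ≤ 1) (ε : ℝ) (q : P2) : ECf W ψ ζ ε q ≤ 1 :=
  indicator_apply_le' (fun _ => z1 _) fun _ => zero_le_one

theorem ECTop.int_f (h : ECTop W) (hψ : Continuous ψ) (hζ : Continuous ζ) (z0 : ∀ p, 0 ≤ ζ p)
    (z1 : ∀ p, ζ p ≤ 1) (ε : ℝ) : Integrable (ECf W ψ ζ ε)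
      ((volume.restrict (Ioo (0 : ℝ) 1)).prod (volume.restrict (Ioo (0 : ℝ) 1))) :=
  Integrable.of_bound (h.meas_f hψ hζ ε).aestronglyMeasurable 1 (Eventually.of_forall fun q => by
    rw [Real.norm_of_nonneg (ECf_nonneg z0 ε q)]
    exact ECf_le z1 ε q)

theorem ECTop.inner (h : ECTop W) (hψ : Continuous ψ) (hζ : Continuous ζ) (h0 : ∀ p, 0 ≤ ψ p)
    (z0 : ∀ p, 0 ≤ ζ p) (z1 : ∀ p, ζ p ≤ 1) {x : ℝ}
    (hd : ∀ᶠ z in 𝓝[<] (1 : ℝ), x ∈ domy (slice W z))
    (ht : Tendsto (fun z => hy (slice W z) x) (𝓝[<] 1) (𝓝 (hy (slice W 1) x))) {a : ℝ}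
    (ha : a < ψ (x, hy (slice W 1) x) * ζ (x, hy (slice W 1) x)) :
    ∀ᶠ ε in 𝓝[>] (0 : ℝ), a < ε⁻¹ * ∫ z in Ioo (0 : ℝ) 1, ECf W ψ ζ ε (x, z) := by
  rcases lt_or_ge a 0 with a0 | a0
  · filter_upwards [self_mem_nhdsWithin] with ε hε
    exact a0.trans_le (mul_nonneg (inv_nonneg.2 (le_of_lt hε))
      (integral_nonneg fun z => ECf_nonneg z0 ε _))
  set u := ψ (x, hy (slice W 1) x) with hu
  set v := ζ (x, hy (slice W 1) x) with hv
  have u0 : 0 < u := by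
    rcases (h0 (x, hy (slice W 1) x)).eq_or_lt with e | e
    · rw [hu, ← e, zero_mul] at ha
      linarith
    · exact e
  obtain ⟨η, hη, hη0⟩ : ∃ η : ℝ, (a < (u - η) * (v - η) ∧ η < u) ∧ 0 < η := by
    have c1 : ContinuousAt (fun η : ℝ => (u - η) * (v - η)) 0 := by fun_prop
    have e1 : ∀ᶠ η in 𝓝 (0 : ℝ), a < (u - η) * (v - η) :=
      c1.eventually (lt_mem_nhds (by simpa using ha))
    exact ((((e1.and (gt_mem_nhds u0)).filter_mono nhdsWithin_le_nhds).and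
      (self_mem_nhdsWithin (s := Ioi (0 : ℝ)))).exists)
  have ht' : Tendsto (fun z => ((x, hy (slice W z) x) : P2)) (𝓝[<] 1)
      (𝓝 (x, hy (slice W 1) x)) := tendsto_const_nhds.prodMk_nhds ht
  have e1 := ((hψ.tendsto _).comp ht').eventually (lt_mem_nhds (sub_lt_self u hη0))
  have e2 := ((hζ.tendsto _).comp ht').eventually (lt_mem_nhds (sub_lt_self v hη0))
  obtain ⟨l, hl, hsub⟩ := mem_nhdsLT_iff_exists_Ioo_subset.1
    (hd.and (e1.and (e2.and (Ioo_mem_nhdsLT zero_lt_one))))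
  have hl1 : 0 < 1 - l := sub_pos.2 hl
  have c2 : ContinuousAt (fun ε : ℝ => ε * (u - η)) 0 := by fun_prop
  have e3 : ∀ᶠ ε in 𝓝 (0 : ℝ), ε * (u - η) < 1 - l :=
    c2.eventually (gt_mem_nhds (by simpa using hl1))
  filter_upwards [e3.filter_mono nhdsWithin_le_nhds, self_mem_nhdsWithin] with ε h3 hε
  have hε0 : 0 < ε := hε
  have hp : 0 < ε * (u - η) := mul_pos hε0 (sub_pos.2 hη.2)
  have hI : Ioo (1 - ε * (u - η)) 1 ⊆ Ioo l 1 := Ioo_subset_Ioo_left (by linarith)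
  have hint : IntegrableOn (fun z => ECf W ψ ζ ε (x, z)) (Ioo (0 : ℝ) 1) :=
    Integrable.of_bound ((h.meas_f hψ hζ ε).comp measurable_prodMk_left).aestronglyMeasurable 1
      (Eventually.of_forall fun q => by
        rw [Real.norm_of_nonneg (ECf_nonneg z0 ε _)]
        exact ECf_le z1 ε _)
  have hI0 : Ioo (1 - ε * (u - η)) 1 ⊆ Ioo 0 1 := fun z hz => (hsub (hI hz)).2.2.2
  have h4 : ∫ _ in Ioo (1 - ε * (u - η)) 1, (v - η) ≤
      ∫ z in Ioo (1 - ε * (u - η)) 1, ECf W ψ ζ ε (x, z) := by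
    refine setIntegral_mono_on (integrable_const _) (hint.mono_set hI0) measurableSet_Ioo
      fun z hz => ?_
    obtain ⟨a1, a2, a3, -⟩ := hsub (hI hz)
    have a4 : 1 - ε * ψ (x, hy (slice W z) x) ≤ z := by
      have := mul_le_mul_of_nonneg_left (le_of_lt a2) hε0.le
      have := hz.1
      simp only [Function.comp] at *
      linarith
    rw [ECf, indicator_of_mem (by exact ⟨a1, a4⟩)]
    exact le_of_lt a3
  have h5 := h4.trans (setIntegral_mono_set hint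
    (Eventually.of_forall fun z => ECf_nonneg z0 ε _) hI0.eventuallyLE)
  rw [setIntegral_const, Real.volume_real_Ioo_of_le (by linarith), smul_eq_mul] at h5
  rw [lt_inv_mul_iff₀ hε0]
  nlinarith [mul_lt_mul_of_pos_left hη.1 hε0]

theorem ECTop.main (h : ECTop W) (hψ : Continuous ψ) (hζ : Continuous ζ) (h0 : ∀ p, 0 ≤ ψ p)
    (z0 : ∀ p, 0 ≤ ζ p) (z1 : ∀ p, ζ p ≤ 1) {κ : ℝ} (hκ : 0 < κ) :
    ∀ᶠ ε in 𝓝[>] (0 : ℝ),
      ε * ((∫ x in domy (slice W 1) ∩ Ioo 0 1, ψ (x, hy (slice W 1) x) * ζ (x, hy (slice W 1) x))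
        - κ) ≤ ∫ x in Ioo (0 : ℝ) 1, ∫ z in Ioo (0 : ℝ) 1, ECf W ψ ζ ε (x, z) := by
  set A := domy (slice W 1) ∩ Ioo 0 1 with hA
  set c : ℝ → ℝ := fun x => ψ (x, hy (slice W 1) x) * ζ (x, hy (slice W 1) x) with hc
  set φ : ℝ → ℝ → ℝ := fun ε x => ∫ z in Ioo (0 : ℝ) 1, ECf W ψ ζ ε (x, z) with hφ
  have hAm : MeasurableSet A := (h.adm 1).measurableSet_domy.inter measurableSet_Ioo
  have hg : Measurable fun x : ℝ => ((x, hy (slice W 1) x) : P2) :=
    measurable_id.prodMk (measurable_hy (h.adm 1).isOpen.measurableSet)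
  have cm : Measurable c := (hψ.measurable.comp hg).mul (hζ.measurable.comp hg)
  have c0 : ∀ x, 0 ≤ c x := fun x => mul_nonneg (h0 _) (z0 _)
  have φ0 : ∀ ε x, 0 ≤ φ ε x := fun ε x => integral_nonneg fun z => ECf_nonneg z0 ε _
  have φi : ∀ ε, IntegrableOn (φ ε) (Ioo (0 : ℝ) 1) := fun ε =>
    (h.int_f hψ hζ z0 z1 ε).integral_prod_left
  have φA : ∀ ε, IntegrableOn (φ ε) A := fun ε => (φi ε).mono_set inter_subset_right
  obtain ⟨M, hM⟩ := (isCompact_Icc.prod isCompact_Icc).exists_bound_of_continuousOn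
    (s := Icc (0 : ℝ) 1 ×ˢ Icc (0 : ℝ) 1) hψ.continuousOn
  have : IsFiniteMeasure (volume.restrict A) :=
    ⟨by
      rw [Measure.restrict_apply_univ]
      exact (measure_mono inter_subset_right).trans_lt measure_Ioo_lt_top⟩
  have ci : IntegrableOn c A := by
    refine Integrable.of_bound cm.aestronglyMeasurable M ?_
    filter_upwards [ae_restrict_mem hAm] with x hx
    rw [Real.norm_of_nonneg (c0 x)]
    have := hM (x, hy (slice W 1) x) ⟨Ioo_subset_Icc_self hx.2, hy_nonneg _ _, hy_le_one _ _⟩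
    rw [Real.norm_of_nonneg (h0 _)] at this
    exact (mul_le_of_le_one_right (h0 _) (z1 _)).trans this
  have hlim : Tendsto (fun ε : ℝ => ∫ x in A, min (ε⁻¹ * φ ε x) (c x)) (𝓝[>] 0)
      (𝓝 (∫ x in A, c x)) := by
    refine tendsto_integral_filter_of_dominated_convergence c ?_ ?_ ci ?_
    · exact Eventually.of_forall fun ε =>
        (((φA ε).const_mul ε⁻¹).inf ci).aestronglyMeasurable
    · filter_upwards [self_mem_nhdsWithin] with ε hε
      refine Eventually.of_forall fun x => ?_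
      rw [Real.norm_of_nonneg (le_min (mul_nonneg (inv_nonneg.2 (le_of_lt hε)) (φ0 ε x)) (c0 x))]
      exact min_le_right _ _
    · filter_upwards [ae_restrict_mem hAm, ae_restrict_of_ae h.conv] with x hx hcv
      refine tendsto_order.2 ⟨fun a ha => ?_, fun a ha => Eventually.of_forall fun ε =>
        (min_le_right _ _).trans_lt ha⟩
      filter_upwards [h.inner hψ hζ h0 z0 z1 (hcv hx).1 (hcv hx).2 ha] with ε hε
      exact lt_min hε ha
  filter_upwards [hlim.eventually (lt_mem_nhds (sub_lt_self _ hκ)), self_mem_nhdsWithin]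
    with ε h1 hε
  have hε0 : 0 < ε := hε
  have h2 : ∫ x in A, min (ε⁻¹ * φ ε x) (c x) ≤ ∫ x in A, ε⁻¹ * φ ε x :=
    integral_mono (((φA ε).const_mul ε⁻¹).inf ci) ((φA ε).const_mul ε⁻¹) fun x => min_le_left _ _
  rw [integral_const_mul] at h2
  have h3 : ∫ x in A, φ ε x ≤ ∫ x in Ioo (0 : ℝ) 1, φ ε x :=
    setIntegral_mono_set (φi ε) (Eventually.of_forall (φ0 ε))
      (HasSubset.Subset.eventuallyLE inter_subset_right)
  refine le_trans ?_ h3
  rw [← le_inv_mul_iff₀ hε0]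
  exact (h1.trans_le h2).le

end Vale.Agent.P232
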