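import Vale.Agent.P232.Cyl
import Vale.Agent.P232.Approx
import Vale.Agent.P232.EnterC_1

open MeasureTheory Set Filter Topology
open scoped ENNReal

noncomputable section
namespace Vale.Agent.P232

/-! Task: area entering and leaving the cube through the horizontal faces.
`enter`: exact, by the cylinder structure.  `leave`: choose continuous `ζ₁, ζ₂ ≥ 0`, `ζ₁² + ζ₂² ≤ 1`, close to `rr / ww` in
`L^1(sig)` (`exists_smooth_approx` on `U = (-1,2)^2`, take positive parts), use `wt ≥ ζ₁ rho₁ + ζ₂ rho₂`, the formulas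
`integral_Q_rho1/2`, the substitution `x3 = ε s`, monotone convergence of the slices (`hy (slice E t) ↑ hy (slice E 0)` as
`t ↓ 0`) and Fatou. -/

/-! For `leave1`: as `t ↑ 1` the slices decrease, and by the trace property `hy (slice E t) x → hy (slice E 1) x` at every continuity point `x ∈ (0,1)` of the antitone function `hy (slice E 1)`. -/

variable {E : Set P3}

theorem Adm2.ec_zeta {D : Set P2} (h : Adm2 D) {ψ : P2 → ℝ} (hψ : Continuous ψ)
    (h0 : ∀ p, 0 ≤ ψ p) {κ : ℝ} (hκ : 0 < κ) :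
    ∃ ζ₁ ζ₂ : P2 → ℝ, Continuous ζ₁ ∧ Continuous ζ₂ ∧ (∀ p, 0 ≤ ζ₁ p) ∧ (∀ p, 0 ≤ ζ₂ p) ∧
      (∀ p, ζ₁ p ^ 2 + ζ₂ p ^ 2 ≤ 1) ∧
      arc D ψ - κ ≤ (∫ y in domy (Prod.swap ⁻¹' D) ∩ Ioo 0 1,
          ψ (hy (Prod.swap ⁻¹' D) y, y) * ζ₁ (hy (Prod.swap ⁻¹' D) y, y)) +
        ∫ x in domy D ∩ Ioo 0 1, ψ (x, hy D x) * ζ₂ (x, hy D x) := by
  obtain ⟨M, hM⟩ := (isCompact_Icc.prod isCompact_Icc).exists_bound_of_continuousOn
    (s := Icc (0 : ℝ) 1 ×ˢ Icc (0 : ℝ) 1) hψ.continuousOn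
  have hM' : ∀ p ∈ sqc, ψ p ≤ M := fun p hp =>
    (le_abs_self _).trans (hM p ⟨Ioc_subset_Icc_self hp.1, Ioc_subset_Icc_self hp.2⟩)
  have M0 : 0 ≤ M := (h0 (1, 1)).trans (hM' (1, 1) ⟨by simp, by simp⟩)
  set U : Set P2 := Ioo (-1) 2 ×ˢ Ioo (-1) 2 with hU
  have hUo : IsOpen U := isOpen_Ioo.prod isOpen_Ioo
  have hsU : sqc ⊆ U := fun p hp =>
    ⟨⟨by linarith [hp.1.1], by linarith [hp.1.2]⟩, by linarith [hp.2.1], by linarith [hp.2.2]⟩
  have := h.sig_locFin
  have hUf : sig D U < ⊤ :=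
    (measure_mono (Set.prod_mono Ioo_subset_Icc_self Ioo_subset_Icc_self)).trans_lt
    (isCompact_Icc.prod isCompact_Icc).measure_lt_top
  set N : P2 → P3 := fun p => ((rr D p).1 / ww D p, (rr D p).2 / ww D p, 0) with hN
  have hNm : Measurable N :=
    ((measurable_rr D).fst.div (measurable_ww D)).prodMk
      (((measurable_rr D).snd.div (measurable_ww D)).prodMk measurable_const)
  have hw : ∀ p, ww D p ^ 2 = (rr D p).1 ^ 2 + (rr D p).2 ^ 2 := fun p =>
    Real.sq_sqrt (by positivity)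
  have hN1 : ∀ p, nrm (N p) ≤ 1 := fun p => by
    refine Real.sqrt_le_one.2 ?_
    show ((rr D p).1 / ww D p) ^ 2 + ((rr D p).2 / ww D p) ^ 2 + (0 : ℝ) ^ 2 ≤ 1
    rw [div_pow, div_pow, ← add_div, ← hw]
    simpa using div_self_le_one (ww D p ^ 2)
  obtain ⟨Z, hZ, hZ1, -, -, hZδ⟩ := exists_smooth_approx (sig D) hUo hUf hNm hN1
    (δ := κ / (M + 1)) (by positivity)
  have Zc : Continuous Z := hZ.continuous
  have c1 : Continuous fun p => max (Z p).1 0 := Zc.fst.max continuous_const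
  have c2 : Continuous fun p => max (Z p).2.1 0 := Zc.snd.fst.max continuous_const
  have hsq : ∀ p, max (Z p).1 0 ^ 2 + max (Z p).2.1 0 ^ 2 ≤ 1 := fun p => by
    have a1 : ∀ t : ℝ, max t 0 ^ 2 ≤ t ^ 2 := fun t => by
      rcases le_total t 0 with e | e
      · rw [max_eq_right e]
        nlinarith [sq_nonneg t]
      · rw [max_eq_left e]
    have a2 := (Real.sqrt_le_left zero_le_one).1 (hZ1 p)
    nlinarith [a1 (Z p).1, a1 (Z p).2.1, sq_nonneg (Z p).2.2]
  refine ⟨fun p => max (Z p).1 0, fun p => max (Z p).2.1 0, c1, c2, fun p => le_max_right _ _,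
    fun p => le_max_right _ _, hsq, ?_⟩
  rw [← h.integral_sqc_rr1 (F := fun p => ψ p * max (Z p).1 0) (hψ.mul c1).measurable,
    ← h.integral_sqc_rr2 (F := fun p => ψ p * max (Z p).2.1 0) (hψ.mul c2).measurable]
  have hd : Measurable fun p => nrm (N p - Z p) :=
    continuous_nrm.measurable.comp (hNm.sub Zc.measurable)
  have hdi : IntegrableOn (fun p => nrm (N p - Z p)) U (sig D) := by
    have : IsFiniteMeasure ((sig D).restrict U) := ⟨by rwa [Measure.restrict_apply_univ]⟩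
    refine Integrable.of_bound hd.aestronglyMeasurable 2 (Eventually.of_forall fun p => ?_)
    rw [Real.norm_of_nonneg (nrm_nonneg _), sub_eq_add_neg, ← neg_one_smul ℝ (Z p)]
    have := nrm_add_le (N p) ((-1 : ℝ) • Z p)
    rw [nrm_smul] at this
    simp only [abs_neg, abs_one, one_mul] at this
    linarith [hN1 p, hZ1 p]
  have b1 : ∀ p, max (Z p).1 0 ≤ 1 := fun p => by
    nlinarith [hsq p, sq_nonneg (max (Z p).2.1 0), le_max_right (Z p).1 0]
  have b2 : ∀ p, max (Z p).2.1 0 ≤ 1 := fun p => by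
    nlinarith [hsq p, sq_nonneg (max (Z p).1 0), le_max_right (Z p).2.1 0]
  have i1 : IntegrableOn (fun p => ψ p * max (Z p).1 0 * (rr D p).1) sqc (sig D) := by
    refine h.integrableOn_sqc ((hψ.mul c1).measurable.mul (measurable_rr D).fst) (M := M) ?_
    filter_upwards [h.rr_sum] with p hp hs
    have r := rr_nonneg D p
    rw [abs_of_nonneg (mul_nonneg (mul_nonneg (h0 p) (le_max_right _ _)) r.1)]
    exact (mul_le_of_le_one_right (mul_nonneg (h0 p) (le_max_right _ _)) (by linarith [r.2])).trans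
      ((mul_le_of_le_one_right (h0 p) (b1 p)).trans (hM' p hs))
  have i2 : IntegrableOn (fun p => ψ p * max (Z p).2.1 0 * (rr D p).2) sqc (sig D) := by
    refine h.integrableOn_sqc ((hψ.mul c2).measurable.mul (measurable_rr D).snd) (M := M) ?_
    filter_upwards [h.rr_sum] with p hp hs
    have r := rr_nonneg D p
    rw [abs_of_nonneg (mul_nonneg (mul_nonneg (h0 p) (le_max_right _ _)) r.2)]
    exact (mul_le_of_le_one_right (mul_nonneg (h0 p) (le_max_right _ _)) (by linarith [r.1])).trans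
      ((mul_le_of_le_one_right (h0 p) (b2 p)).trans (hM' p hs))
  have i0 : IntegrableOn (fun p => ψ p * ww D p) sqc (sig D) := by
    refine h.integrableOn_sqc (hψ.measurable.mul (measurable_ww D)) (M := M) ?_
    filter_upwards [h.ww_bounds] with p hp hs
    rw [abs_of_nonneg (mul_nonneg (h0 p) (ww_nonneg D p))]
    exact (mul_le_of_le_one_right (h0 p) hp.2).trans (hM' p hs)
  have i3 : IntegrableOn (fun p => M * nrm (N p - Z p)) sqc (sig D) :=
    (hdi.mono_set hsU).const_mul M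
  have key : arc D ψ ≤ ∫ p in sqc, (ψ p * max (Z p).1 0 * (rr D p).1 +
      ψ p * max (Z p).2.1 0 * (rr D p).2 + M * nrm (N p - Z p)) ∂(sig D) := by
    refine integral_mono_ae i0 ((i1.add i2).add i3) ?_
    filter_upwards [ae_restrict_mem measurableSet_sqc, ae_restrict_of_ae h.ww_bounds] with p hs hp
    have r := rr_nonneg D p
    have w0 : 0 < ww D p := by linarith [hp.1]
    have e1 := (le_abs_self _).trans (abs_dot_le (N p - Z p) ((rr D p).1, (rr D p).2, 0))
    have e2 : nrm ((rr D p).1, (rr D p).2, 0) = ww D p := by simp [nrm, ww]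
    have e3 : dot (N p - Z p) ((rr D p).1, (rr D p).2, 0) =
        ww D p - ((Z p).1 * (rr D p).1 + (Z p).2.1 * (rr D p).2) := by
      simp only [dot, hN, Prod.fst_sub, Prod.snd_sub, mul_zero, add_zero]
      field_simp
      nlinarith [hw p]
    rw [e2, e3] at e1
    have e4 := mul_le_of_le_one_right (nrm_nonneg (N p - Z p)) hp.2
    have e5 := mul_le_mul_of_nonneg_right (le_max_left (Z p).1 0) r.1
    have e6 := mul_le_mul_of_nonneg_right (le_max_left (Z p).2.1 0) r.2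
    have e7 : ww D p ≤ max (Z p).1 0 * (rr D p).1 + max (Z p).2.1 0 * (rr D p).2 +
        nrm (N p - Z p) := by linarith
    have e8 := mul_le_mul_of_nonneg_left e7 (h0 p)
    have e9 := mul_le_mul_of_nonneg_right (hM' p hs) (nrm_nonneg (N p - Z p))
    show ψ p * ww D p ≤ ψ p * max (Z p).1 0 * (rr D p).1 +
      ψ p * max (Z p).2.1 0 * (rr D p).2 + M * nrm (N p - Z p)
    nlinarith
  have i12 : IntegrableOn (fun p => ψ p * max (Z p).1 0 * (rr D p).1 +
      ψ p * max (Z p).2.1 0 * (rr D p).2) sqc (sig D) := i1.add i2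
  rw [integral_add i12 i3, integral_add i1 i2, integral_const_mul] at key
  have k2 : ∫ p in sqc, nrm (N p - Z p) ∂(sig D) ≤ κ / (M + 1) :=
    (setIntegral_mono_set hdi (Eventually.of_forall fun p => nrm_nonneg _)
      (HasSubset.Subset.eventuallyLE hsU)).trans hZδ
  have k3 : M * (κ / (M + 1)) ≤ κ := by
    rw [← mul_div_assoc, div_le_iff₀ (by positivity)]
    nlinarith
  linarith [mul_le_mul_of_nonneg_left k2 M0]

theorem Adm.ec_top2 (h : Adm E) : ECTop E where
  meas := h.measurableSet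
  adm := h.slice
  anti := fun x y z z' hz hm =>
    h.lower (show ((x, y, z) : P3) ≤ (x, y, z') from ⟨le_rfl, le_rfl, hz⟩) hm
  trace := h.a3.trace
  edge := fun x x' h1 h2 h3 =>
    h.a2.trace 2 x 1 x' one_pos one_lt_two h1 h2 fun t ht => h.a3.above x t 2 (h3 t ht)

theorem Adm.ec_top1 (h : Adm E) : ECTop {w : P3 | ((w.2.1, w.1, w.2.2) : P3) ∈ E} where
  meas := (by fun_prop : Measurable fun w : P3 => ((w.2.1, w.1, w.2.2) : P3)) h.measurableSet
  adm := fun z => (h.slice z).swap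
  anti := fun x y z z' hz hm =>
    h.lower (show ((y, x, z) : P3) ≤ (y, x, z') from ⟨le_rfl, le_rfl, hz⟩) hm
  trace := fun x y x' y' a b c d e => h.a3.trace y x y' x' c d a b e
  edge := fun x x' h1 h2 h3 =>
    h.a1.trace x 2 x' 1 h1 h2 one_pos one_lt_two fun t ht => h.a3.above t x 2 (h3 t ht)

theorem ec_sq : (volume : Measure P2).restrict sq =
    (volume.restrict (Ioo (0 : ℝ) 1)).prod (volume.restrict (Ioo (0 : ℝ) 1)) := by
  rw [Measure.prod_restrict]
  rfl

theorem Adm.leave1 (h : Adm E) {ψ : P2 → ℝ} (hψ : Continuous ψ) (h0 : ∀ p, 0 ≤ ψ p) {κ : ℝ} (hκ : 0 < κ) :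
    ∀ᶠ ε in 𝓝[>] (0 : ℝ), ε * (arc (P232.slice E 1) ψ - κ)
      ≤ ∫ x in {x ∈ Q | 1 - ε * ψ (x.1, x.2.1) ≤ x.2.2}, wt E x ∂(nu E) := by
  have hκ3 : 0 < κ / 3 := by positivity
  obtain ⟨ζ₁, ζ₂, c1, c2, p1, p2, hsq, hle⟩ := (h.slice 1).ec_zeta hψ h0 hκ3
  have b1 : ∀ p, ζ₁ p ≤ 1 := fun p => by nlinarith [hsq p, sq_nonneg (ζ₂ p), p1 p]
  have b2 : ∀ p, ζ₂ p ≤ 1 := fun p => by nlinarith [hsq p, sq_nonneg (ζ₁ p), p2 p]
  have hψ' : Continuous fun p : P2 => ψ p.swap := hψ.comp continuous_swap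
  have c1' : Continuous fun p : P2 => ζ₁ p.swap := c1.comp continuous_swap
  filter_upwards [h.ec_top1.main hψ' c1' (fun p => h0 _) (fun p => p1 _) (fun p => b1 _) hκ3,
    h.ec_top2.main hψ c2 h0 p2 b2 hκ3, self_mem_nhdsWithin] with ε m1 m2 hε
  have hε0 : 0 < ε := hε
  set S : Set P3 := {x | 1 - ε * ψ (x.1, x.2.1) ≤ x.2.2} with hS
  have hSm : MeasurableSet S := (isClosed_le (by fun_prop) (by fun_prop)).measurableSet
  have f1 : Measurable (S.indicator fun x : P3 => ζ₁ (x.1, x.2.1)) :=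
    (by fun_prop : Continuous fun x : P3 => ζ₁ (x.1, x.2.1)).measurable.indicator hSm
  have f2 : Measurable (S.indicator fun x : P3 => ζ₂ (x.1, x.2.1)) :=
    (by fun_prop : Continuous fun x : P3 => ζ₂ (x.1, x.2.1)).measurable.indicator hSm
  have e1 : ∫ x in Q, S.indicator (fun x : P3 => ζ₁ (x.1, x.2.1)) x * (rho E x).1 ∂(nu E) =
      ∫ x in Ioo (0 : ℝ) 1, ∫ z in Ioo (0 : ℝ) 1,
        ECf {w : P3 | ((w.2.1, w.1, w.2.2) : P3) ∈ E} (fun p => ψ p.swap) (fun p => ζ₁ p.swap) ε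
          (x, z) := by
    rw [h.integral_Q_rho1 f1, ← integral_prod _ (h.ec_top1.int_f hψ' c1' (fun p => p1 _)
      (fun p => b1 _) ε), ← ec_sq, inter_comm, ← setIntegral_indicator h.rot.measurableSet_dom]
    refine integral_congr_ae (Eventually.of_forall fun p => ?_)
    show (dom (P232.rot E)).indicator (fun p => {q : P2 | ((hgt (P232.rot E) q, q.1, q.2) : P3) ∈ S}.indicator
      (fun q => ζ₁ (hgt (P232.rot E) q, q.1)) p) p = _
    rw [indicator_indicator]
    rfl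
  have e2 : ∫ x in Q, S.indicator (fun x : P3 => ζ₂ (x.1, x.2.1)) x * (rho E x).2.1 ∂(nu E) =
      ∫ x in Ioo (0 : ℝ) 1, ∫ z in Ioo (0 : ℝ) 1, ECf E ψ ζ₂ ε (x, z) := by
    have := integral_prod_symm _ (h.ec_top2.int_f hψ c2 p2 b2 ε).swap
    simp only [Function.comp, Prod.swap_prod_mk] at this
    rw [h.integral_Q_rho2 f2, ← this, ← ec_sq, inter_comm,
      ← setIntegral_indicator h.rot.rot.measurableSet_dom]
    refine integral_congr_ae (Eventually.of_forall fun p => ?_)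
    show (dom (P232.rot (P232.rot E))).indicator (fun p =>
      {q : P2 | ((q.2, hgt (P232.rot (P232.rot E)) q, q.1) : P3) ∈ S}.indicator
        (fun q => ζ₂ (q.2, hgt (P232.rot (P232.rot E)) q)) p) p = _
    rw [indicator_indicator]
    rfl
  have g1 : ∀ x, 0 ≤ S.indicator (fun x : P3 => ζ₁ (x.1, x.2.1)) x ∧
      S.indicator (fun x : P3 => ζ₁ (x.1, x.2.1)) x ≤ 1 := fun x =>
    ⟨indicator_nonneg (fun _ _ => p1 _) x, indicator_apply_le' (fun _ => b1 _) fun _ => zero_le_one⟩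
  have g2 : ∀ x, 0 ≤ S.indicator (fun x : P3 => ζ₂ (x.1, x.2.1)) x ∧
      S.indicator (fun x : P3 => ζ₂ (x.1, x.2.1)) x ≤ 1 := fun x =>
    ⟨indicator_nonneg (fun _ _ => p2 _) x, indicator_apply_le' (fun _ => b2 _) fun _ => zero_le_one⟩
  have i1 : IntegrableOn (fun x => S.indicator (fun x : P3 => ζ₁ (x.1, x.2.1)) x * (rho E x).1)
      Q (nu E) := by
    refine h.integrableOn_Q (f1.mul (measurable_rho E).fst) (M := 1) ?_
    filter_upwards [h.rho_sum] with x hx _
    have r := rho_nonneg E x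
    rw [abs_of_nonneg (mul_nonneg (g1 x).1 r.1)]
    exact mul_le_one₀ (g1 x).2 r.1 (by linarith [r.2.1, r.2.2])
  have i2 : IntegrableOn (fun x => S.indicator (fun x : P3 => ζ₂ (x.1, x.2.1)) x * (rho E x).2.1)
      Q (nu E) := by
    refine h.integrableOn_Q (f2.mul (measurable_rho E).snd.fst) (M := 1) ?_
    filter_upwards [h.rho_sum] with x hx _
    have r := rho_nonneg E x
    rw [abs_of_nonneg (mul_nonneg (g2 x).1 r.2.1)]
    exact mul_le_one₀ (g2 x).2 r.2.1 (by linarith [r.1, r.2.2])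
  have i0 : IntegrableOn (wt E) Q (nu E) := by
    refine h.integrableOn_Q (measurable_wt E) (M := 1) ?_
    filter_upwards [h.wt_bounds] with x hx _
    rw [abs_of_nonneg (by linarith [hx.1])]
    exact hx.2
  have key : ∫ x in Q, (S.indicator (fun x : P3 => ζ₁ (x.1, x.2.1)) x * (rho E x).1 +
      S.indicator (fun x : P3 => ζ₂ (x.1, x.2.1)) x * (rho E x).2.1) ∂(nu E) ≤
      ∫ x in Q, S.indicator (wt E) x ∂(nu E) := by
    refine integral_mono (i1.add i2) (i0.indicator hSm) fun x => ?_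
    by_cases hx : x ∈ S
    · simp only [indicator_of_mem hx]
      have a1 := (le_abs_self _).trans (abs_dot_le (ζ₁ (x.1, x.2.1), ζ₂ (x.1, x.2.1), 0) (rho E x))
      have a2 : nrm (ζ₁ (x.1, x.2.1), ζ₂ (x.1, x.2.1), 0) ≤ 1 :=
        Real.sqrt_le_one.2 (by simpa using hsq (x.1, x.2.1))
      have a3 := mul_le_of_le_one_left (nrm_nonneg (rho E x)) a2
      simp only [dot, zero_mul, add_zero] at a1
      exact a1.trans a3
    · simp [indicator_of_notMem hx]
  rw [integral_add i1 i2, e1, e2, setIntegral_indicator hSm] at key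
  refine le_trans ?_ key
  have hle' := mul_le_mul_of_nonneg_left hle hε0.le
  have m1' : ε * ((∫ y in domy (Prod.swap ⁻¹' P232.slice E 1) ∩ Ioo 0 1,
      ψ (hy (Prod.swap ⁻¹' P232.slice E 1) y, y) * ζ₁ (hy (Prod.swap ⁻¹' P232.slice E 1) y, y))
        - κ / 3) ≤ _ := m1
  linarith

end Vale.Agent.P232
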