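import Vale.Agent.P232.Basic

open MeasureTheory Set Filter Topology
open scoped ENNReal

noncomputable section
namespace Vale.Agent.P232

/-! Task: algebra of the first variation.  `cofv (1 + εM) r = r + ε (tr M r - Mᵀ r) + ε² cofv M r`,
`nrm (r + y) ≤ nrm r + dot r y / nrm r + nrm y ^ 2 / (2 nrm r)`, `nrm r ≥ 1/2` on the simplex; entries of `M` are
bounded by `‖M‖`. -/

theorem Expand_apply {F : Type} [NormedAddCommGroup F] [NormedSpace ℝ F] (M : P3 →L[ℝ] F) (r : P3) :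
    M r = r.1 • M e1 + r.2.1 • M e2 + r.2.2 • M e3 := by
  have e : r = r.1 • e1 + r.2.1 • e2 + r.2.2 • e3 := by
    simp [e1, e2, e3]
  conv_lhs => rw [e]
  rw [map_add, map_add, map_smul, map_smul, map_smul]

theorem Expand_col (M : P3 →L[ℝ] P3) {L : ℝ} (hM : ‖M‖ ≤ L) (v : P3) (hv : ‖v‖ ≤ 1) :
    |(M v).1| ≤ L ∧ |(M v).2.1| ≤ L ∧ |(M v).2.2| ≤ L := by
  have h : ‖M v‖ ≤ L := (M.le_opNorm v).trans
    ((mul_le_of_le_one_right (norm_nonneg _) hv).trans hM)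
  exact ⟨(norm_fst_le (M v)).trans h, (norm_fst_le (M v).2).trans ((norm_snd_le (M v)).trans h),
    (norm_snd_le (M v).2).trans ((norm_snd_le (M v)).trans h)⟩

theorem Expand_e1 : ‖e1‖ ≤ 1 := by simp [e1, Prod.norm_def]
theorem Expand_e2 : ‖e2‖ ≤ 1 := by simp [e2, Prod.norm_def]
theorem Expand_e3 : ‖e3‖ ≤ 1 := by simp [e3, Prod.norm_def]

theorem Expand_nrm (r : P3) (hs : r.1 + r.2.1 + r.2.2 = 1) : 1 / 2 ≤ nrm r := by
  refine Real.le_sqrt_of_sq_le ?_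
  nlinarith [sq_nonneg (r.1 - r.2.1), sq_nonneg (r.1 - r.2.2), sq_nonneg (r.2.1 - r.2.2)]

theorem Expand_nrm_le (r : P3) (h1 : 0 ≤ r.1) (h2 : 0 ≤ r.2.1) (h3 : 0 ≤ r.2.2)
    (hs : r.1 + r.2.1 + r.2.2 = 1) : nrm r ≤ 1 := by
  refine Real.sqrt_le_iff.2 ⟨zero_le_one, ?_⟩
  nlinarith [mul_nonneg h1 h2, mul_nonneg h1 h3, mul_nonneg h2 h3]

theorem Expand_conv {r1 r2 r3 a b c K : ℝ} (h1 : 0 ≤ r1) (h2 : 0 ≤ r2) (h3 : 0 ≤ r3)
    (hs : r1 + r2 + r3 = 1) (ha : |a| ≤ K) (hb : |b| ≤ K) (hc : |c| ≤ K) :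
    |r1 * a + r2 * b + r3 * c| ≤ K := by
  have e : K = r1 * K + r2 * K + r3 * K := by rw [← add_mul, ← add_mul, hs, one_mul]
  obtain ⟨a1, a2⟩ := abs_le.1 ha
  obtain ⟨b1, b2⟩ := abs_le.1 hb
  obtain ⟨c1, c2⟩ := abs_le.1 hc
  have := mul_le_mul_of_nonneg_left a1 h1
  have := mul_le_mul_of_nonneg_left a2 h1
  have := mul_le_mul_of_nonneg_left b1 h2
  have := mul_le_mul_of_nonneg_left b2 h2
  have := mul_le_mul_of_nonneg_left c1 h3
  have := mul_le_mul_of_nonneg_left c2 h3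
  rw [abs_le]
  constructor <;> linarith

theorem Expand_mul {a b K : ℝ} (ha : |a| ≤ K) (hb : |b| ≤ K) : |a * b| ≤ K ^ 2 := by
  rw [abs_mul, pow_two]
  exact mul_le_mul ha hb (abs_nonneg _) ((abs_nonneg _).trans ha)

theorem Expand_minor {a b c d K : ℝ} (ha : |a| ≤ K) (hb : |b| ≤ K) (hc : |c| ≤ K) (hd : |d| ≤ K) :
    |a * b - c * d| ≤ 2 * K ^ 2 := by
  have h1 := Expand_mul ha hb
  have h2 := Expand_mul hc hd
  exact (abs_sub _ _).trans (by linarith)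

theorem Expand_taylor (r y : P3) (hr : 0 < nrm r) :
    nrm (r + y) ≤ nrm r + dot r y / nrm r + dot y y / (2 * nrm r) := by
  have h0 : nrm r ^ 2 = r.1 ^ 2 + r.2.1 ^ 2 + r.2.2 ^ 2 := Real.sq_sqrt (by positivity)
  have h1 : nrm (r + y) ^ 2 = nrm r ^ 2 + 2 * dot r y + dot y y := by
    rw [h0, nrm, Real.sq_sqrt (by positivity)]
    simp only [dot, Prod.fst_add, Prod.snd_add]
    ring
  have e : nrm r + dot r y / nrm r + dot y y / (2 * nrm r) =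
      (nrm r ^ 2 + nrm (r + y) ^ 2) / (2 * nrm r) := by
    rw [h1]; field_simp; ring
  rw [e, le_div_iff₀ (by positivity)]
  nlinarith [sq_nonneg (nrm r - nrm (r + y))]

theorem Expand_comp {t r u v δ : ℝ} (hδ : δ ≤ 1 / 10) (ht : |t| ≤ 3 * δ) (hr0 : 0 ≤ r) (hr : r ≤ 1)
    (hu : |u| ≤ δ) (hv : |v| ≤ 2 * δ ^ 2) : (t * r - u + v) * (t * r - u + v) ≤ 25 * δ ^ 2 := by
  have h0 : 0 ≤ δ := (abs_nonneg u).trans hu
  have h1 : |t * r| ≤ 3 * δ := by
    rw [abs_mul, abs_of_nonneg hr0]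
    exact (mul_le_of_le_one_right (abs_nonneg _) hr).trans ht
  have h2 : 2 * δ ^ 2 ≤ δ := by nlinarith
  have h3 : |t * r - u + v| ≤ 5 * δ :=
    (abs_add_le _ _).trans (by linarith [abs_sub (t * r) u])
  have h4 := Expand_mul h3 h3
  exact (le_abs_self _).trans (by linarith)

theorem Expand_cofv (N : P3 →L[ℝ] P3) (r : P3) {δ : ℝ} (hN : ‖N‖ ≤ δ) (hδ : δ ≤ 1 / 10)
    (h1 : 0 ≤ r.1) (h2 : 0 ≤ r.2.1) (h3 : 0 ≤ r.2.2) (hs : r.1 + r.2.1 + r.2.2 = 1) :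
    nrm (cofv (ContinuousLinearMap.id ℝ P3 + N) r) ≤ nrm r + dA N r + 200 * δ ^ 2 := by
  obtain ⟨a1, a2, a3⟩ := Expand_col N hN e1 Expand_e1
  obtain ⟨b1, b2, b3⟩ := Expand_col N hN e2 Expand_e2
  obtain ⟨c1, c2, c3⟩ := Expand_col N hN e3 Expand_e3
  have hn := Expand_nrm r hs
  have hn0 : 0 < nrm r := by linarith
  have ht : |trc N| ≤ 3 * δ :=
    (abs_add_three _ _ _).trans (by linarith)
  let w : P3 := cofv N r
  let u : P3 := (dot r (N e1), dot r (N e2), dot r (N e3))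
  have w1 : |w.1| ≤ 2 * δ ^ 2 := Expand_conv h1 h2 h3 hs (Expand_minor b2 c3 b3 c2)
    (Expand_minor c2 a3 c3 a2) (Expand_minor a2 b3 a3 b2)
  have w2 : |w.2.1| ≤ 2 * δ ^ 2 := Expand_conv h1 h2 h3 hs (Expand_minor b3 c1 b1 c3)
    (Expand_minor c3 a1 c1 a3) (Expand_minor a3 b1 a1 b3)
  have w3 : |w.2.2| ≤ 2 * δ ^ 2 := Expand_conv h1 h2 h3 hs (Expand_minor b1 c2 b2 c1)
    (Expand_minor c1 a2 c2 a1) (Expand_minor a1 b2 a2 b1)
  have u1 : |u.1| ≤ δ := Expand_conv h1 h2 h3 hs a1 a2 a3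
  have u2 : |u.2.1| ≤ δ := Expand_conv h1 h2 h3 hs b1 b2 b3
  have u3 : |u.2.2| ≤ δ := Expand_conv h1 h2 h3 hs c1 c2 c3
  let y : P3 := (trc N * r.1 - u.1 + w.1, trc N * r.2.1 - u.2.1 + w.2.1,
    trc N * r.2.2 - u.2.2 + w.2.2)
  have e : cofv (ContinuousLinearMap.id ℝ P3 + N) r = r + y := by
    have f1 : (ContinuousLinearMap.id ℝ P3 + N) e1 = (1 + (N e1).1, (N e1).2.1, (N e1).2.2) := by
      show e1 + N e1 = _
      ext <;> simp [e1]
    have f2 : (ContinuousLinearMap.id ℝ P3 + N) e2 = ((N e2).1, 1 + (N e2).2.1, (N e2).2.2) := by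
      show e2 + N e2 = _
      ext <;> simp [e2]
    have f3 : (ContinuousLinearMap.id ℝ P3 + N) e3 = ((N e3).1, (N e3).2.1, 1 + (N e3).2.2) := by
      show e3 + N e3 = _
      ext <;> simp [e3]
    unfold cofv
    rw [f1, f2, f3]
    refine Prod.ext ?_ (Prod.ext ?_ ?_) <;>
      simp only [y, u, w, cofv, cross, dot, trc, Prod.fst_add, Prod.snd_add, Prod.smul_fst,
        Prod.smul_snd, smul_eq_mul] <;> ring
  have hyy : dot y y ≤ 75 * δ ^ 2 := by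
    have y1 := Expand_comp hδ ht h1 (by linarith) u1 w1
    have y2 := Expand_comp hδ ht h2 (by linarith) u2 w2
    have y3 := Expand_comp hδ ht h3 (by linarith) u3 w3
    show (trc N * r.1 - u.1 + w.1) * (trc N * r.1 - u.1 + w.1) +
      (trc N * r.2.1 - u.2.1 + w.2.1) * (trc N * r.2.1 - u.2.1 + w.2.1) +
      (trc N * r.2.2 - u.2.2 + w.2.2) * (trc N * r.2.2 - u.2.2 + w.2.2) ≤ _
    linarith
  have hry : dot r y = trc N * nrm r ^ 2 - dot r (N r) + dot r w := by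
    have h0 : nrm r ^ 2 = r.1 ^ 2 + r.2.1 ^ 2 + r.2.2 ^ 2 := Real.sq_sqrt (by positivity)
    rw [h0, Expand_apply N r]
    simp only [y, u, dot, Prod.fst_add, Prod.snd_add, Prod.smul_fst, Prod.smul_snd, smul_eq_mul]
    ring
  have hw : dot r w ≤ 2 * δ ^ 2 := (le_abs_self _).trans (Expand_conv h1 h2 h3 hs w1 w2 w3)
  have hδ2 : 0 ≤ δ ^ 2 := sq_nonneg δ
  have k1 : dot r y / nrm r = dA N r + dot r w / nrm r := by
    rw [hry, dA]; field_simp
  have k2 : dot r w / nrm r ≤ 4 * δ ^ 2 := by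
    rw [div_le_iff₀ hn0]
    have := mul_le_mul_of_nonneg_left hn hδ2
    linarith
  have k3 : dot y y / (2 * nrm r) ≤ 75 * δ ^ 2 := by
    rw [div_le_iff₀ (by positivity)]
    have := mul_le_mul_of_nonneg_left hn hδ2
    linarith
  rw [e]
  have := Expand_taylor r y hn0
  linarith

theorem dA_smul (c : ℝ) (M : P3 →L[ℝ] P3) (r : P3) : dA (c • M) r = c * dA M r := by
  simp only [dA, trc, dot, smul_apply, Prod.smul_fst, Prod.smul_snd, smul_eq_mul]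
  ring

theorem nrm_cofv_le (M : P3 →L[ℝ] P3) (r : P3) {ε L : ℝ} (hM : ‖M‖ ≤ L) (hε : |ε| * L ≤ 1 / 10)
    (h1 : 0 ≤ r.1) (h2 : 0 ≤ r.2.1) (h3 : 0 ≤ r.2.2) (hs : r.1 + r.2.1 + r.2.2 = 1) :
    nrm (cofv (ContinuousLinearMap.id ℝ P3 + ε • M) r) ≤ nrm r + ε * dA M r + 200 * L ^ 2 * ε ^ 2 := by
  have hN : ‖ε • M‖ ≤ |ε| * L := by
    rw [norm_smul, Real.norm_eq_abs]
    exact mul_le_mul_of_nonneg_left hM (abs_nonneg _)
  have h := Expand_cofv (ε • M) r hN hε h1 h2 h3 hs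
  rw [dA_smul, mul_pow, sq_abs] at h
  linarith

theorem abs_dA_le (M : P3 →L[ℝ] P3) (r : P3) {L : ℝ} (hM : ‖M‖ ≤ L)
    (h1 : 0 ≤ r.1) (h2 : 0 ≤ r.2.1) (h3 : 0 ≤ r.2.2) (hs : r.1 + r.2.1 + r.2.2 = 1) :
    |dA M r| ≤ 10 * L := by
  obtain ⟨a1, -, -⟩ := Expand_col M hM e1 Expand_e1
  obtain ⟨-, b2, -⟩ := Expand_col M hM e2 Expand_e2
  obtain ⟨-, -, c3⟩ := Expand_col M hM e3 Expand_e3
  have hL : 0 ≤ L := (abs_nonneg _).trans a1
  have hn := Expand_nrm r hs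
  have hn1 := Expand_nrm_le r h1 h2 h3 hs
  have hn0 : 0 < nrm r := by linarith
  have ht : |trc M| ≤ 3 * L := (abs_add_three _ _ _).trans (by linarith)
  have hr : ‖r‖ ≤ 1 := by
    simp only [Prod.norm_def, Real.norm_eq_abs, max_le_iff, abs_of_nonneg h1, abs_of_nonneg h2,
      abs_of_nonneg h3]
    exact ⟨by linarith, by linarith, by linarith⟩
  obtain ⟨d1, d2, d3⟩ := Expand_col M hM r hr
  have hd : |dot r (M r)| ≤ L := Expand_conv h1 h2 h3 hs d1 d2 d3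
  have k1 : |trc M * nrm r| ≤ 3 * L := by
    rw [abs_mul, abs_of_pos hn0]
    exact (mul_le_of_le_one_right (abs_nonneg _) hn1).trans ht
  have k2 : |dot r (M r) / nrm r| ≤ 2 * L := by
    rw [abs_div, abs_of_pos hn0, div_le_iff₀ hn0]
    have := mul_le_mul_of_nonneg_left hn hL
    linarith
  exact (abs_sub _ _).trans (by linarith)

theorem dA_smulRight (M : P3 →L[ℝ] ℝ) (r : P3) : dA (M.smulRight e3) r = dA3 M r := by
  simp [dA, dA3, trc, dot, e3]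

theorem dA_add (M M' : P3 →L[ℝ] P3) (r : P3) : dA (M + M') r = dA M r + dA M' r := by
  simp only [dA, trc, dot, add_apply, Prod.fst_add, Prod.snd_add]
  ring

theorem measurable_dA : Measurable (fun q : (P3 →L[ℝ] P3) × P3 => dA q.1 q.2) := by
  have h1 : Continuous (fun q : (P3 →L[ℝ] P3) × P3 => trc q.1) := by unfold trc; fun_prop
  have h2 : Continuous (fun q : (P3 →L[ℝ] P3) × P3 => nrm q.2) := by unfold nrm; fun_prop
  have h3 : Continuous (fun q : (P3 →L[ℝ] P3) × P3 => dot q.2 (q.1 q.2)) := by unfold dot; fun_prop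
  exact (h1.measurable.mul h2.measurable).sub (h3.measurable.div h2.measurable)

theorem measurable_dA3 : Measurable (fun q : (P3 →L[ℝ] ℝ) × P3 => dA3 q.1 q.2) := by
  have h1 : Continuous (fun q : (P3 →L[ℝ] ℝ) × P3 => q.1 e3) := by fun_prop
  have h2 : Continuous (fun q : (P3 →L[ℝ] ℝ) × P3 => nrm q.2) := by unfold nrm; fun_prop
  have h3 : Continuous (fun q : (P3 →L[ℝ] ℝ) × P3 => q.2.2.2 * q.1 q.2) := by fun_prop
  exact (h1.measurable.mul h2.measurable).sub (h3.measurable.div h2.measurable)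

/-- coordinates -/
def ExpandEq : P3 ≃ₗ[ℝ] (Fin 3 → ℝ) where
  toFun x := ![x.1, x.2.1, x.2.2]
  invFun v := (v 0, v 1, v 2)
  map_add' x y := by ext i; fin_cases i <;> simp
  map_smul' c x := by ext i; fin_cases i <;> simp
  left_inv x := rfl
  right_inv v := by ext i; fin_cases i <;> rfl

theorem Expand_det (A : P3 →L[ℝ] P3) : A.det = dot (A e1) (cross (A e2) (A e3)) := by
  let b := Module.Basis.ofEquivFun ExpandEq
  have hs : ∀ v, ExpandEq.symm v = (v 0, v 1, v 2) := fun _ => rfl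
  have b0 : b 0 = e1 := by simp [b, hs, e1]
  have b1 : b 1 = e2 := by simp [b, hs, e2]
  have b2 : b 2 = e3 := by simp [b, hs, e3]
  have r0 : ∀ x, b.repr x 0 = x.1 := fun _ => rfl
  have r1 : ∀ x, b.repr x 1 = x.2.1 := fun _ => rfl
  have r2 : ∀ x, b.repr x 2 = x.2.2 := fun _ => rfl
  unfold ContinuousLinearMap.det
  rw [← LinearMap.det_toMatrix b, Matrix.det_fin_three]
  simp only [LinearMap.toMatrix_apply, b0, b1, b2, r0, r1, r2, ContinuousLinearMap.coe_coe, dot,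
    cross]
  ring

theorem Expand_det_le (N : P3 →L[ℝ] P3) {δ : ℝ} (hN : ‖N‖ ≤ δ) (hδ : δ ≤ 1 / 10) :
    0 < (ContinuousLinearMap.id ℝ P3 + N).det ∧
      |(ContinuousLinearMap.id ℝ P3 + N).det - 1 - trc N| ≤ 20 * δ ^ 2 := by
  obtain ⟨a1, a2, a3⟩ := Expand_col N hN e1 Expand_e1
  obtain ⟨b1, b2, b3⟩ := Expand_col N hN e2 Expand_e2
  obtain ⟨c1, c2, c3⟩ := Expand_col N hN e3 Expand_e3
  have h0 : 0 ≤ δ := (abs_nonneg _).trans a1
  have ht : |trc N| ≤ 3 * δ := (abs_add_three _ _ _).trans (by linarith)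
  have f1 : (ContinuousLinearMap.id ℝ P3 + N) e1 = (1 + (N e1).1, (N e1).2.1, (N e1).2.2) := by
    show e1 + N e1 = _
    ext <;> simp [e1]
  have f2 : (ContinuousLinearMap.id ℝ P3 + N) e2 = ((N e2).1, 1 + (N e2).2.1, (N e2).2.2) := by
    show e2 + N e2 = _
    ext <;> simp [e2]
  have f3 : (ContinuousLinearMap.id ℝ P3 + N) e3 = ((N e3).1, (N e3).2.1, 1 + (N e3).2.2) := by
    show e3 + N e3 = _
    ext <;> simp [e3]
  have m1 := Expand_minor b2 c3 b3 c2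
  have m2 := Expand_minor a1 c3 a3 c1
  have m3 := Expand_minor a1 b2 a2 b1
  have m4 := Expand_minor b3 c1 b1 c3
  have m5 := Expand_minor b1 c2 b2 c1
  have tri : ∀ a m : ℝ, |a| ≤ δ → |m| ≤ 2 * δ ^ 2 → |a * m| ≤ 2 * δ ^ 2 := by
    intro a m ha hm
    rw [abs_mul]
    exact (mul_le_of_le_one_left (abs_nonneg _) (by linarith)).trans hm
  have t1 := tri _ _ a1 m1
  have t2 := tri _ _ a2 m4
  have t3 := tri _ _ a3 m5
  have e : (ContinuousLinearMap.id ℝ P3 + N).det - 1 - trc N =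
      (((N e2).2.1 * (N e3).2.2 - (N e2).2.2 * (N e3).2.1) +
        ((N e1).1 * (N e3).2.2 - (N e1).2.2 * (N e3).1) +
        ((N e1).1 * (N e2).2.1 - (N e1).2.1 * (N e2).1)) +
      ((N e1).1 * ((N e2).2.1 * (N e3).2.2 - (N e2).2.2 * (N e3).2.1) +
        (N e1).2.1 * ((N e2).2.2 * (N e3).1 - (N e2).1 * (N e3).2.2) +
        (N e1).2.2 * ((N e2).1 * (N e3).2.1 - (N e2).2.1 * (N e3).1)) := by
    rw [Expand_det, f1, f2, f3]
    simp only [dot, cross, trc]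
    ring
  have key : |(ContinuousLinearMap.id ℝ P3 + N).det - 1 - trc N| ≤ 12 * δ ^ 2 := by
    rw [e]
    refine (abs_add_le _ _).trans ((add_le_add (abs_add_three _ _ _) (abs_add_three _ _ _)).trans ?_)
    linarith
  have hδ2 : δ ^ 2 ≤ 1 / 100 := by nlinarith
  have hδ3 : 0 ≤ δ ^ 2 := sq_nonneg δ
  refine ⟨?_, key.trans (by linarith)⟩
  have k1 := (abs_le.1 key).1
  have k2 := (abs_le.1 ht).1
  linarith

/-- determinant expansion -/
theorem det_id_add (M : P3 →L[ℝ] P3) {ε L : ℝ} (hM : ‖M‖ ≤ L) (hε : |ε| * L ≤ 1 / 10) :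
    0 < (ContinuousLinearMap.id ℝ P3 + ε • M).det ∧
      |(ContinuousLinearMap.id ℝ P3 + ε • M).det - 1 - ε * trc M| ≤ 20 * L ^ 2 * ε ^ 2 := by
  have hN : ‖ε • M‖ ≤ |ε| * L := by
    rw [norm_smul, Real.norm_eq_abs]
    exact mul_le_mul_of_nonneg_left hM (abs_nonneg _)
  obtain ⟨h1, h2⟩ := Expand_det_le (ε • M) hN hε
  have e : trc (ε • M) = ε * trc M := by
    simp only [trc, smul_apply, Prod.smul_fst, Prod.smul_snd, smul_eq_mul]
    ring
  rw [e, mul_pow, sq_abs] at h2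
  exact ⟨h1, h2.trans (le_of_eq (by ring))⟩

end Vale.Agent.P232
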