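import Vale.Agent.P232.Div

open MeasureTheory Set Filter Topology
open scoped ENNReal

noncomputable section
namespace Vale.Agent.P232

/-! Task: canonical extension, Helly selection, compactness, point reflection. -/

/-- the clamped shift -/
def extC (δ η t : ℝ) : ℝ := max δ (min (t + δ) (1 - η))

/-- the clamped shift of a point -/
def extP (δ η : ℝ) (x : P3) : P3 := (extC δ η x.1, extC δ η x.2.1, extC δ η x.2.2)

theorem mem_ext {E : Set P3} {x : P3} :
    x ∈ ext E ↔ ∃ δ : ℝ, 0 < δ ∧ δ < 1 / 2 ∧ ∀ η : ℝ, 0 < η → η < δ → extP δ η x ∈ E := Iff.rfl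

theorem extC_mem {δ η : ℝ} (h0 : 0 < δ) (h1 : δ < 1 / 2) (h2 : 0 < η) (t : ℝ) :
    extC δ η t ∈ Ioo (0 : ℝ) 1 :=
  ⟨lt_max_of_lt_left h0, max_lt (by linarith) (min_lt_of_right_lt (by linarith))⟩

theorem extP_mem {δ η : ℝ} (h0 : 0 < δ) (h1 : δ < 1 / 2) (h2 : 0 < η) (x : P3) :
    extP δ η x ∈ Q := ⟨extC_mem h0 h1 h2 _, extC_mem h0 h1 h2 _, extC_mem h0 h1 h2 _⟩

theorem extC_le {δ δ' η t t' : ℝ} (h1 : δ ≤ δ') (h2 : t + δ ≤ t' + δ') :
    extC δ η t ≤ extC δ' η t' := max_le_max h1 (min_le_min h2 le_rfl)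

theorem extC_le_one {δ η : ℝ} (h0 : 0 < δ) (h2 : 0 < η) (t : ℝ) : extC δ η t ≤ extC δ η 1 :=
  max_le_max le_rfl (le_min (min_le_of_right_le (by linarith)) (min_le_right _ _))

theorem LowQ.rot {E : Set P3} (hE : LowQ E) : LowQ (P232.rot E) := fun x hx y hy h =>
  hE (cycInv x) ⟨hx.2.2, hx.1, hx.2.1⟩ (cycInv y) ⟨hy.2.2, hy.1, hy.2.1⟩ ⟨h.2.2, h.1, h.2.1⟩

theorem ext_mono {E : Set P3} (hE : LowQ E) {x y : P3} {δ δ' : ℝ} (h0 : 0 < δ') (h : δ' ≤ δ)
    (h1 : δ < 1 / 2) (hx : ∀ η : ℝ, 0 < η → η < δ → extP δ η x ∈ E)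
    (hle : ∀ η, 0 < η → extP δ' η y ≤ extP δ η x) : y ∈ ext E :=
  ⟨δ', h0, h.trans_lt h1, fun η a b => hE _ (extP_mem h0 (h.trans_lt h1) a y) _
    (extP_mem (h0.trans_le h) h1 a x) (hle η a) (hx η a (b.trans_le h))⟩

theorem adm3_ext {E : Set P3} (hE : LowQ E) : Adm3 (ext E) := by
  refine ⟨fun x y z _ ⟨δ, h0, h1, h⟩ => ⟨δ / 2, half_pos h0, ?_⟩, fun x y z ⟨δ, h0, h1, h⟩ => ?_,
    fun x y x' y' a1 a2 b1 b2 h => ?_⟩
  · exact ext_mono hE (half_pos h0) (half_le_self h0.le) h1 h fun η _ =>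
      ⟨extC_le (by linarith) (by linarith), extC_le (by linarith) (by linarith),
        le_max_of_le_left (max_le (by linarith) (min_le_of_left_le (by linarith)))⟩
  · exact ext_mono hE h0 le_rfl h1 h fun η hη => ⟨le_rfl, le_rfl, extC_le_one h0 hη z⟩
  · obtain ⟨δ, d0, d1, d2, d3⟩ : ∃ δ : ℝ, 0 < δ ∧ δ < 1 / 2 ∧ δ ≤ x - x' ∧ δ ≤ y - y' :=
      ⟨min (1 / 4) (min (x - x') (y - y')), lt_min (by norm_num) (lt_min (by linarith)
        (by linarith)), min_lt_of_left_lt (by norm_num), min_le_of_right_le (min_le_left _ _),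
        min_le_of_right_le (min_le_right _ _)⟩
    refine mem_ext.2 ⟨δ, d0, d1, fun η e0 e1 => ?_⟩
    obtain ⟨δ', h0, h1, h2⟩ := mem_ext.1 (h (1 - η) (by linarith))
    have m0 : 0 < min η δ' / 2 := half_pos (lt_min e0 h0)
    have m1 := min_le_left η δ'
    have m2 := min_le_right η δ'
    have key : ∀ t t' : ℝ, 0 < t' → δ ≤ t - t' → extC δ η t' ≤ extC δ' (min η δ' / 2) t :=
      fun t t' c1 c2 => le_max_of_le_right (max_le (le_min (by linarith) (by linarith))
        (min_le_min (by linarith) (by linarith)))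
    refine hE _ (extP_mem d0 d1 e0 _) _ (extP_mem h0 h1 m0 (x, y, 1 - η))
      ⟨key x x' a1 d2, key y y' b1 d3, ?_⟩ (h2 _ m0 (by linarith))
    exact le_max_of_le_right (max_le (le_min (by linarith) (by linarith))
      (min_le_of_right_le (le_min (by linarith) (by linarith))))

theorem adm_ext {E : Set P3} (hE : LowQ E) : Adm (ext E) := by
  refine ⟨fun x y hxy ⟨δ, h0, h1, h⟩ => ?_, Metric.isOpen_iff.2 fun x ⟨δ, h0, h1, h⟩ =>
    ⟨δ / 2, half_pos h0, fun y hy => ?_⟩, adm3_ext hE, adm3_ext hE.rot, adm3_ext hE.rot.rot⟩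
  · exact ext_mono hE h0 le_rfl h1 h fun η _ => ⟨extC_le le_rfl (by linarith [hxy.1]),
      extC_le le_rfl (by linarith [hxy.2.1]), extC_le le_rfl (by linarith [hxy.2.2])⟩
  · simp only [Metric.mem_ball, Prod.dist_eq, max_lt_iff, Real.dist_eq, abs_lt] at hy
    exact ext_mono hE (half_pos h0) (half_le_self h0.le) h1 h fun η _ =>
      ⟨extC_le (by linarith) (by linarith), extC_le (by linarith) (by linarith),
        extC_le (by linarith) (by linarith)⟩

theorem ext_ae {E : Set P3} (hE : LowQ E) :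
    ∀ᵐ x ∂(volume.restrict Q), (x ∈ ext E ↔ x ∈ E) := by
  have hl : IsLowerSet {x : P3 | ∃ y ∈ Q, y ∈ E ∧ x ≤ y} :=
    fun a b hab ⟨y, h1, h2, h3⟩ => ⟨y, h1, h2, hab.trans h3⟩
  filter_upwards [ae_restrict_mem measurableSet_Q,
    ae_restrict_of_ae (measure_eq_zero_iff_ae_notMem.1 (null_frontier3 hl))] with x hx hf
  obtain ⟨⟨a1, a2⟩, ⟨b1, b2⟩, c1, c2⟩ := id hx
  refine ⟨fun ⟨δ, h0, h1, h⟩ => ?_, fun h => ?_⟩
  · obtain ⟨η, e0, e1, e2, e3, e4⟩ : ∃ η : ℝ, 0 < η ∧ η < δ ∧ η < 1 - x.1 ∧ η < 1 - x.2.1 ∧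
        η < 1 - x.2.2 := by
      obtain ⟨η, e0, e⟩ := exists_between (show 0 < min δ (min (1 - x.1) (min (1 - x.2.1)
        (1 - x.2.2))) from lt_min h0 (lt_min (by linarith) (lt_min (by linarith) (by linarith))))
      simp only [lt_min_iff] at e
      exact ⟨η, e0, e⟩
    exact hE x hx _ (extP_mem h0 h1 e0 x) ⟨le_max_of_le_right (le_min (by linarith) (by linarith)),
      le_max_of_le_right (le_min (by linarith) (by linarith)),
      le_max_of_le_right (le_min (by linarith) (by linarith))⟩ (h η e0 e1)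
  · have hi : x ∈ interior {x : P3 | ∃ y ∈ Q, y ∈ E ∧ x ≤ y} := by
      by_contra h'
      exact hf ⟨subset_closure ⟨x, hx, h, le_rfl⟩, h'⟩
    obtain ⟨ε, hε, hb⟩ := Metric.mem_nhds_iff.1 (mem_interior_iff_mem_nhds.1 hi)
    obtain ⟨δ, h0, h1⟩ := exists_between (show 0 < min ε (1 / 2) from lt_min hε (by norm_num))
    rw [lt_min_iff] at h1
    obtain ⟨y, y1, y2, y3⟩ := hb (show (x.1 + δ, x.2.1 + δ, x.2.2 + δ) ∈ Metric.ball x ε by
      simp [Prod.dist_eq, abs_of_pos h0, h1.1])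
    refine mem_ext.2 ⟨δ, h0, h1.2, fun η e0 _ => hE _ (extP_mem h0 h1.2 e0 x) y y1 ?_ y2⟩
    exact le_trans (show extP δ η x ≤ (x.1 + δ, x.2.1 + δ, x.2.2 + δ) from
      ⟨max_le (by linarith) (min_le_left _ _), max_le (by linarith) (min_le_left _ _),
        max_le (by linarith) (min_le_left _ _)⟩) y3

/-- Helly selection: diagonal argument on rational points; the limit holds off the frontier. -/
theorem helly (E : ℕ → Set P3) (hE : ∀ n, LowQ (E n)) :
    ∃ (φ : ℕ → ℕ) (E₀ : Set P3), StrictMono φ ∧ LowQ E₀ ∧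
      ∀ᵐ x ∂(volume.restrict Q), ∀ᶠ n in atTop, (x ∈ E (φ n) ↔ x ∈ E₀) := by
  classical
  let ι : ℚ × ℚ × ℚ → P3 := fun q => (q.1, q.2.1, q.2.2)
  obtain ⟨b, -, φ, hφ, hb⟩ := (isCompact_univ (X := ℚ × ℚ × ℚ → Bool)).tendsto_subseq
    (x := fun n q => decide (ι q ∈ E n)) fun _ => mem_univ _
  have hb' : ∀ q, ∀ᶠ n in atTop, (ι q ∈ E (φ n) ↔ b q = true) := fun q => by
    have h1 := tendsto_pi_nhds.1 hb q
    rw [nhds_discrete, tendsto_pure] at h1
    filter_upwards [h1] with n hn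
    rw [← hn]
    simp
  have hl : IsLowerSet {x : P3 | ∃ q, ι q ∈ Q ∧ b q = true ∧ x ≤ ι q} :=
    fun a c hac ⟨y, h1, h2, h3⟩ => ⟨y, h1, h2, hac.trans h3⟩
  refine ⟨φ, _, hφ, fun x _ y _ h => hl h, ?_⟩
  filter_upwards [ae_restrict_mem measurableSet_Q,
    ae_restrict_of_ae (measure_eq_zero_iff_ae_notMem.1 (null_frontier3 hl))] with x hx hf
  by_cases h : x ∈ {x : P3 | ∃ q, ι q ∈ Q ∧ b q = true ∧ x ≤ ι q}
  · obtain ⟨q, h1, h2, h3⟩ := id h
    filter_upwards [hb' q] with n hn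
    exact iff_of_true (hE _ x hx _ h1 h3 (hn.2 h2)) h
  · have h1 : x ∉ closure {x : P3 | ∃ q, ι q ∈ Q ∧ b q = true ∧ x ≤ ι q} :=
      fun h' => hf ⟨h', fun h'' => h (interior_subset h'')⟩
    rw [Metric.mem_closure_iff] at h1
    push Not at h1
    obtain ⟨ε, hε, h2⟩ := h1
    obtain ⟨⟨a1, a2⟩, ⟨b1, b2⟩, c1, c2⟩ := id hx
    obtain ⟨q1, d1, d2⟩ := exists_rat_btwn (max_lt a1 (sub_lt_self x.1 hε))
    obtain ⟨q2, d3, d4⟩ := exists_rat_btwn (max_lt b1 (sub_lt_self x.2.1 hε))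
    obtain ⟨q3, d5, d6⟩ := exists_rat_btwn (max_lt c1 (sub_lt_self x.2.2 hε))
    rw [max_lt_iff] at d1 d3 d5
    have hq : ι (q1, q2, q3) ∈ Q := ⟨⟨d1.1, d2.trans a2⟩, ⟨d3.1, d4.trans b2⟩, d5.1, d6.trans c2⟩
    have hd : dist x (ι (q1, q2, q3)) < ε := by
      simp only [ι, Prod.dist_eq, max_lt_iff, Real.dist_eq, abs_lt]
      exact ⟨⟨by linarith, by linarith⟩, ⟨by linarith, by linarith⟩, by linarith, by linarith⟩
    filter_upwards [hb' (q1, q2, q3)] with n hn
    refine iff_of_false (fun h' => ?_) h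
    exact (h2 _ ⟨_, hq, hn.1 (hE _ _ hq x hx ⟨d2.le, d4.le, d6.le⟩ h'), le_rfl⟩).not_gt hd

theorem ext_integrable {Z : P3 → P3} (hZ : ContDiff ℝ 1 Z) (hc : HasCompactSupport Z) :
    Integrable (dv Z) := by
  have h1 : Continuous (dv Z) := by
    have := hZ.continuous_fderiv one_ne_zero
    unfold dv trc
    fun_prop
  exact h1.integrable_of_hasCompactSupport (HasCompactSupport.intro hc fun x => dv_eq_zero)

theorem exists_limit (E : ℕ → Set P3) (hE : ∀ n, Adm (E n)) :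
    ∃ (φ : ℕ → ℕ) (E₀ : Set P3), StrictMono φ ∧ Adm E₀ ∧
      Tendsto (fun n => volQ (E (φ n))) atTop (𝓝 (volQ E₀)) ∧
      ∀ (c : ℕ → ℝ) (c₀ : ℝ), Tendsto c atTop (𝓝 c₀) → (∀ n, area (E (φ n)) ≤ c n) →
        area E₀ ≤ c₀ := by
  obtain ⟨φ, F, hφ, hF, h⟩ := helly E fun n => (hE n).lowQ
  have hA := adm_ext hF
  have h1 : ∀ᵐ x ∂(volume.restrict Q), ∀ᶠ n in atTop, (x ∈ E (φ n) ↔ x ∈ ext F) := by
    filter_upwards [h, ext_ae hF] with x a b
    simpa only [b] using a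
  have : IsFiniteMeasure (volume.restrict Q) := ⟨by simp [volume_Q]⟩
  refine ⟨φ, ext F, hφ, hA, ?_, fun c c₀ hc hle => hA.area_le fun Z hZ a1 a2 a3 => ?_⟩
  · have h2 := tendsto_measure_of_ae_tendsto_indicator_of_isFiniteMeasure atTop hA.measurableSet
      (fun n => (hE (φ n)).measurableSet) h1
    simp only [Measure.restrict_apply' measurableSet_Q] at h2
    refine (ENNReal.tendsto_toReal ?_).comp h2
    exact ne_top_of_le_ne_top (by simp [volume_Q]) (measure_mono inter_subset_right)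
  · have hi := (ext_integrable hZ a2).integrableOn (s := Q)
    have e : ∀ G : Set P3, MeasurableSet G →
        ∫ x in G ∩ Q, dv Z x = ∫ x in Q, G.indicator (dv Z) x := fun G hG => by
      rw [integral_indicator hG, Measure.restrict_restrict hG]
    have h2 := tendsto_integral_of_dominated_convergence (μ := volume.restrict Q)
      (F := fun n => (E (φ n)).indicator (dv Z)) (f := (ext F).indicator (dv Z))
      (fun x => ‖dv Z x‖) (fun n => hi.1.indicator (hE (φ n)).measurableSet) hi.norm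
      (fun n => Eventually.of_forall fun x => norm_indicator_le_norm_self _ _) (by
        filter_upwards [h1] with x hx
        refine tendsto_const_nhds.congr' ?_
        filter_upwards [hx] with n hn
        by_cases hx' : x ∈ ext F
        · rw [indicator_of_mem hx', indicator_of_mem (hn.2 hx')]
        · rw [indicator_of_notMem hx', indicator_of_notMem (mt hn.1 hx')])
    rw [e _ hA.measurableSet]
    refine le_of_tendsto_of_tendsto' h2 hc fun n => ?_
    rw [← e _ (hE _).measurableSet]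
    exact ((hE _).relLe_area Z hZ a1 a2 a3).trans (hle n)

theorem flip_inter (F : Set P3) : flip F ∩ Q = (fun x : P3 => 1 - x) ⁻¹' (Fᶜ ∩ Q) := by
  ext x
  refine and_congr Iff.rfl ?_
  simp only [Q, mem_prod, mem_Ioo, Prod.fst_sub, Prod.snd_sub, Prod.fst_one, Prod.snd_one,
    sub_pos, sub_lt_self_iff]
  tauto

theorem flip_mp : MeasurePreserving (fun x : P3 => 1 - x) volume volume :=
  (Measure.measurePreserving_sub_left (volume : Measure ℝ) 1).prod
    ((Measure.measurePreserving_sub_left (volume : Measure ℝ) 1).prod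
      (Measure.measurePreserving_sub_left (volume : Measure ℝ) 1))

theorem measurableSet_flip {F : Set P3} (hF : MeasurableSet F) : MeasurableSet (flip F) :=
  (measurable_const_sub (1 : P3)) hF.compl

theorem volQ_flip {F : Set P3} (hF : MeasurableSet F) : volQ (flip F) = 1 - volQ F := by
  have h1 := measure_inter_add_sdiff (μ := volume) Q hF
  have h2 : ∀ G : Set P3, volume (G ∩ Q) ≠ ⊤ := fun G =>
    ne_top_of_le_ne_top (by simp [volume_Q]) (measure_mono inter_subset_right)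
  rw [volume_Q, inter_comm, sdiff_eq, inter_comm Q] at h1
  have h3 := congrArg ENNReal.toReal h1
  rw [ENNReal.toReal_add (h2 _) (h2 _), ENNReal.toReal_one] at h3
  rw [volQ, volQ, flip_inter, flip_mp.measure_preimage
    (hF.compl.inter measurableSet_Q).nullMeasurableSet]
  linarith

theorem ext_div_zero {Z : P3 → P3} (hZ : ContDiff ℝ 1 Z) (hc : HasCompactSupport Z)
    (hs : tsupport Z ⊆ Q) : ∫ x in Q, dv Z x = 0 := by
  have h3 : Adm3 univ := ⟨fun _ _ _ _ _ => ⟨1, one_pos, trivial⟩, fun _ _ _ _ => trivial,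
    fun _ _ _ _ _ _ _ _ _ => trivial⟩
  have h : Adm univ := ⟨isLowerSet_univ, isOpen_univ, h3, h3, h3⟩
  have h1 := h.div_Q hZ hc hs
  have e : nu univ = 0 := by simp [nu, mu1, mu2, mu3, dom, slice, rot]
  simpa [e] using h1

theorem RelLe.flip {F : Set P3} {c : ℝ} (hF : MeasurableSet F) (h : RelLe F c) :
    RelLe (P232.flip F) c := by
  intro Z hZ a1 a2 a3
  have b1 : ContDiff ℝ 1 fun x : P3 => Z (1 - x) := hZ.comp (by fun_prop)
  have b2 : HasCompactSupport fun x : P3 => Z (1 - x) :=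
    a2.comp_homeomorph (Homeomorph.subLeft (1 : P3))
  have b3 : tsupport (fun x : P3 => Z (1 - x)) ⊆ Q := fun x hx => by
    have h1 : 1 - x ∈ Q := a3 (tsupport_comp_subset_preimage Z (f := fun x : P3 => 1 - x)
      (by fun_prop) hx)
    have h2 : 1 - x ∈ P232.flip ∅ ∩ Q := ⟨notMem_empty _, h1⟩
    rw [flip_inter] at h2
    simpa using h2
  have e : ∀ x, dv Z x = -dv (fun x : P3 => Z (1 - x)) (1 - x) := fun x => by
    have h1 : HasFDerivAt (fun x : P3 => Z (1 - x)) _ (1 - x) :=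
      (hZ.differentiable one_ne_zero _).hasFDerivAt.comp (1 - x)
        ((hasFDerivAt_id (1 - x)).const_sub 1)
    rw [dv, dv, h1.fderiv]
    simp [trc]
    ring
  have h1 := h _ b1 (fun x => a1 _) b2 b3
  have h2 := integral_inter_add_sdiff hF ((ext_integrable b1 b2).integrableOn (s := Q))
  rw [ext_div_zero b1 b2 b3, inter_comm, sdiff_eq, inter_comm Q] at h2
  simp only [e]
  rw [flip_inter, integral_neg, flip_mp.setIntegral_preimage_emb
    (Homeomorph.subLeft (1 : P3)).measurableEmbedding]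
  linarith

theorem Adm.exists_flip {E : Set P3} (h : Adm E) :
    ∃ E' : Set P3, Adm E' ∧ volQ E' = 1 - volQ E ∧ area E' ≤ area E := by
  have hl : LowQ (flip E) := fun x _ y _ hxy hy hx => hy (h.lower
    (show ((1 - y.1, 1 - y.2.1, 1 - y.2.2) : P3) ≤ (1 - x.1, 1 - x.2.1, 1 - x.2.2) from
      ⟨sub_le_sub_left hxy.1 1, sub_le_sub_left hxy.2.1 1, sub_le_sub_left hxy.2.2 1⟩) hx)
  have hA := adm_ext hl
  refine ⟨_, hA, (volQ_congr (ext_ae hl)).trans (volQ_flip h.measurableSet), hA.area_le ?_⟩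
  exact (h.relLe_area.flip h.measurableSet).congr (measurableSet_flip h.measurableSet)
    hA.measurableSet ((ext_ae hl).mono fun x hx => hx.symm)

end Vale.Agent.P232
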