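import Vale.Agent.P232.Defs

open MeasureTheory Set Filter Topology
open scoped ENNReal

noncomputable section
namespace Vale.Agent.P232

/-! Task: two sharp one-variable inequalities and the concavity step for the Lawson pentagon.
`gq x = x - x²/π`.  `E1` has slack only `0.0033` near `h = 0.65` (use `arctan z ≥ (105 z + 55 z³)/(105 + 90 z² + 9 z⁴)` or
`arctan z ≥ 3z/(1 + 2√(1+z²))`, Taylor bounds for `sin`, `Real.pi_gt_d6`, and split the interval).
`star`: WLOG `x₁ ≤ x₂`; then `x₂ ≥ y := arctan (sin h)`, `x₁ ≥ ξ x₂ := arcsin (sin h cos x₂)`, `x ↦ gq x + gq (ξ x)` is concave on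
`[0, π/2]` (`ξ` is concave, `gq` is concave and increasing), `ξ y = y`; compare with the end points `y` and `h`. -/

def gq (x : ℝ) : ℝ := x - x ^ 2 / Real.pi

lemma finE_nonneg {g g' : ℝ → ℝ} (h0 : g 0 = 0) (hd : ∀ x, HasDerivAt g (g' x) x)
    (hp : ∀ x, 0 ≤ x → 0 ≤ g' x) {x : ℝ} (hx : 0 ≤ x) : 0 ≤ g x := by
  have h := monotoneOn_of_deriv_nonneg (convex_Ici 0)
    (fun x _ => (hd x).continuousAt.continuousWithinAt)
    (fun x _ => (hd x).differentiableAt.differentiableWithinAt)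
    (fun x hx => by rw [(hd x).deriv]; exact hp x (interior_subset hx)) self_mem_Ici hx hx
  rwa [h0] at h

lemma finE_cos4 {x : ℝ} (hx : 0 ≤ x) : Real.cos x ≤ 1 - x ^ 2 / 2 + x ^ 4 / 24 := by
  have h := finE_nonneg (g := fun x => 1 - x ^ 2 / 2 + x ^ 4 / 24 - Real.cos x)
    (g' := fun x => -x + x ^ 3 / 6 + Real.sin x) (by simp) (fun x =>
      (((((hasDerivAt_pow 2 x).div_const 2).const_sub 1).add
        ((hasDerivAt_pow 4 x).div_const 24)).sub (Real.hasDerivAt_cos x)).congr_deriv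
        (by norm_num; ring))
    (fun x hx => by linarith [Real.sin_ge_sub_cube hx]) hx
  linarith

lemma finE_sin5 {x : ℝ} (hx : 0 ≤ x) : Real.sin x ≤ x - x ^ 3 / 6 + x ^ 5 / 120 := by
  have h := finE_nonneg (g := fun x => x - x ^ 3 / 6 + x ^ 5 / 120 - Real.sin x)
    (g' := fun x => 1 - x ^ 2 / 2 + x ^ 4 / 24 - Real.cos x) (by simp) (fun x =>
      ((((hasDerivAt_id x).sub ((hasDerivAt_pow 3 x).div_const 6)).add
        ((hasDerivAt_pow 5 x).div_const 120)).sub (Real.hasDerivAt_sin x)).congr_deriv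
        (by norm_num; ring))
    (fun x hx => by linarith [finE_cos4 hx]) hx
  linarith

lemma finE_cos6 {x : ℝ} (hx : 0 ≤ x) :
    1 - x ^ 2 / 2 + x ^ 4 / 24 - x ^ 6 / 720 ≤ Real.cos x := by
  have h := finE_nonneg (g := fun x => Real.cos x - (1 - x ^ 2 / 2 + x ^ 4 / 24 - x ^ 6 / 720))
    (g' := fun x => x - x ^ 3 / 6 + x ^ 5 / 120 - Real.sin x) (by simp) (fun x =>
      ((Real.hasDerivAt_cos x).sub (((((hasDerivAt_pow 2 x).div_const 2).const_sub 1).add
        ((hasDerivAt_pow 4 x).div_const 24)).sub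
        ((hasDerivAt_pow 6 x).div_const 720))).congr_deriv (by norm_num; ring))
    (fun x hx => by linarith [finE_sin5 hx]) hx
  linarith

lemma gq_mono {x y : ℝ} (hxy : x ≤ y) (hy : y ≤ Real.pi / 2) : gq x ≤ gq y := by
  have hp := Real.pi_pos
  have e : gq y - gq x = (y - x) * (Real.pi - x - y) / Real.pi := by
    unfold gq; field_simp; ring
  have : 0 ≤ (y - x) * (Real.pi - x - y) / Real.pi :=
    div_nonneg (mul_nonneg (by linarith) (by linarith)) hp.le
  linarith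

lemma finE_p1 {h : ℝ} (h0 : 0 ≤ h) (h1 : h ≤ 1) :
    h * (1 - 19 / 120 * h ^ 2) * (1 - 29 / 360 * h ^ 2) / 2 ≤
      (0.1116 + 0.22 * h) * (1 + h ^ 2 / 2 - 7 / 24 * h ^ 4) := by
  have h2 : h ^ 2 ≤ h := by nlinarith
  have h3 : h ^ 3 ≤ h := by nlinarith
  have hr : 0 ≤ 0.13 + 0.0873178 * h - 0.12849 * h ^ 2 - 0.070544 * h ^ 3 := by nlinarith
  nlinarith [mul_nonneg (sq_nonneg (h - 0.68)) hr, sq_nonneg (h - 0.69), pow_nonneg h0 3,
    pow_nonneg h0 4, pow_nonneg h0 5]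

lemma finE_p2 {h : ℝ} (h0 : 0 ≤ h) (h1 : h ≤ 1) :
    (0.1116 + 0.22 * h) * (6.2832 - 4 * h + 2 * (h ^ 2 * (0.1116 + 0.22 * h))) < 1 := by
  have h2 : h ^ 2 ≤ 1 := by nlinarith
  have hr : 0 ≤ 0.363128 - 0.2376 * h - 0.0968 * h ^ 2 := by nlinarith
  nlinarith [mul_nonneg (sq_nonneg (h - 0.72)) hr, sq_nonneg (h - 0.72), sq_nonneg (h - 0.73)]

lemma finE_gap {h : ℝ} (h0 : 0 < h) (h1 : h ≤ Real.pi / 2)
    (hd : 0 ≤ h - Real.arctan (Real.sin h)) :
    (h - Real.arctan (Real.sin h)) * (Real.cos h + Real.sin h ^ 2) ≤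
      Real.sin h * (1 - Real.cos h) := by
  have hs : 0 < Real.sin h := Real.sin_pos_of_pos_of_lt_pi h0 (by linarith [Real.pi_pos])
  set y := Real.arctan (Real.sin h) with hy
  have hy0 : 0 < y := Real.arctan_pos.2 hs
  have hc : 0 < Real.cos y := Real.cos_arctan_pos _
  have ht : Real.sin y = Real.sin h * Real.cos y := by
    have := Real.tan_arctan (Real.sin h)
    rw [← hy, Real.tan_eq_sin_div_cos, div_eq_iff hc.ne'] at this
    exact this
  have h2 := Real.le_tan hd (by linarith)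
  have hcd : 0 < Real.cos (h - y) :=
    Real.cos_pos_of_mem_Ioo ⟨by linarith [Real.pi_pos], by linarith⟩
  rw [Real.tan_eq_sin_div_cos, le_div_iff₀ hcd, Real.sin_sub, Real.cos_sub, ht] at h2
  refine le_of_mul_le_mul_right ?_ hc
  nlinarith

lemma finE_small {h : ℝ} (h0 : 0 < h) (h1 : h ≤ 1) :
    h - Real.arctan (Real.sin h) ≤ h ^ 2 * (0.1116 + 0.22 * h) := by
  by_cases hd : 0 ≤ h - Real.arctan (Real.sin h)
  swap
  · have : 0 ≤ h ^ 2 * (0.1116 + 0.22 * h) := by positivity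
    linarith
  have hg := finE_gap h0 (by linarith [Real.pi_gt_three]) hd
  have hx : h ^ 2 ≤ 1 := by nlinarith
  have hx0 : 0 ≤ h ^ 2 := by positivity
  have hs0 : 0 ≤ Real.sin h := Real.sin_nonneg_of_nonneg_of_le_pi h0.le
    (by linarith [Real.pi_gt_three])
  have s1 : Real.sin h ≤ h * (1 - 19 / 120 * h ^ 2) := by
    have := finE_sin5 h0.le
    have e : h ^ 5 ≤ h ^ 3 := by nlinarith [pow_pos h0 3]
    nlinarith
  have w1 : 1 - Real.cos h ≤ h ^ 2 / 2 * (1 - 29 / 360 * h ^ 2) := by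
    have := finE_cos6 h0.le
    have e : h ^ 6 ≤ h ^ 4 := by nlinarith [pow_pos h0 4]
    nlinarith
  have w2 := finE_cos4 h0.le
  have w3 := Real.one_sub_sq_div_two_le_cos (x := h)
  have hsc := Real.sin_sq_add_cos_sq h
  have d1 : 1 + h ^ 2 / 2 - 7 / 24 * h ^ 4 ≤ Real.cos h + Real.sin h ^ 2 := by
    have e : (h ^ 2 / 2 - h ^ 4 / 24) * (1 - h ^ 2 / 2) ≤ (1 - Real.cos h) * Real.cos h :=
      mul_le_mul (by linarith) w3 (by linarith) (by linarith [Real.cos_le_one h])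
    nlinarith [pow_pos h0 6]
  have d0 : 0 < 1 + h ^ 2 / 2 - 7 / 24 * h ^ 4 := by nlinarith
  have n1 : Real.sin h * (1 - Real.cos h) ≤
      h * (1 - 19 / 120 * h ^ 2) * (h ^ 2 / 2 * (1 - 29 / 360 * h ^ 2)) :=
    mul_le_mul s1 w1 (by linarith [Real.cos_le_one h]) (hs0.trans s1)
  have n2 := mul_le_mul_of_nonneg_left (finE_p1 h0.le h1) hx0
  have n3 := mul_le_mul_of_nonneg_left d1 hd
  refine le_of_mul_le_mul_right ?_ d0
  nlinarith

theorem fin_E1 {h : ℝ} (h0 : 0 < h) (h1 : h ≤ Real.pi / 2) :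
    2 * h - 3 * h ^ 2 / Real.pi < 2 * gq (Real.arctan (Real.sin h)) := by
  have hp := Real.pi_pos
  have hp1 := Real.pi_gt_d4
  have hp2 := Real.pi_lt_d4
  have hy := (Real.arctan_lt_pi_div_two (Real.sin h)).le
  rcases le_total h 1 with h2 | h2
  · have h3 := gq_mono (show h - h ^ 2 * (0.1116 + 0.22 * h) ≤ _ by linarith [finE_small h0 h2]) hy
    refine lt_of_lt_of_le ?_ (mul_le_mul_of_nonneg_left h3 zero_le_two)
    have h4 := finE_p2 h0.le h2
    set σ := 0.1116 + 0.22 * h with hσ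
    have hσ0 : 0 < σ := by positivity
    have e : 2 * gq (h - h ^ 2 * σ) - (2 * h - 3 * h ^ 2 / Real.pi) =
        h ^ 2 * (1 - σ * (2 * Real.pi - 4 * h + 2 * (h ^ 2 * σ))) / Real.pi := by
      unfold gq; field_simp; ring
    have h5 : 0 < h ^ 2 * (1 - σ * (2 * Real.pi - 4 * h + 2 * (h ^ 2 * σ))) / Real.pi :=
      div_pos (mul_pos (by positivity) (by nlinarith)) hp
    linarith
  · have s1 : Real.sin 1 ≤ Real.sin h := Real.sin_le_sin_of_le_of_le_pi_div_two (by linarith) h1 h2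
    have s2 := Real.sin_ge_sub_cube (x := 1) zero_le_one
    have s3 := finE_sin5 (x := 2 / 3) (by norm_num)
    have s4 := Real.one_sub_sq_div_two_le_cos (x := 2 / 3)
    have h3 : 2 / 3 ≤ Real.arctan (Real.sin h) := by
      rw [← Real.arctan_tan (x := 2 / 3) (by linarith) (by linarith), Real.arctan_le_arctan_iff,
        Real.tan_eq_sin_div_cos, div_le_iff₀ (by linarith)]
      nlinarith
    refine lt_of_lt_of_le ?_ (mul_le_mul_of_nonneg_left (gq_mono h3 hy) zero_le_two)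
    have e : 2 * gq (2 / 3) - (2 * h - 3 * h ^ 2 / Real.pi) =
        (3 * (h - Real.pi / 3) ^ 2 + (4 / 3 * Real.pi - 8 / 9 - Real.pi ^ 2 / 3)) / Real.pi := by
      unfold gq; field_simp; ring
    have h5 : 0 < (3 * (h - Real.pi / 3) ^ 2 + (4 / 3 * Real.pi - 8 / 9 - Real.pi ^ 2 / 3)) /
        Real.pi := div_pos (by nlinarith [sq_nonneg (h - Real.pi / 3)]) hp
    linarith

lemma finE_E2 {h : ℝ} (h0 : 0 < h) (h1 : h ≤ Real.pi / 4) :
    h - 2 * h ^ 2 / Real.pi < gq (Real.arcsin (Real.sin h * Real.cos h)) := by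
  have hp := Real.pi_pos
  have hp1 := Real.pi_gt_d4
  have hp2 := Real.pi_lt_d4
  have s1 := Real.sin_ge_sub_cube (x := 2 * h) (by linarith)
  rw [Real.sin_two_mul] at s1
  have hh : h ≤ 0.7854 := by linarith
  have hx : h ^ 2 ≤ 0.6169 := by nlinarith
  have y0 : 0 ≤ h - 2 * h ^ 3 / 3 := by nlinarith
  have y1 : h - 2 * h ^ 3 / 3 ≤ h := by nlinarith [pow_pos h0 3]
  have h3 : h - 2 * h ^ 3 / 3 ≤ Real.arcsin (Real.sin h * Real.cos h) := by
    rw [Real.le_arcsin_iff_sin_le' ⟨by linarith, by linarith⟩]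
    nlinarith [Real.sin_le y0]
  refine lt_of_lt_of_le ?_ (gq_mono h3 (Real.arcsin_le_pi_div_two _))
  have e : gq (h - 2 * h ^ 3 / 3) - (h - 2 * h ^ 2 / Real.pi) =
      h ^ 2 * (2 - (1 - 2 * h ^ 2 / 3) ^ 2 - 2 * Real.pi * h / 3) / Real.pi := by
    unfold gq; field_simp; ring
  have h4 : h ^ 2 * h ^ 2 ≤ h ^ 2 * 0.6169 := mul_le_mul_of_nonneg_left hx (by positivity)
  have h5 : Real.pi * h ≤ 3.1416 * h := mul_le_mul_of_nonneg_right hp2.le h0.le
  have h6 : 0 < h ^ 2 * (2 - (1 - 2 * h ^ 2 / 3) ^ 2 - 2 * Real.pi * h / 3) / Real.pi :=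
    div_pos (mul_pos (by positivity) (by nlinarith [sq_nonneg (h - 0.7854)])) hp
  linarith

theorem fin_E2 {h : ℝ} (h0 : 0 < h) (h1 : h < Real.pi / 2) :
    h - 2 * h ^ 2 / Real.pi < gq (Real.arcsin (Real.sin h * Real.cos h)) := by
  rcases le_total h (Real.pi / 4) with h2 | h2
  · exact finE_E2 h0 h2
  · have h3 := finE_E2 (h := Real.pi / 2 - h) (by linarith) (by linarith)
    rw [Real.sin_pi_div_two_sub, Real.cos_pi_div_two_sub, mul_comm (Real.cos h)] at h3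
    have hp := Real.pi_pos
    have e : Real.pi / 2 - h - 2 * (Real.pi / 2 - h) ^ 2 / Real.pi = h - 2 * h ^ 2 / Real.pi := by
      field_simp; ring
    rwa [e] at h3

lemma finE_conc {k : ℝ} (k0 : 0 < k) (k1 : k < 1) :
    ConcaveOn ℝ (Icc 0 (Real.pi / 2)) fun x => gq x + gq (Real.arcsin (k * Real.cos x)) := by
  have hp := Real.pi_pos
  have hb : ∀ x, -1 < k * Real.cos x ∧ k * Real.cos x < 1 := fun x => by
    constructor <;> nlinarith [Real.cos_le_one x, Real.neg_one_le_cos x]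
  have hq : ∀ x, 0 < 1 - (k * Real.cos x) ^ 2 := fun x => by nlinarith [(hb x).1, (hb x).2]
  have hg : ∀ x, HasDerivAt gq (1 - 2 * x / Real.pi) x := fun x =>
    ((hasDerivAt_id x).sub ((hasDerivAt_pow 2 x).div_const Real.pi)).congr_deriv (by norm_num)
  have hd : ∀ x, HasDerivAt (fun x => gq x + gq (Real.arcsin (k * Real.cos x)))
      (1 - 2 * x / Real.pi - (1 - 2 * Real.arcsin (k * Real.cos x) / Real.pi) *
        (k * Real.sin x / √(1 - (k * Real.cos x) ^ 2))) x := fun x => by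
    have a1 : HasDerivAt (fun x => Real.arcsin (k * Real.cos x))
        (1 / √(1 - (k * Real.cos x) ^ 2) * (k * -Real.sin x)) x :=
      HasDerivAt.comp x (h₂ := Real.arcsin) (h := fun x => k * Real.cos x)
        (Real.hasDerivAt_arcsin (hb x).1.ne' (hb x).2.ne) ((Real.hasDerivAt_cos x).const_mul k)
    have a2 := HasDerivAt.comp x (h₂ := gq) (h := fun x => Real.arcsin (k * Real.cos x)) (hg _) a1
    exact ((hg x).add a2).congr_deriv (by ring)
  refine AntitoneOn.concaveOn_of_deriv (convex_Icc _ _)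
    (fun x _ => (hd x).continuousAt.continuousWithinAt)
    (fun x _ => (hd x).differentiableAt.differentiableWithinAt) fun x hx y hy hxy => ?_
  have hx := interior_subset hx
  have hy := interior_subset hy
  rw [(hd x).deriv, (hd y).deriv]
  have s0 : 0 ≤ Real.sin x := Real.sin_nonneg_of_nonneg_of_le_pi hx.1 (by linarith [hx.2])
  have s1 : Real.sin x ≤ Real.sin y :=
    Real.sin_le_sin_of_le_of_le_pi_div_two (by linarith [hx.1]) hy.2 hxy
  have c1 : Real.cos y ≤ Real.cos x :=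
    Real.cos_le_cos_of_nonneg_of_le_pi hx.1 (by linarith [hy.2]) hxy
  have a1 := Real.arcsin_le_arcsin (mul_le_mul_of_nonneg_left c1 k0.le)
  have a2 := Real.arcsin_le_pi_div_two (k * Real.cos x)
  have a3 : 0 ≤ 1 - 2 * Real.arcsin (k * Real.cos x) / Real.pi := by
    rw [sub_nonneg, div_le_one hp]; linarith
  have a4 : 1 - 2 * Real.arcsin (k * Real.cos x) / Real.pi ≤
      1 - 2 * Real.arcsin (k * Real.cos y) / Real.pi := by gcongr
  have a5 : k * Real.sin x / √(1 - (k * Real.cos x) ^ 2) ≤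
      k * Real.sin y / √(1 - (k * Real.cos y) ^ 2) := by
    rw [div_le_div_iff₀ (Real.sqrt_pos.2 (hq x)) (Real.sqrt_pos.2 (hq y))]
    refine abs_le_of_sq_le_sq' ?_ (by have := s0.trans s1; positivity) |>.2
    rw [mul_pow, mul_pow _ (√_), Real.sq_sqrt (hq x).le, Real.sq_sqrt (hq y).le]
    have e1 := Real.cos_sq' x
    have e2 := Real.cos_sq' y
    have e3 : Real.sin x ^ 2 ≤ Real.sin y ^ 2 := pow_le_pow_left₀ s0 s1 2
    have e4 : 0 ≤ k ^ 2 * (1 - k ^ 2) := mul_nonneg (by positivity) (by nlinarith)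
    simp only [mul_pow, e1, e2]
    nlinarith [mul_le_mul_of_nonneg_left e3 e4]
  have a6 := mul_le_mul a4 a5 (by positivity) (a3.trans a4)
  have a7 : 2 * x / Real.pi ≤ 2 * y / Real.pi := by gcongr
  linarith

lemma finE_star {h x₁ x₂ : ℝ} (h0 : 0 < h) (h1 : h ≤ Real.pi / 2) (p₁ : 0 < x₁)
    (q₂ : x₂ ≤ h) (r₂ : x₂ < Real.pi / 2) (hx : x₁ ≤ x₂)
    (s₁ : Real.sin h * Real.cos x₂ ≤ Real.sin x₁) (s₂ : Real.sin h * Real.cos x₁ ≤ Real.sin x₂) :
    2 * h - 3 * h ^ 2 / Real.pi < gq x₁ + gq x₂ := by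
  have hp := Real.pi_pos
  have a1 : Real.arcsin (Real.sin h * Real.cos x₂) ≤ x₁ :=
    (Real.arcsin_le_iff_le_sin' ⟨by linarith, by linarith⟩).2 s₁
  have a2 := gq_mono a1 (by linarith)
  rcases h1.eq_or_lt with h2 | h2
  · rw [h2, Real.sin_pi_div_two, one_mul, ← Real.sin_pi_div_two_sub,
      Real.arcsin_sin (by linarith) (by linarith)] at a2
    have e : gq (Real.pi / 2 - x₂) + gq x₂ - (2 * h - 3 * h ^ 2 / Real.pi) =
        2 * (x₂ * (Real.pi / 2 - x₂)) / Real.pi := by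
      rw [h2]; unfold gq; field_simp; ring
    have : 0 < 2 * (x₂ * (Real.pi / 2 - x₂)) / Real.pi :=
      div_pos (mul_pos two_pos (mul_pos (by linarith) (by linarith))) hp
    linarith
  have k0 : 0 < Real.sin h := Real.sin_pos_of_pos_of_lt_pi h0 (by linarith)
  have k1 : Real.sin h < 1 := by
    rw [← Real.sin_pi_div_two]
    exact Real.sin_lt_sin_of_lt_of_le_pi_div_two (by linarith) le_rfl h2
  set y := Real.arctan (Real.sin h) with hy
  have y0 : 0 < y := Real.arctan_pos.2 k0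
  have y1 : y < Real.pi / 2 := Real.arctan_lt_pi_div_two _
  have ht : Real.sin h * Real.cos y = Real.sin y := by
    have := Real.tan_arctan (Real.sin h)
    rw [← hy, Real.tan_eq_sin_div_cos, div_eq_iff (Real.cos_arctan_pos _).ne'] at this
    exact this.symm
  have y2 : y ≤ x₂ := by
    rw [hy, ← Real.arctan_tan (x := x₂) (by linarith) r₂, Real.arctan_le_arctan_iff,
      Real.tan_eq_sin_div_cos, le_div_iff₀ (Real.cos_pos_of_mem_Ioo ⟨by linarith, r₂⟩)]
    exact (mul_le_mul_of_nonneg_left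
      (Real.cos_le_cos_of_nonneg_of_le_pi p₁.le (by linarith) hx) k0.le).trans s₂
  have m := (finE_conc k0 k1).min_le_of_mem_Icc (x := y) (y := h) (z := x₂) ⟨y0.le, y1.le⟩
    ⟨h0.le, h1⟩ ⟨y2, q₂⟩
  simp only [ht, Real.arcsin_sin (x := y) (by linarith) y1.le] at m
  have e1 := fin_E1 h0 h1
  have e2 := fin_E2 h0 h2
  have e3 : gq h + (h - 2 * h ^ 2 / Real.pi) = 2 * h - 3 * h ^ 2 / Real.pi := by unfold gq; ring
  refine lt_of_lt_of_le (lt_of_lt_of_le (lt_min ?_ ?_) m) ?_ <;> linarith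

theorem fin_star {h x₁ x₂ : ℝ} (h0 : 0 < h) (h1 : h ≤ Real.pi / 2) (p₁ : 0 < x₁) (p₂ : 0 < x₂)
    (q₁ : x₁ ≤ h) (q₂ : x₂ ≤ h) (r₁ : x₁ < Real.pi / 2) (r₂ : x₂ < Real.pi / 2)
    (s₁ : Real.sin h * Real.cos x₂ ≤ Real.sin x₁) (s₂ : Real.sin h * Real.cos x₁ ≤ Real.sin x₂) :
    2 * h - 3 * h ^ 2 / Real.pi < gq x₁ + gq x₂ := by
  rcases le_total x₁ x₂ with hx | hx
  · exact finE_star h0 h1 p₁ q₂ r₂ hx s₁ s₂
  · rw [add_comm]; exact finE_star h0 h1 p₂ q₁ r₁ hx s₂ s₁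

end Vale.Agent.P232
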