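import Vale.Agent.P232.Per2
import Vale.Agent.P232.Torus

open MeasureTheory Set Filter Topology
open scoped ENNReal

noncomputable section
namespace Vale.Agent.P232

theorem lift_compl (E : Set Torus) : lift Eᶜ = (lift E)ᶜ := rfl

theorem le_perimeter {E : Set Torus} (hE : MeasurableSet E) {V : ℝ} (h0 : 0 < V)
    (hV : volume E = ENNReal.ofReal V) : ENNReal.ofReal (conjProfile V) ≤ perimeter E := by
  rcases eq_or_ne (perimeter E) ⊤ with ht | ht
  · rw [ht]; exact le_top
  have h1 := (perimeter_le_iff hE (ENNReal.toReal_nonneg (a := perimeter E))).1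
    (by rw [ENNReal.ofReal_toReal ht])
  have h2 := jc_le_per (perSet_lift hE) h1
  rw [volB_lift hE, hV, ENNReal.toReal_ofReal h0.le] at h2
  have e : 8 * V / 8 = V := by ring
  rw [e] at h2
  rw [← ENNReal.ofReal_toReal ht, conjProfile_eq]
  exact ENNReal.ofReal_le_ofReal (by linarith)

theorem exists_perimeter_le {V : ℝ} (h0 : 0 < V) (h1 : V < 1) :
    ∃ E : Set Torus, MeasurableSet E ∧ volume E = ENNReal.ofReal V ∧
      perimeter E ≤ ENNReal.ofReal (conjProfile V) := by
  have key : ∃ G : Set P3, PerSet G ∧ volB G = 8 * V ∧ PerLe G (8 * Jc V) := by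
    by_cases h : V ≤ 1 / 2
    · exact exists_std h0 h
    · obtain ⟨G, hG, hv, hP⟩ := exists_std (v := 1 - V) (by linarith) (by linarith)
      refine ⟨Gᶜ, hG.compl, by rw [volB_compl hG.1, hv]; ring, ?_⟩
      rw [← Jc_symm]; exact hP.compl hG
  obtain ⟨G, hG, hv, hP⟩ := key
  obtain ⟨E, hE, rfl⟩ := exists_lift hG
  have hJ := Jc_nonneg h0.le h1.le
  refine ⟨E, hE, ?_, ?_⟩
  · rw [volB_lift hE] at hv
    have hf : volume E ≠ ⊤ := ne_top_of_le_ne_top (by rw [volume_torus]; exact ENNReal.one_ne_top)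
      (measure_mono (subset_univ E))
    rw [← ENNReal.ofReal_toReal hf]; congr 1; linarith
  · rw [conjProfile_eq, perimeter_le_iff hE (by linarith)]
    have e : 4 * (2 * Jc V) = 8 * Jc V := by ring
    rw [e]; exact hP

theorem classify_half {E : Set Torus} (hE : MeasurableSet E) (h0 : 0 < volB (lift E))
    (h1 : volB (lift E) ≤ 4) (hP : PerLe (lift E) (8 * Jc (volB (lift E) / 8))) :
    ∃ S : Set Torus, (IsBall S ∨ IsTube S ∨ IsSlab S) ∧ E =ᵐ[volume] S := by
  obtain ⟨k, c, R, hk, hR0, hR1, hae⟩ := std_of_per (perSet_lift hE) h0 h1 hP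
  obtain ⟨S, hS, hl, hty⟩ := exists_std_torus hk c hR0 hR1
  exact ⟨S, hty, ae_eq_of_lift hE hS (by rw [hl]; exact hae)⟩

theorem final (V : ℝ) (h0 : 0 < V) (h1 : V < 1) :
    profile V = ENNReal.ofReal (conjProfile V) ∧
      ∀ E : Set Torus, NullMeasurableSet E volume → volume E = ENNReal.ofReal V →
        perimeter E = profile V →
          ∃ S : Set Torus, (IsBall S ∨ IsTube S ∨ IsSlab S) ∧
            (E =ᵐ[volume] S ∨ E =ᵐ[volume] (Sᶜ : Set Torus)) := by
  have hprof : profile V = ENNReal.ofReal (conjProfile V) := by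
    apply le_antisymm
    · obtain ⟨E, hE, hv, hp⟩ := exists_perimeter_le h0 h1
      unfold profile
      exact iInf_le_of_le E (iInf_le_of_le hE.nullMeasurableSet (iInf_le_of_le hv hp))
    · refine le_iInf fun E => le_iInf fun hE => le_iInf fun hv => ?_
      have hae := hE.toMeasurable_ae_eq
      rw [← perimeter_congr hae]
      exact le_perimeter (measurableSet_toMeasurable _ _) h0 (by rw [measure_toMeasurable, hv])
  refine ⟨hprof, fun E hE hv hp => ?_⟩
  have hae := hE.toMeasurable_ae_eq
  set F := toMeasurable volume E with hF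
  have hFm : MeasurableSet F := measurableSet_toMeasurable _ _
  have hFv : volB (lift F) = 8 * V := by
    rw [volB_lift hFm, hF, measure_toMeasurable, hv, ENNReal.toReal_ofReal h0.le]
  have hJ := Jc_nonneg h0.le h1.le
  have hFp : PerLe (lift F) (8 * Jc V) := by
    have h2 : perimeter F ≤ ENNReal.ofReal (2 * Jc V) := by
      rw [perimeter_congr hae, hp, hprof, conjProfile_eq]
    have := (perimeter_le_iff hFm (by linarith)).1 h2
    have e : 4 * (2 * Jc V) = 8 * Jc V := by ring
    rwa [e] at this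
  by_cases h : V ≤ 1 / 2
  · obtain ⟨S, hS, hSe⟩ := classify_half hFm (by linarith) (by linarith) (by
      have e : 8 * V / 8 = V := by ring
      rw [hFv, e]; exact hFp)
    exact ⟨S, hS, Or.inl (hae.symm.trans hSe)⟩
  · have hc : volB (lift Fᶜ) = 8 * (1 - V) := by
      rw [lift_compl, volB_compl (perSet_lift hFm).1, hFv]; ring
    obtain ⟨S, hS, hSe⟩ := classify_half hFm.compl (by linarith) (by linarith) (by
      have e : 8 * (1 - V) / 8 = 1 - V := by ring
      rw [hc, e, Jc_symm, lift_compl]; exact hFp.compl (perSet_lift hFm))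
    refine ⟨S, hS, Or.inr (hae.symm.trans ?_)⟩
    have := hSe.compl
    rwa [compl_compl] at this

end Vale.Agent.P232
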