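import Vale.Agent.P232.Flat_1

open MeasureTheory Set Filter Topology
open scoped ENNReal

noncomputable section
namespace Vale.Agent.P232

/-! Task: the connection is weakly flat.  Component 3: test `Crit3 E` with `φ = χ ∘ pl`; on `Q` the integrand `dA3` equals
`χ_w (etaU)₃ - χ_u (etaW)₃` (algebra, `rho_sum`); the arc terms are the integrals over `out3` (`integral_below/above` and FTC in `x3`,
`∂₃ (χ ∘ pl) = -(χ_u + χ_w)`).  Components 1, 2: test `Crit3 (rot E)`, `Crit3 (rot (rot E))` with `χ ∘ pl ∘ cycInv`, `χ ∘ pl ∘ cyc` and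
transport by `integral_rot`.  `cross etaU etaW = rho` on `Q` and `0` off `Q`. -/

variable {E : Set P3}

theorem measurable_etaU (E : Set P3) : Measurable (etaU E) := by
  have h1 := measurable_rho E
  have h2 := measurable_wt E
  unfold etaU
  refine Measurable.sub (Measurable.add (Measurable.indicator ?_ measurableSet_Q)
    (Measurable.indicator (h2.smul_const _) flat_meas_out2))
    (Measurable.indicator (h2.smul_const _) flat_meas_out3)
  unfold cross
  fun_prop

theorem measurable_etaW (E : Set P3) : Measurable (etaW E) := by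
  have h1 := measurable_rho E
  have h2 := measurable_wt E
  unfold etaW
  refine Measurable.sub (Measurable.add (Measurable.indicator ?_ measurableSet_Q)
    (Measurable.indicator (h2.smul_const _) flat_meas_out3))
    (Measurable.indicator (h2.smul_const _) flat_meas_out1)
  unfold cross
  fun_prop

theorem flat_meas_cross {f g : P3 → P3} (hf : Measurable f) (hg : Measurable g) :
    Measurable fun x => cross (f x) (g x) := by
  unfold cross
  fun_prop

theorem flat_norm_cross (x y : P3) : ‖cross x y‖ ≤ 2 * (‖x‖ * ‖y‖) := by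
  have b : ∀ v : P3, |v.1| ≤ ‖v‖ ∧ |v.2.1| ≤ ‖v‖ ∧ |v.2.2| ≤ ‖v‖ := fun v =>
    ⟨norm_fst_le v, (norm_fst_le v.2).trans (norm_snd_le v),
      (norm_snd_le v.2).trans (norm_snd_le v)⟩
  have key : ∀ p q r s : ℝ, |p| ≤ ‖x‖ → |q| ≤ ‖y‖ → |r| ≤ ‖x‖ → |s| ≤ ‖y‖ →
      |p * q - r * s| ≤ 2 * (‖x‖ * ‖y‖) := by
    intro p q r s h1 h2 h3 h4
    have e1 : |p * q| ≤ ‖x‖ * ‖y‖ := by
      rw [abs_mul]; exact mul_le_mul h1 h2 (abs_nonneg _) (norm_nonneg _)
    have e2 : |r * s| ≤ ‖x‖ * ‖y‖ := by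
      rw [abs_mul]; exact mul_le_mul h3 h4 (abs_nonneg _) (norm_nonneg _)
    linarith [abs_sub (p * q) (r * s)]
  obtain ⟨x1, x2, x3⟩ := b x
  obtain ⟨y1, y2, y3⟩ := b y
  exact norm_prod_le_iff.2 ⟨key _ _ _ _ x2 y3 x3 y2,
    norm_prod_le_iff.2 ⟨key _ _ _ _ x3 y1 x1 y3, key _ _ _ _ x1 y2 x2 y1⟩⟩

theorem flat_norm_le {x : P3} {c : ℝ} (h1 : |x.1| ≤ c) (h2 : |x.2.1| ≤ c) (h3 : |x.2.2| ≤ c) :
    ‖x‖ ≤ c := norm_prod_le_iff.2 ⟨h1, norm_prod_le_iff.2 ⟨h2, h3⟩⟩

theorem flat_three {s t u : Set P3} {f g k : P3 → P3} {x : P3} (h1 : ‖f x‖ ≤ 4) (h2 : ‖g x‖ ≤ 1)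
    (h3 : ‖k x‖ ≤ 1) : ‖s.indicator f x + t.indicator g x - u.indicator k x‖ ≤ 10 := by
  have e1 := (norm_indicator_le_norm_self (s := s) f x).trans h1
  have e2 := (norm_indicator_le_norm_self (s := t) g x).trans h2
  have e3 := (norm_indicator_le_norm_self (s := u) k x).trans h3
  linarith [norm_sub_le (s.indicator f x + t.indicator g x) (u.indicator k x),
    norm_add_le (s.indicator f x) (t.indicator g x)]

theorem Adm.eta_bdd (h : Adm E) : ∀ᵐ x ∂(nu E), ‖etaU E x‖ ≤ 10 ∧ ‖etaW E x‖ ≤ 10 := by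
  filter_upwards [h.rho_sum, h.wt_bounds] with x hs hw
  obtain ⟨n1, n2, n3⟩ := rho_nonneg E x
  have hr : ‖rho E x‖ ≤ 1 := flat_norm_le (abs_le.2 ⟨by linarith, by linarith⟩)
    (abs_le.2 ⟨by linarith, by linarith⟩) (abs_le.2 ⟨by linarith, by linarith⟩)
  have hc : ∀ y : P3, ‖y‖ ≤ 1 → ‖(wt E x)⁻¹ • cross (rho E x) y‖ ≤ 4 := by
    intro y hy
    have h1 : ‖(wt E x)⁻¹‖ ≤ 2 := by
      rw [Real.norm_of_nonneg (inv_nonneg.2 (by linarith [hw.1])),
        inv_le_comm₀ (by linarith [hw.1]) (by norm_num)]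
      linarith [hw.1]
    have h2 : ‖cross (rho E x) y‖ ≤ 2 := by
      have := mul_le_mul hr hy (norm_nonneg _) zero_le_one
      linarith [flat_norm_cross (rho E x) y]
    rw [norm_smul]
    have := mul_le_mul h1 h2 (norm_nonneg _) (by norm_num)
    linarith
  have he : ∀ y : P3, ‖y‖ ≤ 1 → ‖wt E x • y‖ ≤ 1 := by
    intro y hy
    rw [norm_smul, Real.norm_of_nonneg (by linarith [hw.1])]
    have := mul_le_mul hw.2 hy (norm_nonneg _) zero_le_one
    linarith
  have k1 : ‖e1‖ ≤ 1 := flat_norm_le (by simp [e1]) (by simp [e1]) (by simp [e1])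
  have k2 : ‖e2‖ ≤ 1 := flat_norm_le (by simp [e2]) (by simp [e2]) (by simp [e2])
  have k3 : ‖e3‖ ≤ 1 := flat_norm_le (by simp [e3]) (by simp [e3]) (by simp [e3])
  refine ⟨flat_three (hc _ ?_) (he _ k2) (he _ k3), flat_three (hc _ ?_) (he _ k3) (he _ k1)⟩
  · exact flat_norm_le (abs_le.2 ⟨by simp only; linarith, by simp only; linarith⟩)
      (abs_le.2 ⟨by simp only; linarith, by simp only; linarith⟩)
      (abs_le.2 ⟨by simp only; linarith, by simp only; linarith⟩)
  · exact flat_norm_le (abs_le.2 ⟨by simp only; linarith, by simp only; linarith⟩)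
      (abs_le.2 ⟨by simp only; linarith, by simp only; linarith⟩)
      (abs_le.2 ⟨by simp only; linarith, by simp only; linarith⟩)

theorem flat_cont_pl : Continuous pl := by unfold pl; fun_prop

theorem flat_integrable (h : Adm E) (h0 : ((0, 0, 0) : P3) ∈ E) (h1 : ((1, 1, 1) : P3) ∉ E)
    {F : P3 → ℝ} (hF : Measurable F) {M R : ℝ} (hM : ∀ᵐ x ∂(nu E), |F x| ≤ M)
    (hR : ∀ x, R < ‖pl x‖ → F x = 0) : Integrable F (nu E) := by
  have hS : MeasurableSet (pl ⁻¹' Metric.closedBall (0 : P2) R) :=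
    measurableSet_closedBall.preimage flat_cont_pl.measurable
  have hfin : nu E (pl ⁻¹' Metric.closedBall (0 : P2) R) ≠ ⊤ := by
    rw [h.nu_eq_map h0 h1, Measure.map_apply (h.continuous_Sf h0 h1).measurable hS]
    have : Sf E ⁻¹' (pl ⁻¹' Metric.closedBall (0 : P2) R) = Metric.closedBall 0 R := by
      ext p; simp only [mem_preimage, pl_Sf]
    rw [this]
    exact measure_closedBall_lt_top.ne
  refine (integrableOn_iff_integrable_of_support_subset (s := pl ⁻¹' Metric.closedBall 0 R) ?_).1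
    (Measure.integrableOn_of_bounded hfin hF.aestronglyMeasurable (M := M) (ae_restrict_of_ae hM))
  intro x hx
  by_contra hn
  refine hx (hR x ?_)
  by_contra hle
  exact hn (mem_closedBall_zero_iff.2 (not_lt.1 hle))

theorem flat_split {μ : Measure P3} {D P : P3 → ℝ} (hD : Integrable D μ) (hP : Integrable P μ)
    {o s t : Set P3} (hs : MeasurableSet s) (ht : MeasurableSet t) (hd : Disjoint s t)
    (ho : o = s ∪ t) :
    Integrable (fun x => Q.indicator D x + o.indicator P x) μ ∧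
    ∫ x, (Q.indicator D x + o.indicator P x) ∂μ =
      (∫ x in Q, D x ∂μ) + (∫ x in s, P x ∂μ) + ∫ x in t, P x ∂μ := by
  subst ho
  have i1 := hD.indicator measurableSet_Q
  have i2 := hP.indicator (hs.union ht)
  refine ⟨i1.add i2, ?_⟩
  rw [integral_add i1 i2, integral_indicator measurableSet_Q, integral_indicator (hs.union ht),
    setIntegral_union hd ht hP.integrableOn hP.integrableOn, add_assoc]

/-- `pl` as a continuous linear map -/
def flatPl : P3 →L[ℝ] P2 :=
  (ContinuousLinearMap.fst ℝ ℝ (ℝ × ℝ) -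
      (ContinuousLinearMap.snd ℝ ℝ ℝ).comp (ContinuousLinearMap.snd ℝ ℝ (ℝ × ℝ))).prod
    ((ContinuousLinearMap.fst ℝ ℝ ℝ).comp (ContinuousLinearMap.snd ℝ ℝ (ℝ × ℝ)) -
      (ContinuousLinearMap.snd ℝ ℝ ℝ).comp (ContinuousLinearMap.snd ℝ ℝ (ℝ × ℝ)))

theorem flatPl_apply (x : P3) : flatPl x = pl x := rfl

/-- below the bottom face -/
def flatB : Set P3 := {x : P3 | x.2.2 < 0 ∧ ((x.1, x.2.1) : P2) ∈ sqc}
/-- above the top face -/
def flatA : Set P3 := {x : P3 | 1 < x.2.2 ∧ ((x.1, x.2.1) : P2) ∈ sqc}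

theorem flatB_meas : MeasurableSet flatB :=
  (measurableSet_lt measurable_snd.snd measurable_const).inter
    (measurableSet_sqc.preimage (measurable_fst.prodMk measurable_snd.fst))
theorem flatA_meas : MeasurableSet flatA :=
  (measurableSet_lt measurable_const measurable_snd.snd).inter
    (measurableSet_sqc.preimage (measurable_fst.prodMk measurable_snd.fst))
theorem flat_disj : Disjoint flatB flatA :=
  Set.disjoint_left.2 fun x h1 h2 => by linarith [h1.1, h2.1]
theorem flat_union : out3 = flatB ∪ flatA := by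
  ext x; exact or_and_right

theorem flat_abs {s t : ℝ} (hs : 0 < s ∧ s ≤ 1) : |t| - 1 ≤ |s - t| ∧ |t| - 1 ≤ |t - s| := by
  have h1 := abs_sub_abs_le_abs_sub t s
  have h2 : |s| ≤ 1 := abs_le.2 ⟨by linarith [hs.1], hs.2⟩
  rw [abs_sub_comm s t]
  constructor <;> linarith

theorem flat_rot2 (h : Adm E) (F : P3 → P3 → ℝ) (hF : Measurable fun q : P3 × P3 => F q.1 q.2)
    {s : Set P3} (hs : MeasurableSet s) :
    ∫ y in s, F y (rho (P232.rot (P232.rot E)) y) ∂(nu (P232.rot (P232.rot E)))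
      = ∫ x in cyc ⁻¹' (cyc ⁻¹' s), F (cyc (cyc x)) (cyc (cyc (rho E x))) ∂(nu E) := by
  have mc : Measurable fun q : P3 × P3 => ((cyc q.1, cyc q.2) : P3 × P3) :=
    (flat_meas_cyc.comp measurable_fst).prodMk (flat_meas_cyc.comp measurable_snd)
  rw [h.rot.integral_rot F hF hs]
  exact h.integral_rot (fun y r => F (cyc y) (cyc r)) (hF.comp mc) (hs.preimage flat_meas_cyc)

/-- the identity transported to the three directions -/
theorem flat_comps (h : Adm E) {k : ℝ} (hc : Crit E k) {χ : P2 → ℝ} (hχ : ContDiff ℝ 2 χ)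
    (hχs : HasCompactSupport χ) :
    ((∫ x in Q, (fderiv ℝ χ (pl x) (pl e1) * nrm (rho E x) -
        (rho E x).1 * fderiv ℝ χ (pl x) (pl (rho E x)) / nrm (rho E x)) ∂(nu E))
      + (∫ x in cyc ⁻¹' flatB, fderiv ℝ χ (pl x) (pl e1) * nrm (rho E x) ∂(nu E))
      + ∫ x in cyc ⁻¹' flatA, fderiv ℝ χ (pl x) (pl e1) * nrm (rho E x) ∂(nu E)
      = k * ∫ x in Q, χ (pl x) * (rho E x).1 ∂(nu E)) ∧
    ((∫ x in Q, (fderiv ℝ χ (pl x) (pl e2) * nrm (rho E x) -
        (rho E x).2.1 * fderiv ℝ χ (pl x) (pl (rho E x)) / nrm (rho E x)) ∂(nu E))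
      + (∫ x in cycInv ⁻¹' flatB, fderiv ℝ χ (pl x) (pl e2) * nrm (rho E x) ∂(nu E))
      + ∫ x in cycInv ⁻¹' flatA, fderiv ℝ χ (pl x) (pl e2) * nrm (rho E x) ∂(nu E)
      = k * ∫ x in Q, χ (pl x) * (rho E x).2.1 ∂(nu E)) ∧
    ((∫ x in Q, (fderiv ℝ χ (pl x) (pl e3) * nrm (rho E x) -
        (rho E x).2.2 * fderiv ℝ χ (pl x) (pl (rho E x)) / nrm (rho E x)) ∂(nu E))
      + (∫ x in flatB, fderiv ℝ χ (pl x) (pl e3) * nrm (rho E x) ∂(nu E))
      + ∫ x in flatA, fderiv ℝ χ (pl x) (pl e3) * nrm (rho E x) ∂(nu E)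
      = k * ∫ x in Q, χ (pl x) * (rho E x).2.2 ∂(nu E)) := by
  have hcont : Continuous (fderiv ℝ χ) := hχ.continuous_fderiv (by norm_num)
  have hn : Measurable fun q : P3 × P3 => nrm q.2 := continuous_nrm.measurable.comp measurable_snd
  have m1 : ∀ A : P3 →L[ℝ] P2, Measurable fun q : P3 × P3 =>
      fderiv ℝ χ (A q.1) (A e3) * nrm q.2 := fun A =>
    ((hcont.comp (A.continuous.comp continuous_fst)).clm_apply continuous_const).measurable.mul hn
  have m2 : ∀ A : P3 →L[ℝ] P2, Measurable fun q : P3 × P3 =>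
      fderiv ℝ χ (A q.1) (A e3) * nrm q.2 - q.2.2.2 * fderiv ℝ χ (A q.1) (A q.2) / nrm q.2 :=
    fun A => (m1 A).sub ((measurable_snd.snd.snd.mul
      ((hcont.comp (A.continuous.comp continuous_fst)).clm_apply
        (A.continuous.comp continuous_snd)).measurable).div hn)
  have m3 : ∀ A : P3 →L[ℝ] P2, Measurable fun q : P3 × P3 => χ (A q.1) * q.2.2.2 := fun A =>
    (hχ.continuous.comp (A.continuous.comp continuous_fst)).measurable.mul measurable_snd.snd.snd
  refine ⟨?_, ?_, flat_vert h hc.1 hχ hχs flatPl fun y hy =>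
    (flat_abs (t := y.2.2) hy.1).1.trans (norm_fst_le (pl y))⟩
  · have hv := flat_vert h.rot hc.2.1 hχ hχs (flatPl.comp (cycL.comp cycL)) fun y hy =>
      (flat_abs (t := y.2.2) hy.2).2.trans (norm_fst_le (pl (cyc (cyc y))))
    have t1 := h.integral_rot (fun y r => fderiv ℝ χ ((flatPl.comp (cycL.comp cycL)) y) ((flatPl.comp (cycL.comp cycL)) e3) * nrm r -
      r.2.2 * fderiv ℝ χ ((flatPl.comp (cycL.comp cycL)) y) ((flatPl.comp (cycL.comp cycL)) r) / nrm r)
      (m2 (flatPl.comp (cycL.comp cycL))) measurableSet_Q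
    have t2 := h.integral_rot (fun y r => fderiv ℝ χ ((flatPl.comp (cycL.comp cycL)) y) ((flatPl.comp (cycL.comp cycL)) e3) * nrm r)
      (m1 (flatPl.comp (cycL.comp cycL))) flatB_meas
    have t3 := h.integral_rot (fun y r => fderiv ℝ χ ((flatPl.comp (cycL.comp cycL)) y) ((flatPl.comp (cycL.comp cycL)) e3) * nrm r)
      (m1 (flatPl.comp (cycL.comp cycL))) flatA_meas
    have t4 := h.integral_rot (fun y r => χ ((flatPl.comp (cycL.comp cycL)) y) * r.2.2)
      (m3 (flatPl.comp (cycL.comp cycL))) measurableSet_Q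
    simp only [nrm_cyc, cyc_preimage_Q] at t1 t2 t3 t4
    unfold flatB at t2
    unfold flatA at t3
    rw [t1, t2, t3, t4] at hv
    exact hv
  · have hv := flat_vert h.rot.rot hc.2.2 hχ hχs (flatPl.comp cycL) fun y hy =>
      (flat_abs (t := y.2.2) hy.1).2.trans ((norm_snd_le (pl (cyc y))))
    have u1 := flat_rot2 h (fun y r => fderiv ℝ χ ((flatPl.comp cycL) y) ((flatPl.comp cycL) e3) * nrm r -
      r.2.2 * fderiv ℝ χ ((flatPl.comp cycL) y) ((flatPl.comp cycL) r) / nrm r)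
      (m2 (flatPl.comp cycL)) measurableSet_Q
    have u2 := flat_rot2 h (fun y r => fderiv ℝ χ ((flatPl.comp cycL) y) ((flatPl.comp cycL) e3) * nrm r)
      (m1 (flatPl.comp cycL)) flatB_meas
    have u3 := flat_rot2 h (fun y r => fderiv ℝ χ ((flatPl.comp cycL) y) ((flatPl.comp cycL) e3) * nrm r)
      (m1 (flatPl.comp cycL)) flatA_meas
    have u4 := flat_rot2 h (fun y r => χ ((flatPl.comp cycL) y) * r.2.2)
      (m3 (flatPl.comp cycL)) measurableSet_Q
    simp only [nrm_cyc, cyc_preimage_Q] at u1 u2 u3 u4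
    unfold flatB at u2
    unfold flatA at u3
    rw [u1, u2, u3, u4] at hv
    exact hv

theorem Adm.weakFlat (h : Adm E) (h0 : ((0, 0, 0) : P3) ∈ E) (h1 : ((1, 1, 1) : P3) ∉ E) {k : ℝ}
    (hc : Crit E k) : WeakFlat (fun p => etaU E (Sf E p)) (fun p => etaW E (Sf E p)) k := by
  intro χ hχ hχs
  obtain ⟨R, hR⟩ := flat_far hχs
  obtain ⟨c1, c2, c3⟩ := flat_comps h hc hχ hχs
  have hcont : Continuous (fderiv ℝ χ) := hχ.continuous_fderiv (by norm_num)
  obtain ⟨C, hC⟩ := hcont.bounded_above_of_compact_support (hχs.fderiv ℝ)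
  obtain ⟨C', hC'⟩ := hχ.continuous.bounded_above_of_compact_support hχs
  have hC0 : 0 ≤ C := (norm_nonneg _).trans (hC 0)
  have hS := (h.continuous_Sf h0 h1).measurable
  have hρ := measurable_rho E
  have hn : Measurable fun x => nrm (rho E x) := measurable_wt E
  have hD : Continuous fun x => fderiv ℝ χ (pl x) := hcont.comp flat_cont_pl
  have hDv : ∀ v, Measurable fun x => fderiv ℝ χ (pl x) v := fun v =>
    (hD.clm_apply continuous_const).measurable
  have hDr : Measurable fun x => fderiv ℝ χ (pl x) (pl (rho E x)) :=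
    (((hD.comp continuous_fst).clm_apply
      (flat_cont_pl.comp continuous_snd)).measurable.comp (measurable_id.prodMk hρ) :)
  have hb : ∀ x v, |fderiv ℝ χ (pl x) v| ≤ C * ‖v‖ := fun x v =>
    ((fderiv ℝ χ (pl x)).le_opNorm _).trans (mul_le_mul_of_nonneg_right (hC _) (norm_nonneg _))
  have iP : ∀ v : P2, Integrable (fun x => fderiv ℝ χ (pl x) v * nrm (rho E x)) (nu E) := by
    intro v
    refine flat_integrable h h0 h1 ((hDv v).mul hn) (M := C * ‖v‖) (R := R) ?_ fun x hx => ?_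
    · filter_upwards [h.wt_bounds] with x hw
      rw [abs_mul, abs_of_nonneg (nrm_nonneg _)]
      have := mul_le_mul (hb x v) hw.2 (nrm_nonneg _) (by positivity)
      rwa [mul_one] at this
    · rw [(hR _ hx).2]; simp
  have iD : ∀ (v : P2) (c : P3 → ℝ), Measurable c →
      (∀ r : P3, 0 ≤ r.1 → 0 ≤ r.2.1 → 0 ≤ r.2.2 → r.1 + r.2.1 + r.2.2 = 1 → |c r| ≤ 1) →
      Integrable (fun x => fderiv ℝ χ (pl x) v * nrm (rho E x) -
        c (rho E x) * fderiv ℝ χ (pl x) (pl (rho E x)) / nrm (rho E x)) (nu E) ∧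
      Integrable (fun x => χ (pl x) * c (rho E x)) (nu E) := by
    intro v c hcm hc1
    refine ⟨(iP v).sub (flat_integrable h h0 h1 (((hcm.comp hρ).mul hDr).div hn) (M := 2 * C)
      (R := R) ?_ fun x hx => ?_), flat_integrable h h0 h1
        ((hχ.continuous.comp flat_cont_pl).measurable.mul (hcm.comp hρ)) (M := C') (R := R) ?_
        fun x hx => ?_⟩
    · filter_upwards [h.wt_bounds, h.rho_sum] with x hw hs
      obtain ⟨n1, n2, n3⟩ := rho_nonneg E x
      have hw0 : 0 < nrm (rho E x) := lt_of_lt_of_le (by norm_num) hw.1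
      have hp : ‖pl (rho E x)‖ ≤ 1 := norm_prod_le_iff.2
        ⟨abs_le.2 ⟨by simp only [pl]; linarith, by simp only [pl]; linarith⟩,
          abs_le.2 ⟨by simp only [pl]; linarith, by simp only [pl]; linarith⟩⟩
      have e1 : |fderiv ℝ χ (pl x) (pl (rho E x))| ≤ C :=
        (hb x _).trans (mul_le_of_le_one_right hC0 hp)
      have e2 := mul_le_mul (hc1 _ n1 n2 n3 hs) e1 (abs_nonneg _) zero_le_one
      rw [abs_div, abs_mul, abs_of_pos hw0, div_le_iff₀ hw0]
      have e3 : 1 / 2 ≤ nrm (rho E x) := hw.1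
      nlinarith
    · rw [(hR _ hx).2]; simp
    · filter_upwards [h.rho_sum] with x hs
      obtain ⟨n1, n2, n3⟩ := rho_nonneg E x
      rw [abs_mul]
      have := mul_le_mul (hC' (pl x)) (hc1 _ n1 n2 n3 hs) (abs_nonneg _)
        ((norm_nonneg _).trans (hC' 0))
      rwa [mul_one] at this
    · rw [(hR _ hx).1, zero_mul]
  obtain ⟨i1, j1⟩ := iD (pl e1) (fun r => r.1) measurable_fst
    fun r a b c d => abs_le.2 ⟨by linarith, by linarith⟩
  obtain ⟨i2, j2⟩ := iD (pl e2) (fun r => r.2.1) measurable_snd.fst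
    fun r a b c d => abs_le.2 ⟨by linarith, by linarith⟩
  obtain ⟨i3, j3⟩ := iD (pl e3) (fun r => r.2.2) measurable_snd.snd
    fun r a b c d => abs_le.2 ⟨by linarith, by linarith⟩
  obtain ⟨a1, b1⟩ := flat_split i1 (iP (pl e1)) (o := out1) (flatB_meas.preimage flat_meas_cyc)
    (flatA_meas.preimage flat_meas_cyc) (flat_disj.preimage _)
    (by rw [out1, flat_union, preimage_union])
  obtain ⟨a2, b2⟩ := flat_split i2 (iP (pl e2)) (o := out2) (flatB_meas.preimage flat_meas_cycInv)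
    (flatA_meas.preimage flat_meas_cycInv) (flat_disj.preimage _)
    (by rw [out2, flat_union, preimage_union])
  obtain ⟨a3, b3⟩ := flat_split i3 (iP (pl e3)) (o := out3) flatB_meas flatA_meas flat_disj
    flat_union
  have hmap : ∀ G : P3 → P3, Measurable G → ∫ p, G (Sf E p) = ∫ x, G x ∂(nu E) := by
    intro G hG
    rw [h.nu_eq_map h0 h1, integral_map hS.aemeasurable hG.aestronglyMeasurable]
  have hU := measurable_etaU E
  have hW := measurable_etaW E
  have L := hmap (fun x => fderiv ℝ χ (pl x) (0, 1) • etaU E x - fderiv ℝ χ (pl x) (1, 0) • etaW E x)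
    (((hDv _).smul hU).sub ((hDv _).smul hW))
  have hχm : Measurable fun x => χ (pl x) := (hχ.continuous.comp flat_cont_pl).measurable
  have Rr := hmap (fun x => χ (pl x) • cross (etaU E x) (etaW E x))
    (hχm.smul (flat_meas_cross hU hW))
  simp only [pl_Sf] at L Rr
  simp only
  rw [L, Rr]
  have eL : ∫ x, (fderiv ℝ χ (pl x) (0, 1) • etaU E x - fderiv ℝ χ (pl x) (1, 0) • etaW E x)
      ∂(nu E) = (k * ∫ x in Q, χ (pl x) * (rho E x).1 ∂(nu E),
        k * ∫ x in Q, χ (pl x) * (rho E x).2.1 ∂(nu E),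
        k * ∫ x in Q, χ (pl x) * (rho E x).2.2 ∂(nu E)) := by
    rw [← c1, ← c2, ← c3, ← b1, ← b2, ← b3, ← integral_pair a2 a3,
      ← integral_pair a1 (a2.prodMk a3)]
    refine integral_congr_ae ?_
    filter_upwards [h.rho_sum, h.wt_bounds] with x hs hw
    rw [flat_comb E hs (by linarith [hw.1])]
    have q1 : fderiv ℝ χ (pl x) (pl e1) = fderiv ℝ χ (pl x) (1, 0) := by simp [pl, e1]
    have q2 : fderiv ℝ χ (pl x) (pl e2) = fderiv ℝ χ (pl x) (0, 1) := by simp [pl, e2]
    have q3 : fderiv ℝ χ (pl x) (pl e3) =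
        -(fderiv ℝ χ (pl x) (1, 0) + fderiv ℝ χ (pl x) (0, 1)) := by
      rw [flat_apply _ (pl e3)]; simp [pl, e3]; ring
    have q4 : fderiv ℝ χ (pl x) (pl (rho E x)) =
        fderiv ℝ χ (pl x) (1, 0) * ((rho E x).1 - (rho E x).2.2) +
          fderiv ℝ χ (pl x) (0, 1) * ((rho E x).2.1 - (rho E x).2.2) := flat_apply _ _
    simp only [Set.indicator, flatD, q1, q2, q3, q4]
  have eR : ∫ x, χ (pl x) • cross (etaU E x) (etaW E x) ∂(nu E) =
      (∫ x in Q, χ (pl x) * (rho E x).1 ∂(nu E), ∫ x in Q, χ (pl x) * (rho E x).2.1 ∂(nu E),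
        ∫ x in Q, χ (pl x) * (rho E x).2.2 ∂(nu E)) := by
    rw [← integral_pair j2.integrableOn j3.integrableOn,
      ← integral_pair j1.integrableOn (j2.integrableOn.prodMk j3.integrableOn),
      ← integral_indicator measurableSet_Q]
    refine integral_congr_ae ?_
    filter_upwards [h.rho_sum, h.wt_bounds] with x hs hw
    rw [flat_cross E hs (by linarith [hw.1])]
    by_cases hQ : x ∈ Q
    · rw [indicator_of_mem hQ, indicator_of_mem hQ]; rfl
    · rw [indicator_of_notMem hQ, indicator_of_notMem hQ, smul_zero]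
  rw [eL, eR]
  rfl

end Vale.Agent.P232
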