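import Vale.Agent.P232.Plane
import Vale.Agent.P232.Cyl

open MeasureTheory Set Filter Topology
open scoped ENNReal

noncomputable section
namespace Vale.Agent.P232

/-! Pointwise algebra of the connection, and the vertical component of the flatness identity. -/

variable {E : Set P3}

theorem flat_meas_out3 : MeasurableSet out3 := by
  have h1 : MeasurableSet {x : P3 | x.2.2 < 0 ∨ 1 < x.2.2} :=
    (measurableSet_lt measurable_snd.snd measurable_const).union
      (measurableSet_lt measurable_const measurable_snd.snd)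
  have h2 : MeasurableSet ((fun x : P3 => ((x.1, x.2.1) : P2)) ⁻¹' sqc) :=
    measurableSet_sqc.preimage (by fun_prop)
  exact h1.inter h2

theorem flat_meas_cyc : Measurable cyc := by unfold cyc; fun_prop
theorem flat_meas_cycInv : Measurable cycInv := by unfold cycInv; fun_prop
theorem flat_meas_out1 : MeasurableSet out1 := flat_meas_out3.preimage flat_meas_cyc
theorem flat_meas_out2 : MeasurableSet out2 := flat_meas_out3.preimage flat_meas_cycInv

theorem flat_mem_Q {x : P3} : x ∈ Q ↔ (0 < x.1 ∧ x.1 < 1) ∧ (0 < x.2.1 ∧ x.2.1 < 1) ∧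
    (0 < x.2.2 ∧ x.2.2 < 1) := Iff.rfl
theorem flat_mem_out3 {x : P3} : x ∈ out3 ↔ (x.2.2 < 0 ∨ 1 < x.2.2) ∧
    (0 < x.1 ∧ x.1 ≤ 1) ∧ (0 < x.2.1 ∧ x.2.1 ≤ 1) := Iff.rfl
theorem flat_mem_out1 {x : P3} : x ∈ out1 ↔ (x.1 < 0 ∨ 1 < x.1) ∧
    (0 < x.2.1 ∧ x.2.1 ≤ 1) ∧ (0 < x.2.2 ∧ x.2.2 ≤ 1) := Iff.rfl
theorem flat_mem_out2 {x : P3} : x ∈ out2 ↔ (x.2.1 < 0 ∨ 1 < x.2.1) ∧
    (0 < x.2.2 ∧ x.2.2 ≤ 1) ∧ (0 < x.1 ∧ x.1 ≤ 1) := Iff.rfl

theorem flat_Q_out {x : P3} (hx : x ∈ Q) : x ∉ out1 ∧ x ∉ out2 ∧ x ∉ out3 := by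
  rw [flat_mem_Q] at hx
  rw [flat_mem_out1, flat_mem_out2, flat_mem_out3]
  refine ⟨fun h => ?_, fun h => ?_, fun h => ?_⟩ <;> rcases h.1 with h' | h' <;> linarith [hx.1.1,
    hx.1.2, hx.2.1.1, hx.2.1.2, hx.2.2.1, hx.2.2.2]

theorem flat_out3_out {x : P3} (hx : x ∈ out3) : x ∉ out1 ∧ x ∉ out2 := by
  rw [flat_mem_out3] at hx
  rw [flat_mem_out1, flat_mem_out2]
  refine ⟨fun h => ?_, fun h => ?_⟩ <;> rcases h.1 with h' | h' <;> linarith [hx.2.1.1,
    hx.2.1.2, hx.2.2.1, hx.2.2.2]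

theorem flat_out1_out2 {x : P3} (hx : x ∈ out1) : x ∉ out2 := by
  rw [flat_mem_out1] at hx
  rw [flat_mem_out2]
  intro h
  rcases h.1 with h' | h' <;> linarith [hx.2.1.1, hx.2.1.2]

theorem flat_wt_sq (E : Set P3) (x : P3) :
    wt E x ^ 2 = (rho E x).1 ^ 2 + (rho E x).2.1 ^ 2 + (rho E x).2.2 ^ 2 :=
  Real.sq_sqrt (by positivity)

theorem flat_cross (E : Set P3) {x : P3}
    (hs : (rho E x).1 + (rho E x).2.1 + (rho E x).2.2 = 1) (hw : wt E x ≠ 0) :
    cross (etaU E x) (etaW E x) = Q.indicator (rho E) x := by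
  by_cases hQ : x ∈ Q
  · obtain ⟨h1, h2, h3⟩ := flat_Q_out hQ
    have hsq := flat_wt_sq E x
    simp only [etaU, etaW, indicator_of_mem hQ, indicator_of_notMem h1, indicator_of_notMem h2,
      indicator_of_notMem h3, add_zero, sub_zero]
    generalize wt E x = w at hw hsq ⊢
    generalize rho E x = r at hs hsq ⊢
    obtain ⟨r1, r2, r3⟩ := r
    simp only at hs hsq
    have e3 : r3 = 1 - r1 - r2 := by linarith
    subst e3
    simp only [cross, Prod.smul_mk, smul_eq_mul, Prod.mk.injEq]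
    refine ⟨?_, ?_, ?_⟩ <;> field_simp <;> rw [hsq] <;> ring
  · simp only [etaU, etaW, indicator_of_notMem hQ, zero_add]
    by_cases h3 : x ∈ out3
    · obtain ⟨h1, h2⟩ := flat_out3_out h3
      simp [indicator_of_mem h3, indicator_of_notMem h1, indicator_of_notMem h2, cross, e3]
    · by_cases h1 : x ∈ out1
      · have h2 := flat_out1_out2 h1
        simp [indicator_of_notMem h3, indicator_of_notMem h2, cross]
      · simp [indicator_of_notMem h3, indicator_of_notMem h1, cross]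

/-- the tangential variation with gradient `g`, component with entries `gi`, `ri` -/
def flatD (a b gi ri : ℝ) (r : P3) : ℝ :=
  gi * nrm r - ri * (a * (r.1 - r.2.2) + b * (r.2.1 - r.2.2)) / nrm r

theorem flat_comb (E : Set P3) {x : P3}
    (hs : (rho E x).1 + (rho E x).2.1 + (rho E x).2.2 = 1) (hw : wt E x ≠ 0) (a b : ℝ) :
    b • etaU E x - a • etaW E x =
      (Q.indicator (fun x => flatD a b a (rho E x).1 (rho E x)) x
          + out1.indicator (fun x => a * nrm (rho E x)) x,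
        Q.indicator (fun x => flatD a b b (rho E x).2.1 (rho E x)) x
          + out2.indicator (fun x => b * nrm (rho E x)) x,
        Q.indicator (fun x => flatD a b (-(a + b)) (rho E x).2.2 (rho E x)) x
          + out3.indicator (fun x => -(a + b) * nrm (rho E x)) x) := by
  by_cases hQ : x ∈ Q
  · obtain ⟨h1, h2, h3⟩ := flat_Q_out hQ
    have hsq := flat_wt_sq E x
    simp only [etaU, etaW, indicator_of_mem hQ, indicator_of_notMem h1, indicator_of_notMem h2,
      indicator_of_notMem h3, add_zero, sub_zero, flatD]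
    unfold wt at hw hsq ⊢
    generalize nrm (rho E x) = w at hw hsq ⊢
    generalize rho E x = r at hs hsq ⊢
    obtain ⟨r1, r2, r3⟩ := r
    simp only at hs hsq
    have e3 : r3 = 1 - r1 - r2 := by linarith
    subst e3
    simp only [cross, Prod.smul_mk, smul_eq_mul, Prod.mk_sub_mk, Prod.mk.injEq]
    refine ⟨?_, ?_, ?_⟩ <;> field_simp <;> rw [hsq] <;> ring
  · simp only [etaU, etaW, indicator_of_notMem hQ, zero_add, wt]
    by_cases h3 : x ∈ out3
    · obtain ⟨h1, h2⟩ := flat_out3_out h3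
      simp only [indicator_of_mem h3, indicator_of_notMem h1, indicator_of_notMem h2, e3]
      ext <;> simp
      ring
    · by_cases h1 : x ∈ out1
      · have h2 := flat_out1_out2 h1
        simp only [indicator_of_mem h1, indicator_of_notMem h3, indicator_of_notMem h2, e1]
        ext <;> simp
      · by_cases h2 : x ∈ out2
        · simp only [indicator_of_mem h2, indicator_of_notMem h3, indicator_of_notMem h1, e2]
          ext <;> simp
        · simp only [indicator_of_notMem h2, indicator_of_notMem h3, indicator_of_notMem h1]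
          ext <;> simp

theorem flat_apply (M : P2 →L[ℝ] ℝ) (v : P2) : M v = M (1, 0) * v.1 + M (0, 1) * v.2 := by
  have : v = v.1 • ((1, 0) : P2) + v.2 • ((0, 1) : P2) := by ext <;> simp
  conv_lhs => rw [this]
  rw [map_add, map_smul, map_smul, smul_eq_mul, smul_eq_mul]
  ring

theorem flat_far {χ : P2 → ℝ} (hχs : HasCompactSupport χ) :
    ∃ R : ℝ, ∀ p : P2, R < ‖p‖ → χ p = 0 ∧ fderiv ℝ χ p = 0 := by
  obtain ⟨R, hR⟩ := hχs.isCompact.isBounded.subset_closedBall 0
  refine ⟨R, fun p hp => ?_⟩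
  have hn : p ∉ tsupport χ := fun h => by
    have := mem_closedBall_zero_iff.1 (hR h)
    linarith
  refine ⟨image_eq_zero_of_notMem_tsupport hn, ?_⟩
  by_contra hne
  exact hn (support_fderiv_subset ℝ hne)

theorem flat_vert (h : Adm E) {k : ℝ} (hc : Crit3 E k) {χ : P2 → ℝ} (hχ : ContDiff ℝ 2 χ)
    (hχs : HasCompactSupport χ) (A : P3 →L[ℝ] P2)
    (hA : ∀ y : P3, ((y.1, y.2.1) : P2) ∈ sqc → |y.2.2| - 1 ≤ ‖A y‖) :
    (∫ x in Q, (fderiv ℝ χ (A x) (A e3) * nrm (rho E x) -
        (rho E x).2.2 * fderiv ℝ χ (A x) (A (rho E x)) / nrm (rho E x)) ∂(nu E))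
      + (∫ x in {x : P3 | x.2.2 < 0 ∧ ((x.1, x.2.1) : P2) ∈ sqc},
          fderiv ℝ χ (A x) (A e3) * nrm (rho E x) ∂(nu E))
      + ∫ x in {x : P3 | 1 < x.2.2 ∧ ((x.1, x.2.1) : P2) ∈ sqc},
          fderiv ℝ χ (A x) (A e3) * nrm (rho E x) ∂(nu E)
      = k * ∫ x in Q, χ (A x) * (rho E x).2.2 ∂(nu E) := by
  obtain ⟨R, hR⟩ := flat_far hχs
  have hφ : ContDiff ℝ 2 fun x => χ (A x) := hχ.comp A.contDiff
  have hd : ∀ x, fderiv ℝ (fun x => χ (A x)) x = (fderiv ℝ χ (A x)).comp A := fun x =>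
    (((hχ.differentiable (by norm_num)) (A x)).hasFDerivAt.comp x A.hasFDerivAt).fderiv
  have hfv := hc.fv _ hφ
  have hcont : Continuous (fderiv ℝ χ) := hχ.continuous_fderiv (by norm_num)
  have hF : Measurable fun x : P3 => fderiv ℝ χ (A x) (A e3) :=
    ((hcont.comp A.continuous).clm_apply continuous_const).measurable
  obtain ⟨C, hC⟩ := hcont.bounded_above_of_compact_support (hχs.fderiv ℝ)
  have hM : ∀ x : P3, |fderiv ℝ χ (A x) (A e3)| ≤ C * ‖A e3‖ := fun x =>
    ((fderiv ℝ χ (A x)).le_opNorm _).trans (mul_le_mul_of_nonneg_right (hC _) (norm_nonneg _))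
  have hz : ∀ y : P3, R + 1 < |y.2.2| → ((y.1, y.2.1) : P2) ∈ sqc →
      χ (A y) = 0 ∧ fderiv ℝ χ (A y) = 0 := fun y hy hy' => hR _ (by linarith [hA y hy'])
  have hb := h.integral_below hF (K := |R + 1|) hM fun x hx hx' => by
    rw [(hz x (by
      have := le_abs_self (R + 1)
      have := neg_le_abs x.2.2
      linarith) hx').2]; rfl
  have ha := h.integral_above hF (K := |R + 1|) hM fun x hx hx' => by
    rw [(hz x (by
      have := le_abs_self (R + 1)
      have := le_abs_self x.2.2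
      linarith) hx').2]; rfl
  have hline : ∀ p ∈ sqc, ContDiff ℝ 1 (fun z : ℝ => χ (A (p.1, p.2, z))) ∧
      HasCompactSupport (fun z : ℝ => χ (A (p.1, p.2, z))) ∧
      ∀ z, deriv (fun z : ℝ => χ (A (p.1, p.2, z))) z = fderiv ℝ χ (A (p.1, p.2, z)) (A e3) := by
    intro p hp
    refine ⟨(hφ.of_le (by norm_num)).comp (by fun_prop), ?_, fun z => ?_⟩
    · refine HasCompactSupport.intro (isCompact_Icc (a := -(R + 1)) (b := R + 1)) fun z hz' => ?_
      refine (hz (p.1, p.2, z) ?_ hp).1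
      by_contra hle
      exact hz' (abs_le.1 (not_lt.1 hle))
    · have h1 : HasDerivAt (fun z : ℝ => ((p.1, p.2, z) : P3)) e3 z :=
        (hasDerivAt_const z p.1).prodMk ((hasDerivAt_const z p.2).prodMk (hasDerivAt_id z))
      have h2 := (((hχ.differentiable (by norm_num)) (A (p.1, p.2, z))).hasFDerivAt.comp _
        A.hasFDerivAt).comp_hasDerivAt z h1
      exact h2.deriv
  have e0 : arc (slice E 0) (fun p => ∫ z in Iio (0 : ℝ), fderiv ℝ χ (A (p.1, p.2, z)) (A e3)) =
      arc (slice E 0) (fun p => χ (A (p.1, p.2, 0))) := by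
    refine setIntegral_congr_fun measurableSet_sqc fun p hp => ?_
    obtain ⟨g1, g2, g3⟩ := hline p hp
    simp only
    rw [← integral_Iic_eq_integral_Iio, ← g2.integral_Iic_deriv_eq g1 0]
    simp only [g3]
  have e1 : arc (slice E 1) (fun p => ∫ z in Ioi (1 : ℝ), fderiv ℝ χ (A (p.1, p.2, z)) (A e3)) =
      -arc (slice E 1) (fun p => χ (A (p.1, p.2, 1))) := by
    unfold arc
    rw [← integral_neg]
    refine setIntegral_congr_fun measurableSet_sqc fun p hp => ?_
    obtain ⟨g1, g2, g3⟩ := hline p hp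
    simp only
    rw [← neg_mul, ← g2.integral_Ioi_deriv_eq g1 1]
    simp only [g3]
  unfold wt at ha hb
  rw [ha, hb, e0, e1]
  simp only [w3, z3, z3i, dA3, hd, ContinuousLinearMap.comp_apply] at hfv
  rw [hfv]
  ring

end Vale.Agent.P232
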