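import Vale.Agent.P232.Meas
import Vale.Agent.P232.Planar

open MeasureTheory Set Filter Topology
open scoped ENNReal

noncomputable section
namespace Vale.Agent.P232

/-! Task: flux identities.  Test `Crit3.fv` with `φ = Ψ(x3)`; layer cake for the integral over the columns. -/

variable {E : Set P3} {k : ℝ}

theorem flux_finSq : IsFiniteMeasure (volume.restrict sq) :=
  ⟨by rw [Measure.restrict_apply_univ, volume_sq]; exact ENNReal.one_lt_top⟩

theorem flux_measSlice (h : Adm E) (t : ℝ) : MeasurableSet (P232.slice E t) :=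
  (h.slice t).isOpen.measurableSet

theorem flux_int_ind (h : Adm E) (t c : ℝ) :
    ∫ p in sq, (P232.slice E t).indicator (fun _ => c) p = c * ar (P232.slice E t) := by
  rw [integral_indicator (flux_measSlice h t), Measure.restrict_restrict (flux_measSlice h t),
    setIntegral_const, smul_eq_mul, mul_comm]
  rfl

theorem flux_col (h : Adm E) {ψ : ℝ → ℝ} (p : P2) :
    ∫ s in (0 : ℝ)..hgt E p, ψ s
      = ∫ t in Ioo (0 : ℝ) 1, (P232.slice E t).indicator (fun _ => ψ t) p := by
  rw [intervalIntegral.integral_of_le (hgt_nonneg E p), integral_Ioc_eq_integral_Ioo]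
  have h1 : ∫ t in Ioo (0 : ℝ) 1, (P232.slice E t).indicator (fun _ => ψ t) p
      = ∫ t in Ioo (0 : ℝ) 1, (Iio (hgt E p)).indicator ψ t := by
    refine setIntegral_congr_fun measurableSet_Ioo fun t ht => ?_
    have := h.mem_iff_hgt p ht
    by_cases hm : t < hgt E p
    · have h2 : p ∈ P232.slice E t := this.2 hm
      simp only [indicator_of_mem h2, indicator_of_mem (show t ∈ Iio (hgt E p) from hm)]
    · have h2 : p ∉ P232.slice E t := fun h3 => hm (this.1 h3)
      simp only [indicator_of_notMem h2, indicator_of_notMem (show t ∉ Iio (hgt E p) from hm)]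
  rw [h1, integral_indicator measurableSet_Iio, Measure.restrict_restrict measurableSet_Iio]
  have h3 : Iio (hgt E p) ∩ Ioo (0 : ℝ) 1 = Ioo 0 (hgt E p) := by
    ext t
    have := hgt_le_one E p
    simp only [mem_inter_iff, mem_Iio, mem_Ioo]
    constructor
    · rintro ⟨a, b, _⟩; exact ⟨b, a⟩
    · rintro ⟨a, b⟩; exact ⟨b, a, by linarith⟩
  rw [h3]

theorem flux_prod_int (h : Adm E) {ψ : ℝ → ℝ} (hψ : Measurable ψ) {M : ℝ} (hM : ∀ t, |ψ t| ≤ M) :
    Integrable (Function.uncurry fun (p : P2) (t : ℝ) => (P232.slice E t).indicator (fun _ => ψ t) p)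
      ((volume.restrict sq).prod (volume.restrict (Ioo (0 : ℝ) 1))) := by
  have := flux_finSq
  have hS : MeasurableSet {q : P2 × ℝ | ((q.1.1, q.1.2, q.2) : P3) ∈ E} :=
    h.measurableSet.preimage (f := fun q : P2 × ℝ => ((q.1.1, q.1.2, q.2) : P3)) (by fun_prop)
  have he : (Function.uncurry fun (p : P2) (t : ℝ) => (P232.slice E t).indicator (fun _ => ψ t) p)
      = {q : P2 × ℝ | ((q.1.1, q.1.2, q.2) : P3) ∈ E}.indicator (fun q => ψ q.2) := by
    funext q
    rfl
  rw [he]
  refine Integrable.indicator ?_ hS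
  refine Integrable.of_bound (hψ.comp measurable_snd).aestronglyMeasurable M ?_
  exact Eventually.of_forall fun q => hM q.2

theorem Adm.integral_comp_hgt (h : Adm E) {Ψ ψ : ℝ → ℝ} (hψ : Measurable ψ) {M : ℝ} (hM : ∀ t, |ψ t| ≤ M)
    (hΨ : ∀ t ∈ Icc (0 : ℝ) 1, Ψ t = Ψ 0 + ∫ s in (0 : ℝ)..t, ψ s) :
    ∫ p in dom E ∩ sq, Ψ (hgt E p)
      = Ψ 0 * aa E - Ψ 1 * bb E + ∫ t in Ioo (0 : ℝ) 1, ψ t * ar (P232.slice E t) := by
  have := flux_finSq
  have hI := flux_prod_int h hψ hM
  have hpt : ∀ p : P2, (dom E).indicator (fun p => Ψ (hgt E p)) p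
      = ((P232.slice E 0).indicator (fun _ => Ψ 0) p - (P232.slice E 1).indicator (fun _ => Ψ 1) p)
        + ∫ t in Ioo (0 : ℝ) 1, (P232.slice E t).indicator (fun _ => ψ t) p := by
    intro p
    have h1 := hΨ (hgt E p) ⟨hgt_nonneg E p, hgt_le_one E p⟩
    rw [← flux_col h p]
    by_cases h0 : p ∈ P232.slice E 0
    · by_cases h2 : p ∈ P232.slice E 1
      · have h3 : p ∉ dom E := fun h4 => h4.2 h2
        rw [indicator_of_notMem h3, indicator_of_mem h0, indicator_of_mem h2]
        rw [h.hgt_eq_one h2] at h1 ⊢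
        linarith
      · have h3 : p ∈ dom E := ⟨h0, h2⟩
        rw [indicator_of_mem h3, indicator_of_mem h0, indicator_of_notMem h2]
        linarith
    · have h2 : p ∉ P232.slice E 1 := fun h4 =>
        h0 (h.lower (show ((p.1, p.2, (0 : ℝ)) : P3) ≤ (p.1, p.2, 1) from
          ⟨le_rfl, le_rfl, zero_le_one⟩) h4)
      have h3 : p ∉ dom E := fun h4 => h0 h4.1
      rw [indicator_of_notMem h3, indicator_of_notMem h0, indicator_of_notMem h2,
        h.hgt_eq_zero h0]
      simp
  rw [← Measure.restrict_restrict h.measurableSet_dom, ← integral_indicator h.measurableSet_dom]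
  simp only [hpt]
  have i0 : Integrable (fun p => (P232.slice E 0).indicator (fun _ => Ψ 0) p) (volume.restrict sq) :=
    (integrable_const _).indicator (flux_measSlice h 0)
  have i1 : Integrable (fun p => (P232.slice E 1).indicator (fun _ => Ψ 1) p) (volume.restrict sq) :=
    (integrable_const _).indicator (flux_measSlice h 1)
  have i01 : Integrable (fun p => (P232.slice E 0).indicator (fun _ => Ψ 0) p
      - (P232.slice E 1).indicator (fun _ => Ψ 1) p) (volume.restrict sq) := i0.sub i1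
  have i2 : Integrable (fun p => ∫ t in Ioo (0 : ℝ) 1, (P232.slice E t).indicator (fun _ => ψ t) p)
      (volume.restrict sq) := hI.integral_prod_left
  rw [integral_add i01 i2, integral_sub i0 i1, flux_int_ind h,
    flux_int_ind h, integral_integral_swap hI]
  simp only [flux_int_ind h]
  rfl

theorem flux_g_meas (E : Set P3) :
    Measurable fun x => wt E x - (rho E x).2.2 ^ 2 / wt E x :=
  (measurable_wt E).sub (((measurable_rho E).snd.snd.pow_const 2).div (measurable_wt E))

theorem flux_m_bd (h : Adm E) : ∀ᵐ x ∂(nu E), |(rho E x).2.2 ^ 2 / wt E x| ≤ 2 := by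
  filter_upwards [h.rho_sum, h.wt_bounds] with x h1 h2
  obtain ⟨a, b, c⟩ := rho_nonneg E x
  have h3 : (rho E x).2.2 ≤ 1 := by linarith
  have hw : 0 < wt E x := by linarith [h2.1]
  rw [abs_of_nonneg (by positivity), div_le_iff₀ hw]
  nlinarith [h2.1]

theorem flux_g_bd (h : Adm E) : ∀ᵐ x ∂(nu E), |wt E x - (rho E x).2.2 ^ 2 / wt E x| ≤ 3 := by
  filter_upwards [flux_m_bd h, h.wt_bounds] with x h1 h2
  have := abs_le.1 h1
  rw [abs_le]
  constructor <;> linarith [h2.1, h2.2]

theorem flux_gen (h : Adm E) (hc : Crit3 E k) {Ψ : ℝ → ℝ} (hΨ : ContDiff ℝ 2 Ψ) :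
    (∫ x in Q, deriv Ψ x.2.2 * (wt E x - (rho E x).2.2 ^ 2 / wt E x) ∂(nu E))
        + Ψ 0 * LL E - Ψ 1 * ll E
      = k * (Ψ 0 * aa E - Ψ 1 * bb E + ∫ t in Ioo (0 : ℝ) 1, deriv Ψ t * ar (P232.slice E t)) := by
  have hφ : ContDiff ℝ 2 (fun x : P3 => Ψ x.2.2) := hΨ.comp (by fun_prop)
  have hfv := hc.fv _ hφ
  have hd : Differentiable ℝ Ψ := hΨ.differentiable (by norm_num)
  have hcd : Continuous (deriv Ψ) := hΨ.continuous_deriv (by norm_num)
  obtain ⟨M, hM⟩ := isCompact_Icc.exists_bound_of_continuousOn (s := Icc (0 : ℝ) 1) hcd.continuousOn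
  have hw : w3 E (fun x : P3 => Ψ x.2.2)
      = Ψ 0 * aa E - Ψ 1 * bb E + ∫ t in Ioo (0 : ℝ) 1, deriv Ψ t * ar (P232.slice E t) := by
    unfold w3
    rw [h.integral_Q_rho3 hφ.continuous.measurable]
    have hcl : Continuous fun t : ℝ => max 0 (min t 1) := by fun_prop
    have hid : ∀ t ∈ Icc (0 : ℝ) 1, max 0 (min t 1) = t := fun t ht => by
      rw [min_eq_left ht.2, max_eq_right ht.1]
    have h1 := h.integral_comp_hgt (Ψ := Ψ) (ψ := fun t => deriv Ψ (max 0 (min t 1)))
      (hcd.comp hcl).measurable (M := M)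
      (fun t => hM _ ⟨le_max_left _ _, max_le zero_le_one (min_le_right _ _)⟩) (by
        intro t ht
        have h2 : ∫ s in (0 : ℝ)..t, deriv Ψ (max 0 (min s 1)) = ∫ s in (0 : ℝ)..t, deriv Ψ s := by
          refine intervalIntegral.integral_congr fun s hs => ?_
          rw [uIcc_of_le ht.1] at hs
          simp only [hid s ⟨hs.1, hs.2.trans ht.2⟩]
        rw [h2, intervalIntegral.integral_deriv_eq_sub (fun x _ => hd x)
          (hcd.intervalIntegrable _ _)]
        ring)
    rw [h1]
    congr 1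
    refine setIntegral_congr_fun measurableSet_Ioo fun t ht => ?_
    simp only [hid t ⟨ht.1.le, ht.2.le⟩]
  have hz : z3i E (fun x : P3 => Ψ x.2.2)
      = ∫ x in Q, deriv Ψ x.2.2 * (wt E x - (rho E x).2.2 ^ 2 / wt E x) ∂(nu E) := by
    unfold z3i
    refine integral_congr_ae (Eventually.of_forall fun x => ?_)
    have h1 : HasFDerivAt (fun x : P3 => x.2.2)
        ((ContinuousLinearMap.snd ℝ ℝ ℝ).comp (ContinuousLinearMap.snd ℝ ℝ (ℝ × ℝ))) x :=
      ((ContinuousLinearMap.snd ℝ ℝ ℝ).comp (ContinuousLinearMap.snd ℝ ℝ (ℝ × ℝ))).hasFDerivAt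
    have h2 := (hd x.2.2).hasDerivAt.comp_hasFDerivAt x h1
    have h3 : fderiv ℝ (fun x : P3 => Ψ x.2.2) x = deriv Ψ x.2.2 •
        ((ContinuousLinearMap.snd ℝ ℝ ℝ).comp (ContinuousLinearMap.snd ℝ ℝ (ℝ × ℝ))) := h2.fderiv
    simp only [h3, dA3, wt, e3, smul_apply, ContinuousLinearMap.comp_apply,
      ContinuousLinearMap.coe_snd', smul_eq_mul]
    ring
  have a0 : arc (P232.slice E 0) (fun _ => Ψ 0) = Ψ 0 * LL E := by
    have := arc_smul (P232.slice E 0) (Ψ 0) (fun _ => 1)
    simpa [LL, len] using this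
  have a1 : arc (P232.slice E 1) (fun _ => Ψ 1) = Ψ 1 * ll E := by
    have := arc_smul (P232.slice E 1) (Ψ 1) (fun _ => 1)
    simpa [ll, len] using this
  unfold z3 at hfv
  rw [hw, hz] at hfv
  simp only [a0, a1] at hfv
  exact hfv.symm

theorem flux_area_mm (h : Adm E) :
    ∫ x in Q, (wt E x - (rho E x).2.2 ^ 2 / wt E x) ∂(nu E) = area E - mm E := by
  have i1 : IntegrableOn (wt E) Q (nu E) := h.integrableOn_Q (measurable_wt E) (M := 1) (by
    filter_upwards [h.wt_bounds] with x h1 _
    rw [abs_le]; constructor <;> linarith [h1.1, h1.2])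
  have i2 : IntegrableOn (fun x => (rho E x).2.2 ^ 2 / wt E x) Q (nu E) :=
    h.integrableOn_Q (((measurable_rho E).snd.snd.pow_const 2).div (measurable_wt E)) (M := 2) (by
      filter_upwards [flux_m_bd h] with x h1 _
      exact h1)
  exact integral_sub i1 i2

theorem Adm.flux_near (h : Adm E) (hc : Crit3 E k) :
    area E - mm E - k * volQ E = LL E - k * aa E := by
  have h1 := flux_gen h hc (Ψ := fun t => t - 1) (by fun_prop)
  have h2 : deriv (fun t : ℝ => t - 1) = fun _ => 1 := by
    funext t; simp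
  simp only [h2, one_mul] at h1
  rw [flux_area_mm h, ← volQ_eq_slices h.measurableSet] at h1
  linarith

theorem Adm.flux_far (h : Adm E) (hc : Crit3 E k) :
    area E - mm E - k * volQ E = ll E - k * bb E := by
  have h1 := flux_gen h hc (Ψ := fun t => t) (by fun_prop)
  have h2 : deriv (fun t : ℝ => t) = fun _ => 1 := by
    funext t; simp
  simp only [h2, one_mul] at h1
  rw [flux_area_mm h, ← volQ_eq_slices h.measurableSet] at h1
  linarith

theorem flux_ar_meas (h : Adm E) : Measurable fun u => ar (P232.slice E u) :=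
  h.antitone_ar.measurable

theorem flux_c1 (h : Adm E) (hc : Crit3 E k) {ψ : ℝ → ℝ} (hψ : ContDiff ℝ 1 ψ) (hb : ∀ t, |ψ t| ≤ 1) :
    ∫ x in Q, ψ x.2.2 * (wt E x - (rho E x).2.2 ^ 2 / wt E x) ∂(nu E)
      = ∫ u in Ioo (0 : ℝ) 1, ψ u * (ll E - k * bb E + k * ar (P232.slice E u)) := by
  have hd : ∀ t, HasDerivAt (fun t => ∫ s in (0 : ℝ)..t, ψ s) (ψ t) t := fun t =>
    (hψ.continuous.integral_hasStrictDerivAt 0 t).hasDerivAt
  have he : deriv (fun t => ∫ s in (0 : ℝ)..t, ψ s) = ψ := funext fun t => (hd t).deriv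
  have hΨ : ContDiff ℝ 2 (fun t => ∫ s in (0 : ℝ)..t, ψ s) := by
    rw [show (2 : WithTop ℕ∞) = 1 + 1 from rfl, contDiff_succ_iff_deriv]
    refine ⟨fun t => (hd t).differentiableAt, by simp, by rw [he]; exact hψ⟩
  have h1 := flux_gen h hc hΨ
  rw [he] at h1
  simp only [intervalIntegral.integral_same, zero_mul, add_zero, zero_sub] at h1
  rw [intervalIntegral.integral_of_le zero_le_one, integral_Ioc_eq_integral_Ioo] at h1
  have i1 : IntegrableOn ψ (Ioo (0 : ℝ) 1) volume :=
    (hψ.continuous.integrableOn_Icc (a := 0) (b := 1)).mono_set Ioo_subset_Icc_self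
  have i2 : IntegrableOn (fun u => ψ u * ar (P232.slice E u)) (Ioo (0 : ℝ) 1) volume := by
    refine Integrable.of_bound
      (hψ.continuous.measurable.mul (flux_ar_meas h)).aestronglyMeasurable 1
      (Eventually.of_forall fun u => ?_)
    rw [Real.norm_eq_abs, abs_mul, abs_of_nonneg (ar_nonneg _)]
    exact mul_le_one₀ (hb u) (ar_nonneg _) (ar_le_one _)
  have h2 : (fun u => ψ u * (ll E - k * bb E + k * ar (P232.slice E u)))
      = fun u => (ll E - k * bb E) * ψ u + k * (ψ u * ar (P232.slice E u)) := by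
    funext u; ring
  rw [h2, integral_add (i1.const_mul _) (i2.const_mul _), integral_const_mul, integral_const_mul]
  linarith

/-- smooth approximation of an indicator from inside -/
def fluxBump (s t : ℝ) (n : ℕ) (u : ℝ) : ℝ :=
  Real.smoothTransition (n * (u - s)) * Real.smoothTransition (n * (t - u))

theorem fluxBump_smooth (s t : ℝ) (n : ℕ) : ContDiff ℝ 1 (fluxBump s t n) := by
  unfold fluxBump
  exact (Real.smoothTransition.contDiff.comp (by fun_prop)).mul
    (Real.smoothTransition.contDiff.comp (by fun_prop))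

theorem fluxBump_bd (s t : ℝ) (n : ℕ) (u : ℝ) : |fluxBump s t n u| ≤ 1 := by
  unfold fluxBump
  rw [abs_of_nonneg (mul_nonneg (Real.smoothTransition.nonneg _) (Real.smoothTransition.nonneg _))]
  exact mul_le_one₀ (Real.smoothTransition.le_one _) (Real.smoothTransition.nonneg _)
    (Real.smoothTransition.le_one _)

theorem fluxBump_lim (s t u c : ℝ) :
    Tendsto (fun n : ℕ => fluxBump s t n u * c) atTop (𝓝 ((Ioo s t).indicator (fun _ => c) u)) := by
  refine tendsto_const_nhds.congr' ?_
  by_cases hu : u ∈ Ioo s t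
  · have a : Tendsto (fun n : ℕ => (n : ℝ) * (u - s)) atTop atTop :=
      tendsto_natCast_atTop_atTop.atTop_mul_const (by linarith [hu.1])
    have b : Tendsto (fun n : ℕ => (n : ℝ) * (t - u)) atTop atTop :=
      tendsto_natCast_atTop_atTop.atTop_mul_const (by linarith [hu.2])
    filter_upwards [a.eventually_ge_atTop 1, b.eventually_ge_atTop 1] with n h1 h2
    rw [indicator_of_mem hu, fluxBump, Real.smoothTransition.one_of_one_le h1,
      Real.smoothTransition.one_of_one_le h2]
    ring
  · refine Eventually.of_forall fun n => ?_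
    rw [indicator_of_notMem hu]
    show (0 : ℝ) = Real.smoothTransition (n * (u - s)) * Real.smoothTransition (n * (t - u)) * c
    have hn : (0 : ℝ) ≤ n := n.cast_nonneg
    by_cases h1 : u ≤ s
    · rw [Real.smoothTransition.zero_of_nonpos (x := n * (u - s)) (by nlinarith)]; ring
    · have h2 : t ≤ u := by
        by_contra h3
        exact hu ⟨by linarith, by linarith⟩
      rw [Real.smoothTransition.zero_of_nonpos (x := n * (t - u)) (by nlinarith)]; ring

theorem Adm.flux_Ioo (h : Adm E) (hc : Crit3 E k) {s t : ℝ} (h0 : 0 ≤ s) (hst : s ≤ t) (h1 : t ≤ 1) :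
    ∫ x in {x ∈ Q | x.2.2 ∈ Ioo s t}, (wt E x - (rho E x).2.2 ^ 2 / wt E x) ∂(nu E)
      = ∫ u in Ioo s t, (ll E - k * bb E + k * ar (P232.slice E u)) := by
  have : IsFiniteMeasure ((nu E).restrict Q) :=
    ⟨by rw [Measure.restrict_apply_univ]; exact h.nu_Q_lt_top⟩
  have hS : MeasurableSet {x : P3 | x.2.2 ∈ Ioo s t} :=
    measurableSet_Ioo.preimage (f := fun x : P3 => x.2.2) (by fun_prop)
  have hGm : Measurable fun u => ll E - k * bb E + k * ar (P232.slice E u) :=
    measurable_const.add ((flux_ar_meas h).const_mul k)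
  have l1 : Tendsto (fun n : ℕ => ∫ x in Q, fluxBump s t n x.2.2 *
      (wt E x - (rho E x).2.2 ^ 2 / wt E x) ∂(nu E)) atTop
      (𝓝 (∫ x in Q, {x : P3 | x.2.2 ∈ Ioo s t}.indicator
        (fun x => wt E x - (rho E x).2.2 ^ 2 / wt E x) x ∂(nu E))) := by
    refine tendsto_integral_of_dominated_convergence (fun _ => 3) (fun n => ?_) (integrable_const _)
      (fun n => ?_) (Eventually.of_forall fun x => ?_)
    · exact (((fluxBump_smooth s t n).continuous.measurable.comp
        (by fun_prop : Measurable fun x : P3 => x.2.2)).mul (flux_g_meas E)).aestronglyMeasurable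
    · filter_upwards [ae_restrict_of_ae (flux_g_bd h)] with x hx
      rw [Real.norm_eq_abs, abs_mul]
      nlinarith [fluxBump_bd s t n x.2.2, abs_nonneg (fluxBump s t n x.2.2),
        abs_nonneg (wt E x - (rho E x).2.2 ^ 2 / wt E x)]
    · exact fluxBump_lim s t x.2.2 _
  have l2 : Tendsto (fun n : ℕ => ∫ u in Ioo (0 : ℝ) 1, fluxBump s t n u *
      (ll E - k * bb E + k * ar (P232.slice E u))) atTop
      (𝓝 (∫ u in Ioo (0 : ℝ) 1, (Ioo s t).indicator
        (fun u => ll E - k * bb E + k * ar (P232.slice E u)) u)) := by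
    refine tendsto_integral_of_dominated_convergence (fun _ => |ll E - k * bb E| + |k|) (fun n => ?_)
      (integrable_const _) (fun n => Eventually.of_forall fun u => ?_)
      (Eventually.of_forall fun u => ?_)
    · exact ((fluxBump_smooth s t n).continuous.measurable.mul hGm).aestronglyMeasurable
    · rw [Real.norm_eq_abs, abs_mul]
      have a1 : |k * ar (P232.slice E u)| ≤ |k| := by
        rw [abs_mul, abs_of_nonneg (ar_nonneg _)]
        exact mul_le_of_le_one_right (abs_nonneg _) (ar_le_one _)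
      have a2 := abs_add_le (ll E - k * bb E) (k * ar (P232.slice E u))
      nlinarith [fluxBump_bd s t n u, abs_nonneg (fluxBump s t n u),
        abs_nonneg (ll E - k * bb E + k * ar (P232.slice E u))]
    · exact fluxBump_lim s t u _
  have l3 := tendsto_nhds_unique l1 (l2.congr fun n =>
    (flux_c1 h hc (fluxBump_smooth s t n) (fluxBump_bd s t n)).symm)
  rw [integral_indicator hS, integral_indicator measurableSet_Ioo, Measure.restrict_restrict hS,
    Measure.restrict_restrict measurableSet_Ioo,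
    inter_eq_left.2 (Ioo_subset_Ioo h0 h1)] at l3
  have h4 : {x ∈ Q | x.2.2 ∈ Ioo s t} = {x : P3 | x.2.2 ∈ Ioo s t} ∩ Q := by
    ext x; simp only [mem_ofPred_eq, mem_inter_iff]; tauto
  rw [h4]
  exact l3

end Vale.Agent.P232
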