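import Mathlib

open MeasureTheory Set Filter Topology intervalIntegral

noncomputable section
namespace Vale.Agent.P232

lemma hol1_ode {P E : Type*} [TopologicalSpace P] [CompactSpace P] [NormedAddCommGroup E]
    [NormedSpace ℝ E] [CompleteSpace E] {f : P → ℝ → E → E} {z₀ : P → E} {a b : ℝ} (hab : a ≤ b)
    {K : ℝ} (hK : 0 ≤ K) (hf : Continuous fun u : P × ℝ × E => f u.1 u.2.1 u.2.2)
    (hz : Continuous z₀)
    (hL : ∀ p, ∀ x ∈ Icc a b, ∀ u v, ‖f p x u - f p x v‖ ≤ K * ‖u - v‖) :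
    ∃ z : P → ℝ → E, Continuous (Function.uncurry z) ∧ ∀ p, z p a = z₀ p ∧
      ∀ x ∈ Icc a b, HasDerivAt (z p) (f p x (z p x)) x := by
  set L := 2 * K + 1 with hLd
  have hL0 : 0 < L := by positivity
  let c := projIcc a b hab
  have hc : Continuous c := continuous_projIcc
  let G : C(P × Icc a b, E) → P → ℝ → E := fun φ p s =>
    f p (c s) (Real.exp (L * c s) • φ (p, c s))
  have hG : ∀ φ, Continuous (Function.uncurry (G φ)) := fun φ =>
    hf.comp (f := fun u : P × ℝ => (u.1, (c u.2 : ℝ), Real.exp (L * c u.2) • φ (u.1, c u.2)))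
      (by fun_prop)
  have hG' : ∀ φ p, Continuous (G φ p) := fun φ p =>
    (hG φ).comp (f := fun s => (p, s)) (by fun_prop)
  let J : C(P × Icc a b, E) → P → ℝ → E := fun φ p x => z₀ p + ∫ s in a..x, G φ p s
  have hJ : ∀ φ, Continuous (Function.uncurry (J φ)) := fun φ =>
    (hz.comp continuous_fst).add (continuous_parametric_primitive_of_continuous (hG φ))
  let T : C(P × Icc a b, E) → C(P × Icc a b, E) := fun φ =>
    ⟨fun u => Real.exp (-(L * u.2)) • J φ u.1 u.2, by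
      have := (hJ φ).comp (f := fun u : P × Icc a b => (u.1, (u.2 : ℝ))) (by fun_prop)
      exact Continuous.smul (by fun_prop) this⟩
  have hT : ContractingWith (1 / 2) T := by
    refine ⟨by norm_num, LipschitzWith.of_dist_le_mul fun φ ψ => ?_⟩
    refine (ContinuousMap.dist_le (by positivity)).mpr fun u => ?_
    obtain ⟨p, x, hx⟩ := u
    have h1 : ‖∫ s in a..x, (G φ p s - G ψ p s)‖ ≤
        ∫ s in a..x, K * dist φ ψ * Real.exp (L * s) := by
      refine norm_integral_le_of_norm_le hx.1 (Eventually.of_forall fun s hs => ?_)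
        (Continuous.intervalIntegrable (by fun_prop) _ _)
      have hs' : s ∈ Icc a b := ⟨hs.1.le, hs.2.trans hx.2⟩
      refine (hL p _ (c s).2 _ _).trans ?_
      rw [← smul_sub, norm_smul, Real.norm_of_nonneg (Real.exp_pos _).le, ← dist_eq_norm,
        show (c s : ℝ) = s by simp [c, projIcc_of_mem hab hs'], mul_assoc, mul_comm (dist φ ψ)]
      gcongr
      exact ContinuousMap.dist_apply_le_dist _
    have h2 : ∫ s in a..x, K * dist φ ψ * Real.exp (L * s) =
        K * dist φ ψ * (Real.exp (L * x) / L) - K * dist φ ψ * (Real.exp (L * a) / L) := by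
      refine integral_eq_sub_of_hasDerivAt (f := fun s => K * dist φ ψ * (Real.exp (L * s) / L))
        (fun s _ => ?_) (Continuous.intervalIntegrable (by fun_prop) _ _)
      refine ((((hasDerivAt_id s).const_mul L).exp.div_const L).const_mul _).congr_deriv ?_
      simp only [id]; field_simp
    have h3 : T φ (p, ⟨x, hx⟩) - T ψ (p, ⟨x, hx⟩) =
        Real.exp (-(L * x)) • ∫ s in a..x, (G φ p s - G ψ p s) := by
      rw [intervalIntegral.integral_sub ((hG' φ p).intervalIntegrable _ _)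
        ((hG' ψ p).intervalIntegrable _ _)]
      simp only [T, J, ContinuousMap.coe_mk, ← smul_sub, add_sub_add_left_eq_sub]
    rw [dist_eq_norm, h3, norm_smul, Real.norm_of_nonneg (Real.exp_pos _).le]
    have h4 : 0 ≤ K * dist φ ψ * (Real.exp (L * a) / L) := by positivity
    have h5 : Real.exp (-(L * x)) * (K * dist φ ψ * (Real.exp (L * x) / L)) =
        K / L * dist φ ψ := by
      rw [Real.exp_neg]; field_simp
    have h6 : K / L ≤ 1 / 2 := by rw [div_le_iff₀ hL0]; linarith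
    calc _ ≤ Real.exp (-(L * x)) * (K * dist φ ψ * (Real.exp (L * x) / L)) := by
          gcongr; linarith
      _ ≤ _ := by rw [h5]; push_cast; gcongr
  set φ := hT.fixedPoint T
  have hφ : T φ = φ := hT.fixedPoint_isFixedPt
  refine ⟨J φ, hJ φ, fun p => ⟨by simp [J], fun x hx => ?_⟩⟩
  have h1 := (((hG' φ p).integral_hasStrictDerivAt a x).hasDerivAt).const_add (z₀ p)
  refine h1.congr_deriv ?_
  have h2 : c x = ⟨x, hx⟩ := projIcc_of_mem hab hx
  simp only [G, h2]
  congr 1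
  conv_lhs => rw [← hφ]
  simp only [T, ContinuousMap.coe_mk, smul_smul, ← Real.exp_add, add_neg_cancel, Real.exp_zero,
    one_smul]

lemma hol1_gron {E : Type*} [NormedAddCommGroup E] [NormedSpace ℝ E] {X X' : ℝ → E} {a b M : ℝ}
    (hM : 0 ≤ M) (hX : ∀ x ∈ Icc a b, HasDerivAt X (X' x) x)
    (hb : ∀ x ∈ Icc a b, ‖X' x‖ ≤ M * ‖X x‖) {x : ℝ} (hx : x ∈ Icc a b) :
    ‖X x‖ ≤ Real.exp (M * (b - a)) * ‖X a‖ := by
  have h := norm_le_gronwallBound_of_norm_deriv_right_le (f := X) (f' := X') (δ := ‖X a‖) (K := M)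
    (ε := 0) (a := a) (b := b) (fun t ht => (hX t ht).continuousAt.continuousWithinAt)
    (fun t ht => (hX t (Ico_subset_Icc_self ht)).hasDerivWithinAt) le_rfl
    (fun t ht => by rw [add_zero]; exact hb t (Ico_subset_Icc_self ht)) x hx
  rw [gronwallBound_ε0, mul_comm] at h
  refine h.trans (mul_le_mul_of_nonneg_right (Real.exp_le_exp.2 ?_) (norm_nonneg _))
  exact mul_le_mul_of_nonneg_left (by linarith [hx.2]) hM

variable {V : Type*} [NormedAddCommGroup V] [NormedSpace ℝ V] [CompleteSpace V]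

lemma hol1_lin {L : ℝ → ℝ → (V →L[ℝ] V) → V →L[ℝ] V} {M a b c d : ℝ} (hab : a ≤ b) (hcd : c ≤ d)
    (hM : 0 ≤ M) (hL : Continuous fun u : ℝ × ℝ × (V →L[ℝ] V) => L u.1 u.2.1 u.2.2)
    (hs : ∀ p x u v, L p x u - L p x v = L p x (u - v)) (hb : ∀ p x u, ‖L p x u‖ ≤ M * ‖u‖) :
    ∃ P : ℝ → ℝ → V →L[ℝ] V, Continuous (Function.uncurry P) ∧ ∀ p ∈ Icc c d, P p a = 1 ∧
      ∀ x ∈ Icc a b, HasDerivAt (P p) (L p x (P p x)) x ∧ ‖P p x‖ ≤ Real.exp (M * (b - a)) := by
  obtain ⟨z, hz, hz'⟩ := hol1_ode (P := Icc c d) (f := fun p => L p) (z₀ := fun _ => 1) hab hM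
    (hL.comp (f := fun u : Icc c d × ℝ × (V →L[ℝ] V) => ((u.1 : ℝ), u.2)) (by fun_prop))
    continuous_const (fun p x _ u v => by rw [hs]; exact hb _ _ _)
  refine ⟨fun p => z (projIcc c d hcd p),
    hz.comp (f := fun u : ℝ × ℝ => (projIcc c d hcd u.1, u.2))
      ((continuous_projIcc.comp continuous_fst).prodMk continuous_snd), fun p hp => ?_⟩
  simp only [projIcc_of_mem hcd hp]
  refine ⟨(hz' _).1, fun x hx => ⟨(hz' _).2 x hx, ?_⟩⟩
  have h := hol1_gron hM (hz' ⟨p, hp⟩).2 (fun x _ => hb _ _ _) hx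
  rw [(hz' _).1] at h
  exact h.trans (mul_le_of_le_one_right (Real.exp_pos _).le ContinuousLinearMap.norm_id_le)

lemma hol1_fwd {B : ℝ × ℝ → V →L[ℝ] V} (hB : Continuous B) {M a b c d : ℝ} (hab : a ≤ b)
    (hcd : c ≤ d) (hM : ∀ p, ‖B p‖ ≤ M) :
    ∃ P : ℝ → ℝ → V →L[ℝ] V, Continuous (Function.uncurry P) ∧ ∀ p ∈ Icc c d, P p a = 1 ∧
      ∀ x ∈ Icc a b, HasDerivAt (P p) (B (p, x) * P p x) x ∧
        ‖P p x‖ ≤ Real.exp (M * (b - a)) :=
  hol1_lin (L := fun p x u => B (p, x) * u) hab hcd ((norm_nonneg _).trans (hM 0)) (by fun_prop)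
    (fun p x u v => (mul_sub _ _ _).symm)
    fun p x u => (norm_mul_le _ _).trans (mul_le_mul_of_nonneg_right (hM _) (norm_nonneg _))

lemma hol1_bwd {B : ℝ × ℝ → V →L[ℝ] V} (hB : Continuous B) {M a b c d : ℝ} (hab : a ≤ b)
    (hcd : c ≤ d) (hM : ∀ p, ‖B p‖ ≤ M) :
    ∃ Q : ℝ → ℝ → V →L[ℝ] V, Continuous (Function.uncurry Q) ∧ ∀ p ∈ Icc c d, Q p b = 1 ∧
      ∀ x ∈ Icc a b, HasDerivAt (Q p) (-(Q p x * B (p, x))) x ∧
        ‖Q p x‖ ≤ Real.exp (M * (b - a)) := by
  obtain ⟨P, hP, hP'⟩ := hol1_lin (L := fun p x u => u * B (p, a + b - x)) hab hcd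
    ((norm_nonneg _).trans (hM 0)) (by fun_prop) (fun p x u v => (sub_mul _ _ _).symm)
    fun p x u => (norm_mul_le _ _).trans (by
      rw [mul_comm]; exact mul_le_mul_of_nonneg_right (hM _) (norm_nonneg _))
  refine ⟨fun p x => P p (a + b - x), hP.comp (f := fun u : ℝ × ℝ => (u.1, a + b - u.2))
    (by fun_prop), fun p hp => ⟨by simpa using (hP' p hp).1, fun x hx => ?_⟩⟩
  obtain ⟨h1, h2⟩ := (hP' p hp).2 (a + b - x) ⟨by linarith [hx.2], by linarith [hx.1]⟩
  refine ⟨?_, h2⟩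
  have h3 := h1.comp_const_sub (a + b) x
  simpa using h3

omit [CompleteSpace V] in
lemma hol1_const {B Q : ℝ → V →L[ℝ] V} {X : ℝ → V} {a b : ℝ} (hab : a ≤ b) (h1 : Q b = 1)
    (hQ : ∀ x ∈ Icc a b, HasDerivAt Q (-(Q x * B x)) x)
    (hX : ∀ x ∈ Icc a b, HasDerivAt X (B x (X x)) x) : Q a (X a) = X b := by
  have h : ∀ x ∈ Icc a b, HasDerivAt (fun x => Q x (X x)) 0 x := fun x hx =>
    ((hQ x hx).clm_apply (hX x hx)).congr_deriv (by simp)
  have h2 := constant_of_has_deriv_right_zero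
    (fun x hx => (h x hx).continuousAt.continuousWithinAt)
    (fun x hx => (h x (Ico_subset_Icc_self hx)).hasDerivWithinAt) b ⟨hab, le_rfl⟩
  simpa [h1] using h2.symm

lemma hol1_slope {E : Type*} [NormedAddCommGroup E] [NormedSpace ℝ E] {H : ℝ → E} {u : ℝ}
    (hH : ContinuousAt H u) : HasDerivAt (fun x => (x - u) • H x) (H u) u := by
  rw [hasDerivAt_iff_tendsto_slope]
  refine tendsto_nhdsWithin_congr (f := H) (fun x hx => ?_) (hH.tendsto.mono_left nhdsWithin_le_nhds)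
  rw [slope_def_module, sub_self, zero_smul, sub_zero, smul_smul,
    inv_mul_cancel₀ (sub_ne_zero.2 hx), one_smul]

lemma hol1_d1 {E : Type*} [NormedAddCommGroup E] [NormedSpace ℝ E] {A : ℝ × ℝ → E}
    (h : ContDiff ℝ 1 A) (u w : ℝ) :
    HasDerivAt (fun x => A (x, w)) (fderiv ℝ A (u, w) (1, 0)) u :=
  (h.differentiable one_ne_zero (u, w)).hasFDerivAt.comp_hasDerivAt u
    ((hasDerivAt_id u).prodMk (hasDerivAt_const u w))

lemma hol1_d2 {E : Type*} [NormedAddCommGroup E] [NormedSpace ℝ E] {A : ℝ × ℝ → E}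
    (h : ContDiff ℝ 1 A) (u w : ℝ) :
    HasDerivAt (fun x => A (u, x)) (fderiv ℝ A (u, w) (0, 1)) w :=
  (h.differentiable one_ne_zero (u, w)).hasFDerivAt.comp_hasDerivAt w
    ((hasDerivAt_const w u).prodMk (hasDerivAt_id w))

lemma hol1_diff {E : Type*} [NormedAddCommGroup E] [NormedSpace ℝ E] [CompleteSpace E]
    {A : ℝ × ℝ → E} (h : ContDiff ℝ 1 A) (u x w : ℝ) :
    A (x, w) - A (u, w) = (x - u) • ∫ s in (0 : ℝ)..1, fderiv ℝ A (u + s * (x - u), w) (1, 0) := by
  have hc := h.continuous_fderiv one_ne_zero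
  rw [← intervalIntegral.integral_smul, integral_eq_sub_of_hasDerivAt
    (f := fun s => A (u + s * (x - u), w)) (fun s _ => ?_)
    (Continuous.intervalIntegrable (by fun_prop) _ _)]
  · simp
  · have h1 := (hol1_d1 h (u + s * (x - u)) w).scomp s
      (((hasDerivAt_id s).mul_const (x - u)).const_add u)
    simpa [Function.comp_def] using h1

lemma hol1_param {A : ℝ × ℝ → V →L[ℝ] V} (h : ContDiff ℝ 1 A) {P Q : ℝ → ℝ → V →L[ℝ] V}
    {a b c d : ℝ} (hab : a ≤ b) (hP : Continuous (Function.uncurry P))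
    (hQ : Continuous (Function.uncurry Q))
    (hP' : ∀ p ∈ Icc c d, P p a = 1 ∧ ∀ x ∈ Icc a b, HasDerivAt (P p) (A (p, x) * P p x) x)
    (hQ' : ∀ p ∈ Icc c d, Q p b = 1 ∧ ∀ x ∈ Icc a b, HasDerivAt (Q p) (-(Q p x * A (p, x))) x)
    {u : ℝ} (hu : u ∈ Ioo c d) : Q u a = P u b ∧
      HasDerivAt (fun p => Q p a) (∫ w in a..b, Q u w * fderiv ℝ A (u, w) (1, 0) * P u w) u := by
  have hc := h.continuous_fderiv one_ne_zero
  have hA := h.continuous
  have hPu : Continuous (P u) := hP.comp (f := fun w => (u, w)) (by fun_prop)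
  have hQp : ∀ p, Continuous (Q p) := fun p => hQ.comp (f := fun w => (p, w)) (by fun_prop)
  have hu' := Ioo_subset_Icc_self hu
  let D : ℝ → ℝ → V →L[ℝ] V := fun p w =>
    ∫ s in (0 : ℝ)..1, fderiv ℝ A (u + s * (p - u), w) (1, 0)
  have hD : Continuous (Function.uncurry D) :=
    continuous_parametric_intervalIntegral_of_continuous' (μ := volume)
      (f := fun (q : ℝ × ℝ) s => fderiv ℝ A (u + s * (q.1 - u), q.2) (1, 0))
      (by unfold Function.uncurry; fun_prop) 0 1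
  let H : ℝ → V →L[ℝ] V := fun p => ∫ w in a..b, Q p w * D p w * P u w
  have hH : Continuous H := continuous_parametric_intervalIntegral_of_continuous' (μ := volume)
    (f := fun p w => Q p w * D p w * P u w) ((hQ.mul hD).mul (hPu.comp continuous_snd)) a b
  have key : ∀ p ∈ Icc c d, Q p a = P u b + (p - u) • H p := by
    intro p hp
    have h1 := integral_eq_sub_of_hasDerivAt (f := fun w => Q p w * P u w) (a := a) (b := b)
      (f' := fun w => -((p - u) • (Q p w * D p w * P u w))) (fun w hw => by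
        rw [uIcc_of_le hab] at hw
        refine (((hQ' p hp).2 w hw).mul ((hP' u hu').2 w hw)).congr_deriv ?_
        rw [← smul_mul_assoc, ← mul_smul_comm, ← hol1_diff h]
        noncomm_ring)
      (Continuous.intervalIntegrable ((((hQp p).mul (hD.comp (f := fun w => (p, w))
        (by fun_prop))).mul hPu).const_smul (p - u)).neg _ _)
    rw [intervalIntegral.integral_neg, intervalIntegral.integral_smul, (hQ' p hp).1,
      (hP' u hu').1, one_mul, mul_one] at h1
    rw [← sub_eq_iff_eq_add', ← neg_sub, ← h1, neg_neg]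
  refine ⟨by simpa using key u hu', ?_⟩
  have h2 := (hol1_slope hH.continuousAt (u := u)).const_add (P u b)
  have h3 : H u = ∫ w in a..b, Q u w * fderiv ℝ A (u, w) (1, 0) * P u w := by simp [H, D]
  rw [h3] at h2
  refine h2.congr_of_eventuallyEq ?_
  filter_upwards [Icc_mem_nhds hu.1 hu.2] with p hp using key p hp

end Vale.Agent.P232
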