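import Vale.Agent.P232.Basic
import Vale.Agent.P232.Hol1_1

open MeasureTheory Set Filter Topology
open scoped ENNReal

noncomputable section
namespace Vale.Agent.P232

/-! Non-abelian Stokes inequality on a rectangle, via parallel transport and the Duhamel formula. -/

theorem stokes_rect {V : Type*} [NormedAddCommGroup V] [NormedSpace ℝ V] [CompleteSpace V]
    {A₁ A₂ : P2 → V →L[ℝ] V} (h₁ : ContDiff ℝ 1 A₁) (h₂ : ContDiff ℝ 1 A₂) {M : ℝ}
    (hM₁ : ∀ p, ‖A₁ p‖ ≤ M) (hM₂ : ∀ p, ‖A₂ p‖ ≤ M) {u₀ u₁ w₀ w₁ : ℝ} (hu : u₀ < u₁) (hw : w₀ < w₁)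
    {Vb Vt Vl Vr : ℝ → V}
    (hb : ∀ u ∈ Icc u₀ u₁, HasDerivAt Vb (A₁ (u, w₀) (Vb u)) u)
    (ht : ∀ u ∈ Icc u₀ u₁, HasDerivAt Vt (A₁ (u, w₁) (Vt u)) u)
    (hl : ∀ w ∈ Icc w₀ w₁, HasDerivAt Vl (A₂ (u₀, w) (Vl w)) w)
    (hr : ∀ w ∈ Icc w₀ w₁, HasDerivAt Vr (A₂ (u₁, w) (Vr w)) w)
    (c₁ : Vl w₀ = Vb u₀) (c₂ : Vr w₀ = Vb u₁) (c₃ : Vt u₀ = Vl w₁) :
    ‖Vr w₁ - Vt u₁‖ ≤ Real.exp (2 * M * ((u₁ - u₀) + (w₁ - w₀))) * ‖Vb u₀‖ *
      ∫ p in Ioo u₀ u₁ ×ˢ Ioo w₀ w₁,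
        ‖fderiv ℝ A₂ p (1, 0) - fderiv ℝ A₁ p (0, 1) + (A₂ p).comp (A₁ p) - (A₁ p).comp (A₂ p)‖ := by
  have hM : 0 ≤ M := (norm_nonneg _).trans (hM₁ 0)
  have hc₁ := h₁.continuous_fderiv one_ne_zero
  have hc₂ := h₂.continuous_fderiv one_ne_zero
  have hA₁ := h₁.continuous
  have hA₂ := h₂.continuous
  set K : P2 → V →L[ℝ] V := fun p =>
    fderiv ℝ A₂ p (1, 0) - fderiv ℝ A₁ p (0, 1) + (A₂ p).comp (A₁ p) - (A₁ p).comp (A₂ p) with hK
  have hKc : Continuous K := by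
    simp only [hK, ← ContinuousLinearMap.mul_def]
    fun_prop
  obtain ⟨P, hP, hP'⟩ := hol1_fwd hA₂ hw.le hu.le hM₂
  obtain ⟨Q, hQ, hQ'⟩ := hol1_bwd hA₂ hw.le hu.le hM₂
  obtain ⟨T, -, hT'⟩ := hol1_bwd (B := fun p => A₁ (p.2, p.1)) (by fun_prop) hu.le (le_refl w₁)
    (fun p => hM₁ _)
  obtain ⟨hT1, hT⟩ := hT' w₁ ⟨le_rfl, le_rfl⟩
  have hPu : ∀ p, Continuous (P p) := fun p => hP.comp (f := fun w => (p, w)) (by fun_prop)
  have hQu : ∀ p, Continuous (Q p) := fun p => hQ.comp (f := fun w => (p, w)) (by fun_prop)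
  let F : ℝ → V := fun u => (T w₁ u * Q u w₀) (Vb u)
  have hF0 : F u₀ = Vt u₁ := by
    have hq := hQ' u₀ ⟨le_rfl, hu.le⟩
    have e1 := hol1_const hw.le hq.1 (fun x hx => (hq.2 x hx).1) hl
    have e2 := hol1_const hu.le hT1 (fun x hx => (hT x hx).1) ht
    simp only [F, mul_apply_eq_comp]
    rw [← c₁, e1, ← c₃, e2]
  have hF1 : F u₁ = Vr w₁ := by
    have hq := hQ' u₁ ⟨hu.le, le_rfl⟩
    have e1 := hol1_const hw.le hq.1 (fun x hx => (hq.2 x hx).1) hr
    simp only [F, hT1, one_mul]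
    rw [← c₂, e1]
  have hFd : ∀ u ∈ Ioo u₀ u₁,
      HasDerivAt F ((T w₁ u * ∫ w in w₀..w₁, Q u w * K (u, w) * P u w) (Vb u)) u := by
    intro u hu'
    have hu2 := Ioo_subset_Icc_self hu'
    obtain ⟨e1, e2⟩ := hol1_param h₂ hw.le hP hQ
      (fun p hp => ⟨(hP' p hp).1, fun x hx => ((hP' p hp).2 x hx).1⟩)
      (fun p hp => ⟨(hQ' p hp).1, fun x hx => ((hQ' p hp).2 x hx).1⟩) hu'
    have hp := hPu u
    have hq := hQu u
    have e3 := intervalIntegral.integral_eq_sub_of_hasDerivAt (a := w₀) (b := w₁)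
      (f := fun w => Q u w * A₁ (u, w) * P u w)
      (f' := fun w => Q u w * fderiv ℝ A₂ (u, w) (1, 0) * P u w - Q u w * K (u, w) * P u w)
      (fun w hw' => by
        rw [uIcc_of_le hw.le] at hw'
        refine (((((hQ' u hu2).2 w hw').1.mul (hol1_d2 h₁ u w))).mul
          ((hP' u hu2).2 w hw').1).congr_deriv ?_
        simp only [hK, ← ContinuousLinearMap.mul_def, Pi.mul_apply]
        noncomm_ring)
      (Continuous.intervalIntegrable (by fun_prop) _ _)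
    rw [intervalIntegral.integral_sub (Continuous.intervalIntegrable (by fun_prop) _ _)
      (Continuous.intervalIntegrable (by fun_prop) _ _), (hQ' u hu2).1, (hP' u hu2).1, one_mul,
      mul_one, ← e1] at e3
    refine ((((hT u hu2).1.mul e2).clm_apply (hb u hu2))).congr_deriv ?_
    rw [← mul_apply_eq_comp, ← add_apply]
    congr 1
    rw [sub_eq_iff_eq_add.1 e3]
    simp only [Pi.mul_apply]
    noncomm_ring
  have hFc : ContinuousOn F (Icc u₀ u₁) := fun u hu' =>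
    (((hT u hu').1.continuousAt.mul (hQ.comp (f := fun p => (p, w₀))
      (by fun_prop)).continuousAt).clm_apply (hb u hu').continuousAt).continuousWithinAt
  have hk : Continuous fun u => ∫ w in w₀..w₁, ‖K (u, w)‖ :=
    intervalIntegral.continuous_parametric_intervalIntegral_of_continuous' (μ := volume)
      (f := fun u w => ‖K (u, w)‖) hKc.norm w₀ w₁
  set C := Real.exp (2 * M * ((u₁ - u₀) + (w₁ - w₀))) * ‖Vb u₀‖ with hC
  have hmain := norm_sub_le_integral_of_norm_deriv_le_of_le (f := F)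
    (B := fun u => C * ∫ w in w₀..w₁, ‖K (u, w)‖) hu.le hFc
    (fun u hu' => (hFd u hu').differentiableAt.differentiableWithinAt)
    (Eventually.of_forall fun u hu' => by
      have hu2 := Ioo_subset_Icc_self hu'
      rw [(hFd u hu').deriv]
      have b1 := (hT u hu2).2
      have b2 := hol1_gron hM hb (fun x _ => ((A₁ _).le_opNorm _).trans
        (mul_le_mul_of_nonneg_right (hM₁ _) (norm_nonneg _))) hu2
      have b3 : ‖∫ w in w₀..w₁, Q u w * K (u, w) * P u w‖ ≤ ∫ w in w₀..w₁,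
          Real.exp (M * (w₁ - w₀)) * Real.exp (M * (w₁ - w₀)) * ‖K (u, w)‖ := by
        refine intervalIntegral.norm_integral_le_of_norm_le hw.le
          (Eventually.of_forall fun w hw' => ?_) (Continuous.intervalIntegrable (by fun_prop) _ _)
        have hw2 := Ioc_subset_Icc_self hw'
        calc _ ≤ ‖Q u w‖ * ‖K (u, w)‖ * ‖P u w‖ := (norm_mul_le _ _).trans
              (mul_le_mul_of_nonneg_right (norm_mul_le _ _) (norm_nonneg _))
          _ ≤ Real.exp (M * (w₁ - w₀)) * ‖K (u, w)‖ * Real.exp (M * (w₁ - w₀)) := by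
              gcongr
              · exact ((hQ' u hu2).2 w hw2).2
              · exact ((hP' u hu2).2 w hw2).2
          _ = _ := by ring
      rw [intervalIntegral.integral_const_mul] at b3
      have b4 : 0 ≤ ∫ w in w₀..w₁, ‖K (u, w)‖ :=
        intervalIntegral.integral_nonneg hw.le fun _ _ => norm_nonneg _
      have e : Real.exp (2 * M * ((u₁ - u₀) + (w₁ - w₀))) = Real.exp (M * (u₁ - u₀)) *
          (Real.exp (M * (w₁ - w₀)) * Real.exp (M * (w₁ - w₀))) * Real.exp (M * (u₁ - u₀)) := by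
        simp only [← Real.exp_add]; congr 1; ring
      calc _ ≤ ‖T w₁ u‖ * ‖∫ w in w₀..w₁, Q u w * K (u, w) * P u w‖ * ‖Vb u‖ :=
            (ContinuousLinearMap.le_opNorm _ _).trans
              (mul_le_mul_of_nonneg_right (norm_mul_le _ _) (norm_nonneg _))
        _ ≤ Real.exp (M * (u₁ - u₀)) * (Real.exp (M * (w₁ - w₀)) * Real.exp (M * (w₁ - w₀)) *
            ∫ w in w₀..w₁, ‖K (u, w)‖) * (Real.exp (M * (u₁ - u₀)) * ‖Vb u₀‖) := by gcongr
        _ = _ := by rw [hC, e]; ring)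
    ((hk.const_mul C).intervalIntegrable _ _)
  rw [hF0, hF1, intervalIntegral.integral_const_mul] at hmain
  refine hmain.trans (le_of_eq ?_)
  congr 1
  rw [Measure.volume_eq_prod, setIntegral_prod _ ((hKc.norm.continuousOn.integrableOn_compact
    (isCompact_Icc.prod isCompact_Icc)).mono_set
      (prod_mono Ioo_subset_Icc_self Ioo_subset_Icc_self))]
  simp only [intervalIntegral.integral_of_le hu.le, intervalIntegral.integral_of_le hw.le,
    integral_Ioc_eq_integral_Ioo]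

end Vale.Agent.P232
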