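import Vale.Agent.P232.MeasA_1

open MeasureTheory Set Filter Topology
open scoped ENNReal

noncomputable section
namespace Vale.Agent.P232

/-! Task B2: the boundary measure `nu` and the normal `rho`. -/

variable {E : Set P3}

theorem measurable_cyc : Measurable cyc := cycE.measurable
theorem measurable_cycInv : Measurable cycInv := cycE.symm.measurable
theorem emb_cyc : MeasurableEmbedding cyc := cycE.measurableEmbedding

/-- `cyc` as a homeomorphism -/
def cycH : P3 ≃ₜ P3 where
  toFun := cyc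
  invFun := cycInv
  left_inv := fun _ => rfl
  right_inv := fun _ => rfl
  continuous_toFun := by show Continuous cyc; unfold cyc; fun_prop
  continuous_invFun := by show Continuous cycInv; unfold cycInv; fun_prop

theorem Adm.measurable_gr (h : Adm E) :
    Measurable (fun p : P2 => ((p.1, p.2, hgt E p) : P3)) :=
  measurable_fst.prodMk (measurable_snd.prodMk (measurable_hgt h.measurableSet))

theorem Adm.mu3_locFin (h : Adm E) : IsLocallyFiniteMeasure (mu3 E) :=
  locFin_graph volume (dom E) h.measurable_gr (π := fun y : P3 => ((y.1, y.2.1) : P2))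
    (by fun_prop) (fun _ => rfl)
theorem Adm.mu1_locFin (h : Adm E) : IsLocallyFiniteMeasure (mu1 E) :=
  locFin_map h.rot.mu3_locFin cycH.symm
theorem Adm.mu2_locFin (h : Adm E) : IsLocallyFiniteMeasure (mu2 E) :=
  locFin_map h.rot.rot.mu3_locFin cycH
theorem Adm.nu_locFin (h : Adm E) : IsLocallyFiniteMeasure (nu E) :=
  locFin_add (locFin_add h.mu1_locFin h.mu2_locFin) h.mu3_locFin
theorem Adm.nu_Q_lt_top (h : Adm E) : nu E Q < ⊤ := by
  have := h.nu_locFin
  have h1 : Q ⊆ Icc (0 : ℝ) 1 ×ˢ Icc (0 : ℝ) 1 ×ˢ Icc (0 : ℝ) 1 :=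
    prod_mono Ioo_subset_Icc_self (prod_mono Ioo_subset_Icc_self Ioo_subset_Icc_self)
  exact (measure_mono h1).trans_lt
    (isCompact_Icc.prod (isCompact_Icc.prod isCompact_Icc)).measure_lt_top
theorem mu1_ac (E : Set P3) : mu1 E ≪ nu E := (ac_left _ _).trans (ac_left _ _)
theorem mu2_ac (E : Set P3) : mu2 E ≪ nu E := (ac_right _ _).trans (ac_left _ _)
theorem mu3_ac (E : Set P3) : mu3 E ≪ nu E := ac_right _ _
theorem measurable_rho (E : Set P3) : Measurable (rho E) :=
  (Measure.measurable_rnDeriv _ _).ennreal_toReal.prodMk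
    ((Measure.measurable_rnDeriv _ _).ennreal_toReal.prodMk
      (Measure.measurable_rnDeriv _ _).ennreal_toReal)
theorem measurable_wt (E : Set P3) : Measurable (wt E) :=
  continuous_nrm.measurable.comp (measurable_rho E)
theorem rho_nonneg (E : Set P3) (x : P3) :
    0 ≤ (rho E x).1 ∧ 0 ≤ (rho E x).2.1 ∧ 0 ≤ (rho E x).2.2 :=
  ⟨ENNReal.toReal_nonneg, ENNReal.toReal_nonneg, ENNReal.toReal_nonneg⟩
theorem Adm.rho_sum (h : Adm E) :
    ∀ᵐ x ∂(nu E), (rho E x).1 + (rho E x).2.1 + (rho E x).2.2 = 1 := by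
  have := h.mu1_locFin
  have := h.mu2_locFin
  have := h.mu3_locFin
  exact rn_sum3
theorem Adm.wt_bounds (h : Adm E) : ∀ᵐ x ∂(nu E), 1 / 2 ≤ wt E x ∧ wt E x ≤ 1 := by
  filter_upwards [h.rho_sum] with x hx
  obtain ⟨h1, h2, h3⟩ := rho_nonneg E x
  unfold wt nrm
  constructor
  · refine Real.le_sqrt_of_sq_le ?_
    nlinarith [sq_nonneg ((rho E x).1 - (rho E x).2.1), sq_nonneg ((rho E x).1 - (rho E x).2.2),
      sq_nonneg ((rho E x).2.1 - (rho E x).2.2)]
  · refine Real.sqrt_le_one.2 ?_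
    nlinarith [mul_nonneg h1 h2, mul_nonneg h1 h3, mul_nonneg h2 h3]
/-- projection formulas -/
theorem Adm.lintegral_rho3 (h : Adm E) {F : P3 → ℝ≥0∞} (hF : Measurable F) :
    ∫⁻ x, F x * ENNReal.ofReal (rho E x).2.2 ∂(nu E) = ∫⁻ p in dom E, F (p.1, p.2, hgt E p) := by
  have := h.mu3_locFin
  have := h.nu_locFin
  exact (rn_lint (mu3_ac E) hF).trans (lintegral_map hF h.measurable_gr)
theorem Adm.lintegral_rho1 (h : Adm E) {F : P3 → ℝ≥0∞} (hF : Measurable F) :
    ∫⁻ x, F x * ENNReal.ofReal (rho E x).1 ∂(nu E)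
      = ∫⁻ p in dom (P232.rot E), F (hgt (P232.rot E) p, p.1, p.2) := by
  have := h.mu1_locFin
  have := h.nu_locFin
  exact (rn_lint (mu1_ac E) hF).trans ((lintegral_map hF measurable_cycInv).trans
    (lintegral_map (hF.comp measurable_cycInv) h.rot.measurable_gr))
theorem Adm.lintegral_rho2 (h : Adm E) {F : P3 → ℝ≥0∞} (hF : Measurable F) :
    ∫⁻ x, F x * ENNReal.ofReal (rho E x).2.1 ∂(nu E)
      = ∫⁻ p in dom (P232.rot (P232.rot E)), F (p.2, hgt (P232.rot (P232.rot E)) p, p.1) := by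
  have := h.mu2_locFin
  have := h.nu_locFin
  exact (rn_lint (mu2_ac E) hF).trans ((lintegral_map hF measurable_cyc).trans
    (lintegral_map (hF.comp measurable_cyc) h.rot.rot.measurable_gr))
theorem Adm.integral_rho3 (h : Adm E) {F : P3 → ℝ} (hF : Measurable F) :
    ∫ x, F x * (rho E x).2.2 ∂(nu E) = ∫ p in dom E, F (p.1, p.2, hgt E p) := by
  have := h.mu3_locFin
  have := h.nu_locFin
  exact (rn_int (mu3_ac E) F).trans
    (integral_map h.measurable_gr.aemeasurable hF.aestronglyMeasurable)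
theorem Adm.integral_rho1 (h : Adm E) {F : P3 → ℝ} (hF : Measurable F) :
    ∫ x, F x * (rho E x).1 ∂(nu E)
      = ∫ p in dom (P232.rot E), F (hgt (P232.rot E) p, p.1, p.2) := by
  have := h.mu1_locFin
  have := h.nu_locFin
  exact (rn_int (mu1_ac E) F).trans
    ((integral_map measurable_cycInv.aemeasurable hF.aestronglyMeasurable).trans
    (integral_map h.rot.measurable_gr.aemeasurable
      (hF.comp measurable_cycInv).aestronglyMeasurable))
theorem Adm.integral_rho2 (h : Adm E) {F : P3 → ℝ} (hF : Measurable F) :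
    ∫ x, F x * (rho E x).2.1 ∂(nu E)
      = ∫ p in dom (P232.rot (P232.rot E)), F (p.2, hgt (P232.rot (P232.rot E)) p, p.1) := by
  have := h.mu2_locFin
  have := h.nu_locFin
  exact (rn_int (mu2_ac E) F).trans
    ((integral_map measurable_cyc.aemeasurable hF.aestronglyMeasurable).trans
    (integral_map h.rot.rot.measurable_gr.aemeasurable
      (hF.comp measurable_cyc).aestronglyMeasurable))
/-- a measurable function that is a.e. bounded on `Q` is integrable there -/
theorem Adm.integrableOn_Q (h : Adm E) {F : P3 → ℝ} (hF : Measurable F) {M : ℝ}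
    (hM : ∀ᵐ x ∂(nu E), x ∈ Q → |F x| ≤ M) : IntegrableOn F Q (nu E) :=
  integrableOn_of_bdd measurableSet_Q h.nu_Q_lt_top hF hM
theorem mu1_rot (E : Set P3) : mu1 (P232.rot E) = (mu2 E).map cyc :=
  (Measure.map_map measurable_cyc measurable_cyc).symm
theorem mu2_rot (E : Set P3) : mu2 (P232.rot E) = (mu3 E).map cyc := rfl
theorem mu3_rot (E : Set P3) : mu3 (P232.rot E) = (mu1 E).map cyc := by
  unfold mu1
  rw [Measure.map_map measurable_cyc measurable_cycInv]
  exact Measure.map_id.symm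
/-- equivariance -/
theorem Adm.nu_rot (h : Adm E) : nu (P232.rot E) = (nu E).map cyc := by
  have _ := h
  unfold nu
  rw [Measure.map_add _ _ measurable_cyc, Measure.map_add _ _ measurable_cyc, mu1_rot, mu2_rot,
    mu3_rot]
  abel
theorem Adm.rho_rot (h : Adm E) :
    ∀ᵐ x ∂(nu E), rho (P232.rot E) (cyc x) = cyc (rho E x) := by
  have := h.mu1_locFin
  have := h.mu2_locFin
  have := h.mu3_locFin
  have := h.nu_locFin
  filter_upwards [emb_cyc.rnDeriv_map (mu1 E) (nu E), emb_cyc.rnDeriv_map (mu2 E) (nu E),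
    emb_cyc.rnDeriv_map (mu3 E) (nu E)] with x h1 h2 h3
  unfold rho
  rw [h.nu_rot, mu1_rot, mu2_rot, mu3_rot, h1, h2, h3]
  rfl
theorem Adm.integral_rot (h : Adm E) (F : P3 → P3 → ℝ) (hF : Measurable (fun q : P3 × P3 => F q.1 q.2))
    {s : Set P3} (hs : MeasurableSet s) :
    ∫ y in s, F y (rho (P232.rot E) y) ∂(nu (P232.rot E))
      = ∫ x in cyc ⁻¹' s, F (cyc x) (cyc (rho E x)) ∂(nu E) := by
  have _ := hF
  have _ := hs
  rw [h.nu_rot, emb_cyc.setIntegral_map]
  refine integral_congr_ae (ae_restrict_of_ae ?_)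
  filter_upwards [h.rho_rot] with x hx
  rw [hx]
theorem cyc_preimage_Q : cyc ⁻¹' Q = Q := by
  ext x
  simp only [Q, cyc, mem_preimage, mem_prod]
  tauto
theorem cycInv_preimage_Q : cycInv ⁻¹' Q = Q := by
  ext x
  simp only [Q, cycInv, mem_preimage, mem_prod]
  tauto
theorem Adm.area_rot (h : Adm E) : area (P232.rot E) = area E := by
  have h1 := h.integral_rot (fun _ r => nrm r) (continuous_nrm.measurable.comp measurable_snd)
    measurableSet_Q
  simp only [cyc_preimage_Q, nrm_cyc] at h1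
  exact h1
theorem Adm.area_nonneg (h : Adm E) : 0 ≤ area E := by
  have _ := h
  exact integral_nonneg fun x => nrm_nonneg _
theorem Adm.mu3_Q_le (h : Adm E) : mu3 E Q ≤ 1 := by
  unfold mu3
  rw [Measure.map_apply h.measurable_gr measurableSet_Q, ← volume_sq]
  refine (Measure.restrict_le_self _).trans (measure_mono ?_)
  intro p hp
  exact ⟨hp.1, hp.2.1⟩
theorem Adm.nu_Q_le (h : Adm E) : nu E Q ≤ 3 := by
  have h1 : mu1 E Q ≤ 1 := by
    unfold mu1
    rw [Measure.map_apply measurable_cycInv measurableSet_Q, cycInv_preimage_Q]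
    exact h.rot.mu3_Q_le
  have h2 : mu2 E Q ≤ 1 := by
    unfold mu2
    rw [Measure.map_apply measurable_cyc measurableSet_Q, cyc_preimage_Q]
    exact h.rot.rot.mu3_Q_le
  unfold nu
  rw [Measure.add_apply, Measure.add_apply]
  calc mu1 E Q + mu2 E Q + mu3 E Q ≤ 1 + 1 + 1 := add_le_add (add_le_add h1 h2) h.mu3_Q_le
    _ = 3 := by norm_num
theorem Adm.area_le_three (h : Adm E) : area E ≤ 3 := by
  have h1 : ‖area E‖ ≤ 1 * (nu E).real Q := by
    refine norm_setIntegral_le_of_norm_le_const_ae h.nu_Q_lt_top (ae_restrict_of_ae ?_)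
    filter_upwards [h.wt_bounds] with x hx
    rw [Real.norm_eq_abs, abs_of_nonneg (by linarith [hx.1])]
    exact hx.2
  have h2 : (nu E).real Q ≤ 3 := by
    have := ENNReal.toReal_mono (by norm_num) h.nu_Q_le
    simpa [Measure.real] using this
  have h3 := le_abs_self (area E)
  rw [Real.norm_eq_abs] at h1
  linarith
theorem Stat.rot {lo hi : ℝ} (h : Adm E) (hs : Stat E lo hi) : Stat (P232.rot E) lo hi := by
  intro δ hδ
  obtain ⟨r, hr, h1⟩ := hs δ hδ
  refine ⟨r, hr, fun F c hF hv hc => ?_⟩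
  have hF1 : MeasurableSet (P232.rot F) := measurable_cycInv hF
  have hF2 : MeasurableSet (P232.rot (P232.rot F)) := measurable_cycInv hF1
  have hv2 : volQ (P232.rot (P232.rot F)) = volQ F := by rw [volQ_rot _ hF1, volQ_rot _ hF]
  have h2 := h1 _ c hF2 (by rwa [hv2, ← volQ_rot _ h.measurableSet]) ((hc.rot hF).rot hF1)
  rw [hv2] at h2
  rw [h.area_rot, volQ_rot _ h.measurableSet]
  exact h2
theorem Crit.rot {k : ℝ} (hc : Crit E k) : Crit (P232.rot E) k := ⟨hc.2.1, hc.2.2, hc.1⟩

end Vale.Agent.P232
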