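import Vale.Agent.P232.Basic

open MeasureTheory Set Filter Topology
open scoped ENNReal

noncomputable section
namespace Vale.Agent.P232

/-! Generic facts on Radon-Nikodym derivatives of a summand with respect to a sum. -/

section Gen
variable {α : Type*} [MeasurableSpace α] {μ ν : Measure α}

theorem locFin_add [TopologicalSpace α] (h1 : IsLocallyFiniteMeasure μ)
    (h2 : IsLocallyFiniteMeasure ν) : IsLocallyFiniteMeasure (μ + ν) := by
  refine ⟨fun x => ?_⟩
  obtain ⟨s, hs, h3⟩ := h1.finiteAtNhds x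
  obtain ⟨t, ht, h4⟩ := h2.finiteAtNhds x
  refine ⟨s ∩ t, inter_mem hs ht, ?_⟩
  rw [Measure.add_apply]
  exact ENNReal.add_lt_top.2 ⟨(measure_mono inter_subset_left).trans_lt h3,
    (measure_mono inter_subset_right).trans_lt h4⟩

theorem rn_lint [SigmaFinite μ] [SigmaFinite ν] (h : μ ≪ ν) {F : α → ℝ≥0∞} (hF : Measurable F) :
    ∫⁻ x, F x * ENNReal.ofReal (μ.rnDeriv ν x).toReal ∂ν = ∫⁻ x, F x ∂μ := by
  rw [← lintegral_rnDeriv_mul h hF.aemeasurable]
  refine lintegral_congr_ae ?_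
  filter_upwards [Measure.rnDeriv_ne_top μ ν] with x hx
  rw [ENNReal.ofReal_toReal hx, mul_comm]

theorem rn_int [SigmaFinite μ] [SigmaFinite ν] (h : μ ≪ ν) (F : α → ℝ) :
    ∫ x, F x * (μ.rnDeriv ν x).toReal ∂ν = ∫ x, F x ∂μ := by
  rw [← integral_toReal_rnDeriv_mul h]
  simp only [mul_comm]

theorem rn_setInt [SigmaFinite μ] [SigmaFinite ν] (h : μ ≪ ν) (F : α → ℝ) {s : Set α}
    (hs : MeasurableSet s) :
    ∫ x in s, F x * (μ.rnDeriv ν x).toReal ∂ν = ∫ x in s, F x ∂μ := by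
  rw [← integral_indicator hs, ← integral_indicator hs, ← rn_int h]
  congr 1
  ext x
  by_cases hx : x ∈ s <;> simp [hx]

theorem rn_sum2 [SigmaFinite μ] [SigmaFinite ν] :
    ∀ᵐ x ∂(μ + ν), (μ.rnDeriv (μ + ν) x).toReal + (ν.rnDeriv (μ + ν) x).toReal = 1 := by
  filter_upwards [Measure.rnDeriv_add' μ ν (μ + ν), Measure.rnDeriv_self (μ + ν),
    Measure.rnDeriv_ne_top μ (μ + ν), Measure.rnDeriv_ne_top ν (μ + ν)] with x h1 h2 h3 h4
  rw [← ENNReal.toReal_add h3 h4]
  rw [h2, Pi.add_apply] at h1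
  rw [← h1, ENNReal.toReal_one]

theorem rn_sum3 {κ : Measure α} [SigmaFinite μ] [SigmaFinite ν] [SigmaFinite κ] :
    ∀ᵐ x ∂(μ + ν + κ), (μ.rnDeriv (μ + ν + κ) x).toReal + (ν.rnDeriv (μ + ν + κ) x).toReal
      + (κ.rnDeriv (μ + ν + κ) x).toReal = 1 := by
  filter_upwards [rn_sum2 (μ := μ + ν) (ν := κ), Measure.rnDeriv_add' μ ν (μ + ν + κ),
    Measure.rnDeriv_ne_top μ (μ + ν + κ), Measure.rnDeriv_ne_top ν (μ + ν + κ)] with x h1 h2 h3 h4
  rw [h2, Pi.add_apply, ENNReal.toReal_add h3 h4] at h1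
  exact h1

/-- the derivative vanishes on a null set of the numerator -/
theorem rn_zero [SigmaFinite μ] [SigmaFinite ν] (h : μ ≪ ν) {s : Set α} (hs : MeasurableSet s)
    (h0 : μ s = 0) : ∀ᵐ x ∂ν, x ∈ s → (μ.rnDeriv ν x).toReal = 0 := by
  have h1 : ∫⁻ x in s, μ.rnDeriv ν x ∂ν = 0 := by rw [Measure.setLIntegral_rnDeriv h, h0]
  rw [lintegral_eq_zero_iff (Measure.measurable_rnDeriv _ _), Filter.EventuallyEq,
    ae_restrict_iff' hs] at h1
  filter_upwards [h1] with x hx hxs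
  rw [hx hxs]
  rfl

theorem ac_left (μ ν : Measure α) : μ ≪ μ + ν :=
  Measure.absolutelyContinuous_of_le (Measure.le_add_right le_rfl)

theorem ac_right (μ ν : Measure α) : ν ≪ μ + ν :=
  Measure.absolutelyContinuous_of_le (Measure.le_add_left le_rfl)

theorem integrableOn_of_bdd {s : Set α} (hs : MeasurableSet s) (hfin : μ s < ⊤) {F : α → ℝ}
    (hF : Measurable F) {M : ℝ} (hM : ∀ᵐ x ∂μ, x ∈ s → |F x| ≤ M) : IntegrableOn F s μ :=
  Measure.integrableOn_of_bounded (M := M) hfin.ne hF.aestronglyMeasurable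
    ((ae_restrict_iff' hs).2 hM)

end Gen

theorem locFin_map {α β : Type*} [MeasurableSpace α] [TopologicalSpace α] [BorelSpace α]
    [T2Space α] [MeasurableSpace β] [TopologicalSpace β] [BorelSpace β] [T2Space β]
    [WeaklyLocallyCompactSpace β] {μ : Measure α} (h : IsLocallyFiniteMeasure μ) (f : α ≃ₜ β) :
    IsLocallyFiniteMeasure (μ.map f) := by
  have := Measure.IsFiniteMeasureOnCompacts.map μ f
  infer_instance

/-- a graph over a part of the base is locally finite -/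
theorem locFin_graph {α β : Type*} [MeasurableSpace α] [TopologicalSpace α]
    [OpensMeasurableSpace α] [MeasurableSpace β] [TopologicalSpace β] [OpensMeasurableSpace β]
    (μ : Measure α) [IsLocallyFiniteMeasure μ] (s : Set α) {g : α → β} (hg : Measurable g)
    {π : β → α} (hπ : Continuous π) (hgπ : ∀ a, π (g a) = a) :
    IsLocallyFiniteMeasure ((μ.restrict s).map g) := by
  refine ⟨fun y => ?_⟩
  obtain ⟨U, hU, hUo, hUf⟩ := μ.exists_isOpen_measure_lt_top (π y)
  refine ⟨π ⁻¹' U, (hUo.preimage hπ).mem_nhds hU, ?_⟩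
  rw [Measure.map_apply hg (hUo.preimage hπ).measurableSet]
  have h1 : g ⁻¹' (π ⁻¹' U) = U := by
    ext a
    simp [hgπ]
  rw [h1]
  exact (Measure.restrict_le_self U).trans_lt hUf

end Vale.Agent.P232
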