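import Vale.Agent.P232.MeasA

open MeasureTheory Set Filter Topology
open scoped ENNReal

noncomputable section
namespace Vale.Agent.P232

variable {E : Set P3}

theorem emb_cycInv : MeasurableEmbedding cycInv := cycE.symm.measurableEmbedding

theorem Adm.ae_mu3 (h : Adm E) {P : P3 → Prop} (hP : MeasurableSet {x | P x})
    (h3 : ∀ᵐ p : P2, p ∈ dom E → P (p.1, p.2, hgt E p)) : ∀ᵐ x ∂(mu3 E), P x :=
  (ae_map_iff h.measurable_gr.aemeasurable hP).2 ((ae_restrict_iff' h.measurableSet_dom).2 h3)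

theorem Adm.ae_mu1 (h : Adm E) {P : P3 → Prop} (hP : MeasurableSet {x | P x})
    (h1 : ∀ᵐ p : P2, p ∈ dom (P232.rot E) → P (hgt (P232.rot E) p, p.1, p.2)) :
    ∀ᵐ x ∂(mu1 E), P x :=
  (ae_map_iff measurable_cycInv.aemeasurable hP).2
    (h.rot.ae_mu3 (P := fun y => P (cycInv y)) (measurable_cycInv hP) h1)

theorem Adm.ae_mu2 (h : Adm E) {P : P3 → Prop} (hP : MeasurableSet {x | P x})
    (h2 : ∀ᵐ p : P2, p ∈ dom (P232.rot (P232.rot E)) →
      P (p.2, hgt (P232.rot (P232.rot E)) p, p.1)) : ∀ᵐ x ∂(mu2 E), P x :=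
  (ae_map_iff measurable_cyc.aemeasurable hP).2
    (h.rot.rot.ae_mu3 (P := fun y => P (cyc y)) (measurable_cyc hP) h2)

theorem ae_nu {P : P3 → Prop} (h1 : ∀ᵐ x ∂(mu1 E), P x) (h2 : ∀ᵐ x ∂(mu2 E), P x)
    (h3 : ∀ᵐ x ∂(mu3 E), P x) : ∀ᵐ x ∂(nu E), P x :=
  ae_add_measure_iff.2 ⟨ae_add_measure_iff.2 ⟨h1, h2⟩, h3⟩

theorem ae_P2_ne (t : ℝ) : ∀ᵐ p : P2, p.1 ≠ t ∧ p.2 ≠ t := by
  have h0 : ∀ᵐ x : ℝ, x ≠ t := by simp [ae_iff]
  have h1 : ∀ᵐ p : P2, p.1 ≠ t := Measure.quasiMeasurePreserving_fst.ae h0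
  have h2 : ∀ᵐ p : P2, p.2 ≠ t := Measure.quasiMeasurePreserving_snd.ae h0
  exact h1.and h2

/-- null sets -/
theorem Adm.ae_rho3_eq_zero (h : Adm E) :
    ∀ᵐ x ∂(nu E), x.2.2 ∉ Ioc (0 : ℝ) 1 → (rho E x).2.2 = 0 := by
  have := h.mu3_locFin
  have := h.nu_locFin
  have hm : MeasurableSet {x : P3 | x.2.2 ∈ Ioc (0 : ℝ) 1} :=
    measurable_snd.snd measurableSet_Ioc
  refine rn_zero (mu3_ac E) hm.compl (h.ae_mu3 hm (Eventually.of_forall fun p hp => ?_))
  exact ⟨h.hgt_pos hp.1, hgt_le_one E p⟩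
theorem Adm.ae_ne_zero (h : Adm E) : ∀ᵐ x ∂(nu E), x.1 ≠ 0 ∧ x.2.1 ≠ 0 ∧ x.2.2 ≠ 0 := by
  have hm : MeasurableSet {x : P3 | x.1 ≠ 0 ∧ x.2.1 ≠ 0 ∧ x.2.2 ≠ 0} := by measurability
  refine ae_nu (h.ae_mu1 hm ?_) (h.ae_mu2 hm ?_) (h.ae_mu3 hm ?_)
  · filter_upwards [ae_P2_ne 0] with p hp hd
    exact ⟨(h.rot.hgt_pos hd.1).ne', hp.1, hp.2⟩
  · filter_upwards [ae_P2_ne 0] with p hp hd
    exact ⟨hp.2, (h.rot.rot.hgt_pos hd.1).ne', hp.1⟩
  · filter_upwards [ae_P2_ne 0] with p hp hd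
    exact ⟨hp.1, hp.2, (h.hgt_pos hd.1).ne'⟩
theorem Adm.ae_hgt_lt_one (h : Adm E) :
    ∀ᵐ p : P2, p ∈ dom E → 0 < p.1 → 0 < p.2 → hgt E p < 1 := by
  have h0 : ∀ᵐ p : P2, p ∉ frontier (P232.slice E 1) :=
    measure_eq_zero_iff_ae_notMem.1 (null_frontier2 (h.slice 1).lower)
  filter_upwards [h0] with p hp hd h1 h2
  by_contra hlt
  have he : hgt E p = 1 := le_antisymm (hgt_le_one E p) (not_lt.1 hlt)
  refine hp ⟨?_, fun hi => hd.2 (interior_subset hi)⟩
  have ht : Tendsto (fun s : ℝ => ((s * p.1, s * p.2) : P2)) (𝓝[<] 1) (𝓝 p) := by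
    have hc : Continuous (fun s : ℝ => ((s * p.1, s * p.2) : P2)) := by fun_prop
    have := (hc.tendsto 1).mono_left (nhdsWithin_le_nhds (s := Iio 1))
    simpa using this
  refine mem_closure_of_tendsto ht ?_
  filter_upwards [Ioo_mem_nhdsLT (zero_lt_one' ℝ)] with s hs
  refine h.a3.trace p.1 p.2 _ _ (mul_pos hs.1 h1) (mul_lt_of_lt_one_left h1 hs.2)
    (mul_pos hs.1 h2) (mul_lt_of_lt_one_left h2 hs.2) fun t ht => ?_
  exact (h.mem_iff_of_dom hd t).2 (he ▸ ht)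
theorem Adm.ae_ne_one (h : Adm E) :
    ∀ᵐ x ∂(nu E), 0 < x.1 → 0 < x.2.1 → 0 < x.2.2 → x.1 ≠ 1 ∧ x.2.1 ≠ 1 ∧ x.2.2 ≠ 1 := by
  have hm : MeasurableSet
      {x : P3 | 0 < x.1 → 0 < x.2.1 → 0 < x.2.2 → x.1 ≠ 1 ∧ x.2.1 ≠ 1 ∧ x.2.2 ≠ 1} := by
    measurability
  refine ae_nu (h.ae_mu1 hm ?_) (h.ae_mu2 hm ?_) (h.ae_mu3 hm ?_)
  · filter_upwards [ae_P2_ne 1, h.rot.ae_hgt_lt_one] with p hp hl hd _ h2 h3
    exact ⟨(hl hd h2 h3).ne, hp.1, hp.2⟩
  · filter_upwards [ae_P2_ne 1, h.rot.rot.ae_hgt_lt_one] with p hp hl hd h1 _ h3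
    exact ⟨hp.2, (hl hd h3 h1).ne, hp.1⟩
  · filter_upwards [ae_P2_ne 1, h.ae_hgt_lt_one] with p hp hl hd h1 h2 _
    exact ⟨hp.1, hp.2, (hl hd h1 h2).ne⟩
theorem Adm.gr_mem_frontier (h : Adm E) {p : P2} (hd : p ∈ dom E) :
    ((p.1, p.2, hgt E p) : P3) ∈ frontier E := by
  refine ⟨?_, fun hi => lt_irrefl _ ((h.mem_iff_of_dom hd _).1 (interior_subset hi))⟩
  have ht : Tendsto (fun s : ℝ => ((p.1, p.2, s) : P3)) (𝓝[<] hgt E p)
      (𝓝 (p.1, p.2, hgt E p)) := by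
    have hc : Continuous (fun s : ℝ => ((p.1, p.2, s) : P3)) := by fun_prop
    exact (hc.tendsto _).mono_left nhdsWithin_le_nhds
  refine mem_closure_of_tendsto ht ?_
  filter_upwards [self_mem_nhdsWithin] with s hs
  exact (h.mem_iff_of_dom hd s).2 hs
theorem Adm.ae_mem_frontier (h : Adm E) : ∀ᵐ x ∂(nu E), x ∈ frontier E := by
  have hm : MeasurableSet {x : P3 | x ∈ frontier E} := isClosed_frontier.measurableSet
  refine ae_nu (h.ae_mu1 hm (Eventually.of_forall fun p hd => ?_))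
    (h.ae_mu2 hm (Eventually.of_forall fun p hd => ?_))
    (h.ae_mu3 hm (Eventually.of_forall fun p hd => h.gr_mem_frontier hd))
  · have h1 := h.rot.gr_mem_frontier hd
    have h2 : cycInv ⁻¹' frontier E = frontier (P232.rot E) := cycH.symm.preimage_frontier E
    rw [← h2] at h1
    exact h1
  · have h1 := h.rot.rot.gr_mem_frontier hd
    have h2 : cyc ⁻¹' frontier E = frontier (P232.rot (P232.rot E)) := cycH.preimage_frontier E
    rw [← h2] at h1
    exact h1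
/-- planes `x3 = t` carry no horizontal normal -/
theorem Adm.ae_plane (h : Adm E) (t : ℝ) :
    ∀ᵐ x ∂(nu E), x.2.2 = t → (rho E x).1 = 0 ∧ (rho E x).2.1 = 0 := by
  have := h.mu1_locFin
  have := h.mu2_locFin
  have := h.nu_locFin
  have hm : MeasurableSet {x : P3 | x.2.2 = t} := by measurability
  have h1 : mu1 E {x : P3 | x.2.2 = t} = 0 := by
    refine measure_eq_zero_iff_ae_notMem.2 (h.ae_mu1 hm.compl ?_)
    filter_upwards [ae_P2_ne t] with p hp _ using hp.2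
  have h2 : mu2 E {x : P3 | x.2.2 = t} = 0 := by
    refine measure_eq_zero_iff_ae_notMem.2 (h.ae_mu2 hm.compl ?_)
    filter_upwards [ae_P2_ne t] with p hp _ using hp.1
  filter_upwards [rn_zero (mu1_ac E) hm h1, rn_zero (mu2_ac E) hm h2] with x h3 h4 hx
  exact ⟨h3 hx, h4 hx⟩
theorem Adm.integral_Q_mu3 (h : Adm E) {F : P3 → ℝ} (hF : Measurable F) :
    ∫ x in Q, F x ∂(mu3 E) = ∫ p in dom E ∩ sq, F (p.1, p.2, hgt E p) := by
  unfold mu3
  rw [setIntegral_map measurableSet_Q hF.aestronglyMeasurable h.measurable_gr.aemeasurable,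
    Measure.restrict_restrict (h.measurable_gr measurableSet_Q)]
  refine setIntegral_congr_set ?_
  filter_upwards [h.ae_hgt_lt_one] with p hp
  refine propext ⟨fun hx => ⟨hx.2, hx.1.1, hx.1.2.1⟩, fun hx => ⟨⟨hx.2.1, hx.2.2, ?_⟩, hx.1⟩⟩
  exact ⟨h.hgt_pos hx.1.1, hp hx.1 hx.2.1.1 hx.2.2.1⟩
/-- integrals against `rho3` over the cube -/
theorem Adm.integral_Q_rho3 (h : Adm E) {F : P3 → ℝ} (hF : Measurable F) :
    ∫ x in Q, F x * (rho E x).2.2 ∂(nu E) = ∫ p in dom E ∩ sq, F (p.1, p.2, hgt E p) := by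
  have := h.mu3_locFin
  have := h.nu_locFin
  exact (rn_setInt (mu3_ac E) F measurableSet_Q).trans (h.integral_Q_mu3 hF)
theorem Adm.integral_Q_rho1 (h : Adm E) {F : P3 → ℝ} (hF : Measurable F) :
    ∫ x in Q, F x * (rho E x).1 ∂(nu E)
      = ∫ p in dom (P232.rot E) ∩ sq, F (hgt (P232.rot E) p, p.1, p.2) := by
  have := h.mu1_locFin
  have := h.nu_locFin
  refine (rn_setInt (mu1_ac E) F measurableSet_Q).trans ?_
  unfold mu1
  rw [emb_cycInv.setIntegral_map, cycInv_preimage_Q]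
  exact h.rot.integral_Q_mu3 (hF.comp measurable_cycInv)
theorem Adm.integral_Q_rho2 (h : Adm E) {F : P3 → ℝ} (hF : Measurable F) :
    ∫ x in Q, F x * (rho E x).2.1 ∂(nu E)
      = ∫ p in dom (P232.rot (P232.rot E)) ∩ sq, F (p.2, hgt (P232.rot (P232.rot E)) p, p.1) := by
  have := h.mu2_locFin
  have := h.nu_locFin
  refine (rn_setInt (mu2_ac E) F measurableSet_Q).trans ?_
  unfold mu2
  rw [emb_cyc.setIntegral_map, cyc_preimage_Q]
  exact h.rot.rot.integral_Q_mu3 (hF.comp measurable_cyc)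
theorem Adm.alpha_eq (h : Adm E) : ∫ x in Q, (rho E x).2.2 ∂(nu E) = aa E - bb E := by
  have h1 := h.integral_Q_rho3 (F := fun _ => 1) measurable_const
  simp only [one_mul, integral_const, smul_eq_mul, mul_one, MeasurableSet.univ,
    measureReal_restrict_apply, univ_inter] at h1
  rw [h1]
  have h2 : dom E ∩ sq = (P232.slice E 0 ∩ sq) \ (P232.slice E 1 ∩ sq) := by
    ext p
    simp only [dom, mem_inter_iff, Set.mem_sdiff]
    tauto
  have h3 : P232.slice E 1 ∩ sq ⊆ P232.slice E 0 ∩ sq := by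
    refine inter_subset_inter_left _ fun p hp => h.lower ?_ hp
    exact ⟨le_rfl, le_rfl, zero_le_one⟩
  have h4 : volume (P232.slice E 0 ∩ sq) ≠ ⊤ :=
    ((measure_mono inter_subset_right).trans_lt (by rw [volume_sq]; simp)).ne
  rw [h2, measureReal_sdiff h3 ((h.slice 1).isOpen.measurableSet.inter measurableSet_sq) h4]
  rfl
theorem Adm.mm_nonneg (h : Adm E) : 0 ≤ mm E := by
  have _ := h
  exact integral_nonneg fun x => div_nonneg (sq_nonneg _) (nrm_nonneg _)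
theorem Adm.integrableOn_sq_div (h : Adm E) {f : P3 → ℝ} (hf : Measurable f)
    (hb : ∀ᵐ x ∂(nu E), |f x| ≤ 1) : IntegrableOn (fun x => f x ^ 2 / wt E x) Q (nu E) := by
  refine h.integrableOn_Q ((hf.pow_const 2).div (measurable_wt E)) (M := 2) ?_
  filter_upwards [hb, h.wt_bounds] with x h1 h2 _
  have h3 : 0 < wt E x := by linarith [h2.1]
  have h4 : f x ^ 2 ≤ 1 := by rw [← sq_abs]; nlinarith [abs_nonneg (f x)]
  rw [abs_of_nonneg (div_nonneg (sq_nonneg _) h3.le), div_le_iff₀ h3]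
  linarith [h2.1]
theorem Adm.rho_abs_le (h : Adm E) :
    ∀ᵐ x ∂(nu E), |(rho E x).1| ≤ 1 ∧ |(rho E x).2.1| ≤ 1 ∧ |(rho E x).2.2| ≤ 1 := by
  filter_upwards [h.rho_sum] with x hx
  obtain ⟨h1, h2, h3⟩ := rho_nonneg E x
  rw [abs_of_nonneg h1, abs_of_nonneg h2, abs_of_nonneg h3]
  exact ⟨by linarith, by linarith, by linarith⟩
theorem Adm.mm_rot (h : Adm E) :
    mm (P232.rot E) = ∫ x in Q, (rho E x).1 ^ 2 / wt E x ∂(nu E) := by
  have h1 := h.integral_rot (fun _ r => r.2.2 ^ 2 / nrm r)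
    ((measurable_snd.snd.snd.pow_const 2).div (continuous_nrm.measurable.comp measurable_snd))
    measurableSet_Q
  simp only [cyc_preimage_Q, nrm_cyc] at h1
  exact h1
theorem Adm.mm_rot_rot (h : Adm E) :
    mm (P232.rot (P232.rot E)) = ∫ x in Q, (rho E x).2.1 ^ 2 / wt E x ∂(nu E) := by
  have h1 := h.integral_rot (fun _ r => r.1 ^ 2 / nrm r)
    ((measurable_snd.fst.pow_const 2).div (continuous_nrm.measurable.comp measurable_snd))
    measurableSet_Q
  simp only [cyc_preimage_Q, nrm_cyc] at h1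
  rw [h.rot.mm_rot]
  exact h1
theorem Adm.mm_sum (h : Adm E) :
    mm E + mm (P232.rot E) + mm (P232.rot (P232.rot E)) = area E := by
  have i1 := h.integrableOn_sq_div (measurable_rho E).fst (h.rho_abs_le.mono fun x hx => hx.1)
  have i2 := h.integrableOn_sq_div (measurable_rho E).snd.fst
    (h.rho_abs_le.mono fun x hx => hx.2.1)
  have i3 := h.integrableOn_sq_div (measurable_rho E).snd.snd
    (h.rho_abs_le.mono fun x hx => hx.2.2)
  rw [h.mm_rot, h.mm_rot_rot]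
  unfold mm area
  rw [← integral_add i3 i1, ← integral_add (i3.fun_add i1) i2]
  refine integral_congr_ae (ae_restrict_of_ae ?_)
  filter_upwards [h.wt_bounds] with x hx
  have h3 : 0 < wt E x := by linarith [hx.1]
  have h4 : wt E x ^ 2 = (rho E x).1 ^ 2 + (rho E x).2.1 ^ 2 + (rho E x).2.2 ^ 2 :=
    Real.sq_sqrt (by positivity)
  field_simp
  linarith
theorem Adm.alpha_sq_le (h : Adm E) : (aa E - bb E) ^ 2 ≤ area E * mm E := by
  have i3 := h.integrableOn_sq_div (measurable_rho E).snd.snd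
    (h.rho_abs_le.mono fun x hx => hx.2.2)
  have i1 : IntegrableOn (fun x => (rho E x).2.2) Q (nu E) :=
    h.integrableOn_Q (measurable_rho E).snd.snd (M := 1)
      (h.rho_abs_le.mono fun x hx _ => hx.2.2)
  have i2 : IntegrableOn (wt E) Q (nu E) := by
    refine h.integrableOn_Q (measurable_wt E) (M := 1) (h.wt_bounds.mono fun x hx _ => ?_)
    rw [abs_of_nonneg (by linarith [hx.1])]
    exact hx.2
  have key : ∀ l : ℝ, 0 ≤ area E * (l * l) + (-2 * (aa E - bb E)) * l + mm E := by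
    intro l
    have j2 := i2.mul_const (l * l)
    have j1 := (i1.const_mul (-2)).mul_const l
    rw [← h.alpha_eq]
    unfold area mm
    rw [← integral_mul_const, ← integral_const_mul, ← integral_mul_const, ← integral_add j2 j1,
      ← integral_add (j2.fun_add j1) i3]
    refine integral_nonneg_of_ae (ae_restrict_of_ae ?_)
    filter_upwards [h.wt_bounds] with x hx
    have h3 : 0 < wt E x := by linarith [hx.1]
    have h4 : wt E x * (l * l) + -2 * (rho E x).2.2 * l + (rho E x).2.2 ^ 2 / wt E x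
        = ((rho E x).2.2 - l * wt E x) ^ 2 / wt E x := by
      field_simp
      ring
    show 0 ≤ wt E x * (l * l) + -2 * (rho E x).2.2 * l + (rho E x).2.2 ^ 2 / wt E x
    rw [h4]
    positivity
  have h5 := discrim_le_zero key
  unfold discrim at h5
  nlinarith

end Vale.Agent.P232
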