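import Vale.Agent.P232.PerInt

open MeasureTheory Set Filter Topology
open scoped ENNReal Convolution

noncomputable section
namespace Vale.Agent.P232

/-! Task: a bounded measurable function with zero weak gradient on an open convex set is a.e. constant
(mollify; the mollification has zero derivative on the convex set of points at distance `> δ` from the
complement; a.e. convergence). -/

/-- the mollification has zero derivative at points well inside `U` -/
theorem stConst_deriv {U : Set P2} {f : P2 → ℝ} (hg : LocallyIntegrable (U.indicator f) volume)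
    (hw : ∀ χ : P2 → ℝ, ContDiff ℝ 1 χ → HasCompactSupport χ → tsupport χ ⊆ U →
      ∀ v : P2, ∫ p, f p * fderiv ℝ χ p v = 0)
    (φ : ContDiffBump (0 : P2)) (x : P2) (hx : Metric.closedBall x φ.rOut ⊆ U) :
    HasFDerivAt (φ.normed volume ⋆[ContinuousLinearMap.lsmul ℝ ℝ, volume] U.indicator f)
      (0 : P2 →L[ℝ] ℝ) x := by
  set ψ : P2 → ℝ := φ.normed volume with hψ
  have hψc : HasCompactSupport ψ := φ.hasCompactSupport_normed
  have hψd : ContDiff ℝ 1 ψ := φ.contDiff_normed
  rw [← convolution_flip]
  have h1 := hψc.hasFDerivAt_convolution_right (ContinuousLinearMap.lsmul ℝ ℝ).flip hg hψd x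
  have h0 : (U.indicator f ⋆[ContinuousLinearMap.precompR P2
      (ContinuousLinearMap.lsmul ℝ ℝ).flip, volume] fderiv ℝ ψ) x = 0 := by
    refine ContinuousLinearMap.ext fun v => ?_
    rw [convolution_precompR_apply _ hg (hψc.fderiv ℝ) (hψd.continuous_fderiv one_ne_zero),
      convolution_def]
    set χ : P2 → ℝ := fun t => ψ (x - t) with hχ
    have hχd : ContDiff ℝ 1 χ := hψd.comp (contDiff_const.sub contDiff_id)
    have hsup : tsupport χ ⊆ Metric.closedBall x φ.rOut := by
      refine closure_minimal ?_ Metric.isClosed_closedBall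
      intro t ht
      have h2 : x - t ∈ Function.support ψ := ht
      rw [hψ, φ.support_normed_eq, mem_ball_zero_iff] at h2
      rw [Metric.mem_closedBall, dist_eq_norm_sub']
      exact h2.le
    have hχc : HasCompactSupport χ :=
      (isCompact_closedBall x φ.rOut).of_isClosed_subset (isClosed_tsupport χ) hsup
    have hder : ∀ t, fderiv ℝ χ t (-v) = fderiv ℝ ψ (x - t) v := by
      intro t
      have h3 : HasFDerivAt χ ((fderiv ℝ ψ (x - t)).comp (-ContinuousLinearMap.id ℝ P2)) t := by
        have h4 : HasFDerivAt (fun s : P2 => x - s) (-ContinuousLinearMap.id ℝ P2) t :=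
          (hasFDerivAt_id t).const_sub x
        exact ((hψd.differentiable one_ne_zero) (x - t)).hasFDerivAt.comp t h4
      rw [h3.fderiv]
      simp
    have h5 := hw χ hχd hχc (hsup.trans hx) (-v)
    rw [zero_apply, ← h5]
    refine integral_congr_ae (Eventually.of_forall fun t => ?_)
    simp only [ContinuousLinearMap.flip_apply, ContinuousLinearMap.lsmul_apply, smul_eq_mul]
    rw [← hder t]
    by_cases ht : t ∈ U
    · rw [indicator_of_mem ht, mul_comm]
    · have h6 : t ∉ tsupport χ := fun h => ht (hx (hsup h))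
      have h7 : fderiv ℝ χ t = 0 := by
        by_contra h8
        exact h6 (support_fderiv_subset ℝ h8)
      simp [h7]
  rwa [h0] at h1

theorem ae_const_of_weak_grad {U : Set P2} (hU : IsOpen U) (hc : Convex ℝ U) {f : P2 → ℝ}
    (hf : Measurable f) {M : ℝ} (hM : ∀ᵐ p : P2, p ∈ U → |f p| ≤ M)
    (hw : ∀ χ : P2 → ℝ, ContDiff ℝ 1 χ → HasCompactSupport χ → tsupport χ ⊆ U →
      ∀ v : P2, ∫ p, f p * fderiv ℝ χ p v = 0) :
    ∃ c : ℝ, ∀ᵐ p : P2, p ∈ U → f p = c := by
  have hg : LocallyIntegrable (U.indicator f) volume := by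
    refine (locallyIntegrable_const |M|).mono (hf.indicator hU.measurableSet).aestronglyMeasurable ?_
    filter_upwards [hM] with p hp
    by_cases h : p ∈ U
    · rw [indicator_of_mem h, Real.norm_eq_abs, Real.norm_eq_abs, abs_abs]
      exact (hp h).trans (le_abs_self M)
    · rw [indicator_of_notMem h]
      simp
  let φ : ℕ → ContDiffBump (0 : P2) := fun i =>
    ⟨1 / ((i : ℝ) + 1) / 2, 1 / ((i : ℝ) + 1), by positivity, by
      have : (0 : ℝ) < 1 / ((i : ℝ) + 1) := by positivity
      linarith⟩
  have hφ : Tendsto (fun i => (φ i).rOut) atTop (𝓝 0) := tendsto_one_div_add_atTop_nhds_zero_nat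
  have hφ' : ∀ᶠ i in atTop, (φ i).rOut ≤ 2 * (φ i).rIn :=
    Eventually.of_forall fun i => by
      show 1 / ((i : ℝ) + 1) ≤ 2 * (1 / ((i : ℝ) + 1) / 2)
      linarith
  have hae := ContDiffBump.ae_convolution_tendsto_right_of_locallyIntegrable hφ hφ' hg
  have key : ∀ x ∈ U, ∀ y ∈ U, ∀ᶠ i in atTop,
      ((φ i).normed volume ⋆[ContinuousLinearMap.lsmul ℝ ℝ, volume] U.indicator f) x =
      ((φ i).normed volume ⋆[ContinuousLinearMap.lsmul ℝ ℝ, volume] U.indicator f) y := by
    intro x hx y hy
    have hseg : segment ℝ x y ⊆ U := hc.segment_subset hx hy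
    have hcpt : IsCompact (segment ℝ x y) := by
      rw [segment_eq_image]
      exact isCompact_Icc.image (by fun_prop)
    obtain ⟨δ, hδ, hδU⟩ := hcpt.exists_cthickening_subset_open hU hseg
    filter_upwards [hφ.eventually (gt_mem_nhds hδ)] with i hi
    have hd : ∀ z ∈ segment ℝ x y, HasFDerivWithinAt
        ((φ i).normed volume ⋆[ContinuousLinearMap.lsmul ℝ ℝ, volume] U.indicator f)
        ((fun _ => (0 : P2 →L[ℝ] ℝ)) z) (segment ℝ x y) z := by
      intro z hz
      refine (stConst_deriv hg hw (φ i) z ?_).hasFDerivWithinAt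
      exact ((Metric.closedBall_subset_closedBall hi.le).trans
        (Metric.closedBall_subset_cthickening hz δ)).trans hδU
    have := (convex_segment x y).norm_image_sub_le_of_norm_hasFDerivWithin_le (C := 0) hd
      (fun z _ => by simp) (right_mem_segment ℝ x y) (left_mem_segment ℝ x y)
    rw [zero_mul, norm_le_zero_iff, sub_eq_zero] at this
    exact this
  by_cases hex : ∃ x ∈ U, Tendsto (fun i =>
      ((φ i).normed volume ⋆[ContinuousLinearMap.lsmul ℝ ℝ, volume] U.indicator f) x) atTop
      (𝓝 (U.indicator f x))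
  · obtain ⟨x, hx, hxt⟩ := hex
    refine ⟨f x, ?_⟩
    filter_upwards [hae] with y hy hyU
    have h1 := hxt.congr' (key x hx y hyU)
    have h2 := tendsto_nhds_unique hy h1
    rwa [indicator_of_mem hyU, indicator_of_mem hx] at h2
  · refine ⟨0, ?_⟩
    filter_upwards [hae] with y hy hyU
    exact absurd ⟨y, hyU, hy⟩ hex

end Vale.Agent.P232
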