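import Vale.Agent.P232.StEqB
import Vale.Agent.P232.StConst

open MeasureTheory Set Filter Topology
open scoped ENNReal

noncomputable section
namespace Vale.Agent.P232

/-! Task: equality case of Steiner symmetrisation for the standard sets.
Translate so that `c₁ = c₂ = 0`.  If `k₃ = 0`, `sec G ∈ {0,1}` a.e. and `G = stein G` a.e.  If `k₃ = 1`,
`φ = sec G = √(R² - k₁x² - k₂y²)₊` a.e. on `box2`, `Ω = {φ > 0}`.  Fields `a = (k₁ x, k₂ y) θ / R`, `b = χ φ / R`
(cut-offs; sup norm `≤ 1 + δ`) are asymptotically sharp in `steinA`: by Fatou `liminf tv = 2` a.e. on `Ω`, so a.e.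
section is an arc (`arc_of_tv`) with centre `m(p)`.  Then test with
`Z = (a + τ κ(z) ζ, (b - τ κ(z) (a·ζ)/b) ψ)`, `ψ` from `exists_psi`, `κ = cos(π z)` or `sin(π z)`, `ζ` compactly supported where
`χ = 1`: `nrm Z ≤ 1 + δ + C τ²`; letting `δ, ε → 0` and then `τ → 0±` gives that `cos(π m)`, `sin(π m)`
(which are `∫_{section} κ / ((2/π) sin(π φ))`, hence measurable) have zero weak gradient on
`U = {k₁x² + k₂y² < R²} ∩ box2` (open, convex; periodise `ζ` by `exists_periodic_ext2`).  -/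

theorem stq_mp (a : P3) : MeasurePreserving (fun x : P3 => x + a) volume volume :=
  (measurePreserving_add_right (volume : Measure ℝ) a.1).prod
    ((measurePreserving_add_right (volume : Measure ℝ) a.2.1).prod
      (measurePreserving_add_right (volume : Measure ℝ) a.2.2))

theorem stq_d2_lt : ∀ᵐ t : ℝ, d2 t < 1 := by
  filter_upwards [pb_ae] with t ht
  unfold d2
  have e : t - 2 * (round (t / 2) : ℝ) = t + 2 * ((-round (t / 2) : ℤ) : ℝ) := by push_cast; ring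
  rw [e]
  exact ht

theorem stq_fin (S : Set ℝ) : volume (S ∩ Ioo (-1 : ℝ) 1) ≠ ∞ :=
  ne_top_of_le_ne_top (by simp) (measure_mono inter_subset_right)

theorem stq_full {G : Set P3} (hG : MeasurableSet G) {p : P2} (h : sec G p = 1) :
    ∀ᵐ z : ℝ, z ∈ Ioo (-1 : ℝ) 1 → ((p.1, p.2, z) : P3) ∈ G := by
  have e := sqa_sec_eq G p
  rw [h] at e
  have e2 : volume (Ioo (-1 : ℝ) 1) ≤ volume ({z : ℝ | ((p.1, p.2, z) : P3) ∈ G} ∩ Ioo (-1) 1) := by
    rw [← ENNReal.ofReal_toReal (stq_fin _), e, Real.volume_Ioo]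
    norm_num
  have e3 := ae_eq_of_subset_of_measure_ge inter_subset_right e2
    ((sqa_sec_meas hG p).inter measurableSet_Ioo).nullMeasurableSet (by simp)
  filter_upwards [e3] with z hz hz'
  exact (hz.mpr hz').1

theorem stq_empty {G : Set P3} {p : P2} (h : sec G p = 0) :
    ∀ᵐ z : ℝ, z ∈ Ioo (-1 : ℝ) 1 → ((p.1, p.2, z) : P3) ∉ G := by
  have e := sqa_sec_eq G p
  rw [h, mul_zero, ENNReal.toReal_eq_zero_iff] at e
  filter_upwards [measure_eq_zero_iff_ae_notMem.1 (e.resolve_right (stq_fin _))] with z hz h1 h2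
  exact hz ⟨h2, h1⟩

theorem stq_glue {G H : Set P3} (hG : PerSet G) (hH : PerSet H)
    (h : ∀ᵐ p : P2, p ∈ box2 → ∀ᵐ z : ℝ, z ∈ Ioo (-1 : ℝ) 1 →
      (((p.1, p.2, z) : P3) ∈ G ↔ ((p.1, p.2, z) : P3) ∈ H)) : ∀ᵐ x : P3, (x ∈ G ↔ x ∈ H) := by
  refine ae_of_ae_box (P := fun x => x ∈ G ↔ x ∈ H) ⟨fun x => ?_, fun x => ?_, fun x => ?_⟩ ?_
  · have a := hG.2.1 x
    have b := hH.2.1 x
    simp only at a b ⊢
    rw [a, b]
  · have a := hG.2.2.1 x
    have b := hH.2.2.1 x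
    simp only at a b ⊢
    rw [a, b]
  · have a := hG.2.2.2 x
    have b := hH.2.2.2 x
    simp only at a b ⊢
    rw [a, b]
  · rw [ae_restrict_iff' measurableSet_box]
    refine sqa_ae_of_sec (P := fun x => x ∈ box → (x ∈ G ↔ x ∈ H)) ?_ ?_
    · exact MeasurableSet.imp measurableSet_box (MeasurableSet.iff hG.1 hH.1)
    · filter_upwards [h] with p hp
      by_cases hb : p ∈ box2
      · filter_upwards [hp hb] with z hz hx
        exact hz hx.2.2
      · exact ae_of_all _ fun z hx => absurd ⟨hx.1, hx.2.1⟩ hb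

theorem stq_angle (c₀ c₁ : ℝ) : ∃ m₀ : ℝ, ∀ m : ℝ, Real.cos (Real.pi * (m - 0)) = c₀ →
    Real.cos (Real.pi * (m - 1 / 2)) = c₁ → ∀ z, d2 (z - m) = d2 (z - m₀) := by
  by_cases h : ∃ m : ℝ, Real.cos (Real.pi * (m - 0)) = c₀ ∧ Real.cos (Real.pi * (m - 1 / 2)) = c₁
  · obtain ⟨m₀, a, b⟩ := h
    refine ⟨m₀, fun m a' b' z => ?_⟩
    have s : ∀ t : ℝ, Real.cos (Real.pi * (t - 1 / 2)) = Real.sin (Real.pi * t) := fun t => by
      rw [← Real.cos_sub_pi_div_two]; congr 1; ring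
    rw [s] at b b'
    rw [sub_zero] at a a'
    have e : Real.cos (Real.pi * m - Real.pi * m₀) = 1 := by
      rw [Real.cos_sub, a', b', ← a, ← b]
      nlinarith [Real.cos_sq_add_sin_sq (Real.pi * m₀)]
    obtain ⟨n, hn⟩ := (Real.cos_eq_one_iff _).1 e
    have e2 : m = m₀ + n * 2 := by
      have : Real.pi * (m - (m₀ + n * 2)) = 0 := by linear_combination -hn
      rcases mul_eq_zero.1 this with h | h
      · exact absurd h Real.pi_ne_zero
      · linarith
    have hp : Function.Periodic d2 2 := d2_add_two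
    rw [e2, ← (hp.int_mul n) (z - (m₀ + n * 2))]
    congr 1
    ring
  · exact ⟨0, fun m a b => absurd ⟨m, a, b⟩ h⟩

theorem stq_core {G : Set P3} (hG : PerSet G) {k : P3} (hk : KOk k) {R : ℝ} (h0 : 0 < R) (h1 : R < 1)
    (hS : ∀ᵐ x : P3, (x ∈ stein G ↔ x ∈ std k 0 R))
    (hP : PerLe G ((k.1 + k.2.1 + k.2.2) * volB (std k 0 R) / R)) :
    ∃ c₃ : ℝ, ∀ᵐ x : P3, (x ∈ G ↔ x ∈ std k (0, 0, c₃) R) := by
  rcases hk.2.2.1 with h3 | h3
  · refine ⟨0, stq_glue hG (perSet_std _ _ _) ?_⟩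
    filter_upwards [sqa_ae_sec hS] with p hp _
    have e : ∀ z z' : ℝ, ((p.1, p.2, z) : P3) ∈ std k 0 R ↔ ((p.1, p.2, z') : P3) ∈ std k 0 R := by
      intro z z'
      simp [std, h3]
    by_cases hm : ((p.1, p.2, 0) : P3) ∈ std k 0 R
    · have s : sec G p = 1 := by
        refine sqa_d2_eq (sec_nonneg G p) (sec_le_one G p) zero_le_one le_rfl ?_
        filter_upwards [hp, stq_d2_lt] with z hz hz'
        exact iff_of_true (hz.2 ((e _ _).1 hm)) hz'
      filter_upwards [stq_full hG.1 s] with z hz hz'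
      exact iff_of_true (hz hz') ((e _ _).1 hm)
    · have s : sec G p = 0 := by
        refine sqa_d2_eq (sec_nonneg G p) (sec_le_one G p) le_rfl zero_le_one ?_
        filter_upwards [hp] with z hz
        exact iff_of_false (fun h => hm ((e _ _).1 (hz.1 h))) (not_lt.2 (d2_nonneg z))
      filter_upwards [stq_empty s] with z hz hz'
      exact iff_of_false (hz hz') fun h => hm ((e _ _).1 h)
  · have harc := ae_arc hG hk h3 h0 h1 hS hP
    have hconst : ∀ s : ℝ, ∃ c : ℝ, ∀ᵐ p : P2, p ∈ Ubase k R → fmom G k R s p = c := fun s => by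
      refine ae_const_of_weak_grad (isOpen_Ubase k R) (convex_Ubase hk R) (measurable_fmom hG.1 k R s)
        (M := 1) ?_ fun χ hχ hc hU v => fmom_weak_grad hG hk h3 h0 h1 hS hP s hχ hc hU v
      filter_upwards [harc] with p hp hU
      obtain ⟨m, hm⟩ := hp hU
      rw [fmom_of_arc hk h0 h1 s hU hm]
      exact Real.abs_cos_le_one _
    obtain ⟨c₀, hc₀⟩ := hconst 0
    obtain ⟨c₁, hc₁⟩ := hconst (1 / 2)
    obtain ⟨m₀, hm₀⟩ := stq_angle c₀ c₁
    refine ⟨m₀, stq_glue hG (perSet_std _ _ _) ?_⟩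
    have hsec := (ae_restrict_iff' measurableSet_box2).1 (sec_eq_phi0 hG hk h3 h0 h1 hS)
    filter_upwards [harc, hc₀, hc₁, hsec] with p hp a b s hb
    by_cases hU : p ∈ Ubase k R
    · obtain ⟨m, hm⟩ := hp hU
      have a' := a hU
      have b' := b hU
      rw [fmom_of_arc hk h0 h1 _ hU hm] at a' b'
      filter_upwards [hm] with z hz _
      rw [sqa_mem_std h3 hb, ← hm₀ m a' b' z]
      exact hz
    · have z0 : phi0 k R p = 0 := phi0_zero (not_lt.1 fun h => hU ⟨hb, h⟩)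
      filter_upwards [stq_empty ((s hb).trans z0)] with z hz hz'
      rw [sqa_mem_std h3 hb, z0]
      exact iff_of_false (hz hz') (not_lt.2 (d2_nonneg _))

theorem stein_eq {G : Set P3} (hG : PerSet G) {k : P3} (hk : KOk k) {R : ℝ} (h0 : 0 < R) (h1 : R < 1)
    (c₁ c₂ : ℝ) (hS : ∀ᵐ x : P3, (x ∈ stein G ↔ x ∈ std k (c₁, c₂, 0) R))
    (hP : PerLe G ((k.1 + k.2.1 + k.2.2) * volB (std k 0 R) / R)) :
    ∃ c₃ : ℝ, ∀ᵐ x : P3, (x ∈ G ↔ x ∈ std k (c₁, c₂, c₃) R) := by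
  set a : P3 := (c₁, c₂, 0) with ha
  have hG' := hG.translate a
  have hS' : ∀ᵐ x : P3, (x ∈ stein ((fun x => x + a) ⁻¹' G) ↔ x ∈ std k 0 R) := by
    filter_upwards [(stq_mp a).quasiMeasurePreserving.ae hS]
      with x hx
    rw [← std_translate k a R]
    refine Iff.trans ?_ hx
    have e : sec ((fun x => x + a) ⁻¹' G) (x.1, x.2.1) = sec G ((x + a).1, (x + a).2.1) := by
      simp [sec, ha]
    change d2 x.2.2 < _ ↔ d2 (x + a).2.2 < _
    rw [e]
    simp [ha]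
  obtain ⟨c₃, hc⟩ := stq_core hG' hk h0 h1 hS' (hP.translate hG a)
  refine ⟨c₃, ?_⟩
  filter_upwards [(stq_mp (-a)).quasiMeasurePreserving.ae hc]
    with x hx
  have e1 : x + -a ∈ (fun x => x + a) ⁻¹' G ↔ x ∈ G := by simp
  have e2 : x + -a ∈ std k (0, 0, c₃) R ↔ x ∈ std k (c₁, c₂, c₃) R := by
    simp [std, ha, sub_eq_add_neg]
  rw [← e1, ← e2]
  exact hx


end Vale.Agent.P232
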