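import Vale.Agent.P232.Barrier
import Vale.Agent.P232.StEq

open MeasureTheory Set Filter Topology
open scoped ENNReal

noncomputable section
namespace Vale.Agent.P232

/-! The theorem on the torus of side 2. -/

theorem jc_le_per {G : Set P3} {c : ℝ} (hG : PerSet G) (hP : PerLe G c) : 8 * Jc (volB G / 8) ≤ c := by
  obtain ⟨hA, hv, ha, -⟩ := sym_spec hG hP
  have := jc_le_area hA
  have e : volB G / 8 = volQ (ext (sym G)) := by linarith
  rw [e]; linarith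

theorem ae_rot {A B : Set P3} (h : ∀ᵐ x : P3, (x ∈ A ↔ x ∈ B)) : ∀ᵐ x : P3, (x ∈ rot A ↔ x ∈ rot B) :=
  measurePreserving_cycInv.quasiMeasurePreserving.ae h

theorem stein_eq' {H : Set P3} (hH : PerSet H) (hP : PerLe H (8 * Jc (volB H / 8))) {k : P3}
    (hk : KOk k) {R : ℝ} (h0 : 0 < R) (h1 : R < 1) (c₁ c₂ : ℝ)
    (hS : ∀ᵐ x : P3, (x ∈ stein H ↔ x ∈ std k (c₁, c₂, 0) R)) :
    ∃ c₃ : ℝ, ∀ᵐ x : P3, (x ∈ H ↔ x ∈ std k (c₁, c₂, c₃) R) := by
  refine stein_eq hH hk h0 h1 c₁ c₂ hS fun Z hZ hb hp => (hP Z hZ hb hp).trans ?_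
  have e : volB (std k 0 R) = volB H := by
    rw [← std_translate k (c₁, c₂, 0) R, volB_translate (perSet_std _ _ _), ← volB_congr hS,
      volB_stein hH]
  have := jc_le_per (perSet_std k 0 R) (perLe_std hk 0 h0 h1)
  rw [← e]; exact this

theorem std_of_per {G : Set P3} (hG : PerSet G) (h0 : 0 < volB G) (h1 : volB G ≤ 4)
    (hP : PerLe G (8 * Jc (volB G / 8))) :
    ∃ (k c : P3) (R : ℝ), KOk k ∧ 0 < R ∧ R < 1 ∧ ∀ᵐ x : P3, (x ∈ G ↔ x ∈ std k c R) := by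
  obtain ⟨hA, hv, ha, hae⟩ := sym_spec hG hP
  have e : volB G / 8 = volQ (ext (sym G)) := by linarith
  obtain ⟨k, R, hk, hR0, hR1, hstd⟩ :=
    isStd_of_area_le hA (by linarith) (by linarith) (by rw [← e]; linarith)
  have h3 : ∀ᵐ x : P3, (x ∈ sym G ↔ x ∈ std k (0, 0, 0) R) := by
    have := refl_congr hstd
    rw [refl_std] at this
    filter_upwards [hae, this] with x a b using a.trans b
  have p1 := perSet_stein hG
  have q1 := hP.stein hG
  have v1' : volB (rot (stein G)) = volB G := by rw [volB_rot _ p1.1, volB_stein hG]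
  have r1 := q1.rot p1.1
  have p2 := perSet_stein p1.rot
  have q2 := r1.stein p1.rot
  have v2' : volB (rot (stein (rot (stein G)))) = volB G := by
    rw [volB_rot _ p2.1, volB_stein p1.rot, v1']
  have r2 := q2.rot p2.1
  obtain ⟨c₃, hc₃⟩ := stein_eq' p2.rot (by rw [v2']; exact r2) hk hR0 hR1 0 0 h3
  have s2 := ae_rot (ae_rot hc₃)
  rw [rot_rot_rot, rot_std, rot_std] at s2
  obtain ⟨c₂, hc₂⟩ := stein_eq' p1.rot (by rw [v1']; exact r1) hk.cyc.cyc hR0 hR1 c₃ 0 s2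
  have s1 := ae_rot (ae_rot hc₂)
  rw [rot_rot_rot, rot_std, rot_std] at s1
  obtain ⟨c₁, hc₁⟩ := stein_eq' hG hP hk.cyc.cyc.cyc.cyc hR0 hR1 c₂ c₃ s1
  exact ⟨_, _, R, hk.cyc.cyc.cyc.cyc, hR0, hR1, hc₁⟩

end Vale.Agent.P232
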