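import Vale.Agent.P232.Basic

open MeasureTheory Set Filter Topology
open scoped ENNReal

noncomputable section
namespace Vale.Agent.P232

/-! Task: integrals of periodic functions over the fundamental box. -/

/-- reduction modulo 2 into `(-1, 1]` -/
def PIA.red (t : ℝ) : ℝ := t - (⌈(t - 1) / 2⌉ : ℤ) • (2 : ℝ)

theorem PIA.red_meas : Measurable PIA.red := by
  unfold PIA.red
  simp only [zsmul_eq_mul]
  exact measurable_id.sub ((measurable_from_top.comp
    (Int.measurable_ceil.comp ((measurable_id.sub_const 1).div_const 2))).mul_const 2)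

theorem PIA.red_add (t : ℝ) (k : ℤ) : PIA.red (k • (2 : ℝ) + t) = PIA.red t := by
  unfold PIA.red
  have e : (k • (2 : ℝ) + t - 1) / 2 = (t - 1) / 2 + k := by
    rw [zsmul_eq_mul]
    ring
  rw [e, Int.ceil_add_intCast, add_zsmul]
  ring

theorem PIA.red_self {t : ℝ} (ht : t ∈ Ioc (-1 : ℝ) 1) : PIA.red t = t := by
  unfold PIA.red
  have e : ⌈(t - 1) / 2⌉ = 0 := by
    rw [Int.ceil_eq_iff]
    constructor
    · push_cast
      linarith [ht.1]
    · push_cast
      linarith [ht.2]
  rw [e, zero_zsmul, sub_zero]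

theorem PIA.mp (c : ℝ) : MeasurePreserving (fun t => PIA.red (t + c))
    (volume.restrict (Ioo (-1 : ℝ) 1)) (volume.restrict (Ioo (-1 : ℝ) 1)) := by
  rw [restrict_Ioo_eq_restrict_Ioc]
  have hm : Measurable fun t => PIA.red (t + c) := PIA.red_meas.comp (measurable_add_const c)
  refine ⟨hm, Measure.ext fun s hs => ?_⟩
  set f : ℝ → ℝ≥0∞ := fun t => s.indicator 1 (PIA.red t) with hf
  have fm : Measurable f := (measurable_one.indicator hs).comp PIA.red_meas
  have h1 : (volume.restrict (Ioc (-1 : ℝ) 1)).map (fun t => PIA.red (t + c)) s =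
      ∫⁻ t in Ioc (-1 : ℝ) 1, f (t + c) := by
    rw [← lintegral_indicator_one hs, lintegral_map (measurable_one.indicator hs) hm]
  have h2 : ∫⁻ t in Ioc (-1 : ℝ) 1, f (t + c) = ∫⁻ t in Ioc (-1 + c) (-1 + c + 2), f t := by
    have e : Ioc (-1 : ℝ) 1 = (fun t => t + c) ⁻¹' Ioc (-1 + c) (-1 + c + 2) := by
      ext t
      simp only [mem_Ioc, mem_preimage]
      constructor <;> rintro ⟨a, b⟩ <;> constructor <;> linarith
    rw [e]
    exact (measurePreserving_add_right volume c).setLIntegral_comp_preimage measurableSet_Ioc fm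
  have h3 : ∫⁻ t in Ioc (-1 + c) (-1 + c + 2), f t = ∫⁻ t in Ioc (-1 : ℝ) (-1 + 2), f t := by
    refine (isAddFundamentalDomain_Ioc two_pos (-1 + c) volume).setLIntegral_eq
      (isAddFundamentalDomain_Ioc two_pos (-1) volume) f ?_
    rintro ⟨_, k, rfl⟩ t
    exact congrArg (s.indicator 1) (PIA.red_add t k)
  rw [h1, h2, h3, show (-1 : ℝ) + 2 = 1 by norm_num, ← lintegral_indicator_one hs]
  refine setLIntegral_congr_fun measurableSet_Ioc fun t ht => ?_
  simp only [hf, PIA.red_self ht]

theorem integral_box_add {F : P3 → ℝ} (hF : Measurable F) (hp : Periodic3 F) (c : P3) :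
    ∫ x in box, F (x + c) = ∫ x in box, F x := by
  have mp := (PIA.mp c.1).prod ((PIA.mp c.2.1).prod (PIA.mp c.2.2))
  rw [Measure.prod_restrict, Measure.prod_restrict] at mp
  have e := integral_map mp.aemeasurable (f := F) hF.aestronglyMeasurable
  rw [mp.map_eq] at e
  refine Eq.trans (integral_congr_ae (Eventually.of_forall fun x => ?_)) e.symm
  have h1 : Function.Periodic F (2, 0, 0) := hp.1
  have h2 : Function.Periodic F (0, 2, 0) := hp.2.1
  have h3 : Function.Periodic F (0, 0, 2) := hp.2.2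
  simp only
  rw [← h1.sub_zsmul_eq ⌈(x.1 + c.1 - 1) / 2⌉, ← h2.sub_zsmul_eq ⌈(x.2.1 + c.2.1 - 1) / 2⌉,
    ← h3.sub_zsmul_eq ⌈(x.2.2 + c.2.2 - 1) / 2⌉]
  congr 1
  ext <;> simp [PIA.red]

theorem integral_box2_add {F : P2 → ℝ} (hF : Measurable F) (hp : Periodic2 F) (c : P2) :
    ∫ x in box2, F (x + c) = ∫ x in box2, F x := by
  have mp := (PIA.mp c.1).prod (PIA.mp c.2)
  rw [Measure.prod_restrict] at mp
  have e := integral_map mp.aemeasurable (f := F) hF.aestronglyMeasurable
  rw [mp.map_eq] at e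
  refine Eq.trans (integral_congr_ae (Eventually.of_forall fun x => ?_)) e.symm
  have h1 : Function.Periodic F (2, 0) := hp.1
  have h2 : Function.Periodic F (0, 2) := hp.2
  simp only
  rw [← h1.sub_zsmul_eq ⌈(x.1 + c.1 - 1) / 2⌉, ← h2.sub_zsmul_eq ⌈(x.2 + c.2 - 1) / 2⌉]
  congr 1
  ext <;> simp [PIA.red]

theorem integral_Ioo_add {F : ℝ → ℝ} (hF : Measurable F) (hp : ∀ t, F (t + 2) = F t) (c : ℝ) :
    ∫ t in Ioo (-1 : ℝ) 1, F (t + c) = ∫ t in Ioo (-1 : ℝ) 1, F t := by
  have mp := PIA.mp c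
  have e := integral_map mp.aemeasurable (f := F) hF.aestronglyMeasurable
  rw [mp.map_eq] at e
  refine Eq.trans (integral_congr_ae (Eventually.of_forall fun x => ?_)) e.symm
  have h1 : Function.Periodic F 2 := hp
  simp only
  rw [← h1.sub_zsmul_eq ⌈(x + c - 1) / 2⌉]
  rfl

theorem PIA.fderiv_per {E V : Type*} [NormedAddCommGroup E] [NormedSpace ℝ E]
    [NormedAddCommGroup V] [NormedSpace ℝ V] {Z : E → V} {a : E} (h : ∀ x, Z (x + a) = Z x)
    (x : E) : fderiv ℝ Z (x + a) = fderiv ℝ Z x := by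
  rw [← fderiv_comp_add_right, funext h]

theorem Periodic3.fderiv {V : Type*} [NormedAddCommGroup V] [NormedSpace ℝ V] {Z : P3 → V}
    (hp : Periodic3 Z) : Periodic3 (fderiv ℝ Z) :=
  ⟨PIA.fderiv_per hp.1, PIA.fderiv_per hp.2.1, PIA.fderiv_per hp.2.2⟩

theorem Periodic2.fderiv {V : Type*} [NormedAddCommGroup V] [NormedSpace ℝ V] {Z : P2 → V}
    (hp : Periodic2 Z) : Periodic2 (fderiv ℝ Z) :=
  ⟨PIA.fderiv_per hp.1, PIA.fderiv_per hp.2⟩

theorem PIA.ftc {E : Type*} [NormedAddCommGroup E] [NormedSpace ℝ E] [MeasurableSpace E]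
    [BorelSpace E] [SecondCountableTopology E] (μ : Measure E) [IsFiniteMeasureOnCompacts μ]
    [SFinite μ] {B K : Set E} (hK : IsCompact K) (hB : B ⊆ K) {f : E → ℝ} (hf : ContDiff ℝ 1 f)
    (v : E) (h0 : ∫ x in B, f (x + v) ∂μ = ∫ x in B, f x ∂μ)
    (h1 : ∀ s : ℝ, ∫ x in B, fderiv ℝ f (x + s • v) v ∂μ = ∫ x in B, fderiv ℝ f x v ∂μ) :
    ∫ x in B, fderiv ℝ f x v ∂μ = 0 := by
  have hc : Continuous fun p : E × ℝ => fderiv ℝ f (p.1 + p.2 • v) v :=
    ((hf.continuous_fderiv one_ne_zero).comp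
      (continuous_fst.add (continuous_snd.smul continuous_const))).clm_apply continuous_const
  have hi : Integrable (Function.uncurry fun (x : E) (s : ℝ) => fderiv ℝ f (x + s • v) v)
      ((μ.restrict B).prod (volume.restrict (Ioc 0 1))) := by
    rw [Measure.prod_restrict]
    exact (hc.continuousOn.integrableOn_compact (hK.prod isCompact_Icc)).mono_set
      (Set.prod_mono hB Ioc_subset_Icc_self)
  have h2 : ∀ x, ∫ s in Ioc (0 : ℝ) 1, fderiv ℝ f (x + s • v) v = f (x + v) - f x := by
    intro x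
    rw [← intervalIntegral.integral_of_le zero_le_one]
    have hd : ∀ s : ℝ, HasDerivAt (fun s : ℝ => f (x + s • v)) (fderiv ℝ f (x + s • v) v) s := by
      intro s
      have a : HasDerivAt (fun s : ℝ => x + s • v) v s := by
        simpa using ((hasDerivAt_id s).smul_const v).const_add x
      exact ((hf.differentiable one_ne_zero) _).hasFDerivAt.comp_hasDerivAt s a
    rw [intervalIntegral.integral_eq_sub_of_hasDerivAt (fun s _ => hd s)
      ((hc.comp (continuous_const.prodMk continuous_id)).intervalIntegrable _ _)]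
    simp
  have h3 := integral_integral_swap hi
  simp only [h1, h2] at h3
  have i1 : IntegrableOn (fun x => f (x + v)) B μ :=
    ((hf.continuous.comp (continuous_id.add continuous_const)).continuousOn.integrableOn_compact
      hK).mono_set hB
  have i2 : IntegrableOn f B μ := (hf.continuous.continuousOn.integrableOn_compact hK).mono_set hB
  rw [integral_sub i1 i2, h0, sub_self] at h3
  simpa using h3.symm

theorem integral_box_fderiv {f : P3 → ℝ} (hf : ContDiff ℝ 1 f) (hp : Periodic3 f) (v : P3) :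
    ∫ x in box, fderiv ℝ f x v = 0 := by
  have hq := hp.fderiv
  refine PIA.ftc volume (isCompact_Icc.prod (isCompact_Icc.prod isCompact_Icc))
    (Set.prod_mono Ioo_subset_Icc_self (Set.prod_mono Ioo_subset_Icc_self Ioo_subset_Icc_self)) hf v
    (integral_box_add hf.continuous.measurable hp v) fun s => ?_
  exact integral_box_add (F := fun x => fderiv ℝ f x v)
    ((hf.continuous_fderiv one_ne_zero).clm_apply continuous_const).measurable
    ⟨fun x => by simp only [hq.1 x], fun x => by simp only [hq.2.1 x],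
      fun x => by simp only [hq.2.2 x]⟩ _

theorem integral_box_dv {Z : P3 → P3} (hZ : ContDiff ℝ 1 Z) (hp : Periodic3 Z) :
    ∫ x in box, dv Z x = 0 := by
  have key : ∀ (L : P3 →L[ℝ] ℝ) (v : P3), IntegrableOn (fun x => L (fderiv ℝ Z x v)) box ∧
      ∫ x in box, L (fderiv ℝ Z x v) = 0 := by
    intro L v
    constructor
    · exact ((L.continuous.comp ((hZ.continuous_fderiv one_ne_zero).clm_apply
        continuous_const)).continuousOn.integrableOn_compact
        (isCompact_Icc.prod (isCompact_Icc.prod isCompact_Icc))).mono_set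
        (Set.prod_mono Ioo_subset_Icc_self (Set.prod_mono Ioo_subset_Icc_self Ioo_subset_Icc_self))
    · have h := integral_box_fderiv (f := fun x => L (Z x)) (L.contDiff.comp hZ)
        ⟨fun x => by simp only [hp.1 x], fun x => by simp only [hp.2.1 x],
          fun x => by simp only [hp.2.2 x]⟩ v
      rw [← h]
      refine integral_congr_ae (Eventually.of_forall fun x => ?_)
      have hd := (L.hasFDerivAt.comp x ((hZ.differentiable one_ne_zero) x).hasFDerivAt).fderiv
      exact (congrArg (fun M : P3 →L[ℝ] ℝ => M v) hd).symm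
  obtain ⟨a1, b1⟩ := key (ContinuousLinearMap.fst ℝ ℝ (ℝ × ℝ)) e1
  obtain ⟨a2, b2⟩ := key ((ContinuousLinearMap.fst ℝ ℝ ℝ).comp
    (ContinuousLinearMap.snd ℝ ℝ (ℝ × ℝ))) e2
  obtain ⟨a3, b3⟩ := key ((ContinuousLinearMap.snd ℝ ℝ ℝ).comp
    (ContinuousLinearMap.snd ℝ ℝ (ℝ × ℝ))) e3
  have h := integral_add (a1.add a2) a3
  simp only [Pi.add_apply] at h
  rw [integral_add a1 a2, b1, b2, b3] at h
  simpa [dv, trc] using h

theorem integral_box2_fderiv {f : P2 → ℝ} (hf : ContDiff ℝ 1 f) (hp : Periodic2 f) (v : P2) :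
    ∫ p in box2, fderiv ℝ f p v = 0 := by
  have hq := hp.fderiv
  refine PIA.ftc volume (isCompact_Icc.prod isCompact_Icc)
    (Set.prod_mono Ioo_subset_Icc_self Ioo_subset_Icc_self) hf v
    (integral_box2_add hf.continuous.measurable hp v) fun s => ?_
  exact integral_box2_add (F := fun x => fderiv ℝ f x v)
    ((hf.continuous_fderiv one_ne_zero).clm_apply continuous_const).measurable
    ⟨fun x => by simp only [hq.1 x], fun x => by simp only [hq.2 x]⟩ _

theorem continuous_dv {Z : P3 → P3} (hZ : ContDiff ℝ 1 Z) : Continuous (dv Z) := by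
  have h : ∀ v : P3, Continuous fun x => fderiv ℝ Z x v := fun v =>
    (hZ.continuous_fderiv one_ne_zero).clm_apply continuous_const
  exact ((h e1).fst.add (h e2).snd.fst).add (h e3).snd.snd

end Vale.Agent.P232
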