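import Vale.Agent.P232.PerIntA

open MeasureTheory Set Filter Topology
open scoped ENNReal

noncomputable section
namespace Vale.Agent.P232

/-- reduction modulo 2 -/
def pbR (t : ℝ) : ℝ := t - 2 * (round (t / 2) : ℝ)

theorem pb_round {s : ℝ} {n : ℤ} (h : |s - 2 * (n : ℝ)| < 1) : round (s / 2) = n := by
  rw [round_eq, Int.floor_eq_iff]
  obtain ⟨h1, h2⟩ := abs_lt.mp h
  constructor <;> linarith

theorem pbR_of_lt {s : ℝ} (h : |s| < 1) : pbR s = s := by
  have : round (s / 2) = 0 := pb_round (n := 0) (by simpa using h)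
  simp [pbR, this]

theorem pbR_add_two (t : ℝ) : pbR (t + 2) = pbR t := by
  have : (t + 2) / 2 = t / 2 + 1 := by ring
  rw [pbR, pbR, this, round_add_one]
  push_cast; ring

theorem pbR_abs (t : ℝ) : |pbR t| = d2 t := rfl

theorem pbR_loc {t : ℝ} (h : d2 t < 1) :
    ∀ᶠ s in 𝓝 t, pbR s = s - 2 * (round (t / 2) : ℝ) := by
  have hc : Continuous fun s : ℝ => |s - 2 * (round (t / 2) : ℝ)| := by fun_prop
  have : ∀ᶠ s in 𝓝 t, |s - 2 * (round (t / 2) : ℝ)| < 1 :=
    (isOpen_lt hc continuous_const).mem_nhds h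
  filter_upwards [this] with s hs
  rw [pbR, pb_round hs]

theorem pb_smooth {X V : Type*} [NormedAddCommGroup X] [NormedSpace ℝ X] [ProperSpace X]
    [NormedAddCommGroup V] [NormedSpace ℝ V] {Z : X → V} (hZ : ContDiff ℝ 1 Z) (R : X → X)
    (hD : Continuous fun x => ‖R x‖)
    (hloc : ∀ x, ‖R x‖ < 1 → ∃ c, ∀ᶠ y in 𝓝 x, R y = y - c)
    (hs : ∀ x ∈ tsupport Z, ‖x‖ < 1) : ContDiff ℝ 1 fun x => Z (R x) := by
  have hK : IsCompact (tsupport Z) :=
    (isCompact_closedBall (0 : X) 1).of_isClosed_subset (isClosed_tsupport Z)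
      fun x hx => by simpa using (hs x hx).le
  obtain ⟨m, hm1, hm⟩ : ∃ m : ℝ, m < 1 ∧ ∀ x ∈ tsupport Z, ‖x‖ ≤ m := by
    rcases (tsupport Z).eq_empty_or_nonempty with h | h
    · exact ⟨0, one_pos, by simp [h]⟩
    · obtain ⟨x0, hx0, hmax⟩ := hK.exists_isMaxOn h continuous_norm.continuousOn
      exact ⟨‖x0‖, hs x0 hx0, fun x hx => hmax hx⟩
  rw [contDiff_iff_contDiffAt]
  intro x
  by_cases hx : ‖R x‖ < 1
  · obtain ⟨c, hc⟩ := hloc x hx
    have h1 : ContDiff ℝ 1 fun y => Z (y - c) := hZ.comp (contDiff_id.sub contDiff_const)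
    refine h1.contDiffAt.congr_of_eventuallyEq ?_
    filter_upwards [hc] with y hy
    rw [hy]
  · have h2 : ∀ᶠ y in 𝓝 x, m < ‖R y‖ :=
      (isOpen_lt continuous_const hD).mem_nhds (hm1.trans_le (not_lt.mp hx))
    refine (contDiffAt_const (c := (0 : V))).congr_of_eventuallyEq ?_
    filter_upwards [h2] with y hy
    by_contra hne
    exact absurd (hm _ (subset_tsupport Z hne)) (not_le.mpr hy)

theorem pb_mem_box {x : P3} : x ∈ box ↔ |x.1| < 1 ∧ |x.2.1| < 1 ∧ |x.2.2| < 1 := by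
  simp only [box, mem_prod, mem_Ioo, abs_lt]

theorem pb_mem_box2 {x : P2} : x ∈ box2 ↔ |x.1| < 1 ∧ |x.2| < 1 := by
  simp only [box2, mem_prod, mem_Ioo, abs_lt]

/-- periodisation: `Z' x = Z (x - 2 round (x/2))` -/
theorem exists_periodic_ext {V : Type*} [NormedAddCommGroup V] [NormedSpace ℝ V] {Z : P3 → V}
    (hZ : ContDiff ℝ 1 Z) (hs : tsupport Z ⊆ box) :
    ∃ Z' : P3 → V, ContDiff ℝ 1 Z' ∧ Periodic3 Z' ∧ (∀ x ∈ box, Z' x = Z x) ∧ ∀ x, ∃ y, Z' x = Z y := by
  refine ⟨fun x => Z (pbR x.1, pbR x.2.1, pbR x.2.2), ?_, ⟨fun x => ?_, fun x => ?_, fun x => ?_⟩,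
    fun x hx => ?_, fun x => ⟨_, rfl⟩⟩
  · have hn : ∀ x : P3, ‖((pbR x.1, pbR x.2.1, pbR x.2.2) : P3)‖
        = max (d2 x.1) (max (d2 x.2.1) (d2 x.2.2)) := fun x => by
      simp only [Prod.norm_def, Real.norm_eq_abs, pbR_abs]
    refine pb_smooth hZ (fun x : P3 => ((pbR x.1, pbR x.2.1, pbR x.2.2) : P3)) ?_ ?_ ?_
    · simp only [hn]
      exact (continuous_d2.comp continuous_fst).max
        ((continuous_d2.comp (continuous_fst.comp continuous_snd)).max
          (continuous_d2.comp (continuous_snd.comp continuous_snd)))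
    · intro x hx
      simp only [hn, max_lt_iff] at hx
      refine ⟨(2 * (round (x.1 / 2) : ℝ), 2 * (round (x.2.1 / 2) : ℝ),
        2 * (round (x.2.2 / 2) : ℝ)), ?_⟩
      have c1 : Tendsto (fun y : P3 => y.1) (𝓝 x) (𝓝 x.1) := continuous_fst.tendsto x
      have c2 : Tendsto (fun y : P3 => y.2.1) (𝓝 x) (𝓝 x.2.1) :=
        (continuous_fst.comp continuous_snd).tendsto x
      have c3 : Tendsto (fun y : P3 => y.2.2) (𝓝 x) (𝓝 x.2.2) :=
        (continuous_snd.comp continuous_snd).tendsto x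
      filter_upwards [c1.eventually (pbR_loc hx.1), c2.eventually (pbR_loc hx.2.1),
        c3.eventually (pbR_loc hx.2.2)] with y h1 h2 h3
      rw [h1, h2, h3]; rfl
    · intro x hx
      obtain ⟨h1, h2, h3⟩ := pb_mem_box.mp (hs hx)
      simp only [Prod.norm_def, Real.norm_eq_abs, max_lt_iff]
      exact ⟨h1, h2, h3⟩
  · simp [pbR_add_two]
  · simp [pbR_add_two]
  · simp [pbR_add_two]
  · obtain ⟨h1, h2, h3⟩ := pb_mem_box.mp hx
    simp only [pbR_of_lt h1, pbR_of_lt h2, pbR_of_lt h3]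
theorem exists_periodic_ext2 {V : Type*} [NormedAddCommGroup V] [NormedSpace ℝ V] {Z : P2 → V}
    (hZ : ContDiff ℝ 1 Z) (hs : tsupport Z ⊆ box2) :
    ∃ Z' : P2 → V, ContDiff ℝ 1 Z' ∧ Periodic2 Z' ∧ (∀ x ∈ box2, Z' x = Z x) ∧ ∀ x, ∃ y, Z' x = Z y := by
  refine ⟨fun x => Z (pbR x.1, pbR x.2), ?_, ⟨fun x => ?_, fun x => ?_⟩,
    fun x hx => ?_, fun x => ⟨_, rfl⟩⟩
  · have hn : ∀ x : P2, ‖((pbR x.1, pbR x.2) : P2)‖ = max (d2 x.1) (d2 x.2) := fun x => by
      simp only [Prod.norm_def, Real.norm_eq_abs, pbR_abs]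
    refine pb_smooth hZ (fun x : P2 => ((pbR x.1, pbR x.2) : P2)) ?_ ?_ ?_
    · simp only [hn]
      exact (continuous_d2.comp continuous_fst).max (continuous_d2.comp continuous_snd)
    · intro x hx
      simp only [hn, max_lt_iff] at hx
      refine ⟨(2 * (round (x.1 / 2) : ℝ), 2 * (round (x.2 / 2) : ℝ)), ?_⟩
      have c1 : Tendsto (fun y : P2 => y.1) (𝓝 x) (𝓝 x.1) := continuous_fst.tendsto x
      have c2 : Tendsto (fun y : P2 => y.2) (𝓝 x) (𝓝 x.2) := continuous_snd.tendsto x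
      filter_upwards [c1.eventually (pbR_loc hx.1), c2.eventually (pbR_loc hx.2)] with y h1 h2
      rw [h1, h2]; rfl
    · intro x hx
      obtain ⟨h1, h2⟩ := pb_mem_box2.mp (hs hx)
      simp only [Prod.norm_def, Real.norm_eq_abs, max_lt_iff]
      exact ⟨h1, h2⟩
  · simp [pbR_add_two]
  · simp [pbR_add_two]
  · obtain ⟨h1, h2⟩ := pb_mem_box2.mp hx
    simp only [pbR_of_lt h1, pbR_of_lt h2]

theorem pb_int3 {α : Type*} {F : P3 → α} (hp : Periodic3 F) (a b c : ℤ) (x : P3) :
    F (x + ((2 * (a : ℝ), 2 * (b : ℝ), 2 * (c : ℝ)) : P3)) = F x := by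
  have h1 : Function.Periodic F ((2, 0, 0) : P3) := hp.1
  have h2 : Function.Periodic F ((0, 2, 0) : P3) := hp.2.1
  have h3 : Function.Periodic F ((0, 0, 2) : P3) := hp.2.2
  have h := ((h1.zsmul a).add_period (h2.zsmul b)).add_period (h3.zsmul c) x
  convert h using 3
  ext <;> simp [mul_comm]

theorem pb_int2 {α : Type*} {F : P2 → α} (hp : Periodic2 F) (a b : ℤ) (x : P2) :
    F (x + ((2 * (a : ℝ), 2 * (b : ℝ)) : P2)) = F x := by
  have h1 : Function.Periodic F ((2, 0) : P2) := hp.1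
  have h2 : Function.Periodic F ((0, 2) : P2) := hp.2
  have h := ((h1.zsmul a).add_period (h2.zsmul b)) x
  convert h using 3
  ext <;> simp [mul_comm]

theorem pb_ae : ∀ᵐ t : ℝ, |t + 2 * ((-round (t / 2) : ℤ) : ℝ)| < 1 := by
  have h := (countable_range (Int.cast : ℤ → ℝ)).ae_notMem (volume : Measure ℝ)
  filter_upwards [h] with t ht
  have h1 : d2 t ≤ 1 := d2_le_one t
  have h2 : |t + 2 * ((-round (t / 2) : ℤ) : ℝ)| = d2 t := by
    unfold d2; congr 1; push_cast; ring
  rw [h2]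
  refine lt_of_le_of_ne h1 fun h3 => ht ?_
  unfold d2 at h3
  rcases (abs_eq zero_le_one).mp h3 with h4 | h4
  · exact ⟨2 * round (t / 2) + 1, by push_cast; linarith⟩
  · exact ⟨2 * round (t / 2) - 1, by push_cast; linarith⟩

theorem ae_of_ae_box {P : P3 → Prop} (hp : Periodic3 P) (h : ∀ᵐ x ∂(volume.restrict box), P x) :
    ∀ᵐ x : P3, P x := by
  rw [ae_restrict_iff' measurableSet_box] at h
  have i2 : (volume : Measure P2).IsAddRightInvariant := inferInstance
  have : (volume : Measure P3).IsAddRightInvariant :=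
    inferInstanceAs ((volume : Measure ℝ).prod (volume : Measure P2)).IsAddRightInvariant
  have h1 : ∀ n : ℤ × ℤ × ℤ, ∀ᵐ x : P3,
      x + ((2 * (n.1 : ℝ), 2 * (n.2.1 : ℝ), 2 * (n.2.2 : ℝ)) : P3) ∈ box → P x := fun n => by
    have := (measurePreserving_add_right (volume : Measure P3)
      ((2 * (n.1 : ℝ), 2 * (n.2.1 : ℝ), 2 * (n.2.2 : ℝ)) : P3)).quasiMeasurePreserving.ae h
    filter_upwards [this] with x hx hb
    have := hx hb
    rwa [pb_int3 hp] at this
  have q1 : Measure.QuasiMeasurePreserving (fun x : P3 => x.1) volume volume :=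
    Measure.quasiMeasurePreserving_fst
  have q2 : Measure.QuasiMeasurePreserving (fun x : P3 => x.2) volume volume :=
    Measure.quasiMeasurePreserving_snd
  have q3 : Measure.QuasiMeasurePreserving (fun x : P2 => x.1) volume volume :=
    Measure.quasiMeasurePreserving_fst
  have q4 : Measure.QuasiMeasurePreserving (fun x : P2 => x.2) volume volume :=
    Measure.quasiMeasurePreserving_snd
  filter_upwards [ae_all_iff.mpr h1, q1.ae pb_ae, q2.ae (q3.ae pb_ae), q2.ae (q4.ae pb_ae)]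
    with x hx a1 a2 a3
  exact hx (-round (x.1 / 2), -round (x.2.1 / 2), -round (x.2.2 / 2)) (pb_mem_box.mpr ⟨a1, a2, a3⟩)
theorem ae_of_ae_box2 {P : P2 → Prop} (hp : Periodic2 P) (h : ∀ᵐ x ∂(volume.restrict box2), P x) :
    ∀ᵐ x : P2, P x := by
  rw [ae_restrict_iff' measurableSet_box2] at h
  have h1 : ∀ n : ℤ × ℤ, ∀ᵐ x : P2,
      x + ((2 * (n.1 : ℝ), 2 * (n.2 : ℝ)) : P2) ∈ box2 → P x := fun n => by
    have := (measurePreserving_add_right (volume : Measure P2)
      ((2 * (n.1 : ℝ), 2 * (n.2 : ℝ)) : P2)).quasiMeasurePreserving.ae h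
    filter_upwards [this] with x hx hb
    have := hx hb
    rwa [pb_int2 hp] at this
  have q3 : Measure.QuasiMeasurePreserving (fun x : P2 => x.1) volume volume :=
    Measure.quasiMeasurePreserving_fst
  have q4 : Measure.QuasiMeasurePreserving (fun x : P2 => x.2) volume volume :=
    Measure.quasiMeasurePreserving_snd
  filter_upwards [ae_all_iff.mpr h1, q3.ae pb_ae, q4.ae pb_ae] with x hx a1 a2
  exact hx (-round (x.1 / 2), -round (x.2 / 2)) (pb_mem_box2.mpr ⟨a1, a2⟩)

theorem pb_shift {α : Type*} {F : P3 → α} (hp : Periodic3 F) (a : P3) :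
    Periodic3 fun x => F (x + a) :=
  ⟨fun x => by simp only [add_right_comm x _ a, hp.1], fun x => by
    simp only [add_right_comm x _ a, hp.2.1], fun x => by simp only [add_right_comm x _ a, hp.2.2]⟩

theorem pb_indicator {G : Set P3} (hG : PerSet G) {f : P3 → ℝ} (hf : Periodic3 f) :
    Periodic3 (G.indicator f) := by
  classical
  refine ⟨fun x => ?_, fun x => ?_, fun x => ?_⟩
  · have := hG.2.1 x
    simp only [indicator_apply, hf.1, this]
  · have := hG.2.2.1 x
    simp only [indicator_apply, hf.2.1, this]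
  · have := hG.2.2.2 x
    simp only [indicator_apply, hf.2.2, this]

theorem pb_dv_per {Z : P3 → P3} (hp : Periodic3 Z) : Periodic3 (dv Z) := by
  have h := hp.fderiv
  exact ⟨fun x => by simp only [dv, h.1], fun x => by simp only [dv, h.2.1],
    fun x => by simp only [dv, h.2.2]⟩

theorem PerSet.translate {G : Set P3} (h : PerSet G) (a : P3) :
    PerSet ((fun x => x + a) ⁻¹' G) :=
  ⟨(measurable_add_const a) h.1, pb_shift (F := fun x => x ∈ G) h.2 a⟩

theorem pb_int_shift {G : Set P3} (hG : PerSet G) {f : P3 → ℝ} (hm : Measurable f)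
    (hf : Periodic3 f) (a : P3) :
    ∫ x in ((fun x => x + a) ⁻¹' G) ∩ box, f (x + a) = ∫ x in G ∩ box, f x := by
  have h := integral_box_add (hm.indicator hG.1) (pb_indicator hG hf) a
  rw [setIntegral_indicator hG.1, inter_comm] at h
  rw [← h, inter_comm, ← setIntegral_indicator (hG.translate a).1]
  rfl

theorem PerLe.translate {G : Set P3} {c : ℝ} (hG : PerSet G) (h : PerLe G c) (a : P3) :
    PerLe ((fun x => x + a) ⁻¹' G) c := by
  intro Z hZ hb hp
  have hZ2 : ContDiff ℝ 1 fun y => Z (y + -a) := hZ.comp (contDiff_id.add contDiff_const)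
  have hp2 := pb_shift hp (-a)
  have h1 := h _ hZ2 (fun x => hb _) hp2
  rw [← pb_int_shift hG (continuous_dv hZ2).measurable (pb_dv_per hp2) a] at h1
  convert h1 using 3 with x
  simp only [dv, fderiv_comp_add_right, add_neg_cancel_right]
theorem volB_translate {G : Set P3} (hG : PerSet G) (a : P3) :
    volB ((fun x => x + a) ⁻¹' G) = volB G := by
  have h := pb_int_shift hG (f := fun _ => (1 : ℝ)) measurable_const
    ⟨fun _ => rfl, fun _ => rfl, fun _ => rfl⟩ a
  simpa [volB, Measure.real] using h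
theorem PerSet.compl {G : Set P3} (h : PerSet G) : PerSet Gᶜ :=
  ⟨h.1.compl, fun x => congrArg Not (h.2.1 x), fun x => congrArg Not (h.2.2.1 x),
    fun x => congrArg Not (h.2.2.2 x)⟩

theorem pb_dv_smul {Z : P3 → P3} (hZ : ContDiff ℝ 1 Z) (r : ℝ) (x : P3) :
    dv (fun y => r • Z y) x = r * dv Z x := by
  have h : fderiv ℝ (fun y => r • Z y) x = r • fderiv ℝ Z x :=
    fderiv_fun_const_smul ((hZ.differentiable (by norm_num)) x) r
  simp only [dv, trc, h, smul_apply, Prod.smul_fst, Prod.smul_snd, smul_eq_mul]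
  ring

theorem pb_smul_per {Z : P3 → P3} (hp : Periodic3 Z) (r : ℝ) : Periodic3 fun y => r • Z y :=
  ⟨fun x => by simp only [hp.1], fun x => by simp only [hp.2.1], fun x => by simp only [hp.2.2]⟩

theorem PerLe.compl {G : Set P3} {c : ℝ} (hG : PerSet G) (h : PerLe G c) : PerLe Gᶜ c := by
  intro Z hZ hb hp
  have h1 := h (fun y => (-1 : ℝ) • Z y) (hZ.const_smul _)
    (fun x => by rw [nrm_smul]; simpa using hb x) (pb_smul_per hp _)
  simp only [pb_dv_smul hZ, integral_const_mul] at h1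
  have hi : IntegrableOn (dv Z) box volume := by
    refine ((continuous_dv hZ).continuousOn.integrableOn_compact
      (isCompact_closedBall (0 : P3) 1)).mono_set fun x hx => ?_
    obtain ⟨a1, a2, a3⟩ := pb_mem_box.mp hx
    simp only [mem_closedBall_zero_iff, Prod.norm_def, Real.norm_eq_abs, max_le_iff]
    exact ⟨a1.le, a2.le, a3.le⟩
  have h2 := integral_inter_add_sdiff hG.1 hi
  rw [integral_box_dv hZ hp, inter_comm, sdiff_eq, inter_comm box] at h2
  linarith
theorem volB_compl {G : Set P3} (hG : MeasurableSet G) : volB Gᶜ = 8 - volB G := by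
  have h := measure_inter_add_sdiff (μ := (volume : Measure P3)) box hG
  rw [volume_box, inter_comm, sdiff_eq, inter_comm box] at h
  have hfin : ∀ S : Set P3, volume (S ∩ box) ≠ ⊤ := fun S =>
    ne_top_of_le_ne_top (by rw [volume_box]; norm_num) (measure_mono inter_subset_right)
  have h2 := congrArg ENNReal.toReal h
  rw [ENNReal.toReal_add (hfin _) (hfin _)] at h2
  simp only [volB]
  norm_num at h2
  linarith
theorem volB_congr {G G' : Set P3} (hae : ∀ᵐ x : P3, (x ∈ G ↔ x ∈ G')) : volB G = volB G' := by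
  unfold volB
  congr 1
  refine measure_congr ?_
  filter_upwards [hae] with x hx
  exact propext (and_congr_left' hx)
theorem PerLe.scale {G : Set P3} {c : ℝ} (h : PerLe G c) {Z : P3 → P3} (hZ : ContDiff ℝ 1 Z)
    (hp : Periodic3 Z) {M : ℝ} (hM : 0 < M) (hb : ∀ x, nrm (Z x) ≤ M) :
    ∫ x in G ∩ box, dv Z x ≤ M * c := by
  have h1 := h (fun y => M⁻¹ • Z y) (hZ.const_smul _)
    (fun x => by
      rw [nrm_smul, abs_of_pos (inv_pos.mpr hM), inv_mul_le_iff₀ hM, mul_one]; exact hb x)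
    (pb_smul_per hp _)
  simp only [pb_dv_smul hZ, integral_const_mul] at h1
  rwa [inv_mul_le_iff₀ hM] at h1

end Vale.Agent.P232
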