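import Vale.Agent.P232.Basic

open MeasureTheory Set Filter Topology
open scoped ENNReal

noncomputable section
namespace Vale.Agent.P232

/-! Algebra and calculus for the Piola identity. -/

theorem pio_clm (M : P3 →L[ℝ] P3) (v : P3) :
    M v = v.1 • M e1 + v.2.1 • M e2 + v.2.2 • M e3 := by
  have hv : v = v.1 • e1 + v.2.1 • e2 + v.2.2 • e3 := by
    obtain ⟨a, b, c⟩ := v
    simp [e1, e2, e3]
  conv_lhs => rw [hv]
  simp only [map_add, map_smul]

/-- coordinates of a triple -/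
def pioEq : P3 ≃ₗ[ℝ] (Fin 3 → ℝ) where
  toFun v := ![v.1, v.2.1, v.2.2]
  invFun w := (w 0, w 1, w 2)
  map_add' v w := by
    ext i
    fin_cases i <;> simp
  map_smul' c v := by
    ext i
    fin_cases i <;> simp
  left_inv v := by simp
  right_inv w := by
    ext i
    fin_cases i <;> simp

theorem pio_det (A : P3 →L[ℝ] P3) : A.det = dot (A e1) (cross (A e2) (A e3)) := by
  have h := LinearMap.det_toMatrix (Module.Basis.ofEquivFun pioEq) (A : P3 →ₗ[ℝ] P3)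
  have h0 : (Module.Basis.ofEquivFun pioEq) 0 = e1 := by
    simp [Module.Basis.coe_ofEquivFun, pioEq, e1]
  have h1 : (Module.Basis.ofEquivFun pioEq) 1 = e2 := by
    simp [Module.Basis.coe_ofEquivFun, pioEq, e2]
  have h2 : (Module.Basis.ofEquivFun pioEq) 2 = e3 := by
    simp [Module.Basis.coe_ofEquivFun, pioEq, e3]
  unfold ContinuousLinearMap.det
  rw [← h, Matrix.det_fin_three]
  simp only [LinearMap.toMatrix_apply, h0, h1, h2, Module.Basis.ofEquivFun_repr_apply]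
  simp [pioEq, dot, cross]
  ring

theorem pio_trace (M : P3 →L[ℝ] P3) (a b c : P3) :
    dot (M a) (cross b c) + dot (M b) (cross c a) + dot (M c) (cross a b)
      = trc M * dot a (cross b c) := by
  rw [pio_clm M a, pio_clm M b, pio_clm M c]
  simp only [trc, dot, cross, Prod.fst_add, Prod.snd_add, Prod.smul_fst, Prod.smul_snd, smul_eq_mul]
  ring

theorem pio_trip {f g k : P3 → P3} {f' g' k' : P3 →L[ℝ] P3} {x : P3} (hf : HasFDerivAt f f' x)
    (hg : HasFDerivAt g g' x) (hk : HasFDerivAt k k' x) :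
    ∃ D : P3 →L[ℝ] ℝ, HasFDerivAt (fun y => dot (f y) (cross (g y) (k y))) D x ∧
      ∀ v, D v = dot (f' v) (cross (g x) (k x)) + dot (f x) (cross (g' v) (k x))
        + dot (f x) (cross (g x) (k' v)) := by
  have h := ((hf.fst.mul ((hg.snd.fst.mul hk.snd.snd).sub (hg.snd.snd.mul hk.snd.fst))).add
    (hf.snd.fst.mul ((hg.snd.snd.mul hk.fst).sub (hg.fst.mul hk.snd.snd)))).add
    (hf.snd.snd.mul ((hg.fst.mul hk.snd.fst).sub (hg.snd.fst.mul hk.fst)))
  refine ⟨_, h, fun v => ?_⟩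
  simp [dot, cross]
  ring

theorem pio_contDiff_trip {f g k : P3 → P3} (hf : ContDiff ℝ 1 f) (hg : ContDiff ℝ 1 g)
    (hk : ContDiff ℝ 1 k) : ContDiff ℝ 1 (fun y => dot (f y) (cross (g y) (k y))) := by
  unfold dot cross
  fun_prop

/-- the pulled back field -/
def pioW (Z Φ : P3 → P3) (x : P3) : P3 :=
  (dot (Z (Φ x)) (cross (fderiv ℝ Φ x e2) (fderiv ℝ Φ x e3)),
    dot (Z (Φ x)) (cross (fderiv ℝ Φ x e3) (fderiv ℝ Φ x e1)),
    dot (Z (Φ x)) (cross (fderiv ℝ Φ x e1) (fderiv ℝ Φ x e2)))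

theorem pio_contDiff_col {Φ : P3 → P3} (hΦ : ContDiff ℝ 2 Φ) (v : P3) :
    ContDiff ℝ 1 (fun x => fderiv ℝ Φ x v) :=
  (hΦ.fderiv_right (m := 1) (by norm_num)).clm_apply contDiff_const

theorem pioW_contDiff {Z Φ : P3 → P3} (hZ : ContDiff ℝ 1 Z) (hΦ : ContDiff ℝ 2 Φ) :
    ContDiff ℝ 1 (pioW Z Φ) := by
  have h1 : ContDiff ℝ 1 (fun x => Z (Φ x)) := hZ.comp (hΦ.of_le (by norm_num))
  exact (pio_contDiff_trip h1 (pio_contDiff_col hΦ _) (pio_contDiff_col hΦ _)).prodMk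
    ((pio_contDiff_trip h1 (pio_contDiff_col hΦ _) (pio_contDiff_col hΦ _)).prodMk
      (pio_contDiff_trip h1 (pio_contDiff_col hΦ _) (pio_contDiff_col hΦ _)))

theorem pioW_dot (Z Φ : P3 → P3) (x r : P3) :
    dot (pioW Z Φ x) r = dot (Z (Φ x)) (cofv (fderiv ℝ Φ x) r) := by
  simp only [pioW, cofv, dot, cross, Prod.fst_add, Prod.snd_add, Prod.smul_fst, Prod.smul_snd,
    smul_eq_mul]
  ring

theorem pioW_dv {Z Φ : P3 → P3} (hZ : ContDiff ℝ 1 Z) (hΦ : ContDiff ℝ 2 Φ) (x : P3) :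
    dv (pioW Z Φ) x = (fderiv ℝ Φ x).det * dv Z (Φ x) := by
  have hΦ1 : HasFDerivAt Φ (fderiv ℝ Φ x) x :=
    (hΦ.differentiable (by norm_num) x).hasFDerivAt
  have hZ1 : HasFDerivAt Z (fderiv ℝ Z (Φ x)) (Φ x) :=
    (hZ.differentiable (by norm_num) _).hasFDerivAt
  have hf : HasFDerivAt (fun y => Z (Φ y)) ((fderiv ℝ Z (Φ x)).comp (fderiv ℝ Φ x)) x :=
    hZ1.comp x hΦ1
  have hD : HasFDerivAt (fderiv ℝ Φ) (fderiv ℝ (fderiv ℝ Φ) x) x :=
    ((hΦ.fderiv_right (m := 1) (by norm_num)).differentiable (by norm_num) x).hasFDerivAt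
  have hcol : ∀ v : P3, HasFDerivAt (fun y => fderiv ℝ Φ y v)
      ((fderiv ℝ (fderiv ℝ Φ) x).flip v) x := by
    intro v
    have := hD.clm_apply (hasFDerivAt_const v x)
    simpa using this
  have hs : ∀ v w : P3, fderiv ℝ (fderiv ℝ Φ) x v w = fderiv ℝ (fderiv ℝ Φ) x w v := by
    intro v w
    exact (hΦ.contDiffAt.isSymmSndFDerivAt (by simp)).eq v w
  obtain ⟨D1, hD1, e1'⟩ := pio_trip hf (hcol e2) (hcol e3)
  obtain ⟨D2, hD2, e2'⟩ := pio_trip hf (hcol e3) (hcol e1)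
  obtain ⟨D3, hD3, e3'⟩ := pio_trip hf (hcol e1) (hcol e2)
  have hW : HasFDerivAt (pioW Z Φ) (D1.prod (D2.prod D3)) x := hD1.prodMk (hD2.prodMk hD3)
  have ht := pio_trace (fderiv ℝ Z (Φ x)) (fderiv ℝ Φ x e1) (fderiv ℝ Φ x e2) (fderiv ℝ Φ x e3)
  unfold dv
  rw [hW.fderiv, pio_det, mul_comm, ← ht]
  simp only [trc, ContinuousLinearMap.prod_apply, e1', e2', e3', ContinuousLinearMap.comp_apply,
    ContinuousLinearMap.flip_apply]
  rw [hs e2 e1, hs e3 e1, hs e3 e2]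
  simp only [dot, cross]
  ring

end Vale.Agent.P232
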