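import Vale.Agent.P232.Div
import Vale.Agent.P232.Expand
import Vale.Agent.P232.Piola_1

open MeasureTheory Set Filter Topology
open scoped ENNReal

noncomputable section
namespace Vale.Agent.P232

/-! Task: area bound for the image of `E` under `Φ = id + ε X`.
`Φ` is injective (mean value inequality).  Change variables (`integral_image_eq_integral_abs_det_fderiv_smul`), use the Piola
identity `dv (x ↦ adj(DΦ x) Z(Φ x)) = det(DΦ x) (dv Z)(Φ x)`, where the `i`-th component of the new field is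
`dot (Z (Φ x)) (cross (DΦ e_j) (DΦ e_k))` (symmetry of second derivatives), then `Adm.div_thm`. -/

theorem pio_expand {X : P3 → P3} (hX : ContDiff ℝ 2 X) {ε L : ℝ} (hL : ∀ x, ‖fderiv ℝ X x‖ ≤ L)
    (hε : |ε| * L ≤ 1 / 10) (x y : P3) :
    ‖x - y‖ ≤ 2 * ‖(x + ε • X x) - (y + ε • X y)‖ := by
  have h1 : ‖X x - X y‖ ≤ L * ‖x - y‖ :=
    convex_univ.norm_image_sub_le_of_norm_fderiv_le
      (fun z _ => hX.differentiable (by norm_num) z) (fun z _ => hL z) (mem_univ y) (mem_univ x)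
  have h2 : x - y = ((x + ε • X x) - (y + ε • X y)) - ε • (X x - X y) := by
    rw [smul_sub]
    abel
  have h3 : ‖x - y‖ ≤ ‖(x + ε • X x) - (y + ε • X y)‖ + |ε| * ‖X x - X y‖ := by
    conv_lhs => rw [h2]
    refine (norm_sub_le _ _).trans ?_
    rw [norm_smul, Real.norm_eq_abs]
  have h4 : |ε| * ‖X x - X y‖ ≤ |ε| * (L * ‖x - y‖) :=
    mul_le_mul_of_nonneg_left h1 (abs_nonneg _)
  have h5 : |ε| * (L * ‖x - y‖) ≤ 1 / 10 * ‖x - y‖ := by
    rw [← mul_assoc]
    exact mul_le_mul_of_nonneg_right hε (norm_nonneg _)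
  have h6 := norm_nonneg (x - y)
  linarith

theorem pio_bounded {X : P3 → P3} (hX : ContDiff ℝ 2 X) {ε L : ℝ} (hL : ∀ x, ‖fderiv ℝ X x‖ ≤ L)
    (hε : |ε| * L ≤ 1 / 10) {K : Set P3} (hK : Bornology.IsBounded K) :
    Bornology.IsBounded {x : P3 | x + ε • X x ∈ K} := by
  obtain ⟨C, hC⟩ := Metric.isBounded_iff.1 hK
  refine Metric.isBounded_iff.2 ⟨2 * C, fun x hx y hy => ?_⟩
  have h1 := hC hx hy
  rw [dist_eq_norm] at h1 ⊢
  have h2 := pio_expand hX hL hε x y
  linarith

theorem pio_Q_bounded : Bornology.IsBounded Q :=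
  (Metric.isBounded_Ioo 0 1).prod ((Metric.isBounded_Ioo 0 1).prod (Metric.isBounded_Ioo 0 1))

theorem pio_cont_cofv : Continuous (fun q : (P3 →L[ℝ] P3) × P3 => cofv q.1 q.2) := by
  unfold cofv cross
  fun_prop

theorem pio_cofv_bound (C : ℝ) : ∃ B : ℝ, ∀ (M : P3 →L[ℝ] P3) (r : P3), ‖M‖ ≤ C → ‖r‖ ≤ 1 →
    nrm (cofv M r) ≤ B := by
  have hK : IsCompact (Metric.closedBall (0 : P3 →L[ℝ] P3) C ×ˢ Metric.closedBall (0 : P3) 1) :=
    (isCompact_closedBall _ _).prod (isCompact_closedBall _ _)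
  obtain ⟨B, hB⟩ := hK.bddAbove_image (continuous_nrm.comp pio_cont_cofv).continuousOn
  refine ⟨B, fun M r hM hr => hB ⟨(M, r), ⟨?_, ?_⟩, rfl⟩⟩
  · simpa using hM
  · simpa using hr

theorem pio_haar : (volume : Measure P3).IsAddHaarMeasure := by
  have h2 : (volume : Measure P2).IsAddHaarMeasure :=
    Measure.prod.instIsAddHaarMeasure (volume : Measure ℝ) (volume : Measure ℝ)
  exact Measure.prod.instIsAddHaarMeasure (volume : Measure ℝ) (volume : Measure P2)

theorem pio_main {E : Set P3} (h : Adm E) {Φ : P3 → P3} (hΦ : ContDiff ℝ 2 Φ)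
    (hinj : Function.Injective Φ) (hdet : ∀ x, 0 < (fderiv ℝ Φ x).det)
    (hb : ∀ K : Set P3, Bornology.IsBounded K → Bornology.IsBounded {x | Φ x ∈ K})
    {Z : P3 → P3} (hZ : ContDiff ℝ 1 Z) (hZc : HasCompactSupport Z) (hZQ : tsupport Z ⊆ Q) :
    ∫ x in Φ '' E ∩ Q, dv Z x
      = ∫ x in {x | Φ x ∈ Q}, dot (Z (Φ x)) (cofv (fderiv ℝ Φ x) (rho E x)) ∂(nu E) := by
  have hm : MeasurableSet (Φ '' E) :=
    h.measurableSet.image_of_continuousOn_injOn hΦ.continuous.continuousOn hinj.injOn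
  have hZ0 : ∀ y, y ∉ tsupport Z → Z y = 0 := fun y hy => image_eq_zero_of_notMem_tsupport hy
  have s1 : ∫ x in Φ '' E ∩ Q, dv Z x = ∫ x in Φ '' E, dv Z x := by
    symm
    refine setIntegral_eq_of_subset_of_forall_sdiff_eq_zero hm inter_subset_left fun x hx => ?_
    have hxQ : x ∉ tsupport Z := fun hx' => hx.2 ⟨hx.1, hZQ hx'⟩
    have : fderiv ℝ Z x = 0 := by
      by_contra hne
      exact hxQ (support_fderiv_subset ℝ hne)
    simp [dv, trc, this]
  have s2 : ∫ x in Φ '' E, dv Z x = ∫ x in E, dv (pioW Z Φ) x := by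
    have := pio_haar
    rw [integral_image_eq_integral_abs_det_fderiv_smul volume h.measurableSet
      (fun x _ => (hΦ.differentiable (by norm_num) x).hasFDerivAt.hasFDerivWithinAt) hinj.injOn]
    refine setIntegral_congr_fun h.measurableSet fun x _ => ?_
    rw [pioW_dv hZ hΦ, abs_of_pos (hdet x), smul_eq_mul]
  have hWc : HasCompactSupport (pioW Z Φ) := by
    have hK : IsCompact {x | Φ x ∈ tsupport Z} :=
      Metric.isCompact_of_isClosed_isBounded ((isClosed_tsupport Z).preimage hΦ.continuous)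
        (hb _ hZc.isCompact.isBounded)
    refine HasCompactSupport.intro hK fun x hx => ?_
    have : Z (Φ x) = 0 := hZ0 _ hx
    simp [pioW, this, dot]
  have s3 := h.div_thm (pioW_contDiff hZ hΦ) hWc
  rw [s1, s2, s3]
  simp only [pioW_dot]
  symm
  refine setIntegral_eq_integral_of_forall_compl_eq_zero fun x hx => ?_
  have : Z (Φ x) = 0 := hZ0 _ fun hx' => hx (hZQ hx')
  simp [this, dot]

theorem pio_integrable {E : Set P3} (h : Adm E) {A : P3 → (P3 →L[ℝ] P3)} (hA : Continuous A)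
    {C : ℝ} (hC : ∀ x, ‖A x‖ ≤ C) {S : Set P3} (hS : Bornology.IsBounded S) :
    IntegrableOn (fun x => nrm (cofv (A x) (rho E x))) S (nu E) := by
  have := h.nu_locFin
  have hfin : nu E S < ⊤ :=
    (measure_mono subset_closure).trans_lt hS.isCompact_closure.measure_lt_top
  obtain ⟨B, hB⟩ := pio_cofv_bound C
  have hm1 : Measurable (fun q : (P3 →L[ℝ] P3) × P3 => nrm (cofv q.1 q.2)) :=
    (continuous_nrm.comp pio_cont_cofv).measurable
  have hm2 : Measurable (fun x => (A x, rho E x)) := hA.measurable.prodMk (measurable_rho E)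
  have hmeas := hm1.comp hm2
  refine Measure.integrableOn_of_bounded (M := B) hfin.ne hmeas.aestronglyMeasurable ?_
  filter_upwards [ae_restrict_of_ae h.rho_sum] with x hx
  obtain ⟨r1, r2, r3⟩ := rho_nonneg E x
  rw [Real.norm_eq_abs, abs_of_nonneg (nrm_nonneg _)]
  refine hB _ _ (hC x) ?_
  simp only [Prod.norm_def, Real.norm_eq_abs, max_le_iff, abs_of_nonneg r1, abs_of_nonneg r2,
    abs_of_nonneg r3]
  refine ⟨by linarith, by linarith, by linarith⟩

theorem piola {E : Set P3} (h : Adm E) {X : P3 → P3} (hX : ContDiff ℝ 2 X) (hc : HasCompactSupport X)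
    {ε L : ℝ} (hL : ∀ x, ‖fderiv ℝ X x‖ ≤ L) (hε : |ε| * L ≤ 1 / 10) :
    MeasurableSet ((fun x => x + ε • X x) '' E) ∧
      RelLe ((fun x => x + ε • X x) '' E)
        (∫ x in {x | x + ε • X x ∈ Q},
          nrm (cofv (ContinuousLinearMap.id ℝ P3 + ε • fderiv ℝ X x) (rho E x)) ∂(nu E)) := by
  have _hc := hc
  have hΦ : ContDiff ℝ 2 (fun x => x + ε • X x) := contDiff_id.add (hX.const_smul ε)
  have hfd : ∀ x, fderiv ℝ (fun x => x + ε • X x) x
      = ContinuousLinearMap.id ℝ P3 + ε • fderiv ℝ X x := fun x =>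
    ((hasFDerivAt_id x).add
      ((hX.differentiable (by norm_num) x).hasFDerivAt.const_smul ε)).fderiv
  have hinj : Function.Injective (fun x => x + ε • X x) := by
    intro x y hxy
    have h1 := pio_expand hX hL hε x y
    have h2 : (x + ε • X x) - (y + ε • X y) = 0 := sub_eq_zero.2 hxy
    rw [h2, norm_zero, mul_zero] at h1
    exact sub_eq_zero.1 (norm_le_zero_iff.1 h1)
  refine ⟨h.measurableSet.image_of_continuousOn_injOn hΦ.continuous.continuousOn hinj.injOn,
    fun Z hZ hZ1 hZc hZQ => ?_⟩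
  have hdet : ∀ x, 0 < (fderiv ℝ (fun x => x + ε • X x) x).det := fun x => by
    rw [hfd]
    exact (det_id_add _ (hL x) hε).1
  rw [pio_main h hΦ hinj hdet (fun K hK => pio_bounded hX hL hε hK) hZ hZc hZQ]
  have hcd : Continuous (fun x => ContinuousLinearMap.id ℝ P3 + ε • fderiv ℝ X x) :=
    continuous_const.add ((hX.continuous_fderiv (by norm_num)).const_smul ε)
  have hC : ∀ x, ‖ContinuousLinearMap.id ℝ P3 + ε • fderiv ℝ X x‖ ≤ 1 + 1 / 10 := fun x => by
    refine (norm_add_le _ _).trans (add_le_add ContinuousLinearMap.norm_id_le ?_)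
    rw [norm_smul, Real.norm_eq_abs]
    exact (mul_le_mul_of_nonneg_left (hL x) (abs_nonneg _)).trans hε
  have hint := pio_integrable h hcd hC (pio_bounded hX hL hε pio_Q_bounded)
  refine (le_abs_self _).trans ((abs_integral_le_integral_abs).trans ?_)
  refine integral_mono_of_nonneg (Eventually.of_forall fun x => abs_nonneg _) hint
    (Eventually.of_forall fun x => ?_)
  simp only [hfd]
  refine (abs_dot_le _ _).trans ?_
  exact mul_le_of_le_one_left (nrm_nonneg _) (hZ1 _)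

end Vale.Agent.P232
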