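import Vale.Agent.P232.MeasA_1

open MeasureTheory Set Filter Topology
open scoped ENNReal

noncomputable section
namespace Vale.Agent.P232

/-! Task B3: the planar boundary measure, and Task B4: planar isoperimetric inequalities. -/

variable {D : Set P2}

theorem Adm2.measurable_gr (h : Adm2 D) : Measurable (fun x : ℝ => ((x, hy D x) : P2)) :=
  measurable_id.prodMk (measurable_hy h.isOpen.measurableSet)
theorem Adm2.sig2_locFin' (h : Adm2 D) : IsLocallyFiniteMeasure (sig2 D) :=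
  locFin_graph volume (domy D) h.measurable_gr (π := Prod.fst) continuous_fst (fun _ => rfl)
theorem Adm2.sig1_locFin (h : Adm2 D) : IsLocallyFiniteMeasure (sig1 D) :=
  locFin_map h.swap.sig2_locFin' (Homeomorph.prodComm ℝ ℝ)
theorem Adm2.sig2_locFin (h : Adm2 D) : IsLocallyFiniteMeasure (sig2 D) := h.sig2_locFin'
theorem Adm2.sig_locFin (h : Adm2 D) : IsLocallyFiniteMeasure (sig D) :=
  locFin_add h.sig1_locFin h.sig2_locFin
theorem sqc_subset : sqc ⊆ Icc (0 : ℝ) 1 ×ˢ Icc (0 : ℝ) 1 :=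
  prod_mono Ioc_subset_Icc_self Ioc_subset_Icc_self
theorem sq_subset_sqc : sq ⊆ sqc := prod_mono Ioo_subset_Ioc_self Ioo_subset_Ioc_self
theorem Adm2.sig_sqc_lt_top (h : Adm2 D) : sig D sqc < ⊤ := by
  have := h.sig_locFin
  exact (measure_mono sqc_subset).trans_lt (isCompact_Icc.prod isCompact_Icc).measure_lt_top
theorem sig1_ac (D : Set P2) : sig1 D ≪ sig D := ac_left _ _
theorem sig2_ac (D : Set P2) : sig2 D ≪ sig D := ac_right _ _
theorem measurable_rr (D : Set P2) : Measurable (rr D) :=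
  (Measure.measurable_rnDeriv _ _).ennreal_toReal.prodMk
    (Measure.measurable_rnDeriv _ _).ennreal_toReal
theorem measurable_ww (D : Set P2) : Measurable (ww D) :=
  (((measurable_rr D).fst.pow_const 2).add ((measurable_rr D).snd.pow_const 2)).sqrt
theorem rr_nonneg (D : Set P2) (p : P2) : 0 ≤ (rr D p).1 ∧ 0 ≤ (rr D p).2 :=
  ⟨ENNReal.toReal_nonneg, ENNReal.toReal_nonneg⟩
theorem ww_nonneg (D : Set P2) (p : P2) : 0 ≤ ww D p := Real.sqrt_nonneg _
theorem Adm2.rr_sum (h : Adm2 D) : ∀ᵐ p ∂(sig D), (rr D p).1 + (rr D p).2 = 1 := by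
  have := h.sig1_locFin
  have := h.sig2_locFin
  exact rn_sum2
theorem Adm2.ww_bounds (h : Adm2 D) : ∀ᵐ p ∂(sig D), 1 / 2 ≤ ww D p ∧ ww D p ≤ 1 := by
  filter_upwards [h.rr_sum] with x hx
  obtain ⟨h1, h2⟩ := rr_nonneg D x
  unfold ww
  constructor
  · refine Real.le_sqrt_of_sq_le ?_
    nlinarith [sq_nonneg ((rr D x).1 - (rr D x).2)]
  · refine Real.sqrt_le_one.2 ?_
    nlinarith [mul_nonneg h1 h2]
theorem Adm2.lintegral_rr2 (h : Adm2 D) {F : P2 → ℝ≥0∞} (hF : Measurable F) :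
    ∫⁻ p, F p * ENNReal.ofReal (rr D p).2 ∂(sig D) = ∫⁻ x in domy D, F (x, hy D x) := by
  have := h.sig2_locFin
  have := h.sig_locFin
  exact (rn_lint (sig2_ac D) hF).trans (lintegral_map hF h.measurable_gr)
theorem Adm2.lintegral_rr1 (h : Adm2 D) {F : P2 → ℝ≥0∞} (hF : Measurable F) :
    ∫⁻ p, F p * ENNReal.ofReal (rr D p).1 ∂(sig D)
      = ∫⁻ y in domy (Prod.swap ⁻¹' D), F (hy (Prod.swap ⁻¹' D) y, y) := by
  have := h.sig1_locFin
  have := h.sig_locFin
  exact (rn_lint (sig1_ac D) hF).trans ((lintegral_map hF measurable_swap).trans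
    (lintegral_map (hF.comp measurable_swap) h.swap.measurable_gr))
theorem Adm2.integral_sqc_sig2 (h : Adm2 D) {F : P2 → ℝ} (hF : Measurable F) :
    ∫ p in sqc, F p ∂(sig2 D) = ∫ x in domy D ∩ Ioo 0 1, F (x, hy D x) := by
  unfold sig2
  rw [setIntegral_map measurableSet_sqc hF.aestronglyMeasurable h.measurable_gr.aemeasurable,
    Measure.restrict_restrict (h.measurable_gr measurableSet_sqc)]
  refine setIntegral_congr_set ?_
  have h1 : (fun x : ℝ => ((x, hy D x) : P2)) ⁻¹' sqc ∩ domy D = domy D ∩ Ioc 0 1 := by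
    ext x
    constructor
    · exact fun hx => ⟨hx.2, hx.1.1⟩
    · exact fun hx => ⟨⟨hx.2, h.hy_pos hx.1.1, hy_le_one D x⟩, hx.1⟩
  rw [h1]
  exact (ae_eq_refl _).inter Ioo_ae_eq_Ioc.symm
theorem swap_preimage_sqc : Prod.swap ⁻¹' sqc = sqc := by
  ext x
  simp only [sqc, mem_preimage, mem_prod, Prod.fst_swap, Prod.snd_swap]
  tauto
theorem emb_swap : MeasurableEmbedding (Prod.swap : P2 → P2) :=
  (MeasurableEquiv.prodComm : P2 ≃ᵐ P2).measurableEmbedding
/-- on `sqc` only the abscissa has to be restricted, since `hy ∈ (0,1]` on `domy` -/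
theorem Adm2.integral_sqc_rr2 (h : Adm2 D) {F : P2 → ℝ} (hF : Measurable F) :
    ∫ p in sqc, F p * (rr D p).2 ∂(sig D) = ∫ x in domy D ∩ Ioo 0 1, F (x, hy D x) := by
  have := h.sig2_locFin
  have := h.sig_locFin
  exact (rn_setInt (sig2_ac D) F measurableSet_sqc).trans (h.integral_sqc_sig2 hF)
theorem Adm2.integral_sqc_rr1 (h : Adm2 D) {F : P2 → ℝ} (hF : Measurable F) :
    ∫ p in sqc, F p * (rr D p).1 ∂(sig D)
      = ∫ y in domy (Prod.swap ⁻¹' D) ∩ Ioo 0 1, F (hy (Prod.swap ⁻¹' D) y, y) := by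
  have := h.sig1_locFin
  have := h.sig_locFin
  refine (rn_setInt (sig1_ac D) F measurableSet_sqc).trans ?_
  unfold sig1
  rw [emb_swap.setIntegral_map, swap_preimage_sqc]
  exact h.swap.integral_sqc_sig2 (hF.comp measurable_swap)
theorem Adm2.integrableOn_sqc (h : Adm2 D) {F : P2 → ℝ} (hF : Measurable F) {M : ℝ}
    (hM : ∀ᵐ p ∂(sig D), p ∈ sqc → |F p| ≤ M) : IntegrableOn F sqc (sig D) :=
  integrableOn_of_bdd measurableSet_sqc h.sig_sqc_lt_top hF hM
theorem sig1_swap (D : Set P2) : sig1 (Prod.swap ⁻¹' D) = (sig2 D).map Prod.swap := rfl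
theorem sig2_swap (D : Set P2) : sig2 (Prod.swap ⁻¹' D) = (sig1 D).map Prod.swap := by
  unfold sig1
  rw [Measure.map_map measurable_swap measurable_swap]
  exact Measure.map_id.symm
theorem sig_swap (D : Set P2) : sig (Prod.swap ⁻¹' D) = (sig D).map Prod.swap := by
  unfold sig
  rw [Measure.map_add _ _ measurable_swap, sig1_swap, sig2_swap, add_comm]
theorem Adm2.rr_swap (h : Adm2 D) :
    ∀ᵐ p ∂(sig D), rr (Prod.swap ⁻¹' D) (Prod.swap p) = Prod.swap (rr D p) := by
  have := h.sig1_locFin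
  have := h.sig2_locFin
  have := h.sig_locFin
  filter_upwards [emb_swap.rnDeriv_map (sig1 D) (sig D), emb_swap.rnDeriv_map (sig2 D) (sig D)]
    with x h1 h2
  unfold rr
  rw [sig_swap, sig1_swap, sig2_swap, h1, h2]
  rfl
theorem Adm2.len_swap (h : Adm2 D) : len (Prod.swap ⁻¹' D) = len D := by
  unfold len arc
  rw [sig_swap, emb_swap.setIntegral_map, swap_preimage_sqc]
  refine integral_congr_ae (ae_restrict_of_ae ?_)
  filter_upwards [h.rr_swap] with p hp
  unfold ww
  rw [hp, Prod.fst_swap, Prod.snd_swap, add_comm]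
theorem Adm2.integrableOn_mul_ww (h : Adm2 D) {ψ : P2 → ℝ} (hψ : Continuous ψ) :
    IntegrableOn (fun p => ψ p * ww D p) sqc (sig D) := by
  obtain ⟨M, hM⟩ := (isCompact_Icc.prod isCompact_Icc :
    IsCompact (Icc (0 : ℝ) 1 ×ˢ Icc (0 : ℝ) 1)).exists_bound_of_continuousOn hψ.continuousOn
  refine h.integrableOn_sqc (hψ.measurable.mul (measurable_ww D)) (M := M) ?_
  filter_upwards [h.ww_bounds] with p hp hps
  have h1 := hM p (sqc_subset hps)
  rw [Real.norm_eq_abs] at h1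
  rw [abs_mul, abs_of_nonneg (ww_nonneg D p)]
  exact (mul_le_of_le_one_right (abs_nonneg _) hp.2).trans h1
/-- linearity, positivity and continuity of `arc`, `arcO` for continuous weights -/
theorem Adm2.arc_add (h : Adm2 D) {ψ ψ' : P2 → ℝ} (hψ : Continuous ψ) (hψ' : Continuous ψ') :
    arc D (fun p => ψ p + ψ' p) = arc D ψ + arc D ψ' := by
  unfold arc
  rw [← integral_add (h.integrableOn_mul_ww hψ) (h.integrableOn_mul_ww hψ')]
  simp only [add_mul]
theorem arc_smul (D : Set P2) (c : ℝ) (ψ : P2 → ℝ) :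
    arc D (fun p => c * ψ p) = c * arc D ψ := by
  unfold arc
  rw [← integral_const_mul]
  simp only [mul_assoc]
theorem Adm2.arc_mono (h : Adm2 D) {ψ ψ' : P2 → ℝ} (hψ : Continuous ψ) (hψ' : Continuous ψ')
    (hle : ∀ p ∈ sqc, ψ p ≤ ψ' p) : arc D ψ ≤ arc D ψ' :=
  setIntegral_mono_on (h.integrableOn_mul_ww hψ) (h.integrableOn_mul_ww hψ') measurableSet_sqc
    fun p hp => mul_le_mul_of_nonneg_right (hle p hp) (ww_nonneg D p)
theorem Adm2.arcO_add (h : Adm2 D) {ψ ψ' : P2 → ℝ} (hψ : Continuous ψ) (hψ' : Continuous ψ') :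
    arcO D (fun p => ψ p + ψ' p) = arcO D ψ + arcO D ψ' := by
  unfold arcO
  rw [← integral_add ((h.integrableOn_mul_ww hψ).mono_set sq_subset_sqc)
    ((h.integrableOn_mul_ww hψ').mono_set sq_subset_sqc)]
  simp only [add_mul]
theorem arcO_smul (D : Set P2) (c : ℝ) (ψ : P2 → ℝ) :
    arcO D (fun p => c * ψ p) = c * arcO D ψ := by
  unfold arcO
  rw [← integral_const_mul]
  simp only [mul_assoc]
theorem Adm2.arcO_le_arc (h : Adm2 D) {ψ : P2 → ℝ} (hψ : Continuous ψ) (h0 : ∀ p, 0 ≤ ψ p) :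
    arcO D ψ ≤ arc D ψ :=
  setIntegral_mono_set (h.integrableOn_mul_ww hψ)
    (Eventually.of_forall fun p => mul_nonneg (h0 p) (ww_nonneg D p))
    sq_subset_sqc.eventuallyLE
theorem len_nonneg (D : Set P2) : 0 ≤ len D :=
  integral_nonneg fun p => mul_nonneg zero_le_one (ww_nonneg D p)
theorem Adm2.sig2_sqc_le (h : Adm2 D) : sig2 D sqc ≤ 1 := by
  unfold sig2
  rw [Measure.map_apply h.measurable_gr measurableSet_sqc]
  refine (Measure.restrict_le_self _).trans ((measure_mono (t := Ioc (0 : ℝ) 1) ?_).trans ?_)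
  · exact fun p hp => hp.1
  · simp
theorem Adm2.len_le_two (h : Adm2 D) : len D ≤ 2 := by
  have h0 : sig D sqc ≤ 2 := by
    have h1 : sig1 D sqc ≤ 1 := by
      unfold sig1
      rw [Measure.map_apply measurable_swap measurableSet_sqc, swap_preimage_sqc]
      exact h.swap.sig2_sqc_le
    unfold sig
    rw [Measure.add_apply]
    calc sig1 D sqc + sig2 D sqc ≤ 1 + 1 := add_le_add h1 h.sig2_sqc_le
      _ = 2 := by norm_num
  have h1 : ‖len D‖ ≤ 1 * (sig D).real sqc := by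
    refine norm_setIntegral_le_of_norm_le_const_ae h.sig_sqc_lt_top (ae_restrict_of_ae ?_)
    filter_upwards [h.ww_bounds] with x hx
    rw [one_mul, Real.norm_eq_abs, abs_of_nonneg (ww_nonneg D x)]
    exact hx.2
  have h2 : (sig D).real sqc ≤ 2 := by
    have := ENNReal.toReal_mono (by norm_num) h0
    simpa [Measure.real] using this
  have h3 := le_abs_self (len D)
  rw [Real.norm_eq_abs] at h1
  linarith

end Vale.Agent.P232
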