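import Vale.Agent.P232.PlanarA

open MeasureTheory Set Filter Topology
open scoped ENNReal

noncomputable section
namespace Vale.Agent.P232

variable {D : Set P2}

theorem Adm2.plb_int (h : Adm2 D) {ζ : P2 → ℝ} (hζ : Measurable ζ) (hb : ∀ p, |ζ p| ≤ 1) :
    IntegrableOn (fun p => ζ p * (rr D p).1) sqc (sig D) ∧
      IntegrableOn (fun p => ζ p * (rr D p).2) sqc (sig D) := by
  constructor
  · refine h.integrableOn_sqc (hζ.mul (measurable_rr D).fst) (M := 1) ?_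
    filter_upwards [h.rr_sum] with p hp _
    obtain ⟨h1, h2⟩ := rr_nonneg D p
    rw [abs_mul, abs_of_nonneg h1]
    exact mul_le_one₀ (hb p) h1 (by linarith)
  · refine h.integrableOn_sqc (hζ.mul (measurable_rr D).snd) (M := 1) ?_
    filter_upwards [h.rr_sum] with p hp _
    obtain ⟨h1, h2⟩ := rr_nonneg D p
    rw [abs_mul, abs_of_nonneg h2]
    exact mul_le_one₀ (hb p) h2 (by linarith)

theorem Adm2.plb_intw (h : Adm2 D) {ζ : P2 → ℝ} (hζ : Measurable ζ) (hb : ∀ p, |ζ p| ≤ 1) :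
    IntegrableOn (fun p => ζ p * ww D p) sqc (sig D) := by
  refine h.integrableOn_sqc (hζ.mul (measurable_ww D)) (M := 1) ?_
  filter_upwards [h.ww_bounds] with p hp _
  rw [abs_mul, abs_of_nonneg (ww_nonneg D p)]
  exact mul_le_one₀ (hb p) (ww_nonneg D p) hp.2

/-- calibration -/
theorem Adm2.le_len (h : Adm2 D) {ζ₁ ζ₂ : P2 → ℝ} (h₁ : Measurable ζ₁) (h₂ : Measurable ζ₂)
    (hζ : ∀ p, ζ₁ p ^ 2 + ζ₂ p ^ 2 ≤ 1) :
    (∫ y in domy (Prod.swap ⁻¹' D) ∩ Ioo 0 1, ζ₁ (hy (Prod.swap ⁻¹' D) y, y))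
      + (∫ x in domy D ∩ Ioo 0 1, ζ₂ (x, hy D x)) ≤ len D := by
  have b1 : ∀ p, |ζ₁ p| ≤ 1 := fun p =>
    (sq_le_one_iff_abs_le_one _).1 (by nlinarith [hζ p, sq_nonneg (ζ₂ p)])
  have b2 : ∀ p, |ζ₂ p| ≤ 1 := fun p =>
    (sq_le_one_iff_abs_le_one _).1 (by nlinarith [hζ p, sq_nonneg (ζ₁ p)])
  rw [← h.integral_sqc_rr1 h₁, ← h.integral_sqc_rr2 h₂,
    ← integral_add (h.plb_int h₁ b1).1 (h.plb_int h₂ b2).2]
  refine integral_mono ((h.plb_int h₁ b1).1.add (h.plb_int h₂ b2).2)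
    (h.plb_intw measurable_const (fun _ => by simp)) fun p => ?_
  show ζ₁ p * (rr D p).1 + ζ₂ p * (rr D p).2 ≤ 1 * ww D p
  rw [one_mul]
  refine Real.le_sqrt_of_sq_le ?_
  have h3 := sq_nonneg (ζ₁ p * (rr D p).2 - ζ₂ p * (rr D p).1)
  have h4 := mul_le_mul_of_nonneg_right (hζ p)
    (add_nonneg (sq_nonneg (rr D p).1) (sq_nonneg (rr D p).2))
  nlinarith

/-- the converse estimate -/
theorem Adm2.plb_upper (h : Adm2 D) {ζ : P2 → ℝ} (hζ : Measurable ζ) (h0 : ∀ p, 0 ≤ ζ p)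
    (hb : ∀ p, ζ p ≤ 1) :
    ∫ p in sqc, ζ p * ww D p ∂(sig D) ≤
      (∫ y in domy (Prod.swap ⁻¹' D) ∩ Ioo 0 1, ζ (hy (Prod.swap ⁻¹' D) y, y))
        + (∫ x in domy D ∩ Ioo 0 1, ζ (x, hy D x)) := by
  have b1 : ∀ p, |ζ p| ≤ 1 := fun p => by rw [abs_of_nonneg (h0 p)]; exact hb p
  rw [← h.integral_sqc_rr1 hζ, ← h.integral_sqc_rr2 hζ,
    ← integral_add (h.plb_int hζ b1).1 (h.plb_int hζ b1).2]
  refine integral_mono (h.plb_intw hζ b1) ((h.plb_int hζ b1).1.add (h.plb_int hζ b1).2) fun p => ?_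
  show ζ p * ww D p ≤ ζ p * (rr D p).1 + ζ p * (rr D p).2
  rw [← mul_add]
  refine mul_le_mul_of_nonneg_left ?_ (h0 p)
  obtain ⟨h1, h2⟩ := rr_nonneg D p
  exact Real.sqrt_le_iff.2 ⟨add_nonneg h1 h2, by nlinarith [mul_nonneg h1 h2]⟩

theorem plb_hy_int (hD : MeasurableSet D) : IntegrableOn (hy D) (Ioo (0 : ℝ) 1) :=
  Measure.integrableOn_of_bounded (M := 1) (by simp) (measurable_hy hD).aestronglyMeasurable
    (Eventually.of_forall fun x => by
      rw [Real.norm_eq_abs, abs_of_nonneg (hy_nonneg D x)]; exact hy_le_one D x)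

theorem plb_hy_zero (hD : MeasurableSet D) (h0 : ar D = 0) :
    ∀ᵐ x : ℝ, x ∈ Ioo (0 : ℝ) 1 → hy D x = 0 := by
  rw [ar_eq_integral hD, integral_eq_zero_iff_of_nonneg (fun x => hy_nonneg D x) (plb_hy_int hD)] at h0
  exact (ae_restrict_iff' measurableSet_Ioo).1 h0

theorem plb_hy_one (hD : MeasurableSet D) (h1 : ar D = 1) :
    ∀ᵐ x : ℝ, x ∈ Ioo (0 : ℝ) 1 → hy D x = 1 := by
  have hc : IntegrableOn (fun _ : ℝ => (1 : ℝ)) (Ioo (0 : ℝ) 1) := integrableOn_const (by simp)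
  have h2 : ∫ x in Ioo (0 : ℝ) 1, (1 - hy D x) = 0 := by
    rw [integral_sub hc (plb_hy_int hD), ← ar_eq_integral hD, h1]; simp
  rw [integral_eq_zero_iff_of_nonneg (fun x => sub_nonneg.2 (hy_le_one D x))
    (hc.sub (plb_hy_int hD))] at h2
  filter_upwards [(ae_restrict_iff' measurableSet_Ioo).1 h2] with x hx hx'
  have h3 : 1 - hy D x = 0 := hx hx'
  linarith

theorem Adm2.plb_null (h : Adm2 D) (h0 : ar D = 0) (f : ℝ → ℝ) :
    ∫ x in domy D ∩ Ioo 0 1, f x = 0 := by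
  refine setIntegral_measure_zero _ (measure_eq_zero_iff_ae_notMem.2 ?_)
  filter_upwards [plb_hy_zero h.isOpen.measurableSet h0] with x hx hx'
  exact (h.hy_pos hx'.1.1).ne' (hx hx'.2)

theorem Adm2.len_eq_zero_of_ar (h : Adm2 D) (h0 : ar D = 0) : len D = 0 := by
  refine le_antisymm ?_ (len_nonneg D)
  have h1 := h.plb_upper (ζ := fun _ => 1) measurable_const (fun _ => zero_le_one) fun _ => le_rfl
  rw [h.plb_null h0, h.swap.plb_null ((ar_swap h.isOpen.measurableSet).trans h0), add_zero] at h1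
  exact h1

theorem Adm2.arcO_eq_zero_of_ar (h : Adm2 D) (h1 : ar D = 1) : arcO D (fun _ => 1) = 0 := by
  have hD := h.isOpen.measurableSet
  have hs : sq ⊆ sqc := prod_mono Ioo_subset_Ioc_self Ioo_subset_Ioc_self
  have h2 := h.plb_upper (ζ := sq.indicator fun _ => 1) (measurable_const.indicator measurableSet_sq)
    (fun p => indicator_nonneg (fun _ _ => zero_le_one) p)
    fun p => indicator_le_self' (fun _ _ => zero_le_one) p
  have h3 : ∫ x in domy D ∩ Ioo 0 1, sq.indicator (fun _ => (1 : ℝ)) (x, hy D x) = 0 := by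
    refine setIntegral_eq_zero_of_ae_eq_zero ?_
    filter_upwards [plb_hy_one hD h1] with x hx hx'
    exact indicator_of_notMem (fun hm => hm.2.2.ne (hx hx'.2)) _
  have h4 : ∫ y in domy (Prod.swap ⁻¹' D) ∩ Ioo 0 1,
      sq.indicator (fun _ => (1 : ℝ)) (hy (Prod.swap ⁻¹' D) y, y) = 0 := by
    refine setIntegral_eq_zero_of_ae_eq_zero ?_
    filter_upwards [plb_hy_one h.swap.isOpen.measurableSet ((ar_swap hD).trans h1)] with x hx hx'
    exact indicator_of_notMem (fun hm => hm.1.2.ne (hx hx'.2)) _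
  have h5 : ∫ p in sqc, sq.indicator (fun _ => (1 : ℝ)) p * ww D p ∂(sig D)
      = arcO D (fun _ => 1) := by
    have h6 : (fun p => sq.indicator (fun _ => (1 : ℝ)) p * ww D p)
        = sq.indicator fun p => 1 * ww D p := by
      funext p
      by_cases hp : p ∈ sq <;> simp [hp]
    rw [h6, setIntegral_indicator measurableSet_sq, inter_eq_right.2 hs]
    rfl
  rw [h3, h4, h5, add_zero] at h2
  exact le_antisymm h2 (integral_nonneg fun p => mul_nonneg zero_le_one (ww_nonneg D p))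

/-- if almost no vertical and almost no horizontal segment of the square is cut, the area is 0 or 1 -/
theorem Adm2.ar_trivial (h : Adm2 D) (hy0 : ∀ᵐ x : ℝ, x ∈ Ioo (0 : ℝ) 1 → hy D x = 0 ∨ hy D x = 1)
    (hx0 : ∀ᵐ y : ℝ, y ∈ Ioo (0 : ℝ) 1 →
      hy (Prod.swap ⁻¹' D) y = 0 ∨ hy (Prod.swap ⁻¹' D) y = 1) : ar D = 0 ∨ ar D = 1 := by
  have hD := h.isOpen.measurableSet
  by_cases ha : ∃ x ∈ Ioo (0 : ℝ) 1, hy D x = 1
  swap
  · left
    rw [ar_eq_integral hD]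
    refine setIntegral_eq_zero_of_ae_eq_zero ?_
    filter_upwards [hy0] with x hx hx'
    exact (hx hx').resolve_right fun h1 => ha ⟨x, hx', h1⟩
  by_cases hb : ∃ x ∈ Ioo (0 : ℝ) 1, hy D x = 0
  swap
  · right
    rw [ar_eq_integral hD, setIntegral_congr_ae (g := fun _ => (1 : ℝ)) measurableSet_Ioo]
    · simp
    filter_upwards [hy0] with x hx hx'
    exact (hx hx').resolve_left fun h1 => hb ⟨x, hx', h1⟩
  exfalso
  obtain ⟨a, ha, ha'⟩ := ha
  obtain ⟨b, hb, hb'⟩ := hb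
  have h1 : volume (Ioo (0 : ℝ) 1) = 0 := by
    refine measure_eq_zero_iff_ae_notMem.2 ?_
    filter_upwards [hx0] with y hy1 hy2
    have h2 : ((a, y) : P2) ∈ D := (h.mem_iff_hy a hy2).2 (ha' ▸ hy2.2)
    have h3 : ((b, y) : P2) ∉ D := fun h3 => by
      have := (h.mem_iff_hy b hy2).1 h3
      linarith [hy2.1]
    have h4 := (h.swap.mem_iff_hy y ha).1 h2
    have h5 := mt (h.swap.mem_iff_hy y hb).2 h3
    rcases hy1 hy2 with h6 | h6
    · linarith [ha.1]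
    · exact h5 (h6 ▸ hb.2)
  simp at h1

theorem Adm2.plb_cut (h : Adm2 D) (h0 : ∫ _ in domy D ∩ Ioo 0 1, (1 : ℝ) ≤ 0) :
    ∀ᵐ x : ℝ, x ∈ Ioo (0 : ℝ) 1 → hy D x = 0 ∨ hy D x = 1 := by
  have h1 : volume (domy D ∩ Ioo 0 1) ≠ ⊤ :=
    ((measure_mono inter_subset_right).trans_lt measure_Ioo_lt_top).ne
  rw [setIntegral_const, smul_eq_mul, mul_one] at h0
  have h2 := (measureReal_eq_zero_iff h1).1 (le_antisymm h0 measureReal_nonneg)
  filter_upwards [measure_eq_zero_iff_ae_notMem.1 h2] with x hx hx'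
  by_cases h3 : ((x, 0) : P2) ∈ D
  · by_cases h4 : ((x, 1) : P2) ∈ D
    · exact Or.inr (h.hy_eq_one h4)
    · exact absurd ⟨⟨h3, h4⟩, hx'⟩ hx
  · exact Or.inl (h.hy_eq_zero h3)

theorem Adm2.plb_le2 (h : Adm2 D) : ∫ _ in domy D ∩ Ioo 0 1, (1 : ℝ) ≤ len D := by
  have h1 := h.le_len (ζ₁ := fun _ => 0) (ζ₂ := fun _ => 1) measurable_const measurable_const
    fun _ => by norm_num
  rwa [integral_zero, zero_add] at h1

theorem Adm2.plb_le1 (h : Adm2 D) :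
    ∫ _ in domy (Prod.swap ⁻¹' D) ∩ Ioo 0 1, (1 : ℝ) ≤ len D := by
  have h1 := h.le_len (ζ₁ := fun _ => 1) (ζ₂ := fun _ => 0) measurable_const measurable_const
    fun _ => by norm_num
  rwa [integral_zero, add_zero] at h1

theorem Adm2.ar_of_len_eq_zero (h : Adm2 D) (h0 : len D = 0) : ar D = 0 ∨ ar D = 1 :=
  h.ar_trivial (h.plb_cut (h.plb_le2.trans h0.le)) (h.swap.plb_cut (h.plb_le1.trans h0.le))

theorem Adm2.plb_full (h : Adm2 D) (h1 : ((1, 0) : P2) ∈ D) (h2 : ((0, 1) : P2) ∉ D) :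
    ∫ _ in domy D ∩ Ioo 0 1, (1 : ℝ) = 1 := by
  have h3 : Ioo (0 : ℝ) 1 ⊆ domy D := fun x hx =>
    ⟨h.lower (show ((x, 0) : P2) ≤ (1, 0) from ⟨hx.2.le, le_rfl⟩) h1,
      fun h4 => h2 (h.lower (show ((0, 1) : P2) ≤ (x, 1) from ⟨hx.1.le, le_rfl⟩) h4)⟩
  rw [inter_eq_right.2 h3]
  simp

theorem Adm2.one_le_len (h : Adm2 D) (h1 : ((1, 0) : P2) ∈ D) (h2 : ((0, 1) : P2) ∉ D) :
    1 ≤ len D := (h.plb_full h1 h2).symm.le.trans h.plb_le2

theorem Adm2.one_le_len' (h : Adm2 D) (h1 : ((0, 1) : P2) ∈ D) (h2 : ((1, 0) : P2) ∉ D) :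
    1 ≤ len D := (h.swap.plb_full h1 h2).symm.le.trans h.plb_le1

end Vale.Agent.P232
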