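import Vale.Agent.P232.Div

open MeasureTheory Set Filter Topology
open scoped ENNReal

noncomputable section
namespace Vale.Agent.P232

/-! `nu E` is Lebesgue measure on the plane transported to the boundary along the diagonal lines. -/

variable {E : Set P3}

theorem pl_Sf (E : Set P3) (p : P2) : pl (Sf E p) = p := by
  simp [pl, Sf]

/-- height of the boundary point on the diagonal line over `p` -/
def plG (E : Set P3) (p : P2) : ℝ := sSup {t : ℝ | ((p.1 + t, p.2 + t, t) : P3) ∈ E}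

theorem Adm.pl_mem (h : Adm E) (h0 : ((0, 0, 0) : P3) ∈ E) (h1 : ((1, 1, 1) : P3) ∉ E) (p : P2)
    (t : ℝ) : ((p.1 + t, p.2 + t, t) : P3) ∈ E ↔ t < plG E p := by
  have a1 := le_abs_self p.1
  have a2 := le_abs_self p.2
  have a3 := neg_abs_le p.1
  have a4 := neg_abs_le p.2
  have a5 := abs_nonneg p.1
  have a6 := abs_nonneg p.2
  have hne : {t : ℝ | ((p.1 + t, p.2 + t, t) : P3) ∈ E}.Nonempty :=
    ⟨-(|p.1| + |p.2|), h.lower (show ((_, _, _) : P3) ≤ (0, 0, 0) from
      ⟨by simp only; linarith, by simp only; linarith, by simp only; linarith⟩) h0⟩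
  have hb : BddAbove {t : ℝ | ((p.1 + t, p.2 + t, t) : P3) ∈ E} := by
    refine ⟨1 + |p.1| + |p.2|, fun s hs => le_of_not_gt fun hs' => h1 (h.lower ?_ hs)⟩
    exact ⟨by simp only; linarith, by simp only; linarith, by simp only; linarith⟩
  constructor
  · intro ht
    have ho : IsOpen {t : ℝ | ((p.1 + t, p.2 + t, t) : P3) ∈ E} :=
      h.isOpen.preimage (f := fun t : ℝ => ((p.1 + t, p.2 + t, t) : P3)) (by fun_prop)
    obtain ⟨s, hs, hs'⟩ := ((ho.eventually_mem ht).filter_mono
      (nhdsWithin_le_nhds (s := Ioi t))).and self_mem_nhdsWithin |>.exists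
    exact lt_of_lt_of_le hs' (le_csSup hb hs)
  · intro ht
    obtain ⟨s, hs, hs'⟩ := exists_lt_of_lt_csSup hne ht
    refine h.lower ?_ hs
    exact ⟨by simp only; linarith, by simp only; linarith, hs'.le⟩

theorem Adm.continuous_plG (h : Adm E) (h0 : ((0, 0, 0) : P3) ∈ E)
    (h1 : ((1, 1, 1) : P3) ∉ E) : Continuous (plG E) := by
  refine (LipschitzWith.of_le_add fun p q => ?_).continuous
  refine le_of_forall_lt_imp_le_of_dense fun t ht => ?_
  have a1 : dist p.1 q.1 ≤ dist p q := le_max_left _ _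
  have a2 : dist p.2 q.2 ≤ dist p q := le_max_right _ _
  have a3 : 0 ≤ dist p q := dist_nonneg
  rw [Real.dist_eq, abs_le] at a1 a2
  have h2 : ((q.1 + (t - dist p q), q.2 + (t - dist p q), t - dist p q) : P3) ∈ E := by
    refine h.lower ?_ ((h.pl_mem h0 h1 p t).2 ht)
    exact ⟨by simp only; linarith, by simp only; linarith, by simp only; linarith⟩
  have h3 := (h.pl_mem h0 h1 q _).1 h2
  linarith

theorem Adm.continuous_Sf (h : Adm E) (h0 : ((0, 0, 0) : P3) ∈ E) (h1 : ((1, 1, 1) : P3) ∉ E) :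
    Continuous (Sf E) := by
  have hc := h.continuous_plG h0 h1
  show Continuous fun p : P2 => ((p.1 + plG E p, p.2 + plG E p, plG E p) : P3)
  fun_prop

theorem continuous_pl : Continuous pl := by
  unfold pl
  fun_prop

theorem Adm.pl_mem' (h : Adm E) (h0 : ((0, 0, 0) : P3) ∈ E) (h1 : ((1, 1, 1) : P3) ∉ E) (x : P3) :
    x ∈ E ↔ x.2.2 < plG E (pl x) := by
  rw [← h.pl_mem h0 h1]
  simp [pl]

theorem Adm.Sf_pl (h : Adm E) (h0 : ((0, 0, 0) : P3) ∈ E) (h1 : ((1, 1, 1) : P3) ∉ E) {x : P3}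
    (hx : x ∈ frontier E) : Sf E (pl x) = x := by
  rw [h.isOpen.frontier_eq] at hx
  have h2 : plG E (pl x) ≤ x.2.2 := le_of_not_gt (mt (h.pl_mem' h0 h1 x).2 hx.2)
  have h3 : x.2.2 ≤ plG E (pl x) :=
    closure_minimal (s := E) (t := {y : P3 | y.2.2 ≤ plG E (pl y)})
      (fun y hy => ((h.pl_mem' h0 h1 y).1 hy).le)
      (isClosed_le (by fun_prop) ((h.continuous_plG h0 h1).comp continuous_pl)) hx.1
  show (((pl x).1 + plG E (pl x), (pl x).2 + plG E (pl x), plG E (pl x)) : P3) = x
  rw [le_antisymm h2 h3]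
  simp [pl]

theorem plane_ext (μ ν : Measure P3) [IsLocallyFiniteMeasure μ] [IsLocallyFiniteMeasure ν]
    (h : ∀ f : P3 → ℝ, ContDiff ℝ 1 f → HasCompactSupport f → ∫ x, f x ∂μ = ∫ x, f x ∂ν) :
    μ = ν := by
  have hf : IsFiniteMeasureOnCompacts (μ + ν) :=
    ⟨fun K hK => by
      rw [Measure.add_apply]
      exact ENNReal.add_lt_top.2 ⟨hK.measure_lt_top, hK.measure_lt_top⟩⟩
  have a1 : μ ≪ μ + ν := Measure.AbsolutelyContinuous.rfl.add_right ν
  have a2 : ν ≪ μ + ν := Measure.AbsolutelyContinuous.rfl.add_right' μ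
  have h1 := ae_eq_of_integral_contDiff_smul_eq (μ := μ + ν)
    (f := fun x => (μ.rnDeriv (μ + ν) x).toReal) (f' := fun x => (ν.rnDeriv (μ + ν) x).toReal)
    (locallyIntegrable_iff.2 fun K hK => Measure.integrableOn_toReal_rnDeriv hK.measure_lt_top.ne)
    (locallyIntegrable_iff.2 fun K hK => Measure.integrableOn_toReal_rnDeriv hK.measure_lt_top.ne)
    fun g hg hc => by
      simp only [smul_eq_mul, mul_comm (g _)]
      rw [integral_toReal_rnDeriv_mul a1, integral_toReal_rnDeriv_mul a2]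
      exact h g (hg.of_le (by simp)) hc
  rw [← Measure.withDensity_rnDeriv_eq μ _ a1]
  conv_rhs => rw [← Measure.withDensity_rnDeriv_eq ν _ a2]
  refine withDensity_congr_ae ?_
  filter_upwards [h1, Measure.rnDeriv_ne_top μ (μ + ν), Measure.rnDeriv_ne_top ν (μ + ν)]
    with x hx h2 h3
  exact (ENNReal.toReal_eq_toReal_iff' h2 h3).1 hx

theorem plane_shear : MeasurePreserving
    (fun q : ℝ × P2 => ((q.2.1 + q.1, q.2.2 + q.1, q.1) : P3)) volume volume := by
  have h1 : MeasurePreserving (fun q : ℝ × P2 => ((id q.1, q.2 + (q.1, q.1)) : P3))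
      ((volume : Measure ℝ).prod volume) ((volume : Measure ℝ).prod volume) :=
    (MeasurePreserving.id volume).skew_product (g := fun (t : ℝ) (p : P2) => p + (t, t))
      (by fun_prop) (Eventually.of_forall fun t => map_add_right_eq_self _ _)
  exact measurePreserving_cyc.comp h1

theorem Adm.plane_line (h : Adm E) (h0 : ((0, 0, 0) : P3) ∈ E) (h1 : ((1, 1, 1) : P3) ∉ E)
    {f : P3 → ℝ} (hf : ContDiff ℝ 1 f) (hc : HasCompactSupport f) (p : P2) :
    ∫ t, E.indicator (fun x => fderiv ℝ f x (1, 1, 1)) (p.1 + t, p.2 + t, t) = f (Sf E p) := by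
  have hi : Isometry fun t : ℝ => ((p.1 + t, p.2 + t, t) : P3) :=
    Isometry.of_dist_eq fun a b => by simp [Prod.dist_eq]
  have d1 : ContDiff ℝ 1 fun t : ℝ => f (p.1 + t, p.2 + t, t) := hf.comp (by fun_prop)
  have h2 : HasCompactSupport fun t : ℝ => f (p.1 + t, p.2 + t, t) :=
    hc.comp_isClosedEmbedding hi.isClosedEmbedding
  have h3 : ∀ t, fderiv ℝ f (p.1 + t, p.2 + t, t) (1, 1, 1)
      = deriv (fun t : ℝ => f (p.1 + t, p.2 + t, t)) t := fun t => by
    have h4 : HasDerivAt (fun t : ℝ => ((p.1 + t, p.2 + t, t) : P3)) (1, 1, 1) t :=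
      ((hasDerivAt_id t).const_add p.1).prodMk
        (((hasDerivAt_id t).const_add p.2).prodMk (hasDerivAt_id t))
    exact ((hf.differentiable one_ne_zero _).hasFDerivAt.comp_hasDerivAt t h4).deriv.symm
  have e : ∀ t, E.indicator (fun x => fderiv ℝ f x (1, 1, 1)) (p.1 + t, p.2 + t, t) =
      (Iio (plG E p)).indicator (deriv fun t : ℝ => f (p.1 + t, p.2 + t, t)) t := fun t => by
    by_cases ht : t < plG E p
    · rw [indicator_of_mem ((h.pl_mem h0 h1 p t).2 ht), indicator_of_mem (mem_Iio.2 ht), h3]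
    · rw [indicator_of_notMem (mt (h.pl_mem h0 h1 p t).1 ht),
        indicator_of_notMem (mt mem_Iio.1 ht)]
  simp only [e]
  rw [integral_indicator measurableSet_Iio, ← integral_Iic_eq_integral_Iio,
    h2.integral_Iic_deriv_eq d1]
  rfl

theorem Adm.plane_int (h : Adm E) (h0 : ((0, 0, 0) : P3) ∈ E) (h1 : ((1, 1, 1) : P3) ∉ E)
    {f : P3 → ℝ} (hf : ContDiff ℝ 1 f) (hc : HasCompactSupport f) :
    ∫ x, f x ∂(nu E) = ∫ p, f (Sf E p) := by
  have h2 := h.div_thm (Z := fun x => f x • ((1, 1, 1) : P3)) (hf.smul contDiff_const) hc.smul_right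
  have h3 : ∀ x, dv (fun x => f x • ((1, 1, 1) : P3)) x = fderiv ℝ f x (1, 1, 1) := fun x => by
    have e : ((1, 1, 1) : P3) = e1 + e2 + e3 := by simp [e1, e2, e3]
    rw [dv, ((hf.differentiable one_ne_zero x).hasFDerivAt.smul_const _).fderiv]
    conv_rhs => rw [e, map_add, map_add]
    simp [trc]
  have h4 : ∫ x, dot (f x • ((1, 1, 1) : P3)) (rho E x) ∂(nu E) = ∫ x, f x ∂(nu E) := by
    refine integral_congr_ae ?_
    filter_upwards [h.rho_sum] with x hx
    simp only [dot, Prod.smul_mk, smul_eq_mul, mul_one]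
    rw [← mul_add, ← mul_add, hx, mul_one]
  have hi := (div_integrable hf hc (1, 1, 1)).indicator h.measurableSet
  simp only [h3] at h2
  rw [← h4, ← h2, ← integral_indicator h.measurableSet, ← plane_shear.map_eq,
    integral_map plane_shear.measurable.aemeasurable
      (plane_shear.map_eq.symm ▸ hi.aestronglyMeasurable)]
  exact (integral_prod_symm _ (plane_shear.integrable_comp_of_integrable hi)).trans
    (integral_congr_ae (Eventually.of_forall (h.plane_line h0 h1 hf hc)))

theorem Adm.nu_eq_map (h : Adm E) (h0 : ((0, 0, 0) : P3) ∈ E) (h1 : ((1, 1, 1) : P3) ∉ E) :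
    nu E = (volume : Measure P2).map (Sf E) := by
  have hc := h.continuous_Sf h0 h1
  have := h.nu_locFin
  have : IsFiniteMeasureOnCompacts ((volume : Measure P2).map (Sf E)) :=
    ⟨fun K hK => by
      rw [Measure.map_apply hc.measurable hK.measurableSet]
      refine (measure_mono fun p hp => ?_).trans_lt (hK.image continuous_pl).measure_lt_top
      exact ⟨_, hp, pl_Sf E p⟩⟩
  refine plane_ext _ _ fun f hf hs => ?_
  rw [integral_map hc.measurable.aemeasurable hf.continuous.aestronglyMeasurable]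
  exact h.plane_int h0 h1 hf hs

end Vale.Agent.P232
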