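import Vale.Agent.P232.PerInt

open MeasureTheory Set Filter Topology
open scoped ENNReal

noncomputable section
namespace Vale.Agent.P232

/-! Fields tangent to the faces of the cube are admissible test fields. -/

theorem refl_cut : ∃ K : ℝ, ∃ χ : ℕ → ℝ → ℝ, (∀ n, ContDiff ℝ 1 (χ n)) ∧
    (∀ n t, 0 ≤ χ n t ∧ χ n t ≤ 1) ∧ (∀ n t, χ n t ≠ 0 → 1 ≤ n * (t * (1 - t))) ∧
    (∀ n, ∀ t ∈ Ioo (0 : ℝ) 1, |deriv (χ n) t| * (t * (1 - t)) ≤ K) ∧
    ∀ t ∈ Ioo (0 : ℝ) 1, ∀ᶠ n in atTop, χ n t = 1 ∧ deriv (χ n) t = 0 := by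
  set θ : ℝ → ℝ := fun u => Real.smoothTransition (u - 1)
  have hθ : ContDiff ℝ 1 θ := Real.smoothTransition.contDiff.comp (by fun_prop)
  have h2 : ∀ u, 2 < u → θ u = 1 ∧ deriv θ u = 0 := by
    intro u hu
    have : θ =ᶠ[𝓝 u] fun _ => 1 := (lt_mem_nhds hu).mono fun v hv =>
      Real.smoothTransition.one_of_one_le (by linarith)
    exact ⟨this.self_of_nhds, by rw [this.deriv_eq, deriv_const]⟩
  obtain ⟨K, hK⟩ := isCompact_Icc.exists_bound_of_continuousOn (s := Icc (0 : ℝ) 2)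
    (hθ.continuous_deriv le_rfl).continuousOn
  have hK0 : 0 ≤ K := (norm_nonneg _).trans (hK 0 (by simp))
  have hd : ∀ (n : ℕ) (t : ℝ), deriv (fun t => θ (n * (t * (1 - t)))) t =
      deriv θ (n * (t * (1 - t))) * (n * (1 - 2 * t)) := by
    intro n t
    have h1 : HasDerivAt (fun t : ℝ => (n : ℝ) * (t * (1 - t))) (n * (1 - 2 * t)) t :=
      (((hasDerivAt_id t).mul ((hasDerivAt_id t).const_sub 1)).const_mul (n : ℝ)).congr_deriv
        (by simp only [id]; ring)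
    exact ((hθ.differentiable one_ne_zero _).hasDerivAt.comp t h1).deriv
  refine ⟨K * 2, fun n t => θ (n * (t * (1 - t))), fun n => hθ.comp (by fun_prop),
    fun n t => ⟨Real.smoothTransition.nonneg _, Real.smoothTransition.le_one _⟩,
    fun n t h => by_contra fun h' => h (Real.smoothTransition.zero_of_nonpos (by linarith)),
    fun n t ht => ?_, fun t ht => ?_⟩
  · have hp : 0 ≤ t * (1 - t) := mul_nonneg ht.1.le (by linarith [ht.2])
    have hu : 0 ≤ n * (t * (1 - t)) := mul_nonneg n.cast_nonneg hp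
    rw [hd]
    rcases le_or_gt (n * (t * (1 - t))) 2 with h | h
    · have h3 : |1 - 2 * t| ≤ 1 := abs_le.2 ⟨by linarith [ht.2], by linarith [ht.1]⟩
      rw [abs_mul, abs_mul, Nat.abs_cast, mul_assoc]
      refine mul_le_mul (hK _ ⟨hu, h⟩) ?_ (by positivity) hK0
      nlinarith [mul_le_mul_of_nonneg_left h3 hu]
    · rw [(h2 _ h).2]
      simp only [zero_mul, abs_zero]
      positivity
  · have hp : 0 < t * (1 - t) := mul_pos ht.1 (by linarith [ht.2])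
    filter_upwards [(tendsto_natCast_atTop_atTop.atTop_mul_const hp).eventually_gt_atTop 2]
      with n hn
    rw [hd, (h2 _ hn).2, zero_mul]
    exact ⟨(h2 _ hn).1, rfl⟩

theorem refl_dv_smul {φ : P3 → ℝ} {Y : P3 → P3} {x : P3} (hφ : DifferentiableAt ℝ φ x)
    (hY : DifferentiableAt ℝ Y x) : dv (fun x => φ x • Y x) x = φ x * dv Y x +
      (fderiv ℝ φ x e1 * (Y x).1 + fderiv ℝ φ x e2 * (Y x).2.1 + fderiv ℝ φ x e3 * (Y x).2.2) := by
  unfold dv trc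
  rw [fderiv_fun_smul hφ hY]
  simp
  ring

theorem refl_fd {χ : ℝ → ℝ} (hχ : ContDiff ℝ 1 χ) (x v : P3) :
    fderiv ℝ (fun x : P3 => χ x.1 * χ x.2.1 * χ x.2.2) x v =
      deriv χ x.1 * v.1 * χ x.2.1 * χ x.2.2 + χ x.1 * (deriv χ x.2.1 * v.2.1) * χ x.2.2 +
        χ x.1 * χ x.2.1 * (deriv χ x.2.2 * v.2.2) := by
  have h := fun t => (hχ.differentiable one_ne_zero t).hasDerivAt
  have h1 := (h x.1).comp_hasFDerivAt x (hasFDerivAt_fst (𝕜 := ℝ) (p := x))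
  have h2 := (h x.2.1).comp_hasFDerivAt x (hasFDerivAt_snd (𝕜 := ℝ) (p := x)).fst
  have h3 := (h x.2.2).comp_hasFDerivAt x (hasFDerivAt_snd (𝕜 := ℝ) (p := x)).snd
  have h4 := ((h1.mul h2).mul h3).fderiv
  refine (congrArg (fun L : P3 →L[ℝ] ℝ => L v) h4).trans ?_
  simp
  ring

theorem refl_lin {L t y d K : ℝ} (ht : t ∈ Ioo (0 : ℝ) 1) (h0 : |y| ≤ L * t) (h1 : |y| ≤ L * (1 - t))
    (hd : |d| * (t * (1 - t)) ≤ K) {a b : ℝ} (ha : 0 ≤ a ∧ a ≤ 1) (hb : 0 ≤ b ∧ b ≤ 1) :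
    |d * a * b * y| ≤ 2 * L * K := by
  have hL : 0 ≤ L := nonneg_of_mul_nonneg_left ((abs_nonneg y).trans h0) ht.1
  have h2 : |y| ≤ 2 * L * (t * (1 - t)) := by
    nlinarith [mul_le_mul_of_nonneg_left h0 (sub_pos.2 ht.2).le,
      mul_le_mul_of_nonneg_left h1 ht.1.le]
  rw [abs_mul, abs_mul, abs_mul, abs_of_nonneg ha.1, abs_of_nonneg hb.1]
  have h3 : |d| * a * b ≤ |d| := by
    rw [mul_assoc]
    exact mul_le_of_le_one_right (abs_nonneg d) (mul_le_one₀ ha.2 hb.1 hb.2)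
  calc |d| * a * b * |y| ≤ |d| * (2 * L * (t * (1 - t))) :=
        mul_le_mul h3 h2 (abs_nonneg y) (abs_nonneg d)
    _ = 2 * L * (|d| * (t * (1 - t))) := by ring
    _ ≤ 2 * L * K := mul_le_mul_of_nonneg_left hd (by linarith)

theorem refl_face {F : Set P3} {c : ℝ} (hF : MeasurableSet F) (h : RelLe F c) {Y : P3 → P3}
    (hY : ContDiff ℝ 1 Y) (hn : ∀ x, nrm (Y x) ≤ 1)
    (h1 : ∀ y z, (Y (0, y, z)).1 = 0 ∧ (Y (1, y, z)).1 = 0)
    (h2 : ∀ y z, (Y (y, 0, z)).2.1 = 0 ∧ (Y (y, 1, z)).2.1 = 0)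
    (h3 : ∀ y z, (Y (y, z, 0)).2.2 = 0 ∧ (Y (y, z, 1)).2.2 = 0) : ∫ x in F ∩ Q, dv Y x ≤ c := by
  obtain ⟨K, χ, hχ, h01, hs, hK, hl⟩ := refl_cut
  obtain ⟨L, hL⟩ := hY.contDiffOn.exists_lipschitzOnWith one_ne_zero (convex_Icc (0 : P3) 1)
    isCompact_Icc
  obtain ⟨B, hB⟩ := isCompact_Icc.exists_bound_of_continuousOn (s := Icc (0 : P3) 1)
    (continuous_dv hY).continuousOn
  set φ : ℕ → P3 → ℝ := fun n x => χ n x.1 * χ n x.2.1 * χ n x.2.2
  have hφ : ∀ n, ContDiff ℝ 1 (φ n) := fun n =>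
    (((hχ n).comp contDiff_fst).mul ((hχ n).comp contDiff_snd.fst)).mul
      ((hχ n).comp contDiff_snd.snd)
  have hφ01 : ∀ n x, 0 ≤ φ n x ∧ φ n x ≤ 1 := fun n x =>
    ⟨mul_nonneg (mul_nonneg (h01 _ _).1 (h01 _ _).1) (h01 _ _).1,
      mul_le_one₀ (mul_le_one₀ (h01 _ _).2 (h01 _ _).1 (h01 _ _).2) (h01 _ _).1 (h01 _ _).2⟩
  have hQ : Q ⊆ Icc (0 : P3) 1 := fun x hx =>
    ⟨⟨hx.1.1.le, hx.2.1.1.le, hx.2.2.1.le⟩, hx.1.2.le, hx.2.1.2.le, hx.2.2.2.le⟩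
  have hdv : ∀ n x, dv (fun x => φ n x • Y x) x = φ n x * dv Y x +
      (deriv (χ n) x.1 * χ n x.2.1 * χ n x.2.2 * (Y x).1 +
        deriv (χ n) x.2.1 * χ n x.1 * χ n x.2.2 * (Y x).2.1 +
        deriv (χ n) x.2.2 * χ n x.1 * χ n x.2.1 * (Y x).2.2) := by
    intro n x
    rw [refl_dv_smul ((hφ n).differentiable one_ne_zero x) (hY.differentiable one_ne_zero x),
      refl_fd (hχ n), refl_fd (hχ n), refl_fd (hχ n)]
    simp only [e1, e2, e3]
    ring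
  have hle : ∀ n, ∫ x in F ∩ Q, dv (fun x => φ n x • Y x) x ≤ c := by
    intro n
    have hI : ∀ t : ℝ, 1 ≤ n * (t * (1 - t)) → t ∈ Ioo (0 : ℝ) 1 := by
      intro t ht
      have : 0 < t * (1 - t) := pos_of_mul_pos_right (one_pos.trans_le ht) n.cast_nonneg
      constructor <;> nlinarith
    have hts : tsupport (fun x => φ n x • Y x) ⊆ {x : P3 | 1 ≤ n * (x.1 * (1 - x.1)) ∧
        1 ≤ n * (x.2.1 * (1 - x.2.1)) ∧ 1 ≤ n * (x.2.2 * (1 - x.2.2))} := by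
      have hc : ∀ g : P3 → ℝ, Continuous g → IsClosed {x | 1 ≤ n * (g x * (1 - g x))} :=
        fun g hg => isClosed_le (by fun_prop) (by fun_prop)
      refine closure_minimal (fun x hx => ?_) ((hc _ continuous_fst).inter
        ((hc _ continuous_snd.fst).inter (hc _ continuous_snd.snd)))
      have h4 := left_ne_zero_of_smul hx
      exact ⟨hs _ _ (left_ne_zero_of_mul (left_ne_zero_of_mul h4)),
        hs _ _ (right_ne_zero_of_mul (left_ne_zero_of_mul h4)), hs _ _ (right_ne_zero_of_mul h4)⟩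
    have hq : tsupport (fun x => φ n x • Y x) ⊆ Q := fun x hx =>
      ⟨hI _ (hts hx).1, hI _ (hts hx).2.1, hI _ (hts hx).2.2⟩
    refine h _ ((hφ n).smul hY) (fun x => ?_)
      (isCompact_Icc.of_isClosed_subset (isClosed_tsupport _) (hq.trans hQ)) hq
    rw [nrm_smul, abs_of_nonneg (hφ01 n x).1]
    exact mul_le_one₀ (hφ01 n x).2 (nrm_nonneg _) (hn x)
  have hm := hF.inter measurableSet_Q
  have hfin : IsFiniteMeasure (volume.restrict (F ∩ Q)) := isFiniteMeasure_restrict.2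
    ((measure_mono inter_subset_right).trans_lt (volume_Q ▸ ENNReal.one_lt_top)).ne
  refine le_of_tendsto' (tendsto_integral_of_dominated_convergence
    (F := fun n => dv fun x => φ n x • Y x)
    (fun _ => B + (2 * L * K + 2 * L * K + 2 * L * K))
    (fun n => (continuous_dv ((hφ n).smul hY)).aestronglyMeasurable) (integrable_const _)
    (fun n => ae_restrict_of_forall_mem hm fun x hx => ?_)
    (ae_restrict_of_forall_mem hm fun x hx => ?_)) hle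
  · obtain ⟨x1, x2, x3⟩ := x
    have hx := hx.2
    have hx' := hQ hx
    obtain ⟨⟨a1, a2, a3⟩, b1, b2, b3⟩ := id hx'
    have hd : ∀ w ∈ Icc (0 : P3) 1, ∀ r, 0 ≤ r → |x1 - w.1| ≤ r → |x2 - w.2.1| ≤ r →
        |x3 - w.2.2| ≤ r → |(Y (x1, x2, x3)).1 - (Y w).1| ≤ L * r ∧
          |(Y (x1, x2, x3)).2.1 - (Y w).2.1| ≤ L * r ∧
          |(Y (x1, x2, x3)).2.2 - (Y w).2.2| ≤ L * r := by
      intro w hw r _ r1 r2 r3
      have := (hL.dist_le_mul _ hx' w hw).trans (mul_le_mul_of_nonneg_left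
        (max_le r1 (max_le r2 r3) : dist (x1, x2, x3) w ≤ r) L.2)
      exact ⟨(le_max_left _ _).trans this, (le_max_left _ _).trans ((le_max_right _ _).trans this),
        (le_max_right _ _).trans ((le_max_right _ _).trans this)⟩
    simp only [Prod.fst_zero, Prod.snd_zero, Prod.fst_one, Prod.snd_one] at a1 a2 a3 b1 b2 b3
    have c1 := (hd (0, x2, x3) ⟨⟨le_rfl, a2, a3⟩, zero_le_one, b2, b3⟩ x1 a1
      (by simp [abs_of_nonneg a1]) (by simpa) (by simpa)).1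
    have d1 := (hd (1, x2, x3) ⟨⟨zero_le_one, a2, a3⟩, le_rfl, b2, b3⟩ (1 - x1) (by linarith)
      (by rw [abs_sub_comm, abs_of_nonneg (by linarith)]) (by simpa) (by simpa)).1
    have c2 := (hd (x1, 0, x3) ⟨⟨a1, le_rfl, a3⟩, b1, zero_le_one, b3⟩ x2 a2
      (by simpa) (by simp [abs_of_nonneg a2]) (by simpa)).2.1
    have d2 := (hd (x1, 1, x3) ⟨⟨a1, zero_le_one, a3⟩, b1, le_rfl, b3⟩ (1 - x2) (by linarith)
      (by simpa) (by rw [abs_sub_comm, abs_of_nonneg (by linarith)]) (by simpa)).2.1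
    have c3 := (hd (x1, x2, 0) ⟨⟨a1, a2, le_rfl⟩, b1, b2, zero_le_one⟩ x3 a3
      (by simpa) (by simpa) (by simp [abs_of_nonneg a3])).2.2
    have d3 := (hd (x1, x2, 1) ⟨⟨a1, a2, zero_le_one⟩, b1, b2, le_rfl⟩ (1 - x3) (by linarith)
      (by simpa) (by simpa) (by rw [abs_sub_comm, abs_of_nonneg (by linarith)])).2.2
    rw [(h1 _ _).1, sub_zero] at c1
    rw [(h1 _ _).2, sub_zero] at d1
    rw [(h2 _ _).1, sub_zero] at c2
    rw [(h2 _ _).2, sub_zero] at d2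
    rw [(h3 _ _).1, sub_zero] at c3
    rw [(h3 _ _).2, sub_zero] at d3
    rw [hdv, Real.norm_eq_abs]
    refine (abs_add_le _ _).trans (add_le_add ?_ ((abs_add_three _ _ _).trans (add_le_add
      (add_le_add (refl_lin hx.1 c1 d1 (hK n _ hx.1) (h01 _ _) (h01 _ _))
        (refl_lin hx.2.1 c2 d2 (hK n _ hx.2.1) (h01 _ _) (h01 _ _)))
      (refl_lin hx.2.2 c3 d3 (hK n _ hx.2.2) (h01 _ _) (h01 _ _)))))
    rw [abs_mul, abs_of_nonneg (hφ01 _ _).1]
    exact (mul_le_of_le_one_left (abs_nonneg _) (hφ01 _ _).2).trans (hB _ hx')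
  · refine tendsto_const_nhds.congr' ?_
    filter_upwards [hl _ hx.2.1, hl _ hx.2.2.1, hl _ hx.2.2.2] with n n1 n2 n3
    rw [hdv]
    simp only [φ, n1, n2, n3]
    ring

end Vale.Agent.P232
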