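import Vale.Agent.P232.PerInt

open MeasureTheory Set Filter Topology
open scoped ENNReal

noncomputable section
namespace Vale.Agent.P232

/-! Task: one-dimensional periodic sets.  `tv S ε` is the total variation over a period of the moving
average `u z = ε⁻¹ |S ∩ (z, z+ε)|`; at Lebesgue density points of `S` (resp. of the complement) `u → 1`
(resp. `0`).  Two such points give `tv ≥ 2 - o(1)`, four alternating ones give `tv ≥ 4 - o(1)`. -/

/-- the indicator function -/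
def st1f (S : Set ℝ) : ℝ → ℝ := S.indicator fun _ => 1

/-- the moving average -/
def st1u (S : Set ℝ) (ε z : ℝ) : ℝ :=
  ε⁻¹ * ((∫ t in (0 : ℝ)..(z + ε), st1f S t) - ∫ t in (0 : ℝ)..z, st1f S t)

theorem st1_abs (S : Set ℝ) (z w : ℝ) : |st1f S z - st1f S w| ≤ 1 := by
  unfold st1f
  by_cases h : z ∈ S <;> by_cases h' : w ∈ S <;> simp [h, h']

theorem st1_per {S : Set ℝ} (hp : ∀ z, z + 2 ∈ S ↔ z ∈ S) : Function.Periodic (st1f S) 2 := by
  intro z
  unfold st1f
  by_cases h : z ∈ S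
  · simp [h, (hp z).2 h]
  · simp [h, mt (hp z).1 h]

theorem st1_ii {g : ℝ → ℝ} (hg : Measurable g) (hb : ∀ z, |g z| ≤ 1) (a b : ℝ) :
    IntervalIntegrable g volume a b :=
  (intervalIntegrable_const (c := (1 : ℝ))).mono_fun' hg.aestronglyMeasurable (ae_of_all _ hb)

theorem st1_meas {S : Set ℝ} (hS : MeasurableSet S) : Measurable (st1f S) :=
  measurable_const.indicator hS

theorem st1_fi {S : Set ℝ} (hS : MeasurableSet S) (a b : ℝ) :
    IntervalIntegrable (st1f S) volume a b := by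
  refine st1_ii (st1_meas hS) (fun z => ?_) a b
  unfold st1f
  by_cases h : z ∈ S <;> simp [h]

theorem st1_gi {S : Set ℝ} (hS : MeasurableSet S) (ε a b : ℝ) :
    IntervalIntegrable (fun z => |st1f S z - st1f S (z + ε)|) volume a b :=
  st1_ii ((st1_meas hS).sub ((st1_meas hS).comp (measurable_add_const ε))).abs
    (fun z => by rw [abs_abs]; exact st1_abs S _ _) a b

theorem st1_step {S : Set ℝ} (hS : MeasurableSet S) {ε a b : ℝ} (hε : 0 < ε) (hab : a ≤ b) :
    |st1u S ε b - st1u S ε a| ≤ (∫ z in a..b, |st1f S z - st1f S (z + ε)|) / ε := by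
  have h1 : st1u S ε a - st1u S ε b = (∫ z in a..b, (st1f S z - st1f S (z + ε))) / ε := by
    rw [intervalIntegral.integral_sub (st1_fi hS a b)
      (by simpa using (st1_fi hS (a + ε) (b + ε)).comp_add_right ε),
      intervalIntegral.integral_comp_add_right,
      ← intervalIntegral.integral_interval_sub_left (st1_fi hS 0 b) (st1_fi hS 0 a),
      ← intervalIntegral.integral_interval_sub_left (st1_fi hS 0 (b + ε)) (st1_fi hS 0 (a + ε))]
    unfold st1u
    ring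
  rw [abs_sub_comm, h1, abs_div, abs_of_pos hε]
  exact div_le_div_of_nonneg_right (intervalIntegral.abs_integral_le_integral_abs hab) hε.le

theorem st1_tv {S : Set ℝ} (hp : ∀ z, z + 2 ∈ S ↔ z ∈ S) (ε a : ℝ) :
    tv S ε = (∫ z in a..a + 2, |st1f S z - st1f S (z + ε)|) / ε := by
  have h : Function.Periodic (fun z => |st1f S z - st1f S (z + ε)|) 2 := fun z => by
    simp only [st1_per hp z, add_right_comm z 2 ε, st1_per hp (z + ε)]
  rw [h.intervalIntegral_add_eq a (-1), intervalIntegral.integral_of_le (by norm_num),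
    integral_Ioc_eq_integral_Ioo, show (-1 : ℝ) + 2 = 1 by norm_num]
  rfl

theorem st1_uper {S : Set ℝ} (hS : MeasurableSet S) (hp : ∀ z, z + 2 ∈ S ↔ z ∈ S) (ε a : ℝ) :
    st1u S ε (a + 2) = st1u S ε a := by
  unfold st1u
  rw [intervalIntegral.integral_interval_sub_left (st1_fi hS _ _) (st1_fi hS _ _),
    intervalIntegral.integral_interval_sub_left (st1_fi hS _ _) (st1_fi hS _ _),
    add_right_comm a 2 ε, ← intervalIntegral.integral_comp_add_right]
  simp only [st1_per hp _]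

theorem st1_four {S : Set ℝ} (hS : MeasurableSet S) (hp : ∀ z, z + 2 ∈ S ↔ z ∈ S) {ε a b c d : ℝ}
    (hε : 0 < ε) (hab : a ≤ b) (hbc : b ≤ c) (hcd : c ≤ d) (hda : d ≤ a + 2) :
    |st1u S ε b - st1u S ε a| + |st1u S ε c - st1u S ε b| + |st1u S ε d - st1u S ε c|
      + |st1u S ε a - st1u S ε d| ≤ tv S ε := by
  have h1 := st1_step hS hε hab
  have h2 := st1_step hS hε hbc
  have h3 := st1_step hS hε hcd
  have h4 := st1_step hS hε hda
  rw [st1_uper hS hp] at h4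
  rw [st1_tv hp ε a,
    ← intervalIntegral.integral_add_adjacent_intervals (st1_gi hS ε a d) (st1_gi hS ε _ _),
    ← intervalIntegral.integral_add_adjacent_intervals (st1_gi hS ε a c) (st1_gi hS ε _ _),
    ← intervalIntegral.integral_add_adjacent_intervals (st1_gi hS ε a b) (st1_gi hS ε _ _),
    add_div, add_div, add_div]
  linarith

theorem st1_good {S : Set ℝ} (hS : MeasurableSet S) :
    ∀ᵐ z : ℝ, Tendsto (fun ε => st1u S ε z) (𝓝[>] 0) (𝓝 (st1f S z)) := by
  have h : LocallyIntegrable (st1f S) volume :=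
    (locallyIntegrable_const (1 : ℝ)).indicator hS
  filter_upwards [_root_.LocallyIntegrable.ae_hasDerivAt_integral h] with z hz
  exact (hz 0).tendsto_slope_zero_right

theorem st1_ev {S : Set ℝ} (hS : MeasurableSet S) (hp : ∀ z, z + 2 ∈ S ↔ z ∈ S) {a b c d r : ℝ}
    (hab : a ≤ b) (hbc : b ≤ c) (hcd : c ≤ d) (hda : d ≤ a + 2)
    (ha : Tendsto (fun ε => st1u S ε a) (𝓝[>] 0) (𝓝 (st1f S a)))
    (hb : Tendsto (fun ε => st1u S ε b) (𝓝[>] 0) (𝓝 (st1f S b)))
    (hc : Tendsto (fun ε => st1u S ε c) (𝓝[>] 0) (𝓝 (st1f S c)))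
    (hd : Tendsto (fun ε => st1u S ε d) (𝓝[>] 0) (𝓝 (st1f S d)))
    (hr : r < |st1f S b - st1f S a| + |st1f S c - st1f S b| + |st1f S d - st1f S c|
      + |st1f S a - st1f S d|) : ∀ᶠ ε in 𝓝[>] (0 : ℝ), r < tv S ε := by
  have h := ((((hb.sub ha).abs.add (hc.sub hb).abs).add (hd.sub hc).abs).add
    (ha.sub hd).abs).eventually (lt_mem_nhds hr)
  filter_upwards [h, self_mem_nhdsWithin] with ε h1 hε
  exact h1.trans_le (st1_four hS hp hε hab hbc hcd hda)

theorem two_le_tv {S : Set ℝ} (hS : MeasurableSet S) (hp : ∀ z, z + 2 ∈ S ↔ z ∈ S)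
    (h0 : 0 < (volume (S ∩ Ioo (-1) 1)).toReal) (h2 : (volume (S ∩ Ioo (-1) 1)).toReal < 2)
    {c : ℝ} (hc : c < 2) : ∀ᶠ ε in 𝓝[>] (0 : ℝ), c ≤ tv S ε := by
  have h1 : volume (S ∩ Ioo (-1) 1) ≠ 0 := fun h => by simp [h] at h0
  have h3 : volume (Ioo (-1) 1 \ S) ≠ 0 := fun h => by
    have := measure_inter_add_sdiff (μ := volume) (Ioo (-1 : ℝ) 1) hS
    rw [h, add_zero, inter_comm] at this
    rw [this, Real.volume_Ioo, ENNReal.toReal_ofReal (by norm_num)] at h2
    norm_num at h2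
  obtain ⟨a, ⟨haS, ha⟩, ga⟩ := Measure.exists_mem_of_measure_ne_zero_of_ae h1
    (ae_restrict_of_ae (st1_good hS))
  obtain ⟨b, ⟨hb, hbS⟩, gb⟩ := Measure.exists_mem_of_measure_ne_zero_of_ae h3
    (ae_restrict_of_ae (st1_good hS))
  have ea : st1f S a = 1 := indicator_of_mem haS _
  have eb : st1f S b = 0 := indicator_of_notMem hbS _
  rcases le_total a b with h | h
  · refine (st1_ev hS hp h le_rfl le_rfl (by linarith [ha.1, hb.2]) ga gb gb gb ?_).mono
      fun _ => le_of_lt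
    rw [ea, eb]
    norm_num
    linarith
  · refine (st1_ev hS hp h le_rfl le_rfl (by linarith [ha.2, hb.1]) gb ga ga ga ?_).mono
      fun _ => le_of_lt
    rw [ea, eb]
    norm_num
    linarith

theorem st1_arc {S : Set ℝ} (hS : MeasurableSet S) (hp : ∀ z, z + 2 ∈ S ↔ z ∈ S) {b α β : ℝ}
    (h1 : b ≤ α) (h2 : α ≤ β) (h3 : β ≤ b + 2)
    (h : ∀ᵐ z : ℝ, z ∈ Ioo b (b + 2) → (z ∈ S ↔ z ∈ Ioo α β)) :
    ∃ m : ℝ, ∀ᵐ z : ℝ, (z ∈ S ↔ d2 (z - m) < (volume (S ∩ Ioo (-1) 1)).toReal / 2) := by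
  have e : ∀ t : ℝ, ∫ z in t..t + 2, st1f S z = (volume (S ∩ Ioo t (t + 2))).toReal := by
    intro t
    rw [intervalIntegral.integral_of_le (by linarith), integral_Ioc_eq_integral_Ioo, st1f,
      integral_indicator hS, setIntegral_const, smul_eq_mul, mul_one, Measure.real,
      Measure.restrict_apply hS]
  have hv : (volume (S ∩ Ioo (-1) 1)).toReal = β - α := by
    have e1 := e (-1)
    rw [(st1_per hp).intervalIntegral_add_eq (-1) b, e, show (-1 : ℝ) + 2 = 1 by norm_num] at e1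
    rw [← e1, measure_congr (t := Ioo α β), Real.volume_Ioo, ENNReal.toReal_ofReal (by linarith)]
    filter_upwards [h] with z hz
    refine propext ⟨fun hm => (hz hm.2).1 hm.1, fun hm => ?_⟩
    have hm : z ∈ Ioo α β := hm
    have hz' : z ∈ Ioo b (b + 2) := ⟨h1.trans_lt hm.1, hm.2.trans_le h3⟩
    exact ⟨(hz hz').2 hm, hz'⟩
  have hb : ∀ᵐ z : ℝ, z ≠ b := by simp [ae_iff]
  have hn : ∀ᵐ z : ℝ, ∀ n : ℤ, z - n * 2 ≠ b ∧
      (z - n * 2 ∈ Ioo b (b + 2) → (z - n * 2 ∈ S ↔ z - n * 2 ∈ Ioo α β)) :=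
    ae_all_iff.2 fun n => (measurePreserving_sub_right volume ((n : ℝ) * 2)).quasiMeasurePreserving.ae
      (hb.and h)
  refine ⟨(α + β) / 2, ?_⟩
  filter_upwards [hn] with z hz
  obtain ⟨hz1, hz2⟩ := hz ⌊(z - b) / 2⌋
  have f1 := Int.floor_le ((z - b) / 2)
  have f2 := Int.lt_floor_add_one ((z - b) / 2)
  set n := ⌊(z - b) / 2⌋
  have hm : z - n * 2 ∈ Ioo b (b + 2) := ⟨lt_of_le_of_ne (by linarith) hz1.symm, by linarith⟩
  have pS : Function.Periodic (fun z => z ∈ S) 2 := fun z => propext (hp z)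
  have eS : (z - n * 2 ∈ S) = (z ∈ S) := pS.sub_int_mul_eq n
  rw [hv, ← eS, hz2 hm]
  constructor
  · intro hw
    refine (d2_le_abs_sub _ n).trans_lt (abs_lt.2 ⟨?_, ?_⟩) <;> linarith [hw.1, hw.2]
  · intro hw
    obtain ⟨w1, w2⟩ := abs_lt.1 hw
    set k := round ((z - (α + β) / 2) / 2)
    have : k = n := by
      have g1 : (k : ℝ) < n + 1 := by linarith [hm.1, hm.2]
      have g2 : (n : ℝ) < k + 1 := by linarith [hm.1, hm.2]
      have g3 : k < n + 1 := by exact_mod_cast g1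
      have g4 : n < k + 1 := by exact_mod_cast g2
      omega
    rw [this] at w1 w2
    exact ⟨by linarith, by linarith⟩

theorem arc_of_tv {S : Set ℝ} (hS : MeasurableSet S) (hp : ∀ z, z + 2 ∈ S ↔ z ∈ S)
    {c : ℝ} (hc : c < 4) (hf : ∃ᶠ ε in 𝓝[>] (0 : ℝ), tv S ε ≤ c) :
    ∃ m : ℝ, ∀ᵐ z : ℝ, (z ∈ S ↔ d2 (z - m) < (volume (S ∩ Ioo (-1) 1)).toReal / 2) := by
  set D := {z | Tendsto (fun ε => st1u S ε z) (𝓝[>] 0) (𝓝 (st1f S z))}
  have hD : ∀ᵐ z : ℝ, z ∈ D := st1_good hS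
  by_cases hB : ∃ b ∈ D, b ∉ S
  swap
  · refine st1_arc hS hp (b := 0) le_rfl (by norm_num) le_rfl ?_
    filter_upwards [hD] with z hz hm
    exact iff_of_true (by_contra fun h => hB ⟨z, hz, h⟩) hm
  obtain ⟨b, hb, hbS⟩ := hB
  set A := {z ∈ Ioo b (b + 2) | z ∈ D ∧ z ∈ S}
  rcases A.eq_empty_or_nonempty with hA | hA
  · refine st1_arc hS hp (b := b) le_rfl le_rfl (by linarith) ?_
    filter_upwards [hD] with z hz hm
    refine iff_of_false (fun h => ?_) (by simp)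
    exact (hA ▸ (⟨hm, hz, h⟩ : z ∈ A) : z ∈ (∅ : Set ℝ))
  have hl : BddBelow A := ⟨b, fun z hz => hz.1.1.le⟩
  have hu : BddAbove A := ⟨b + 2, fun z hz => hz.1.2.le⟩
  refine st1_arc hS hp (b := b) (le_csInf hA fun z hz => hz.1.1.le) (csInf_le_csSup hA hl hu)
    (csSup_le hA fun z hz => hz.1.2.le) ?_
  have h1 : ∀ᵐ z : ℝ, z ≠ sInf A := by simp [ae_iff]
  have h2 : ∀ᵐ z : ℝ, z ≠ sSup A := by simp [ae_iff]
  filter_upwards [hD, h1, h2] with z hz hz1 hz2 hm
  refine ⟨fun h => ⟨lt_of_le_of_ne (csInf_le hl ⟨hm, hz, h⟩) hz1.symm,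
    lt_of_le_of_ne (le_csSup hu ⟨hm, hz, h⟩) hz2⟩, fun h => by_contra fun hzS => ?_⟩
  obtain ⟨a, ha, haz⟩ := exists_lt_of_csInf_lt hA h.1
  obtain ⟨a', ha', haz'⟩ := exists_lt_of_lt_csSup hA h.2
  have := st1_ev hS hp (r := c) ha.1.1.le haz.le haz'.le ha'.1.2.le hb ha.2.1 hz ha'.2.1 (by
    rw [show st1f S a = 1 from indicator_of_mem ha.2.2 _,
      show st1f S a' = 1 from indicator_of_mem ha'.2.2 _,
      show st1f S b = 0 from indicator_of_notMem hbS _,
      show st1f S z = 0 from indicator_of_notMem hzS _]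
    norm_num
    linarith)
  obtain ⟨ε, e1, e2⟩ := (hf.and_eventually this).exists
  linarith

theorem tv_nonneg (S : Set ℝ) {ε : ℝ} (hε : 0 < ε) : 0 ≤ tv S ε :=
  div_nonneg (integral_nonneg fun _ => abs_nonneg _) hε.le

theorem measurable_tv {G : Set P3} (hG : MeasurableSet G) (ε : ℝ) :
    Measurable (fun p : P2 => tv {z | ((p.1, p.2, z) : P3) ∈ G} ε) := by
  have h : Measurable (G.indicator fun _ => (1 : ℝ)) := measurable_const.indicator hG
  have h1 : Measurable fun q : P2 × ℝ => |G.indicator (fun _ => (1 : ℝ)) (q.1.1, q.1.2, q.2) -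
      G.indicator (fun _ => (1 : ℝ)) (q.1.1, q.1.2, q.2 + ε)| :=
    ((h.comp (by fun_prop)).sub (h.comp (by fun_prop))).abs
  exact (h1.stronglyMeasurable.integral_prod_right'
    (ν := volume.restrict (Ioo (-1 : ℝ) 1))).measurable.div_const ε

theorem tv_le (S : Set ℝ) {ε : ℝ} (hε : 0 < ε) : tv S ε ≤ 2 / ε := by
  refine div_le_div_of_nonneg_right ((le_abs_self _).trans ?_) hε.le
  have h := norm_setIntegral_le_of_norm_le_const (μ := volume) (s := Ioo (-1 : ℝ) 1)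
    (f := fun z => |st1f S z - st1f S (z + ε)|) (C := 1) (by simp)
    fun z _ => by rw [Real.norm_eq_abs, abs_abs]; exact st1_abs S _ _
  rw [Real.volume_real_Ioo_of_le (by norm_num)] at h
  exact h.trans (by norm_num)

end Vale.Agent.P232
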