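import Vale.Agent.P232.St1D
import Vale.Agent.P232.Approx

open MeasureTheory Set Filter Topology
open scoped ENNReal

noncomputable section
namespace Vale.Agent.P232

/-! Task: Steiner symmetrisation, lower bound for the perimeter of `G`.
`exists_psi`: let `Ψ = sign(b) (1_G(z) - 1_G(z+ε))`, approximate it in `L^1(box)` by a smooth `Ψ'` supported in the box,
periodise; `ε⁻¹ ∫ b Ψ' (1_G(z) - 1_G(z+ε)) = ε⁻¹ ∫_0^ε (∫_G b ∂₃Ψ'(· - s e3)) ds`, pick a good `s`.
`steinA`: test `PerLe` with `Z = (a₁, a₂, b ψ)`.  `steinA'`: Fatou along `ε = 1/(n+1)` and `two_le_tv`. -/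

theorem sta_meas_sect {G : Set P3} (hG : MeasurableSet G) (p : P2) :
    MeasurableSet {z : ℝ | ((p.1, p.2, z) : P3) ∈ G} :=
  hG.preimage (f := fun z : ℝ => ((p.1, p.2, z) : P3)) (by fun_prop)

theorem measurable_sec {G : Set P3} (hG : MeasurableSet G) : Measurable (sec G) := by
  have h : MeasurableSet {w : P2 × ℝ | w.2 ∈ Ioo (-1 : ℝ) 1 ∧ ((w.1.1, w.1.2, w.2) : P3) ∈ G} :=
    (measurableSet_Ioo.preimage measurable_snd).inter
      (hG.preimage (f := fun w : P2 × ℝ => ((w.1.1, w.1.2, w.2) : P3)) (by fun_prop))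
  exact (measurable_measure_prodMk_left (ν := volume) h).ennreal_toReal.div_const 2

theorem sec_nonneg (G : Set P3) (p : P2) : 0 ≤ sec G p := by
  unfold sec
  positivity

theorem sec_le_one (G : Set P3) (p : P2) : sec G p ≤ 1 := by
  have h : volume {z ∈ Ioo (-1 : ℝ) 1 | ((p.1, p.2, z) : P3) ∈ G} ≤ ENNReal.ofReal 2 :=
    (measure_mono (sep_subset _ _)).trans (by rw [Real.volume_Ioo]; norm_num)
  have := ENNReal.toReal_le_of_le_ofReal zero_le_two h
  unfold sec
  linarith

theorem PerSet.periodic_sec {G : Set P3} (hG : PerSet G) : Periodic2 (sec G) := by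
  refine ⟨fun p => ?_, fun p => ?_⟩
  · have h := fun z : ℝ => hG.2.1 (p.1, p.2, z)
    simp only [Prod.mk_add_mk, add_zero] at h
    simp only [sec, Prod.fst_add, Prod.snd_add, add_zero, h]
  · have h := fun z : ℝ => hG.2.2.1 (p.1, p.2, z)
    simp only [Prod.mk_add_mk, add_zero] at h
    simp only [sec, Prod.fst_add, Prod.snd_add, add_zero, h]

theorem sta_box_ne : volume box ≠ ⊤ := by rw [volume_box]; norm_num

theorem sta_box2_ne : volume box2 ≠ ⊤ := by
  rw [box2, Measure.volume_eq_prod, Measure.prod_prod, Real.volume_Ioo]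
  exact ENNReal.mul_ne_top ENNReal.ofReal_ne_top ENNReal.ofReal_ne_top

theorem sta_sub : box ⊆ Metric.closedBall 0 1 := fun x hx => by
  obtain ⟨h1, h2, h3⟩ := hx
  simp only [mem_closedBall_zero_iff, Prod.norm_def, Real.norm_eq_abs, max_le_iff]
  exact ⟨(abs_lt.2 h1).le, (abs_lt.2 h2).le, (abs_lt.2 h3).le⟩

theorem sta_sub2 : box2 ⊆ Metric.closedBall 0 1 := fun x hx => by
  obtain ⟨h1, h2⟩ := hx
  simp only [mem_closedBall_zero_iff, Prod.norm_def, Real.norm_eq_abs, max_le_iff]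
  exact ⟨(abs_lt.2 h1).le, (abs_lt.2 h2).le⟩

theorem sta_intc {F : P3 → ℝ} (hF : Continuous F) : IntegrableOn F box :=
  (hF.continuousOn.integrableOn_compact (isCompact_closedBall 0 1)).mono_set sta_sub

theorem sta_intc2 {F : P2 → ℝ} (hF : Continuous F) : IntegrableOn F box2 :=
  (hF.continuousOn.integrableOn_compact (isCompact_closedBall 0 1)).mono_set sta_sub2

theorem sta_fubini {F : P3 → ℝ} (hF : IntegrableOn F box) :
    ∫ x in box, F x = ∫ p in box2, ∫ z in Ioo (-1 : ℝ) 1, F (p.1, p.2, z) := by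
  have hm := volume_preserving_prodAssoc (α₁ := ℝ) (β₁ := ℝ) (γ₁ := ℝ)
  have he : (MeasurableEquiv.prodAssoc : (ℝ × ℝ) × ℝ ≃ᵐ P3) ⁻¹' box = box2 ×ˢ Ioo (-1) 1 :=
    Set.ext fun x => and_assoc.symm
  have h1 := (hm.integrableOn_comp_preimage MeasurableEquiv.prodAssoc.measurableEmbedding).2 hF
  rw [← hm.setIntegral_preimage_emb MeasurableEquiv.prodAssoc.measurableEmbedding, he]
  rw [he] at h1
  exact setIntegral_prod _ h1

theorem sta_ind {G : Set P3} (hG : MeasurableSet G) (F : P3 → ℝ) :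
    ∫ x in G ∩ box, F x = ∫ x in box, F x * G.indicator (fun _ => (1 : ℝ)) x := by
  rw [inter_comm, ← setIntegral_indicator hG]
  refine congrArg _ (funext fun x => ?_)
  by_cases h : x ∈ G <;> simp [h]

theorem sta_abs_ind (G : Set P3) (x : P3) : |G.indicator (fun _ => (1 : ℝ)) x| ≤ 1 := by
  by_cases h : x ∈ G <;> simp [h]

theorem sta_mul {F H : P3 → ℝ} (hF : IntegrableOn F box) (hH : Measurable H) (h : ∀ x, |H x| ≤ 1) :
    IntegrableOn (fun x => F x * H x) box :=
  hF.mul_bdd hH.aestronglyMeasurable (Eventually.of_forall h)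

theorem sta_sec {G : Set P3} (hG : MeasurableSet G) {f : P2 → ℝ} (hf : Continuous f) :
    ∫ x in G ∩ box, f (x.1, x.2.1) = 2 * ∫ p in box2, sec G p * f p := by
  rw [sta_ind hG, sta_fubini (sta_mul (sta_intc (by fun_prop)) (measurable_const.indicator hG)
    (sta_abs_ind G)), ← integral_const_mul]
  refine congrArg _ (funext fun p => ?_)
  have e : ∀ z : ℝ, G.indicator (fun _ => (1 : ℝ)) (p.1, p.2, z) =
      {z : ℝ | ((p.1, p.2, z) : P3) ∈ G}.indicator (fun _ => (1 : ℝ)) z := fun z => rfl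
  simp only [e, integral_const_mul]
  rw [setIntegral_indicator (sta_meas_sect hG p), setIntegral_const, smul_eq_mul, mul_one, sec,
    Measure.real]
  change f p * (volume {z ∈ Ioo (-1 : ℝ) 1 | ((p.1, p.2, z) : P3) ∈ G}).toReal = _
  ring

theorem sta_mvt {G : Set P3} (hG : MeasurableSet G) {b ψ : P3 → ℝ} (hb : Continuous b)
    (hψ : ContDiff ℝ 1 ψ) {ε : ℝ} (hε : 0 < ε) : ∃ s : ℝ,
    ε * ∫ x in G ∩ box, b x * fderiv ℝ ψ (x + s • e3) e3 =
      (∫ x in G ∩ box, b x * ψ x) - ∫ x in G ∩ box, b x * ψ (x + (-ε) • e3) := by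
  have c0 := hψ.continuous
  have c1 : Continuous (fderiv ℝ ψ) := hψ.continuous_fderiv one_ne_zero
  have c2 : Continuous fun w : P3 × ℝ => b w.1 * fderiv ℝ ψ (w.1 + w.2 • e3) e3 := by fun_prop
  have hd : ∀ s : ℝ, HasDerivAt (fun t : ℝ => ∫ x in G ∩ box, b x * ψ (x + t • e3))
      (∫ x in G ∩ box, b x * fderiv ℝ ψ (x + s • e3) e3) s := fun s => by
    obtain ⟨C, hC⟩ := ((isCompact_closedBall (0 : P3) 1).prod
      (isCompact_closedBall s 1)).exists_bound_of_continuousOn c2.continuousOn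
    refine (hasDerivAt_integral_of_dominated_loc_of_deriv_le (μ := volume.restrict (G ∩ box))
      (F := fun t x => b x * ψ (x + t • e3))
      (F' := fun t x => b x * fderiv ℝ ψ (x + t • e3) e3) (bound := fun _ => C)
      (Metric.closedBall_mem_nhds s one_pos)
      (Eventually.of_forall fun t => Continuous.aestronglyMeasurable (by fun_prop))
      ((sta_intc (by fun_prop)).mono_set inter_subset_right)
      (Continuous.aestronglyMeasurable (by fun_prop)) ?_
      ((sta_intc continuous_const).mono_set inter_subset_right)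
      (Eventually.of_forall fun x t _ => ?_)).2
    · filter_upwards [ae_restrict_mem (hG.inter measurableSet_box)] with x hx t ht
      exact hC (x, t) ⟨sta_sub hx.2, ht⟩
    · have h1 : HasDerivAt (fun t : ℝ => x + t • e3) e3 t := by
        simpa using ((hasDerivAt_id t).smul_const e3).const_add x
      exact (((hψ.differentiable one_ne_zero _).hasFDerivAt).comp_hasDerivAt t h1).const_mul _
  obtain ⟨s, -, hs⟩ := exists_hasDerivAt_eq_slope _ _ (neg_lt_zero.2 hε)
    (fun t _ => (hd t).continuousAt.continuousWithinAt) fun t _ => hd t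
  refine ⟨s, ?_⟩
  rw [hs, zero_sub, neg_neg, mul_div_cancel₀ _ hε.ne']
  simp only [zero_smul, add_zero]

theorem exists_psi {G : Set P3} (hG : PerSet G) {b : P2 → ℝ} (hb : Continuous b) (hbp : Periodic2 b)
    {ε δ : ℝ} (hε : 0 < ε) (hδ : 0 < δ) :
    ∃ ψ : P3 → ℝ, ContDiff ℝ 1 ψ ∧ (∀ x, |ψ x| ≤ 1) ∧ Periodic3 ψ ∧
      (∫ p in box2, |b p| * tv {z | ((p.1, p.2, z) : P3) ∈ G} ε) - δ
        ≤ ∫ x in G ∩ box, b (x.1, x.2.1) * fderiv ℝ ψ x e3 := by
  have cb : Continuous fun x : P3 => b (x.1, x.2.1) := by fun_prop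
  obtain ⟨B, hB⟩ := (isCompact_closedBall (0 : P3) 1).exists_bound_of_continuousOn cb.continuousOn
  have B0 : 0 ≤ B := (norm_nonneg _).trans (hB 0 (Metric.mem_closedBall_self zero_le_one))
  obtain ⟨χ, hχ⟩ : ∃ χ : P3 → ℝ, χ = G.indicator fun _ => 1 := ⟨_, rfl⟩
  have m1 : Measurable χ := hχ ▸ measurable_const.indicator hG.1
  have m2 : Measurable fun x => χ (x + ε • e3) := m1.comp (by fun_prop)
  have m3 : Measurable fun x => χ x - χ (x + ε • e3) := m1.sub m2
  have a1 : ∀ x, |χ x| ≤ 1 := hχ ▸ sta_abs_ind G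
  have a3 : ∀ x, |χ x - χ (x + ε • e3)| ≤ 1 := fun x => by
    by_cases h : x ∈ G <;> by_cases h' : x + ε • e3 ∈ G <;> simp [hχ, h, h']
  obtain ⟨Z, z1, z2, -, z4, z5⟩ := exists_smooth_approx volume (U := box)
    (isOpen_Ioo.prod (isOpen_Ioo.prod isOpen_Ioo)) sta_box_ne.lt_top
    (N := fun x => (if 0 ≤ b (x.1, x.2.1) * (χ x - χ (x + ε • e3)) then 1 else -1, 0, 0))
    ((Measurable.ite (measurableSet_le measurable_const (cb.measurable.mul m3)) measurable_const
      measurable_const).prodMk measurable_const) (fun x => by split_ifs <;> simp [nrm])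
    (δ := δ * ε / (B + 1)) (by positivity)
  obtain ⟨Z', w1, w2, w3, w4⟩ := exists_periodic_ext (z1.of_le one_le_two) z4
  have n1 : ∀ x : P3, |x.1| ≤ nrm x := fun x => (norm_fst_le x).trans (norm_le_nrm x)
  have c1 : Continuous fun x => (Z' x).1 := w1.continuous.fst
  obtain ⟨s, hs⟩ := sta_mvt hG.1 cb w1.fst hε
  refine ⟨fun x => (Z' (x + s • e3)).1, (w1.comp (by fun_prop)).fst, fun x => ?_,
    ⟨fun x => by beta_reduce; rw [add_right_comm, w2.1],
      fun x => by beta_reduce; rw [add_right_comm, w2.2.1],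
      fun x => by beta_reduce; rw [add_right_comm, w2.2.2]⟩, ?_⟩
  · obtain ⟨y, hy⟩ := w4 (x + s • e3)
    beta_reduce
    rw [hy]
    exact (n1 _).trans (z2 y)
  have k0 : ∀ x, fderiv ℝ (fun x => (Z' (x + s • e3)).1) x =
      fderiv ℝ (fun x => (Z' x).1) (x + s • e3) := fun x =>
    fderiv_comp_add_right (f := fun x => (Z' x).1) _
  have p0 : ∀ (x v : P3), (x + v ∈ G) = (x ∈ G) → χ (x + v) = χ x := fun x v h => by
    by_cases hx : x ∈ G
    · rw [hχ, indicator_of_mem hx, indicator_of_mem (h ▸ hx)]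
    · rw [hχ, indicator_of_notMem hx, indicator_of_notMem (h ▸ hx)]
  have k1 := integral_box_add (F := fun x => b (x.1, x.2.1) * (Z' (x + (-ε) • e3)).1 * χ x)
    ((Continuous.measurable (by fun_prop)).mul m1)
    ⟨fun x => by
      beta_reduce
      rw [add_right_comm x, w2.1, p0 _ _ (hG.2.1 x), ← hbp.1 (x.1, x.2.1)]; simp,
    fun x => by
      beta_reduce
      rw [add_right_comm x, w2.2.1, p0 _ _ (hG.2.2.1 x), ← hbp.2 (x.1, x.2.1)]; simp,
    fun x => by
      beta_reduce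
      rw [add_right_comm x, w2.2.2, p0 _ _ (hG.2.2.2 x)]; simp⟩ (ε • e3)
  have e1 : ∀ x : P3, (((x + ε • e3).1, (x + ε • e3).2.1) : P2) = (x.1, x.2.1) := fun x => by
    simp [e3]
  simp only [e1, neg_smul, add_neg_cancel_right] at k1
  have i0 : IntegrableOn (fun x : P3 => b (x.1, x.2.1) * (Z' x).1) box := sta_intc (by fun_prop)
  have i1 : IntegrableOn (fun x : P3 => |b (x.1, x.2.1)| * |χ x - χ (x + ε • e3)|) box :=
    sta_mul (sta_intc cb.abs) m3.abs fun x => by rw [abs_abs]; exact a3 x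
  have i2 : IntegrableOn (fun x : P3 => nrm (((if 0 ≤ b (x.1, x.2.1) * (χ x - χ (x + ε • e3))
      then 1 else -1, 0, 0) : P3) - Z x)) box :=
    Measure.integrableOn_of_bounded sta_box_ne (M := 2) (Measurable.aestronglyMeasurable
      (continuous_nrm.measurable.comp (((Measurable.ite (measurableSet_le measurable_const
        (cb.measurable.mul m3)) measurable_const measurable_const).prodMk measurable_const).sub
        z1.continuous.measurable))) (Eventually.of_forall fun x => by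
      rw [Real.norm_of_nonneg (nrm_nonneg _), sub_eq_add_neg, ← neg_one_smul ℝ (Z x)]
      refine (nrm_add_le _ _).trans ?_
      have := z2 x
      have : nrm ((if 0 ≤ b (x.1, x.2.1) * (χ x - χ (x + ε • e3)) then 1 else -1, 0, 0) : P3)
          ≤ 1 := by split_ifs <;> simp [nrm]
      rw [nrm_smul, abs_neg, abs_one, one_mul]
      linarith)
  rw [sta_ind hG.1 fun x => _ * (Z' x).1, sta_ind hG.1 fun x => _ * (Z' (x + _)).1, ← hχ] at hs
  simp only [neg_smul] at hs
  rw [← k1, ← integral_sub (sta_mul i0 m1 a1) (sta_mul i0 m2 fun x => a1 _)] at hs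
  have k2 : ε * ∫ p in box2, |b p| * tv {z | ((p.1, p.2, z) : P3) ∈ G} ε =
      ∫ x in box, |b (x.1, x.2.1)| * |χ x - χ (x + ε • e3)| := by
    rw [sta_fubini i1, ← integral_const_mul]
    refine congrArg _ (funext fun p => ?_)
    simp only [integral_const_mul]
    have : ∀ z : ℝ, ((p.1, p.2, z) : P3) + ε • e3 = (p.1, p.2, z + ε) := fun z => by simp [e3]
    rw [tv, mul_left_comm, mul_div_cancel₀ _ hε.ne', hχ]
    simp only [this]
    rfl
  have k3 := setIntegral_mono_on (i1.sub (i2.const_mul B))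
    ((sta_mul i0 m1 a1).sub (sta_mul i0 m2 fun x => a1 _)) measurableSet_box fun x hx => by
      have h1 := n1 (((if 0 ≤ b (x.1, x.2.1) * (χ x - χ (x + ε • e3))
        then 1 else -1, 0, 0) : P3) - Z x)
      have h2 : |b (x.1, x.2.1) * (χ x - χ (x + ε • e3))| ≤ B := by
        rw [abs_mul]
        exact (mul_le_of_le_one_right (abs_nonneg _) (a3 x)).trans (hB x (sta_sub hx))
      have h3 := mul_le_mul h2 h1 (abs_nonneg _) B0
      rw [← abs_mul] at h3
      have h4 := (le_abs_self _).trans h3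
      simp only [Pi.sub_apply, w3 x hx, ← abs_mul, Prod.fst_sub] at h4 ⊢
      split_ifs at h4 ⊢ with h
      · rw [abs_of_nonneg h]; linarith
      · rw [abs_of_neg (not_le.1 h)]; linarith
  simp only [Pi.sub_apply] at k3
  rw [integral_sub i1 (i2.const_mul B), integral_const_mul, ← k2, ← hs] at k3
  have k4 : B * (δ * ε / (B + 1)) ≤ ε * δ := by
    rw [← mul_div_assoc, div_le_iff₀ (by positivity)]
    nlinarith [mul_pos hε hδ]
  have k5 := mul_le_mul_of_nonneg_left z5 B0
  simp only [k0]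
  refine le_of_mul_le_mul_left ?_ hε
  rw [mul_sub]
  linarith

theorem steinA {G : Set P3} {c : ℝ} (hG : PerSet G) (hP : PerLe G c) {a₁ a₂ b : P2 → ℝ}
    (h₁ : ContDiff ℝ 1 a₁) (h₂ : ContDiff ℝ 1 a₂) (hb : ContDiff ℝ 1 b)
    (p₁ : Periodic2 a₁) (p₂ : Periodic2 a₂) (pb : Periodic2 b) {M : ℝ} (hM : 0 < M)
    (hle : ∀ p, a₁ p ^ 2 + a₂ p ^ 2 + b p ^ 2 ≤ M ^ 2) {ε : ℝ} (hε : 0 < ε) :
    2 * (∫ p in box2, sec G p * (fderiv ℝ a₁ p (1, 0) + fderiv ℝ a₂ p (0, 1)))
      + (∫ p in box2, |b p| * tv {z | ((p.1, p.2, z) : P3) ∈ G} ε) ≤ M * c := by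
  refine le_of_forall_pos_le_add fun δ hδ => ?_
  obtain ⟨ψ, q1, q2, q3, q4⟩ := exists_psi hG hb.continuous pb hε hδ
  obtain ⟨π, hπ⟩ : ∃ π : P3 →L[ℝ] P2, ∀ x, π x = (x.1, x.2.1) :=
    ⟨(ContinuousLinearMap.fst ℝ ℝ (ℝ × ℝ)).prod ((ContinuousLinearMap.fst ℝ ℝ ℝ).comp
      (ContinuousLinearMap.snd ℝ ℝ (ℝ × ℝ))), fun _ => rfl⟩
  have per : ∀ {a : P2 → ℝ}, Periodic2 a → Periodic3 fun x => a (π x) := fun {a} h =>
    ⟨fun x => by beta_reduce; rw [map_add, hπ (2, 0, 0), h.1],
      fun x => by beta_reduce; rw [map_add, hπ (0, 2, 0), h.2],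
      fun x => by beta_reduce; rw [map_add, hπ (0, 0, 2), Prod.mk_zero_zero, add_zero]⟩
  have k := hP.scale (Z := fun x => (a₁ (π x), a₂ (π x), b (π x) * ψ x))
    ((h₁.comp π.contDiff).prodMk ((h₂.comp π.contDiff).prodMk ((hb.comp π.contDiff).mul q1)))
    ⟨fun x => by simp only [(per p₁).1 x, (per p₂).1 x, (per pb).1 x, q3.1 x],
      fun x => by simp only [(per p₁).2.1 x, (per p₂).2.1 x, (per pb).2.1 x, q3.2.1 x],
      fun x => by simp only [(per p₁).2.2 x, (per p₂).2.2 x, (per pb).2.2 x, q3.2.2 x]⟩ hM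
    fun x => Real.sqrt_le_iff.2 ⟨hM.le, by
      have := mul_le_of_le_one_right (sq_nonneg (b (π x))) ((sq_le_one_iff_abs_le_one _).2 (q2 x))
      have := hle (π x)
      simp only [mul_pow]
      linarith⟩
  have hd : ∀ x, dv (fun x => (a₁ (π x), a₂ (π x), b (π x) * ψ x)) x =
      (fderiv ℝ a₁ (x.1, x.2.1) (1, 0) + fderiv ℝ a₂ (x.1, x.2.1) (0, 1)) +
        b (x.1, x.2.1) * fderiv ℝ ψ x e3 := fun x => by
    have d : ∀ {a : P2 → ℝ}, ContDiff ℝ 1 a →
        HasFDerivAt (fun x => a (π x)) ((fderiv ℝ a (π x)).comp π) x := fun h =>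
      (h.differentiable one_ne_zero _).hasFDerivAt.comp x π.hasFDerivAt
    have := ((d h₁).prodMk ((d h₂).prodMk
      ((d hb).mul (q1.differentiable one_ne_zero x).hasFDerivAt))).fderiv
    rw [dv]
    refine (congrArg trc this).trans ?_
    simp [trc, hπ, e1, e2, e3, Prod.mk_zero_zero]
  have c1 := h₁.continuous_fderiv one_ne_zero
  have c2 := h₂.continuous_fderiv one_ne_zero
  have c3 := q1.continuous_fderiv one_ne_zero
  have c4 := hb.continuous
  simp only [hd] at k
  rw [integral_add ((sta_intc (by fun_prop)).mono_set inter_subset_right)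
    ((sta_intc (by fun_prop)).mono_set inter_subset_right),
    sta_sec hG.1 (f := fun p => fderiv ℝ a₁ p (1, 0) + fderiv ℝ a₂ p (0, 1)) (by fun_prop)] at k
  linarith

theorem steinA' {G : Set P3} {c : ℝ} (hG : PerSet G) (hP : PerLe G c) {a₁ a₂ b : P2 → ℝ}
    (h₁ : ContDiff ℝ 1 a₁) (h₂ : ContDiff ℝ 1 a₂) (hb : ContDiff ℝ 1 b)
    (p₁ : Periodic2 a₁) (p₂ : Periodic2 a₂) (pb : Periodic2 b)
    (hle : ∀ p, a₁ p ^ 2 + a₂ p ^ 2 + b p ^ 2 ≤ 1) :
    2 * (∫ p in box2, sec G p * (fderiv ℝ a₁ p (1, 0) + fderiv ℝ a₂ p (0, 1)))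
      + 2 * (∫ p in box2 ∩ {p | 0 < sec G p ∧ sec G p < 1}, |b p|) ≤ c := by
  have ms := measurable_sec hG.1
  have mΩ : MeasurableSet (box2 ∩ {p | 0 < sec G p ∧ sec G p < 1}) := measurableSet_box2.inter
    ((measurableSet_lt measurable_const ms).inter (measurableSet_lt ms measurable_const))
  have ib : IntegrableOn (fun p => |b p|) box2 := sta_intc2 hb.continuous.abs
  have h1 := tendsto_integral_filter_of_dominated_convergence
    (μ := volume.restrict (box2 ∩ {p | 0 < sec G p ∧ sec G p < 1})) (l := 𝓝[>] (0 : ℝ))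
    (F := fun ε p => |b p| * min (tv {z | ((p.1, p.2, z) : P3) ∈ G} ε) 2) (f := fun p => |b p| * 2)
    (fun p => |b p| * 2) (Eventually.of_forall fun ε => (hb.continuous.abs.measurable.mul
      ((measurable_tv hG.1 ε).min measurable_const)).aestronglyMeasurable) ?_
    ((ib.mono_set inter_subset_left).mul_const 2) ?_
  · rw [integral_mul_const, mul_comm _ (2 : ℝ)] at h1
    refine le_of_tendsto (h1.const_add _) ?_
    filter_upwards [self_mem_nhdsWithin] with ε hε
    have it : IntegrableOn (fun p => |b p| * tv {z | ((p.1, p.2, z) : P3) ∈ G} ε) box2 :=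
      ib.mul_bdd (measurable_tv hG.1 ε).aestronglyMeasurable (Eventually.of_forall fun p => by
        rw [Real.norm_of_nonneg (tv_nonneg _ hε)]; exact tv_le _ hε)
    refine le_trans (add_le_add_right ?_ _) ((steinA hG hP h₁ h₂ hb p₁ p₂ pb one_pos
      (by simpa using hle) hε).trans_eq (one_mul c))
    refine (integral_mono_of_nonneg (Eventually.of_forall fun p => mul_nonneg (abs_nonneg _)
      (le_min (tv_nonneg _ hε) zero_le_two)) (it.mono_set inter_subset_left)
      (Eventually.of_forall fun p => mul_le_mul_of_nonneg_left (min_le_left _ _)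
        (abs_nonneg _))).trans (setIntegral_mono_set it (Eventually.of_forall fun p =>
          mul_nonneg (abs_nonneg _) (tv_nonneg _ hε)) inter_subset_left.eventuallyLE)
  · filter_upwards [self_mem_nhdsWithin] with ε hε
    refine Eventually.of_forall fun p => ?_
    rw [Real.norm_of_nonneg (mul_nonneg (abs_nonneg _) (le_min (tv_nonneg _ hε) zero_le_two))]
    exact mul_le_mul_of_nonneg_left (min_le_right _ _) (abs_nonneg _)
  · filter_upwards [ae_restrict_mem mΩ] with p hp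
    obtain ⟨-, q1, q2⟩ := hp
    have e : sec G p = (volume ({z : ℝ | ((p.1, p.2, z) : P3) ∈ G} ∩ Ioo (-1) 1)).toReal / 2 := by
      rw [inter_comm]; rfl
    rw [e] at q1 q2
    refine Tendsto.const_mul _ (tendsto_order.2 ⟨fun a ha => ?_, fun a ha =>
      Eventually.of_forall fun ε => (min_le_right _ _).trans_lt ha⟩)
    filter_upwards [two_le_tv (sta_meas_sect hG.1 p) (fun z => by
      simpa using hG.2.2.2 (p.1, p.2, z)) (by linarith) (by linarith)
      (c := (a + 2) / 2) (by linarith)] with ε hε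
    exact lt_min (by linarith) ha

end Vale.Agent.P232
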