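import Vale.Agent.P232.StA

open MeasureTheory Set Filter Topology
open scoped ENNReal Convolution

noncomputable section
namespace Vale.Agent.P232
namespace StB

lemma box2_sub : box2 ⊆ Metric.closedBall (0 : P2) 1 := fun _ hp =>
  mem_closedBall_zero_iff.2 (max_le (abs_le.2 ⟨hp.1.1.le, hp.1.2.le⟩)
    (abs_le.2 ⟨hp.2.1.le, hp.2.2.le⟩))

lemma box_sub : box ⊆ Metric.closedBall (0 : P3) 1 := fun _ hp =>
  mem_closedBall_zero_iff.2 (max_le (abs_le.2 ⟨hp.1.1.le, hp.1.2.le⟩) (max_le
    (abs_le.2 ⟨hp.2.1.1.le, hp.2.1.2.le⟩) (abs_le.2 ⟨hp.2.2.1.le, hp.2.2.2.le⟩)))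

lemma int2 {f : P2 → ℝ} (hf : Continuous f) : IntegrableOn f box2 :=
  (hf.continuousOn.integrableOn_compact (isCompact_closedBall 0 1)).mono_set box2_sub

lemma int3 {f : P3 → ℝ} (hf : Continuous f) : IntegrableOn f box :=
  (hf.continuousOn.integrableOn_compact (isCompact_closedBall 0 1)).mono_set box_sub

lemma fin2 : IsFiniteMeasure (volume.restrict box2) :=
  isFiniteMeasure_restrict.2
    ((measure_mono box2_sub).trans_lt (isCompact_closedBall 0 1).measure_lt_top).ne

lemma fub {S : Set P3} (hS : MeasurableSet S) {f : P3 → ℝ} (hf : Continuous f) :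
    ∫ x in S ∩ box, f x =
      ∫ p in box2, ∫ z in {z ∈ Ioo (-1 : ℝ) 1 | ((p.1, p.2, z) : P3) ∈ S}, f (p.1, p.2, z) := by
  have e : (MeasurableEquiv.prodAssoc : P2 × ℝ ≃ᵐ P3) ⁻¹' box = box2 ×ˢ Ioo (-1) 1 :=
    Set.ext fun q => and_assoc.symm
  have h := volume_preserving_prodAssoc (α₁ := ℝ) (β₁ := ℝ) (γ₁ := ℝ)
  have h1 := (h.integrableOn_comp_preimage MeasurableEquiv.prodAssoc.measurableEmbedding).2
    ((int3 hf).indicator hS)
  rw [inter_comm, ← setIntegral_indicator hS,
    ← h.setIntegral_preimage_emb MeasurableEquiv.prodAssoc.measurableEmbedding, e]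
  rw [e] at h1
  refine (setIntegral_prod _ h1).trans (integral_congr_ae (Eventually.of_forall fun p => ?_))
  exact setIntegral_indicator (t := {z | ((p.1, p.2, z) : P3) ∈ S}) (f := fun z => f (p.1, p.2, z))
    ((by fun_prop : Measurable fun z : ℝ => ((p.1, p.2, z) : P3)) hS)

lemma volB_eq {S : Set P3} (hS : MeasurableSet S) : volB S = ∫ p in box2, 2 * sec S p := by
  have h := fub hS (continuous_const (y := (1 : ℝ)))
  simp only [integral_const, smul_eq_mul, mul_one, measureReal_restrict_apply_univ] at h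
  refine h.trans (integral_congr_ae (Eventually.of_forall fun p => ?_))
  simp only [sec, Measure.real]
  ring

lemma sect (G : Set P3) (p : P2) :
    {z ∈ Ioo (-1 : ℝ) 1 | ((p.1, p.2, z) : P3) ∈ stein G} = Ioo (-sec G p) (sec G p) := by
  ext z
  have h1 := sec_le_one G p
  refine ⟨fun h => ?_, fun h => ?_⟩
  · have h2 : d2 z < sec G p := h.2
    rw [d2_of_abs_le (abs_lt.2 h.1).le] at h2
    exact abs_lt.1 h2
  · have h2 := abs_lt.2 h
    refine ⟨abs_lt.1 (h2.trans_le h1), ?_⟩
    show d2 z < sec G p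
    rwa [d2_of_abs_le (h2.le.trans h1)]

/-- integral over the symmetric vertical segment -/
def J (h : P3 → ℝ) (q : P2 × ℝ) : ℝ := ∫ z in -q.2..q.2, h (q.1.1, q.1.2, z)

lemma J_eq (h : P3 → ℝ) (q : P2 × ℝ) :
    J h q = ∫ t in (-1 : ℝ)..1, q.2 * h (q.1.1, q.1.2, t * q.2) := by
  rw [intervalIntegral.integral_const_mul,
    intervalIntegral.mul_integral_comp_mul_right (f := fun z => h (q.1.1, q.1.2, z)), neg_one_mul,
    one_mul, J]

lemma J_cont {h : P3 → ℝ} (hh : Continuous h) : Continuous (J h) := by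
  rw [funext (J_eq h)]
  exact intervalIntegral.continuous_parametric_intervalIntegral_of_continuous' (by fun_prop) _ _

lemma chain {g : P3 → ℝ} (hg : ContDiff ℝ 1 g) {ψ : P2 → ℝ} (hψ : ContDiff ℝ 1 ψ) (t : ℝ)
    (p v : P2) : fderiv ℝ (fun p : P2 => g (p.1, p.2, t * ψ p)) p v =
      fderiv ℝ g (p.1, p.2, t * ψ p) (v.1, v.2, 0) +
        t * fderiv ℝ ψ p v * fderiv ℝ g (p.1, p.2, t * ψ p) (0, 0, 1) := by
  have h1 : HasFDerivAt (fun p : P2 => ((p.1, p.2, t * ψ p) : P3)) _ p := hasFDerivAt_fst.prodMk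
    (hasFDerivAt_snd.prodMk ((hψ.differentiable one_ne_zero p).hasFDerivAt.const_mul t))
  have h2 := ((hg.differentiable one_ne_zero _).hasFDerivAt.comp p h1).fderiv
  rw [← smul_eq_mul (t * fderiv ℝ ψ p v), ← map_smul, ← map_add]
  refine (congrArg (fun L : P2 →L[ℝ] ℝ => L v) h2).trans (congrArg (fderiv ℝ g (p.1, p.2, t * ψ p)) ?_)
  simp

lemma hd3 {g : P3 → ℝ} (hg : ContDiff ℝ 1 g) (p : P2) (z : ℝ) :
    HasDerivAt (fun z => g (p.1, p.2, z)) (fderiv ℝ g (p.1, p.2, z) (0, 0, 1)) z :=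
  (hg.differentiable one_ne_zero _).hasFDerivAt.comp_hasDerivAt z
    ((hasDerivAt_const z p.1).prodMk ((hasDerivAt_const z p.2).prodMk (hasDerivAt_id z)))

/-- mean of the values at the two ends -/
def av (g : P3 → ℝ) (ψ : P2 → ℝ) (p : P2) : ℝ := (g (p.1, p.2, ψ p) + g (p.1, p.2, -ψ p)) / 2

lemma av_c1 {g : P3 → ℝ} (hg : ContDiff ℝ 1 g) {ψ : P2 → ℝ} (hψ : ContDiff ℝ 1 ψ) :
    ContDiff ℝ 1 (av g ψ) := by
  unfold av
  fun_prop

lemma per {g : P3 → ℝ} (hp : Periodic3 g) {ψ : P2 → ℝ} (hψ : Periodic2 ψ) :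
    Periodic2 fun p : P2 => g (p.1, p.2, ψ p) := by
  refine ⟨fun p => ?_, fun p => ?_⟩
  · simpa [hψ.1] using hp.1 (p.1, p.2, ψ p)
  · simpa [hψ.2] using hp.2.1 (p.1, p.2, ψ p)

lemma per_map {α β γ : Type*} {f : P2 → α} {g : P2 → β} (hf : Periodic2 f) (hg : Periodic2 g)
    (F : α → β → γ) : Periodic2 fun p => F (f p) (g p) :=
  ⟨fun p => by simp only [hf.1, hg.1], fun p => by simp only [hf.2, hg.2]⟩

lemma av_per {g : P3 → ℝ} (hp : Periodic3 g) {ψ : P2 → ℝ} (hψ : Periodic2 ψ) :
    Periodic2 (av g ψ) :=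
  per_map (per hp hψ) (per hp (per_map hψ hψ fun a _ => -a)) fun a b => (a + b) / 2

lemma ibp {g : P3 → ℝ} (hg : ContDiff ℝ 1 g) (hp : Periodic3 g) {ψ : P2 → ℝ}
    (hψ : ContDiff ℝ 1 ψ) (pψ : Periodic2 ψ) (v : P2) :
    ∫ p in box2, J (fun x => fderiv ℝ g x (v.1, v.2, 0)) (p, ψ p) =
      2 * ∫ p in box2, ψ p * fderiv ℝ (av g ψ) p v := by
  have cg := hg.continuous_fderiv one_ne_zero
  have cψ := hψ.continuous_fderiv one_ne_zero
  have ca := (av_c1 hg hψ).continuous_fderiv one_ne_zero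
  have cg0 := hg.continuous
  have cψ0 := hψ.continuous
  have ca0 := (av_c1 hg hψ).continuous
  have cJ : Continuous fun p => J (fun x => fderiv ℝ g x (v.1, v.2, 0)) (p, ψ p) :=
    (J_cont (by fun_prop)).comp (by fun_prop)
  let F : ℝ → P2 → ℝ := fun t p => ψ p * fderiv ℝ g (p.1, p.2, t * ψ p) (v.1, v.2, 0) +
    fderiv ℝ ψ p v * (1 * g (p.1, p.2, t * ψ p) +
      t * (fderiv ℝ g (p.1, p.2, t * ψ p) (0, 0, 1) * (1 * ψ p)))
  have h1 : ∀ t, ∫ p in box2, F t p = 0 := fun t => by
    have h2 : ContDiff ℝ 1 fun p : P2 => g (p.1, p.2, t * ψ p) := by fun_prop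
    refine Eq.trans (integral_congr_ae (Eventually.of_forall fun p => ?_))
      (integral_box2_fderiv (hψ.mul h2)
        (per_map pψ (per hp (per_map pψ pψ fun a _ => t * a)) fun a b => a * b) v)
    simp only [F]
    rw [fderiv_fun_mul (hψ.differentiable one_ne_zero p) (h2.differentiable one_ne_zero p)]
    simp only [add_apply, smul_apply, chain hg hψ,
      smul_eq_mul]
    ring
  have h2 : Integrable (Function.uncurry F)
      ((volume.restrict (uIoc (-1 : ℝ) 1)).prod (volume.restrict box2)) := by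
    rw [Measure.prod_restrict]
    refine (Continuous.continuousOn (by fun_prop)
      |>.integrableOn_compact (isCompact_uIcc.prod (isCompact_closedBall 0 1))).mono_set
      (prod_mono uIoc_subset_uIcc box2_sub)
  have h3 := intervalIntegral_integral_swap h2
  have h4 : ∀ p, ∫ t in (-1 : ℝ)..1, F t p = J (fun x => fderiv ℝ g x (v.1, v.2, 0)) (p, ψ p)
      + 2 * (av g ψ p * fderiv ℝ ψ p v) := fun p => by
    rw [intervalIntegral.integral_add (Continuous.intervalIntegrable (by fun_prop) _ _)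
      (Continuous.intervalIntegrable (by fun_prop) _ _), J_eq,
      intervalIntegral.integral_const_mul (fderiv ℝ ψ p v),
      intervalIntegral.integral_eq_sub_of_hasDerivAt (f := fun t => t * g (p.1, p.2, t * ψ p))
        (fun t _ => (hasDerivAt_id' t).mul
          ((hd3 hg p _).comp t ((hasDerivAt_id' t).mul_const (ψ p))))
        (Continuous.intervalIntegrable (by fun_prop) _ _)]
    simp only [av, one_mul, neg_mul]
    ring
  have h5 := integral_box2_fderiv (hψ.mul (av_c1 hg hψ))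
    (per_map pψ (av_per hp pψ) fun a b => a * b) v
  simp only [fderiv_fun_mul (hψ.differentiable one_ne_zero _)
    ((av_c1 hg hψ).differentiable one_ne_zero _), add_apply,
    smul_apply, smul_eq_mul] at h5
  simp only [h1, h4, intervalIntegral.integral_zero] at h3
  rw [integral_add (int2 cJ) (int2 (by fun_prop)), integral_const_mul] at h3
  rw [integral_add (int2 (by fun_prop)) (int2 (by fun_prop))] at h5
  linarith

/-- mollification -/
def mo (ρ : ContDiffBump (0 : P2)) (f : P2 → ℝ) : P2 → ℝ :=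
  ρ.normed volume ⋆[ContinuousLinearMap.lsmul ℝ ℝ, volume] f

lemma locInt {f : P2 → ℝ} (hf : Measurable f) (hb : ∀ p, |f p| ≤ 1) : LocallyIntegrable f :=
  (locallyIntegrable_const (1 : ℝ)).mono hf.aestronglyMeasurable
    (Eventually.of_forall fun p => by simpa using hb p)

lemma mo_apply (ρ : ContDiffBump (0 : P2)) (f : P2 → ℝ) (p : P2) :
    mo ρ f p = ∫ s, ρ.normed volume s * f (p - s) := rfl

lemma mo_c1 (ρ : ContDiffBump (0 : P2)) {f : P2 → ℝ} (hf : Measurable f) (hb : ∀ p, |f p| ≤ 1) :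
    ContDiff ℝ 1 (mo ρ f) :=
  ρ.hasCompactSupport_normed.contDiff_convolution_left _ ρ.contDiff_normed (locInt hf hb)

lemma mo_per (ρ : ContDiffBump (0 : P2)) {f : P2 → ℝ} (hf : Periodic2 f) : Periodic2 (mo ρ f) :=
  ⟨fun p => by simp only [mo_apply, add_sub_right_comm, hf.1],
    fun p => by simp only [mo_apply, add_sub_right_comm, hf.2]⟩

lemma mo_le (ρ : ContDiffBump (0 : P2)) {f : P2 → ℝ} (hb : ∀ p, |f p| ≤ 1) (p : P2) :
    |mo ρ f p| ≤ 1 := by
  refine (norm_integral_le_of_norm_le (f := fun s => ρ.normed volume s * f (p - s))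
    ρ.integrable_normed (Eventually.of_forall fun s => ?_)).trans
    (ρ.integral_normed (μ := volume)).le
  show |ρ.normed volume s * f (p - s)| ≤ _
  rw [abs_mul, abs_of_nonneg (ρ.nonneg_normed s)]
  exact mul_le_of_le_one_right (ρ.nonneg_normed s) (hb _)

lemma mo_swap (ρ : ContDiffBump (0 : P2)) {f g : P2 → ℝ} (hf : Measurable f) (hb : ∀ p, |f p| ≤ 1)
    (pf : Periodic2 f) (hg : Continuous g) (pg : Periodic2 g) :
    Integrable (fun s => ρ.normed volume s * ∫ p in box2, f p * g (p + s)) ∧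
      ∫ p in box2, mo ρ f p * g p = ∫ s, ρ.normed volume s * ∫ p in box2, f p * g (p + s) := by
  have e : ∀ s, ρ.normed volume s * ∫ p in box2, f p * g (p + s) =
      ∫ p in box2, ρ.normed volume s * f (p - s) * g p := fun s => by
    have := integral_box2_add (F := fun p => f (p - s) * g p) (by fun_prop)
      ⟨fun p => by simp only [add_sub_right_comm, pf.1, pg.1],
        fun p => by simp only [add_sub_right_comm, pf.2, pg.2]⟩ s
    simp only [add_sub_cancel_right] at this
    simp only [this, mul_assoc, integral_const_mul]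
  have cρ := (ρ.continuous_normed (μ := volume)).measurable
  have hi : Integrable (Function.uncurry fun s p => ρ.normed volume s * f (p - s) * g p)
      (volume.prod (volume.restrict box2)) := by
    refine (ρ.integrable_normed.mul_prod (int2 hg)).mono
      (Measurable.aestronglyMeasurable (by fun_prop)) (Eventually.of_forall fun q => ?_)
    simp only [Function.uncurry, norm_mul]
    exact mul_le_mul_of_nonneg_right (mul_le_of_le_one_right (norm_nonneg _) (hb _))
      (norm_nonneg _)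
  simp only [e]
  refine ⟨hi.integral_prod_left, ?_⟩
  rw [integral_integral_swap hi]
  simp only [mo_apply, integral_mul_const]

end StB
end Vale.Agent.P232
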