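import Vale.Agent.P232.StEqA_1

open MeasureTheory Set Filter Topology
open scoped ENNReal

noncomputable section
namespace Vale.Agent.P232

/-! Task: equality case of Steiner symmetrisation for the standard sets.
Translate so that `c₁ = c₂ = 0`.  If `k₃ = 0`, `sec G ∈ {0,1}` a.e. and `G = stein G` a.e.  If `k₃ = 1`,
`φ = sec G = √(R² - k₁x² - k₂y²)₊` a.e. on `box2`, `Ω = {φ > 0}`.  Fields `a = (k₁ x, k₂ y) θ / R`, `b = χ φ / R`
(cut-offs; sup norm `≤ 1 + δ`) are asymptotically sharp in `steinA`: by Fatou `liminf tv = 2` a.e. on `Ω`, so a.e.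
section is an arc (`arc_of_tv`) with centre `m(p)`.  Then test with
`Z = (a + τ κ(z) ζ, (b - τ κ(z) (a·ζ)/b) ψ)`, `ψ` from `exists_psi`, `κ = cos(π z)` or `sin(π z)`, `ζ` compactly supported where
`χ = 1`: `nrm Z ≤ 1 + δ + C τ²`; letting `δ, ε → 0` and then `τ → 0±` gives that `cos(π m)`, `sin(π m)`
(which are `∫_{section} κ / ((2/π) sin(π φ))`, hence measurable) have zero weak gradient on
`U = {k₁x² + k₂y² < R²} ∩ box2` (open, convex; periodise `ζ` by `exists_periodic_ext2`).  -/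

/-- half length of the sections of the standard set with `k₃ = 1` -/
def phi0 (k : P3) (R : ℝ) (p : P2) : ℝ := √(R ^ 2 - k.1 * p.1 ^ 2 - k.2.1 * p.2 ^ 2)
def Ubase (k : P3) (R : ℝ) : Set P2 := {p ∈ box2 | k.1 * p.1 ^ 2 + k.2.1 * p.2 ^ 2 < R ^ 2}

theorem isOpen_Ubase (k : P3) (R : ℝ) : IsOpen (Ubase k R) := by
  have h : IsOpen {p : P2 | k.1 * p.1 ^ 2 + k.2.1 * p.2 ^ 2 < R ^ 2} :=
    isOpen_lt (by fun_prop) continuous_const
  exact sqa_isOpen_box2.inter h

theorem sqa_sq_conv (x y : ℝ) {a b : ℝ} (ha : 0 ≤ a) (hb : 0 ≤ b) (hab : a + b = 1) :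
    (a * x + b * y) ^ 2 ≤ a * x ^ 2 + b * y ^ 2 := by
  have e : b = 1 - a := by linarith
  subst e
  nlinarith [mul_nonneg (mul_nonneg ha hb) (sq_nonneg (x - y))]

theorem convex_Ubase {k : P3} (hk : KOk k) (R : ℝ) : Convex ℝ (Ubase k R) := by
  have k1 : 0 ≤ k.1 := by rcases hk.1 with h | h <;> rw [h] <;> norm_num
  have k2 : 0 ≤ k.2.1 := by rcases hk.2.1 with h | h <;> rw [h] <;> norm_num
  have hb : Convex ℝ box2 := by rw [sqa_box2_ball]; exact convex_ball _ _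
  intro x hx y hy a b ha hb' hab
  refine ⟨hb hx.1 hy.1 ha hb' hab, ?_⟩
  have h1 := hx.2
  have h2 := hy.2
  simp only [Prod.fst_add, Prod.snd_add, Prod.smul_fst, Prod.smul_snd, smul_eq_mul]
  have e1 := mul_le_mul_of_nonneg_left (sqa_sq_conv x.1 y.1 ha hb' hab) k1
  have e2 := mul_le_mul_of_nonneg_left (sqa_sq_conv x.2 y.2 ha hb' hab) k2
  have e3 : a * (k.1 * x.1 ^ 2 + k.2.1 * x.2 ^ 2) + b * (k.1 * y.1 ^ 2 + k.2.1 * y.2 ^ 2) < R ^ 2 := by
    rcases eq_or_lt_of_le ha with h | h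
    · have : b = 1 := by linarith
      rw [← h, this]; linarith
    · have e4 := mul_lt_mul_of_pos_left h1 h
      have e5 := mul_le_mul_of_nonneg_left h2.le hb'
      have e6 : a * R ^ 2 + b * R ^ 2 = R ^ 2 := by rw [← add_mul, hab, one_mul]
      linarith
  linarith

theorem phi0_nonneg (k : P3) (R : ℝ) (p : P2) : 0 ≤ phi0 k R p := Real.sqrt_nonneg _

theorem sqa_q_nonneg {k : P3} (hk : KOk k) (p : P2) : 0 ≤ k.1 * p.1 ^ 2 + k.2.1 * p.2 ^ 2 := by
  have k1 : 0 ≤ k.1 := by rcases hk.1 with h | h <;> rw [h] <;> norm_num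
  have k2 : 0 ≤ k.2.1 := by rcases hk.2.1 with h | h <;> rw [h] <;> norm_num
  positivity

theorem phi0_le {k : P3} (hk : KOk k) {R : ℝ} (h0 : 0 < R) (p : P2) : phi0 k R p ≤ R := by
  unfold phi0
  rw [Real.sqrt_le_left h0.le]
  have := sqa_q_nonneg hk p
  linarith

theorem phi0_pos {k : P3} {R : ℝ} {p : P2} (hp : p ∈ Ubase k R) : 0 < phi0 k R p := by
  unfold phi0
  rw [Real.sqrt_pos]
  have := hp.2
  linarith

theorem phi0_zero {k : P3} {R : ℝ} {p : P2} (hq : R ^ 2 ≤ k.1 * p.1 ^ 2 + k.2.1 * p.2 ^ 2) :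
    phi0 k R p = 0 := by
  unfold phi0
  rw [Real.sqrt_eq_zero']
  linarith

theorem phi0_sq {k : P3} {R : ℝ} {p : P2} (hq : k.1 * p.1 ^ 2 + k.2.1 * p.2 ^ 2 ≤ R ^ 2) :
    phi0 k R p ^ 2 = R ^ 2 - k.1 * p.1 ^ 2 - k.2.1 * p.2 ^ 2 := by
  unfold phi0
  rw [Real.sq_sqrt (by linarith)]

theorem continuous_phi0 (k : P3) (R : ℝ) : Continuous (phi0 k R) := by
  unfold phi0
  fun_prop

theorem sqa_mem_std {k : P3} (h3 : k.2.2 = 1) {p : P2} (hp : p ∈ box2) (c R z : ℝ) :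
    ((p.1, p.2, z) : P3) ∈ std k (0, 0, c) R ↔ d2 (z - c) < phi0 k R p := by
  obtain ⟨ha, hb⟩ := pb_mem_box2.1 hp
  unfold phi0
  rw [Real.lt_sqrt (d2_nonneg _)]
  simp only [std, mem_ofPred_eq, sub_zero, h3, d2_of_abs_le ha.le, d2_of_abs_le hb.le, sq_abs, one_mul]
  constructor <;> intro h <;> linarith

theorem sqa_volB_std {k : P3} (hk : KOk k) (h3 : k.2.2 = 1) {R : ℝ} (h0 : 0 < R) (h1 : R < 1) :
    volB (std k 0 R) = 2 * ∫ p in box2, phi0 k R p := by
  rw [sqa_volB (perSet_std k 0 R).1]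
  congr 1
  refine setIntegral_congr_fun measurableSet_box2 fun p hp => ?_
  refine sqa_sec_of_ae (phi0_nonneg k R p) ((phi0_le hk h0 p).trans h1.le) (ae_of_all _ fun z => ?_)
  have h := sqa_mem_std h3 hp 0 R z
  rw [sub_zero] at h
  exact h

theorem sec_eq_phi0 {G : Set P3} (hG : PerSet G) {k : P3} (hk : KOk k) (h3 : k.2.2 = 1) {R : ℝ}
    (h0 : 0 < R) (h1 : R < 1) (hS : ∀ᵐ x : P3, (x ∈ stein G ↔ x ∈ std k 0 R)) :
    ∀ᵐ p ∂(volume.restrict box2), sec G p = phi0 k R p := by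
  rw [ae_restrict_iff' measurableSet_box2]
  filter_upwards [sqa_ae_sec hS] with p hp hb
  refine sqa_d2_eq (sec_nonneg G p) (sec_le_one G p) (phi0_nonneg k R p)
    ((phi0_le hk h0 p).trans h1.le) ?_
  filter_upwards [hp] with z hz
  have h := sqa_mem_std h3 hb 0 R z
  rw [sub_zero] at h
  exact hz.trans h

theorem sqa_d1 (c : ℝ) {η : ℝ → ℝ} (hη : ContDiff ℝ 1 η) (p : P2) :
    fderiv ℝ (fun p : P2 => c * p.1 * η p.2) p (1, 0) = c * η p.2 := by
  have h1 : HasFDerivAt (fun p : P2 => η p.2) _ p :=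
    ((hη.differentiable (by simp)) p.2).hasFDerivAt.comp p hasFDerivAt_snd
  have h2 : HasFDerivAt (fun p : P2 => c * p.1) (c • ContinuousLinearMap.fst ℝ ℝ ℝ) p :=
    (hasFDerivAt_fst (𝕜 := ℝ)).const_mul c
  rw [(h2.fun_mul h1).fderiv]
  simp [mul_comm]

theorem sqa_d2 (c : ℝ) {η : ℝ → ℝ} (hη : ContDiff ℝ 1 η) (p : P2) :
    fderiv ℝ (fun p : P2 => c * p.2 * η p.1) p (0, 1) = c * η p.1 := by
  have h1 : HasFDerivAt (fun p : P2 => η p.1) _ p :=
    ((hη.differentiable (by simp)) p.1).hasFDerivAt.comp p hasFDerivAt_fst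
  have h2 : HasFDerivAt (fun p : P2 => c * p.2) (c • ContinuousLinearMap.snd ℝ ℝ ℝ) p :=
    (hasFDerivAt_snd (𝕜 := ℝ)).const_mul c
  rw [(h2.fun_mul h1).fderiv]
  simp [mul_comm]

theorem sqa_sq_le {k x u : ℝ} (hk : k = 0 ∨ k = 1) (h0 : 0 ≤ u) (h1 : u ≤ 1) (t R : ℝ) :
    (k / R * x * u * t) ^ 2 ≤ k * x ^ 2 * t ^ 2 / R ^ 2 := by
  have hu : u ^ 2 ≤ 1 := by nlinarith
  have e : (k / R * x * u * t) ^ 2 = k * x ^ 2 * t ^ 2 / R ^ 2 * u ^ 2 := by
    rcases hk with h | h <;> rw [h] <;> ring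
  have k0 : 0 ≤ k := by rcases hk with h | h <;> rw [h] <;> norm_num
  rw [e]
  exact mul_le_of_le_one_right (by positivity) hu

theorem sqa_fields {k : P3} (hk : KOk k) {R : ℝ} (h0 : 0 < R) (h1 : R < 1)
    {K : Set P2} (hK : IsCompact K) (hKU : K ⊆ Ubase k R) {δ : ℝ} (hδ : 0 < δ) :
    ∃ Z : P2 → P3, ContDiff ℝ 1 Z ∧ tsupport Z ⊆ box2 ∧
      (∀ p, (Z p).1 ^ 2 + (Z p).2.1 ^ 2 + (Z p).2.2 ^ 2 ≤ (1 + δ) ^ 2) ∧ (∀ p, 0 ≤ (Z p).2.2) ∧
      (∀ p, (Z p).2.2 ≠ 0 → p ∈ Ubase k R) ∧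
      (∀ p ∈ K, (Z p).1 = k.1 * p.1 / R ∧ (Z p).2.1 = k.2.1 * p.2 / R ∧ (Z p).2.2 = phi0 k R p / R) ∧
      ∀ p ∈ box2, (k.1 + k.2.1 + 1) / R * phi0 k R p - (Ubase k R \ K).indicator (fun _ => (3 : ℝ)) p
        ≤ phi0 k R p * (fderiv ℝ (fun p => (Z p).1) p (1, 0) + fderiv ℝ (fun p => (Z p).2.1) p (0, 1))
          + (Z p).2.2 := by
  obtain ⟨χ, L, hχ, hL, hLU, hKL, χ1, χ0, χb⟩ := sqa_cut hK (isOpen_Ubase k R) hKU
  obtain ⟨ρ, hρ, hLρ⟩ := exists_pos_lt_subset_ball (x := (0 : P2)) one_pos hL.isClosed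
    (by rw [← sqa_box2_ball]; exact fun p hp => (hLU hp).1)
  obtain ⟨η, hη, η1, η0, ηb⟩ := sqa_cut1 (a := ρ) (b := (ρ + 1) / 2) hρ.1 (by linarith [hρ.2])
  set R' : ℝ := min ((1 + R) / 2) ((1 + δ) * R) with hR'
  have hRR : R < R' := lt_min (by linarith) (by nlinarith)
  have hR1 : R' < 1 := (min_le_left _ _).trans_lt (by linarith)
  have hRδ : R' ≤ (1 + δ) * R := min_le_right _ _
  obtain ⟨θ, hθ, θ1, θ0, θb⟩ := sqa_cut1 (a := R ^ 2) (b := R' ^ 2) (by positivity) (by nlinarith)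
  set q : P2 → ℝ := fun p => k.1 * p.1 ^ 2 + k.2.1 * p.2 ^ 2 with hq
  have q0 : ∀ p, 0 ≤ q p := sqa_q_nonneg hk
  have hqc : ContDiff ℝ 1 q := by rw [hq]; fun_prop
  have hθq : ContDiff ℝ 1 fun p => θ (q p) := hθ.comp hqc
  have k1 : 0 ≤ k.1 := by rcases hk.1 with h | h <;> rw [h] <;> norm_num
  have k2 : 0 ≤ k.2.1 := by rcases hk.2.1 with h | h <;> rw [h] <;> norm_num
  have k1' : k.1 ≤ 1 := by rcases hk.1 with h | h <;> rw [h] <;> norm_num
  have k2' : k.2.1 ≤ 1 := by rcases hk.2.1 with h | h <;> rw [h] <;> norm_num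
  have hb : ContDiff ℝ 1 fun p => χ p * phi0 k R p / R := by
    refine ContDiff.div_const (contDiff_iff_contDiffAt.2 fun p => ?_) R
    by_cases hp : p ∈ L
    · refine hχ.contDiffAt.mul ?_
      have h2 := (hLU hp).2
      refine ContDiffAt.sqrt (by fun_prop) (ne_of_gt (by linarith))
    · refine (contDiffAt_const (c := (0 : ℝ))).congr_of_eventuallyEq ?_
      filter_upwards [hL.isClosed.isOpen_compl.mem_nhds hp] with y hy
      rw [χ0 y hy, zero_mul]
  have hη1 : ContDiff ℝ 1 fun p : P2 => η p.1 := hη.comp contDiff_fst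
  have hη2 : ContDiff ℝ 1 fun p : P2 => η p.2 := hη.comp contDiff_snd
  have inL : ∀ p ∈ L, η p.1 = 1 ∧ η p.2 = 1 := fun p hp => by
    have h := hLρ hp
    rw [mem_ball_zero_iff, Prod.norm_def, max_lt_iff, Real.norm_eq_abs, Real.norm_eq_abs] at h
    exact ⟨η1 _ h.1.le, η1 _ h.2.le⟩
  have inU : ∀ p ∈ Ubase k R, θ (q p) = 1 := fun p hp =>
    θ1 _ (by rw [abs_of_nonneg (q0 p)]; exact hp.2.le)
  refine ⟨fun p => (k.1 / R * p.1 * η p.2 * θ (q p), k.2.1 / R * p.2 * η p.1 * θ (q p),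
    χ p * phi0 k R p / R), ?_, ?_, fun p => ?_, fun p => ?_, fun p hp => ?_, fun p hp => ?_,
    fun p hp => ?_⟩
  · refine ContDiff.prodMk ?_ (ContDiff.prodMk ?_ hb)
    · exact ((contDiff_const.mul contDiff_fst).mul hη2).mul hθq
    · exact ((contDiff_const.mul contDiff_snd).mul hη1).mul hθq
  · have hr : max R' ((ρ + 1) / 2) < 1 := max_lt hR1 (by linarith [hρ.2])
    refine (closure_minimal ?_ Metric.isClosed_closedBall).trans
      ((Metric.closedBall_subset_ball hr).trans sqa_box2_ball.ge)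
    intro p hp
    rw [mem_closedBall_zero_iff, Prod.norm_def, max_le_iff, Real.norm_eq_abs, Real.norm_eq_abs]
    by_contra hc
    apply hp
    have hpL : p ∉ L := fun hp' => by
      have h := hLρ hp'
      rw [mem_ball_zero_iff, Prod.norm_def, max_lt_iff, Real.norm_eq_abs, Real.norm_eq_abs] at h
      have := le_max_right R' ((ρ + 1) / 2)
      exact hc ⟨by linarith [h.1, hρ.2], by linarith [h.2, hρ.2]⟩
    have big : ∀ {c t : ℝ}, (c = 0 ∨ c = 1) → c * t ^ 2 ≤ q p → max R' ((ρ + 1) / 2) < |t| →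
        c * θ (q p) = 0 := by
      intro c t hc ht hm
      rcases hc with h | h
      · rw [h, zero_mul]
      · rw [h, one_mul] at ht
        have a1 : R' < |t| := (le_max_left _ _).trans_lt hm
        have a2 : R' ^ 2 ≤ t ^ 2 := by
          rw [← sq_abs t]; exact pow_le_pow_left₀ (by linarith) a1.le 2
        rw [θ0 _ (by rw [abs_of_nonneg (q0 p)]; linarith), mul_zero]
    have n1 : 0 ≤ k.1 * p.1 ^ 2 := by positivity
    have n2 : 0 ≤ k.2.1 * p.2 ^ 2 := by positivity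
    rw [not_and_or, not_le, not_le] at hc
    rcases hc with hc | hc
    · have a := big hk.1 (by simp only [hq]; linarith) hc
      have b := η0 _ ((le_max_right _ _).trans hc.le)
      refine Prod.ext ?_ (Prod.ext ?_ ?_)
      · change k.1 / R * p.1 * η p.2 * θ (q p) = 0
        linear_combination (p.1 * η p.2 / R) * a
      · change k.2.1 / R * p.2 * η p.1 * θ (q p) = 0
        rw [b]; ring
      · change χ p * phi0 k R p / R = 0
        rw [χ0 p hpL]; ring
    · have a := big hk.2.1 (by simp only [hq]; linarith) hc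
      have b := η0 _ ((le_max_right _ _).trans hc.le)
      refine Prod.ext ?_ (Prod.ext ?_ ?_)
      · change k.1 / R * p.1 * η p.2 * θ (q p) = 0
        rw [b]; ring
      · change k.2.1 / R * p.2 * η p.1 * θ (q p) = 0
        linear_combination (p.2 * η p.1 / R) * a
      · change χ p * phi0 k R p / R = 0
        rw [χ0 p hpL]; ring
  · have a1 := sqa_sq_le (x := p.1) hk.1 (ηb p.2).1 (ηb p.2).2 (θ (q p)) R
    have a2 := sqa_sq_le (x := p.2) hk.2.1 (ηb p.1).1 (ηb p.1).2 (θ (q p)) R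
    have a3 : (χ p * phi0 k R p / R) ^ 2 ≤ phi0 k R p ^ 2 / R ^ 2 := by
      rw [div_pow, mul_pow]
      refine div_le_div_of_nonneg_right (mul_le_of_le_one_left (sq_nonneg _) ?_) (sq_nonneg _)
      nlinarith [χb p]
    have a4 : k.1 * p.1 ^ 2 * θ (q p) ^ 2 / R ^ 2 + k.2.1 * p.2 ^ 2 * θ (q p) ^ 2 / R ^ 2
        + phi0 k R p ^ 2 / R ^ 2 ≤ (1 + δ) ^ 2 := by
      have e : k.1 * p.1 ^ 2 * θ (q p) ^ 2 / R ^ 2 + k.2.1 * p.2 ^ 2 * θ (q p) ^ 2 / R ^ 2
        + phi0 k R p ^ 2 / R ^ 2 = (q p * θ (q p) ^ 2 + phi0 k R p ^ 2) / R ^ 2 := by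
        simp only [hq]; ring
      rw [e, div_le_iff₀ (by positivity), ← mul_pow]
      have t1 : θ (q p) ^ 2 ≤ 1 := by nlinarith [θb (q p)]
      have t2 : q p * θ (q p) ^ 2 ≤ q p := mul_le_of_le_one_right (q0 p) t1
      have t3 : R' ^ 2 ≤ ((1 + δ) * R) ^ 2 := pow_le_pow_left₀ (by linarith) hRδ 2
      have t4 : R ^ 2 ≤ R' ^ 2 := pow_le_pow_left₀ h0.le hRR.le 2
      rcases le_total (q p) (R ^ 2) with h | h
      · have t5 := phi0_sq (k := k) (p := p) h
        simp only [hq] at t2 ⊢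
        linarith
      · rw [phi0_zero (k := k) (p := p) h]
        rcases le_total (q p) (R' ^ 2) with h' | h'
        · linarith
        · rw [θ0 _ (by rw [abs_of_nonneg (q0 p)]; exact h')]
          have : 0 ≤ ((1 + δ) * R) ^ 2 := sq_nonneg _
          linarith
    exact le_trans (add_le_add (add_le_add a1 a2) a3) a4
  · exact div_nonneg (mul_nonneg (χb p).1 (phi0_nonneg k R p)) h0.le
  · by_contra hc
    apply hp
    change χ p * phi0 k R p / R = 0
    rw [χ0 p fun h => hc (hLU h)]; ring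
  · obtain ⟨e1, e2⟩ := inL p (hKL hp)
    have e3 := inU p (hKU hp)
    refine ⟨?_, ?_, ?_⟩
    · change k.1 / R * p.1 * η p.2 * θ (q p) = _
      rw [e2, e3]; ring
    · change k.2.1 / R * p.2 * η p.1 * θ (q p) = _
      rw [e1, e3]; ring
    · change χ p * phi0 k R p / R = _
      rw [χ1 p hp]; ring
  · change _ ≤ phi0 k R p * (fderiv ℝ (fun p : P2 => k.1 / R * p.1 * η p.2 * θ (q p)) p (1, 0)
      + fderiv ℝ (fun p : P2 => k.2.1 / R * p.2 * η p.1 * θ (q p)) p (0, 1)) + χ p * phi0 k R p / R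
    by_cases hU : p ∈ Ubase k R
    · have f1 : fderiv ℝ (fun p : P2 => k.1 / R * p.1 * η p.2 * θ (q p)) p
          = fderiv ℝ (fun p : P2 => k.1 / R * p.1 * η p.2) p := by
        apply Filter.EventuallyEq.fderiv_eq
        filter_upwards [(isOpen_Ubase k R).mem_nhds hU] with y hy
        rw [inU y hy, mul_one]
      have f2 : fderiv ℝ (fun p : P2 => k.2.1 / R * p.2 * η p.1 * θ (q p)) p
          = fderiv ℝ (fun p : P2 => k.2.1 / R * p.2 * η p.1) p := by
        apply Filter.EventuallyEq.fderiv_eq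
        filter_upwards [(isOpen_Ubase k R).mem_nhds hU] with y hy
        rw [inU y hy, mul_one]
      rw [f1, f2, sqa_d1 _ hη, sqa_d2 _ hη]
      by_cases hpK : p ∈ K
      · obtain ⟨e1, e2⟩ := inL p (hKL hpK)
        rw [indicator_of_notMem (fun h => h.2 hpK), e1, e2, χ1 p hpK]
        apply le_of_eq
        ring
      · rw [indicator_of_mem (show p ∈ Ubase k R \ K from ⟨hU, hpK⟩)]
        have φ0 := phi0_nonneg k R p
        have φ1 : phi0 k R p / R ≤ 1 := (div_le_one h0).2 (phi0_le hk h0 p)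
        have φ2 : 0 ≤ phi0 k R p / R := div_nonneg φ0 h0.le
        have r1 : 0 ≤ phi0 k R p * (k.1 / R * η p.2 + k.2.1 / R * η p.1) + χ p * phi0 k R p / R := by
          have := (ηb p.1).1
          have := (ηb p.2).1
          have := (χb p).1
          positivity
        have r2 : (k.1 + k.2.1 + 1) / R * phi0 k R p ≤ 3 := by
          have e : (k.1 + k.2.1 + 1) / R * phi0 k R p = (k.1 + k.2.1 + 1) * (phi0 k R p / R) := by ring
          rw [e]
          nlinarith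
        linarith
    · have : phi0 k R p = 0 := phi0_zero (not_lt.1 fun h => hU ⟨hp, h⟩)
      rw [indicator_of_notMem (fun h => hU h.1), this]
      simp

/-- asymptotically sharp fields, exact on a given compact set -/
theorem exists_sharp_fields {k : P3} (hk : KOk k) (h3 : k.2.2 = 1) {R : ℝ} (h0 : 0 < R) (h1 : R < 1)
    {K : Set P2} (hK : IsCompact K) (hKU : K ⊆ Ubase k R) {δ : ℝ} (hδ : 0 < δ) :
    ∃ a₁ a₂ b : P2 → ℝ, ContDiff ℝ 1 a₁ ∧ ContDiff ℝ 1 a₂ ∧ ContDiff ℝ 1 b ∧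
      Periodic2 a₁ ∧ Periodic2 a₂ ∧ Periodic2 b ∧
      (∀ p, a₁ p ^ 2 + a₂ p ^ 2 + b p ^ 2 ≤ (1 + δ) ^ 2) ∧ (∀ p, 0 ≤ b p) ∧
      (∀ p ∈ box2, b p ≠ 0 → p ∈ Ubase k R) ∧
      (∀ p ∈ K, a₁ p = k.1 * p.1 / R ∧ a₂ p = k.2.1 * p.2 / R ∧ b p = phi0 k R p / R) ∧
      (k.1 + k.2.1 + k.2.2) * volB (std k 0 R) / R - δ ≤
        2 * (∫ p in box2, phi0 k R p * (fderiv ℝ a₁ p (1, 0) + fderiv ℝ a₂ p (0, 1)))
          + 2 * ∫ p in box2, b p := by
  obtain ⟨K₁, hK₁U, hK₁, hvol⟩ := (isOpen_Ubase k R).measurableSet.exists_isCompact_sdiff_lt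
    (μ := volume) (ne_top_of_le_ne_top (by rw [sqa_vol_box2]; simp) (measure_mono fun p hp => hp.1))
    (ε := ENNReal.ofReal (δ / 6)) (by simpa using hδ)
  obtain ⟨Z, hZ, hs, hn, hb0, hbU, hZK, hdiv⟩ :=
    sqa_fields hk h0 h1 (hK.union hK₁) (union_subset hKU hK₁U) hδ
  obtain ⟨W, hW, hWp, hWZ, hWy⟩ := exists_periodic_ext2 hZ hs
  have hWe : ∀ p ∈ box2, W =ᶠ[𝓝 p] Z := fun p hp => by
    filter_upwards [sqa_isOpen_box2.mem_nhds hp] with y hy using hWZ y hy
  have c1 : ContDiff ℝ 1 fun p => (W p).1 := hW.fst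
  have c2 : ContDiff ℝ 1 fun p => (W p).2.1 := hW.snd.fst
  have c3 : ContDiff ℝ 1 fun p => (W p).2.2 := hW.snd.snd
  refine ⟨fun p => (W p).1, fun p => (W p).2.1, fun p => (W p).2.2, c1, c2, c3,
    ⟨fun x => by simp only [hWp.1 x], fun x => by simp only [hWp.2 x]⟩,
    ⟨fun x => by simp only [hWp.1 x], fun x => by simp only [hWp.2 x]⟩,
    ⟨fun x => by simp only [hWp.1 x], fun x => by simp only [hWp.2 x]⟩,
    fun p => ?_, fun p => ?_, fun p hp h => ?_, fun p hp => ?_, ?_⟩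
  · obtain ⟨y, hy⟩ := hWy p
    simp only [hy]; exact hn y
  · obtain ⟨y, hy⟩ := hWy p
    simp only [hy]; exact hb0 y
  · simp only [hWZ p hp] at h
    exact hbU p h
  · simp only [hWZ p (hKU hp).1]
    exact hZK p (Or.inl hp)
  · set D : Set P2 := Ubase k R \ (K ∪ K₁) with hD
    have hDm : MeasurableSet D :=
      (isOpen_Ubase k R).measurableSet.diff (hK.union hK₁).measurableSet
    have hDv : (volume D).toReal ≤ δ / 6 := by
      have : volume D ≤ ENNReal.ofReal (δ / 6) :=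
        (measure_mono (sdiff_subset_sdiff_right subset_union_right)).trans hvol.le
      exact ENNReal.toReal_le_of_le_ofReal (by positivity) this
    have hDb : D ⊆ box2 := fun p hp => hp.1.1
    have i1 : IntegrableOn (fun p => phi0 k R p *
        (fderiv ℝ (fun p => (W p).1) p (1, 0) + fderiv ℝ (fun p => (W p).2.1) p (0, 1))) box2 := by
      refine sqa_int_cont ((continuous_phi0 k R).mul (Continuous.add ?_ ?_))
      · exact (c1.continuous_fderiv (by simp)).clm_apply continuous_const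
      · exact (c2.continuous_fderiv (by simp)).clm_apply continuous_const
    have i2 : IntegrableOn (fun p => (W p).2.2) box2 := sqa_int_cont c3.continuous
    have i3 : IntegrableOn (fun p => (k.1 + k.2.1 + 1) / R * phi0 k R p) box2 :=
      sqa_int_cont (continuous_const.mul (continuous_phi0 k R))
    have i4 : IntegrableOn (D.indicator fun _ => (3 : ℝ)) box2 :=
      (sqa_int_cont continuous_const).indicator hDm
    have key : ∫ p in box2, ((k.1 + k.2.1 + 1) / R * phi0 k R p - D.indicator (fun _ => (3 : ℝ)) p)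
        ≤ ∫ p in box2, (phi0 k R p *
          (fderiv ℝ (fun p => (W p).1) p (1, 0) + fderiv ℝ (fun p => (W p).2.1) p (0, 1))
            + (W p).2.2) := by
      refine setIntegral_mono_on (i3.sub i4) (i1.add i2) measurableSet_box2 fun p hp => ?_
      have f1 : fderiv ℝ (fun p => (W p).1) p = fderiv ℝ (fun p => (Z p).1) p := by
        apply Filter.EventuallyEq.fderiv_eq
        filter_upwards [hWe p hp] with y hy
        rw [hy]
      have f2 : fderiv ℝ (fun p => (W p).2.1) p = fderiv ℝ (fun p => (Z p).2.1) p := by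
        apply Filter.EventuallyEq.fderiv_eq
        filter_upwards [hWe p hp] with y hy
        rw [hy]
      rw [f1, f2, hWZ p hp]
      exact hdiv p hp
    rw [integral_sub i3 i4, integral_add i1 i2, integral_const_mul, integral_indicator hDm,
      Measure.restrict_restrict hDm, inter_eq_left.2 hDb, setIntegral_const, smul_eq_mul,
      Measure.real] at key
    rw [sqa_volB_std hk h3 h0 h1, h3]
    have e : (k.1 + k.2.1 + 1) * (2 * ∫ p in box2, phi0 k R p) / R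
        = 2 * ((k.1 + k.2.1 + 1) / R * ∫ p in box2, phi0 k R p) := by ring
    rw [e]
    linarith

theorem sqa_mass_le {G : Set P3} (hG : PerSet G) {k : P3} (hk : KOk k) (h3 : k.2.2 = 1) {R : ℝ}
    (h0 : 0 < R) (h1 : R < 1) (hS : ∀ᵐ x : P3, (x ∈ stein G ↔ x ∈ std k 0 R)) {c : ℝ}
    (hc : c = (k.1 + k.2.1 + k.2.2) * volB (std k 0 R) / R) (hP : PerLe G c)
    {K : Set P2} (hK : IsCompact K) (hKU : K ⊆ Ubase k R)
    (hKB : ∀ p ∈ K, ∀ᶠ n : ℕ in atTop, 3 < tv {z | ((p.1, p.2, z) : P3) ∈ G} (1 / ((n : ℝ) + 1)))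
    {δ : ℝ} (hδ : 0 < δ) (hδ1 : δ ≤ 1) : ∫ p in K, phi0 k R p / R ≤ δ * (c + 9) := by
  obtain ⟨a₁, a₂, b, c1, c2, c3, p1, p2, p3, hn, b0, bU, hKe, hlow⟩ :=
    exists_sharp_fields hk h3 h0 h1 hK hKU hδ
  have hsec := sec_eq_phi0 hG hk h3 h0 h1 hS
  have hb2 : ∀ p, b p ≤ 2 := fun p => by
    have h := hn p
    have : b p ^ 2 ≤ 2 ^ 2 := by nlinarith [sq_nonneg (a₁ p), sq_nonneg (a₂ p)]
    exact (pow_le_pow_iff_left₀ (b0 p) (by norm_num) two_ne_zero).1 this
  have ib : IntegrableOn b box2 := sqa_int_cont c3.continuous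
  have hb8 : ∫ p in box2, b p ≤ 8 := by
    have h := setIntegral_mono_on ib (sqa_int_cont (continuous_const (y := (2 : ℝ))))
      measurableSet_box2 fun p _ => hb2 p
    rw [setIntegral_const, Measure.real, sqa_vol_box2] at h
    norm_num at h
    linarith
  have e1 : ∫ p in box2, sec G p * (fderiv ℝ a₁ p (1, 0) + fderiv ℝ a₂ p (0, 1))
      = ∫ p in box2, phi0 k R p * (fderiv ℝ a₁ p (1, 0) + fderiv ℝ a₂ p (0, 1)) := by
    apply integral_congr_ae
    filter_upwards [hsec] with p hp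
    rw [hp]
  have hφ : Continuous fun p => phi0 k R p / R := (continuous_phi0 k R).div_const R
  have i1 : IntegrableOn (fun p => (2 - δ) * b p) box2 := ib.const_mul _
  have i2 : IntegrableOn (K.indicator fun p => phi0 k R p / R) box2 :=
    (sqa_int_cont hφ).indicator hK.measurableSet
  have F := sqa_fatou (μ := volume.restrict box2)
    (f := fun n p => |b p| * tv {z | ((p.1, p.2, z) : P3) ∈ G} (1 / ((n : ℝ) + 1)))
    (g := fun p => (2 - δ) * b p + K.indicator (fun p => phi0 k R p / R) p)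
    (C := δ * c + δ + 2 * ∫ p in box2, b p) (fun n => ?_) (i1.add i2) (fun n p => ?_) (fun p => ?_) ?_
    (fun n => ?_)
  · rw [integral_add i1 i2, integral_const_mul, integral_indicator hK.measurableSet,
      Measure.restrict_restrict hK.measurableSet, inter_eq_left.2 fun p hp => (hKU hp).1] at F
    nlinarith
  · have hε : (0 : ℝ) < 1 / ((n : ℝ) + 1) := by positivity
    refine sqa_int_bdd (M := 2 * (2 / (1 / ((n : ℝ) + 1))))
      (c3.continuous.abs.measurable.mul (measurable_tv hG.1 _)) fun p => ?_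
    rw [abs_mul, abs_abs, abs_of_nonneg (b0 p), abs_of_nonneg (tv_nonneg _ hε)]
    exact mul_le_mul (hb2 p) (tv_le _ hε) (tv_nonneg _ hε) (by norm_num)
  · exact mul_nonneg (abs_nonneg _) (tv_nonneg _ (by positivity))
  · exact add_nonneg (mul_nonneg (by linarith) (b0 p))
      (indicator_nonneg (fun p _ => div_nonneg (phi0_nonneg k R p) h0.le) p)
  · filter_upwards [hsec, ae_restrict_mem measurableSet_box2] with p hp hpb
    rw [abs_of_nonneg (b0 p)]
    by_cases hpK : p ∈ K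
    · filter_upwards [hKB p hpK] with n hn
      rw [indicator_of_mem hpK, ← (hKe p hpK).2.2]
      nlinarith [b0 p, mul_nonneg (b0 p) (sub_nonneg.2 hn.le), mul_nonneg (b0 p) hδ.le]
    · rw [indicator_of_notMem hpK, add_zero]
      by_cases hz : b p = 0
      · simp [hz]
      · have hU := bU p hpb hz
        have t := two_le_tv (sqa_sec_meas hG.1 p) (sqa_sec_per hG p)
          (by rw [sqa_sec_eq, hp]; linarith [phi0_pos hU])
          (by rw [sqa_sec_eq, hp]; linarith [phi0_le hk h0 p]) (c := 2 - δ) (by linarith)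
        filter_upwards [sqa_tend.eventually t] with n hn
        rw [mul_comm]
        exact mul_le_mul_of_nonneg_left hn (b0 p)
  · have h := steinA hG hP c1 c2 c3 p1 p2 p3 (M := 1 + δ) (by linarith) hn
      (ε := 1 / ((n : ℝ) + 1)) (by positivity)
    rw [e1] at h
    rw [← hc] at hlow
    linarith

theorem sqa_no_mass {G : Set P3} (hG : PerSet G) {k : P3} (hk : KOk k) (h3 : k.2.2 = 1) {R : ℝ}
    (h0 : 0 < R) (h1 : R < 1) (hS : ∀ᵐ x : P3, (x ∈ stein G ↔ x ∈ std k 0 R))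
    (hP : PerLe G ((k.1 + k.2.1 + k.2.2) * volB (std k 0 R) / R))
    {K : Set P2} (hK : IsCompact K) (hKU : K ⊆ Ubase k R)
    (hKB : ∀ p ∈ K, ∀ᶠ n : ℕ in atTop, 3 < tv {z | ((p.1, p.2, z) : P3) ∈ G} (1 / ((n : ℝ) + 1)))
    (hv : 0 < volume K) : False := by
  set c := (k.1 + k.2.1 + k.2.2) * volB (std k 0 R) / R with hc
  have hφ : Continuous fun p => phi0 k R p / R := (continuous_phi0 k R).div_const R
  have hpos : 0 < ∫ p in K, phi0 k R p / R := by
    rw [setIntegral_pos_iff_support_of_nonneg_ae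
      (ae_of_all _ fun p => div_nonneg (phi0_nonneg k R p) h0.le)
      (hφ.continuousOn.integrableOn_compact hK)]
    refine hv.trans_le (measure_mono fun p hp => ⟨?_, hp⟩)
    exact (div_pos (phi0_pos (hKU hp)) h0).ne'
  have ht : Tendsto (fun δ : ℝ => δ * (c + 9)) (𝓝[>] 0) (𝓝 (0 * (c + 9))) :=
    ((continuous_id.mul continuous_const).tendsto 0).mono_left nhdsWithin_le_nhds
  rw [zero_mul] at ht
  refine absurd (ge_of_tendsto ht ?_) (not_le.2 hpos)
  filter_upwards [Ioc_mem_nhdsGT (zero_lt_one' ℝ)] with δ hδ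
  exact sqa_mass_le hG hk h3 h0 h1 hS hc hP hK hKU hKB hδ.1 hδ.2

/-- almost every section over the base is an arc -/
theorem ae_arc {G : Set P3} (hG : PerSet G) {k : P3} (hk : KOk k) (h3 : k.2.2 = 1) {R : ℝ}
    (h0 : 0 < R) (h1 : R < 1) (hS : ∀ᵐ x : P3, (x ∈ stein G ↔ x ∈ std k 0 R))
    (hP : PerLe G ((k.1 + k.2.1 + k.2.2) * volB (std k 0 R) / R)) :
    ∀ᵐ p : P2, p ∈ Ubase k R →
      ∃ m : ℝ, ∀ᵐ z : ℝ, (((p.1, p.2, z) : P3) ∈ G ↔ d2 (z - m) < phi0 k R p) := by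
  set B : Set P2 := {p | ∀ᶠ n : ℕ in atTop,
    3 < tv {z | ((p.1, p.2, z) : P3) ∈ G} (1 / ((n : ℝ) + 1))} with hB
  have hBm : MeasurableSet B := by
    have e : B = ⋃ N : ℕ, ⋂ n : ℕ, ⋂ _ : N ≤ n,
        {p : P2 | 3 < tv {z | ((p.1, p.2, z) : P3) ∈ G} (1 / ((n : ℝ) + 1))} := by
      ext p
      simp only [hB, mem_ofPred_eq, eventually_atTop, mem_iUnion, mem_iInter, ge_iff_le]
    rw [e]
    exact MeasurableSet.iUnion fun N => MeasurableSet.iInter fun n => MeasurableSet.iInter fun _ =>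
      measurableSet_lt measurable_const (measurable_tv hG.1 _)
  have hsec := (ae_restrict_iff' measurableSet_box2).1 (sec_eq_phi0 hG hk h3 h0 h1 hS)
  have h0' : volume (B ∩ Ubase k R) = 0 := by
    by_contra hne
    obtain ⟨K, hKB, hK, hKv⟩ := (hBm.inter (isOpen_Ubase k R).measurableSet).exists_lt_isCompact_of_ne_top
      (μ := volume) (ne_top_of_le_ne_top (by rw [sqa_vol_box2]; simp)
        (measure_mono fun p hp => hp.2.1)) (pos_iff_ne_zero.2 hne)
    exact sqa_no_mass hG hk h3 h0 h1 hS hP hK (fun p hp => (hKB hp).2) (fun p hp => (hKB hp).1) hKv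
  filter_upwards [hsec, measure_eq_zero_iff_ae_notMem.1 h0'] with p hp hpB hU
  have hf : ∃ᶠ n : ℕ in atTop, tv {z | ((p.1, p.2, z) : P3) ∈ G} (1 / ((n : ℝ) + 1)) ≤ 3 := by
    have h : ¬ ∀ᶠ n : ℕ in atTop, 3 < tv {z | ((p.1, p.2, z) : P3) ∈ G} (1 / ((n : ℝ) + 1)) :=
      fun h => hpB ⟨h, hU⟩
    rw [not_eventually] at h
    exact h.mono fun n hn => not_lt.1 hn
  obtain ⟨m, hm⟩ := arc_of_tv (sqa_sec_meas hG.1 p) (sqa_sec_per hG p) (c := 3) (by norm_num)
    (sqa_tend.frequently hf)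
  refine ⟨m, ?_⟩
  rw [sqa_sec_eq, hp hU.1] at hm
  filter_upwards [hm] with z hz
  rw [mul_div_cancel_left₀ _ two_ne_zero] at hz
  exact hz


end Vale.Agent.P232
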