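import Vale.Agent.P232.StB
import Vale.Agent.P232.Std

open MeasureTheory Set Filter Topology
open scoped ENNReal

noncomputable section
namespace Vale.Agent.P232

/-! Generic helpers for `StEqA` and `StEq`. -/

theorem sqa_ae_sec {P : P3 → Prop} (h : ∀ᵐ x : P3, P x) :
    ∀ᵐ p : P2, ∀ᵐ z : ℝ, P (p.1, p.2, z) := by
  have hp : MeasurePreserving (MeasurableEquiv.prodAssoc : P2 × ℝ ≃ᵐ P3) volume volume :=
    volume_preserving_prodAssoc
  have h2 : ∀ᵐ q : P2 × ℝ, P (MeasurableEquiv.prodAssoc q) := hp.quasiMeasurePreserving.ae h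
  exact Measure.ae_ae_of_ae_prod (p := fun q : P2 × ℝ => P (MeasurableEquiv.prodAssoc q)) h2

theorem sqa_ae_of_sec {P : P3 → Prop} (hm : MeasurableSet {x | P x})
    (h : ∀ᵐ p : P2, ∀ᵐ z : ℝ, P (p.1, p.2, z)) : ∀ᵐ x : P3, P x := by
  have hp : MeasurePreserving (MeasurableEquiv.prodAssoc : P2 × ℝ ≃ᵐ P3) volume volume :=
    volume_preserving_prodAssoc
  have hm2 : MeasurableSet {q : P2 × ℝ | P (MeasurableEquiv.prodAssoc q)} :=
    (MeasurableEquiv.prodAssoc : P2 × ℝ ≃ᵐ P3).measurable hm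
  have h2 : ∀ᵐ q : P2 × ℝ, P (MeasurableEquiv.prodAssoc q) :=
    (Measure.ae_prod_iff_ae_ae (μ := (volume : Measure P2)) (ν := (volume : Measure ℝ)) hm2).2 h
  have h3 := (hp.symm _).quasiMeasurePreserving.ae h2
  filter_upwards [h3] with x hx
  simpa using hx

theorem sqa_vol_d2 {s : ℝ} (h0 : 0 ≤ s) (h1 : s ≤ 1) :
    (volume {z ∈ Ioo (-1 : ℝ) 1 | d2 z < s}).toReal = 2 * s := by
  have : {z ∈ Ioo (-1 : ℝ) 1 | d2 z < s} = Ioo (-s) s := by
    ext z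
    simp only [mem_ofPred_eq, mem_Ioo]
    constructor
    · rintro ⟨⟨ha, hb⟩, hc⟩
      rw [d2_of_abs_le (abs_le.2 ⟨ha.le, hb.le⟩)] at hc
      exact abs_lt.1 hc
    · rintro ⟨ha, hb⟩
      have h2 : -1 < z := by linarith
      have h3 : z < 1 := by linarith
      refine ⟨⟨h2, h3⟩, ?_⟩
      rw [d2_of_abs_le (abs_le.2 ⟨h2.le, h3.le⟩)]
      exact abs_lt.2 ⟨ha, hb⟩
  rw [this, Real.volume_Ioo, ENNReal.toReal_ofReal (by linarith)]
  ring

theorem sqa_sec_of_ae {G : Set P3} {p : P2} {s : ℝ} (h0 : 0 ≤ s) (h1 : s ≤ 1)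
    (h : ∀ᵐ z : ℝ, (((p.1, p.2, z) : P3) ∈ G ↔ d2 z < s)) : sec G p = s := by
  have e : volume {z ∈ Ioo (-1 : ℝ) 1 | ((p.1, p.2, z) : P3) ∈ G}
      = volume {z ∈ Ioo (-1 : ℝ) 1 | d2 z < s} := by
    apply measure_congr
    filter_upwards [h] with z hz
    apply propext
    change (z ∈ Ioo (-1 : ℝ) 1 ∧ ((p.1, p.2, z) : P3) ∈ G) ↔ (z ∈ Ioo (-1 : ℝ) 1 ∧ d2 z < s)
    rw [hz]
  unfold sec
  rw [e, sqa_vol_d2 h0 h1]
  ring

theorem sqa_d2_eq {s t : ℝ} (s0 : 0 ≤ s) (s1 : s ≤ 1) (t0 : 0 ≤ t) (t1 : t ≤ 1)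
    (h : ∀ᵐ z : ℝ, (d2 z < s ↔ d2 z < t)) : s = t := by
  have a := sqa_sec_of_ae (G := {x : P3 | d2 x.2.2 < s}) (p := 0) t0 t1 h
  have b := sqa_sec_of_ae (G := {x : P3 | d2 x.2.2 < s}) (p := 0) s0 s1
    (ae_of_all _ fun z => Iff.rfl)
  rw [← a, b]

theorem sqa_volB {G : Set P3} (hG : MeasurableSet G) : volB G = 2 * ∫ p in box2, sec G p := by
  have hm : Measurable (fun q : P2 × ℝ => ((q.1.1, q.1.2, q.2) : P3)) := by fun_prop
  have key := vol_eq_integral_fibres (A := box2) (B := Ioo (-1 : ℝ) 1) measurableSet_box2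
    measurableSet_Ioo (by simp) (hm hG)
  have hp : MeasurePreserving (MeasurableEquiv.prodAssoc : P2 × ℝ ≃ᵐ P3) volume volume :=
    volume_preserving_prodAssoc
  have h2 := hp.measure_preimage (hG.inter measurableSet_box).nullMeasurableSet
  have h3 : (MeasurableEquiv.prodAssoc : P2 × ℝ ≃ᵐ P3) ⁻¹' (G ∩ box) =
      (fun q : P2 × ℝ => ((q.1.1, q.1.2, q.2) : P3)) ⁻¹' G ∩ box2 ×ˢ Ioo (-1 : ℝ) 1 := by
    ext q
    simp only [MeasurableEquiv.prodAssoc, MeasurableEquiv.coe_mk, Equiv.prodAssoc_apply, box, box2,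
      mem_preimage, mem_inter_iff, mem_prod]
    tauto
  unfold volB sec
  rw [← h2, h3, key, integral_div]
  change _ = 2 * ((∫ x in box2, (volume {t ∈ Ioo (-1 : ℝ) 1 |
    (x, t) ∈ (fun q : P2 × ℝ => ((q.1.1, q.1.2, q.2) : P3)) ⁻¹' G}).toReal) / 2)
  ring

theorem sqa_box2_ball : box2 = Metric.ball (0 : P2) 1 := by
  ext p
  rw [pb_mem_box2, mem_ball_zero_iff, Prod.norm_def, max_lt_iff, Real.norm_eq_abs, Real.norm_eq_abs]

theorem sqa_isOpen_box2 : IsOpen box2 := by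
  rw [sqa_box2_ball]; exact Metric.isOpen_ball

theorem sqa_vol_box2 : volume box2 = 4 := by
  unfold box2
  rw [Measure.volume_eq_prod, Measure.prod_prod, Real.volume_Ioo, ← ENNReal.ofReal_mul (by norm_num)]
  norm_num

theorem sqa_int_cont {f : P2 → ℝ} (hf : Continuous f) : IntegrableOn f box2 := by
  have h := hf.continuousOn.integrableOn_compact (μ := volume) (isCompact_closedBall (0 : P2) 1)
  refine h.mono_set ?_
  rw [sqa_box2_ball]
  exact Metric.ball_subset_closedBall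

theorem sqa_int_bdd {f : P2 → ℝ} (hf : Measurable f) {M : ℝ} (hM : ∀ p, |f p| ≤ M) :
    IntegrableOn f box2 :=
  Measure.integrableOn_of_bounded (M := M) (by rw [sqa_vol_box2]; simp) hf.aestronglyMeasurable
    (ae_of_all _ hM)

/-- Fatou lemma in the form needed -/
theorem sqa_fatou {α : Type*} [MeasurableSpace α] {μ : Measure α} {f : ℕ → α → ℝ} {g : α → ℝ}
    (hf : ∀ n, Integrable (f n) μ) (hg : Integrable g μ) (f0 : ∀ n x, 0 ≤ f n x) (g0 : ∀ x, 0 ≤ g x)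
    (h : ∀ᵐ x ∂μ, ∀ᶠ n in atTop, g x ≤ f n x) {C : ℝ} (hC : ∀ n, ∫ x, f n x ∂μ ≤ C) :
    ∫ x, g x ∂μ ≤ C := by
  have hi : ∀ n, Integrable (fun x => min (f n x) (g x)) μ := fun n => (hf n).inf hg
  have ht : Tendsto (fun n => ∫ x, min (f n x) (g x) ∂μ) atTop (𝓝 (∫ x, g x ∂μ)) := by
    refine tendsto_integral_of_dominated_convergence g (fun n => (hi n).aestronglyMeasurable) hg
      (fun n => ae_of_all _ fun x => ?_) ?_
    · rw [Real.norm_eq_abs, abs_of_nonneg (le_min (f0 n x) (g0 x))]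
      exact min_le_right _ _
    · filter_upwards [h] with x hx
      refine tendsto_const_nhds.congr' ?_
      filter_upwards [hx] with n hn
      exact (min_eq_right hn).symm
  refine le_of_tendsto' ht fun n => le_trans ?_ (hC n)
  exact integral_mono (hi n) (hf n) fun x => min_le_left _ _

theorem sqa_cut {K U : Set P2} (hK : IsCompact K) (hU : IsOpen U) (h : K ⊆ U) :
    ∃ χ : P2 → ℝ, ∃ L : Set P2, ContDiff ℝ 1 χ ∧ IsCompact L ∧ L ⊆ U ∧ K ⊆ L ∧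
      (∀ p ∈ K, χ p = 1) ∧ (∀ p ∉ L, χ p = 0) ∧ ∀ p, 0 ≤ χ p ∧ χ p ≤ 1 := by
  obtain ⟨L, hL, hKL, hLU⟩ := exists_compact_between hK hU h
  obtain ⟨f, h1, h0, hb⟩ := exists_contMDiffMap_one_nhds_of_subset_interior
    (modelWithCornersSelf ℝ P2) (n := 1) hK.isClosed hKL
  refine ⟨f, L, ?_, hL, hLU, hKL.trans interior_subset, fun p hp => h1.self_of_nhdsSet p hp, h0,
    fun p => hb p⟩
  exact contMDiff_iff_contDiff.1 f.contMDiff

theorem sqa_cut1 {a b : ℝ} (ha : 0 < a) (hab : a < b) :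
    ∃ η : ℝ → ℝ, ContDiff ℝ 1 η ∧ (∀ t, |t| ≤ a → η t = 1) ∧ (∀ t, b ≤ |t| → η t = 0) ∧
      ∀ t, 0 ≤ η t ∧ η t ≤ 1 := by
  let f : ContDiffBump (0 : ℝ) := ⟨a, b, ha, hab⟩
  refine ⟨f, f.contDiff, fun t ht => f.one_of_mem_closedBall ?_, fun t ht => f.zero_of_le_dist ?_,
    fun t => ⟨f.nonneg, f.le_one⟩⟩
  · rw [mem_closedBall_zero_iff, Real.norm_eq_abs]; exact ht
  · rw [dist_zero_right, Real.norm_eq_abs]; exact ht

theorem sqa_tend : Tendsto (fun n : ℕ => 1 / ((n : ℝ) + 1)) atTop (𝓝[>] (0 : ℝ)) :=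
  tendsto_nhdsWithin_iff.2 ⟨tendsto_one_div_add_atTop_nhds_zero_nat,
    Eventually.of_forall fun n => by
      rw [mem_Ioi]; positivity⟩

theorem sqa_sec_per {G : Set P3} (hG : PerSet G) (p : P2) (z : ℝ) :
    z + 2 ∈ {z : ℝ | ((p.1, p.2, z) : P3) ∈ G} ↔ z ∈ {z : ℝ | ((p.1, p.2, z) : P3) ∈ G} := by
  have h := hG.2.2.2 (p.1, p.2, z)
  simp only [Prod.mk_add_mk, add_zero] at h
  exact iff_of_eq h

theorem sqa_sec_meas {G : Set P3} (hG : MeasurableSet G) (p : P2) :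
    MeasurableSet {z : ℝ | ((p.1, p.2, z) : P3) ∈ G} := by
  have hm : Measurable (fun z : ℝ => ((p.1, p.2, z) : P3)) := by fun_prop
  exact hm hG

theorem sqa_sec_eq (G : Set P3) (p : P2) :
    (volume ({z : ℝ | ((p.1, p.2, z) : P3) ∈ G} ∩ Ioo (-1) 1)).toReal = 2 * sec G p := by
  unfold sec
  rw [inter_comm]
  change (volume {z ∈ Ioo (-1 : ℝ) 1 | ((p.1, p.2, z) : P3) ∈ G}).toReal = _
  ring

end Vale.Agent.P232
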