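import Vale.Agent.P232.StEqB_2

open MeasureTheory Set Filter Topology
open scoped ENNReal

noncomputable section
namespace Vale.Agent.P232

/-! Task: equality case of Steiner symmetrisation for the standard sets.
Translate so that `c₁ = c₂ = 0`.  If `k₃ = 0`, `sec G ∈ {0,1}` a.e. and `G = stein G` a.e.  If `k₃ = 1`,
`φ = sec G = √(R² - k₁x² - k₂y²)₊` a.e. on `box2`, `Ω = {φ > 0}`.  Fields `a = (k₁ x, k₂ y) θ / R`, `b = χ φ / R`
(cut-offs; sup norm `≤ 1 + δ`) are asymptotically sharp in `steinA`: by Fatou `liminf tv = 2` a.e. on `Ω`, so a.e.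
section is an arc (`arc_of_tv`) with centre `m(p)`.  Then test with
`Z = (a + τ κ(z) ζ, (b - τ κ(z) (a·ζ)/b) ψ)`, `ψ` from `exists_psi`, `κ = cos(π z)` or `sin(π z)`, `ζ` compactly supported where
`χ = 1`: `nrm Z ≤ 1 + δ + C τ²`; letting `δ, ε → 0` and then `τ → 0±` gives that `cos(π m)`, `sin(π m)`
(which are `∫_{section} κ / ((2/π) sin(π φ))`, hence measurable) have zero weak gradient on
`U = {k₁x² + k₂y² < R²} ∩ box2` (open, convex; periodise `ζ` by `exists_periodic_ext2`).  -/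

/-- the Fourier moment of the section, normalised: `cos (π (m - s))` when the section is an arc with centre `m` -/
def fmom (G : Set P3) (k : P3) (R s : ℝ) (p : P2) : ℝ :=
  (∫ z in Ioo (-1 : ℝ) 1, {z : ℝ | ((p.1, p.2, z) : P3) ∈ G}.indicator
      (fun z => Real.cos (Real.pi * (z - s))) z) / (2 / Real.pi * Real.sin (Real.pi * phi0 k R p))

theorem SB.fmom_eq (G : Set P3) (k : P3) (R s : ℝ) (p : P2) :
    fmom G k R s p = SB.secI G (fun x => Real.cos (Real.pi * (x.2.2 - s))) p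
      / (2 / Real.pi * Real.sin (Real.pi * phi0 k R p)) := rfl

theorem SB.continuous_phi0 (k : P3) (R : ℝ) : Continuous (phi0 k R) := by
  unfold phi0
  fun_prop

theorem SB.phi_bounds {k : P3} (hk : KOk k) {R : ℝ} (h0 : 0 < R) (h1 : R < 1) {p : P2}
    (hp : p ∈ Ubase k R) : 0 < phi0 k R p ∧ phi0 k R p < 1 := by
  have k1 : 0 ≤ k.1 := by rcases hk.1 with h | h <;> simp [h]
  have k2 : 0 ≤ k.2.1 := by rcases hk.2.1 with h | h <;> simp [h]
  have h2 := hp.2
  have m1 := mul_nonneg k1 (sq_nonneg p.1)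
  have m2 := mul_nonneg k2 (sq_nonneg p.2)
  refine ⟨Real.sqrt_pos.2 (by linarith), ?_⟩
  unfold phi0
  rw [Real.sqrt_lt' one_pos]
  nlinarith

theorem SB.sig_pos {k : P3} (hk : KOk k) {R : ℝ} (h0 : 0 < R) (h1 : R < 1) {p : P2}
    (hp : p ∈ Ubase k R) : 0 < 2 / Real.pi * Real.sin (Real.pi * phi0 k R p) := by
  obtain ⟨a, b⟩ := SB.phi_bounds hk h0 h1 hp
  have := Real.pi_pos
  exact mul_pos (by positivity) (Real.sin_pos_of_pos_of_lt_pi (by positivity) (by nlinarith))

theorem SB.cos_per (s t : ℝ) :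
    Real.cos (Real.pi * (t + 2 - s)) = Real.cos (Real.pi * (t - s)) := by
  rw [show Real.pi * (t + 2 - s) = Real.pi * (t - s) + 2 * Real.pi by ring, Real.cos_add_two_pi]

theorem measurable_fmom {G : Set P3} (hG : MeasurableSet G) (k : P3) (R s : ℝ) :
    Measurable (fmom G k R s) := by
  have h1 : Measurable (SB.secI G (fun x => Real.cos (Real.pi * (x.2.2 - s)))) :=
    SB.measurable_secI hG (by fun_prop)
  have h2 : Continuous fun p => 2 / Real.pi * Real.sin (Real.pi * phi0 k R p) :=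
    continuous_const.mul (Real.continuous_sin.comp (continuous_const.mul (SB.continuous_phi0 k R)))
  exact h1.div h2.measurable

theorem fmom_of_arc {G : Set P3} {k : P3} (hk : KOk k) {R : ℝ} (h0 : 0 < R) (h1 : R < 1) (s : ℝ) {p : P2}
    (hp : p ∈ Ubase k R) {m : ℝ}
    (hm : ∀ᵐ z : ℝ, (((p.1, p.2, z) : P3) ∈ G ↔ d2 (z - m) < phi0 k R p)) :
    fmom G k R s p = Real.cos (Real.pi * (m - s)) := by
  obtain ⟨a, b⟩ := SB.phi_bounds hk h0 h1 hp
  have hσ := SB.sig_pos hk h0 h1 hp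
  have hπ := Real.pi_pos
  rw [SB.fmom_eq, SB.secI_arc (by fun_prop) (fun x => by simpa using SB.cos_per s x.2.2) a.le b.le hm,
    div_eq_iff hσ.ne']
  have hd : ∀ z : ℝ, HasDerivAt (fun z : ℝ => Real.sin (Real.pi * (z - s)) / Real.pi)
      (Real.cos (Real.pi * (z - s))) z := by
    intro z
    have h := ((((hasDerivAt_id z).sub_const s).const_mul Real.pi).sin).div_const Real.pi
    refine h.congr_deriv ?_
    simp only [id]
    field_simp
  rw [intervalIntegral.integral_eq_sub_of_hasDerivAt (fun z _ => hd z)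
    (Continuous.intervalIntegrable (by fun_prop) _ _)]
  rw [show Real.pi * (m + phi0 k R p - s) = Real.pi * (m - s) + Real.pi * phi0 k R p by ring,
    show Real.pi * (m - phi0 k R p - s) = Real.pi * (m - s) - Real.pi * phi0 k R p by ring,
    Real.sin_add, Real.sin_sub]
  field_simp
  ring

theorem SB.cd_mul {χ h : P2 → ℝ} (hχ : ContDiff ℝ 1 χ) {U : Set P2} (hU : tsupport χ ⊆ U)
    (hh : ∀ p ∈ U, ContDiffAt ℝ 1 h p) : ContDiff ℝ 1 fun p => χ p * h p := by
  refine contDiff_iff_contDiffAt.2 fun p => ?_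
  by_cases hp : p ∈ tsupport χ
  · exact hχ.contDiffAt.mul (hh p (hU hp))
  · have h0 := notMem_tsupport_iff_eventuallyEq.1 hp
    refine (contDiffAt_const (c := (0 : ℝ))).congr_of_eventuallyEq ?_
    filter_upwards [h0] with q hq
    simp [hq]

theorem SB.zero_of_box2 {h : P2 → ℝ} (hc : Continuous h) (hp : Periodic2 h)
    (h0 : ∀ p ∈ box2, h p = 0) (p : P2) : h p = 0 := by
  have h1 : ∀ᵐ x : P2, h x = 0 := by
    refine ae_of_ae_box2 (P := fun x => h x = 0) ⟨fun x => ?_, fun x => ?_⟩ ?_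
    · simp only [hp.1 x]
    · simp only [hp.2 x]
    · exact (ae_restrict_mem measurableSet_box2).mono h0
  have h2 : h = fun _ => 0 := (hc.ae_eq_iff_eq volume continuous_const).1 h1
  rw [h2]

theorem SB.int_mul {G : Set P3} (hG : MeasurableSet G) {h : P2 → ℝ} (hh : Continuous h)
    {F : P3 → ℝ} (hF : Continuous F) : IntegrableOn (fun p => h p * SB.secI G F p) box2 := by
  have := (SB.fubini hG (F := fun x => h (x.1, x.2.1) * F x) ((hh.comp (by fun_prop)).mul hF)).1
  rwa [show SB.secI G (fun x => h (x.1, x.2.1) * F x) = fun p => h p * SB.secI G F p from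
    funext (SB.secI_mul G h F)] at this

theorem SB.hd_phi {k : P3} {R : ℝ} {p : P2} (hp : p ∈ Ubase k R) :
    ContDiffAt ℝ 1 (phi0 k R) p ∧ ∀ v : P2, fderiv ℝ (phi0 k R) p v
      = -((k.1 * p.1 * v.1 + k.2.1 * p.2 * v.2) * (phi0 k R p)⁻¹) := by
  have h2 : R ^ 2 - k.1 * p.1 ^ 2 - k.2.1 * p.2 ^ 2 ≠ 0 := by
    have := hp.2
    linarith
  refine ⟨ContDiffAt.sqrt (by fun_prop) h2, fun v => ?_⟩
  have d1 : HasFDerivAt (fun p : P2 => p.1) (ContinuousLinearMap.fst ℝ ℝ ℝ) p := hasFDerivAt_fst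
  have d2 : HasFDerivAt (fun p : P2 => p.2) (ContinuousLinearMap.snd ℝ ℝ ℝ) p := hasFDerivAt_snd
  have H := (((hasFDerivAt_const (R ^ 2) p).sub ((d1.pow 2).const_mul k.1)).sub
    ((d2.pow 2).const_mul k.2.1)).sqrt h2
  have e := H.fderiv
  unfold phi0
  erw [e]
  simp
  ring

theorem SB.final {I D B : ℝ} {A : ℝ}
    (h : ∀ τ δ : ℝ, 0 < δ → τ * I ≤ D * τ ^ 2 + δ * (B + |τ| * A)) : I = 0 := by
  have h1 : ∀ τ : ℝ, τ * I ≤ D * τ ^ 2 := by
    intro τ
    refine le_of_forall_pos_le_add fun ε hε => ?_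
    have hp : 0 < |B + |τ| * A| + 1 := by positivity
    have h2 := h τ (ε / (|B + |τ| * A| + 1)) (by positivity)
    have h3 : ε / (|B + |τ| * A| + 1) * (B + |τ| * A) ≤ ε := by
      rw [div_mul_eq_mul_div, div_le_iff₀ hp]
      exact mul_le_mul_of_nonneg_left (by linarith [le_abs_self (B + |τ| * A)]) hε.le
    linarith
  by_contra hI
  have hp : 0 < |D| + 1 := by positivity
  have h2 := h1 (I / (|D| + 1))
  have h3 : 0 < I ^ 2 := by positivity
  have h4 : I / (|D| + 1) * I = I ^ 2 * (|D| + 1) / (|D| + 1) ^ 2 := by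
    field_simp
  have h5 : D * (I / (|D| + 1)) ^ 2 = I ^ 2 * D / (|D| + 1) ^ 2 := by
    field_simp
  rw [h4, h5, div_le_div_iff_of_pos_right (by positivity)] at h2
  have h6 := le_of_mul_le_mul_left h2 h3
  linarith [le_abs_self D]

theorem fmom_weak_grad {G : Set P3} (hG : PerSet G) {k : P3} (hk : KOk k) (h3 : k.2.2 = 1) {R : ℝ}
    (h0 : 0 < R) (h1 : R < 1) (hS : ∀ᵐ x : P3, (x ∈ stein G ↔ x ∈ std k 0 R))
    (hP : PerLe G ((k.1 + k.2.1 + k.2.2) * volB (std k 0 R) / R)) (s : ℝ)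
    {χ : P2 → ℝ} (hχ : ContDiff ℝ 1 χ) (hc : HasCompactSupport χ) (hU : tsupport χ ⊆ Ubase k R) (v : P2) :
    ∫ p, fmom G k R s p * fderiv ℝ χ p v = 0 := by
  by_cases hI : Integrable (fun p => fmom G k R s p * fderiv ℝ χ p v)
  swap
  · exact integral_undef hI
  have hUb : Ubase k R ⊆ box2 := fun p hp => hp.1
  have hbo : IsOpen box2 := isOpen_Ioo.prod isOpen_Ioo
  set c := (k.1 + k.2.1 + k.2.2) * volB (std k 0 R) / R with hcdef
  set φ := phi0 k R with hφ
  set σ : P2 → ℝ := fun p => 2 / Real.pi * Real.sin (Real.pi * φ p) with hσ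
  set L : P2 → ℝ := fun p => k.1 * p.1 * v.1 + k.2.1 * p.2 * v.2 with hL
  have σc : ∀ p ∈ Ubase k R, ContDiffAt ℝ 1 σ p := fun p hp =>
    contDiffAt_const.mul (contDiffAt_const.mul (SB.hd_phi hp).1).sin
  have σ0 : ∀ p ∈ Ubase k R, σ p ≠ 0 := fun p hp => (SB.sig_pos hk h0 h1 hp).ne'
  have φ0 : ∀ p ∈ Ubase k R, 0 < φ p := fun p hp => (SB.phi_bounds hk h0 h1 hp).1
  have φ1 : ∀ p ∈ Ubase k R, φ p < 1 := fun p hp => (SB.phi_bounds hk h0 h1 hp).2
  set w : P2 → ℝ := fun p => χ p * (σ p)⁻¹ with hw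
  set g : P2 → ℝ := fun p => χ p * ((σ p)⁻¹ * (L p * (φ p)⁻¹)) with hg
  have wc : ContDiff ℝ 1 w := SB.cd_mul hχ hU fun p hp => (σc p hp).inv (σ0 p hp)
  have gc : ContDiff ℝ 1 g := SB.cd_mul hχ hU fun p hp => ((σc p hp).inv (σ0 p hp)).mul
    (ContDiffAt.mul (by simp only [hL]; fun_prop) ((SB.hd_phi hp).1.inv (φ0 p hp).ne'))
  have ws : tsupport w ⊆ tsupport χ := tsupport_mul_subset_left
  have gs : tsupport g ⊆ tsupport χ := tsupport_mul_subset_left
  obtain ⟨w', w'c, w'p, w'e, w'r⟩ := exists_periodic_ext2 wc (ws.trans (hU.trans hUb))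
  obtain ⟨g', g'c, g'p, g'e, g'r⟩ := exists_periodic_ext2 gc (gs.trans (hU.trans hUb))
  obtain ⟨Cw, hCw⟩ := wc.continuous.bounded_above_of_compact_support
    (hc.mono' ((subset_tsupport w).trans ws))
  obtain ⟨Cg, hCg⟩ := gc.continuous.bounded_above_of_compact_support
    (hc.mono' ((subset_tsupport g).trans gs))
  have Cg0 : 0 ≤ Cg := (norm_nonneg _).trans (hCg 0)
  have hwg : ∀ p, w' p ^ 2 * (v.1 ^ 2 + v.2 ^ 2) + g' p ^ 2
      ≤ Cw ^ 2 * (v.1 ^ 2 + v.2 ^ 2) + Cg ^ 2 := by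
    intro p
    obtain ⟨y, hy⟩ := w'r p
    obtain ⟨y', hy'⟩ := g'r p
    have a1 := abs_le.1 (hCw y)
    have a2 := abs_le.1 (hCg y')
    rw [hy, hy']
    exact add_le_add (mul_le_mul_of_nonneg_right (sq_le_sq' a1.1 a1.2) (by positivity))
      (sq_le_sq' a2.1 a2.2)
  obtain ⟨φm, φm0, hφm⟩ := IsCompact.exists_forall_le' hc.isCompact
    (SB.continuous_phi0 k R).continuousOn (fun p hp => φ0 p (hU hp))
  have hA : ∀ p ∈ tsupport χ, |g p| ≤ Cg * R / φm * (φ p / R) := by
    intro p hp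
    have e : Cg * R / φm * (φ p / R) = Cg * (φ p / φm) := by field_simp
    rw [e]
    exact (hCg p).trans (le_mul_of_one_le_right Cg0 ((one_le_div φm0).2 (hφm p hp)))
  have A0 : 0 ≤ Cg * R / φm := by positivity
  generalize Cg * R / φm = A at hA A0
  have w'd : ∀ p ∈ box2, fderiv ℝ w' p = fderiv ℝ w p := fun p hp =>
    Filter.EventuallyEq.fderiv_eq ((hbo.eventually_mem hp).mono fun q hq => w'e q hq)
  have hder : ∀ p ∈ Ubase k R, fderiv ℝ χ p v
      = σ p * fderiv ℝ w p v - 2 * Real.cos (Real.pi * φ p) * g p := by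
    intro p hp
    have e1 : χ =ᶠ[𝓝 p] fun q => w q * σ q := by
      filter_upwards [(isOpen_Ubase k R).eventually_mem hp] with q hq
      simp only [hw]
      rw [mul_assoc, inv_mul_cancel₀ (σ0 q hq), mul_one]
    have dφ : HasFDerivAt φ (fderiv ℝ φ p) p :=
      ((SB.hd_phi hp).1.differentiableAt one_ne_zero).hasFDerivAt
    have dσ := ((dφ.const_mul Real.pi).sin).const_mul (2 / Real.pi)
    have dw : HasFDerivAt w (fderiv ℝ w p) p := (wc.differentiable one_ne_zero p).hasFDerivAt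
    have e2 := (dw.mul dσ).fderiv
    have e3 := (SB.hd_phi hp).2 v
    rw [e1.fderiv_eq]
    erw [e2]
    simp only [ContinuousLinearMap.add_apply, ContinuousLinearMap.smul_apply, smul_eq_mul]
    rw [← hφ] at e3
    rw [e3]
    simp only [hw, hg, hσ, hL]
    have := Real.pi_pos
    field_simp
    ring
  have hIe : ∫ p, fmom G k R s p * fderiv ℝ χ p v
      = ∫ p in box2, fmom G k R s p * fderiv ℝ χ p v := by
    refine (setIntegral_eq_integral_of_forall_compl_eq_zero fun p hp => ?_).symm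
    rw [fderiv_of_notMem_tsupport ℝ fun hh => hp (hUb (hU hh))]
    simp
  have harc := ae_arc hG hk h3 h0 h1 hS hP
  have hsec := sec_eq_phi0 hG hk h3 h0 h1 hS
  set κ : ℝ → ℝ := fun z => Real.cos (Real.pi * (z - s)) with hκ
  have κc : ContDiff ℝ 1 κ := by
    simp only [hκ]
    fun_prop
  have κp : ∀ t, κ (t + 2) = κ t := SB.cos_per s
  have κb : ∀ t, |κ t| ≤ 1 := fun t => Real.abs_cos_le_one _
  rw [hIe]
  refine SB.final (D := (Cw ^ 2 * (v.1 ^ 2 + v.2 ^ 2) + Cg ^ 2) * c) (B := c + 2) (A := A)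
    fun τ δ hδ => ?_
  obtain ⟨a₁, a₂, b, a₁c, a₂c, bc, a₁p, a₂p, bp, hle, b0, bU, hK, hsharp⟩ :=
    exists_sharp_fields hk h3 h0 h1 hc.isCompact hU hδ
  have ho : ∀ p, w' p * (a₁ p * v.1 + a₂ p * v.2) = b p * g' p := by
    intro p
    refine sub_eq_zero.1 (SB.zero_of_box2
      (h := fun p => w' p * (a₁ p * v.1 + a₂ p * v.2) - b p * g' p) ?_ ⟨fun x => ?_, fun x => ?_⟩
      (fun q hq => ?_) p)
    · exact (w'c.continuous.mul ((a₁c.continuous.mul continuous_const).add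
        (a₂c.continuous.mul continuous_const))).sub (bc.continuous.mul g'c.continuous)
    · simp only [w'p.1 x, a₁p.1 x, a₂p.1 x, bp.1 x, g'p.1 x]
    · simp only [w'p.2 x, a₁p.2 x, a₂p.2 x, bp.2 x, g'p.2 x]
    · show w' q * (a₁ q * v.1 + a₂ q * v.2) - b q * g' q = 0
      rw [w'e q hq, g'e q hq]
      by_cases hqK : q ∈ tsupport χ
      · obtain ⟨e1, e2, e3⟩ := hK q hqK
        have n1 := (φ0 q (hU hqK)).ne'
        rw [e1, e2, e3, ← hφ]
        simp only [hw, hg, hL]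
        field_simp
        ring
      · simp [hw, hg, image_eq_zero_of_notMem_tsupport hqK]
  obtain ⟨ψ, ψc, ψb, ψp, hψ⟩ := SB.good_psi hG bc.continuous bp b0 (by
    filter_upwards [hsec, ae_restrict_mem measurableSet_box2] with p e hp hb
    rw [e]
    exact SB.phi_bounds hk h0 h1 (bU p hp hb)) hδ
  have core := SB.core hG hP a₁c a₂c bc w'c g'c a₁p a₂p bp w'p g'p κc κp κb ψc ψp ψb v ho hδ.le
    (by positivity) hle hwg τ
  have ωc : ContDiff ℝ 1 fun x : P3 => κ x.2.2 * ψ x := (SB.cd_vt κc).mul ψc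
  have ωp : Periodic3 fun x : P3 => κ x.2.2 * ψ x := by
    have q := SB.per_vt κp
    exact ⟨fun x => congrArg₂ (· * ·) (q.1 x) (ψp.1 x),
      fun x => congrArg₂ (· * ·) (q.2.1 x) (ψp.2.1 x),
      fun x => congrArg₂ (· * ·) (q.2.2 x) (ψp.2.2 x)⟩
  have cψ : Continuous fun x => fderiv ℝ ψ x e3 :=
    (ψc.continuous_fderiv one_ne_zero).clm_apply continuous_const
  have cω : Continuous fun x => fderiv ℝ (fun x : P3 => κ x.2.2 * ψ x) x e3 :=
    (ωc.continuous_fderiv one_ne_zero).clm_apply continuous_const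
  have cw : Continuous fun p => fderiv ℝ w' p v :=
    (w'c.continuous_fderiv one_ne_zero).clm_apply continuous_const
  have E1 : (∫ p in box2, sec G p * (fderiv ℝ a₁ p (1, 0) + fderiv ℝ a₂ p (0, 1)))
      = ∫ p in box2, φ p * (fderiv ℝ a₁ p (1, 0) + fderiv ℝ a₂ p (0, 1)) :=
    integral_congr_ae (hsec.mono fun p hp => by simp only [hp, hφ])
  have E3 : (∫ x in G ∩ box, b (x.1, x.2.1) * fderiv ℝ ψ x e3)
      = ∫ p in box2, b p * SB.secI G (fun x => fderiv ℝ ψ x e3) p := by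
    rw [(SB.fubini hG.1 (F := fun x => b (x.1, x.2.1) * fderiv ℝ ψ x e3)
      ((SB.cd_pr bc).continuous.mul cψ)).2]
    exact integral_congr_ae (Eventually.of_forall fun p =>
      SB.secI_mul G b (fun x => fderiv ℝ ψ x e3) p)
  have i2 := SB.int_mul hG.1 cw (SB.cd_vt κc).continuous
  have i3 := SB.int_mul hG.1 bc.continuous cψ
  have i4 := SB.int_mul hG.1 g'c.continuous cω
  have ib := SB.intOn_box2 bc.continuous
  have hpt : ∀ᵐ p ∂(volume.restrict box2),
      ‖fderiv ℝ w' p v * SB.secI G (fun x => κ x.2.2) p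
        - g' p * SB.secI G (fun x => fderiv ℝ (fun x : P3 => κ x.2.2 * ψ x) x e3) p
        - fmom G k R s p * fderiv ℝ χ p v‖
      ≤ A * (2 * b p - b p * SB.secI G (fun x => fderiv ℝ ψ x e3) p) := by
    filter_upwards [ae_restrict_of_ae harc, ae_restrict_mem measurableSet_box2] with p hp hpb
    rw [w'd p hpb, g'e p hpb, Real.norm_eq_abs]
    by_cases hpK : p ∈ tsupport χ
    · have hpU := hU hpK
      obtain ⟨m, hm⟩ := hp hpU
      have f1 := fmom_of_arc hk h0 h1 s hpU hm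
      have f2 : SB.secI G (fun x => κ x.2.2) p = σ p * Real.cos (Real.pi * (m - s)) := by
        rw [← f1, SB.fmom_eq, mul_div_cancel₀ _ (σ0 p hpU)]
      rw [SB.secI_ftc ωc ωp (φ0 p hpU).le (φ1 p hpU).le hm,
        SB.secI_ftc ψc ψp (φ0 p hpU).le (φ1 p hpU).le hm, f1, f2, hder p hpU, (hK p hpK).2.2, ← hφ]
      have t1 : κ (m + φ p) + κ (m - φ p)
          = 2 * Real.cos (Real.pi * φ p) * Real.cos (Real.pi * (m - s)) := by
        simp only [hκ]
        rw [show Real.pi * (m + φ p - s) = Real.pi * (m - s) + Real.pi * φ p by ring,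
          show Real.pi * (m - φ p - s) = Real.pi * (m - s) - Real.pi * φ p by ring,
          Real.cos_add, Real.cos_sub]
        ring
      have u1 := abs_le.1 (ψb (p.1, p.2, m + φ p))
      have u2 := abs_le.1 (ψb (p.1, p.2, m - φ p))
      have u3 := abs_le.1 (κb (m + φ p))
      have u4 := abs_le.1 (κb (m - φ p))
      have u5 := hA p hpK
      simp only
      generalize ψ (p.1, p.2, m + φ p) = P₁ at *
      generalize ψ (p.1, p.2, m - φ p) = P₂ at *
      generalize κ (m + φ p) = K₁ at *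
      generalize κ (m - φ p) = K₂ at *
      have e : fderiv ℝ w p v * (σ p * Real.cos (Real.pi * (m - s))) - g p * (K₁ * P₁ - K₂ * P₂)
          - Real.cos (Real.pi * (m - s)) * (σ p * fderiv ℝ w p v
            - 2 * Real.cos (Real.pi * φ p) * g p)
          = g p * (K₁ * (1 - P₁) + K₂ * (1 + P₂)) := by
        linear_combination (-g p) * t1
      have u6 : |K₁ * (1 - P₁) + K₂ * (1 + P₂)| ≤ 2 - (P₁ - P₂) := by
        rw [abs_le]
        constructor <;> nlinarith
      rw [e, abs_mul]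
      calc |g p| * |K₁ * (1 - P₁) + K₂ * (1 + P₂)| ≤ A * (φ p / R) * (2 - (P₁ - P₂)) :=
            mul_le_mul u5 u6 (abs_nonneg _) ((abs_nonneg _).trans u5)
        _ = _ := by ring
    · have z1 : g p = 0 := image_eq_zero_of_notMem_tsupport fun hh => hpK (gs hh)
      rw [fderiv_of_notMem_tsupport ℝ hpK, fderiv_of_notMem_tsupport ℝ fun hh => hpK (ws hh), z1]
      simp only [ContinuousLinearMap.zero_apply, zero_mul, mul_zero, sub_zero, abs_zero]
      refine mul_nonneg A0 ?_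
      by_cases hb : b p = 0
      · simp [hb]
      · have hpU := bU p hpb hb
        obtain ⟨m, hm⟩ := hp hpU
        rw [SB.secI_ftc ψc ψp (φ0 p hpU).le (φ1 p hpU).le hm]
        have u1 := abs_le.1 (ψb (p.1, p.2, m + φ p))
        have u2 := abs_le.1 (ψb (p.1, p.2, m - φ p))
        nlinarith [b0 p]
  have j1 : Integrable (fun p => 2 * b p - b p * SB.secI G (fun x => fderiv ℝ ψ x e3) p)
      (volume.restrict box2) := (ib.const_mul 2).sub i3
  have j2 : Integrable (fun p => fderiv ℝ w' p v * SB.secI G (fun x => κ x.2.2) p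
        - g' p * SB.secI G (fun x => fderiv ℝ (fun x : P3 => κ x.2.2 * ψ x) x e3) p)
      (volume.restrict box2) := i2.sub i4
  have hn := norm_integral_le_of_norm_le (j1.const_mul A) hpt
  rw [integral_sub j2 hI.integrableOn, integral_sub i2 i4, integral_const_mul,
    integral_sub (ib.const_mul 2) i3, integral_const_mul, Real.norm_eq_abs] at hn
  rw [E1, E3] at core
  rw [E3] at hψ
  generalize (∫ p in box2, fmom G k R s p * fderiv ℝ χ p v) = I at *
  generalize (∫ p in box2, fderiv ℝ w' p v * SB.secI G (fun x => κ x.2.2) p) = T₂ at *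
  generalize (∫ p in box2,
    g' p * SB.secI G (fun x => fderiv ℝ (fun x : P3 => κ x.2.2 * ψ x) x e3) p) = T₄ at *
  generalize (∫ p in box2, b p * SB.secI G (fun x => fderiv ℝ ψ x e3) p) = T₃ at *
  have r1 : |T₂ - T₄ - I| ≤ A * δ := hn.trans (mul_le_mul_of_nonneg_left (by linarith) A0)
  have r2 : -(τ * (T₂ - T₄ - I)) ≤ |τ| * (A * δ) :=
    (neg_le_abs _).trans ((abs_mul _ _).trans_le (mul_le_mul_of_nonneg_left r1 (abs_nonneg τ)))
  nlinarith

end Vale.Agent.P232
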