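import Vale.Agent.P232.StEqA

open MeasureTheory Set Filter Topology
open scoped ENNReal

noncomputable section
namespace Vale.Agent.P232

/-! Integrals over vertical sections (helper file for `StEqB`). -/

/-- integral of `F` over the vertical section of `G` over `p` -/
def SB.secI (G : Set P3) (F : P3 → ℝ) (p : P2) : ℝ :=
  ∫ z in Ioo (-1 : ℝ) 1, G.indicator F (p.1, p.2, z)

theorem SB.intOn_box {F : P3 → ℝ} (hF : Continuous F) : IntegrableOn F box :=
  (hF.continuousOn.integrableOn_compact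
    (isCompact_Icc.prod (isCompact_Icc.prod isCompact_Icc))).mono_set
    (Set.prod_mono Ioo_subset_Icc_self (Set.prod_mono Ioo_subset_Icc_self Ioo_subset_Icc_self))

theorem SB.intOn_box2 {F : P2 → ℝ} (hF : Continuous F) : IntegrableOn F box2 :=
  (hF.continuousOn.integrableOn_compact (isCompact_Icc.prod isCompact_Icc)).mono_set
    (Set.prod_mono Ioo_subset_Icc_self Ioo_subset_Icc_self)

theorem SB.intOn_inter {G : Set P3} {F : P3 → ℝ} (hF : Continuous F) : IntegrableOn F (G ∩ box) :=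
  (SB.intOn_box hF).mono_set inter_subset_right

theorem SB.fubini {G : Set P3} (hG : MeasurableSet G) {F : P3 → ℝ} (hF : Continuous F) :
    IntegrableOn (SB.secI G F) box2 ∧ ∫ x in G ∩ box, F x = ∫ p in box2, SB.secI G F p := by
  have mp : MeasurePreserving (MeasurableEquiv.prodAssoc : (ℝ × ℝ) × ℝ ≃ᵐ ℝ × ℝ × ℝ) volume volume :=
    volume_preserving_prodAssoc
  have hpre : (MeasurableEquiv.prodAssoc : (ℝ × ℝ) × ℝ ≃ᵐ ℝ × ℝ × ℝ) ⁻¹' box
      = box2 ×ˢ Ioo (-1 : ℝ) 1 := by
    ext q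
    simp only [box, box2, mem_preimage, mem_prod, MeasurableEquiv.prodAssoc, MeasurableEquiv.coe_mk,
      Equiv.prodAssoc_apply]
    tauto
  have hi : IntegrableOn (G.indicator F) box := (SB.intOn_box hF).indicator hG
  have hi2 : IntegrableOn (fun q : (ℝ × ℝ) × ℝ => G.indicator F (q.1.1, q.1.2, q.2))
      (box2 ×ˢ Ioo (-1 : ℝ) 1) ((volume : Measure (ℝ × ℝ)).prod volume) := by
    have := (mp.integrableOn_comp_preimage MeasurableEquiv.prodAssoc.measurableEmbedding).2 hi
    rw [hpre] at this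
    exact this
  constructor
  · have h3 := hi2
    rw [IntegrableOn, ← Measure.prod_restrict] at h3
    exact h3.integral_prod_left
  · have e1 : ∫ x in G ∩ box, F x = ∫ x in box, G.indicator F x := by
      rw [setIntegral_indicator hG, inter_comm]
    have e2 := mp.setIntegral_preimage_emb MeasurableEquiv.prodAssoc.measurableEmbedding
      (G.indicator F) box
    rw [hpre] at e2
    rw [e1, ← e2]
    exact setIntegral_prod _ hi2

theorem SB.secI_mul (G : Set P3) (h : P2 → ℝ) (F : P3 → ℝ) (p : P2) :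
    SB.secI G (fun x => h (x.1, x.2.1) * F x) p = h p * SB.secI G F p := by
  unfold SB.secI
  rw [← integral_const_mul]
  refine integral_congr_ae (Eventually.of_forall fun z => ?_)
  by_cases hz : ((p.1, p.2, z) : P3) ∈ G
  · simp only [indicator_of_mem hz]
  · simp only [indicator_of_notMem hz, mul_zero]

theorem SB.meas_sect {G : Set P3} (hG : MeasurableSet G) (p : P2) :
    MeasurableSet {z : ℝ | ((p.1, p.2, z) : P3) ∈ G} :=
  (show Measurable (fun z : ℝ => ((p.1, p.2, z) : P3)) by fun_prop) hG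

theorem SB.secI_one {G : Set P3} (hG : MeasurableSet G) (p : P2) :
    SB.secI G (fun _ => 1) p = 2 * sec G p := by
  unfold SB.secI sec
  have e : (fun z : ℝ => G.indicator (fun _ => (1 : ℝ)) ((p.1, p.2, z) : P3))
      = {z : ℝ | ((p.1, p.2, z) : P3) ∈ G}.indicator (fun _ => (1 : ℝ)) := by
    funext z
    by_cases hz : ((p.1, p.2, z) : P3) ∈ G
    · rw [indicator_of_mem hz, indicator_of_mem (show z ∈ {z : ℝ | ((p.1, p.2, z) : P3) ∈ G} from hz)]
    · rw [indicator_of_notMem hz,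
        indicator_of_notMem (show z ∉ {z : ℝ | ((p.1, p.2, z) : P3) ∈ G} from hz)]
  rw [e, setIntegral_indicator (SB.meas_sect hG p), setIntegral_const, smul_eq_mul, mul_one,
    Measure.real]
  have e2 : Ioo (-1 : ℝ) 1 ∩ {z : ℝ | ((p.1, p.2, z) : P3) ∈ G}
      = {z ∈ Ioo (-1 : ℝ) 1 | ((p.1, p.2, z) : P3) ∈ G} := rfl
  rw [e2]
  ring

theorem SB.measurable_secI {G : Set P3} (hG : MeasurableSet G) {F : P3 → ℝ} (hF : Measurable F) :
    Measurable (SB.secI G F) := by
  have h : Measurable (fun q : (ℝ × ℝ) × ℝ => G.indicator F (q.1.1, q.1.2, q.2)) :=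
    (hF.indicator hG).comp (by fun_prop)
  exact (h.stronglyMeasurable.integral_prod_right'
    (ν := volume.restrict (Ioo (-1 : ℝ) 1))).measurable

/-- integral over an arc -/
theorem SB.int_arc {g : ℝ → ℝ} (hg : Continuous g) (hp : ∀ t, g (t + 2) = g t) {φ : ℝ}
    (h0 : 0 ≤ φ) (h1 : φ ≤ 1) (m : ℝ) :
    ∫ z in Ioo (-1 : ℝ) 1, {z : ℝ | d2 (z - m) < φ}.indicator g z = ∫ z in (m - φ)..(m + φ), g z := by
  have hm : MeasurableSet {z : ℝ | d2 (z - m) < φ} :=
    (isOpen_lt (continuous_d2.comp (continuous_id.sub continuous_const))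
      continuous_const).measurableSet
  have hper : ∀ t, {z : ℝ | d2 (z - m) < φ}.indicator g (t + 2)
      = {z : ℝ | d2 (z - m) < φ}.indicator g t := by
    intro t
    have e : d2 (t + 2 - m) = d2 (t - m) := by
      rw [show t + 2 - m = (t - m) + 2 by ring, d2_add_two]
    by_cases ht : d2 (t - m) < φ
    · rw [indicator_of_mem (show t + 2 ∈ {z : ℝ | d2 (z - m) < φ} from e.trans_lt ht),
        indicator_of_mem (show t ∈ {z : ℝ | d2 (z - m) < φ} from ht), hp]
    · rw [indicator_of_notMem (show t + 2 ∉ {z : ℝ | d2 (z - m) < φ} from fun h => ht (e ▸ h)),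
        indicator_of_notMem (show t ∉ {z : ℝ | d2 (z - m) < φ} from ht)]
  rw [← integral_Ioo_add (hg.measurable.indicator hm) hper m]
  have e1 : ∫ t in Ioo (-1 : ℝ) 1, {z : ℝ | d2 (z - m) < φ}.indicator g (t + m)
      = ∫ t in Ioo (-1 : ℝ) 1, (Ioo (-φ) φ).indicator (fun t => g (t + m)) t := by
    refine setIntegral_congr_fun measurableSet_Ioo fun t ht => ?_
    have e : d2 (t + m - m) = |t| := by
      rw [add_sub_cancel_right, d2_of_abs_le (abs_le.2 ⟨ht.1.le, ht.2.le⟩)]
    by_cases h : t ∈ Ioo (-φ) φ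
    · have h' : t + m ∈ {z : ℝ | d2 (z - m) < φ} := e.trans_lt (abs_lt.2 h)
      simp only [indicator_of_mem h, indicator_of_mem h']
    · have h' : t + m ∉ {z : ℝ | d2 (z - m) < φ} := fun hh => h (abs_lt.1 (e ▸ hh))
      simp only [indicator_of_notMem h, indicator_of_notMem h']
  have e2 : Ioo (-1 : ℝ) 1 ∩ Ioo (-φ) φ = Ioo (-φ) φ :=
    inter_eq_right.2 (Ioo_subset_Ioo (by linarith) h1)
  rw [e1, setIntegral_indicator measurableSet_Ioo, e2, ← integral_Ioc_eq_integral_Ioo,
    ← intervalIntegral.integral_of_le (by linarith), intervalIntegral.integral_comp_add_right]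
  congr 1 <;> ring

theorem SB.secI_arc {G : Set P3} {F : P3 → ℝ} (hF : Continuous F)
    (hp : ∀ x, F (x + (0, 0, 2)) = F x) {φ : ℝ} (h0 : 0 ≤ φ) (h1 : φ ≤ 1) {p : P2} {m : ℝ}
    (hm : ∀ᵐ z : ℝ, (((p.1, p.2, z) : P3) ∈ G ↔ d2 (z - m) < φ)) :
    SB.secI G F p = ∫ z in (m - φ)..(m + φ), F (p.1, p.2, z) := by
  rw [← SB.int_arc (g := fun z => F (p.1, p.2, z)) (hF.comp (by fun_prop)) ?_ h0 h1 m]
  · unfold SB.secI
    refine integral_congr_ae (ae_restrict_of_ae (hm.mono fun z hz => ?_))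
    by_cases h : d2 (z - m) < φ
    · simp only [indicator_of_mem (hz.2 h),
        indicator_of_mem (show z ∈ {z : ℝ | d2 (z - m) < φ} from h)]
    · simp only [indicator_of_notMem (fun hh => h (hz.1 hh)),
        indicator_of_notMem (show z ∉ {z : ℝ | d2 (z - m) < φ} from h)]
  · intro t
    have := hp (p.1, p.2, t)
    simpa using this

theorem SB.secI_ftc {G : Set P3} {u : P3 → ℝ} (hu : ContDiff ℝ 1 u) (hp : Periodic3 u) {φ : ℝ}
    (h0 : 0 ≤ φ) (h1 : φ ≤ 1) {p : P2} {m : ℝ}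
    (hm : ∀ᵐ z : ℝ, (((p.1, p.2, z) : P3) ∈ G ↔ d2 (z - m) < φ)) :
    SB.secI G (fun x => fderiv ℝ u x e3) p = u (p.1, p.2, m + φ) - u (p.1, p.2, m - φ) := by
  have hc : Continuous fun x => fderiv ℝ u x e3 :=
    (hu.continuous_fderiv one_ne_zero).clm_apply continuous_const
  rw [SB.secI_arc hc (fun x => by rw [hp.fderiv.2.2 x]) h0 h1 hm]
  refine intervalIntegral.integral_eq_sub_of_hasDerivAt (f := fun z => u (p.1, p.2, z))
    (fun z _ => ?_) ((hc.comp (by fun_prop)).intervalIntegrable _ _)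
  have h2 : HasDerivAt (fun z : ℝ => ((p.1, p.2, z) : P3)) e3 z :=
    (hasDerivAt_const z p.1).prodMk ((hasDerivAt_const z p.2).prodMk (hasDerivAt_id z))
  exact (hu.differentiable one_ne_zero _).hasFDerivAt.comp_hasDerivAt z h2

/-- a vertical test function that is almost optimal -/
theorem SB.good_psi {G : Set P3} (hG : PerSet G) {b : P2 → ℝ} (hb : Continuous b)
    (hbp : Periodic2 b) (hb0 : ∀ p, 0 ≤ b p)
    (hs : ∀ᵐ p ∂(volume.restrict box2), b p ≠ 0 → 0 < sec G p ∧ sec G p < 1) {δ : ℝ} (hδ : 0 < δ) :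
    ∃ ψ : P3 → ℝ, ContDiff ℝ 1 ψ ∧ (∀ x, |ψ x| ≤ 1) ∧ Periodic3 ψ ∧
      2 * (∫ p in box2, b p) - δ ≤ ∫ x in G ∩ box, b (x.1, x.2.1) * fderiv ℝ ψ x e3 := by
  have hbi : IntegrableOn b box2 := SB.intOn_box2 hb
  have hmeas : ∀ ε : ℝ, Measurable fun p : P2 => b p * min (tv {z | ((p.1, p.2, z) : P3) ∈ G} ε) 2 :=
    fun ε => hb.measurable.mul ((measurable_tv hG.1 ε).min measurable_const)
  have hbound : ∀ ε : ℝ, 0 < ε → ∀ p : P2,
      ‖b p * min (tv {z | ((p.1, p.2, z) : P3) ∈ G} ε) 2‖ ≤ b p * 2 := by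
    intro ε hε p
    have h1 : 0 ≤ min (tv {z | ((p.1, p.2, z) : P3) ∈ G} ε) 2 :=
      le_min (tv_nonneg _ hε) (by norm_num)
    rw [Real.norm_eq_abs, abs_of_nonneg (mul_nonneg (hb0 p) h1)]
    exact mul_le_mul_of_nonneg_left (min_le_right _ _) (hb0 p)
  have hlim : Tendsto (fun ε : ℝ => ∫ p in box2, b p * min (tv {z | ((p.1, p.2, z) : P3) ∈ G} ε) 2)
      (𝓝[>] 0) (𝓝 (∫ p in box2, b p * 2)) := by
    refine tendsto_integral_filter_of_dominated_convergence (fun p => b p * 2)
      (Eventually.of_forall fun ε => (hmeas ε).aestronglyMeasurable) ?_ (hbi.mul_const 2) ?_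
    · filter_upwards [self_mem_nhdsWithin] with ε hε
      exact Eventually.of_forall fun p => hbound ε hε p
    · filter_upwards [hs] with p hp
      by_cases h0 : b p = 0
      · simp only [h0, zero_mul]
        exact tendsto_const_nhds
      obtain ⟨h1, h2⟩ := hp h0
      refine Tendsto.const_mul _ (tendsto_order.2 ⟨fun c hc => ?_, fun c hc => ?_⟩)
      · have e : {z | ((p.1, p.2, z) : P3) ∈ G} ∩ Ioo (-1 : ℝ) 1
            = {z ∈ Ioo (-1 : ℝ) 1 | ((p.1, p.2, z) : P3) ∈ G} := inter_comm _ _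
        unfold sec at h1 h2
        have h3 := two_le_tv (SB.meas_sect hG.1 p) (fun z => by
          have := hG.2.2.2 (p.1, p.2, z)
          simpa using this) (by rw [e]; linarith) (by rw [e]; linarith)
          (show (c + 2) / 2 < 2 by linarith)
        filter_upwards [h3] with ε hε
        exact lt_min (by linarith) hc
      · exact Eventually.of_forall fun ε => (min_le_right _ _).trans_lt hc
  have hev := (hlim.eventually (lt_mem_nhds
    (show (∫ p in box2, b p * 2) - δ / 2 < ∫ p in box2, b p * 2 by linarith))).and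
    self_mem_nhdsWithin
  obtain ⟨ε, h1, hε⟩ := hev.exists
  have hε' : 0 < ε := hε
  obtain ⟨ψ, hψ, hψ1, hψp, hle⟩ := exists_psi hG hb hbp hε' (half_pos hδ)
  refine ⟨ψ, hψ, hψ1, hψp, le_trans ?_ hle⟩
  have h2 : (∫ p in box2, b p * min (tv {z | ((p.1, p.2, z) : P3) ∈ G} ε) 2)
      ≤ ∫ p in box2, |b p| * tv {z | ((p.1, p.2, z) : P3) ∈ G} ε := by
    refine integral_mono ?_ ?_ fun p => ?_
    · exact Integrable.mono' (hbi.mul_const 2) (hmeas ε).aestronglyMeasurable
        (Eventually.of_forall fun p => hbound ε hε' p)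
    · refine Integrable.mono' (hbi.mul_const (2 / ε))
        ((continuous_abs.comp hb).measurable.mul (measurable_tv hG.1 ε)).aestronglyMeasurable
        (Eventually.of_forall fun p => ?_)
      rw [Real.norm_eq_abs, abs_mul, abs_abs, abs_of_nonneg (hb0 p), abs_of_nonneg (tv_nonneg _ hε')]
      exact mul_le_mul_of_nonneg_left (tv_le _ hε') (hb0 p)
    · show b p * _ ≤ |b p| * _
      rw [abs_of_nonneg (hb0 p)]
      exact mul_le_mul_of_nonneg_left (min_le_left _ _) (hb0 p)
  rw [integral_mul_const] at h1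
  linarith

end Vale.Agent.P232
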