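import Vale.Agent.P232.StEqB_1

open MeasureTheory Set Filter Topology
open scoped ENNReal

noncomputable section
namespace Vale.Agent.P232

/-! The perturbed test field (helper file for `StEqB`). -/

/-- horizontal projection -/
def SB.pr : P3 →L[ℝ] P2 :=
  (ContinuousLinearMap.fst ℝ ℝ (ℝ × ℝ)).prod
    ((ContinuousLinearMap.fst ℝ ℝ ℝ).comp (ContinuousLinearMap.snd ℝ ℝ (ℝ × ℝ)))
/-- vertical projection -/
def SB.vt : P3 →L[ℝ] ℝ := (ContinuousLinearMap.snd ℝ ℝ ℝ).comp (ContinuousLinearMap.snd ℝ ℝ (ℝ × ℝ))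

theorem SB.cd_pr {h : P2 → ℝ} (hh : ContDiff ℝ 1 h) : ContDiff ℝ 1 fun x : P3 => h (x.1, x.2.1) :=
  hh.comp SB.pr.contDiff
theorem SB.cd_vt {κ : ℝ → ℝ} (hh : ContDiff ℝ 1 κ) : ContDiff ℝ 1 fun x : P3 => κ x.2.2 :=
  hh.comp SB.vt.contDiff

theorem SB.hd_pr {h : P2 → ℝ} (hh : ContDiff ℝ 1 h) (x : P3) :
    HasFDerivAt (fun x : P3 => h (x.1, x.2.1)) ((fderiv ℝ h (x.1, x.2.1)).comp SB.pr) x :=
  HasFDerivAt.comp x (g := h) (f := SB.pr) (hh.differentiable one_ne_zero _).hasFDerivAt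
    SB.pr.hasFDerivAt
theorem SB.hd_vt {κ : ℝ → ℝ} (hh : ContDiff ℝ 1 κ) (x : P3) :
    HasFDerivAt (fun x : P3 => κ x.2.2) ((fderiv ℝ κ x.2.2).comp SB.vt) x :=
  HasFDerivAt.comp x (g := κ) (f := SB.vt) (hh.differentiable one_ne_zero _).hasFDerivAt
    SB.vt.hasFDerivAt

theorem SB.per_pr {h : P2 → ℝ} (hp : Periodic2 h) : Periodic3 fun x : P3 => h (x.1, x.2.1) := by
  refine ⟨fun x => ?_, fun x => ?_, fun x => ?_⟩
  · simpa using hp.1 (x.1, x.2.1)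
  · simpa using hp.2 (x.1, x.2.1)
  · simp
theorem SB.per_vt {κ : ℝ → ℝ} (hp : ∀ t, κ (t + 2) = κ t) : Periodic3 fun x : P3 => κ x.2.2 := by
  refine ⟨fun x => ?_, fun x => ?_, fun x => ?_⟩
  · simp
  · simp
  · simpa using hp x.2.2

theorem SB.dv_eq {a₁ a₂ b w g : P2 → ℝ} (h₁ : ContDiff ℝ 1 a₁) (h₂ : ContDiff ℝ 1 a₂)
    (hb : ContDiff ℝ 1 b) (hw : ContDiff ℝ 1 w) (hg : ContDiff ℝ 1 g) {κ : ℝ → ℝ}
    (hκ : ContDiff ℝ 1 κ) {ψ ω : P3 → ℝ} (hψ : ContDiff ℝ 1 ψ) (hω : ContDiff ℝ 1 ω) (v : P2) (τ : ℝ)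
    (x : P3) :
    dv (fun x : P3 => ((a₁ (x.1, x.2.1) + τ * v.1 * (w (x.1, x.2.1) * κ x.2.2),
        a₂ (x.1, x.2.1) + τ * v.2 * (w (x.1, x.2.1) * κ x.2.2),
        b (x.1, x.2.1) * ψ x - τ * (g (x.1, x.2.1) * ω x)) : P3)) x
      = (fderiv ℝ a₁ (x.1, x.2.1) (1, 0) + fderiv ℝ a₂ (x.1, x.2.1) (0, 1)) * 1
        + τ * (fderiv ℝ w (x.1, x.2.1) v * κ x.2.2)
        + b (x.1, x.2.1) * fderiv ℝ ψ x e3 - τ * (g (x.1, x.2.1) * fderiv ℝ ω x e3) := by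
  have dψ : HasFDerivAt ψ (fderiv ℝ ψ x) x := (hψ.differentiable one_ne_zero _).hasFDerivAt
  have dω : HasFDerivAt ω (fderiv ℝ ω x) x := (hω.differentiable one_ne_zero _).hasFDerivAt
  have dm := (SB.hd_pr hw x).mul (SB.hd_vt hκ x)
  have H := ((SB.hd_pr h₁ x).add (dm.const_mul (τ * v.1))).prodMk
    (((SB.hd_pr h₂ x).add (dm.const_mul (τ * v.2))).prodMk
      (((SB.hd_pr hb x).mul dψ).sub (((SB.hd_pr hg x).mul dω).const_mul τ)))
  have e := H.fderiv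
  have ev : fderiv ℝ w (x.1, x.2.1) v
      = v.1 * fderiv ℝ w (x.1, x.2.1) (1, 0) + v.2 * fderiv ℝ w (x.1, x.2.1) (0, 1) := by
    have : v = v.1 • ((1, 0) : P2) + v.2 • ((0, 1) : P2) := by
      ext <;> simp
    conv_lhs => rw [this]
    rw [map_add, map_smul, map_smul, smul_eq_mul, smul_eq_mul]
  have p1 : SB.pr e1 = (1, 0) := rfl
  have p2 : SB.pr e2 = (0, 1) := rfl
  have p3 : SB.pr e3 = 0 := rfl
  have q1 : SB.vt e1 = 0 := rfl
  have q2 : SB.vt e2 = 0 := rfl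
  unfold dv trc
  erw [e]
  simp only [ContinuousLinearMap.prod_apply, ContinuousLinearMap.add_apply,
    ContinuousLinearMap.sub_apply, ContinuousLinearMap.smul_apply, ContinuousLinearMap.comp_apply,
    p1, p2, p3, q1, q2, map_zero, smul_eq_mul, ev, Pi.mul_apply]
  ring

theorem SB.int4 {X : Type*} [MeasurableSpace X] {μ : Measure X} {f₁ f₂ f₃ f₄ : X → ℝ}
    (i1 : Integrable f₁ μ) (i2 : Integrable f₂ μ) (i3 : Integrable f₃ μ) (i4 : Integrable f₄ μ)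
    (τ : ℝ) :
    ∫ x, f₁ x + τ * f₂ x + f₃ x - τ * f₄ x ∂μ
      = (∫ x, f₁ x ∂μ) + τ * (∫ x, f₂ x ∂μ) + (∫ x, f₃ x ∂μ) - τ * ∫ x, f₄ x ∂μ := by
  have j2 := i2.const_mul τ
  have j12 : Integrable (fun x => f₁ x + τ * f₂ x) μ := i1.add j2
  have j123 : Integrable (fun x => f₁ x + τ * f₂ x + f₃ x) μ := j12.add i3
  rw [integral_sub j123 (i4.const_mul τ), integral_add j12 i3, integral_add i1 j2,
    integral_const_mul, integral_const_mul]

theorem SB.core {G : Set P3} (hG : PerSet G) {c : ℝ} (hP : PerLe G c) {a₁ a₂ b w g : P2 → ℝ}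
    (h₁ : ContDiff ℝ 1 a₁) (h₂ : ContDiff ℝ 1 a₂) (hb : ContDiff ℝ 1 b) (hw : ContDiff ℝ 1 w)
    (hg : ContDiff ℝ 1 g) (p₁ : Periodic2 a₁) (p₂ : Periodic2 a₂) (pb : Periodic2 b)
    (pw : Periodic2 w) (pg : Periodic2 g) {κ : ℝ → ℝ} (hκ : ContDiff ℝ 1 κ)
    (pκ : ∀ t, κ (t + 2) = κ t) (bκ : ∀ t, |κ t| ≤ 1) {ψ : P3 → ℝ} (hψ : ContDiff ℝ 1 ψ)
    (pψ : Periodic3 ψ) (bψ : ∀ x, |ψ x| ≤ 1) (v : P2)
    (ho : ∀ p, w p * (a₁ p * v.1 + a₂ p * v.2) = b p * g p) {δ C : ℝ} (hδ : 0 ≤ δ) (hC : 0 ≤ C)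
    (hle : ∀ p, a₁ p ^ 2 + a₂ p ^ 2 + b p ^ 2 ≤ (1 + δ) ^ 2)
    (hwg : ∀ p, w p ^ 2 * (v.1 ^ 2 + v.2 ^ 2) + g p ^ 2 ≤ C) (τ : ℝ) :
    2 * (∫ p in box2, sec G p * (fderiv ℝ a₁ p (1, 0) + fderiv ℝ a₂ p (0, 1)))
      + τ * (∫ p in box2, fderiv ℝ w p v * SB.secI G (fun x => κ x.2.2) p)
      + (∫ x in G ∩ box, b (x.1, x.2.1) * fderiv ℝ ψ x e3)
      - τ * (∫ p in box2, g p * SB.secI G (fun x => fderiv ℝ (fun x : P3 => κ x.2.2 * ψ x) x e3) p)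
      ≤ (1 + δ + C * τ ^ 2) * c := by
  have hω : ContDiff ℝ 1 fun x : P3 => κ x.2.2 * ψ x := (SB.cd_vt hκ).mul hψ
  have hm := (SB.cd_pr hw).mul (SB.cd_vt hκ)
  have hZ : ContDiff ℝ 1 (fun x : P3 => ((a₁ (x.1, x.2.1) + τ * v.1 * (w (x.1, x.2.1) * κ x.2.2),
        a₂ (x.1, x.2.1) + τ * v.2 * (w (x.1, x.2.1) * κ x.2.2),
        b (x.1, x.2.1) * ψ x - τ * (g (x.1, x.2.1) * (κ x.2.2 * ψ x))) : P3)) :=
    ((SB.cd_pr h₁).add (contDiff_const.mul hm)).prodMk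
      (((SB.cd_pr h₂).add (contDiff_const.mul hm)).prodMk
        (((SB.cd_pr hb).mul hψ).sub (contDiff_const.mul ((SB.cd_pr hg).mul hω))))
  have key := hP.scale hZ ?_ (M := 1 + δ + C * τ ^ 2) (by positivity) ?_
  · simp only [SB.dv_eq h₁ h₂ hb hw hg hκ hψ hω] at key
    have cf : ∀ {f : P2 → ℝ}, ContDiff ℝ 1 f → ∀ u : P2, Continuous fun p => fderiv ℝ f p u :=
      fun hf u => (hf.continuous_fderiv one_ne_zero).clm_apply continuous_const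
    have cg : ∀ {f : P3 → ℝ}, ContDiff ℝ 1 f → Continuous fun x => fderiv ℝ f x e3 :=
      fun hf => (hf.continuous_fderiv one_ne_zero).clm_apply continuous_const
    have cp : Continuous fun x : P3 => ((x.1, x.2.1) : P2) := by fun_prop
    have c1 : Continuous fun x : P3 =>
        (fderiv ℝ a₁ (x.1, x.2.1) (1, 0) + fderiv ℝ a₂ (x.1, x.2.1) (0, 1)) * (1 : ℝ) :=
      (((cf h₁ _).comp cp).add ((cf h₂ _).comp cp)).mul continuous_const
    have c2 : Continuous fun x : P3 => fderiv ℝ w (x.1, x.2.1) v * κ x.2.2 :=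
      ((cf hw _).comp cp).mul (SB.cd_vt hκ).continuous
    have c3 : Continuous fun x : P3 => b (x.1, x.2.1) * fderiv ℝ ψ x e3 :=
      (SB.cd_pr hb).continuous.mul (cg hψ)
    have c4 : Continuous fun x : P3 =>
        g (x.1, x.2.1) * fderiv ℝ (fun x : P3 => κ x.2.2 * ψ x) x e3 :=
      (SB.cd_pr hg).continuous.mul (cg hω)
    have i1 := SB.intOn_inter (G := G) c1
    have i2 := SB.intOn_inter (G := G) c2
    have i3 := SB.intOn_inter (G := G) c3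
    have i4 := SB.intOn_inter (G := G) c4
    rw [SB.int4 i1 i2 i3 i4, (SB.fubini hG.1 c1).2, (SB.fubini hG.1 c2).2,
      (SB.fubini hG.1 c4).2] at key
    have e1 : ∫ p in box2, SB.secI G (fun x : P3 =>
        (fderiv ℝ a₁ (x.1, x.2.1) (1, 0) + fderiv ℝ a₂ (x.1, x.2.1) (0, 1)) * (1 : ℝ)) p
        = 2 * (∫ p in box2, sec G p * (fderiv ℝ a₁ p (1, 0) + fderiv ℝ a₂ p (0, 1))) := by
      rw [← integral_const_mul]
      refine integral_congr_ae (Eventually.of_forall fun p => ?_)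
      have := SB.secI_mul G (fun p => fderiv ℝ a₁ p (1, 0) + fderiv ℝ a₂ p (0, 1)) (fun _ => 1) p
      simp only [this, SB.secI_one hG.1]
      ring
    have e2 : ∫ p in box2, SB.secI G (fun x : P3 => fderiv ℝ w (x.1, x.2.1) v * κ x.2.2) p
        = ∫ p in box2, fderiv ℝ w p v * SB.secI G (fun x => κ x.2.2) p :=
      integral_congr_ae (Eventually.of_forall fun p =>
        SB.secI_mul G (fun p => fderiv ℝ w p v) (fun x => κ x.2.2) p)
    have e4 : ∫ p in box2, SB.secI G (fun x : P3 =>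
          g (x.1, x.2.1) * fderiv ℝ (fun x : P3 => κ x.2.2 * ψ x) x e3) p
        = ∫ p in box2, g p * SB.secI G (fun x => fderiv ℝ (fun x : P3 => κ x.2.2 * ψ x) x e3) p :=
      integral_congr_ae (Eventually.of_forall fun p =>
        SB.secI_mul G g (fun x => fderiv ℝ (fun x : P3 => κ x.2.2 * ψ x) x e3) p)
    rw [e1, e2, e4] at key
    exact key
  · have q₁ := SB.per_pr p₁
    have q₂ := SB.per_pr p₂
    have qb := SB.per_pr pb
    have qw := SB.per_pr pw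
    have qg := SB.per_pr pg
    have qκ := SB.per_vt pκ
    refine ⟨fun x => ?_, fun x => ?_, fun x => ?_⟩
    · have := q₁.1 x; have := q₂.1 x; have := qb.1 x; have := qw.1 x; have := qg.1 x
      have := qκ.1 x; have := pψ.1 x
      simp only [*]
    · have := q₁.2.1 x; have := q₂.2.1 x; have := qb.2.1 x; have := qw.2.1 x; have := qg.2.1 x
      have := qκ.2.1 x; have := pψ.2.1 x
      simp only [*]
    · have := q₁.2.2 x; have := q₂.2.2 x; have := qb.2.2 x; have := qw.2.2 x; have := qg.2.2 x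
      have := qκ.2.2 x; have := pψ.2.2 x
      simp only [*]
  · intro x
    have k1 := hle (x.1, x.2.1)
    have k2 := hwg (x.1, x.2.1)
    have k3 := ho (x.1, x.2.1)
    have k4 : κ x.2.2 ^ 2 ≤ 1 := by
      have := abs_le.1 (bκ x.2.2)
      nlinarith
    have k5 : ψ x ^ 2 ≤ 1 := by
      have := abs_le.1 (bψ x)
      nlinarith
    unfold nrm
    refine Real.sqrt_le_iff.2 ⟨by positivity, ?_⟩
    simp only
    generalize a₁ (x.1, x.2.1) = A₁ at *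
    generalize a₂ (x.1, x.2.1) = A₂ at *
    generalize b (x.1, x.2.1) = B at *
    generalize w (x.1, x.2.1) = W at *
    generalize g (x.1, x.2.1) = Γ at *
    generalize κ x.2.2 = K at *
    generalize ψ x = P at *
    have s1 : (B * P - τ * (Γ * (K * P))) ^ 2 ≤ (B - τ * Γ * K) ^ 2 := by
      have : (B * P - τ * (Γ * (K * P))) ^ 2 = (B - τ * Γ * K) ^ 2 * P ^ 2 := by ring
      rw [this]
      exact mul_le_of_le_one_right (sq_nonneg _) k5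
    have s2 : (A₁ + τ * v.1 * (W * K)) ^ 2 + (A₂ + τ * v.2 * (W * K)) ^ 2 + (B - τ * Γ * K) ^ 2
        = A₁ ^ 2 + A₂ ^ 2 + B ^ 2 + τ ^ 2 * (K ^ 2 * (W ^ 2 * (v.1 ^ 2 + v.2 ^ 2) + Γ ^ 2)) := by
      linear_combination (2 * τ * K) * k3
    have s3 : K ^ 2 * (W ^ 2 * (v.1 ^ 2 + v.2 ^ 2) + Γ ^ 2) ≤ C :=
      (mul_le_of_le_one_left (by positivity) k4).trans k2
    have s4 := mul_le_mul_of_nonneg_left s3 (sq_nonneg τ)
    have s5 : 0 ≤ C * τ ^ 2 := by positivity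
    nlinarith [mul_nonneg hδ s5, sq_nonneg (C * τ ^ 2)]

end Vale.Agent.P232
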