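import Mathlib

/-! Statement-level definitions for P232 (isoperimetric profile of the cubic three-torus). -/

open MeasureTheory Set
open scoped ENNReal

noncomputable section
namespace Vale.Agent.P232

/-- The cubic flat torus `R^3 / Z^3`, with its Haar probability measure `volume`. -/
abbrev Torus := Fin 3 → UnitAddCircle

/-- Euclidean three-space. -/
abbrev E3 := EuclideanSpace ℝ (Fin 3)

/-- The covering projection `R^3 → R^3 / Z^3`. -/
def proj (x : E3) : Torus := fun i => ((x i : ℝ) : UnitAddCircle)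

/-- A `C^1` vector field on the torus (lifted to a `Z^3`-periodic field) of Euclidean length at most one. -/
def TestField (φ : E3 → E3) : Prop :=
  ContDiff ℝ 1 φ ∧ (∀ x, ‖φ x‖ ≤ 1) ∧ ∀ x y, proj x = proj y → φ x = φ y

/-- The divergence of a vector field. -/
def divergence (φ : E3 → E3) (x : E3) : ℝ :=
  ∑ i, fderiv ℝ φ x (EuclideanSpace.single i 1) i

/-- The open fundamental cube of side one centred at the origin. -/
def cell : Set E3 := {x | ∀ i, x i ∈ Ioo (-(1 / 2 : ℝ)) (1 / 2)}

/-- De Giorgi perimeter: the supremum of `∫_E div φ` over test fields. -/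
def perimeter (E : Set Torus) : ℝ≥0∞ :=
  ⨆ (φ : E3 → E3) (_ : TestField φ), ENNReal.ofReal (∫ x in cell ∩ proj ⁻¹' E, divergence φ x)

/-- The isoperimetric profile. -/
def profile (V : ℝ) : ℝ≥0∞ :=
  ⨅ (E : Set Torus) (_ : NullMeasurableSet E volume) (_ : volume E = ENNReal.ofReal V), perimeter E

/-- The conjectured profile `J`. -/
def conjProfile (V : ℝ) : ℝ :=
  min ((36 * Real.pi) ^ (1 / 3 : ℝ) * (min V (1 - V)) ^ (2 / 3 : ℝ))
    (min (2 * √(Real.pi * min V (1 - V))) 2)

/-- A geodesic ball of radius `r < 1/2`. -/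
def IsBall (S : Set Torus) : Prop :=
  ∃ (c : E3) (r : ℝ), 0 < r ∧ r < 1 / 2 ∧ S = proj '' Metric.ball c r

/-- A solid tube of radius `r < 1/2` about a closed geodesic parallel to a coordinate axis. -/
def IsTube (S : Set Torus) : Prop :=
  ∃ (i : Fin 3) (c : E3) (r : ℝ), 0 < r ∧ r < 1 / 2 ∧
    S = proj '' {x | ∑ j ∈ Finset.univ.erase i, (x j - c j) ^ 2 < r ^ 2}

/-- A slab between two parallel coordinate tori. -/
def IsSlab (S : Set Torus) : Prop :=
  ∃ (i : Fin 3) (a t : ℝ), 0 < t ∧ t < 1 ∧ S = proj '' {x | a < x i ∧ x i < a + t}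

end Vale.Agent.P232
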