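import Vale.Agent.P232.StB
import Vale.Agent.P232.Refl
import Vale.Agent.P232.Ext

open MeasureTheory Set Filter Topology
open scoped ENNReal

noncomputable section
namespace Vale.Agent.P232

/-! Task: symmetrisation of arbitrary sets to admissible sets. -/

/-- three Steiner symmetrisations -/
def sym (G : Set P3) : Set P3 := stein (rot (stein (rot (stein G))))

theorem sym_spec {G : Set P3} {c : ℝ} (hG : PerSet G) (hP : PerLe G c) :
    Adm (ext (sym G)) ∧ 8 * volQ (ext (sym G)) = volB G ∧ area (ext (sym G)) ≤ c / 8 ∧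
      ∀ᵐ x : P3, (x ∈ sym G ↔ x ∈ refl (ext (sym G))) := by
  have s1 := perSet_stein hG
  have s2 := s1.rot
  have s3 := perSet_stein s2
  have s4 := s3.rot
  have s5 : PerSet (sym G) := perSet_stein s4
  have p5 : PerLe (sym G) c := (((hP.stein hG).rot s1.1).stein s2 |>.rot s3.1).stein s4
  have v5 : volB (sym G) = volB G := by
    rw [sym, volB_stein s4, volB_rot _ s3.1, volB_stein s2, volB_rot _ s1.1, volB_stein hG]
  obtain ⟨hr, hl⟩ : refl (sym G) = sym G ∧ LowQ (sym G) :=
    refl_eq_self (mono3_stein _)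
      (mono_rot_stein (mono_rot_rot_stein (G := rot (stein G)) (mono3_stein G)))
      (mono_rot_rot_stein (G := rot (stein (rot (stein G)))) (mono3_stein _))
  have ha := adm_ext hl
  have hae := ext_ae hl
  refine ⟨ha, ?_, ha.area_le ?_, ?_⟩
  · rw [volQ_congr hae, ← volB_refl s5.1, hr, v5]
  · exact (PerLe.relLe_of_refl s5.1 (hr.symm ▸ p5)).congr s5.1 ha.measurableSet
      (hae.mono fun _ h => h.symm)
  · filter_upwards [refl_congr hae] with x hx
    rw [hx, hr]
theorem exists_adm {F : Set P3} {c : ℝ} (hF : MeasurableSet F) (h : RelLe F c) :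
    ∃ E : Set P3, Adm E ∧ volQ E = volQ F ∧ area E ≤ c := by
  obtain ⟨h1, h2, h3, -⟩ := sym_spec (perSet_refl hF) (h.perLe_refl hF)
  rw [volB_refl hF] at h2
  exact ⟨_, h1, by linarith, by linarith⟩

end Vale.Agent.P232
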