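import Vale.Agent.P232.Stmt
import Vale.Agent.P232.Std

open MeasureTheory Set Filter Topology
open scoped ENNReal

noncomputable section
namespace Vale.Agent.P232

/-! Task: dictionary between the unit torus of the statement and the internal torus of side 2. -/

/-- halve the coordinates -/
def toE (x : P3) : E3 := !₂[x.1 / 2, x.2.1 / 2, x.2.2 / 2]
def lift (E : Set Torus) : Set P3 := (fun x => proj (toE x)) ⁻¹' E

/-- the coordinate identification of triples with Euclidean space -/
def taL : P3 ≃ₗ[ℝ] E3 where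
  toFun x := !₂[x.1, x.2.1, x.2.2]
  invFun y := (y 0, y 1, y 2)
  map_add' x y := by ext i; fin_cases i <;> simp
  map_smul' c x := by ext i; fin_cases i <;> simp
  left_inv x := by simp
  right_inv y := by ext i; fin_cases i <;> simp

def taC : P3 ≃L[ℝ] E3 := taL.toContinuousLinearEquiv

theorem taC_apply (x : P3) : taC x = !₂[x.1, x.2.1, x.2.2] := rfl
theorem taC_symm_apply (y : E3) : taC.symm y = (y 0, y 1, y 2) := rfl

theorem toE_eq (x : P3) : toE x = (1 / 2 : ℝ) • taC x := by
  ext i; fin_cases i <;> simp [toE, taC_apply] <;> ring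

theorem ta_nrm (y : E3) : nrm (taC.symm y) = ‖y‖ := by
  rw [EuclideanSpace.norm_eq, nrm, taC_symm_apply]
  simp [Fin.sum_univ_three, sq_abs]

theorem ta_mp : MeasurePreserving taC (volume : Measure P3) (volume : Measure E3) := by
  have h1 : MeasurePreserving (fun x : P3 => (![x.1, x.2.1, x.2.2] : Fin 3 → ℝ)) volume volume := by
    have hm : Measurable (fun x : P3 => (![x.1, x.2.1, x.2.2] : Fin 3 → ℝ)) := by
      refine measurable_pi_lambda _ fun i => ?_
      fin_cases i
      · exact measurable_fst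
      · exact measurable_snd.fst
      · exact measurable_snd.snd
    refine ⟨hm, ?_⟩
    rw [volume_pi]
    refine (Measure.pi_eq fun s hs => ?_).symm
    rw [Measure.map_apply hm (MeasurableSet.univ_pi hs)]
    have : (fun x : P3 => (![x.1, x.2.1, x.2.2] : Fin 3 → ℝ)) ⁻¹' (univ.pi s) = s 0 ×ˢ s 1 ×ˢ s 2 := by
      ext x
      simp [Fin.forall_fin_succ]
    rw [this, Measure.volume_eq_prod, Measure.prod_prod, Measure.volume_eq_prod, Measure.prod_prod,
      Fin.prod_univ_three, mul_assoc]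
  exact (PiLp.volume_preserving_toLp (Fin 3)).comp h1

/-- `toE` as a homeomorphism -/
def toEH : P3 ≃ₜ E3 :=
  taC.toHomeomorph.trans (Homeomorph.smulOfNeZero (1 / 2 : ℝ) (by norm_num))

theorem toEH_apply (x : P3) : toEH x = toE x := (toE_eq x).symm

theorem toE_coe : toE = toEH := funext fun x => (toEH_apply x).symm

theorem continuous_toE : Continuous toE := toE_coe ▸ toEH.continuous

theorem ta_emb : MeasurableEmbedding toE := toE_coe ▸ toEH.measurableEmbedding

theorem ta_map : (volume : Measure P3).map toE = (8 : ℝ≥0∞) • (volume : Measure E3) := by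
  have h : toE = (fun y : E3 => (1 / 2 : ℝ) • y) ∘ taC := funext toE_eq
  rw [h, ← Measure.map_map (measurable_const_smul _) taC.continuous.measurable, ta_mp.map_eq,
    Measure.map_addHaar_smul _ (by norm_num)]
  congr 1
  rw [finrank_euclideanSpace_fin, show |((1 / 2 : ℝ) ^ 3)⁻¹| = (8 : ℕ) by norm_num,
    ENNReal.ofReal_natCast]
  rfl

theorem ta_box : toE ⁻¹' cell = box := by
  ext x
  simp only [cell, box, mem_preimage, mem_ofPred_eq, Fin.forall_fin_succ, toE, mem_prod, mem_Ioo]
  simp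
  constructor
  · rintro ⟨⟨h1, h2⟩, ⟨h3, h4⟩, h5, h6⟩
    refine ⟨⟨?_, ?_⟩, ⟨?_, ?_⟩, ?_, ?_⟩ <;> linarith
  · rintro ⟨⟨h1, h2⟩, ⟨h3, h4⟩, h5, h6⟩
    refine ⟨⟨?_, ?_⟩, ⟨?_, ?_⟩, ?_, ?_⟩ <;> linarith

theorem continuous_proj : Continuous proj := by
  unfold proj
  fun_prop

theorem measurableSet_cell : MeasurableSet cell := by
  have : cell = ⋂ i, (fun x : E3 => x i) ⁻¹' Ioo (-(1 / 2 : ℝ)) (1 / 2) := by
    ext x; simp [cell]
  rw [this]
  exact MeasurableSet.iInter fun i => (by fun_prop : Continuous fun x : E3 => x i).measurable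
    measurableSet_Ioo

theorem ta_proj_mp : MeasurePreserving proj (volume.restrict cell) (volume : Measure Torus) := by
  have h0 : MeasurePreserving ((↑) : ℝ → UnitAddCircle)
      (volume.restrict (Ioo (-(1 / 2 : ℝ)) (1 / 2))) volume := by
    have := UnitAddCircle.measurePreserving_mk (-(1 / 2 : ℝ))
    rwa [show (-(1 / 2 : ℝ) + 1) = 1 / 2 by norm_num,
      ← Measure.restrict_congr_set Ioo_ae_eq_Ioc] at this
  have h1 := measurePreserving_pi (fun _ : Fin 3 => volume.restrict (Ioo (-(1 / 2 : ℝ)) (1 / 2)))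
    (fun _ : Fin 3 => (volume : Measure UnitAddCircle)) (fun _ => h0)
  rw [← Measure.restrict_pi_pi, ← volume_pi, ← volume_pi] at h1
  have h2 := (PiLp.volume_preserving_ofLp (Fin 3)).restrict_preimage
    (MeasurableSet.univ_pi fun _ : Fin 3 => (measurableSet_Ioo : MeasurableSet (Ioo (-(1 / 2 : ℝ)) (1 / 2))))
  have h3 : (WithLp.ofLp : E3 → Fin 3 → ℝ) ⁻¹' (univ.pi fun _ : Fin 3 => Ioo (-(1 / 2 : ℝ)) (1 / 2)) =
      cell := by
    ext x; simp [cell]
  rw [h3] at h2
  exact h1.comp h2

theorem ta_int {s t : ℝ} (h : (s : UnitAddCircle) = (t : UnitAddCircle)) : ∃ n : ℤ, t = s + n := by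
  have h1 : ((t - s : ℝ) : UnitAddCircle) = 0 := by rw [AddCircle.coe_sub, h, sub_self]
  obtain ⟨n, hn⟩ := (AddCircle.coe_eq_zero_iff (1 : ℝ)).1 h1
  refine ⟨n, ?_⟩
  simp only [zsmul_eq_mul, mul_one] at hn
  linarith

theorem ta_per {α : Type*} {F : P3 → α} (hp : Periodic3 F) {x y : P3}
    (h : proj (toE x) = proj (toE y)) : F x = F y := by
  obtain ⟨a, ha⟩ := ta_int (congrFun h 0)
  obtain ⟨b, hb⟩ := ta_int (congrFun h 1)
  obtain ⟨c, hc⟩ := ta_int (congrFun h 2)
  simp [toE] at ha hb hc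
  rw [← pb_int3 hp a b c x]
  congr 1
  ext <;> simp <;> linarith

theorem ta_proj_per : Periodic3 (fun x => proj (toE x)) := by
  have key : ∀ s : ℝ, (((s + 2) / 2 : ℝ) : UnitAddCircle) = ((s / 2 : ℝ) : UnitAddCircle) := by
    intro s
    rw [show (s + 2) / 2 = s / 2 + 1 by ring, AddCircle.coe_add_period]
  refine ⟨fun x => ?_, fun x => ?_, fun x => ?_⟩ <;>
  · funext i
    fin_cases i <;> simp [proj, toE, key]

theorem perSet_lift {E : Set Torus} (hE : MeasurableSet E) : PerSet (lift E) := by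
  refine ⟨(continuous_proj.comp continuous_toE).measurable hE, fun x => ?_, fun x => ?_, fun x => ?_⟩
  · exact congrArg (· ∈ E) (ta_proj_per.1 x)
  · exact congrArg (· ∈ E) (ta_proj_per.2.1 x)
  · exact congrArg (· ∈ E) (ta_proj_per.2.2 x)

theorem ta_inter (E : Set Torus) : lift E ∩ box = toE ⁻¹' (cell ∩ proj ⁻¹' E) := by
  rw [preimage_inter, ta_box, inter_comm]; rfl

theorem ta_vol {E : Set Torus} (hE : MeasurableSet E) : volume (lift E ∩ box) = 8 * volume E := by
  rw [ta_inter, ← ta_emb.map_apply, ta_map, Measure.smul_apply, smul_eq_mul,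
    ← ta_proj_mp.measure_preimage hE.nullMeasurableSet,
    Measure.restrict_apply (continuous_proj.measurable hE), inter_comm]

theorem volB_lift {E : Set Torus} (hE : MeasurableSet E) : volB (lift E) = 8 * (volume E).toReal := by
  rw [volB, ta_vol hE, ENNReal.toReal_mul]
  norm_num

theorem ta_dv {φ : E3 → E3} (hφ : ContDiff ℝ 1 φ) (x : P3) :
    dv (fun x => taC.symm (φ (toE x))) x = (1 / 2) * divergence φ (toE x) := by
  have h1 : HasFDerivAt toE ((1 / 2 : ℝ) • (taC : P3 →L[ℝ] E3)) x := by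
    have : toE = fun x => (1 / 2 : ℝ) • taC x := funext toE_eq
    rw [this]
    exact taC.hasFDerivAt.const_smul (1 / 2 : ℝ)
  have h2 := (taC.symm.hasFDerivAt (x := φ (toE x))).comp x
    ((hφ.differentiable one_ne_zero (toE x)).hasFDerivAt.comp x h1)
  have h3 : fderiv ℝ (fun x => taC.symm (φ (toE x))) x = _ := h2.fderiv
  have e0 : taC e1 = EuclideanSpace.single 0 1 := by
    ext i; fin_cases i <;> simp [taC_apply, e1]
  have e1' : taC e2 = EuclideanSpace.single 1 1 := by
    ext i; fin_cases i <;> simp [taC_apply, e2]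
  have e2' : taC e3 = EuclideanSpace.single 2 1 := by
    ext i; fin_cases i <;> simp [taC_apply, e3]
  rw [dv, h3, trc, divergence, Fin.sum_univ_three]
  simp only [ContinuousLinearMap.comp_apply, ContinuousLinearMap.smul_apply, map_smul,
    ContinuousLinearEquiv.coe_coe, e0, e1', e2', taC_symm_apply, Prod.smul_fst, Prod.smul_snd,
    smul_eq_mul]
  ring

theorem ta_integral {φ : E3 → E3} (hφ : ContDiff ℝ 1 φ) (E : Set Torus) :
    ∫ x in lift E ∩ box, dv (fun x => taC.symm (φ (toE x))) x =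
      4 * ∫ x in cell ∩ proj ⁻¹' E, divergence φ x := by
  simp only [ta_dv hφ]
  rw [integral_const_mul, ta_inter, ← ta_emb.setIntegral_map, ta_map, Measure.restrict_smul,
    integral_smul_measure]
  simp only [ENNReal.toReal_ofNat, smul_eq_mul]
  ring

theorem perimeter_le_iff {E : Set Torus} (hE : MeasurableSet E) {c : ℝ} (hc : 0 ≤ c) :
    perimeter E ≤ ENNReal.ofReal c ↔ PerLe (lift E) (4 * c) := by
  have hto : ContDiff ℝ 1 toE := by
    have : toE = fun x => (1 / 2 : ℝ) • taC x := funext toE_eq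
    rw [this]
    exact taC.contDiff.const_smul _
  simp only [perimeter, iSup_le_iff, ENNReal.ofReal_le_ofReal_iff hc]
  constructor
  · intro h Z hZ hb hp
    have hinv : ∀ y : E3, toE (taC.symm ((2 : ℝ) • y)) = y := by
      intro y
      rw [toE_eq, ContinuousLinearEquiv.apply_symm_apply, smul_smul]
      norm_num
    have hinv' : ∀ x : P3, taC.symm ((2 : ℝ) • toE x) = x := by
      intro x
      rw [toE_eq, smul_smul]
      norm_num
    have hφ : ContDiff ℝ 1 (fun y : E3 => taC (Z (taC.symm ((2 : ℝ) • y)))) :=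
      taC.contDiff.comp (hZ.comp (taC.symm.contDiff.comp (contDiff_id.const_smul _)))
    have ht : TestField (fun y : E3 => taC (Z (taC.symm ((2 : ℝ) • y)))) := by
      refine ⟨hφ, fun y => ?_, fun y y' hy => ?_⟩
      · rw [← ta_nrm, ContinuousLinearEquiv.symm_apply_apply]
        exact hb _
      · exact congrArg taC (ta_per hp (by rw [hinv, hinv, hy]))
    have h1 := ta_integral hφ E
    simp only [hinv', ContinuousLinearEquiv.symm_apply_apply] at h1
    have h2 := h _ ht
    have h3 : (fun x => Z x) = Z := rfl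
    rw [h3] at h1
    linarith
  · intro h φ hφ
    have h1 := ta_integral hφ.1 E
    have h2 := h (fun x => taC.symm (φ (toE x))) (taC.symm.contDiff.comp (hφ.1.comp hto))
      (fun x => by rw [ta_nrm]; exact hφ.2.1 _)
      ⟨fun x => congrArg taC.symm (hφ.2.2 _ _ (ta_proj_per.1 x)),
        fun x => congrArg taC.symm (hφ.2.2 _ _ (ta_proj_per.2.1 x)),
        fun x => congrArg taC.symm (hφ.2.2 _ _ (ta_proj_per.2.2 x))⟩
    linarith

theorem exists_lift {G : Set P3} (hG : PerSet G) : ∃ E : Set Torus, MeasurableSet E ∧ lift E = G := by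
  let r : UnitAddCircle → ℝ := fun t => (AddCircle.measurableEquivIoc 1 0 t : ℝ)
  have hr : Measurable r := measurable_subtype_coe.comp (AddCircle.measurableEquivIoc 1 0).measurable
  have hr' : ∀ t, ((r t : ℝ) : UnitAddCircle) = t := fun t =>
    (AddCircle.measurableEquivIoc 1 0).symm_apply_apply t
  let s : Torus → P3 := fun t => (2 * r (t 0), 2 * r (t 1), 2 * r (t 2))
  have hs : Measurable s := by
    have hi : ∀ i : Fin 3, Measurable fun t : Torus => 2 * r (t i) := fun i =>
      (hr.comp (measurable_pi_apply i)).const_mul 2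
    exact (hi 0).prodMk ((hi 1).prodMk (hi 2))
  have hs' : ∀ t, proj (toE (s t)) = t := by
    intro t
    funext i
    fin_cases i <;> simp [proj, toE, s, hr']
  refine ⟨s ⁻¹' G, hs hG.1, ?_⟩
  ext x
  exact (ta_per hG.2 (hs' (proj (toE x)))).to_iff

theorem ae_eq_of_lift {E S : Set Torus} (hE : MeasurableSet E) (hS : MeasurableSet S)
    (h : ∀ᵐ x : P3, (x ∈ lift E ↔ x ∈ lift S)) : E =ᵐ[volume] S := by
  have hD : MeasurableSet {t | ¬ (t ∈ E ↔ t ∈ S)} := (hE.iff hS).compl
  have h1 := ta_vol hD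
  have h2 : volume (lift {t | ¬ (t ∈ E ↔ t ∈ S)} ∩ box) = 0 :=
    measure_mono_null inter_subset_left (ae_iff.1 h)
  rw [h2] at h1
  have h3 : volume {t | ¬ (t ∈ E ↔ t ∈ S)} = 0 := by
    rcases mul_eq_zero.1 h1.symm with h | h
    · norm_num at h
    · exact h
  filter_upwards [ae_iff.2 h3] with t ht using propext ht

theorem perimeter_congr {E S : Set Torus} (h : E =ᵐ[volume] S) : perimeter E = perimeter S := by
  have h1 : proj ⁻¹' E =ᵐ[volume.restrict cell] proj ⁻¹' S :=
    ta_proj_mp.quasiMeasurePreserving.preimage_ae_eq h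
  have h2 : (cell ∩ proj ⁻¹' E : Set E3) =ᵐ[volume] (cell ∩ proj ⁻¹' S : Set E3) := by
    filter_upwards [(ae_restrict_iff' measurableSet_cell).1 h1] with x hx
    exact propext ⟨fun h => ⟨h.1, (hx h.1).to_iff.1 h.2⟩, fun h => ⟨h.1, (hx h.1).to_iff.2 h.2⟩⟩
  simp only [perimeter, setIntegral_congr_set h2]

end Vale.Agent.P232
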