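import Vale.Agent.P232.TorusA

open MeasureTheory Set Filter Topology
open scoped ENNReal

noncomputable section
namespace Vale.Agent.P232

theorem torusB_d2 (t c : ℝ) :
    d2 (t - c) = 2 * ‖((t / 2 : ℝ) : UnitAddCircle) - ((c / 2 : ℝ) : UnitAddCircle)‖ := by
  rw [← AddCircle.coe_sub, UnitAddCircle.norm_eq, d2, ← sub_div, ← abs_two, ← abs_mul, abs_two]
  congr 1
  ring

theorem torusB_rep (t : UnitAddCircle) (c : ℝ) :
    ∃ y : ℝ, (y : UnitAddCircle) = t ∧ |y - c| = ‖t - (c : UnitAddCircle)‖ := by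
  obtain ⟨u, hu⟩ := QuotientAddGroup.mk_surjective (t - (c : UnitAddCircle))
  have h0 : (((round u : ℤ) : ℝ) : UnitAddCircle) = 0 :=
    (AddCircle.coe_eq_zero_iff (1 : ℝ)).2 ⟨round u, by simp⟩
  refine ⟨c + (u - round u), ?_, ?_⟩
  · rw [AddCircle.coe_add, AddCircle.coe_sub, h0, sub_zero, hu, add_sub_cancel]
  · rw [← hu, UnitAddCircle.norm_eq, add_sub_cancel_left]

theorem torusB_le (y c : ℝ) : ‖(y : UnitAddCircle) - (c : UnitAddCircle)‖ ≤ |y - c| := by
  rw [← AddCircle.coe_sub]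
  exact QuotientAddGroup.norm_mk_le_norm

theorem torusB_set (k : Fin 3 → ℝ) (hk : ∀ i, 0 ≤ k i) (c : E3) (r : ℝ) :
    {t : Torus | ∑ i, k i * ‖t i - (c i : UnitAddCircle)‖ ^ 2 < r ^ 2} =
      proj '' {y | ∑ i, k i * (y i - c i) ^ 2 < r ^ 2} := by
  ext t
  constructor
  · intro ht
    choose y hy hy' using fun i => torusB_rep (t i) (c i)
    refine ⟨WithLp.toLp 2 y, ?_, funext hy⟩
    simpa only [mem_ofPred_eq, ← hy', sq_abs] using ht
  · rintro ⟨y, hy, rfl⟩
    refine lt_of_le_of_lt (Finset.sum_le_sum fun i _ => mul_le_mul_of_nonneg_left ?_ (hk i)) hy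
    rw [← sq_abs (y i - c i)]
    exact pow_le_pow_left₀ (norm_nonneg _) (torusB_le _ _) 2

theorem torusB_slab (y c : ℝ) {r : ℝ} (hr : 0 < r) :
    (y - c) ^ 2 < r ^ 2 ↔ c - r < y ∧ y < c - r + 2 * r := by
  rw [sq_lt_sq, abs_of_pos hr, abs_lt]
  constructor <;> rintro ⟨h1, h2⟩ <;> constructor <;> linarith

theorem exists_std_torus {k : P3} (hk : KOk k) (c : P3) {R : ℝ} (h0 : 0 < R) (h1 : R < 1) :
    ∃ S : Set Torus, MeasurableSet S ∧ lift S = std k c R ∧ (IsBall S ∨ IsTube S ∨ IsSlab S) := by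
  obtain ⟨k1, k2, k3⟩ := k
  obtain ⟨h1', h2', h3', h4⟩ := hk
  have hr0 : 0 < R / 2 := by linarith
  have hr1 : R / 2 < 1 / 2 := by linarith
  refine ⟨{t : Torus | ∑ i, ![k1, k2, k3] i * ‖t i - (toE c i : UnitAddCircle)‖ ^ 2 < (R / 2) ^ 2},
    (isOpen_lt (by fun_prop) continuous_const).measurableSet, ?_, ?_⟩
  · ext x
    simp only [lift, std, mem_preimage, mem_ofPred_eq, Fin.sum_univ_three, torusB_d2, proj, toE]
    simp only [Matrix.cons_val_zero, Matrix.cons_val_one, Matrix.cons_val]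
    constructor <;> intro h <;> linarith
  have hk0 : ∀ i, 0 ≤ ![k1, k2, k3] i := by
    intro i
    fin_cases i
    · rcases h1' with h | h <;> simp_all
    · rcases h2' with h | h <;> simp_all
    · rcases h3' with h | h <;> simp_all
  rw [torusB_set _ hk0]
  generalize toE c = c'
  have tube : ∀ i : Fin 3, (∀ j, ![k1, k2, k3] j = if j = i then 0 else 1) →
      IsTube (proj '' {y | ∑ j, ![k1, k2, k3] j * (y j - c' j) ^ 2 < (R / 2) ^ 2}) := by
    intro i hi
    refine ⟨i, c', R / 2, hr0, hr1, congrArg _ (Set.ext fun y => ?_)⟩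
    rw [mem_ofPred_eq, mem_ofPred_eq, ← Finset.add_sum_erase _ _ (Finset.mem_univ i), hi, if_pos rfl,
      zero_mul, zero_add, Finset.sum_congr rfl fun j hj => by
        rw [hi, if_neg (Finset.ne_of_mem_erase hj), one_mul]]
  have slab : ∀ i : Fin 3, (∀ j, ![k1, k2, k3] j = if j = i then 1 else 0) →
      IsSlab (proj '' {y | ∑ j, ![k1, k2, k3] j * (y j - c' j) ^ 2 < (R / 2) ^ 2}) := by
    intro i hi
    refine ⟨i, c' i - R / 2, 2 * (R / 2), by linarith, by linarith,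
      congrArg _ (Set.ext fun y => ?_)⟩
    rw [mem_ofPred_eq, mem_ofPred_eq, ← torusB_slab _ _ hr0]
    simp [hi]
  dsimp only at h1' h2' h3'
  rcases h1' with rfl | rfl <;> rcases h2' with rfl | rfl <;> rcases h3' with rfl | rfl
  · exact absurd rfl h4
  · exact .inr (.inr (slab 2 fun j => by fin_cases j <;> simp))
  · exact .inr (.inr (slab 1 fun j => by fin_cases j <;> simp))
  · exact .inr (.inl (tube 0 fun j => by fin_cases j <;> simp))
  · exact .inr (.inr (slab 0 fun j => by fin_cases j <;> simp))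
  · exact .inr (.inl (tube 1 fun j => by fin_cases j <;> simp))
  · exact .inr (.inl (tube 2 fun j => by fin_cases j <;> simp))
  · refine .inl ⟨c', R / 2, hr0, hr1, congrArg _ (Set.ext fun y => ?_)⟩
    rw [Metric.mem_ball, EuclideanSpace.dist_eq, Real.sqrt_lt' hr0]
    simp [Fin.sum_univ_three, Real.dist_eq, sq_abs]
theorem conjProfile_eq (V : ℝ) : conjProfile V = 2 * Jc V := by
  have h : (36 * Real.pi) ^ (1 / 3 : ℝ) = 2 * (9 * Real.pi / 2) ^ (1 / 3 : ℝ) := by
    have h8 : (2 : ℝ) = (8 : ℝ) ^ (1 / 3 : ℝ) := by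
      rw [show (8 : ℝ) = 2 ^ (3 : ℝ) by norm_num, ← Real.rpow_mul (by norm_num)]
      norm_num
    rw [show 36 * Real.pi = 8 * (9 * Real.pi / 2) by ring,
      Real.mul_rpow (by norm_num) (by positivity), ← h8]
  rw [conjProfile, Jc, mul_min_of_nonneg (a := 2) _ _ zero_le_two,
    mul_min_of_nonneg (a := 2) _ _ zero_le_two, h,
    mul_one, mul_assoc]
theorem volume_torus : (volume : Measure Torus) univ = 1 := by
  rw [volume_pi, Measure.pi_univ]
  simp

end Vale.Agent.P232
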