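import Vale.Agent.P232.Meas

open MeasureTheory Set Filter Topology
open scoped ENNReal

noncomputable section
namespace Vale.Agent.P232

/-! Volume change under a vertical deformation.  On each column `t ↦ t + ε φ(p,t)` is a strictly
increasing bijection of `ℝ`, so over `p ∈ dom E` the image is `{t < hgt p + ε φ(p, hgt p)}`. -/

theorem vv_vol (s : ℝ) : (volume {t ∈ Ioo (0 : ℝ) 1 | t < s}).toReal = max 0 (min 1 s) := by
  have : {t ∈ Ioo (0 : ℝ) 1 | t < s} = Ioo 0 (min 1 s) := by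
    ext t
    simp [and_assoc]
  rw [this, Real.volume_Ioo, ENNReal.toReal_ofReal', sub_zero, max_comm]

theorem vv_apply (φ : P3 → ℝ) (ε : ℝ) (x : P3) :
    x + ε • (φ x • e3) = (x.1, x.2.1, x.2.2 + ε * φ x) := by
  ext <;> simp [e3]

theorem vv_mem (φ : P3 → ℝ) (ε : ℝ) (E : Set P3) (p : P2) (s : ℝ) :
    ((p.1, p.2, s) : P3) ∈ (fun x => x + ε • (φ x • e3)) '' E ↔
      ∃ t, ((p.1, p.2, t) : P3) ∈ E ∧ t + ε * φ (p.1, p.2, t) = s := by
  constructor
  · rintro ⟨⟨a, b, t⟩, hx, e⟩
    simp only [vv_apply, Prod.mk.injEq] at e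
    obtain ⟨rfl, rfl, e⟩ := e
    exact ⟨t, hx, e⟩
  · rintro ⟨t, ht, e⟩
    exact ⟨_, ht, by simp only [vv_apply, e]⟩

theorem vv_mono {φ : P3 → ℝ} {K : NNReal} (hK : LipschitzWith K φ) {ε : ℝ} (h0 : 0 < ε)
    (h1 : ε * K < 1) (a b : ℝ) : StrictMono fun t : ℝ => t + ε * φ (a, b, t) := by
  intro t s hts
  have h2 := hK.dist_le_mul (a, b, t) (a, b, s)
  have h3 : dist ((a, b, t) : P3) (a, b, s) = s - t := by
    simp [Prod.dist_eq, Real.dist_eq, abs_sub_comm t s, abs_of_pos (sub_pos.2 hts), hts.le]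
  rw [h3, Real.dist_eq] at h2
  have h4 := mul_le_mul_of_nonneg_left (abs_le.1 h2).2 h0.le
  have h5 := mul_lt_mul_of_pos_right h1 (sub_pos.2 hts)
  simp only
  nlinarith

theorem vv_surj {φ : P3 → ℝ} (hφ : Continuous φ) {M : ℝ} (hM : ∀ x, |φ x| ≤ M) {ε : ℝ}
    (h0 : 0 < ε) (a b : ℝ) : Function.Surjective fun t : ℝ => t + ε * φ (a, b, t) := by
  refine Continuous.surjective (by fun_prop) ?_ ?_
  · refine tendsto_atTop_mono (fun t => ?_) (tendsto_atTop_add_const_right _ (-(ε * M)) tendsto_id)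
    have := mul_le_mul_of_nonneg_left (abs_le.1 (hM (a, b, t))).1 h0.le
    simp only [id]
    linarith
  · refine tendsto_atBot_mono (fun t => ?_) (tendsto_atBot_add_const_right _ (ε * M) tendsto_id)
    have := mul_le_mul_of_nonneg_left (abs_le.1 (hM (a, b, t))).2 h0.le
    simp only [id]
    linarith

theorem vv_meas {E : Set P3} (hE : MeasurableSet E) {φ : P3 → ℝ} {K : NNReal}
    (hK : LipschitzWith K φ) {ε : ℝ} (h0 : 0 < ε) (h1 : ε * K < 1) :
    MeasurableSet ((fun x => x + ε • (φ x • e3)) '' E) := by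
  have hφ := hK.continuous
  refine hE.image_of_continuousOn_injOn (Continuous.continuousOn (by fun_prop)) ?_
  rintro ⟨a, b, t⟩ - ⟨a', b', t'⟩ - e
  simp only [vv_apply, Prod.mk.injEq] at e
  obtain ⟨rfl, rfl, e⟩ := e
  rw [(vv_mono hK h0 h1 a b).injective e]

theorem vv_hgt {E : Set P3} (h : Adm E) {φ : P3 → ℝ} {K : NNReal} (hK : LipschitzWith K φ)
    {M : ℝ} (hM : ∀ x, |φ x| ≤ M) {ε : ℝ} (h0 : 0 < ε) (h1 : ε * K < 1) (p : P2) :
    hgt ((fun x => x + ε • (φ x • e3)) '' E) p - hgt E p = (dom E).indicator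
      (fun p => max 0 (min 1 (hgt E p + ε * φ (p.1, p.2, hgt E p))) - hgt E p) p := by
  have hs := vv_surj hK.continuous hM h0 p.1 p.2
  have hm := vv_mono hK h0 h1 p.1 p.2
  by_cases hp : p ∈ dom E
  · rw [indicator_of_mem hp, ← vv_vol, sub_left_inj]
    unfold hgt
    congr 2
    ext s
    refine and_congr_right fun _ => ?_
    rw [vv_mem]
    obtain ⟨t, rfl⟩ := hs s
    constructor
    · rintro ⟨t', ht', e⟩
      rw [h.mem_iff_of_dom hp] at ht'
      rw [← e]
      exact hm ht'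
    · intro ht
      exact ⟨t, (h.mem_iff_of_dom hp t).2 (hm.lt_iff_lt.1 ht), rfl⟩
  · rw [indicator_of_notMem hp, sub_eq_zero]
    unfold hgt
    congr 2
    ext s
    refine and_congr_right fun hs1 => ?_
    rw [vv_mem]
    by_cases h2 : p ∈ slice E 1
    · obtain ⟨t, ht⟩ := hs s
      exact iff_of_true ⟨t, h.a3.above _ _ _ h2, ht⟩ (h.a3.above _ _ _ h2)
    · have h3 : p ∉ slice E 0 := fun h3 => hp ⟨h3, h2⟩
      have h4 : ∀ t : ℝ, ((p.1, p.2, t) : P3) ∉ E := fun t ht => by
        rcases le_total t 0 with h5 | h5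
        · exact h3 (h.slice_of_nonpos h5 ▸ ht)
        · exact h3 (h.lower (show ((p.1, p.2, 0) : P3) ≤ (p.1, p.2, t) from
            ⟨le_rfl, le_rfl, h5⟩) ht)
      exact iff_of_false (fun ⟨t, ht, _⟩ => h4 t ht) (h4 s)

theorem vv_int {F : Set P3} (hF : MeasurableSet F) : IntegrableOn (hgt F) sq := by
  refine Measure.integrableOn_of_bounded (M := 1) (by rw [volume_sq]; simp)
    (measurable_hgt hF).aestronglyMeasurable (Eventually.of_forall fun p => ?_)
  rw [Real.norm_eq_abs, abs_of_nonneg (hgt_nonneg F p)]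
  exact hgt_le_one F p

theorem vv_clamp {a d : ℝ} (h0 : 0 ≤ a) (h1 : a ≤ 1) : |max 0 (min 1 (a + d)) - a| ≤ |d| := by
  have h2 := le_abs_self d
  have h3 := neg_abs_le d
  have h4 := abs_nonneg d
  rw [abs_le]
  constructor
  · have : a - |d| ≤ min 1 (a + d) := le_min (by linarith) (by linarith)
    linarith [le_max_right 0 (min 1 (a + d))]
  · have : max 0 (min 1 (a + d)) ≤ a + |d| :=
      max_le (by linarith) ((min_le_right _ _).trans (by linarith))
    linarith

theorem var_vol {E : Set P3} (h : Adm E) {φ : P3 → ℝ} (hφ : ContDiff ℝ 2 φ) (hc : HasCompactSupport φ) :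
    Tendsto (fun ε : ℝ => (volQ ((fun x => x + ε • (φ x • e3)) '' E) - volQ E) / ε) (𝓝[>] 0)
      (𝓝 (w3 E φ)) := by
  obtain ⟨K, hK⟩ := hφ.lipschitzWith_of_hasCompactSupport hc (by norm_num)
  obtain ⟨M, hM⟩ := hφ.continuous.bounded_above_of_compact_support hc
  have hco := hφ.continuous
  have hE := h.measurableSet
  have hh := measurable_hgt hE
  have hfin : IsFiniteMeasure (volume.restrict (dom E ∩ sq)) :=
    ⟨by
      rw [Measure.restrict_apply_univ]
      exact (measure_mono inter_subset_right).trans_lt (by rw [volume_sq]; simp)⟩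
  have hφm : Measurable fun p : P2 => φ (p.1, p.2, hgt E p) :=
    hco.measurable.comp (measurable_fst.prodMk (measurable_snd.prodMk hh))
  have hsm : ∀ᶠ ε : ℝ in 𝓝[>] 0, ε * K < 1 := by
    refine Eventually.filter_mono nhdsWithin_le_nhds ?_
    have : Tendsto (fun ε : ℝ => ε * K) (𝓝 0) (𝓝 (0 * K)) := tendsto_id.mul_const _
    exact this.eventually_lt_const (by simp)
  have hlim : Tendsto (fun ε : ℝ => ∫ p in dom E ∩ sq,
      (max 0 (min 1 (hgt E p + ε * φ (p.1, p.2, hgt E p))) - hgt E p) / ε) (𝓝[>] 0)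
      (𝓝 (∫ p in dom E ∩ sq, φ (p.1, p.2, hgt E p))) := by
    refine tendsto_integral_filter_of_dominated_convergence (fun _ => M)
      (Eventually.of_forall fun ε => Measurable.aestronglyMeasurable (by fun_prop)) ?_
      (integrable_const M) ?_
    · filter_upwards [self_mem_nhdsWithin] with ε (hε : 0 < ε)
      refine Eventually.of_forall fun p => ?_
      rw [Real.norm_eq_abs, abs_div, abs_of_pos hε, div_le_iff₀ hε]
      refine (vv_clamp (hgt_nonneg E p) (hgt_le_one E p)).trans ?_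
      rw [abs_mul, abs_of_pos hε, mul_comm]
      exact mul_le_mul_of_nonneg_right (hM _) hε.le
    · rw [ae_restrict_iff' (h.measurableSet_dom.inter measurableSet_sq)]
      filter_upwards [h.ae_hgt_lt_one] with p hp hps
      have h1 := hp hps.1 hps.2.1.1 hps.2.2.1
      have h0 := h.hgt_pos hps.1.1
      have ht : Tendsto (fun ε : ℝ => hgt E p + ε * φ (p.1, p.2, hgt E p)) (𝓝[>] 0)
          (𝓝 (hgt E p + 0 * φ (p.1, p.2, hgt E p))) :=
        (tendsto_const_nhds.add (tendsto_id.mul_const _)).mono_left nhdsWithin_le_nhds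
      rw [zero_mul, add_zero] at ht
      refine tendsto_const_nhds.congr' ?_
      filter_upwards [self_mem_nhdsWithin, ht.eventually_lt_const h1, ht.eventually_const_lt h0]
        with ε (hε : 0 < ε) a b
      rw [min_eq_right a.le, max_eq_right b.le, add_sub_cancel_left,
        mul_div_cancel_left₀ _ hε.ne']
  unfold w3
  rw [h.integral_Q_rho3 hco.measurable]
  refine hlim.congr' ?_
  filter_upwards [self_mem_nhdsWithin, hsm] with ε (hε : 0 < ε) h1
  have hF := vv_meas hE hK hε h1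
  rw [volQ_eq_hgt hF, volQ_eq_hgt hE, ← integral_sub (vv_int hF) (vv_int hE), integral_div]
  simp only [vv_hgt h hK hM hε h1]
  rw [setIntegral_indicator h.measurableSet_dom, inter_comm]

end Vale.Agent.P232
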