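import Vale.Agent.P232.Piola
import Vale.Agent.P232.VarVol
import Vale.Agent.P232.Enter

open MeasureTheory Set Filter Topology
open scoped ENNReal

noncomputable section
namespace Vale.Agent.P232

/-! Auxiliary lemmas for the first variation up to the boundary. -/

variable {E : Set P3}

/-- points mapped into the cube -/
def vbA (φ : P3 → ℝ) (ε : ℝ) : Set P3 := {x | x + ε • (φ x • e3) ∈ Q}

/-- a bounded column containing all sets that occur -/
def vbK (M : ℝ) : Set P3 := {x | ((x.1, x.2.1) : P2) ∈ sq ∧ -M ≤ x.2.2 ∧ x.2.2 ≤ 1 + M}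

theorem vb_mem_Q {x : P3} : x ∈ Q ↔ ((x.1, x.2.1) : P2) ∈ sq ∧ 0 < x.2.2 ∧ x.2.2 < 1 := by
  simp only [Q, sq, mem_prod, mem_Ioo]
  tauto

theorem vb_mem_A {φ : P3 → ℝ} {ε : ℝ} {x : P3} : x ∈ vbA φ ε ↔
    ((x.1, x.2.1) : P2) ∈ sq ∧ 0 < x.2.2 + ε * φ x ∧ x.2.2 + ε * φ x < 1 := by
  unfold vbA
  rw [mem_setOf_eq, vb_mem_Q]
  simp [e3]

theorem vb_meas_sq : MeasurableSet {x : P3 | ((x.1, x.2.1) : P2) ∈ sq} :=
  (show Measurable fun x : P3 => ((x.1, x.2.1) : P2) by fun_prop) measurableSet_sq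

theorem vb_meas_A {φ : P3 → ℝ} (hφ : Continuous φ) (ε : ℝ) : MeasurableSet (vbA φ ε) :=
  (show Measurable fun x : P3 => x + ε • (φ x • e3) from
    (continuous_id.add ((hφ.smul continuous_const).const_smul ε)).measurable) measurableSet_Q

theorem vb_meas_K (M : ℝ) : MeasurableSet (vbK M) :=
  vb_meas_sq.inter ((measurableSet_le (g := fun x : P3 => x.2.2) measurable_const
    (by fun_prop)).inter (measurableSet_le (f := fun x : P3 => x.2.2) (by fun_prop) measurable_const))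

theorem vb_K_lt_top (h : Adm E) (M : ℝ) : nu E (vbK M) < ⊤ := by
  haveI := h.nu_locFin
  refine Bornology.IsBounded.measure_lt_top
    ((Metric.isBounded_closedBall (x := (0 : P3)) (r := 1 + |M|)).subset fun x hx => ?_)
  obtain ⟨⟨⟨h1, h2⟩, h3, h4⟩, h5, h6⟩ := hx
  have h7 := le_abs_self M
  have h8 := abs_nonneg M
  rw [mem_closedBall_zero_iff, Prod.norm_def, Prod.norm_def, Real.norm_eq_abs, Real.norm_eq_abs,
    Real.norm_eq_abs]
  simp only at h1 h2 h3 h4
  refine max_le (abs_le.2 ⟨by linarith, by linarith⟩) (max_le (abs_le.2 ⟨by linarith, by linarith⟩)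
    (abs_le.2 ⟨by linarith, by linarith⟩))

theorem vb_integrableOn (h : Adm E) {F : P3 → ℝ} (hF : Measurable F) {C M : ℝ}
    (hC : ∀ᵐ x ∂(nu E), |F x| ≤ C) {s : Set P3} (hs : s ⊆ vbK M) : IntegrableOn F s (nu E) := by
  refine IntegrableOn.mono_set (t := vbK M) ?_ hs
  exact Measure.integrableOn_of_bounded (M := C) (vb_K_lt_top h M).ne hF.aestronglyMeasurable
    (ae_restrict_of_ae hC)

theorem vb_wt_abs (h : Adm E) : ∀ᵐ x ∂(nu E), |wt E x| ≤ 1 := by
  filter_upwards [h.wt_bounds] with x hx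
  exact abs_le.2 ⟨by linarith [hx.1], hx.2⟩

theorem vb_split {μ : Measure P3} {f : P3 → ℝ} (h0 : ∀ x, 0 ≤ f x) {A B0 B1 C0 C1 S : Set P3}
    (mA : MeasurableSet A) (mB0 : MeasurableSet B0) (mB1 : MeasurableSet B1)
    (mC0 : MeasurableSet C0) (mC1 : MeasurableSet C1) (mS : MeasurableSet S)
    (iA : IntegrableOn f A μ) (iB0 : IntegrableOn f B0 μ) (iB1 : IntegrableOn f B1 μ)
    (iS : IntegrableOn f S μ) (hA : ∀ x ∈ A, x ∈ S ∨ x ∈ B0 ∨ x ∈ B1)
    (hC0 : ∀ x ∈ C0, x ∈ S ∧ x ∉ A ∧ x ∉ C1) (hC1 : ∀ x ∈ C1, x ∈ S ∧ x ∉ A) :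
    (∫ x in A, f x ∂μ) + (∫ x in C0, f x ∂μ) + ∫ x in C1, f x ∂μ ≤
      (∫ x in S, f x ∂μ) + (∫ x in B0, f x ∂μ) + ∫ x in B1, f x ∂μ := by
  have iC0 : IntegrableOn f C0 μ := iS.mono_set fun x hx => (hC0 x hx).1
  have iC1 : IntegrableOn f C1 μ := iS.mono_set fun x hx => (hC1 x hx).1
  have jA := iA.integrable_indicator mA
  have jB0 := iB0.integrable_indicator mB0
  have jB1 := iB1.integrable_indicator mB1
  have jC0 := iC0.integrable_indicator mC0
  have jC1 := iC1.integrable_indicator mC1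
  have jS := iS.integrable_indicator mS
  rw [← integral_indicator mA, ← integral_indicator mB0, ← integral_indicator mB1,
    ← integral_indicator mC0, ← integral_indicator mC1, ← integral_indicator mS,
    ← integral_add' jA jC0, ← integral_add' jS jB0, ← integral_add' (jA.add jC0) jC1,
    ← integral_add' (jS.add jB0) jB1]
  refine integral_mono ((jA.add jC0).add jC1) ((jS.add jB0).add jB1) fun x => ?_
  have p0 := indicator_nonneg (s := B0) (fun x _ => h0 x) x
  have p1 := indicator_nonneg (s := B1) (fun x _ => h0 x) x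
  have pS := indicator_nonneg (s := S) (fun x _ => h0 x) x
  simp only [Pi.add_apply]
  by_cases xA : x ∈ A
  · rw [indicator_of_mem xA, indicator_of_notMem (fun h => (hC0 x h).2.1 xA),
      indicator_of_notMem (fun h => (hC1 x h).2 xA)]
    rcases hA x xA with h | h | h
    · rw [indicator_of_mem h]; linarith
    · rw [indicator_of_mem h]; linarith
    · rw [indicator_of_mem h]; linarith
  · rw [indicator_of_notMem xA]
    by_cases x0 : x ∈ C0
    · rw [indicator_of_mem x0, indicator_of_notMem (hC0 x x0).2.2, indicator_of_mem (hC0 x x0).1]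
      linarith
    · rw [indicator_of_notMem x0]
      by_cases x1 : x ∈ C1
      · rw [indicator_of_mem x1, indicator_of_mem (hC1 x x1).1]
        linarith
      · rw [indicator_of_notMem x1]
        linarith

theorem vb_lip {φ : P3 → ℝ} (hφ : Differentiable ℝ φ) {L : ℝ} (hL : ∀ x, ‖fderiv ℝ φ x‖ ≤ L)
    (x : P3) (t : ℝ) : |φ x - φ (x.1, x.2.1, t)| ≤ L * |x.2.2 - t| := by
  have h1 := convex_univ.norm_image_sub_le_of_norm_fderiv_le (𝕜 := ℝ) (f := φ)
    (fun y _ => hφ y) (fun y _ => hL y) (mem_univ ((x.1, x.2.1, t) : P3)) (mem_univ x)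
  have e : x - ((x.1, x.2.1, t) : P3) = (0, 0, x.2.2 - t) := by
    ext <;> simp
  rw [e, Real.norm_eq_abs] at h1
  simpa [Prod.norm_def] using h1

/-- area of the part of the surface that is mapped into the cube -/
theorem vb_area (h : Adm E) {φ : P3 → ℝ} (hφ : Differentiable ℝ φ) {L M κ ε : ℝ}
    (hL : ∀ x, ‖fderiv ℝ φ x‖ ≤ L) (hM : ∀ x, |φ x| ≤ M) (hκ : 0 < κ) (hκ1 : κ ≤ 1) (hε : 0 < ε)
    (hε1 : ε ≤ 1) (h1 : ε * M ≤ 1 / 4) (h2 : L * (ε * M) ≤ κ) :
    (∫ x in vbA φ ε, wt E x ∂(nu E)) +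
      (∫ x in {x ∈ Q | x.2.2 ≤ ε * max (-φ (x.1, x.2.1, 0) - κ) 0}, wt E x ∂(nu E)) +
      (∫ x in {x ∈ Q | 1 - ε * max (φ (x.1, x.2.1, 1) - κ) 0 ≤ x.2.2}, wt E x ∂(nu E)) ≤
      area E + ε * arcO (slice E 0) (fun p => max (φ (p.1, p.2, 0)) 0 + κ) +
        ε * arc (slice E 1) (fun p => max (-φ (p.1, p.2, 1)) 0 + κ) := by
  have hc := hφ.continuous
  have hL0 : 0 ≤ L := (norm_nonneg _).trans (hL 0)
  have hM0 : 0 ≤ M := (abs_nonneg _).trans (hM 0)
  have hb : ∀ x, -M ≤ φ x ∧ φ x ≤ M := fun x => abs_le.1 (hM x)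
  have hεb : ∀ x, -(ε * M) ≤ ε * φ x ∧ ε * φ x ≤ ε * M := fun x =>
    ⟨by nlinarith [(hb x).1], by nlinarith [(hb x).2]⟩
  have hnear : ∀ (x : P3) (t : ℝ), |x.2.2 - t| ≤ ε * M → |φ x - φ (x.1, x.2.1, t)| ≤ κ :=
    fun x t ht => (vb_lip hφ hL x t).trans ((mul_le_mul_of_nonneg_left ht hL0).trans h2)
  rw [← h.enter0 (ψ := fun p => max (φ (p.1, p.2, 0)) 0 + κ) (by fun_prop)
      (fun p => by positivity) hε,
    ← h.enter1 (ψ := fun p => max (-φ (p.1, p.2, 1)) 0 + κ) (by fun_prop)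
      (fun p => by positivity) hε]
  have iw : ∀ s, s ⊆ vbK (M + 1) → IntegrableOn (wt E) s (nu E) := fun s hs =>
    vb_integrableOn h (measurable_wt E) (vb_wt_abs h) hs
  have hmax : ∀ a : ℝ, a ≤ M → ε * (max a 0 + κ) ≤ M + 1 := by
    intro a ha
    have h3 : max a 0 ≤ M := max_le ha hM0
    have h4 : 0 ≤ max a 0 := le_max_right _ _
    nlinarith
  have m3 : Measurable fun x : P3 => x.2.2 := by fun_prop
  have hm : ∀ g : P3 → ℝ, Continuous g → Measurable g := fun g hg => hg.measurable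
  refine vb_split (fun x => nrm_nonneg _) (vb_meas_A hc ε)
    (vb_meas_sq.inter ((measurableSet_lt (hm _ (by fun_prop)) m3).inter
      (measurableSet_le m3 measurable_const)))
    (vb_meas_sq.inter ((measurableSet_le measurable_const m3).inter
      (measurableSet_lt m3 (hm _ (by fun_prop)))))
    (measurableSet_Q.inter (measurableSet_le m3 (hm _ (by fun_prop))))
    (measurableSet_Q.inter (measurableSet_le (hm _ (by fun_prop)) m3)) measurableSet_Q
    (iw _ fun x hx => ?_) (iw _ fun x hx => ?_) (iw _ fun x hx => ?_) (iw _ fun x hx => ?_)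
    (fun x hx => ?_) (fun x hx => ?_) (fun x hx => ?_)
  · obtain ⟨a, b, c⟩ := vb_mem_A.1 hx
    exact ⟨a, by linarith [(hεb x).2], by linarith [(hεb x).1]⟩
  · obtain ⟨a, b, c⟩ := hx
    have := hmax _ (hb (x.1, x.2.1, 0)).2
    exact ⟨a, by simp only at b; linarith, by linarith⟩
  · obtain ⟨a, b, c⟩ := hx
    have := hmax (-φ (x.1, x.2.1, 1)) (by linarith [(hb (x.1, x.2.1, 1)).1])
    exact ⟨a, by linarith, by simp only at c; linarith⟩
  · obtain ⟨a, b, c⟩ := vb_mem_Q.1 hx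
    exact ⟨a, by linarith, by linarith⟩
  · obtain ⟨a, b, c⟩ := vb_mem_A.1 hx
    by_cases h3 : x.2.2 ≤ 0
    · refine Or.inr (Or.inl ⟨a, ?_, h3⟩)
      have h4 := abs_le.1 (hnear x 0 (abs_le.2 ⟨by linarith [(hεb x).2], by nlinarith⟩))
      have h5 : φ x ≤ max (φ (x.1, x.2.1, 0)) 0 + κ := by
        linarith [le_max_left (φ (x.1, x.2.1, 0)) 0, h4.2]
      have h6 := mul_le_mul_of_nonneg_left h5 hε.le
      simp only
      linarith
    · by_cases h7 : 1 ≤ x.2.2
      · refine Or.inr (Or.inr ⟨a, h7, ?_⟩)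
        have h4 := abs_le.1 (hnear x 1 (abs_le.2 ⟨by nlinarith, by linarith [(hεb x).1]⟩))
        have h5 : -φ x ≤ max (-φ (x.1, x.2.1, 1)) 0 + κ := by
          linarith [le_max_left (-φ (x.1, x.2.1, 1)) 0, h4.1]
        have h6 := mul_le_mul_of_nonneg_left h5 hε.le
        simp only
        linarith
      · exact Or.inl (vb_mem_Q.2 ⟨a, not_le.1 h3, not_le.1 h7⟩)
  · obtain ⟨hQ, hx⟩ := hx
    obtain ⟨a, b, c⟩ := vb_mem_Q.1 hQ
    have h3 : max (-φ (x.1, x.2.1, 0) - κ) 0 ≤ M :=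
      max_le (by linarith [(hb (x.1, x.2.1, 0)).1]) hM0
    have h4 := mul_le_mul_of_nonneg_left h3 hε.le
    refine ⟨hQ, fun hA => ?_, fun hC => ?_⟩
    · obtain ⟨-, b', -⟩ := vb_mem_A.1 hA
      have h5 := abs_le.1 (hnear x 0 (abs_le.2 ⟨by linarith, by linarith⟩))
      rcases le_total (-φ (x.1, x.2.1, 0) - κ) 0 with h6 | h6
      · rw [max_eq_right h6] at hx
        linarith
      · rw [max_eq_left h6] at hx
        have h7 : φ x ≤ φ (x.1, x.2.1, 0) + κ := by linarith [h5.2]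
        have h8 := mul_le_mul_of_nonneg_left h7 hε.le
        linarith
    · have h5 : max (φ (x.1, x.2.1, 1) - κ) 0 ≤ M :=
        max_le (by linarith [(hb (x.1, x.2.1, 1)).2]) hM0
      have h6 := mul_le_mul_of_nonneg_left h5 hε.le
      have h7 := hC.2
      linarith
  · obtain ⟨hQ, hx⟩ := hx
    obtain ⟨a, b, c⟩ := vb_mem_Q.1 hQ
    have h3 : max (φ (x.1, x.2.1, 1) - κ) 0 ≤ M :=
      max_le (by linarith [(hb (x.1, x.2.1, 1)).2]) hM0
    have h4 := mul_le_mul_of_nonneg_left h3 hε.le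
    refine ⟨hQ, fun hA => ?_⟩
    obtain ⟨-, -, c'⟩ := vb_mem_A.1 hA
    have h5 := abs_le.1 (hnear x 1 (abs_le.2 ⟨by linarith, by linarith⟩))
    rcases le_total (φ (x.1, x.2.1, 1) - κ) 0 with h6 | h6
    · rw [max_eq_right h6] at hx
      linarith
    · rw [max_eq_left h6] at hx
      have h7 : φ (x.1, x.2.1, 1) - κ ≤ φ x := by linarith [h5.1]
      have h8 := mul_le_mul_of_nonneg_left h7 hε.le
      linarith

/-- integrals of bounded functions over the moving domain converge -/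
theorem vb_tendsto (h : Adm E) {φ : P3 → ℝ} (hφ : Continuous φ) {M : ℝ} (hM : ∀ x, |φ x| ≤ M)
    {F : P3 → ℝ} (hF : Measurable F) {C : ℝ} (hC : ∀ᵐ x ∂(nu E), |F x| ≤ C) :
    Tendsto (fun ε : ℝ => ∫ x in vbA φ ε, F x ∂(nu E)) (𝓝[>] 0) (𝓝 (∫ x in Q, F x ∂(nu E))) := by
  have hM0 : 0 ≤ M := (abs_nonneg _).trans (hM 0)
  have e : ∀ ε, ∫ x in vbA φ ε, F x ∂(nu E) = ∫ x, (vbA φ ε).indicator F x ∂(nu E) := fun ε =>
    (integral_indicator (vb_meas_A hφ ε)).symm
  simp only [e]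
  rw [← integral_indicator measurableSet_Q]
  refine tendsto_integral_filter_of_dominated_convergence ((vbK M).indicator fun _ => C)
    (Eventually.of_forall fun ε => (hF.indicator (vb_meas_A hφ ε)).aestronglyMeasurable) ?_
    ((integrableOn_const (vb_K_lt_top h M).ne).integrable_indicator (vb_meas_K M)) ?_
  · filter_upwards [Ioo_mem_nhdsGT (show (0 : ℝ) < 1 by norm_num)] with ε hε
    filter_upwards [hC] with x hx
    by_cases hA : x ∈ vbA φ ε
    · obtain ⟨a, b, c⟩ := vb_mem_A.1 hA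
      have hb := abs_le.1 (hM x)
      have hK : x ∈ vbK M := ⟨a, by nlinarith [hε.1, hε.2], by nlinarith [hε.1, hε.2]⟩
      rw [indicator_of_mem hA, indicator_of_mem hK]
      exact hx
    · rw [indicator_of_notMem hA, norm_zero]
      exact indicator_nonneg (fun _ _ => (abs_nonneg _).trans hx) x
  · filter_upwards [h.ae_ne_zero, h.ae_ne_one] with x h0 h1
    have ht : Tendsto (fun ε : ℝ => x.2.2 + ε * φ x) (𝓝[>] 0) (𝓝 x.2.2) := by
      have : Tendsto (fun ε : ℝ => x.2.2 + ε * φ x) (𝓝 0) (𝓝 (x.2.2 + 0 * φ x)) :=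
        (continuous_const.add (continuous_id.mul continuous_const)).tendsto 0
      rw [zero_mul, add_zero] at this
      exact this.mono_left nhdsWithin_le_nhds
    refine tendsto_const_nhds.congr' ?_
    by_cases hQ : x ∈ Q
    · obtain ⟨a, b, c⟩ := vb_mem_Q.1 hQ
      filter_upwards [ht.eventually (Ioo_mem_nhds b c)] with ε hε
      rw [indicator_of_mem hQ, indicator_of_mem (vb_mem_A.2 ⟨a, hε.1, hε.2⟩)]
    · by_cases a : ((x.1, x.2.1) : P2) ∈ sq
      · rcases lt_or_gt_of_ne h0.2.2 with b | b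
        · filter_upwards [ht.eventually (Iio_mem_nhds b)] with ε hε
          rw [indicator_of_notMem hQ, indicator_of_notMem fun hA =>
            absurd (vb_mem_A.1 hA).2.1 (not_lt.2 (le_of_lt hε))]
        · rcases lt_or_gt_of_ne (h1 a.1.1 a.2.1 b).2.2 with c | c
          · exact absurd (vb_mem_Q.2 ⟨a, b, c⟩) hQ
          · filter_upwards [ht.eventually (Ioi_mem_nhds c)] with ε hε
            rw [indicator_of_notMem hQ, indicator_of_notMem fun hA =>
              absurd (vb_mem_A.1 hA).2.2 (not_lt.2 (le_of_lt hε))]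
      · refine Eventually.of_forall fun ε => ?_
        show Q.indicator F x = (vbA φ ε).indicator F x
        rw [indicator_of_notMem hQ, indicator_of_notMem fun hA => a (vb_mem_A.1 hA).1]

end Vale.Agent.P232
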