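import Vale.Agent.P232.Piola

open MeasureTheory Set Filter Topology
open scoped ENNReal

noncomputable section
namespace Vale.Agent.P232

/-! Task: interior first variation.  For small `ε > 0`, `Φ⁻¹ Q = Q`; `volQ (Φ E) = ∫_{E ∩ Q} det DΦ`,
`∫_{E∩Q} dv X = wInt E X` by `div_thm`.  Insert in `Stat`, divide by `ε`, let `ε → 0`, then `δ → 0`. -/

/-- passing to the limit in `Stat` along a one-parameter family of competitors -/
theorem Stat.limit {E : Set P3} {lo hi : ℝ} (hs : Stat E lo hi) {F : ℝ → Set P3} {g : ℝ → ℝ}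
    {w z : ℝ} (hF : ∀ᶠ ε in 𝓝[>] (0 : ℝ), MeasurableSet (F ε) ∧ RelLe (F ε) (area E + ε * g ε))
    (hw : Tendsto (fun ε : ℝ => (volQ (F ε) - volQ E) / ε) (𝓝[>] 0) (𝓝 w))
    (hg : Tendsto g (𝓝[>] 0) (𝓝 z)) : min (lo * w) (hi * w) ≤ z := by
  have hid : Tendsto (fun ε : ℝ => ε) (𝓝[>] 0) (𝓝 0) := tendsto_nhdsWithin_of_tendsto_nhds tendsto_id
  have key : ∀ δ : ℝ, 0 < δ → min (lo * w) (hi * w) - δ * |w| ≤ z := by
    intro δ hδ
    obtain ⟨r, hr, hst⟩ := hs δ hδ
    have h1 : Tendsto (fun ε : ℝ => |ε * ((volQ (F ε) - volQ E) / ε)|) (𝓝[>] 0) (𝓝 |0 * w|) :=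
      (hid.mul hw).abs
    rw [zero_mul, abs_zero] at h1
    have h2 := h1.eventually (gt_mem_nhds hr)
    have h3 : Tendsto (fun ε : ℝ => min (lo * ((volQ (F ε) - volQ E) / ε))
        (hi * ((volQ (F ε) - volQ E) / ε)) - δ * |(volQ (F ε) - volQ E) / ε|) (𝓝[>] 0)
        (𝓝 (min (lo * w) (hi * w) - δ * |w|)) :=
      ((hw.const_mul lo).min (hw.const_mul hi)).sub (hw.abs.const_mul δ)
    refine le_of_tendsto_of_tendsto h3 hg ?_
    filter_upwards [hF, h2, self_mem_nhdsWithin] with ε h4 h5 h6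
    have hε : 0 < ε := h6
    set q := (volQ (F ε) - volQ E) / ε with hq
    have e : volQ (F ε) - volQ E = ε * q := by rw [hq]; field_simp
    have h7 := hst (F ε) _ h4.1 (by rw [e]; exact h5) h4.2
    rw [e, abs_mul, abs_of_pos hε] at h7
    have h8 : min (lo * (ε * q)) (hi * (ε * q)) = ε * min (lo * q) (hi * q) := by
      rw [mul_min_of_nonneg _ _ hε.le]
      congr 1 <;> ring
    rw [h8] at h7
    have h9 : ε * (min (lo * q) (hi * q) - δ * |q|) ≤ ε * g ε := by linarith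
    exact le_of_mul_le_mul_left h9 hε
  have h3 : Tendsto (fun δ : ℝ => min (lo * w) (hi * w) - δ * |w|) (𝓝[>] 0)
      (𝓝 (min (lo * w) (hi * w) - 0 * |w|)) := (hid.mul_const _).const_sub _
  rw [zero_mul, sub_zero] at h3
  refine le_of_tendsto h3 ?_
  filter_upwards [self_mem_nhdsWithin] with δ hδ using key δ hδ

theorem varInt_bound {X : P3 → P3} (hX : ContDiff ℝ 2 X) (hc : HasCompactSupport X) :
    ∃ L : ℝ, 0 < L ∧ ∀ x, ‖fderiv ℝ X x‖ ≤ L := by
  obtain ⟨C, hC⟩ := (hX.continuous_fderiv (by norm_num)).bounded_above_of_compact_support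
    (hc.fderiv ℝ)
  exact ⟨|C| + 1, by positivity, fun x => (hC x).trans (by linarith [le_abs_self C])⟩

theorem varInt_inj {X : P3 → P3} (hX : ContDiff ℝ 2 X) {ε L : ℝ} (hL : ∀ x, ‖fderiv ℝ X x‖ ≤ L)
    (hε : |ε| * L ≤ 1 / 10) : Function.Injective (fun x => x + ε • X x) := by
  intro x y hxy
  have hd : Differentiable ℝ X := hX.differentiable (by norm_num)
  have h1 : ‖X y - X x‖ ≤ L * ‖y - x‖ :=
    convex_univ.norm_image_sub_le_of_norm_fderiv_le (fun z _ => hd z) (fun z _ => hL z)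
      (mem_univ x) (mem_univ y)
  have h2 : y - x = -(ε • (X y - X x)) := by
    have h3 : x + ε • X x = y + ε • X y := hxy
    rw [smul_sub, neg_sub, sub_eq_sub_iff_add_eq_add, ← h3, add_comm]
  have h4 : ‖y - x‖ ≤ |ε| * (L * ‖y - x‖) := by
    calc ‖y - x‖ = |ε| * ‖X y - X x‖ := by
          conv_lhs => rw [h2, norm_neg, norm_smul, Real.norm_eq_abs]
      _ ≤ _ := mul_le_mul_of_nonneg_left h1 (abs_nonneg _)
  have h5 : ‖y - x‖ ≤ 0 := by nlinarith [norm_nonneg (y - x)]
  exact (sub_eq_zero.1 (norm_le_zero_iff.1 h5)).symm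

theorem varInt_mem {X : P3 → P3} (hQ : tsupport X ⊆ Q) {ε : ℝ}
    (hinj : Function.Injective (fun x => x + ε • X x)) (x : P3) : x + ε • X x ∈ Q ↔ x ∈ Q := by
  have h0 : ∀ y, y ∉ Q → y + ε • X y = y := by
    intro y hy
    rw [image_eq_zero_of_notMem_tsupport fun h => hy (hQ h), smul_zero, add_zero]
  constructor
  · intro h1
    by_contra h2
    rw [h0 x h2] at h1
    exact h2 h1
  · intro h1
    by_contra h2
    have h3 : x + ε • X x = x := hinj (h0 _ h2)
    rw [h3] at h2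
    exact h2 h1

theorem varInt_cont_dv {X : P3 → P3} (hX : ContDiff ℝ 2 X) : Continuous (dv X) := by
  have h := hX.continuous_fderiv (by norm_num)
  unfold dv trc
  fun_prop

theorem varInt_div {E : Set P3} (h : Adm E) {X : P3 → P3} (hX : ContDiff ℝ 2 X)
    (hc : HasCompactSupport X) (hQ : tsupport X ⊆ Q) : ∫ x in E ∩ Q, dv X x = wInt E X := by
  have h1 : ∫ x in E ∩ Q, dv X x = ∫ x in E, dv X x := by
    symm
    refine setIntegral_eq_of_subset_of_forall_sdiff_eq_zero h.measurableSet inter_subset_left ?_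
    intro x hx
    have h2 : x ∉ tsupport X := fun h3 => hx.2 ⟨hx.1, hQ h3⟩
    have h3 : fderiv ℝ X x = 0 := fderiv_of_notMem_tsupport ℝ h2
    simp [dv, trc, h3]
  rw [h1, h.div_thm (hX.of_le (by norm_num)) hc, wInt]
  symm
  refine setIntegral_eq_integral_of_forall_compl_eq_zero fun x hx => ?_
  rw [image_eq_zero_of_notMem_tsupport fun h => hx (hQ h)]
  simp [dot]

theorem varInt_haar : (volume : Measure P3).IsAddHaarMeasure := by
  have : (volume : Measure P2).IsAddHaarMeasure := Measure.prod.instIsAddHaarMeasure _ _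
  exact Measure.prod.instIsAddHaarMeasure _ _

theorem varInt_vol {E : Set P3} (h : Adm E) {X : P3 → P3} (hX : ContDiff ℝ 2 X)
    (hc : HasCompactSupport X) (hQ : tsupport X ⊆ Q) {ε L : ℝ} (hL : ∀ x, ‖fderiv ℝ X x‖ ≤ L)
    (hε : |ε| * L ≤ 1 / 10) :
    |volQ ((fun x => x + ε • X x) '' E) - volQ E - ε * wInt E X| ≤ 20 * L ^ 2 * ε ^ 2 := by
  have hinj := varInt_inj hX hL hε
  have hd : Differentiable ℝ X := hX.differentiable (by norm_num)
  have hm : MeasurableSet (E ∩ Q) := h.measurableSet.inter measurableSet_Q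
  have hfin : volume (E ∩ Q) < ⊤ :=
    (measure_mono inter_subset_right).trans_lt (by rw [volume_Q]; exact ENNReal.one_lt_top)
  have e1 : (fun x => x + ε • X x) '' E ∩ Q = (fun x => x + ε • X x) '' (E ∩ Q) := by
    ext y
    constructor
    · rintro ⟨⟨x, hx, rfl⟩, hy⟩
      exact ⟨x, ⟨hx, (varInt_mem hQ hinj x).1 hy⟩, rfl⟩
    · rintro ⟨x, hx, rfl⟩
      exact ⟨⟨x, hx.1, rfl⟩, (varInt_mem hQ hinj x).2 hx.2⟩
  have hder : ∀ x ∈ E ∩ Q, HasFDerivWithinAt (fun x => x + ε • X x)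
      (ContinuousLinearMap.id ℝ P3 + ε • fderiv ℝ X x) (E ∩ Q) x := fun x _ =>
    ((hasFDerivAt_id x).add ((hd x).hasFDerivAt.const_smul ε)).hasFDerivWithinAt
  have := varInt_haar
  have e2 := integral_image_eq_integral_abs_det_fderiv_smul volume hm hder hinj.injOn
    (fun _ => (1 : ℝ))
  have e3 : volQ ((fun x => x + ε • X x) '' E) =
      ∫ x in E ∩ Q, (ContinuousLinearMap.id ℝ P3 + ε • fderiv ℝ X x).det := by
    rw [volQ, e1]
    simp only [integral_const, smul_eq_mul, mul_one, measureReal_restrict_apply_univ] at e2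
    rw [← measureReal_def, e2]
    refine integral_congr_ae (Eventually.of_forall fun x => ?_)
    exact abs_of_pos (det_id_add _ (hL x) hε).1
  have e4 : volQ E = ∫ _ in E ∩ Q, (1 : ℝ) := by
    simp only [integral_const, smul_eq_mul, mul_one, measureReal_restrict_apply_univ]
    rfl
  have hQc : Q ⊆ Metric.closedBall (0 : P3) 1 := by
    rintro ⟨a, b, c⟩ ⟨ha, hb, hc⟩
    simp only [Metric.mem_closedBall, dist_zero_right, Prod.norm_def, Real.norm_eq_abs, max_le_iff]
    exact ⟨abs_le.2 ⟨by linarith [ha.1], ha.2.le⟩, abs_le.2 ⟨by linarith [hb.1], hb.2.le⟩,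
      abs_le.2 ⟨by linarith [hc.1], hc.2.le⟩⟩
  have hint : ∀ f : P3 → ℝ, Continuous f → IntegrableOn f (E ∩ Q) := fun f hf =>
    (hf.continuousOn.integrableOn_compact (isCompact_closedBall 0 1)).mono_set
      (inter_subset_right.trans hQc)
  have hcf := hX.continuous_fderiv (by norm_num)
  have i1 := hint (fun x => (ContinuousLinearMap.id ℝ P3 + ε • fderiv ℝ X x).det)
    (ContinuousLinearMap.continuous_det.comp (continuous_const.add (hcf.const_smul ε)))
  have i2 := hint (fun _ => (1 : ℝ)) continuous_const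
  have i3 := hint (fun x => ε * dv X x) ((varInt_cont_dv hX).const_mul ε)
  have i4 : IntegrableOn (fun x => (ContinuousLinearMap.id ℝ P3 + ε • fderiv ℝ X x).det - 1)
      (E ∩ Q) := i1.sub i2
  rw [e3, e4, ← varInt_div h hX hc hQ, ← integral_const_mul, ← integral_sub i1 i2,
    ← integral_sub i4 i3]
  have h5 := norm_setIntegral_le_of_norm_le_const (μ := volume) (s := E ∩ Q)
    (f := fun x => (ContinuousLinearMap.id ℝ P3 + ε • fderiv ℝ X x).det - 1 - ε * dv X x)
    (C := 20 * L ^ 2 * ε ^ 2) hfin fun x _ => (det_id_add _ (hL x) hε).2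
  refine h5.trans ?_
  have h6 : volume.real (E ∩ Q) ≤ 1 := volQ_le_one E
  exact mul_le_of_le_one_right (by positivity) h6

theorem varInt_area {E : Set P3} (h : Adm E) {X : P3 → P3} (hX : ContDiff ℝ 2 X)
    {ε L : ℝ} (hL : ∀ x, ‖fderiv ℝ X x‖ ≤ L) (hε : |ε| * L ≤ 1 / 10) :
    ∫ x in Q, nrm (cofv (ContinuousLinearMap.id ℝ P3 + ε • fderiv ℝ X x) (rho E x)) ∂(nu E) ≤
      area E + ε * (zInt E X + 200 * L ^ 2 * ε * (nu E).real Q) := by
  have hcf := hX.continuous_fderiv (by norm_num)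
  have i1 : IntegrableOn (wt E) Q (nu E) := h.integrableOn_Q (measurable_wt E) (M := 1) (by
    filter_upwards [h.wt_bounds] with x hx _
    exact abs_le.2 ⟨by linarith [hx.1], hx.2⟩)
  have i2 : IntegrableOn (fun x => dA (fderiv ℝ X x) (rho E x)) Q (nu E) :=
    h.integrableOn_Q (measurable_dA.comp (hcf.measurable.prodMk (measurable_rho E)))
      (M := 10 * L) (by
        filter_upwards [h.rho_sum] with x hx _
        exact abs_dA_le _ _ (hL x) (rho_nonneg E x).1 (rho_nonneg E x).2.1 (rho_nonneg E x).2.2 hx)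
  have i3 : IntegrableOn (fun _ : P3 => 200 * L ^ 2 * ε ^ 2) Q (nu E) :=
    integrableOn_const h.nu_Q_lt_top.ne
  have h1 : ∫ x in Q, nrm (cofv (ContinuousLinearMap.id ℝ P3 + ε • fderiv ℝ X x) (rho E x)) ∂(nu E)
      ≤ ∫ x in Q, (wt E x + ε * dA (fderiv ℝ X x) (rho E x) + 200 * L ^ 2 * ε ^ 2) ∂(nu E) := by
    refine integral_mono_of_nonneg (Eventually.of_forall fun x => nrm_nonneg _)
      ((i1.add (i2.const_mul ε)).add i3) ?_
    filter_upwards [ae_restrict_of_ae h.rho_sum] with x hx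
    exact nrm_cofv_le _ _ (hL x) hε (rho_nonneg E x).1 (rho_nonneg E x).2.1
      (rho_nonneg E x).2.2 hx
  have i4 : IntegrableOn (fun x => wt E x + ε * dA (fderiv ℝ X x) (rho E x)) Q (nu E) :=
    i1.add (i2.const_mul ε)
  rw [integral_add i4 i3, integral_add i1 (i2.const_mul ε),
    integral_const_mul, integral_const, measureReal_restrict_apply_univ, smul_eq_mul] at h1
  refine h1.trans (le_of_eq ?_)
  unfold area zInt
  ring

theorem var_int {E : Set P3} (h : Adm E) {lo hi : ℝ} (hs : Stat E lo hi) {X : P3 → P3}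
    (hX : ContDiff ℝ 2 X) (hc : HasCompactSupport X) (hQ : tsupport X ⊆ Q) :
    min (lo * wInt E X) (hi * wInt E X) ≤ zInt E X := by
  obtain ⟨L, hL0, hL⟩ := varInt_bound hX hc
  have hid : Tendsto (fun ε : ℝ => ε) (𝓝[>] 0) (𝓝 0) := tendsto_nhdsWithin_of_tendsto_nhds tendsto_id
  have hsm : ∀ᶠ ε in 𝓝[>] (0 : ℝ), |ε| * L ≤ 1 / 10 := by
    have h1 : Tendsto (fun ε : ℝ => |ε| * L) (𝓝[>] 0) (𝓝 (|0| * L)) := hid.abs.mul_const L
    rw [abs_zero, zero_mul] at h1
    exact (h1.eventually (gt_mem_nhds (by norm_num : (0 : ℝ) < 1 / 10))).mono fun _ h2 => h2.le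
  refine hs.limit (F := fun ε => (fun x => x + ε • X x) '' E)
    (g := fun ε => zInt E X + 200 * L ^ 2 * ε * (nu E).real Q) ?_ ?_ ?_
  · filter_upwards [hsm] with ε hε
    obtain ⟨h1, h2⟩ := piola h hX hc hL hε
    have e : {x | x + ε • X x ∈ Q} = Q := Set.ext (varInt_mem hQ (varInt_inj hX hL hε))
    rw [e] at h2
    exact ⟨h1, fun Z a b c d => (h2 Z a b c d).trans (varInt_area h hX hL hε)⟩
  · rw [tendsto_iff_norm_sub_tendsto_zero]
    have h1 : Tendsto (fun ε : ℝ => 20 * L ^ 2 * ε) (𝓝[>] 0) (𝓝 (20 * L ^ 2 * 0)) :=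
      hid.const_mul _
    rw [mul_zero] at h1
    refine squeeze_zero' (Eventually.of_forall fun _ => norm_nonneg _) ?_ h1
    filter_upwards [hsm, self_mem_nhdsWithin] with ε hε h2
    have h3 : 0 < ε := h2
    have h4 := varInt_vol h hX hc hQ hL hε
    have e : (volQ ((fun x => x + ε • X x) '' E) - volQ E) / ε - wInt E X =
        (volQ ((fun x => x + ε • X x) '' E) - volQ E - ε * wInt E X) / ε := by
      field_simp
    rw [e, Real.norm_eq_abs, abs_div, abs_of_pos h3, div_le_iff₀ h3]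
    refine h4.trans (le_of_eq ?_)
    ring
  · have h1 : Tendsto (fun ε : ℝ => zInt E X + 200 * L ^ 2 * ε * (nu E).real Q) (𝓝[>] 0)
        (𝓝 (zInt E X + 200 * L ^ 2 * 0 * (nu E).real Q)) :=
      ((hid.const_mul _).mul_const _).const_add _
    simpa using h1

end Vale.Agent.P232
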